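import Vale.Agent.P274.Defs

/-! Polynomial Noether normalisation data. -/

open Metric Set Filter Topology MvPolynomial

namespace Vale.Agent.P274

/-- The zero set of a set of polynomials. -/
def zeros {N : ℕ} (S : Set (MvPolynomial (Fin N) ℂ)) : Set (E N) := {z | ∀ f ∈ S, eval z f = 0}

/-- The purely algebraic part of Noether normalisation of a prime ideal `P`:
`πp` are the parameters, `u` a primitive element with minimal polynomial `p`. -/
structure PA (N n : ℕ) (P : Ideal (MvPolynomial (Fin N) ℂ)) where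
  πp : Fin n → MvPolynomial (Fin N) ℂ
  inj : ∀ g : MvPolynomial (Fin n) ℂ, aeval πp g ∈ P → g = 0
  int : ∀ f, ∃ m : Polynomial (MvPolynomial (Fin n) ℂ), m.Monic ∧
    m.eval₂ (aeval πp : MvPolynomial (Fin n) ℂ →ₐ[ℂ] _).toRingHom f ∈ P
  /-- the minimal equation of any element, with lying over -/
  minp : ∀ f, ∃ m : Polynomial (MvPolynomial (Fin n) ℂ), m.Monic ∧
    m.eval₂ (aeval πp : MvPolynomial (Fin n) ℂ →ₐ[ℂ] _).toRingHom f ∈ P ∧
    (f ∉ P → m.coeff 0 ≠ 0) ∧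
    ∀ (y : E n) (t : ℂ), m.eval₂ (eval y) t = 0 →
      ∃ z ∈ zeros (P : Set _), (∀ l, eval z (πp l) = y l) ∧ eval z f = t
  u : MvPolynomial (Fin N) ℂ
  p : Polynomial (MvPolynomial (Fin n) ℂ)
  p_u : p.eval₂ (aeval πp : MvPolynomial (Fin n) ℂ →ₐ[ℂ] _).toRingHom u ∈ P
  p_lift : ∀ (y : E n) (t : ℂ), p.eval₂ (eval y) t = 0 →
    ∃ z ∈ zeros (P : Set _), (∀ l, eval z (πp l) = y l) ∧ eval z u = t
  Δp : MvPolynomial (Fin n) ℂ
  Δp_ne : Δp ≠ 0
  a : Polynomial (MvPolynomial (Fin n) ℂ)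
  b : Polynomial (MvPolynomial (Fin n) ℂ)
  bezout : a * p + b * p.derivative = Polynomial.C Δp
  c : Fin N → Polynomial (MvPolynomial (Fin n) ℂ)
  coord : ∀ m, aeval πp Δp * X m -
    (c m).eval₂ (aeval πp : MvPolynomial (Fin n) ℂ →ₐ[ℂ] _).toRingHom u ∈ P

/-- Noether normalisation data together with the analytic consequences. -/
structure PN (N n : ℕ) (P : Ideal (MvPolynomial (Fin N) ℂ)) extends NN N n, PA N n P where
  Z_eq : Z = zeros (P : Set _)
  π_eq : ∀ z l, π z l = eval z (πp l)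
  Δ_eq : ∀ y, Δ y = eval y Δp

end Vale.Agent.P274
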