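import Vale.Agent.P274.A0

/-! Existence of the algebraic data. -/

open MvPolynomial

namespace Vale.Agent.P274

section abstract

open scoped nonZeroDivisors IntermediateField

variable {A R : Type*} [CommRing A] [IsDomain A] [CommRing R] [IsDomain R] [Algebra A R]

theorem A1_clear (q : Polynomial (FractionRing A)) : ∃ d : A, d ≠ 0 ∧ ∃ c : Polynomial A,
    c.map (algebraMap A (FractionRing A)) = Polynomial.C (algebraMap A (FractionRing A) d) * q := by
  obtain ⟨b, hb, h⟩ := IsLocalization.integerNormalization_spec A⁰ q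
  refine ⟨b, nonZeroDivisors.ne_zero hb, _, h.trans ?_⟩
  rw [Algebra.smul_def, Polynomial.algebraMap_apply]

/-- a primitive element with denominators, and the Bezout identity for its minimal polynomial -/
theorem A1_primitive [CharZero A] [IsIntegrallyClosed A] [FaithfulSMul A R] [Module.Finite A R] :
    ∃ u : R, (∀ x : R, ∃ d : A, d ≠ 0 ∧ ∃ c : Polynomial A,
      algebraMap A R d * x = Polynomial.aeval u c) ∧
      ∃ d : A, d ≠ 0 ∧ ∃ a b : Polynomial A,
        a * minpoly A u + b * (minpoly A u).derivative = Polynomial.C d := by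
  let K := FractionRing A
  let L := FractionRing R
  let _ : Algebra K L := FractionRing.liftAlgebra A L
  have : FiniteDimensional K L := inferInstance
  obtain ⟨α, hα⟩ := Field.exists_primitive_element K L
  obtain ⟨⟨u, _, s, hs, rfl⟩, hu⟩ := IsLocalization.surj (Algebra.algebraMapSubmonoid R A⁰) α
  simp only at hu
  have hs0 : algebraMap A K s ≠ 0 :=
    (map_ne_zero_iff _ (IsFractionRing.injective A K)).2 (nonZeroDivisors.ne_zero hs)
  have hsL : algebraMap R L (algebraMap A R s) = algebraMap K L (algebraMap A K s) := by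
    rw [← IsScalarTower.algebraMap_apply, ← IsScalarTower.algebraMap_apply]
  have hαu : α ∈ Algebra.adjoin K {algebraMap R L u} := by
    have e : α = (algebraMap A K s)⁻¹ • algebraMap R L u := by
      rw [← hu, hsL, Algebra.smul_def, map_inv₀, mul_comm α,
        inv_mul_cancel_left₀ ((map_ne_zero _).2 hs0)]
    rw [e]
    exact Subalgebra.smul_mem _ (Algebra.self_mem_adjoin_singleton K _) _
  have htop : ∀ x : L, x ∈ Algebra.adjoin K {algebraMap R L u} := by
    intro x
    have h1 : x ∈ K⟮α⟯.toSubalgebra := by rw [hα]; trivial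
    rw [IntermediateField.adjoin_simple_toSubalgebra_of_isAlgebraic
      (Algebra.IsAlgebraic.isAlgebraic α)] at h1
    exact Algebra.adjoin_le (Set.singleton_subset_iff.2 hαu) h1
  refine ⟨u, fun x => ?_, ?_⟩
  · have h1 := htop (algebraMap R L x)
    rw [Algebra.adjoin_singleton_eq_range_aeval] at h1
    obtain ⟨q, hq⟩ := h1
    obtain ⟨d, hd, c, hc⟩ := A1_clear q
    refine ⟨d, hd, c, IsFractionRing.injective R L ?_⟩
    have hq' : Polynomial.aeval (algebraMap R L u) q = algebraMap R L x := hq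
    rw [← Polynomial.aeval_algebraMap_apply, ← Polynomial.aeval_map_algebraMap K, hc, map_mul,
      map_mul, hq', Polynomial.aeval_C, ← IsScalarTower.algebraMap_apply,
      ← IsScalarTower.algebraMap_apply]
  · have hi : IsIntegral A u := Algebra.IsIntegral.isIntegral u
    have hsep : (minpoly K (algebraMap R L u)).Separable := Algebra.IsSeparable.isSeparable K _
    rw [minpoly.isIntegrallyClosed_eq_field_fractions K L hi] at hsep
    obtain ⟨a, b, hab⟩ := hsep
    obtain ⟨d₁, hd₁, a', ha'⟩ := A1_clear a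
    obtain ⟨d₂, hd₂, b', hb'⟩ := A1_clear b
    refine ⟨d₁ * d₂, mul_ne_zero hd₁ hd₂, Polynomial.C d₂ * a', Polynomial.C d₁ * b', ?_⟩
    apply Polynomial.map_injective _ (IsFractionRing.injective A K)
    simp only [Polynomial.map_add, Polynomial.map_mul, Polynomial.map_C, map_mul,
      ← Polynomial.derivative_map]
    rw [ha', hb']
    linear_combination (Polynomial.C (algebraMap A K d₁) * Polynomial.C (algebraMap A K d₂)) * hab

theorem A1_coeff_zero {x : R} (hi : IsIntegral A x) (hx : x ≠ 0) :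
    (minpoly A x).coeff 0 ≠ 0 := by
  intro h
  obtain ⟨q, hq⟩ := Polynomial.X_dvd_iff.2 h
  have hm := minpoly.monic hi
  have hqm : q.Monic := Polynomial.monic_X.of_mul_monic_left (hq ▸ hm)
  have h0 : Polynomial.aeval x q = 0 := by
    have := minpoly.aeval A x
    rw [hq, map_mul, Polynomial.aeval_X] at this
    exact (mul_eq_zero.1 this).resolve_left hx
  have h1 := Polynomial.natDegree_le_natDegree (minpoly.min A x hqm h0)
  rw [hq, Polynomial.natDegree_X_mul hqm.ne_zero] at h1
  omega

/-- lying over for a root of the minimal polynomial -/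
theorem A1_lying [IsIntegrallyClosed A] [FaithfulSMul A R] [Algebra.IsIntegral A R] (x : R)
    {F : Type*} [Field F] (φ : A →+* F) (hφ : Function.Surjective φ) {t : F}
    (ht : (minpoly A x).eval₂ φ t = 0) :
    ∃ Q : Ideal R, Q.IsMaximal ∧ ∀ m : Polynomial A, m.eval₂ φ t = 0 →
      Polynomial.aeval x m ∈ Q := by
  have hi : IsIntegral A x := Algebra.IsIntegral.isIntegral x
  let _ : Algebra (Polynomial A) R := (Polynomial.aeval x).toRingHom.toAlgebra
  have hal : ∀ m : Polynomial A, algebraMap (Polynomial A) R m = Polynomial.aeval x m :=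
    fun _ => rfl
  have : IsScalarTower A (Polynomial A) R := IsScalarTower.of_algebraMap_eq fun a => by
    rw [hal, AlgHom.commutes]
  have : Algebra.IsIntegral (Polynomial A) R := Algebra.IsIntegral.tower_top A
  have hmax : (RingHom.ker (Polynomial.eval₂RingHom φ t)).IsMaximal :=
    RingHom.ker_isMaximal_of_surjective _ fun y => by
      obtain ⟨a, rfl⟩ := hφ y
      exact ⟨Polynomial.C a, by simp⟩
  obtain ⟨Q, hQ, hc⟩ := Ideal.exists_ideal_over_maximal_of_isIntegral (S := R)
    (RingHom.ker (Polynomial.eval₂RingHom φ t)) fun m hm => by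
      rw [RingHom.mem_ker, hal] at hm
      obtain ⟨q, rfl⟩ := minpoly.isIntegrallyClosed_dvd hi hm
      rw [RingHom.mem_ker, map_mul, Polynomial.coe_eval₂RingHom, ht, zero_mul]
  refine ⟨Q, hQ, fun m hm => ?_⟩
  rw [← hal, ← Ideal.mem_comap, hc]
  exact hm

/-- the abstract form of the data, for a finite injective ring homomorphism -/
theorem A1_main {A R : Type*} [CommRing A] [IsDomain A] [CharZero A] [IsIntegrallyClosed A]
    [CommRing R] [IsDomain R] (g : A →+* R) (hinj : Function.Injective g) (hfin : g.Finite) :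
    ∃ mp : R → Polynomial A, (∀ x, (mp x).Monic ∧ (mp x).eval₂ g x = 0 ∧
      (x ≠ 0 → (mp x).coeff 0 ≠ 0) ∧ ∀ (φ : A →+* ℂ), Function.Surjective φ → ∀ t : ℂ,
        (mp x).eval₂ φ t = 0 → ∃ Q : Ideal R, Q.IsMaximal ∧ ∀ m : Polynomial A,
          m.eval₂ φ t = 0 → m.eval₂ g x ∈ Q) ∧
      ∃ u : R, (∀ x : R, ∃ d : A, d ≠ 0 ∧ ∃ c : Polynomial A, g d * x = c.eval₂ g u) ∧
        ∃ d : A, d ≠ 0 ∧ ∃ a b : Polynomial A,
          a * mp u + b * (mp u).derivative = Polynomial.C d := by
  let _ : Algebra A R := g.toAlgebra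
  have : FaithfulSMul A R := (faithfulSMul_iff_algebraMap_injective _ _).2 hinj
  have : Module.Finite A R := hfin
  have hi : ∀ x : R, IsIntegral A x := fun x => Algebra.IsIntegral.isIntegral x
  exact ⟨minpoly A, fun x => ⟨minpoly.monic (hi x), minpoly.aeval A x, A1_coeff_zero (hi x),
    fun φ hφ t ht => A1_lying x φ hφ ht⟩, A1_primitive⟩

end abstract

theorem exists_PA {N : ℕ} (P : Ideal (MvPolynomial (Fin N) ℂ)) [P.IsPrime] :
    ∃ n, Nonempty (PA N n P) := by
  classical
  obtain ⟨n, g, hinj, hfin⟩ := exists_finite_inj_algHom_of_fg ℂ (MvPolynomial (Fin N) ℂ ⧸ P)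
  obtain ⟨mp, hmp, u, hu, d₀, hd₀, a, b, hab⟩ := A1_main g.toRingHom hinj hfin
  choose πp hπ using fun l : Fin n => Ideal.Quotient.mk_surjective (g (X l))
  have hg : ∀ a, Ideal.Quotient.mk P (aeval πp a) = g.toRingHom a := by
    intro a
    have : (Ideal.Quotient.mkₐ ℂ P).comp (aeval πp) = g :=
      MvPolynomial.algHom_ext fun l => by simp [hπ]
    rw [← this]
    rfl
  have hev : ∀ (m : Polynomial (MvPolynomial (Fin n) ℂ)) f, Ideal.Quotient.mk P
      (m.eval₂ (aeval πp : MvPolynomial (Fin n) ℂ →ₐ[ℂ] _).toRingHom f)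
      = m.eval₂ g.toRingHom (Ideal.Quotient.mk P f) := by
    intro m f
    rw [Polynomial.hom_eval₂]
    congr 1
    exact RingHom.ext hg
  have hmin : ∀ f, (mp (Ideal.Quotient.mk P f)).eval₂
      (aeval πp : MvPolynomial (Fin n) ℂ →ₐ[ℂ] _).toRingHom f ∈ P := by
    intro f
    rw [← Ideal.Quotient.eq_zero_iff_mem, hev, (hmp _).2.1]
  have hlift : ∀ f (y : E n) (t : ℂ), (mp (Ideal.Quotient.mk P f)).eval₂ (eval y) t = 0 →
      ∃ z ∈ zeros (P : Set _), (∀ l, eval z (πp l) = y l) ∧ eval z f = t := by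
    intro f y t ht
    obtain ⟨Q, hQ, hm⟩ := (hmp _).2.2.2 (eval y) (fun c => ⟨C c, by simp⟩) t ht
    have hmax : (Q.comap (Ideal.Quotient.mk P)).IsMaximal :=
      Ideal.comap_isMaximal_of_surjective _ Ideal.Quotient.mk_surjective
    obtain ⟨z, hz⟩ := isMaximal_iff_eq_vanishingIdeal_singleton.1 hmax
    have hz' : ∀ h, Ideal.Quotient.mk P h ∈ Q → eval z h = 0 := by
      intro h hh
      rw [← Ideal.mem_comap, hz, mem_vanishingIdeal_singleton_iff] at hh
      exact hh
    refine ⟨z, fun h hh => hz' h ?_, fun l => ?_, ?_⟩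
    · rw [Ideal.Quotient.eq_zero_iff_mem.2 hh]
      exact Q.zero_mem
    · have h1 := hm (Polynomial.C (X l - C (y l))) (by simp)
      rw [← hev] at h1
      have h2 := hz' _ h1
      simpa [sub_eq_zero] using h2
    · have h1 := hm (Polynomial.X - Polynomial.C (C t)) (by simp)
      rw [← hev] at h1
      have h2 := hz' _ h1
      simpa [sub_eq_zero] using h2
  obtain ⟨u, rfl⟩ := Ideal.Quotient.mk_surjective u
  choose d hd c hc using fun m : Fin N => hu (Ideal.Quotient.mk P (X m))
  choose e he using fun m : Fin N =>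
    (Finset.dvd_prod_of_mem d (Finset.mem_univ m)).mul_left d₀
  refine ⟨n, ⟨{
    πp := πp
    inj := fun a ha => hinj ?_
    int := fun f => ⟨_, (hmp _).1, hmin f⟩
    minp := fun f => ⟨_, (hmp _).1, hmin f, fun hf =>
      (hmp _).2.2.1 fun h => hf (Ideal.Quotient.eq_zero_iff_mem.1 h), hlift f⟩
    u := u
    p := mp (Ideal.Quotient.mk P u)
    p_u := hmin u
    p_lift := hlift u
    Δp := d₀ * ∏ m, d m
    Δp_ne := mul_ne_zero hd₀ (Finset.prod_ne_zero_iff.2 fun m _ => hd m)
    a := Polynomial.C (∏ m, d m) * a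
    b := Polynomial.C (∏ m, d m) * b
    bezout := ?_
    c := fun m => Polynomial.C (e m) * c m
    coord := fun m => ?_ }⟩⟩
  · have h := hg a
    rw [Ideal.Quotient.eq_zero_iff_mem.2 ha] at h
    rw [map_zero]
    exact h.symm
  · rw [Polynomial.C_mul, ← hab]
    ring
  · rw [← Ideal.Quotient.eq_zero_iff_mem, map_sub, hev, map_mul, hg, he m, map_mul,
      Polynomial.eval₂_mul, Polynomial.eval₂_C, ← hc m]
    ring

end Vale.Agent.P274
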