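import Vale.Agent.P274.B1b

/-! Basic API, part c: identity theorem, maximum principle, local inverses. -/

open Metric Set Filter Topology

namespace Vale.Agent.P274.BM

variable {N n : ℕ} {M : BM N n} {F : Type*} [NormedAddCommGroup F] [NormedSpace ℂ F]

theorem b1c_map_zero (x : M.X) : map (M.ψ x) (𝓝 0) = 𝓝 x := by
  have := M.map_ψ_nhds x (mem_ball_self (M.r_pos x))
  rwa [M.ψ_zero] at this

omit [NormedSpace ℂ F] in
/-- identity theorem over any base field acting on the charts -/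
theorem b1c_ident (𝕜 : Type*) [NontriviallyNormedField 𝕜] [NormedSpace 𝕜 (E n)]
    [NormedSpace 𝕜 F] [CompleteSpace F] {G : M.X → F} {S : Set M.X} (hS : IsPreconnected S)
    (hG : ∀ y ∈ S, AnalyticAt 𝕜 (G ∘ M.ψ y) 0) {x : M.X} (hx : x ∈ S)
    (h : ∀ᶠ u in 𝓝 x, G u = 0) : ∀ y ∈ S, ∀ᶠ u in 𝓝 y, G u = 0 := by
  refine hS.subset_of_closure_inter_subset (u := {z | ∀ᶠ u in 𝓝 z, G u = 0})
    isOpen_setOfPred_eventually_nhds ⟨x, hx, h⟩ ?_
  rintro y ⟨hy, hyS⟩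
  obtain ⟨ρ, hρ, hb⟩ := Metric.eventually_nhds_iff_ball.mp
    ((hG y hyS).eventually_analyticAt.and (ball_mem_nhds (0 : E n) (M.r_pos y)))
  obtain ⟨z, ⟨w, hw, rfl⟩, hz⟩ := mem_closure_iff_nhds.mp hy _ (M.image_ball_mem_nhds y hρ)
  have h1 : (G ∘ M.ψ y) =ᶠ[𝓝 w] 0 := by
    have h2 : ∀ᶠ u in 𝓝 (M.ψ y w), G u = 0 := hz
    rw [← M.map_ψ_nhds y (hb w hw).2, eventually_map] at h2
    exact h2
  have h3 := AnalyticOnNhd.eqOn_zero_of_preconnected_of_eventuallyEq_zero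
    (U := ball 0 ρ) (fun w hw => (hb w hw).1) (convex_ball (0 : E n) ρ).isPreconnected hw h1
  show ∀ᶠ u in 𝓝 y, G u = 0
  rw [← b1c_map_zero y, eventually_map]
  filter_upwards [ball_mem_nhds (0 : E n) hρ] with u hu using h3 hu

theorem eqOn_of_preconnected [CompleteSpace F] {f g : M.X → F} {S : Set M.X}
    (hS : IsPreconnected S) (hf : ∀ y ∈ S, M.HolAt f y) (hg : ∀ y ∈ S, M.HolAt g y)
    {x : M.X} (hx : x ∈ S) (h : f =ᶠ[𝓝 x] g) : EqOn f g S := by
  intro y hy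
  have := b1c_ident ℂ (G := fun u => f u - g u) hS (fun y hy => (hf y hy).sub (hg y hy)) hx
    (h.mono fun u hu => sub_eq_zero.mpr hu) y hy
  exact sub_eq_zero.mp this.self_of_nhds

theorem Hol.eq_of_eventuallyEq [CompleteSpace F] {f g : M.X → F} (hf : M.Hol f) (hg : M.Hol g)
    {x : M.X} (h : f =ᶠ[𝓝 x] g) : f = g :=
  funext fun y => eqOn_of_preconnected isPreconnected_univ (fun y _ => hf y) (fun y _ => hg y)
    (mem_univ x) h (mem_univ y)

theorem map_eq_of_eventuallyEq {a b : M.X → M.X} (ha : M.Hol (M.ι ∘ a)) (hb : M.Hol (M.ι ∘ b))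
    {x : M.X} (h : a =ᶠ[𝓝 x] b) : a = b := by
  have h1 := ha.eq_of_eventuallyEq hb (x := x) (h.mono fun u hu => congrArg M.ι hu)
  exact funext fun y => Subtype.ext (congrFun h1 y)

theorem aut_eq_one_of_eventually {a : M.Aut} {x : M.X} (h : ∀ᶠ y in 𝓝 x, a • y = y) :
    a = 1 := by
  have h1 := map_eq_of_eventuallyEq (a := fun y => a • y) (b := id) (M.hol_smul a) M.hol_ι h
  exact Subtype.ext (Equiv.ext fun y => congrFun h1 y)

theorem Hol.dense_ne_zero [CompleteSpace F] {f : M.X → F} (hf : M.Hol f) (h : ∃ x, f x ≠ 0) :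
    Dense {x | f x ≠ 0} := by
  obtain ⟨x, hx⟩ := h
  intro y
  rw [mem_closure_iff_frequently]
  intro hy
  have h1 : f =ᶠ[𝓝 y] fun _ => 0 := hy.mono fun u hu => not_not.mp hu
  exact hx (congrFun (hf.eq_of_eventuallyEq (fun z => M.holAt_const 0 z) h1) x)

theorem Hol.const_of_max {f : M.X → ℂ} (hf : M.Hol f) {x : M.X} (h : ∀ y, ‖f y‖ ≤ ‖f x‖)
    (y : M.X) : f y = f x := by
  have h1 := Complex.eventually_eq_of_isLocalMax_norm (f := f ∘ M.ψ x) (c := 0)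
    ((AnalyticAt.eventually_analyticAt (hf x)).mono fun _ hz => hz.differentiableAt)
    (Eventually.of_forall fun w => by simpa [M.ψ_zero] using h (M.ψ x w))
  have h2 : f =ᶠ[𝓝 x] fun _ => f x := by
    show ∀ᶠ u in 𝓝 x, f u = f x
    rw [← b1c_map_zero x, eventually_map]
    simpa [M.ψ_zero] using h1
  exact congrFun (hf.eq_of_eventuallyEq (fun z => M.holAt_const _ z) h2) y

/-- Two holomorphic self-maps inverse to each other define an automorphism. -/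
theorem exists_aut {a b : M.X → M.X} (ha : M.Hol (M.ι ∘ a)) (hb : M.Hol (M.ι ∘ b))
    (hab : ∀ x, a (b x) = x) (hba : ∀ x, b (a x) = x) :
    ∃ c : M.Aut, (∀ x, c • x = a x) ∧ ∀ x, c⁻¹ • x = b x :=
  ⟨⟨⟨a, b, hba, hab⟩, ha, hb⟩, fun _ => rfl, fun _ => rfl⟩

theorem b1c_inverse {P Q : Type*} [NormedAddCommGroup P]
    [NormedSpace ℂ P] [FiniteDimensional ℂ P] [NormedAddCommGroup Q] [NormedSpace ℂ Q]
    [FiniteDimensional ℂ Q] (hPQ : Module.finrank ℂ P = Module.finrank ℂ Q) {Φ : P → Q} {p : P}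
    (hΦ : AnalyticAt ℂ Φ p) (hinj : ∀ v, fderiv ℂ Φ p v = 0 → v = 0) :
    ∃ Ψ : Q → P, AnalyticAt ℂ Ψ (Φ p) ∧ (∀ᶠ y in 𝓝 p, Ψ (Φ y) = y) ∧
      (∀ᶠ w in 𝓝 (Φ p), Φ (Ψ w) = w) ∧ map Φ (𝓝 p) = 𝓝 (Φ p) := by
  have := FiniteDimensional.complete ℂ P
  have := FiniteDimensional.complete ℂ Q
  let i : P ≃L[ℂ] Q := (LinearMap.linearEquivOfInjective (fderiv ℂ Φ p).toLinearMap
    ((injective_iff_map_eq_zero _).mpr hinj) hPQ).toContinuousLinearEquiv
  have hi : fderiv ℂ Φ p = i := by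
    ext v
    rfl
  have hs : HasStrictFDerivAt Φ (i : P →L[ℂ] Q) p := hi ▸ hΦ.hasStrictFDerivAt
  exact ⟨hs.localInverse Φ i p, (hs.toOpenPartialHomeomorph Φ).analyticAt_symm'
    hs.mem_toOpenPartialHomeomorph_source hΦ hi, hs.eventually_left_inverse,
    hs.eventually_right_inverse, hs.map_nhds_eq_of_equiv⟩

/-- Inverse function theorem. -/
theorem exists_local_inverse {Φ : M.X → E n} {x : M.X} (hΦ : M.HolAt Φ x)
    (hinj : ∀ v ∈ M.T x, M.df Φ x v = 0 → v = 0) :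
    ∃ Ψ : E n → M.X, AnalyticAt ℂ (M.ι ∘ Ψ) (Φ x) ∧ (∀ᶠ y in 𝓝 x, Ψ (Φ y) = y) ∧
      (∀ᶠ w in 𝓝 (Φ x), Φ (Ψ w) = w) ∧ map Φ (𝓝 x) = 𝓝 (Φ x) := by
  obtain ⟨Ψ, h1, h2, h3, h4⟩ := b1c_inverse (Φ := Φ ∘ M.ψ x) (p := 0) rfl hΦ fun u hu => by
    obtain ⟨v, hv, rfl⟩ := L_surj x u
    rw [hinj v hv hu, map_zero]
  have h0 : (Φ ∘ M.ψ x) 0 = Φ x := by simp [M.ψ_zero]
  rw [h0] at h1 h3 h4
  have h5 : Ψ (Φ x) = 0 := by
    have := h2.self_of_nhds
    rwa [h0] at this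
  refine ⟨M.ψ x ∘ Ψ, ?_, ?_, h3, ?_⟩
  · refine AnalyticAt.comp (g := M.ι ∘ M.ψ x) (f := Ψ) ?_ h1
    rw [h5]
    exact M.holAt_ι x
  · rw [← b1c_map_zero x, eventually_map]
    exact h2.mono fun w hw => congrArg (M.ψ x) hw
  · rw [← h4, ← map_map, b1c_map_zero]

/-- Inverse function theorem for analytic maps between spaces of the same finite dimension. -/
theorem _root_.Vale.Agent.P274.exists_analytic_inverse {P Q : Type*} [NormedAddCommGroup P]
    [NormedSpace ℂ P] [FiniteDimensional ℂ P] [NormedAddCommGroup Q] [NormedSpace ℂ Q]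
    [FiniteDimensional ℂ Q] (hPQ : Module.finrank ℂ P = Module.finrank ℂ Q) {Φ : P → Q} {p : P}
    (hΦ : AnalyticAt ℂ Φ p) (hinj : ∀ v, fderiv ℂ Φ p v = 0 → v = 0) :
    ∃ Ψ : Q → P, AnalyticAt ℂ Ψ (Φ p) ∧ (∀ᶠ y in 𝓝 p, Ψ (Φ y) = y) ∧
      (∀ᶠ w in 𝓝 (Φ p), Φ (Ψ w) = w) ∧ map Φ (𝓝 p) = 𝓝 (Φ p) :=
  b1c_inverse hPQ hΦ hinj

theorem holMap_iff {k : ℕ} {f : M.X → E k} : HolMap M.U f ↔ M.Hol f := by
  constructor
  · intro h x
    obtain ⟨W, hW, hx, g, hg, hfg⟩ := h x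
    have h1 := (M.holAt_ι x).comp_analytic (P278F.analyticOnNhd_of_differentiableOn hW hg _ hx)
    refine h1.congr ?_
    filter_upwards [continuous_subtype_val.continuousAt.preimage_mem_nhds (hW.mem_nhds hx)]
      with y hy using (hfg y hy).symm
  · intro h x
    have h1 := M.ψ_co_eventually x
    rw [nhds_subtype, eventually_comap] at h1
    obtain ⟨W, hW, hWo, hx⟩ := _root_.mem_nhds_iff.mp h1
    have hc : Continuous fun z : E N => M.L x (z - x.1) := by fun_prop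
    refine ⟨W ∩ (fun z => M.L x (z - x.1)) ⁻¹' ball 0 (M.r x), hWo.inter (isOpen_ball.preimage hc),
      ⟨hx, by simpa using M.r_pos x⟩, fun z => f (M.ψ x (M.L x (z - x.1))), ?_, ?_⟩
    · exact (h.analyticOnNhd x).differentiableOn.comp
        (f := fun z : E N => M.L x (z - x.1)) (by fun_prop) fun z hz => hz.2
    · intro y hy
      exact congrArg f (hW hy.1 y rfl).1.symm

/-- Sesqui-holomorphic functions: holomorphic in the first, antiholomorphic in the second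
variable (jointly, in every chart). -/
def Sesq (M : BM N n) (f : M.X → M.X → ℂ) : Prop :=
  ∀ x : M.X, DifferentiableOn ℂ
    (fun p : E n × E n => f (M.ψ x p.1) (M.ψ x (star p.2))) (ball 0 (M.r x))

/-- A convenient source of sesqui-holomorphic functions. -/
theorem sesq_of_entire {k : ℕ} {g : E k × E k → ℂ} (hg : Differentiable ℂ g) {a : M.X → E k}
    (ha : M.Hol a) : M.Sesq (fun x y => g (a x, star (a y))) := by
  intro x p hp
  rw [mem_ball_zero_iff, Prod.norm_def, max_lt_iff] at hp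
  have h1 : DifferentiableAt ℂ (a ∘ M.ψ x) p.1 :=
    (ha.analyticOnNhd x _ (mem_ball_zero_iff.mpr hp.1)).differentiableAt
  have h2 : DifferentiableAt ℂ (star ∘ (a ∘ M.ψ x) ∘ star) p.2 := by
    have h3 : DifferentiableAt ℂ (a ∘ M.ψ x) (star p.2) :=
      (ha.analyticOnNhd x _ (mem_ball_zero_iff.mpr (by rw [norm_star]; exact hp.2))).differentiableAt
    simpa only [star_star] using h3.star_star
  exact ((hg _).comp p ((h1.comp p differentiableAt_fst).prodMk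
    (h2.comp p differentiableAt_snd))).differentiableWithinAt

/-- Identity theorem for the diagonal values of a sesqui-holomorphic function. -/
theorem Sesq.frequently_ne {f : M.X → M.X → ℂ} (hf : M.Sesq f) (h : ∃ x, f x x ≠ 0)
    (y : M.X) : ∃ᶠ x in 𝓝 y, f x x ≠ 0 := by
  obtain ⟨x, hx⟩ := h
  intro hy
  refine hx (b1c_ident ℝ (G := fun u => f u u) isPreconnected_univ (fun z _ => ?_) (mem_univ y)
    (hy.mono fun u hu => not_not.mp hu) x (mem_univ x)).self_of_nhds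
  have h1 := (P278F.analyticOnNhd_of_differentiableOn isOpen_ball (hf z) 0
    (mem_ball_self (M.r_pos z))).restrictScalars (𝕜 := ℝ)
  let j : E n →L[ℝ] E n × E n :=
    (ContinuousLinearMap.id ℝ (E n)).prod (starL' ℝ : E n ≃L[ℝ] E n).toContinuousLinearMap
  have h2 := AnalyticAt.comp_of_eq h1 (j.analyticAt 0) (map_zero j)
  refine h2.congr (Eventually.of_forall fun w => ?_)
  simp [j]

end Vale.Agent.P274.BM
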