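import Vale.Agent.P274.A0
import Vale.Agent.P274.B1c

/-! Calculus of polynomial maps, used for local sections. -/

open Metric Set Filter Topology MvPolynomial

namespace Vale.Agent.P274

variable {N n : ℕ} {P : Ideal (MvPolynomial (Fin N) ℂ)}

theorem hasDerivAt_mvEval {k : ℕ} {c : ℂ → E k} {c' : E k} {s : ℂ} (hc : HasDerivAt c c' s)
    (f : MvPolynomial (Fin k) ℂ) :
    HasDerivAt (fun s => eval (c s) f) (∑ m, c' m * eval (c s) (pderiv m f)) s := by
  induction f using MvPolynomial.induction_on with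
  | C a => simpa using hasDerivAt_const s a
  | add p q hp hq =>
    simp only [map_add, mul_add, Finset.sum_add_distrib]
    exact hp.add hq
  | mul_X p i hp =>
    have hi : HasDerivAt (fun s => c s i) (c' i) s := (hasDerivAt_pi.1 hc) i
    have h := hp.mul hi
    have e : ∑ m, c' m * eval (c s) (pderiv m (p * X i)) =
        (∑ m, c' m * eval (c s) (pderiv m p)) * c s i + eval (c s) p * c' i := by
      have e1 : ∀ m, c' m * eval (c s) (pderiv m (p * X i)) =
          c' m * eval (c s) (pderiv m p) * c s i +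
            if m = i then eval (c s) p * c' i else 0 := by
        intro m
        by_cases hm : m = i
        · subst hm
          simp [pderiv_mul]
          ring
        · simp [pderiv_mul, hm, pderiv_X_of_ne (Ne.symm hm)]
          ring
      simp only [e1, Finset.sum_add_distrib, Finset.sum_mul, Finset.sum_ite_eq',
        Finset.mem_univ, if_true]
    rw [e]
    simp only [map_mul, eval_X]
    exact h

theorem eval_aeval_eq (πp : Fin n → MvPolynomial (Fin N) ℂ) (z : E N)
    (g : MvPolynomial (Fin n) ℂ) :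
    eval z (aeval πp g) = eval (fun l => eval z (πp l)) g := by
  induction g using MvPolynomial.induction_on with
  | C a => simp
  | add p q hp hq => simp only [map_add, hp, hq]
  | mul_X p i hp => simp only [map_mul, hp, aeval_X, eval_X]

theorem eval_eval₂_eq (πp : Fin n → MvPolynomial (Fin N) ℂ) (z : E N)
    (q : Polynomial (MvPolynomial (Fin n) ℂ)) (f : MvPolynomial (Fin N) ℂ) :
    eval z (q.eval₂ (aeval πp : MvPolynomial (Fin n) ℂ →ₐ[ℂ] _).toRingHom f) =
      q.eval₂ (eval fun l => eval z (πp l)) (eval z f) := by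
  rw [Polynomial.hom_eval₂]
  congr 1
  exact RingHom.ext fun g => eval_aeval_eq πp z g

theorem analyticAt_eval₂ {W : Type*} [NormedAddCommGroup W] [NormedSpace ℂ W]
    (q : Polynomial (MvPolynomial (Fin n) ℂ)) {y : W → E n} {t : W → ℂ} {w : W}
    (hy : AnalyticAt ℂ y w) (ht : AnalyticAt ℂ t w) :
    AnalyticAt ℂ (fun w => q.eval₂ (eval (y w)) (t w)) w := by
  induction q using Polynomial.induction_on' with
  | add p q hp hq =>
    simp only [Polynomial.eval₂_add]
    exact hp.add hq
  | monomial k a =>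
    simp only [Polynomial.eval₂_monomial]
    exact ((AnalyticOnNhd.eval_mvPolynomial a _ (mem_univ _)).comp hy).mul (ht.pow k)

/-- Chain rule for a polynomial in `t` with coefficients polynomial in `y`. -/
theorem exists_py (q : Polynomial (MvPolynomial (Fin n) ℂ)) (l : Fin n) :
    ∃ qy : Polynomial (MvPolynomial (Fin n) ℂ), ∀ (y : ℂ → E n) (t : ℂ → ℂ) (t' s : ℂ),
      HasDerivAt y (eb l) s → HasDerivAt t t' s →
      HasDerivAt (fun s => q.eval₂ (eval (y s)) (t s))
        (qy.eval₂ (eval (y s)) (t s) + q.derivative.eval₂ (eval (y s)) (t s) * t') s := by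
  induction q using Polynomial.induction_on' with
  | add p q hp hq =>
    obtain ⟨py, hp⟩ := hp
    obtain ⟨qy, hq⟩ := hq
    refine ⟨py + qy, fun y t t' s hy ht => ?_⟩
    have h := (hp y t t' s hy ht).add (hq y t t' s hy ht)
    simp only [Polynomial.eval₂_add, map_add]
    refine HasDerivAt.congr_deriv h ?_
    ring
  | monomial k a =>
    refine ⟨Polynomial.monomial k (pderiv l a), fun y t t' s hy ht => ?_⟩
    have h := (hasDerivAt_mvEval hy a).mul (ht.pow k)
    simp only [Polynomial.eval₂_monomial, Polynomial.derivative_monomial]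
    refine HasDerivAt.congr_deriv h ?_
    have e : ∑ m, eb l m * eval (y s) (pderiv m a) = eval (y s) (pderiv l a) := by
      rw [Finset.sum_eq_single l]
      · simp [eb]
      · intro m _ hm
        simp [eb, hm]
      · simp
    rw [e]
    simp only [map_mul, map_natCast, Pi.pow_apply]
    ring

theorem hasDerivAt_eval₂_t (q : Polynomial (MvPolynomial (Fin n) ℂ)) (y : E n) {t : ℂ → ℂ}
    {t' s : ℂ} (ht : HasDerivAt t t' s) :
    HasDerivAt (fun s => q.eval₂ (eval y) (t s)) (q.derivative.eval₂ (eval y) (t s) * t') s := by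
  have h := (Polynomial.hasDerivAt (q.map (eval y)) (t s)).comp s ht
  simp only [Polynomial.derivative_map, Polynomial.eval_map] at h
  exact h

theorem PA.p_zero (A : PA N n P) {z : E N}
    (hz : z ∈ zeros (P : Set (MvPolynomial (Fin N) ℂ))) :
    A.p.eval₂ (eval fun l => eval z (A.πp l)) (eval z A.u) = 0 := by
  rw [← eval_eval₂_eq]
  exact hz _ A.p_u

theorem PA.coord_eq (A : PA N n P) {z : E N}
    (hz : z ∈ zeros (P : Set (MvPolynomial (Fin N) ℂ))) (m : Fin N) :
    eval (fun l => eval z (A.πp l)) A.Δp * z m =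
      (A.c m).eval₂ (eval fun l => eval z (A.πp l)) (eval z A.u) := by
  have h := hz _ (A.coord m)
  rw [map_sub, map_mul, eval_eval₂_eq, eval_aeval_eq, eval_X] at h
  exact sub_eq_zero.1 h

theorem PA.bez (A : PA N n P) {y : E n} {t : ℂ} (h : A.p.eval₂ (eval y) t = 0) :
    A.b.eval₂ (eval y) t * A.p.derivative.eval₂ (eval y) t = eval y A.Δp := by
  have h1 := congrArg (Polynomial.eval₂ (eval y) t) A.bezout
  rw [Polynomial.eval₂_add, Polynomial.eval₂_mul, Polynomial.eval₂_mul, h,
    Polynomial.eval₂_C] at h1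
  simpa using h1

/-- The implicit function theorem for a simple root. -/
theorem exists_root_fun (q : Polynomial (MvPolynomial (Fin n) ℂ)) {y₀ : E n} {t₀ : ℂ}
    (h0 : q.eval₂ (eval y₀) t₀ = 0) (h1 : q.derivative.eval₂ (eval y₀) t₀ ≠ 0) :
    ∃ t : E n → ℂ, AnalyticAt ℂ t y₀ ∧ (∀ᶠ y in 𝓝 y₀, q.eval₂ (eval y) (t y) = 0) ∧
      ∀ᶠ w in 𝓝 (y₀, t₀), q.eval₂ (eval w.1) w.2 = 0 → t w.1 = w.2 := by
  set Φ : E n × ℂ → E n × ℂ := fun w => (w.1, q.eval₂ (eval w.1) w.2) with hΦ
  have hA : AnalyticAt ℂ Φ (y₀, t₀) :=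
    analyticAt_fst.prod (analyticAt_eval₂ q analyticAt_fst analyticAt_snd)
  have hD := hA.differentiableAt.hasFDerivAt
  have hinj : ∀ v, fderiv ℂ Φ (y₀, t₀) v = 0 → v = 0 := by
    intro v hv
    have e1 : (fderiv ℂ Φ (y₀, t₀) v).1 = v.1 := by
      have h2 := hD.fst
      have h3 : HasFDerivAt (fun w : E n × ℂ => (Φ w).1) (ContinuousLinearMap.fst ℂ (E n) ℂ)
          (y₀, t₀) := hasFDerivAt_fst
      exact congrArg (fun L => L v) (h2.unique h3)
    have hv1 : v.1 = 0 := by rw [← e1, hv]; rfl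
    have ht : HasDerivAt (fun s : ℂ => t₀ + s * v.2) v.2 0 := by
      simpa using ((hasDerivAt_id (0 : ℂ)).mul_const v.2).const_add t₀
    have hc : HasDerivAt (fun s : ℂ => ((y₀, t₀ + s * v.2) : E n × ℂ)) v 0 := by
      have := (hasDerivAt_const (0 : ℂ) y₀).prodMk ht
      rwa [← hv1] at this
    have hD' : HasFDerivAt Φ (fderiv ℂ Φ (y₀, t₀)) (y₀, t₀ + 0 * v.2) := by simpa using hD
    have h4 := (ContinuousLinearMap.snd ℂ (E n) ℂ).hasFDerivAt.comp_hasDerivAt (0 : ℂ)
      (HasFDerivAt.comp_hasDerivAt (f := fun s : ℂ => ((y₀, t₀ + s * v.2) : E n × ℂ))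
        (0 : ℂ) hD' hc)
    have h5 := hasDerivAt_eval₂_t q y₀ ht
    have h6 := h5.unique h4
    rw [hv] at h6
    simp only [zero_mul, add_zero, map_zero, mul_eq_zero, h1, false_or] at h6
    exact Prod.ext hv1 h6
  obtain ⟨Ψ, hΨ, hl, hr, -⟩ := exists_analytic_inverse rfl hA hinj
  have e0 : Φ (y₀, t₀) = (y₀, 0) := by simp [hΦ, h0]
  rw [e0] at hΨ hr
  have hi : AnalyticAt ℂ (fun y : E n => ((y, 0) : E n × ℂ)) y₀ :=
    analyticAt_id.prod analyticAt_const
  refine ⟨fun y => (Ψ (y, 0)).2, analyticAt_snd.comp (AnalyticAt.comp hΨ hi), ?_, ?_⟩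
  · filter_upwards [hi.continuousAt.tendsto.eventually hr] with y hy
    have h2 : (Ψ (y, 0)).1 = y := congrArg Prod.fst hy
    have h3 : q.eval₂ (eval (Ψ (y, 0)).1) (Ψ (y, 0)).2 = 0 := congrArg Prod.snd hy
    rwa [h2] at h3
  · filter_upwards [hl] with w hw h
    have : Φ w = (w.1, 0) := by simp [hΦ, h]
    rw [this] at hw
    rw [hw]

end Vale.Agent.P274
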