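import Vale.Agent.P274.A0
import Vale.Agent.P274.A2x

/-! Local sections, tangent vector fields, finite fibres. -/

open Metric Set Filter Topology MvPolynomial

namespace Vale.Agent.P274

variable {N n : ℕ} {P : Ideal (MvPolynomial (Fin N) ℂ)}

theorem analytic_eval {k : ℕ} (f : MvPolynomial (Fin k) ℂ) (z : E k) :
    AnalyticAt ℂ (fun z : E k => eval z f) z :=
  AnalyticOnNhd.eval_mvPolynomial f z (mem_univ _)

theorem mem_of_vanish [P.IsPrime] {f : MvPolynomial (Fin N) ℂ}
    (h : ∀ z ∈ zeros (P : Set (MvPolynomial (Fin N) ℂ)), eval z f = 0) : f ∈ P := by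
  rw [← MvPolynomial.IsPrime.vanishingIdeal_zeroLocus (K := ℂ) P, mem_vanishingIdeal_iff]
  intro x hx
  exact h x fun g hg => hx g hg

theorem analytic_evalPi (πp : Fin n → MvPolynomial (Fin N) ℂ) (z : E N) :
    AnalyticAt ℂ (fun (z : E N) (l : Fin n) => eval z (πp l)) z :=
  analyticAt_pi_iff.2 fun l => analytic_eval (πp l) z

theorem PA.sec (A : PA N n P) {z : E N} (hz : z ∈ zeros (P : Set (MvPolynomial (Fin N) ℂ)))
    (hΔ : eval (fun l => eval z (A.πp l)) A.Δp ≠ 0) :
    ∃ s : E n → E N, AnalyticAt ℂ s (fun l => eval z (A.πp l)) ∧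
      s (fun l => eval z (A.πp l)) = z ∧
      (∀ᶠ y in 𝓝 (fun l => eval z (A.πp l)), s y ∈ zeros (P : Set (MvPolynomial (Fin N) ℂ)) ∧
        (fun l => eval (s y) (A.πp l)) = y) ∧
      ∀ᶠ z' in 𝓝[zeros (P : Set (MvPolynomial (Fin N) ℂ))] z,
        s (fun l => eval z' (A.πp l)) = z' := by
  have h0 := A.p_zero hz
  have h1 : A.p.derivative.eval₂ (eval fun l => eval z (A.πp l)) (eval z A.u) ≠ 0 := by
    intro h
    have := A.bez h0
    rw [h, mul_zero] at this
    exact hΔ this.symm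
  obtain ⟨t, ht, ht0, ht1⟩ := exists_root_fun A.p h0 h1
  have hΔ' := (analytic_eval A.Δp _).continuousAt.eventually_ne hΔ
  have key : ∀ z' ∈ zeros (P : Set (MvPolynomial (Fin N) ℂ)),
      eval (fun l => eval z' (A.πp l)) A.Δp ≠ 0 → t (fun l => eval z' (A.πp l)) = eval z' A.u →
      (fun m => (A.c m).eval₂ (eval fun l => eval z' (A.πp l))
        (t fun l => eval z' (A.πp l)) / eval (fun l => eval z' (A.πp l)) A.Δp) = z' := by
    intro z' hz' hne htz
    funext m
    rw [htz, ← A.coord_eq hz' m]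
    field_simp
  have hlast : ∀ᶠ z' in 𝓝 z, z' ∈ zeros (P : Set (MvPolynomial (Fin N) ℂ)) →
      (fun m => (A.c m).eval₂ (eval fun l => eval z' (A.πp l))
        (t fun l => eval z' (A.πp l)) / eval (fun l => eval z' (A.πp l)) A.Δp) = z' := by
    have hc1 := (analytic_evalPi A.πp z).continuousAt
    have hc2 := hc1.prodMk (analytic_eval A.u z).continuousAt
    filter_upwards [hc1.tendsto.eventually hΔ', hc2.tendsto.eventually ht1] with z' a b hz'
    exact key z' hz' a (b (A.p_zero hz'))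
  refine ⟨fun y m => (A.c m).eval₂ (eval y) (t y) / eval y A.Δp, ?_, hlast.self_of_nhds hz, ?_,
    ?_⟩
  · refine analyticAt_pi_iff.2 fun m => ?_
    exact (analyticAt_eval₂ (A.c m) analyticAt_id ht).div (analytic_eval A.Δp _) hΔ
  · filter_upwards [hΔ', ht0] with y a b
    obtain ⟨z', hz', e1, e2⟩ := A.p_lift y (t y) b
    have e : (fun l => eval z' (A.πp l)) = y := funext e1
    have := key z' hz' (by rwa [e]) (by rw [e, e2])
    rw [e] at this
    rw [this]
    exact ⟨hz', e⟩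
  · exact eventually_nhdsWithin_iff.2 hlast

theorem PA.fib (A : PA N n P) : ∃ e : ℕ, ∀ y : E n,
    (zeros (P : Set (MvPolynomial (Fin N) ℂ)) ∩
      (fun z l => eval z (A.πp l)) ⁻¹' {y}).Finite ∧
    (zeros (P : Set (MvPolynomial (Fin N) ℂ)) ∩
      (fun z l => eval z (A.πp l)) ⁻¹' {y}).ncard ≤ e := by
  classical
  choose q hq hqP using fun m : Fin N => A.int (X m)
  refine ⟨∏ m, (q m).natDegree, fun y => ?_⟩
  have hsub : zeros (P : Set (MvPolynomial (Fin N) ℂ)) ∩
      (fun z l => eval z (A.πp l)) ⁻¹' {y} ⊆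
      (Fintype.piFinset fun m => ((q m).map (eval y)).roots.toFinset : Finset (E N)) := by
    rintro z ⟨hz, hy⟩
    have hy' : (fun l => eval z (A.πp l)) = y := hy
    simp only [Fintype.coe_piFinset, Set.mem_pi, mem_univ, Finset.mem_coe, Multiset.mem_toFinset,
      forall_const]
    intro m
    rw [Polynomial.mem_roots ((hq m).map _).ne_zero, Polynomial.IsRoot, Polynomial.eval_map]
    have := hz _ (hqP m)
    rwa [eval_eval₂_eq, hy', eval_X] at this
  refine ⟨(Finset.finite_toSet _).subset hsub, ?_⟩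
  refine (Set.ncard_le_ncard hsub (Finset.finite_toSet _)).trans ?_
  rw [Set.ncard_coe_finset, Fintype.card_piFinset]
  refine Finset.prod_le_prod' fun m _ => ?_
  exact (Multiset.toFinset_card_le _).trans
    ((Polynomial.card_roots' _).trans Polynomial.natDegree_map_le)

theorem PA.mem_of_vanish [hP : P.IsPrime] (A : PA N n P) {f : MvPolynomial (Fin N) ℂ}
    (h : ∀ z ∈ zeros (P : Set (MvPolynomial (Fin N) ℂ)),
      eval (fun l => eval z (A.πp l)) A.Δp ≠ 0 → eval z f = 0) : f ∈ P := by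
  have h1 : aeval A.πp A.Δp * f ∈ P := by
    refine P274.mem_of_vanish fun z hz => ?_
    rw [map_mul, eval_aeval_eq]
    by_cases h0 : eval (fun l => eval z (A.πp l)) A.Δp = 0
    · rw [h0, zero_mul]
    · rw [h z hz h0, mul_zero]
  exact (hP.mem_or_mem h1).resolve_left fun h2 => A.Δp_ne (A.inj _ h2)

/-- The field is `Δ ^ 2` times the velocity of the lifted coordinate line. -/
theorem PA.field_curve (A : PA N n P) (l : Fin n) :
    ∃ V : Fin N → MvPolynomial (Fin N) ℂ, ∀ z ∈ zeros (P : Set (MvPolynomial (Fin N) ℂ)),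
      eval (fun l => eval z (A.πp l)) A.Δp ≠ 0 → ∃ (c : ℂ → E N) (c' : E N),
        HasDerivAt c c' 0 ∧ c 0 = z ∧
        (∀ᶠ σ in 𝓝 (0 : ℂ), c σ ∈ zeros (P : Set (MvPolynomial (Fin N) ℂ)) ∧
          ∀ k, eval (c σ) (A.πp k) = eval z (A.πp k) + σ * eb l k) ∧
        ∀ m, eval z (V m) = eval (fun l => eval z (A.πp l)) A.Δp ^ 2 * c' m := by
  obtain ⟨py, hpy⟩ := exists_py A.p l
  choose cy hcy using fun m => exists_py (A.c m) l
  obtain ⟨dy, hdy⟩ := exists_py (Polynomial.C A.Δp) l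
  refine ⟨fun m => (Polynomial.C A.Δp * cy m - (A.c m).derivative * A.b * py - A.c m * dy).eval₂
    (aeval A.πp : MvPolynomial (Fin n) ℂ →ₐ[ℂ] _).toRingHom A.u, fun z hz hΔ => ?_⟩
  obtain ⟨s, hs, hs0, hs1, -⟩ := A.sec hz hΔ
  have hp0 := A.p_zero hz
  have hc0 := A.coord_eq hz
  simp only [eval_eval₂_eq]
  obtain ⟨y₀, hy₀⟩ : ∃ y₀ : E n, (fun l => eval z (A.πp l)) = y₀ := ⟨_, rfl⟩
  have hz0 : ∀ k, eval z (A.πp k) = y₀ k := fun k => congrFun hy₀ k
  rw [hy₀] at hs hs0 hs1 hp0 hc0 ⊢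
  simp only [hz0]
  set y : ℂ → E n := fun σ => y₀ + σ • eb l with hy
  have hy0 : y 0 = y₀ := by simp [hy]
  have hyd : HasDerivAt y (eb l) 0 := by
    simpa [hy] using ((hasDerivAt_id (0 : ℂ)).smul_const (eb l)).const_add y₀
  have hsd : DifferentiableAt ℂ s (y 0) := by rw [hy0]; exact hs.differentiableAt
  have hcd : DifferentiableAt ℂ (fun σ => s (y σ)) 0 := hsd.comp 0 hyd.differentiableAt
  have hyt : Tendsto y (𝓝 0) (𝓝 y₀) := by
    have := hyd.continuousAt.tendsto
    rwa [hy0] at this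
  have hev := hyt.eventually hs1
  have hsy : s (y 0) = z := by rw [hy0, hs0]
  refine ⟨fun σ => s (y σ), _, hcd.hasDerivAt, hsy, ?_, fun m => ?_⟩
  · filter_upwards [hev] with σ h
    exact ⟨h.1, fun k => by simpa [hy] using congrFun h.2 k⟩
  generalize hc' : deriv (fun σ => s (y σ)) 0 = c'
  have hc : HasDerivAt (fun σ => s (y σ)) c' 0 := hc' ▸ hcd.hasDerivAt
  have ht := hasDerivAt_mvEval hc A.u
  generalize (∑ m, c' m * eval (s (y 0)) (pderiv m A.u)) = t' at ht
  have h1 := hpy y _ t' 0 hyd ht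
  have h2 := hcy m y _ t' 0 hyd ht
  have h3 := hdy y _ t' 0 hyd ht
  have h4 := h3.mul ((hasDerivAt_pi.1 hc) m)
  have e1 : (fun σ => A.p.eval₂ (eval (y σ)) (eval (s (y σ)) A.u)) =ᶠ[𝓝 0] fun _ => 0 := by
    filter_upwards [hev] with σ h
    have := A.p_zero h.1
    rwa [h.2] at this
  have e2 : (fun σ => (A.c m).eval₂ (eval (y σ)) (eval (s (y σ)) A.u)) =ᶠ[𝓝 0]
      ((fun σ => (Polynomial.C A.Δp).eval₂ (eval (y σ)) (eval (s (y σ)) A.u)) *
        fun σ => s (y σ) m) := by
    filter_upwards [hev] with σ h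
    have := A.coord_eq h.1 m
    rw [h.2] at this
    simp only [Pi.mul_apply, Polynomial.eval₂_C, this]
  have k1 := h1.unique ((hasDerivAt_const (0 : ℂ) (0 : ℂ)).congr_of_eventuallyEq e1)
  have k2 := h2.unique (h4.congr_of_eventuallyEq e2)
  have k3 := A.bez hp0
  have k4 := hc0 m
  simp only [hsy, hy0, hs0, Polynomial.derivative_C, Polynomial.eval₂_zero, zero_mul, add_zero,
    Polynomial.eval₂_C] at k1 k2
  simp only [Polynomial.eval₂_sub, Polynomial.eval₂_mul, Polynomial.eval₂_C]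
  rw [← k4]
  linear_combination (eval y₀ A.Δp) * k2 -
    (A.c m).derivative.eval₂ (eval y₀) (eval z A.u) * A.b.eval₂ (eval y₀) (eval z A.u) * k1 +
    (A.c m).derivative.eval₂ (eval y₀) (eval z A.u) * t' * k3

/-- Polynomial vector fields tangent to the variety lifting `Δ ^ 2 ∂ / ∂ y l`. -/
theorem PA.fields [P.IsPrime] (A : PA N n P) (l : Fin n) :
    ∃ V : Fin N → MvPolynomial (Fin N) ℂ,
      (∀ f ∈ P, ∑ m, V m * pderiv m f ∈ P) ∧
      ∀ k, ∑ m, V m * pderiv m (A.πp k) - (if k = l then aeval A.πp A.Δp ^ 2 else 0) ∈ P := by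
  obtain ⟨V, hV⟩ := A.field_curve l
  have key : ∀ (z c' : E N) (d : ℂ) (f : MvPolynomial (Fin N) ℂ),
      (∀ m, eval z (V m) = d * c' m) →
      eval z (∑ m, V m * pderiv m f) = d * ∑ m, c' m * eval z (pderiv m f) := by
    intro z c' d f h
    simp only [map_sum, map_mul, h, Finset.mul_sum, mul_assoc]
  refine ⟨V, fun f hf => A.mem_of_vanish fun z hz hΔ => ?_,
    fun k => A.mem_of_vanish fun z hz hΔ => ?_⟩
  · obtain ⟨c, c', hc, hc0, hev, hm⟩ := hV z hz hΔ
    have e : (fun σ => eval (c σ) f) =ᶠ[𝓝 0] fun _ => 0 := by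
      filter_upwards [hev] with σ h using h.1 f hf
    have k := (hasDerivAt_mvEval hc f).unique
      ((hasDerivAt_const (0 : ℂ) (0 : ℂ)).congr_of_eventuallyEq e)
    rw [hc0] at k
    rw [key z c' _ f hm, k, mul_zero]
  · obtain ⟨c, c', hc, hc0, hev, hm⟩ := hV z hz hΔ
    have e : (fun σ => eval (c σ) (A.πp k)) =ᶠ[𝓝 0] fun σ => eval z (A.πp k) + σ * eb l k := by
      filter_upwards [hev] with σ h using h.2 k
    have hd : HasDerivAt (fun σ : ℂ => eval z (A.πp k) + σ * eb l k) (eb l k) 0 := by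
      simpa using ((hasDerivAt_id (0 : ℂ)).mul_const (eb l k)).const_add (eval z (A.πp k))
    have k1 := (hasDerivAt_mvEval hc (A.πp k)).unique (hd.congr_of_eventuallyEq e)
    rw [hc0] at k1
    rw [map_sub, key z c' _ _ hm, k1]
    by_cases hk : k = l
    · rw [if_pos hk, map_pow, eval_aeval_eq]
      simp [hk, eb]
    · simp [hk, eb]

/-- Integral curves of a tangent polynomial field stay in the variety. -/
theorem curve_mem {V : Fin N → MvPolynomial (Fin N) ℂ}
    (hV : ∀ f ∈ P, ∑ m, V m * pderiv m f ∈ P) {c : ℂ → E N} {R : ℝ}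
    (hc : ∀ s ∈ ball (0 : ℂ) R, HasDerivAt c (fun m => eval (c s) (V m)) s)
    (h0 : c 0 ∈ zeros (P : Set (MvPolynomial (Fin N) ℂ))) :
    ∀ s ∈ ball (0 : ℂ) R, c s ∈ zeros (P : Set (MvPolynomial (Fin N) ℂ)) := by
  intro s hs f hf
  have hd : ∀ g : MvPolynomial (Fin N) ℂ, ∀ s ∈ ball (0 : ℂ) R,
      HasDerivAt (fun s => eval (c s) g) (eval (c s) (∑ m, V m * pderiv m g)) s := by
    intro g s hs
    simpa only [map_sum, map_mul] using hasDerivAt_mvEval (hc s hs) g
  have hk : ∀ k : ℕ, ∃ g ∈ P, ∀ s ∈ ball (0 : ℂ) R,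
      iteratedDeriv k (fun s => eval (c s) f) s = eval (c s) g := by
    intro k
    induction k with
    | zero => exact ⟨f, hf, fun s _ => by simp⟩
    | succ k ih =>
      obtain ⟨g, hg, h⟩ := ih
      refine ⟨_, hV g hg, fun s hs => ?_⟩
      rw [iteratedDeriv_succ, ← (hd g s hs).deriv]
      refine Filter.EventuallyEq.deriv_eq ?_
      filter_upwards [isOpen_ball.mem_nhds hs] with w hw using h w hw
  have hD : DifferentiableOn ℂ (fun s => eval (c s) f) (ball 0 R) :=
    fun s hs => (hd f s hs).differentiableAt.differentiableWithinAt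
  have hT := Complex.hasSum_taylorSeries_on_ball hD hs
  have hz : ∀ k : ℕ, iteratedDeriv k (fun s => eval (c s) f) 0 = 0 := by
    intro k
    obtain ⟨g, hg, h⟩ := hk k
    rw [h 0 (mem_ball_self (pos_of_mem_ball hs))]
    exact h0 g hg
  simp only [hz, smul_zero] at hT
  exact hT.unique hasSum_zero

theorem PA.exists_PN [P.IsPrime] (A : PA N n P) : Nonempty (PN N n P) := by
  choose V hV hVπ using A.fields
  obtain ⟨e, he⟩ := A.fib
  have hπ : Differentiable ℂ (fun (z : E N) (l : Fin n) => eval z (A.πp l)) :=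
    fun z => (analytic_evalPi A.πp z).differentiableAt
  refine ⟨{ A with
    Z := zeros (P : Set (MvPolynomial (Fin N) ℂ))
    Z_closed := ?_
    π := fun z l => eval z (A.πp l)
    π_diff := hπ
    Δ := fun y => eval y A.Δp
    Δ_diff := fun y => (analytic_eval A.Δp y).differentiableAt
    V := fun l z m => eval z (V l m)
    V_diff := fun l z => (analytic_evalPi (V l) z).differentiableAt
    V_π := fun l z hz => ?_
    V_Z := fun l c R hc h0 => curve_mem (hV l) hc h0
    sec := fun z hz hΔ => A.sec hz hΔ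
    e := e
    fib := he
    Z_eq := rfl
    π_eq := fun _ _ => rfl
    Δ_eq := fun _ => rfl }⟩
  · have : zeros (P : Set (MvPolynomial (Fin N) ℂ)) = ⋂ f ∈ P, {z | eval z f = 0} := by
      ext z
      simp [zeros]
    rw [this]
    exact isClosed_biInter fun f _ =>
      isClosed_eq (continuous_iff_continuousAt.2 fun z => (analytic_eval f z).continuousAt)
        continuous_const
  · set v : E N := fun m => eval z (V l m) with hv
    have hc : HasDerivAt (fun σ : ℂ => z + σ • v) v 0 := by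
      simpa using ((hasDerivAt_id (0 : ℂ)).smul_const v).const_add z
    have h1 : HasFDerivAt (fun (z : E N) (l : Fin n) => eval z (A.πp l))
        (fderiv ℂ (fun (z : E N) (l : Fin n) => eval z (A.πp l)) z) (z + (0 : ℂ) • v) := by
      simpa using (hπ z).hasFDerivAt
    have h2 := HasFDerivAt.comp_hasDerivAt (f := fun σ : ℂ => z + σ • v) (0 : ℂ) h1 hc
    funext k
    have h3 := ((hasDerivAt_pi.1 h2) k).unique (hasDerivAt_mvEval hc (A.πp k))
    have h4 := hz _ (hVπ l k)
    rw [h3]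
    simp only [zero_smul, add_zero]
    simp only [map_sub, map_sum, map_mul, sub_eq_zero] at h4
    rw [hv]
    simp only [h4]
    by_cases hk : k = l
    · rw [if_pos hk, map_pow, eval_aeval_eq]
      simp [hk, eb]
    · simp [hk, eb]

end Vale.Agent.P274
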