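import Vale.Agent.P274.A3x

/-! The projection is open; density of principal open sets; the norm lemma. -/

open Metric Set Filter Topology MvPolynomial

namespace Vale.Agent.P274

variable {N n : ℕ} {P : Ideal (MvPolynomial (Fin N) ℂ)}

/-- Fibres over bounded sets are bounded. -/
theorem PN.bounded (A : PN N n P) (R : ℝ) :
    ∃ R' : ℝ, ∀ z ∈ A.Z, ‖A.π z‖ ≤ R → ‖z‖ ≤ R' := by
  have key : ∀ i : Fin N, ∃ r : ℝ, ∀ z ∈ A.Z, ‖A.π z‖ ≤ R → ‖z i‖ ≤ r := by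
    intro i
    obtain ⟨m, hm, hP⟩ := A.int (X i)
    have hc : Continuous fun (y : E n) (j : Fin m.natDegree) => eval y (m.coeff j) :=
      continuous_pi fun j => MvPolynomial.continuous_eval _
    obtain ⟨C, hC⟩ := (isCompact_closedBall (0 : E n) R).exists_bound_of_continuousOn
      hc.continuousOn
    refine ⟨C.toNNReal + 1, fun z hz hR => ?_⟩
    have h1 := A.a3_eval hz hP
    rw [eval_X, Polynomial.eval₂_eq_eval_map] at h1
    have hm' := hm.map (eval (A.π z))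
    have h2 := (Polynomial.IsRoot.norm_lt_cauchyBound hm'.ne_zero h1).le
    have h3 : (m.map (eval (A.π z))).cauchyBound ≤ C.toNNReal + 1 := by
      unfold Polynomial.cauchyBound
      rw [hm'.leadingCoeff, nnnorm_one, div_one, hm.natDegree_map]
      refine add_le_add_left (Finset.sup_le fun j hj => ?_) _
      rw [Polynomial.coeff_map, ← NNReal.coe_le_coe, coe_nnnorm]
      exact ((norm_le_pi_norm (fun j : Fin m.natDegree => eval (A.π z) (m.coeff j))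
        ⟨j, Finset.mem_range.1 hj⟩).trans (hC _ (mem_closedBall_zero_iff.2 hR))).trans
          (Real.le_coe_toNNReal C)
    exact_mod_cast h2.trans h3
  choose r hr using key
  exact ⟨‖r‖, fun z hz hR => (pi_norm_le_iff_of_nonneg (norm_nonneg _)).2 fun i =>
    (hr i z hz hR).trans ((le_abs_self _).trans (norm_le_pi_norm r i))⟩

theorem PN.open_map (A : PN N n P) {z : E N} (hz : z ∈ A.Z) :
    𝓝 (A.π z) ≤ map A.π (𝓝[A.Z] z) := by
  intro s hs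
  obtain ⟨G, hG0, hG⟩ := a3_sep (T := (A.Z ∩ A.π ⁻¹' {A.π z}) \ {z})
    ((A.fib (A.π z)).1.subset sdiff_subset) (z := z) fun h => h.2 rfl
  obtain ⟨m, hm, hP, -, hlift⟩ := A.minp G
  obtain ⟨R', hR'⟩ := A.bounded (‖A.π z‖ + 1)
  have ha : 0 < ‖eval z G‖ := norm_pos_iff.2 hG0
  have hcG : Continuous fun w : E N => ‖eval z G - eval w G‖ :=
    (continuous_const.sub (MvPolynomial.continuous_eval G)).norm
  have e1 : ∀ᶠ y in 𝓝 (A.π z), ∀ w ∈ (A.Z ∩ closedBall 0 R') ∩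
      {w | ‖eval z G - eval w G‖ ≤ ‖eval z G‖ / 2}, A.π w = y → A.π w ∈ s := by
    refine a3_tube A.π_diff.continuous (((isCompact_closedBall 0 R').inter_left
      A.Z_closed).inter_right (isClosed_le hcG continuous_const)) fun w hw hy => ?_
    obtain rfl : w = z := by
      by_contra hne
      have h1 : ‖eval z G - eval w G‖ ≤ ‖eval z G‖ / 2 := hw.2
      rw [hG w ⟨⟨hw.1.1, hy⟩, hne⟩, sub_zero] at h1
      linarith
    filter_upwards [eventually_nhdsWithin_iff.1 (mem_map.1 hs)] with w' h1 h2 using h1 h2.1.1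
  have e2 : ∀ᶠ y in 𝓝 (A.π z), ‖y‖ < ‖A.π z‖ + 1 :=
    continuous_norm.continuousAt.eventually_lt continuousAt_const (lt_add_one _)
  have hev : ∀ y : E n, m.eval₂ (eval y) (eval z G) = eval y (m.eval (C (eval z G))) := by
    intro y
    rw [← Polynomial.eval₂_at_apply, eval_C]
  have e3 : ∀ᶠ y in 𝓝 (A.π z),
      ‖eval y (m.eval (C (eval z G)))‖ < (‖eval z G‖ / 2) ^ m.natDegree := by
    refine (MvPolynomial.continuous_eval _).norm.continuousAt.eventually_lt continuousAt_const ?_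
    rw [← hev, A.a3_eval hz hP, norm_zero]
    positivity
  filter_upwards [e1, e2, e3] with y h1 h2 h3
  rw [← hev, Polynomial.eval₂_eq_eval_map, ← hm.natDegree_map (eval y)] at h3
  obtain ⟨t, ht, ht'⟩ := a3_root (hm.map (eval y)) (by positivity) h3
  obtain ⟨w, hw, hwy, hwt⟩ := hlift y t (by rwa [Polynomial.eval₂_eq_eval_map])
  rw [← A.Z_eq] at hw
  have hπ : A.π w = y := funext fun l => (A.π_eq w l).trans (hwy l)
  have := h1 w ⟨⟨hw, mem_closedBall_zero_iff.2 (hR' w hw (hπ ▸ h2.le))⟩, by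
    change ‖eval z G - eval w G‖ ≤ _
    rw [hwt]; exact ht'.le⟩ hπ
  rwa [hπ] at this

theorem frequently_eval_ne {k : ℕ} {g : MvPolynomial (Fin k) ℂ} (hg : g ≠ 0) (y : E k) :
    ∃ᶠ y' in 𝓝 y, eval y' g ≠ 0 := by
  intro h
  have h1 : AnalyticOnNhd ℂ (fun z : E k => eval z g) univ := fun z _ => analytic_eval g z
  have h2 := h1.eqOn_zero_of_preconnected_of_eventuallyEq_zero isPreconnected_univ (mem_univ y)
    (h.mono fun _ h => not_not.1 h)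
  exact hg (MvPolynomial.funext fun z => by simpa using h2 (mem_univ z))

theorem PN.dense (A : PN N n P) {f : MvPolynomial (Fin N) ℂ} (hf : f ∉ P) {z : E N}
    (hz : z ∈ A.Z) : ∃ᶠ z' in 𝓝[A.Z] z, eval z' f ≠ 0 := by
  obtain ⟨m, -, hP, h0, -⟩ := A.minp f
  have h1 := frequently_map.1
    ((frequently_eval_ne (h0 hf) (A.π z)).filter_mono (A.open_map hz))
  refine (h1.and_eventually self_mem_nhdsWithin).mono fun w hw hw0 => hw.1 ?_
  have h2 := A.a3_eval hw.2 hP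
  rwa [hw0, Polynomial.eval₂_at_zero] at h2

/-- `g` is locally the restriction of a holomorphic function, on the set `S`. -/
def LocHol {N : ℕ} (S : Set (E N)) (g : E N → ℂ) : Prop :=
  ∀ z ∈ S, ∃ G : E N → ℂ, AnalyticAt ℂ G z ∧ g =ᶠ[𝓝[S] z] G

theorem PN.a3_radius (A : PN N n P) (x : E N) {ρ : ℝ} (hρ : 0 < ρ) :
    ∃ r : ℝ, 0 < r ∧ r < ρ ∧ ∀ w ∈ A.Z ∩ closedBall x r, A.π w = A.π x → w = x := by
  have h1 : IsClosed ((A.Z ∩ A.π ⁻¹' {A.π x}) \ {x}) :=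
    ((A.fib (A.π x)).1.subset sdiff_subset).isClosed
  obtain ⟨ε, hε, h2⟩ := Metric.mem_nhds_iff.1 (h1.isOpen_compl.mem_nhds fun h => h.2 rfl)
  refine ⟨min ε ρ / 2, by positivity, by linarith [min_le_right ε ρ], fun w hw hy => ?_⟩
  by_contra hne
  refine h2 (closedBall_subset_ball ?_ hw.2) ⟨⟨hw.1, hy⟩, hne⟩
  linarith [min_le_left ε ρ]

/-- The norm lemma: the product of `c - g` over the fibre points near `x`, along a complex
line in the base, is a holomorphic function of the parameter. -/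
theorem PN.norm_lemma (A : PN N n P) {x : E N} (hx : x ∈ A.Z) {ρ : ℝ} (hρ : 0 < ρ) :
    ∃ δ : ℝ, 0 < δ ∧ ∃ t ∈ 𝓝[A.Z] x, ∀ y ∈ t, A.Δ (A.π y) ≠ 0 →
      ∃ (s : ℂ) (e' : ℕ), ‖s‖ = ‖A.π y - A.π x‖ ∧ ‖s‖ < δ / 2 ∧ 1 ≤ e' ∧ e' ≤ A.e ∧
        ∀ (g : E N → ℂ) (b : ℝ), LocHol (A.Z ∩ ball x ρ) g → 1 ≤ b →
          (∀ z ∈ A.Z ∩ ball x ρ, ‖g z‖ ≤ b) →
          ∃ h : ℂ → ℂ, DifferentiableOn ℂ h (ball 0 δ) ∧ (∀ ζ ∈ ball (0 : ℂ) δ, ‖h ζ‖ ≤ b ^ A.e) ∧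
            h 0 = g x ^ e' ∧ ‖h s‖ ≤ b ^ A.e * ‖g y‖ := by
  classical
  obtain ⟨r, hr, hrρ, hone⟩ := A.a3_radius x hρ
  have hπ := A.π_diff.continuous
  have shrink : ∀ p : E N → Prop, (∀ᶠ w in 𝓝[A.Z] x, p w) →
      ∀ᶠ y in 𝓝 (A.π x), ∀ w ∈ A.Z ∩ closedBall x r, A.π w = y → p w := by
    intro p hp
    refine a3_tube hπ ((isCompact_closedBall x r).inter_left A.Z_closed) fun w hw hy => ?_
    rw [hone w hw hy]
    exact (eventually_nhdsWithin_iff.1 hp).mono fun w' h1 h2 => h1 h2.1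
  have hball : ∀ᶠ w in 𝓝[A.Z] x, w ∈ ball x r := mem_nhdsWithin_of_mem_nhds (ball_mem_nhds x hr)
  obtain ⟨δ, hδ, hin⟩ := Metric.eventually_nhds_iff_ball.1 (shrink _ hball)
  have hsm : ∀ᶠ w in 𝓝 x, ‖A.π w - A.π x‖ < δ / 2 :=
    (hπ.sub continuous_const).norm.continuousAt.eventually_lt continuousAt_const (by simpa using hδ)
  refine ⟨δ, hδ, {w | (w ∈ A.Z ∧ w ∈ ball x r) ∧ ‖A.π w - A.π x‖ < δ / 2},
    inter_mem (inter_mem self_mem_nhdsWithin hball) (mem_nhdsWithin_of_mem_nhds hsm),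
    fun y hy hΔ => ?_⟩
  obtain ⟨⟨hyZ, hyr⟩, hyδ⟩ := hy
  obtain ⟨s, hs⟩ : ∃ s : ℂ, s = (‖A.π y - A.π x‖ : ℝ) := ⟨_, rfl⟩
  have hsn : ‖s‖ = ‖A.π y - A.π x‖ := by rw [hs, Complex.norm_real, norm_norm]
  obtain ⟨v, hv1, hvs⟩ : ∃ v : E n, ‖v‖ ≤ 1 ∧ A.π x + s • v = A.π y := by
    by_cases h0 : s = 0
    · refine ⟨0, by simp, ?_⟩
      rw [h0, norm_zero, eq_comm, norm_eq_zero, sub_eq_zero] at hsn
      rw [smul_zero, add_zero, hsn]
    · refine ⟨s⁻¹ • (A.π y - A.π x), ?_, by rw [smul_inv_smul₀ h0, add_sub_cancel]⟩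
      rw [norm_smul, norm_inv, ← hsn, inv_mul_cancel₀ (norm_ne_zero_iff.2 h0)]
  obtain ⟨ℓ, hℓ⟩ : ∃ ℓ : ℂ → E n, ℓ = fun ζ => A.π x + ζ • v := ⟨_, rfl⟩
  have hℓd : Differentiable ℂ ℓ := by rw [hℓ]; fun_prop
  have hℓ0 : ℓ 0 = A.π x := by rw [hℓ]; simp
  have hℓs : ℓ s = A.π y := by rw [hℓ]; exact hvs
  have hℓb : ∀ ζ ∈ ball (0 : ℂ) δ, ℓ ζ ∈ ball (A.π x) δ := by
    intro ζ hζ
    rw [hℓ, mem_ball_iff_norm, add_sub_cancel_left, norm_smul]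
    exact (mul_le_of_le_one_right (norm_nonneg _) hv1).trans_lt (mem_ball_zero_iff.1 hζ)
  have hlim : Tendsto ℓ (𝓝[≠] 0) (𝓝 (A.π x)) :=
    (hℓ0 ▸ hℓd.continuous.tendsto 0).mono_left nhdsWithin_le_nhds
  have hgood : ∀ ζ : ℂ, ∀ᶠ ζ' in 𝓝[≠] ζ, A.Δ (ℓ ζ') ≠ 0 := by
    intro ζ
    have h1 : AnalyticOnNhd ℂ (fun ζ => A.Δ (ℓ ζ)) univ := fun w _ =>
      (A.Δ_diff.comp hℓd).analyticAt w
    by_contra hn
    have h2 := h1.eqOn_zero_of_preconnected_of_frequently_eq_zero isPreconnected_univ (mem_univ ζ)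
      ((not_eventually.1 hn).mono fun _ h => not_not.1 h) (mem_univ s)
    exact hΔ (hℓs ▸ h2)
  have hcnt : ∀ᶠ ζ in 𝓝[≠] (0 : ℂ), ∃ k ∈ Finset.Icc 1 A.e,
      (A.fibF (ball x r) (ℓ ζ)).card = k := by
    have h1 : ∀ᶠ y' in 𝓝 (A.π x), y' ∈ A.π '' (A.Z ∩ ball x r) :=
      A.open_map hx (image_mem_map (inter_mem self_mem_nhdsWithin hball))
    filter_upwards [hlim.eventually h1] with ζ ⟨w, hw, hwζ⟩
    exact ⟨_, Finset.mem_Icc.2 ⟨Finset.card_pos.2 ⟨w, A.mem_fibF.2 ⟨⟨hw.1, hwζ⟩, hw.2⟩⟩,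
      A.card_fibF _ _⟩, rfl⟩
  obtain ⟨e', he', hfr⟩ := (frequently_exists_finset _).1 hcnt.frequently
  refine ⟨s, e', hsn, hsn ▸ hyδ, (Finset.mem_Icc.1 he').1, (Finset.mem_Icc.1 he').2,
    fun g b hg hb hgb => ?_⟩
  have hsub : ∀ {y' w}, w ∈ A.fibF (ball x r) y' → w ∈ A.Z ∩ ball x ρ := fun hw =>
    ⟨(A.mem_fibF.1 hw).1.1, ball_subset_ball hrρ.le (A.mem_fibF.1 hw).2⟩
  have hg' : ∀ z ∈ A.Z ∩ ball x r, ∃ G : E N → ℂ, AnalyticAt ℂ G z ∧ g =ᶠ[𝓝[A.Z] z] G := by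
    intro z hz
    have hzρ := ball_subset_ball hrρ.le hz.2
    obtain ⟨G, hG, hgG⟩ := hg z ⟨hz.1, hzρ⟩
    rw [nhdsWithin_inter_of_mem' (mem_nhdsWithin_of_mem_nhds (isOpen_ball.mem_nhds hzρ))] at hgG
    exact ⟨G, hG, hgG⟩
  obtain ⟨h, hd, hbd, hgd, hto⟩ := a3_removable (f := fun ζ => ∏ w ∈ A.fibF (ball x r) (ℓ ζ), g w)
    (U := ball 0 δ) isOpen_ball (good := fun ζ => A.Δ (ℓ ζ) ≠ 0) (M := b ^ A.e)
    (fun ζ _ => hgood ζ)
    (fun ζ hζ h0 => (A.a3_analytic h0 (hin _ (hℓb ζ hζ)) hg').differentiableAt.comp ζ (hℓd ζ))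
    fun ζ _ => (a3_prod_le _ fun w hw => hgb w (hsub hw)).trans
      (pow_le_pow_right₀ hb (A.card_fibF _ _))
  refine ⟨h, hd, hbd, ?_, ?_⟩
  · have hxS : x ∈ A.Z ∩ ball x r := ⟨hx, mem_ball_self hr⟩
    obtain ⟨G, hG, hgG⟩ := hg' x hxS
    have hc : Tendsto g (𝓝[A.Z] x) (𝓝 (g x)) := by
      rw [hgG.self_of_nhdsWithin hx]
      exact (hG.continuousAt.tendsto.mono_left nhdsWithin_le_nhds).congr' hgG.symm
    have hε : ∀ ε : ℝ, 0 < ε → ‖h 0 - g x ^ e'‖ ≤ e' * b ^ e' * ε := by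
      intro ε hε
      have h1 := hlim.eventually (shrink (fun w => ‖g w - g x‖ ≤ ε)
        ((Metric.tendsto_nhds.1 hc ε hε).mono fun w hw => (mem_ball_iff_norm.1 hw).le))
      refine (isClosed_le (f := fun u : ℂ => ‖u - g x ^ e'‖) (by fun_prop)
        continuous_const).mem_of_frequently_of_tendsto ?_ (hto 0 (mem_ball_self hδ))
      refine (hfr.and_eventually h1).mono fun ζ hζ => ?_
      have h2 := a3_prod_sub (A.fibF (ball x r) (ℓ ζ)) (g := g) (c := g x) hb hε.le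
        (hgb x ⟨hx, mem_ball_self hρ⟩) fun w hw => ⟨hgb w (hsub hw), hζ.2 w
          ⟨(A.mem_fibF.1 hw).1.1, ball_subset_closedBall (A.mem_fibF.1 hw).2⟩
          (A.mem_fibF.1 hw).1.2⟩
      rwa [hζ.1] at h2
    have hpos : (0 : ℝ) < e' * b ^ e' + 1 := by positivity
    rw [← sub_eq_zero, ← norm_le_zero_iff]
    refine le_of_forall_pos_le_add fun ε hε' => ?_
    refine (hε (ε / (e' * b ^ e' + 1)) (by positivity)).trans ?_
    rw [zero_add, ← mul_div_assoc, div_le_iff₀ hpos]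
    nlinarith
  · have hsb : s ∈ ball (0 : ℂ) δ := mem_ball_zero_iff.2 (by rw [hsn]; linarith)
    have hyF : y ∈ A.fibF (ball x r) (ℓ s) := A.mem_fibF.2 ⟨⟨hyZ, hℓs.symm⟩, hyr⟩
    rw [hgd s hsb (hℓs ▸ hΔ), ← Finset.prod_erase_mul _ _ hyF, norm_mul]
    refine mul_le_mul_of_nonneg_right ((a3_prod_le _ fun w hw =>
      hgb w (hsub (Finset.mem_of_mem_erase hw))).trans (pow_le_pow_right₀ hb
        ((Finset.card_erase_le).trans (A.card_fibF _ _)))) (norm_nonneg _)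

end Vale.Agent.P274
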