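import Vale.Agent.P274.A2

/-! Tools for the openness of the projection and the norm lemma. -/

open Metric Set Filter Topology MvPolynomial

namespace Vale.Agent.P274

theorem a3_tube {X Y : Type*} [TopologicalSpace X] [TopologicalSpace Y] [T2Space Y] {π : X → Y}
    (hπ : Continuous π) {K : Set X} (hK : IsCompact K) {y0 : Y} {p : X → Prop}
    (h : ∀ w ∈ K, π w = y0 → ∀ᶠ w' in 𝓝 w, w' ∈ K → p w') :
    ∀ᶠ y in 𝓝 y0, ∀ w ∈ K, π w = y → p w := by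
  have h1 : IsClosed (π '' (K \ interior {w | w ∈ K → p w})) :=
    ((hK.diff isOpen_interior).image hπ).isClosed
  have h2 : y0 ∉ π '' (K \ interior {w | w ∈ K → p w}) := by
    rintro ⟨w, ⟨hw, hw'⟩, hy⟩
    exact hw' (mem_interior_iff_mem_nhds.2 (h w hw hy))
  filter_upwards [h1.isOpen_compl.mem_nhds h2] with y hy w hw hwy
  by_contra hp
  exact hy ⟨w, ⟨hw, fun hi => hp (interior_subset hi hw)⟩, hwy⟩

theorem a3_root {q : Polynomial ℂ} (hq : q.Monic) {a : ℂ} {ε : ℝ} (hε : 0 ≤ ε)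
    (h : ‖q.eval a‖ < ε ^ q.natDegree) : ∃ t, q.eval t = 0 ∧ ‖a - t‖ < ε := by
  by_contra hn
  push Not at hn
  have hs := IsAlgClosed.splits q
  have key : ∀ s : Multiset ℂ, (∀ t ∈ s, ε ≤ ‖a - t‖) →
      ε ^ Multiset.card s ≤ ‖(s.map (a - ·)).prod‖ := by
    intro s
    induction s using Multiset.induction_on with
    | empty => simp
    | cons t s ih =>
      intro hs
      rw [Multiset.map_cons, Multiset.prod_cons, Multiset.card_cons, norm_mul, pow_succ']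
      exact mul_le_mul (hs t (Multiset.mem_cons_self _ _))
        (ih fun u hu => hs u (Multiset.mem_cons_of_mem hu)) (by positivity) (norm_nonneg _)
  rw [hs.eval_eq_prod_roots_of_monic hq, hs.natDegree_eq_card_roots] at h
  exact absurd (key _ fun t ht => hn t (Polynomial.isRoot_of_mem_roots ht)) (not_le.2 h)

theorem a3_sep {N : ℕ} {T : Set (E N)} (hT : T.Finite) {z : E N} (hz : z ∉ T) :
    ∃ G : MvPolynomial (Fin N) ℂ, eval z G ≠ 0 ∧ ∀ w ∈ T, eval w G = 0 := by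
  induction T, hT using Set.Finite.induction_on with
  | empty => exact ⟨1, by simp, fun _ h => h.elim⟩
  | @insert w T _ _ ih =>
    obtain ⟨G, h1, h2⟩ := ih fun h => hz (mem_insert_of_mem _ h)
    have hne : z ≠ w := fun h => hz (h ▸ mem_insert _ _)
    obtain ⟨i, hi⟩ := Function.ne_iff.1 hne
    refine ⟨(X i - C (w i)) * G, ?_, fun u hu => ?_⟩
    · simpa [sub_eq_zero, hi] using h1
    · rcases hu with rfl | hu
      · simp
      · simp [h2 u hu]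

theorem a3_removable {f : ℂ → ℂ} {U : Set ℂ} (hU : IsOpen U) {good : ℂ → Prop} {M : ℝ}
    (h1 : ∀ ζ ∈ U, ∀ᶠ ζ' in 𝓝[≠] ζ, good ζ') (h2 : ∀ ζ ∈ U, good ζ → DifferentiableAt ℂ f ζ)
    (h3 : ∀ ζ ∈ U, ‖f ζ‖ ≤ M) :
    ∃ h : ℂ → ℂ, DifferentiableOn ℂ h U ∧ (∀ ζ ∈ U, ‖h ζ‖ ≤ M) ∧ (∀ ζ ∈ U, good ζ → h ζ = f ζ) ∧
      ∀ ζ ∈ U, Tendsto f (𝓝[≠] ζ) (𝓝 (h ζ)) := by
  have hg : ∀ ζ ∈ U, good ζ → limUnder (𝓝[≠] ζ) f = f ζ := fun ζ hζ hgz =>
    ((h2 ζ hζ hgz).continuousAt.tendsto.mono_left nhdsWithin_le_nhds).limUnder_eq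
  have key : ∀ ζ ∈ U, DifferentiableAt ℂ (fun ζ => limUnder (𝓝[≠] ζ) f) ζ ∧
      Tendsto f (𝓝[≠] ζ) (𝓝 (limUnder (𝓝[≠] ζ) f)) := by
    intro ζ hζ
    have hs : {w | w ∈ U ∧ (w ≠ ζ → good w)} ∈ 𝓝 ζ :=
      inter_mem (hU.mem_nhds hζ) (eventually_nhdsWithin_iff.1 (h1 ζ hζ))
    have hd := Complex.differentiableOn_update_limUnder_of_bddAbove (f := f) hs
      (fun w hw => (h2 w hw.1.1 (hw.1.2 hw.2)).differentiableWithinAt)
      ⟨M, by rintro _ ⟨w, hw, rfl⟩; exact h3 w hw.1.1⟩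
    have hd' := hd.differentiableAt hs
    refine ⟨hd'.congr_of_eventuallyEq ?_, ?_⟩
    · filter_upwards [hs] with w hw
      by_cases hwz : w = ζ
      · rw [hwz, Function.update_self]
      · rw [Function.update_of_ne hwz, hg w hw.1 (hw.2 hwz)]
    · exact continuousAt_update_same.1 hd'.continuousAt
  refine ⟨fun ζ => limUnder (𝓝[≠] ζ) f, fun ζ hζ => (key ζ hζ).1.differentiableWithinAt,
    fun ζ hζ => ?_, hg, fun ζ hζ => (key ζ hζ).2⟩
  refine le_of_tendsto (key ζ hζ).2.norm ?_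
  filter_upwards [mem_nhdsWithin_of_mem_nhds (hU.mem_nhds hζ)] with w hw using h3 w hw

theorem a3_prod_le {α : Type*} (T : Finset α) {g : α → ℂ} {b : ℝ} (h : ∀ w ∈ T, ‖g w‖ ≤ b) :
    ‖∏ w ∈ T, g w‖ ≤ b ^ T.card := by
  rw [norm_prod, ← Finset.prod_const]
  exact Finset.prod_le_prod (fun _ _ => norm_nonneg _) h

theorem a3_prod_sub {α : Type*} (T : Finset α) {g : α → ℂ} {c : ℂ} {b ε : ℝ} (hb : 1 ≤ b)
    (hε : 0 ≤ ε) (hc : ‖c‖ ≤ b) (h : ∀ w ∈ T, ‖g w‖ ≤ b ∧ ‖g w - c‖ ≤ ε) :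
    ‖∏ w ∈ T, g w - c ^ T.card‖ ≤ T.card * b ^ T.card * ε := by
  classical
  induction T using Finset.induction_on with
  | empty => simp
  | insert a T ha ih =>
    have i1 := ih fun w hw => h w (Finset.mem_insert_of_mem hw)
    obtain ⟨i2, i3⟩ := h a (Finset.mem_insert_self _ _)
    rw [Finset.prod_insert ha, Finset.card_insert_of_notMem ha]
    have e : g a * ∏ w ∈ T, g w - c ^ (T.card + 1) =
        g a * (∏ w ∈ T, g w - c ^ T.card) + (g a - c) * c ^ T.card := by ring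
    have i4 : ‖c ^ T.card‖ ≤ b ^ (T.card + 1) := by
      rw [norm_pow]
      exact (pow_le_pow_left₀ (norm_nonneg _) hc _).trans (pow_le_pow_right₀ hb (Nat.le_succ _))
    have i5 := mul_le_mul i2 i1 (norm_nonneg _) (by linarith)
    have i6 := mul_le_mul i3 i4 (norm_nonneg _) hε
    rw [e]
    refine (norm_add_le _ _).trans ?_
    rw [norm_mul, norm_mul]
    push_cast
    refine (add_le_add i5 i6).trans (le_of_eq ?_)
    ring

variable {N n : ℕ} {P : Ideal (MvPolynomial (Fin N) ℂ)}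

theorem PN.a3_eval (A : PN N n P) {z : E N} (hz : z ∈ A.Z) {f : MvPolynomial (Fin N) ℂ}
    {m : Polynomial (MvPolynomial (Fin n) ℂ)}
    (h : m.eval₂ (aeval A.πp : MvPolynomial (Fin n) ℂ →ₐ[ℂ] _).toRingHom f ∈ P) :
    m.eval₂ (eval (A.π z)) (eval z f) = 0 := by
  rw [A.Z_eq] at hz
  have h1 := hz _ h
  rw [Polynomial.hom_eval₂] at h1
  have h2 : (eval z).comp (aeval A.πp : MvPolynomial (Fin n) ℂ →ₐ[ℂ] _).toRingHom =
      eval (A.π z) := by
    refine MvPolynomial.ringHom_ext (fun r => ?_) fun i => ?_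
    · simp
    · simp [A.π_eq]
  rwa [h2] at h1

open Classical in
/-- The points of a fibre that lie in `W`. -/
noncomputable def NN.fibF (A : NN N n) (W : Set (E N)) (y : E n) : Finset (E N) :=
  (A.fib y).1.toFinset.filter (· ∈ W)

theorem NN.mem_fibF (A : NN N n) {W : Set (E N)} {y : E n} {z : E N} :
    z ∈ A.fibF W y ↔ (z ∈ A.Z ∧ A.π z = y) ∧ z ∈ W := by
  simp [NN.fibF]

theorem NN.card_fibF (A : NN N n) (W : Set (E N)) (y : E n) : (A.fibF W y).card ≤ A.e := by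
  classical
  refine (Finset.card_filter_le _ _).trans ?_
  rw [← Set.ncard_eq_toFinset_card _ (A.fib y).1]
  exact (A.fib y).2

/-- The norm of a holomorphic function is holomorphic off the discriminant. -/
theorem NN.a3_analytic (A : NN N n) {x : E N} {r : ℝ} {y0 : E n} (hΔ : A.Δ y0 ≠ 0)
    (hin : ∀ w ∈ A.Z ∩ closedBall x r, A.π w = y0 → w ∈ ball x r) {g : E N → ℂ}
    (hg : ∀ z ∈ A.Z ∩ ball x r, ∃ G : E N → ℂ, AnalyticAt ℂ G z ∧ g =ᶠ[𝓝[A.Z] z] G) :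
    AnalyticAt ℂ (fun y => ∏ w ∈ A.fibF (ball x r) y, g w) y0 := by
  classical
  have hsec : ∀ z : E N, ∃ s : E n → E N, z ∈ A.fibF (ball x r) y0 → AnalyticAt ℂ s y0 ∧
      s y0 = z ∧ (∀ᶠ y in 𝓝 y0, s y ∈ A.Z ∧ A.π (s y) = y) ∧
        ∀ᶠ z' in 𝓝[A.Z] z, s (A.π z') = z' := by
    intro z
    by_cases hz : z ∈ A.fibF (ball x r) y0
    · obtain ⟨⟨h1, rfl⟩, -⟩ := A.mem_fibF.1 hz
      obtain ⟨s, hs⟩ := A.sec z h1 hΔ
      exact ⟨s, fun _ => hs⟩
    · exact ⟨fun _ => 0, fun h => absurd h hz⟩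
  choose σ hσ using hsec
  have ht : ∀ z ∈ A.fibF (ball x r) y0, Tendsto (σ z) (𝓝 y0) (𝓝 z) := by
    intro z hz
    have := (hσ z hz).1.continuousAt.tendsto
    rwa [(hσ z hz).2.1] at this
  have e1 : ∀ᶠ y in 𝓝 y0, ∀ z ∈ A.fibF (ball x r) y0, σ z y ∈ A.fibF (ball x r) y := by
    rw [eventually_all_finset]
    intro z hz
    filter_upwards [(hσ z hz).2.2.1,
      (ht z hz).eventually (isOpen_ball.mem_nhds (A.mem_fibF.1 hz).2)] with y h1 h2
    exact A.mem_fibF.2 ⟨h1, h2⟩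
  have e2 : ∀ᶠ y in 𝓝 y0, ∀ z ∈ A.fibF (ball x r) y0, ∀ z' ∈ A.fibF (ball x r) y0,
      σ z y = σ z' y → z = z' := by
    rw [eventually_all_finset]
    intro z hz
    rw [eventually_all_finset]
    intro z' hz'
    by_cases hzz : z = z'
    · exact Eventually.of_forall fun _ _ => hzz
    · filter_upwards [((ht z hz).sub (ht z' hz')).eventually_ne (sub_ne_zero.2 hzz)] with y h1 h2
      exact absurd h2 (sub_ne_zero.1 h1)
  have e3 : ∀ᶠ y in 𝓝 y0, ∀ w ∈ A.Z ∩ closedBall x r, A.π w = y →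
      ∃ z ∈ A.fibF (ball x r) y0, σ z (A.π w) = w := by
    refine a3_tube A.π_diff.continuous ((isCompact_closedBall x r).inter_left A.Z_closed)
      fun w hw hy => ?_
    have hwF : w ∈ A.fibF (ball x r) y0 := A.mem_fibF.2 ⟨⟨hw.1, hy⟩, hin w hw hy⟩
    filter_upwards [eventually_nhdsWithin_iff.1 (hσ w hwF).2.2.2] with w' h1 h2
    exact ⟨w, hwF, h1 h2.1⟩
  have an : AnalyticAt ℂ (fun y => ∏ z ∈ A.fibF (ball x r) y0, g (σ z y)) y0 := by
    refine Finset.analyticAt_fun_prod _ fun z hz => ?_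
    obtain ⟨⟨h1, -⟩, h2⟩ := A.mem_fibF.1 hz
    obtain ⟨G, hG, hgG⟩ := hg z ⟨h1, h2⟩
    have h3 : AnalyticAt ℂ (fun y => G (σ z y)) y0 :=
      AnalyticAt.comp_of_eq hG (hσ z hz).1 (hσ z hz).2.1
    have h4 : Tendsto (σ z) (𝓝 y0) (𝓝[A.Z] z) :=
      tendsto_nhdsWithin_iff.2 ⟨ht z hz, (hσ z hz).2.2.1.mono fun _ h => h.1⟩
    exact h3.congr (h4.eventually hgG.symm)
  refine an.congr ?_
  filter_upwards [e1, e2, e3] with y h1 h2 h3
  refine Finset.prod_bij (fun z _ => σ z y) h1 (fun z hz z' hz' => h2 z hz z' hz')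
    (fun w hw => ?_) fun _ _ => rfl
  obtain ⟨⟨h4, h5⟩, h6⟩ := A.mem_fibF.1 hw
  obtain ⟨z, hz, h7⟩ := h3 w ⟨h4, ball_subset_closedBall h6⟩ h5
  exact ⟨z, hz, h5 ▸ h7⟩

end Vale.Agent.P274
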