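import Vale.Agent.P274.A3
import Vale.Agent.P274.A1
import Vale.Agent.Lib.RiemannMapping

/-! Equicontinuity, Harnack inequality and the maximum trick on a singular variety. -/

open Metric Set Filter Topology MvPolynomial

namespace Vale.Agent.P274

variable {N : ℕ}

/-- Equicontinuity and Harnack property of bounded holomorphic functions at `x`. -/
def Equi (U : Set (E N)) (x : E N) : Prop :=
  (∀ η : ℝ, 0 < η → ∀ᶠ y in 𝓝[U] x, ∀ g, LocHol U g → (∀ z ∈ U, ‖g z‖ ≤ 1) → ‖g y - g x‖ ≤ η) ∧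
  ∃ t ∈ 𝓝[U] x, ∀ η : ℝ, 0 < η → ∃ η' : ℝ, 0 < η' ∧ ∀ g, LocHol U g → (∀ z ∈ U, ‖g z‖ ≤ 1) →
    1 - η' ≤ ‖g x‖ → ∀ y ∈ t, 1 - η ≤ ‖g y‖

/-- A variety is a finite union of irreducible ones. -/
theorem exists_components (S : Set (MvPolynomial (Fin N) ℂ)) :
    ∃ Ps : Set (Ideal (MvPolynomial (Fin N) ℂ)), Ps.Finite ∧ (∀ P ∈ Ps, P.IsPrime) ∧
      (∀ P ∈ Ps, ∀ Q ∈ Ps, P ≤ Q → P = Q) ∧ zeros S = ⋃ P ∈ Ps, zeros (P : Set _) := by
  refine ⟨(Ideal.span S).minimalPrimes, Ideal.finite_minimalPrimes_of_isNoetherianRing _ _,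
    fun P hP => hP.1.1, fun P hP Q hQ h => le_antisymm h (hQ.2 hP.1 h), ?_⟩
  ext z
  simp only [mem_iUnion]
  refine ⟨fun hz => ?_, fun ⟨P, hP, hz⟩ f hf => hz f (hP.1.2 (Ideal.subset_span hf))⟩
  have : (RingHom.ker (eval z : MvPolynomial (Fin N) ℂ →+* ℂ)).IsPrime := RingHom.ker_isPrime _
  obtain ⟨P, hP, hle⟩ := Ideal.exists_minimalPrimes_le
    (show Ideal.span S ≤ RingHom.ker (eval z : MvPolynomial (Fin N) ℂ →+* ℂ) from
      Ideal.span_le.2 fun f hf => hz f hf)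
  exact ⟨P, hP, fun f hf => hle hf⟩

theorem a4_mono {U W : Set (E N)} {g : E N → ℂ} (hg : LocHol U g) (h : W ⊆ U) : LocHol W g :=
  fun z hz =>
    let ⟨G, h1, h2⟩ := hg z (h hz)
    ⟨G, h1, h2.filter_mono (nhdsWithin_mono _ h)⟩

theorem a4_cont {U : Set (E N)} {g : E N → ℂ} (hg : LocHol U g) {z : E N} (hz : z ∈ U) :
    ContinuousWithinAt g U z := by
  obtain ⟨G, h1, h2⟩ := hg z hz
  exact h1.continuousAt.continuousWithinAt.congr_of_eventuallyEq h2 (h2.eq_of_nhdsWithin hz)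

theorem a4_sub {U : Set (E N)} {g : E N → ℂ} (hg : LocHol U g) (c : ℂ) :
    LocHol U fun z => g z - c := fun z hz =>
  let ⟨G, h1, h2⟩ := hg z hz
  ⟨fun w => G w - c, h1.sub analyticAt_const, h2.mono fun _ hw => by simp only [hw]⟩

theorem a4_eval {n : ℕ} (z : E N) (q : Fin n → MvPolynomial (Fin N) ℂ)
    (f : MvPolynomial (Fin n) ℂ) : eval z (aeval q f) = eval (fun l => eval z (q l)) f := by
  induction f using MvPolynomial.induction_on with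
  | C a => simp
  | add f g hf hg => rw [map_add, map_add, map_add, hf, hg]
  | mul_X f i hf => rw [map_mul, map_mul, map_mul, hf, aeval_X, eval_X]

theorem a4_freq {n : ℕ} {P : Ideal (MvPolynomial (Fin N) ℂ)} (A : PN N n P) {z : E N}
    (hz : z ∈ A.Z) : ∃ᶠ z' in 𝓝[A.Z] z, A.Δ (A.π z') ≠ 0 := by
  refine (A.dense (f := aeval A.πp A.Δp) (fun h => A.Δp_ne (A.inj _ h)) hz).mono fun w hw => ?_
  rw [a4_eval] at hw
  rw [A.Δ_eq, show A.π w = fun l => eval w (A.πp l) from funext (A.π_eq w)]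
  exact hw

/-- A closed condition on the values extends over the discriminant. -/
theorem a4_ext {n : ℕ} {P : Ideal (MvPolynomial (Fin N) ℂ)} (A : PN N n P) {x : E N}
    {t : Set (E N)} (ht : t ∈ 𝓝[A.Z] x) : ∃ t' ∈ 𝓝[A.Z] x, ∀ (g : E N → ℂ) (C : Set ℂ),
      IsClosed C → LocHol t g → (∀ y ∈ t, A.Δ (A.π y) ≠ 0 → g y ∈ C) → ∀ y ∈ t', g y ∈ C := by
  obtain ⟨V, hV, hxV, hs⟩ := mem_nhdsWithin.1 ht
  refine ⟨V ∩ A.Z, inter_mem (mem_nhdsWithin_of_mem_nhds (hV.mem_nhds hxV)) self_mem_nhdsWithin,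
    fun g C hC hg h y hy => ?_⟩
  have h1 : t ∈ 𝓝[A.Z] y := mem_nhdsWithin.2 ⟨V, hV, hy.1, hs⟩
  have h2 : Tendsto g (𝓝[A.Z] y) (𝓝 (g y)) :=
    (a4_cont hg (hs hy)).tendsto.mono_left (nhdsWithin_le_of_mem h1)
  exact hC.mem_of_frequently_of_tendsto
    (((a4_freq A hy.2).and_eventually h1).mono fun w hw => h w hw.2 hw.1) h2

theorem a4_harnack {h : ℂ → ℂ} {δ : ℝ} (hd : DifferentiableOn ℂ h (ball 0 δ))
    (hb : ∀ ζ ∈ ball (0 : ℂ) δ, ‖h ζ‖ ≤ 1) {s : ℂ} (hs : ‖s‖ < δ / 2) :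
    1 - ‖h s‖ ≤ 8 * (1 - ‖h 0‖) := by
  have hδ : 0 < δ := by linarith [norm_nonneg s]
  have hsb : s ∈ ball (0 : ℂ) δ := mem_ball_zero_iff.2 (by linarith)
  have h0 := hb 0 (mem_ball_self hδ)
  have hw := hb s hsb
  rcases h0.eq_or_lt with h1 | h1
  · have h2 := Complex.norm_eqOn_of_isPreconnected_of_isMaxOn (convex_ball 0 δ).isPreconnected
      isOpen_ball hd (mem_ball_self hδ) (fun ζ hζ => (hb ζ hζ).trans h1.ge) hsb
    have h3 : ‖h s‖ = ‖h 0‖ := h2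
    rw [h3, h1]
    norm_num
  have h2 := Lib.RMT.norm_mob_le_of_ball hd (fun ζ hζ => mem_closedBall_zero_iff.2 (hb ζ hζ)) h1 hsb
  have h3 : ‖Lib.RMT.mob (h 0) (h s)‖ ≤ 1 / 2 := by
    refine h2.trans ?_
    rw [sub_zero, div_le_iff₀ hδ]
    linarith
  have h4 := Lib.RMT.one_sub_norm_mob_sq (a := -h 0) (w := Lib.RMT.mob (h 0) (h s))
    (by rwa [norm_neg]) (by linarith)
  rw [Lib.RMT.mob_neg_mob h1 hw, norm_neg] at h4
  generalize Lib.RMT.mob (h 0) (h s) = m at h3 h4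
  have h5 : 1 / 2 ≤ ‖1 - (starRingEnd ℂ) (-h 0) * m‖ := by
    have h6 := norm_sub_norm_le (1 : ℂ) ((starRingEnd ℂ) (-h 0) * m)
    rw [norm_one, norm_mul, Complex.norm_conj, norm_neg] at h6
    nlinarith [norm_nonneg m, norm_nonneg (h 0)]
  have a0 := norm_nonneg (h 0)
  have w0 := norm_nonneg (h s)
  have m0 := norm_nonneg m
  have h7 : 1 - ‖h s‖ ^ 2 ≤ 4 * (1 - ‖h 0‖ ^ 2) := by
    rw [h4, div_le_iff₀ (by positivity)]
    have h8 : 0 ≤ 1 - ‖h 0‖ ^ 2 := by nlinarith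
    have h9 : 1 - ‖m‖ ^ 2 ≤ 4 * ‖1 - (starRingEnd ℂ) (-h 0) * m‖ ^ 2 := by nlinarith
    nlinarith [mul_le_mul_of_nonneg_left h9 h8]
  nlinarith

theorem PN.equi {n : ℕ} {P : Ideal (MvPolynomial (Fin N) ℂ)} [P.IsPrime] (A : PN N n P)
    {O : Set (E N)} (hO : IsOpen O) {U : Set (E N)} (hU : A.Z ∩ O ⊆ U) {x : E N}
    (hx : x ∈ A.Z ∩ O) :
    (∀ η : ℝ, 0 < η → ∀ᶠ y in 𝓝[A.Z] x, ∀ g, LocHol U g → (∀ z ∈ U, ‖g z‖ ≤ 1) →
      ‖g y - g x‖ ≤ η) ∧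
    ∃ t ∈ 𝓝[A.Z] x, ∀ η : ℝ, 0 < η → ∃ η' : ℝ, 0 < η' ∧ ∀ g, LocHol U g →
      (∀ z ∈ U, ‖g z‖ ≤ 1) → 1 - η' ≤ ‖g x‖ → ∀ y ∈ t, 1 - η ≤ ‖g y‖ := by
  obtain ⟨ρ, hρ, hρO⟩ := Metric.isOpen_iff.1 hO x hx.2
  obtain ⟨δ, hδ, t, ht, H⟩ := A.norm_lemma hx.1 hρ
  have hW : A.Z ∩ ball x ρ ⊆ U := fun z hz => hU ⟨hz.1, hρO hz.2⟩
  have hWn : A.Z ∩ ball x ρ ∈ 𝓝[A.Z] x := inter_mem_nhdsWithin _ (ball_mem_nhds x hρ)
  have hxU : x ∈ U := hU hx
  refine ⟨fun η hη => ?_, ?_⟩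
  · have hη1 : 0 < min η 1 := lt_min hη one_pos
    have hc : ∀ᶠ y in 𝓝 x, 2 * 2 ^ A.e / δ * ‖A.π y - A.π x‖ < min η 1 ^ A.e := by
      have h1 : Continuous fun y => 2 * 2 ^ A.e / δ * ‖A.π y - A.π x‖ :=
        continuous_const.mul (A.π_diff.continuous.sub continuous_const).norm
      refine h1.continuousAt.eventually_lt continuousAt_const ?_
      simp only [sub_self, norm_zero, mul_zero]
      positivity
    obtain ⟨t', ht', H'⟩ := a4_ext A (inter_mem (inter_mem ht hWn) (mem_nhdsWithin_of_mem_nhds hc))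
    filter_upwards [ht'] with y hy g hg hb
    refine mem_closedBall_iff_norm.1 (H' g (closedBall (g x) η) isClosed_closedBall
      (a4_mono hg fun z hz => hW hz.1.2) (fun w hw hΔ => ?_) y hy)
    obtain ⟨s, e', s1, s2, e1, e2, H2⟩ := H w hw.1.1 hΔ
    obtain ⟨h, d1, d2, d3, d4⟩ := H2 (fun z => g z - g w) 2 (a4_sub (a4_mono hg hW) _) one_le_two
      fun z hz => (norm_sub_le _ _).trans (by linarith [hb z (hW hz), hb w (hW hw.1.2)])
    have hsb : s ∈ ball (0 : ℂ) δ := mem_ball_zero_iff.2 (by linarith)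
    have h3 := Complex.dist_le_div_mul_dist_of_mapsTo_ball (R₂ := 2 * 2 ^ A.e) d1
      (fun ζ hζ => mem_closedBall_iff_norm.2 ((norm_sub_le _ _).trans
        (by linarith [d2 ζ hζ, d2 0 (mem_ball_self hδ)]))) hsb
    rw [sub_self, norm_zero, mul_zero, norm_le_zero_iff] at d4
    rw [d4, d3, dist_zero_left, dist_zero_right, norm_pow, s1] at h3
    have h4 : min η 1 ^ A.e ≤ min η 1 ^ e' := pow_le_pow_of_le_one hη1.le (min_le_right _ _) e2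
    have h5 : ‖g x - g w‖ < min η 1 :=
      lt_of_pow_lt_pow_left₀ e' hη1.le ((h3.trans_lt hw.2).trans_le h4)
    rw [mem_closedBall_iff_norm']
    exact h5.le.trans (min_le_left _ _)
  · obtain ⟨t', ht', H'⟩ := a4_ext A (inter_mem ht hWn)
    refine ⟨t', ht', fun η hη => ⟨min 1 (η / (8 * A.e + 1)), by positivity,
      fun g hg hb hgx y hy => ?_⟩⟩
    refine H' g {c | 1 - η ≤ ‖c‖} (isClosed_le continuous_const continuous_norm)
      (a4_mono hg fun z hz => hW hz.2) (fun w hw hΔ => ?_) y hy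
    obtain ⟨s, e', -, s2, -, e2, H2⟩ := H w hw.1 hΔ
    obtain ⟨h, d1, d2, d3, d4⟩ := H2 g 1 (a4_mono hg hW) le_rfl fun z hz => hb z (hW hz)
    rw [one_pow] at d2 d4
    have h3 := a4_harnack d1 d2 s2
    rw [d3, norm_pow] at h3
    have m1 := min_le_left 1 (η / (8 * A.e + 1))
    have m2 := min_le_right 1 (η / (8 * A.e + 1))
    have m0 : 0 < min 1 (η / (8 * A.e + 1)) := by positivity
    generalize min 1 (η / (8 * (A.e : ℝ) + 1)) = η' at hgx m0 m1 m2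
    have h4 : 1 + (e' : ℝ) * -η' ≤ (1 + -η') ^ e' := one_add_mul_le_pow (by linarith) e'
    have h5 : (1 + -η') ^ e' ≤ ‖g x‖ ^ e' := pow_le_pow_left₀ (by linarith) (by linarith) e'
    have h6 : (e' : ℝ) * η' ≤ A.e * η' := mul_le_mul_of_nonneg_right (Nat.cast_le.2 e2) m0.le
    rw [le_div_iff₀ (by positivity)] at m2
    show 1 - η ≤ ‖g w‖
    nlinarith

theorem equi_of_open (S : Set (MvPolynomial (Fin N) ℂ)) {O : Set (E N)} (hO : IsOpen O)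
    {x : E N} (hx : x ∈ zeros S ∩ O) : Equi (zeros S ∩ O) x := by
  obtain ⟨Ps, hf, hp, -, hS⟩ := exists_components S
  have key : ∀ P ∈ Ps, (∀ η : ℝ, 0 < η → ∀ᶠ y in 𝓝[zeros (P : Set _)] x,
      ∀ g, LocHol (zeros S ∩ O) g → (∀ z ∈ zeros S ∩ O, ‖g z‖ ≤ 1) → ‖g y - g x‖ ≤ η) ∧
      ∃ t ∈ 𝓝[zeros (P : Set _)] x, ∀ η : ℝ, 0 < η → ∃ η' : ℝ, 0 < η' ∧
        ∀ g, LocHol (zeros S ∩ O) g → (∀ z ∈ zeros S ∩ O, ‖g z‖ ≤ 1) → 1 - η' ≤ ‖g x‖ →
          ∀ y ∈ t, 1 - η ≤ ‖g y‖ := by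
    intro P hP
    have := hp P hP
    obtain ⟨n, ⟨A0⟩⟩ := exists_PA P
    obtain ⟨A⟩ := A0.exists_PN
    have hsub : zeros (P : Set (MvPolynomial (Fin N) ℂ)) ⊆ zeros S := by
      rw [hS]
      exact subset_biUnion_of_mem (u := fun P : Ideal (MvPolynomial (Fin N) ℂ) =>
        zeros (P : Set (MvPolynomial (Fin N) ℂ))) hP
    rw [← A.Z_eq] at hsub ⊢
    by_cases hxZ : x ∈ A.Z
    · exact A.equi hO (inter_subset_inter_left _ hsub) ⟨hxZ, hx.2⟩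
    · have hb : 𝓝[A.Z] x = ⊥ := by
        rw [← notMem_closure_iff_nhdsWithin_eq_bot, A.Z_closed.closure_eq]
        exact hxZ
      rw [hb]
      exact ⟨fun _ _ => eventually_bot, ∅, mem_bot, fun η _ => ⟨1, one_pos,
        fun _ _ _ _ y hy => absurd hy (notMem_empty y)⟩⟩
  have hle : 𝓝[zeros S ∩ O] x ≤ ⨆ P ∈ Ps, 𝓝[zeros (P : Set _)] x := by
    rw [← nhdsWithin_biUnion hf, ← hS]
    exact nhdsWithin_mono _ inter_subset_left
  refine ⟨fun η hη => Eventually.filter_mono hle ?_, ?_⟩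
  · simp only [eventually_iSup]
    exact fun P hP => (key P hP).1 η hη
  choose! t ht H using fun P hP => (key P hP).2
  refine ⟨⋃ P ∈ Ps, t P, hle ?_, fun η hη => ?_⟩
  · simp only [mem_iSup]
    exact fun P hP => mem_of_superset (ht P hP) (subset_biUnion_of_mem hP)
  have h1 : ∀ᶠ η' in 𝓝[>] (0 : ℝ), ∀ P ∈ Ps, ∀ g, LocHol (zeros S ∩ O) g →
      (∀ z ∈ zeros S ∩ O, ‖g z‖ ≤ 1) → 1 - η' ≤ ‖g x‖ → ∀ y ∈ t P, 1 - η ≤ ‖g y‖ := by
    refine (eventually_all_finite hf).2 fun P hP => ?_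
    obtain ⟨a, ha, Ha⟩ := H P hP η hη
    filter_upwards [Ioo_mem_nhdsGT ha] with b hb g g1 g2 g3
    exact Ha g g1 g2 (by linarith [hb.2])
  obtain ⟨a, Ha, ha⟩ := (h1.and self_mem_nhdsWithin).exists
  refine ⟨a, ha, fun g g1 g2 g3 y hy => ?_⟩
  obtain ⟨P, hP, hy⟩ := mem_iUnion₂.1 hy
  exact Ha P hP g g1 g2 g3 y hy

open Classical in
theorem a4_pull {U : Set (E N)} {a : U → U} (ha : HolMap U fun x => (a x).1) {g : E N → ℂ}
    (hg : Differentiable ℂ g) :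
    LocHol U fun z => if h : z ∈ U then g (a ⟨z, h⟩).1 else 0 := by
  intro z hz
  obtain ⟨W, hW, hzW, G, hG, hGa⟩ := ha ⟨z, hz⟩
  refine ⟨fun w => g (G w), P278F.analyticOnNhd_of_differentiableOn hW
    (hg.comp_differentiableOn hG) z hzW, ?_⟩
  filter_upwards [self_mem_nhdsWithin, mem_nhdsWithin_of_mem_nhds (hW.mem_nhds hzW)] with w h1 h2
  rw [dif_pos h1, ← hGa ⟨w, h1⟩ h2]

/-- The set where the moduli tend to one is everything. -/
theorem a4_all {U : Set (E N)} (hc : IsConnected U) (hE : ∀ x ∈ U, Equi U x)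
    {G : ℕ → E N → ℂ} (hG : ∀ j, LocHol U (G j)) (hb : ∀ j, ∀ z ∈ U, ‖G j z‖ ≤ 1) {k : U}
    (hk : ∀ η : ℝ, 0 < η → ∀ᶠ j in atTop, 1 - η ≤ ‖G j k.1‖) (y : U) :
    ∀ η : ℝ, 0 < η → ∀ᶠ j in atTop, 1 - η ≤ ‖G j y.1‖ := by
  have : PreconnectedSpace U := Subtype.preconnectedSpace hc.isPreconnected
  have hT : IsClopen {y : U | ∀ η : ℝ, 0 < η → ∀ᶠ j in atTop, 1 - η ≤ ‖G j y.1‖} := by
    refine ⟨isClosed_of_closure_subset fun w hw η hη => ?_, isOpen_iff_mem_nhds.2 fun w hw => ?_⟩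
    · have h1 := preimage_coe_mem_nhds_subtype.2 ((hE w.1 w.2).1 (η / 2) (by linarith))
      obtain ⟨v, v1, v2⟩ := mem_closure_iff_nhds.1 hw _ h1
      filter_upwards [v2 (η / 2) (by linarith)] with j hj
      have h2 : ‖G j v.1 - G j w.1‖ ≤ η / 2 := v1 (G j) (hG j) (hb j)
      linarith [norm_sub_norm_le (G j v.1) (G j w.1)]
    · obtain ⟨t, ht, H⟩ := (hE w.1 w.2).2
      refine mem_of_superset (preimage_coe_mem_nhds_subtype.2 ht) fun v hv η hη => ?_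
      obtain ⟨η', h1, h2⟩ := H η hη
      filter_upwards [hw η' h1] with j hj
      exact h2 (G j) (hG j) (hb j) hj v.1 hv
  have h := hT.eq_univ ⟨k, hk⟩
  exact (h.ge (mem_univ y) :)

/-- The maximum trick. -/
theorem max_trick_sing {U : Set (E N)} (hc : IsConnected U) (hE : ∀ x ∈ U, Equi U x)
    {Γ : Type*} [Group Γ] [MulAction Γ U] (hhol : ∀ γ : Γ, HolMap U (fun x => (γ • x : U).1))
    {K : Set U} (hK : IsCompact K) (hcov : ∀ x : U, ∃ γ : Γ, γ • x ∈ K)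
    {g : E N → ℂ} (hg : Differentiable ℂ g) (hb : Bornology.IsBounded U) {S : Set U}
    (hS : S.Nonempty) (hinv : ∀ γ : Γ, ∀ x ∈ S, γ • x ∈ S) (h0 : ∀ x ∈ S, g x.1 = 0)
    (x : U) : g x.1 = 0 := by
  classical
  by_contra hx
  obtain ⟨B, hB⟩ := hb.isCompact_closure.exists_bound_of_continuousOn hg.continuous.continuousOn
  have hbd : BddAbove (range fun y : U => ‖g y.1‖) :=
    ⟨B, fun _ ⟨y, hy⟩ => hy ▸ hB y.1 (subset_closure y.2)⟩
  have : Nonempty U := ⟨x⟩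
  have hle : ∀ y : U, ‖g y.1‖ ≤ ⨆ y : U, ‖g y.1‖ := fun y => le_ciSup hbd y
  have hM : 0 < ⨆ y : U, ‖g y.1‖ := (norm_pos_iff.2 hx).trans_le (hle x)
  have hex : ∀ j : ℕ, ∃ y : U, (1 - 1 / ((j : ℝ) + 1)) * (⨆ y : U, ‖g y.1‖) < ‖g y.1‖ := fun j =>
    exists_lt_of_lt_ciSup (mul_lt_of_lt_one_left hM (by
      have : 0 < 1 / ((j : ℝ) + 1) := by positivity
      linarith))
  generalize (⨆ y : U, ‖g y.1‖) = M at hle hM hex
  choose u hu using hex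
  choose γ hγ using fun j => hcov (u j)
  obtain ⟨k, -, φ, hφ, hk⟩ := hK.tendsto_subseq hγ
  have hg1 : Differentiable ℂ fun z => g z / M := by
    simpa only [div_eq_mul_inv] using hg.mul_const (M : ℂ)⁻¹
  have hn : ∀ z, ‖g z / M‖ = ‖g z‖ / M := fun z => by
    rw [norm_div, Complex.norm_real, Real.norm_of_nonneg hM.le]
  have hG := fun j => a4_pull (hhol (γ (φ j))⁻¹) hg1
  have hGb : ∀ j, ∀ z ∈ U, ‖if h : z ∈ U then g ((γ (φ j))⁻¹ • (⟨z, h⟩ : U)).1 / M else 0‖ ≤ 1 :=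
    fun j z hz => by
      rw [dif_pos hz, hn, div_le_one hM]
      exact hle _
  obtain ⟨s, hs⟩ := hS
  have h1 := a4_all hc hE hG hGb (k := k) (fun η hη => ?_) s (1 / 2) (by norm_num)
  · obtain ⟨j, hj⟩ := h1.exists
    rw [dif_pos s.2, h0 _ (hinv _ s hs), zero_div, norm_zero] at hj
    linarith
  have h2 := hk.eventually (preimage_coe_mem_nhds_subtype.2 ((hE k.1 k.2).1 (η / 2) (by linarith)))
  have h3 : ∀ᶠ j in atTop, 1 / ((φ j : ℝ) + 1) < η / 2 :=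
    (tendsto_one_div_add_atTop_nhds_zero_nat.comp hφ.tendsto_atTop).eventually
      (gt_mem_nhds (by linarith))
  filter_upwards [h2, h3] with j a1 a2
  have a3 := a1 _ (hG j) (hGb j)
  have a4 := norm_sub_norm_le
    (if h : (γ (φ j) • u (φ j)).1 ∈ U then
      g ((γ (φ j))⁻¹ • (⟨(γ (φ j) • u (φ j)).1, h⟩ : U)).1 / M else 0)
    (if h : k.1 ∈ U then g ((γ (φ j))⁻¹ • (⟨k.1, h⟩ : U)).1 / M else 0)
  have a5 : 1 - η / 2 ≤ ‖if h : (γ (φ j) • u (φ j)).1 ∈ U then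
      g ((γ (φ j))⁻¹ • (⟨(γ (φ j) • u (φ j)).1, h⟩ : U)).1 / M else 0‖ := by
    rw [dif_pos (γ (φ j) • u (φ j)).2, Subtype.coe_eta, inv_smul_smul, hn, le_div_iff₀ hM]
    exact (mul_le_mul_of_nonneg_right (by linarith) hM.le).trans (hu (φ j)).le
  have a6 := a4.trans a3
  linarith

end Vale.Agent.P274
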