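import Vale.Agent.P274.A4
import Vale.Agent.P274.A1
import Vale.Agent.P274.B1c

/-! Smoothness of `U`. -/

open Metric Set Filter Topology MvPolynomial

namespace Vale.Agent.P274

variable {N : ℕ}

/-- `U` has an `n`-dimensional chart at `x`. -/
def HasChart (U : Set (E N)) (n : ℕ) (x : E N) : Prop :=
  ∃ (p : E N → E n) (s : E n → E N), AnalyticAt ℂ p x ∧ AnalyticAt ℂ s (p x) ∧ s (p x) = x ∧
    (∀ᶠ w in 𝓝 (p x), s w ∈ U ∧ p (s w) = w) ∧ ∀ᶠ y in 𝓝[U] x, s (p y) = y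

theorem A5_ext {U : Set (E N)} {k : ℕ} {f : U → E k} (h : HolMap U f) (x : U) :
    ∃ g : E N → E k, AnalyticAt ℂ g x.1 ∧ g x.1 = f x ∧
      ∀ᶠ y in 𝓝 x.1, ∀ hy : y ∈ U, g y = f ⟨y, hy⟩ := by
  obtain ⟨W, hW, hx, g, hg, he⟩ := h x
  exact ⟨g, P278F.analyticOnNhd_of_differentiableOn hW hg _ hx, (he x hx).symm,
    mem_of_superset (hW.mem_nhds hx) fun y hy hU => (he ⟨y, hU⟩ hy).symm⟩

theorem A5_continuous {U : Set (E N)} {k : ℕ} {f : U → E k} (h : HolMap U f) : Continuous f := by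
  refine continuous_iff_continuousAt.2 fun x => ?_
  obtain ⟨g, h1, -, h3⟩ := A5_ext h x
  refine (h1.continuousAt.comp continuous_subtype_val.continuousAt).congr ?_
  filter_upwards [continuous_subtype_val.continuousAt.eventually h3] with y hy
  exact hy y.2

theorem A5_inv {U : Set (E N)} {a b : U → U} (hab : ∀ y, b (a y) = y) {x : U} {g g' : E N → E N}
    (hg : ContinuousAt g x.1) (h0 : g x.1 = (a x).1)
    (h1 : ∀ᶠ y in 𝓝 x.1, ∀ hy : y ∈ U, g y = (a ⟨y, hy⟩).1)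
    (h2 : ∀ᶠ y in 𝓝 (a x).1, ∀ hy : y ∈ U, g' y = (b ⟨y, hy⟩).1) :
    ∀ᶠ y in 𝓝 x.1, y ∈ U → g y ∈ U ∧ g' (g y) = y := by
  rw [← h0] at h2
  filter_upwards [h1, hg.eventually h2] with y e1 e2 hy
  have hU : g y ∈ U := e1 hy ▸ (a ⟨y, hy⟩).2
  refine ⟨hU, ?_⟩
  rw [e2 hU, show (⟨g y, hU⟩ : U) = a ⟨y, hy⟩ from Subtype.ext (e1 hy), hab]

theorem HasChart.smul {U : Set (E N)} {n : ℕ} {Γ : Type*} [Group Γ] [MulAction Γ U]
    (hhol : ∀ γ : Γ, HolMap U (fun x => (γ • x : U).1)) {x : U} (h : HasChart U n x.1) (γ : Γ) :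
    HasChart U n (γ • x : U).1 := by
  obtain ⟨p, s, hp, hs, h0, h1, h2⟩ := h
  obtain ⟨g, g1, g2, g3⟩ := A5_ext (hhol γ) x
  obtain ⟨g', g1', g2', g3'⟩ := A5_ext (hhol γ⁻¹) (γ • x)
  have k1 := A5_inv (a := fun y => γ • y) (b := fun y => γ⁻¹ • y) (fun y => inv_smul_smul γ y)
    g1.continuousAt g2 g3 g3'
  have k2 := A5_inv (a := fun y => γ⁻¹ • y) (b := fun y => γ • y) (fun y => smul_inv_smul γ y)
    g1'.continuousAt g2' g3' (by simpa only [inv_smul_smul] using g3)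
  simp only [inv_smul_smul] at g2'
  have e : (p ∘ g') (γ • x : U).1 = p x.1 := by simp only [Function.comp_apply, g2']
  refine ⟨p ∘ g', g ∘ s, hp.comp_of_eq g1' g2', ?_, ?_, ?_, ?_⟩
  · rw [e]
    exact g1.comp_of_eq hs h0
  · rw [e, Function.comp_apply, h0, g2]
  · rw [e]
    have t : Tendsto s (𝓝 (p x.1)) (𝓝 x.1) := by
      have := hs.continuousAt.tendsto
      rwa [h0] at this
    filter_upwards [h1, t.eventually k1] with w a1 a2
    obtain ⟨b1, b2⟩ := a2 a1.1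
    exact ⟨b1, by simp only [Function.comp_apply, b2, a1.2]⟩
  · have k3 : ∀ᶠ y in 𝓝[U] (γ • x : U).1, g' y ∈ U ∧ g (g' y) = y := by
      filter_upwards [nhdsWithin_le_nhds k2, self_mem_nhdsWithin] with y a1 a2
      exact a1 a2
    have t : Tendsto g' (𝓝[U] (γ • x : U).1) (𝓝[U] x.1) := by
      refine tendsto_nhdsWithin_iff.2 ⟨?_, k3.mono fun y hy => hy.1⟩
      have := g1'.continuousAt.tendsto
      rw [g2'] at this
      exact this.mono_left nhdsWithin_le_nhds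
    filter_upwards [k3, t.eventually h2] with y a1 a2
    simp only [Function.comp_apply, a2, a1.2]

/-- A chart with a linear coordinate map. -/
theorem A5_linear {U : Set (E N)} {n : ℕ} {x : E N} (h : HasChart U n x) :
    ∃ (L : E N →L[ℂ] E n) (σ : E n → E N), AnalyticAt ℂ σ 0 ∧ σ 0 = x ∧
      (∀ᶠ v in 𝓝 (0 : E n), σ v ∈ U ∧ L (σ v - x) = v) ∧
      ∀ᶠ y in 𝓝[U] x, σ (L (y - x)) = y := by
  obtain ⟨p, s, hp, hs, h0, h1, h2⟩ := h
  set L := fderiv ℂ p x with hL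
  have hΦ : AnalyticAt ℂ (fun w => L (s w - x)) (p x) :=
    (L.analyticAt _).comp (hs.sub analyticAt_const)
  have d1 : HasFDerivAt (fun w => L (s w - x)) (L.comp (fderiv ℂ s (p x))) (p x) :=
    L.hasFDerivAt.comp _ (hs.differentiableAt.hasFDerivAt.sub_const x)
  have d2 : HasFDerivAt (p ∘ s) (L.comp (fderiv ℂ s (p x))) (p x) :=
    HasFDerivAt.comp _ (by rw [h0]; exact hp.differentiableAt.hasFDerivAt)
      hs.differentiableAt.hasFDerivAt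
  have d3 : HasFDerivAt (p ∘ s) (ContinuousLinearMap.id ℂ (E n)) (p x) :=
    (hasFDerivAt_id (p x)).congr_of_eventuallyEq (h1.mono fun w hw => hw.2)
  obtain ⟨Ψ, a1, a2, a3, -⟩ := exists_analytic_inverse rfl hΦ fun v hv => by
    rwa [d1.fderiv, d2.unique d3] at hv
  have e0 : L (s (p x) - x) = 0 := by rw [h0, sub_self, map_zero]
  have e1 : Ψ 0 = p x := by rw [← e0]; exact a2.self_of_nhds
  simp only [e0] at a1 a3
  refine ⟨L, s ∘ Ψ, hs.comp_of_eq a1 e1, by rw [Function.comp_apply, e1, h0], ?_, ?_⟩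
  · have t : Tendsto Ψ (𝓝 0) (𝓝 (p x)) := by
      have := a1.continuousAt.tendsto
      rwa [e1] at this
    filter_upwards [a3, t.eventually h1] with v b1 b2
    exact ⟨b2.1, b1⟩
  · filter_upwards [h2, nhdsWithin_le_nhds (hp.continuousAt.eventually a2)] with y b1 b2
    have b3 : Ψ (L (s (p y) - x)) = p y := b2
    rw [b1] at b3
    rw [Function.comp_apply, b3, b1]

theorem A5_chart {U : Set (E N)} {n : ℕ} (x : U) (h : HasChart U n x.1) :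
    ∃ (L : E N →L[ℂ] E n) (r : ℝ) (ψ : E n → U), 0 < r ∧ ψ 0 = x ∧
      DifferentiableOn ℂ (fun w => (ψ w : E N)) (ball 0 r) ∧
      (∀ w ∈ ball (0 : E n) r, L ((ψ w : E N) - x) = w) ∧
      ∀ w ∈ ball (0 : E n) r, ∀ᶠ (y : U) in 𝓝 (ψ w), ψ (L (y.1 - x.1)) = y := by
  classical
  obtain ⟨L, σ, a1, a2, a3, a4⟩ := A5_linear h
  obtain ⟨T, hT, hxT, hTU⟩ := mem_nhdsWithin.1 a4
  have a5 : ∀ᶠ v in 𝓝 (0 : E n), σ v ∈ T :=
    a1.continuousAt.eventually (hT.mem_nhds (a2 ▸ hxT))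
  obtain ⟨r, hr, hb⟩ := Metric.eventually_nhds_iff_ball.1
    (a1.eventually_analyticAt.and (a3.and a5))
  let ψ : E n → U := fun v => if hv : σ v ∈ U then ⟨σ v, hv⟩ else x
  have e : ∀ v, σ v ∈ U → (ψ v : E N) = σ v := fun v hv => by simp only [ψ, dif_pos hv]
  refine ⟨L, r, ψ, hr, Subtype.ext ((e 0 (a2 ▸ x.2)).trans a2), ?_, fun w hw => ?_,
    fun w hw => ?_⟩
  · exact DifferentiableOn.congr (f := σ)
      (fun w hw => (hb w hw).1.differentiableAt.differentiableWithinAt)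
      fun w hw => e w (hb w hw).2.1.1
  · rw [e w (hb w hw).2.1.1]
    exact (hb w hw).2.1.2
  · have : ∀ᶠ (y : U) in 𝓝 (ψ w), y.1 ∈ T :=
      continuous_subtype_val.continuousAt.eventually
        (hT.mem_nhds (by rw [e w (hb w hw).2.1.1]; exact (hb w hw).2.2))
    filter_upwards [this] with y hy
    have k : σ (L (y.1 - x.1)) = y.1 := hTU ⟨hy, y.2⟩
    exact Subtype.ext ((e _ (k.symm ▸ y.2)).trans k)

theorem exists_BM {U : Set (E N)} {n : ℕ} (hb : Bornology.IsBounded U) (hc : IsConnected U)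
    (h : ∀ x ∈ U, HasChart U n x) : ∃ M : BM N n, M.U = U := by
  choose L r ψ h1 h2 h3 h4 h5 using fun x : U => A5_chart x (h x.1 x.2)
  exact ⟨⟨U, hb, hc, L, r, ψ, h1, h2, h3, h4, h5⟩, rfl⟩

/-- A compact quotient gives a compact set meeting every orbit. -/
theorem exists_compact_cover {X Γ : Type*} [TopologicalSpace X] [LocallyCompactSpace X]
    [Group Γ] [MulAction Γ X] (hc : ∀ γ : Γ, Continuous (fun x : X => γ • x))
    [CompactSpace (Quotient (MulAction.orbitRel Γ X))] :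
    ∃ K : Set X, IsCompact K ∧ ∀ x : X, ∃ γ : Γ, γ • x ∈ K := by
  haveI : ContinuousConstSMul Γ X := ⟨hc⟩
  letI := MulAction.orbitRel Γ X
  choose K hK hx using fun x : X => exists_compact_mem_nhds x
  obtain ⟨t, ht⟩ := (isCompact_univ (X := Quotient (MulAction.orbitRel Γ X))).elim_finite_subcover
    (fun x : X => Quotient.mk' '' interior (K x))
    (fun x => isOpenMap_quotient_mk'_mul _ isOpen_interior) (by
      rintro ⟨x⟩ -
      exact mem_iUnion.2 ⟨x, x, mem_interior_iff_mem_nhds.2 (hx x), rfl⟩)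
  refine ⟨⋃ x ∈ t, K x, t.isCompact_biUnion fun x _ => hK x, fun x => ?_⟩
  obtain ⟨y, hy, z, hz, e⟩ := mem_iUnion₂.1 (ht (mem_univ (Quotient.mk' x)))
  obtain ⟨γ, hγ⟩ : z ∈ MulAction.orbit Γ x := MulAction.orbitRel_apply.1 (Quotient.exact e)
  exact ⟨γ, mem_iUnion₂.2 ⟨y, hy, by
    have : γ • x = z := hγ
    rw [this]
    exact interior_subset hz⟩⟩

theorem A5_eval {n : ℕ} {P : Ideal (MvPolynomial (Fin N) ℂ)} (A : PN N n P) (z : E N) :
    eval z (aeval A.πp A.Δp) = A.Δ (A.π z) := by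
  rw [A.Δ_eq, show A.π z = fun l => eval z (A.πp l) from funext (A.π_eq z), aeval_eq_bind₁,
    ← coe_aeval_eq_eval, ← coe_aeval_eq_eval]
  exact aeval_bind₁ _ _ _

/-- Points of `U` on exactly one component, away from the discriminant, have charts. -/
theorem A5_sec {n : ℕ} {P : Ideal (MvPolynomial (Fin N) ℂ)} (A : PN N n P) {O U : Set (E N)}
    (hO : IsOpen O) (h1 : A.Z ∩ O ⊆ U) {x : E N} (hx : x ∈ O)
    (h2 : ∀ᶠ y in 𝓝 x, y ∈ U → y ∈ A.Z) (hZ : x ∈ A.Z) (hΔ : A.Δ (A.π x) ≠ 0) :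
    HasChart U n x := by
  obtain ⟨s, a1, a2, a3, a4⟩ := A.sec x hZ hΔ
  refine ⟨A.π, s, P278F.analyticOnNhd_of_differentiableOn isOpen_univ
    A.π_diff.differentiableOn x (mem_univ x), a1, a2, ?_, ?_⟩
  · filter_upwards [a3, a1.continuousAt.eventually (hO.mem_nhds (a2.symm ▸ hx))] with w b1 b2
    exact ⟨h1 ⟨b1.1, b2⟩, b1.2⟩
  · rw [eventually_nhdsWithin_iff] at a4 ⊢
    filter_upwards [a4, h2] with y b1 b2 b3
    exact b1 (b2 b3)

theorem A5_step {Ps : Set (Ideal (MvPolynomial (Fin N) ℂ))} (hf : Ps.Finite)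
    (hm : ∀ P ∈ Ps, ∀ Q ∈ Ps, P ≤ Q → P = Q) {O U : Set (E N)} (hO : IsOpen O)
    (hU : U = (⋃ P ∈ Ps, zeros (P : Set _)) ∩ O) (hc : IsConnected U)
    (hb : Bornology.IsBounded U) (hE : ∀ x ∈ U, Equi U x)
    {Γ : Type*} [Group Γ] [MulAction Γ U] (hhol : ∀ γ : Γ, HolMap U (fun x => (γ • x : U).1))
    {K : Set U} (hK : IsCompact K) (hcov : ∀ x : U, ∃ γ : Γ, γ • x ∈ K)
    {P : Ideal (MvPolynomial (Fin N) ℂ)} [P.IsPrime] (hP : P ∈ Ps) {n : ℕ} (A : PN N n P)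
    {z : E N} (hz : z ∈ A.Z ∩ O) :
    (∃ x ∈ U, A.Δ (A.π x) ≠ 0) ∧ ∀ x ∈ U, HasChart U n x := by
  classical
  have hex : ∀ Q : Ideal (MvPolynomial (Fin N) ℂ), ∃ f, Q ∈ Ps → Q ≠ P → f ∈ Q ∧ f ∉ P := by
    intro Q
    by_cases hQ : Q ∈ Ps ∧ Q ≠ P
    · obtain ⟨f, f1, f2⟩ := SetLike.not_le_iff_exists.1 fun h => hQ.2 (hm Q hQ.1 P hP h)
      exact ⟨f, fun _ _ => ⟨f1, f2⟩⟩
    · exact ⟨0, fun a b => absurd ⟨a, b⟩ hQ⟩
  choose f hfQ using hex
  set h := aeval A.πp A.Δp * ∏ Q ∈ hf.toFinset.erase P, f Q with hh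
  have hP' : h ∉ P := fun hmem => by
    rcases Ideal.IsPrime.mem_or_mem inferInstance hmem with a | a
    · exact A.Δp_ne (A.inj _ a)
    · obtain ⟨Q, q1, q2⟩ := Ideal.IsPrime.prod_mem_iff.1 a
      rw [Finset.mem_erase, Finite.mem_toFinset] at q1
      exact (hfQ Q q1.2 q1.1).2 q2
  have hZU : A.Z ∩ O ⊆ U := fun y hy => by
    rw [hU]
    exact ⟨mem_biUnion hP (A.Z_eq ▸ hy.1), hy.2⟩
  have k1 : ∀ y, eval y h ≠ 0 → A.Δ (A.π y) ≠ 0 := fun y hy e => by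
    rw [hh, map_mul, A5_eval, e, zero_mul] at hy
    exact hy rfl
  have k2 : ∀ y, eval y h ≠ 0 → y ∈ U → y ∈ A.Z := fun y hy hyU => by
    rw [hU] at hyU
    obtain ⟨Q, q1, q2⟩ := mem_iUnion₂.1 hyU.1
    by_cases e : Q = P
    · rw [A.Z_eq, ← e]
      exact q2
    · refine absurd ?_ hy
      rw [hh, map_mul, map_prod, Finset.prod_eq_zero (i := Q)
        (Finset.mem_erase.2 ⟨e, hf.mem_toFinset.2 q1⟩) (q2 _ (hfQ Q q1 e).1), mul_zero]
  obtain ⟨y, y1, y2, y3⟩ := ((A.dense hP' hz.1).and_eventually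
    ((eventually_mem_nhdsWithin (s := A.Z)).and (nhdsWithin_le_nhds (hO.mem_nhds hz.2)))).exists
  have hy : y ∈ U := hZU ⟨y2, y3⟩
  refine ⟨⟨y, hy, k1 y y1⟩, fun x hx => ?_⟩
  by_contra hn
  refine y1 (max_trick_sing hc hE hhol hK hcov (g := fun z => eval z h)
    (fun z => (analytic_eval h z).differentiableAt) hb (S := {x : U | ¬ HasChart U n x.1})
    ⟨⟨x, hx⟩, hn⟩ (fun γ w hw a => hw ?_) (fun w hw => ?_) ⟨y, hy⟩)
  · simpa only [inv_smul_smul] using a.smul hhol γ⁻¹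
  · by_contra e
    refine hw (A5_sec A hO hZU (hU.subset w.2).2 ?_ (k2 _ e w.2) (k1 _ e))
    exact ((analytic_eval h w.1).continuousAt.eventually_ne e).mono k2

theorem A5_one {n : ℕ} (M : BM N n) {Ps : Set (Ideal (MvPolynomial (Fin N) ℂ))} (hf : Ps.Finite)
    (h : M.U ⊆ ⋃ P ∈ Ps, zeros (P : Set _)) : ∃ P ∈ Ps, M.U ⊆ zeros (P : Set _) := by
  by_contra hn
  have hex : ∀ P : Ps, ∃ f ∈ P.1, ∃ x : M.X, eval x.1 f ≠ 0 := fun P => by
    by_contra e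
    push Not at e
    exact hn ⟨P.1, P.2, fun x hx f hf => e f hf ⟨x, hx⟩⟩
  choose f f1 f2 using hex
  haveI := hf.to_subtype
  have hol : ∀ P, M.Hol fun x => eval x.1 (f P) := fun P x =>
    (M.holAt_ι x).comp_analytic (g := fun z => eval z (f P)) (analytic_eval _ _)
  obtain ⟨x, hx⟩ := ((finite_range fun P : Ps => {x : M.X | eval x.1 (f P) ≠ 0}).dense_sInter
    (forall_mem_range.2 fun P => isOpen_ne_fun (hol P).continuous continuous_const)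
    (forall_mem_range.2 fun P => (hol P).dense_ne_zero (f2 P))).nonempty
  obtain ⟨P, p1, p2⟩ := mem_iUnion₂.1 (h x.2)
  exact hx _ ⟨⟨P, p1⟩, rfl⟩ (p2 _ (f1 ⟨P, p1⟩))

theorem smooth_of_cocompact (S : Set (MvPolynomial (Fin N) ℂ)) {O U : Set (E N)}
    (hO : IsOpen O) (hU : U = zeros S ∩ O) (hc : IsConnected U) (hb : Bornology.IsBounded U)
    {Γ : Type*} [Group Γ] [MulAction Γ U] (hhol : ∀ γ : Γ, HolMap U (fun x => (γ • x : U).1))
    {K : Set U} (hK : IsCompact K) (hcov : ∀ x : U, ∃ γ : Γ, γ • x ∈ K) :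
    ∃ (n : ℕ) (P : Ideal (MvPolynomial (Fin N) ℂ)) (_ : P.IsPrime) (A : PN N n P),
      U = A.Z ∩ O ∧ (∃ x ∈ U, A.Δ (A.π x) ≠ 0) ∧ ∀ x ∈ U, HasChart U n x := by
  obtain ⟨Ps, hf, hp, hm, hS⟩ := exists_components S
  have hE : ∀ x ∈ U, Equi U x := fun x hx => by
    rw [hU] at hx ⊢
    exact equi_of_open S hO hx
  rw [hS] at hU
  have key : ∀ P ∈ Ps, ∀ z ∈ zeros (P : Set _) ∩ O, ∃ (n : ℕ) (A : PN N n P),
      (∃ x ∈ U, A.Δ (A.π x) ≠ 0) ∧ ∀ x ∈ U, HasChart U n x := fun P hP z hz => by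
    haveI := hp P hP
    obtain ⟨n, ⟨B⟩⟩ := exists_PA P
    obtain ⟨A⟩ := B.exists_PN
    exact ⟨n, A, A5_step hf hm hO hU hc hb hE hhol hK hcov hP A (z := z) (A.Z_eq ▸ hz)⟩
  have hsub : U ⊆ (⋃ P ∈ Ps, zeros (P : Set _)) ∩ O := hU.subset
  obtain ⟨z, hz⟩ := hc.nonempty
  obtain ⟨P, p1, p2⟩ := mem_iUnion₂.1 (hsub hz).1
  obtain ⟨n, -, -, h1⟩ := key P p1 z ⟨p2, (hsub hz).2⟩
  obtain ⟨M, hM⟩ := exists_BM hb hc h1
  obtain ⟨Q, q1, q2⟩ := A5_one M hf (hM ▸ fun x hx => (hsub hx).1)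
  rw [hM] at q2
  obtain ⟨k, A, h2⟩ := key Q q1 z ⟨q2 hz, (hsub hz).2⟩
  refine ⟨k, Q, hp Q q1, A, Subset.antisymm (fun x hx => ⟨A.Z_eq ▸ q2 hx, (hsub hx).2⟩)
    (fun x hx => hU.symm.subset ⟨mem_biUnion q1 (A.Z_eq ▸ hx.1), hx.2⟩), h2⟩

end Vale.Agent.P274
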