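import Vale.Agent.P274.H2x

/-! The walls. -/

open Metric Set Filter Topology MvPolynomial

namespace Vale.Agent.P274

/-- Squarefree part, with elimination of one variable from the polynomial and its derivative. -/
theorem exists_squarefree_elim {σ : Type} [Fintype σ] [DecidableEq σ] {R : MvPolynomial σ ℝ}
    (hR : R ≠ 0) : ∃ ρ : MvPolynomial σ ℝ, ρ ≠ 0 ∧ (∃ k, R ∣ ρ ^ k) ∧
      ∀ a : σ, ∃ r u v : MvPolynomial σ ℝ, r ≠ 0 ∧ pderiv a r = 0 ∧
        r = u * ρ + v * pderiv a ρ := by
  exact h2_sqf hR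

/-- A holomorphic function whose zero set lies in a smooth hypersurface vanishes on it. -/
theorem vanish_on_hypersurface {Q : Type*} [NormedAddCommGroup Q] [NormedSpace ℂ Q]
    [FiniteDimensional ℂ Q] {p ρ : Q → ℂ} {x v : Q} (hp : AnalyticAt ℂ p x)
    (hρ : AnalyticAt ℂ ρ x) (hp0 : p x = 0) (hv : fderiv ℂ ρ x v ≠ 0)
    (h : ∀ᶠ y in 𝓝 x, p y = 0 → ρ y = 0) : ∀ᶠ y in 𝓝 x, ρ y = 0 → p y = 0 := by
  exact h2_vanish (hp.eventually_analyticAt.mono fun _ h => h.differentiableAt) hρ hp0 hv h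

theorem generic_line {n : ℕ} {Δ : MvPolynomial (Fin n) ℂ} (hΔ : Δ ≠ 0)
    {ρ : MvPolynomial (Fin n ⊕ Fin n) ℝ} (hρ : ρ ≠ 0)
    (h : ∀ a, ∃ r u v : MvPolynomial (Fin n ⊕ Fin n) ℝ, r ≠ 0 ∧ pderiv a r = 0 ∧
      r = u * ρ + v * pderiv a ρ) (i : Fin n) {O : Set (E n)} (hO : IsOpen O) (hne : O.Nonempty) :
    ∃ y ∈ O, {s : ℂ | Bad (fun y => eval y Δ) (polar ρ) i (y + s • eb i)}.Finite ∧
      ¬ Bad (fun y => eval y Δ) (polar ρ) i y := by
  obtain ⟨r1, u1, v1, a1, b1, c1⟩ := h (Sum.inl i)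
  obtain ⟨r2, u2, v2, a2, b2, c2⟩ := h (Sum.inr i)
  obtain ⟨y0, h0, h0'⟩ := h2_open hΔ hO hne
  let g : (Fin n ⊕ Fin n → ℝ) → E n := fun w j => w (Sum.inl j) + w (Sum.inr j) * Complex.I
  have hg : Continuous g := by fun_prop
  have g1 : ∀ w, reim (g w) = w := fun w => by
    funext j
    rcases j with j | j <;> simp [reim, g]
  have g2 : g (reim y0) = y0 := by
    funext j
    simp [reim, g]
  have hc : Continuous fun y : E n => eval y Δ := continuous_eval Δ
  obtain ⟨w, ⟨h1, h2⟩, h3⟩ := h2_open (mul_ne_zero hρ (mul_ne_zero a1 a2))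
    ((hO.inter (isOpen_ne_fun hc (continuous_const (y := 0)))).preimage hg)
    ⟨reim y0, by rw [mem_preimage, g2]; exact ⟨h0, h0'⟩⟩
  simp only [map_mul, mul_ne_zero_iff] at h3
  refine ⟨g w, h1, ?_, ?_⟩
  · have f1 := h2_line (Pi.single (Sum.inr i) 1) h3.2.1
    have f2 := h2_line (Pi.single (Sum.inl i) 1) h3.2.2
    refine ((h2_line (eb i) h2).union ((f2.prod f1).preimage
      Complex.equivRealProd.injective.injOn)).subset fun s hs => hs.imp id ?_
    rintro ⟨e1, e2⟩
    rw [polar_diag, Complex.ofReal_eq_zero] at e1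
    rw [fderiv_polar_diag, div_eq_zero_iff, or_iff_left two_ne_zero, Complex.ext_iff] at e2
    simp only [Complex.sub_re, Complex.ofReal_re, Complex.mul_re, Complex.I_re, zero_mul,
      Complex.I_im, Complex.ofReal_im, mul_zero, sub_zero, Complex.zero_re, Complex.sub_im,
      Complex.mul_im, one_mul, zero_add, zero_sub, Complex.zero_im, neg_eq_zero] at e2
    have e3 : reim (g w + s • eb i) = w + s.re • (Pi.single (Sum.inl i) 1 : _ → ℝ) +
        s.im • (Pi.single (Sum.inr i) 1 : _ → ℝ) := by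
      funext j
      rcases j with j | j <;> by_cases hj : j = i <;> simp [reim, g, eb, hj]
    constructor
    · have : eval (reim (g w + s • eb i)) r2 = 0 := by
        rw [c2, map_add, map_mul, map_mul, e1, e2.2, mul_zero, mul_zero, add_zero]
      rwa [e3, h2_indep b2] at this
    · have : eval (reim (g w + s • eb i)) r1 = 0 := by
        rw [c1, map_add, map_mul, map_mul, e1, e2.1, mul_zero, mul_zero, add_zero]
      rwa [e3, add_right_comm, h2_indep b1] at this
  · rintro (e | ⟨e, -⟩)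
    · exact h2 e
    · rw [polar_diag, Complex.ofReal_eq_zero, g1] at e
      exact h3.1 e

theorem PN.exists_wall {N n : ℕ} {P : Ideal (MvPolynomial (Fin N) ℂ)} [P.IsPrime] (A : PN N n P)
    {U : Set (E N)} (hU : IsSemialg U) : Nonempty (Wall A.toNN U) := by
  classical
  obtain ⟨𝒬, h𝒬⟩ := hU.exists_signs
  have h1 : ∀ Q : MvPolynomial (Fin N ⊕ Fin N) ℝ, ∃ R : MvPolynomial (Fin n ⊕ Fin n) ℝ, R ≠ 0 ∧
      ((∀ z ∈ A.Z, eval (reim z) Q = 0) ∨ ∀ z ∈ A.Z, ∀ z' ∈ A.Z, polar Q (z, star z') = 0 →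
        polar R (A.π z, star (A.π z')) = 0) := fun Q => by
    rcases A.exists_norm Q with h | ⟨R, h, h'⟩
    · exact ⟨1, one_ne_zero, Or.inl h⟩
    · exact ⟨R, h, Or.inr h'⟩
  choose R hR h1 using h1
  obtain ⟨ρ, hρ, ⟨k, hk⟩, h2⟩ := exists_squarefree_elim
    (Finset.prod_ne_zero_iff.2 fun Q (_ : Q ∈ 𝒬) => hR Q)
  have h3 : ∀ Q ∈ 𝒬, (∀ z ∈ A.Z, eval (reim z) Q = 0) ∨ ∀ z ∈ A.Z, ∀ z' ∈ A.Z,
      polar Q (z, star z') = 0 → polar ρ (A.π z, star (A.π z')) = 0 := fun Q hQ => by
    refine (h1 Q).imp id fun h z hz z' hz' h0 => ?_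
    obtain ⟨c, hc⟩ := (Finset.dvd_prod_of_mem R hQ).trans hk
    have := polar_mul (R Q) c (A.π z, star (A.π z'))
    rw [h z hz z' hz' h0, zero_mul, ← hc, polar, map_pow] at this
    exact eq_zero_of_pow_eq_zero this
  have sg : ∀ (Q : MvPolynomial (Fin N ⊕ Fin N) ℝ) (z : E N), eval (reim z) Q ≠ 0 →
      ∀ᶠ z' in 𝓝[A.Z] z, SignType.sign (eval (reim z') Q) = SignType.sign (eval (reim z) Q) := by
    intro Q z hz
    have c1 : Continuous (reim : E N → _) := continuous_pi fun j => by
      rcases j with j | j <;> simp only [reim, Sum.elim_inl, Sum.elim_inr] <;> fun_prop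
    have c2 := (continuousAt_sign_of_ne_zero hz).comp_of_eq
      ((continuous_eval Q).comp c1).continuousAt rfl
    exact nhdsWithin_le_nhds (c2.eventually_mem ((isOpen_discrete {_}).mem_nhds rfl))
  have sz : ∀ (Q : MvPolynomial (Fin N ⊕ Fin N) ℝ), (∀ z ∈ A.Z, eval (reim z) Q = 0) →
      ∀ z ∈ A.Z, ∀ᶠ z' in 𝓝[A.Z] z,
        SignType.sign (eval (reim z') Q) = SignType.sign (eval (reim z) Q) := by
    intro Q h z hz
    filter_upwards [self_mem_nhdsWithin] with z' hz'
    rw [h z hz, h z' hz']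
  refine ⟨⟨polar ρ, polar_differentiable ρ, polar_symm ρ, fun z hz h0 => ?_,
    fun i z hz h0 hb => ?_, fun i O hO hne => ?_⟩⟩
  · refine ((𝒬.eventually_all).2 fun Q hQ => ?_).mono fun z' h => h𝒬 z' z h
    rcases h3 Q hQ with h | h
    · exact sz Q h z hz
    · exact sg Q z fun e => h0 (h z hz z hz (by rw [polar_diag, e, Complex.ofReal_zero]))
  · have key : ∀ Q ∈ 𝒬, ∀ᶠ z' in 𝓝[A.Z] z, polar ρ (A.π z', star (A.π z')) = 0 →
        SignType.sign (eval (reim z') Q) = SignType.sign (eval (reim z) Q) := by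
      intro Q hQ
      rcases h3 Q hQ with h | h
      · exact (sz Q h z hz).mono fun _ h _ => h
      by_cases e : eval (reim z) Q = 0
      swap
      · exact (sg Q z e).mono fun _ h _ => h
      obtain ⟨s, s1, s2, s3, s4⟩ := A.sec z hz fun h => hb (Or.inl h)
      have s5 := (s1.eventually_analyticAt.mono fun _ h => h.differentiableAt).and s3
      have t1 : Tendsto (fun x : E n × E n => x.1) (𝓝 (A.π z, star (A.π z))) (𝓝 (A.π z)) :=
        continuous_fst.tendsto _
      have t2 : Tendsto (fun x : E n × E n => star x.2) (𝓝 (A.π z, star (A.π z))) (𝓝 (A.π z)) :=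
        (continuous_star.comp continuous_snd).tendsto' _ _ (star_star _)
      have v := h2_vanish (p := fun x : E n × E n => polar Q (s x.1, star (s (star x.2))))
        (ρ := polar ρ) (x := (A.π z, star (A.π z))) (v := (eb i, 0)) ?_
        (P278F.analyticOnNhd_of_differentiableOn isOpen_univ
          (polar_differentiable ρ).differentiableOn _ (mem_univ _)) ?_
        (fun h => hb (Or.inr ⟨h0, h⟩)) ?_
      · have t3 : Tendsto (fun z' => (A.π z', star (A.π z'))) (𝓝[A.Z] z)
            (𝓝 (A.π z, star (A.π z))) :=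
          ((A.π_diff.continuous.prodMk A.π_diff.continuous.star).tendsto z).mono_left
            nhdsWithin_le_nhds
        filter_upwards [t3.eventually v, s4] with z' a b c
        have := a c
        simp only [star_star, b, polar_diag, Complex.ofReal_eq_zero] at this
        rw [this, e]
      · filter_upwards [t1.eventually s5, t2.eventually s5] with x a b
        have d := b.1.star_star
        rw [star_star] at d
        exact (polar_differentiable Q _).comp x
          ((a.1.comp x differentiableAt_fst).prodMk (d.comp x differentiableAt_snd))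
      · simp only [star_star, s2, polar_diag, e, Complex.ofReal_zero]
      · filter_upwards [t1.eventually s5, t2.eventually s5] with x a b c
        have := h _ a.2.1 _ b.2.1 c
        rwa [a.2.2, b.2.2, star_star] at this
    filter_upwards [(𝒬.eventually_all).2 key] with z' h h'
    exact h𝒬 z' z fun Q hQ => h Q hQ h'
  · rw [show A.Δ = fun y => eval y A.Δp from funext A.Δ_eq]
    exact generic_line A.Δp_ne hρ h2 i hO hne

end Vale.Agent.P274
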