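import Vale.Agent.P274.A5
import Vale.Agent.P274.H2

/-! Assembling the data. -/

open Metric Set Filter Topology MvPolynomial

namespace Vale.Agent.P274

theorem A6_closed {N : ℕ} (S : Set (MvPolynomial (Fin N) ℂ)) : IsClosed (zeros S) := by
  have : zeros S = ⋂ f ∈ S, {z : E N | eval z f = 0} := by
    ext z
    simp [zeros]
  rw [this]
  exact isClosed_biInter fun f _ => isClosed_eq
    (continuous_iff_continuousAt.2 fun z => (analytic_eval f z).continuousAt) continuous_const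

/-- The action as a homomorphism into the automorphism group. -/
def A6_hom {N n : ℕ} (M : BM N n) (Γ : Type*) [Group Γ] [MulAction Γ M.U]
    (hhol : ∀ γ : Γ, HolMap M.U (fun x => (γ • x : M.U).1)) : Γ →* M.Aut :=
  (MulAction.toPermHom Γ M.U).codRestrict M.Aut fun γ =>
    ⟨BM.holMap_iff.1 (hhol γ), BM.holMap_iff.1 (hhol γ⁻¹)⟩

theorem exists_AM {N : ℕ} (S : Set (MvPolynomial (Fin N) ℂ)) (U : Set (E N))
    (hopen : ∃ O, IsOpen O ∧ U = {z | ∀ P ∈ S, eval z P = 0} ∩ O) (hsa : IsSemialg U)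
    (hc : IsConnected U) (hb : Bornology.IsBounded U) (Γ : Type*) [Group Γ] [MulAction Γ U]
    (hhol : ∀ γ : Γ, HolMap U (fun x => (γ • x : U).1)) [ProperlyDiscontinuousSMul Γ U]
    [CompactSpace (Quotient (MulAction.orbitRel Γ U))] :
    ∃ (n : ℕ) (M : AM N n), M.U = U := by
  obtain ⟨O, hO, hU⟩ := hopen
  haveI : LocallyCompactSpace U := IsLocallyClosed.locallyCompactSpace
    (hU ▸ (A6_closed S).isLocallyClosed.inter hO.isLocallyClosed)
  obtain ⟨K, hK, hcov⟩ := exists_compact_cover (X := U) (Γ := Γ) fun γ =>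
    (A5_continuous (hhol γ)).subtype_mk _
  obtain ⟨n, P, _, A, h1, h2, h3⟩ := smooth_of_cocompact S hO hU hc hb hhol hK hcov
  obtain ⟨W⟩ := A.exists_wall hsa
  obtain ⟨M, rfl⟩ := exists_BM hb hc h3
  refine ⟨n, ⟨⟨M, (A6_hom M Γ hhol).range, K, hK, fun x => ?_, fun C hC => ?_⟩, A.toNN, W,
    ⟨O, hO, h1⟩, h2⟩, rfl⟩
  · obtain ⟨γ, hγ⟩ := hcov x
    exact ⟨_, ⟨γ, rfl⟩, hγ⟩
  · refine ((ProperlyDiscontinuousSMul.finite_disjoint_inter_image (Γ := Γ) hC hC).image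
      (A6_hom M Γ hhol)).subset ?_
    rintro _ ⟨⟨γ, rfl⟩, x, hx, hγ⟩
    exact ⟨γ, ⟨_, ⟨x, hx, rfl⟩, hγ⟩, rfl⟩

end Vale.Agent.P274
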