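import Vale.Agent.P274.AlgDefs

/-! Elementary facts on conjugations, and consequences of `HS`. -/

namespace Vale.Agent.P274

variable {𝔤 : Type*} [LieRing 𝔤] [LieAlgebra ℂ 𝔤] {σ : Conj 𝔤}

/-- The conjugation as an additive equivalence. -/
def Alg0_equiv (σ : Conj 𝔤) : 𝔤 ≃+ 𝔤 where
  toFun := σ
  invFun := σ
  left_inv := σ.invol
  right_inv := σ.invol
  map_add' := σ.map_add

theorem Conj.map_zero (σ : Conj 𝔤) : σ 0 = 0 := by
  exact _root_.map_zero (Alg0_equiv σ)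

theorem Conj.map_neg (σ : Conj 𝔤) (X : 𝔤) : σ (-X) = -σ X := by
  exact _root_.map_neg (Alg0_equiv σ) X

theorem Conj.map_sub (σ : Conj 𝔤) (X Y : 𝔤) : σ (X - Y) = σ X - σ Y := by
  exact _root_.map_sub (Alg0_equiv σ) X Y

theorem Conj.map_sum (σ : Conj 𝔤) {ι : Type*} (s : Finset ι) (X : ι → 𝔤) :
    σ (∑ i ∈ s, X i) = ∑ i ∈ s, σ (X i) := by
  exact _root_.map_sum (Alg0_equiv σ) X s

theorem Alg0_eq_zero (σ : Conj 𝔤) {X : 𝔤} (h : σ X = 0) : X = 0 := by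
  rw [← σ.invol X, h, σ.map_zero]

/-- Conjugate subspaces have the same dimension. -/
theorem Alg0_finrank (σ : Conj 𝔤) {A B : Submodule ℂ 𝔤} (h : ∀ W, W ∈ A ↔ σ W ∈ B) :
    Module.finrank ℂ A = Module.finrank ℂ B := by
  let j : A ≃+ B :=
    { toFun := fun W => ⟨σ W.1, (h _).1 W.2⟩
      invFun := fun W => ⟨σ W.1, (h _).2 (by rw [σ.invol]; exact W.2)⟩
      left_inv := fun W => Subtype.ext (σ.invol _)
      right_inv := fun W => Subtype.ext (σ.invol _)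
      map_add' := fun W W' => Subtype.ext (σ.map_add _ _) }
  have h1 := rank_eq_of_equiv_equiv (R := ℂ) (R' := ℂ) (starRingEnd ℂ) j
    (Function.Involutive.bijective Complex.conj_conj)
    (fun r m => Subtype.ext (σ.map_smul r m.1))
  unfold Module.finrank
  rw [h1]

theorem Alg0_B_comm (X Y : 𝔤) : killingForm ℂ 𝔤 X Y = killingForm ℂ 𝔤 Y X :=
  LieModule.traceForm_comm ℂ 𝔤 𝔤 X Y

variable [FiniteDimensional ℂ 𝔤]

theorem Alg0_trace (σ : Conj 𝔤) (A A' : Module.End ℂ 𝔤) (h : ∀ v, A' (σ v) = σ (A v)) :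
    LinearMap.trace ℂ 𝔤 A' = starRingEnd ℂ (LinearMap.trace ℂ 𝔤 A) := by
  let b := Module.finBasis ℂ 𝔤
  let φ : Fin (Module.finrank ℂ 𝔤) → 𝔤 →ₗ[ℂ] ℂ := fun i =>
    { toFun := fun v => starRingEnd ℂ (b.repr (σ v) i)
      map_add' := fun v w => by simp [σ.map_add]
      map_smul' := fun c v => by simp [σ.map_smul] }
  have e : A' = ∑ i, (φ i).smulRight (A' (σ (b i))) := by
    refine LinearMap.ext fun v => ?_
    have h1 : v = ∑ i, starRingEnd ℂ (b.repr (σ v) i) • σ (b i) := by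
      conv_lhs => rw [← σ.invol v, ← b.sum_repr (σ v), σ.map_sum]
      simp only [σ.map_smul]
    conv_lhs => rw [h1]
    simp [φ]
  rw [e, map_sum, LinearMap.trace_eq_matrix_trace ℂ b, Matrix.trace, map_sum]
  refine Finset.sum_congr rfl fun i _ => ?_
  rw [LinearMap.trace_smulRight, h, Matrix.diag_apply, LinearMap.toMatrix_apply]
  simp [φ, σ.invol]

theorem Conj.killing (σ : Conj 𝔤) (X Y : 𝔤) :
    killingForm ℂ 𝔤 (σ X) (σ Y) = starRingEnd ℂ (killingForm ℂ 𝔤 X Y) := by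
  rw [killingForm_apply_apply, killingForm_apply_apply]
  refine Alg0_trace σ _ _ fun v => ?_
  simp [σ.map_lie]

theorem Conj.killing_self (σ : Conj 𝔤) (X : 𝔤) :
    killingForm ℂ 𝔤 X (σ X) = (σ.h X : ℂ) := by
  have h := σ.killing X (σ X)
  rw [σ.invol, Alg0_B_comm] at h
  exact (Complex.conj_eq_iff_re.1 h.symm).symm

theorem Conj.h_smul (σ : Conj 𝔤) (c : ℂ) (X : 𝔤) : σ.h (c • X) = ‖c‖ ^ 2 * σ.h X := by
  have h := σ.killing_self (c • X)
  rw [σ.map_smul, _root_.map_smul, _root_.map_smul, LinearMap.smul_apply, σ.killing_self,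
    smul_eq_mul, smul_eq_mul, ← mul_assoc, Complex.conj_mul'] at h
  exact_mod_cast h.symm

theorem Conj.h_conj (σ : Conj 𝔤) (X : 𝔤) : σ.h (σ X) = σ.h X := by
  rw [Conj.h, Conj.h, σ.invol, Alg0_B_comm]

variable {q q' : Submodule ℂ 𝔤} {Z Z' : 𝔤}

omit [FiniteDimensional ℂ 𝔤] in
/-- Eigenvectors of `ad Z` are orthogonal unless the eigenvalues are opposite. -/
theorem Alg0_orth {X Y : 𝔤} {a b : ℂ} (hX : ⁅Z, X⁆ = a • X) (hY : ⁅Z, Y⁆ = b • Y)
    (hab : a + b ≠ 0) : killingForm ℂ 𝔤 X Y = 0 := by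
  have h := LieModule.traceForm_apply_lie_apply' ℂ 𝔤 𝔤 Z X Y
  rw [hX, hY, map_smul, map_smul, LinearMap.smul_apply, smul_eq_mul, smul_eq_mul] at h
  refine (mul_eq_zero.1 ?_).resolve_left hab
  linear_combination h

omit [FiniteDimensional ℂ 𝔤] in
theorem Alg0_conj_eig (h : HS σ q Z) {X : 𝔤} {a : ℂ} (hX : ⁅Z, X⁆ = a • X) :
    ⁅Z, σ X⁆ = starRingEnd ℂ a • σ X := by
  rw [← σ.map_smul, ← hX, σ.map_lie, h.real]

omit [FiniteDimensional ℂ 𝔤] in
theorem Alg0_dec (h : HS σ q Z) (W : 𝔤) : ∃ W₀ Wp Wm : 𝔤, W = W₀ + Wp + Wm ∧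
    ⁅Z, W₀⁆ = (0 : ℂ) • W₀ ∧ ⁅Z, Wp⁆ = Complex.I • Wp ∧ ⁅Z, Wm⁆ = (-Complex.I) • Wm ∧
    W₀ ∈ q ∧ Wm ∈ q ∧ (W ∈ q → Wp = 0) := by
  obtain ⟨W₀, Wp, Wm, e, h0, hp, hm⟩ := h.dec W
  have h1 := h.mem_zero _ h0
  have h2 := h.mem_neg _ hm
  refine ⟨W₀, Wp, Wm, e, by rw [h0, zero_smul], hp, by rw [hm, neg_smul], h1, h2,
    fun hW => h.not_pos _ hp ?_⟩
  have e' : Wp = W - W₀ - Wm := by
    rw [e]
    abel
  rw [e']
  exact q.sub_mem (q.sub_mem hW h1) h2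

theorem HS.mem (h : HS σ q Z) : Z ∈ q := by
  exact h.mem_zero Z (lie_self Z)

theorem HS.mem_mp_iff (h : HS σ q Z) (W : 𝔤) : W ∈ σ.mp q ↔ ⁅Z, W⁆ = Complex.I • W := by
  constructor
  · intro hW
    obtain ⟨W₀, Wp, Wm, e, h0, hp, hm, q0, qm, -⟩ := Alg0_dec h W
    have s0 := Alg0_conj_eig h h0
    have sp := Alg0_conj_eig h hp
    have sm := Alg0_conj_eig h hm
    have e1 : σ W = σ W₀ + σ Wp + σ Wm := by rw [e, σ.map_add, σ.map_add]
    have h1 : killingForm ℂ 𝔤 (σ W) W₀ = 0 := hW W₀ q0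
    have h2 : killingForm ℂ 𝔤 (σ W) Wm = 0 := hW Wm qm
    rw [e1, map_add, map_add, LinearMap.add_apply, LinearMap.add_apply] at h1 h2
    rw [Alg0_orth sp h0 (by simp), Alg0_orth sm h0 (by simp), add_zero, add_zero, Alg0_B_comm,
      σ.killing_self] at h1
    rw [Alg0_orth s0 hm (by simp), Alg0_orth sp hm (by simp [← two_mul]), zero_add, zero_add,
      Alg0_B_comm, σ.killing_self, ← σ.h_conj] at h2
    have z0 : W₀ = 0 := by
      by_contra hne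
      exact (h.h_neg W₀ (by rw [h0, zero_smul]) hne).ne (by exact_mod_cast h1)
    have zm : σ Wm = 0 := by
      by_contra hne
      exact (h.h_pos _ (by simpa using sm) hne).ne' (by exact_mod_cast h2)
    rw [e, z0, Alg0_eq_zero σ zm, zero_add, add_zero, hp]
  · intro hW V hV
    obtain ⟨V₀, Vp, Vm, e, h0, -, hm, -, -, hz⟩ := Alg0_dec h V
    have s := Alg0_conj_eig h hW
    rw [e, hz hV, add_zero, map_add, Alg0_orth s h0 (by simp),
      Alg0_orth s hm (by simp [← two_mul]), add_zero]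

theorem HS.isCompl (h : HS σ q Z) : IsCompl (σ.mp q) q := by
  constructor
  · exact Submodule.disjoint_def.2 fun W h1 h2 => h.not_pos W ((h.mem_mp_iff W).1 h1) h2
  · rw [codisjoint_iff, eq_top_iff]
    intro W _
    obtain ⟨W₀, Wp, Wm, e, -, hp, -, q0, qm, -⟩ := Alg0_dec h W
    refine Submodule.mem_sup.2 ⟨Wp, (h.mem_mp_iff Wp).2 hp, W₀ + Wm, q.add_mem q0 qm, ?_⟩
    rw [e]
    abel

theorem HS.lie_mp (h : HS σ q Z) {W W' : 𝔤} (hW : W ∈ σ.mp q) (hW' : W' ∈ σ.mp q) :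
    ⁅W, W'⁆ = 0 := by
  have h1 : ⁅Z, ⁅W, W'⁆⁆ = (2 * Complex.I) • ⁅W, W'⁆ := by
    rw [leibniz_lie, (h.mem_mp_iff W).1 hW, (h.mem_mp_iff W').1 hW', smul_lie, lie_smul, two_mul,
      add_smul]
  generalize ⁅W, W'⁆ = U at h1
  obtain ⟨U₀, Up, Um, e, h0, hp, hm, -⟩ := Alg0_dec h U
  have h2 : ⁅Z, ⁅Z, ⁅Z, U⁆⁆⁆ = -⁅Z, U⁆ := by
    rw [e]
    simp only [lie_add, h0, hp, hm, lie_smul, smul_smul]
    match_scalars <;> simp
  simp only [h1, lie_smul, smul_smul] at h2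
  have h3 : (2 * Complex.I * (2 * Complex.I) * (2 * Complex.I) + 2 * Complex.I) • U = 0 := by
    rw [add_smul, h2, neg_add_cancel]
  refine (smul_eq_zero.1 h3).resolve_left ?_
  have h4 : 2 * Complex.I * (2 * Complex.I) * (2 * Complex.I) + 2 * Complex.I =
      -6 * Complex.I := by
    linear_combination (8 * Complex.I) * Complex.I_mul_I
  rw [h4]
  simp

theorem HS.h_pos_mp (h : HS σ q Z) {W : 𝔤} (hW : W ∈ σ.mp q) (h0 : W ≠ 0) : 0 < σ.h W := by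
  exact h.h_pos W ((h.mem_mp_iff W).1 hW) h0

/-- The eigenspace of `ad Z`. -/
def Alg0_eig (Z : 𝔤) (a : ℂ) : Submodule ℂ 𝔤 :=
  LinearMap.ker (LieAlgebra.ad ℂ 𝔤 Z - a • LinearMap.id)

omit [FiniteDimensional ℂ 𝔤] in
theorem Alg0_mem_eig {a : ℂ} {W : 𝔤} : W ∈ Alg0_eig Z a ↔ ⁅Z, W⁆ = a • W := by
  simp [Alg0_eig, sub_eq_zero]

omit [FiniteDimensional ℂ 𝔤] in
theorem Alg0_eig_disjoint {a b : ℂ} (hab : a ≠ b) : Disjoint (Alg0_eig Z a) (Alg0_eig Z b) := by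
  refine Submodule.disjoint_def.2 fun W h1 h2 => ?_
  rw [Alg0_mem_eig] at h1 h2
  have h3 : (a - b) • W = 0 := by rw [sub_smul, ← h1, ← h2, sub_self]
  exact (smul_eq_zero.1 h3).resolve_left (sub_ne_zero.2 hab)

theorem Alg0_dims (h : HS σ q Z) :
    Module.finrank ℂ (Alg0_eig Z Complex.I) + Module.finrank ℂ q = Module.finrank ℂ 𝔤 ∧
    Module.finrank ℂ (Alg0_eig Z 0) + Module.finrank ℂ (Alg0_eig Z (-Complex.I)) =
      Module.finrank ℂ q ∧
    Module.finrank ℂ (Alg0_eig Z Complex.I) = Module.finrank ℂ (Alg0_eig Z (-Complex.I)) := by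
  refine ⟨?_, ?_, ?_⟩
  · have e : Alg0_eig Z Complex.I = σ.mp q := by
      ext W
      rw [Alg0_mem_eig, h.mem_mp_iff]
    rw [e]
    exact Submodule.finrank_add_eq_of_isCompl h.isCompl
  · have e : Alg0_eig Z 0 ⊔ Alg0_eig Z (-Complex.I) = q := by
      refine le_antisymm (sup_le (fun W hW => h.mem_zero W ?_) (fun W hW => h.mem_neg W ?_)) ?_
      · rw [Alg0_mem_eig.1 hW, zero_smul]
      · rw [Alg0_mem_eig.1 hW, neg_smul]
      · intro W hW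
        obtain ⟨W₀, Wp, Wm, e, h0, -, hm, -, -, hz⟩ := Alg0_dec h W
        rw [e, hz hW, add_zero]
        exact Submodule.add_mem_sup (Alg0_mem_eig.2 h0) (Alg0_mem_eig.2 hm)
    rw [← Submodule.finrank_sup_add_finrank_inf_eq, e,
      (Alg0_eig_disjoint (by simp [eq_comm])).eq_bot, finrank_bot, add_zero]
  · refine Alg0_finrank σ fun W => ?_
    rw [Alg0_mem_eig, Alg0_mem_eig]
    constructor
    · intro hW
      simpa using Alg0_conj_eig h hW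
    · intro hW
      simpa [σ.invol] using Alg0_conj_eig h hW

theorem Alg0_le (h : HS σ q Z) (h' : HS σ q' Z') :
    Module.finrank ℂ (Alg0_eig Z Complex.I) + Module.finrank ℂ (Alg0_eig Z (-Complex.I)) +
      Module.finrank ℂ (Alg0_eig Z' 0) ≤ Module.finrank ℂ 𝔤 := by
  have hne : Complex.I ≠ -Complex.I := fun e => by
    have := congrArg Complex.im e
    norm_num at this
  have h1 := Submodule.finrank_sup_add_finrank_inf_eq (Alg0_eig Z Complex.I)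
    (Alg0_eig Z (-Complex.I))
  rw [(Alg0_eig_disjoint hne).eq_bot, finrank_bot, add_zero] at h1
  rw [← h1]
  refine Submodule.finrank_add_finrank_le_of_disjoint (Submodule.disjoint_def.2 ?_)
  intro W h2 h3
  obtain ⟨Wp, hp, Wm, hm, e⟩ := Submodule.mem_sup.1 h2
  rw [Alg0_mem_eig] at hp hm h3
  have sp := Alg0_conj_eig h hp
  have sm := Alg0_conj_eig h hm
  have h4 : σ.h W = σ.h Wp + σ.h (σ Wm) := by
    rw [σ.h_conj, ← e, Conj.h, σ.map_add, map_add, map_add, LinearMap.add_apply,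
      LinearMap.add_apply, Alg0_orth hp sm (by simp [← two_mul]),
      Alg0_orth hm sp (by simp [← two_mul])]
    simp [Conj.h]
  have h5 : ∀ V, ⁅Z, V⁆ = Complex.I • V → 0 ≤ σ.h V := by
    intro V hV
    by_cases h0 : V = 0
    · simp [h0, Conj.h]
    · exact (h.h_pos V hV h0).le
  by_contra hW
  have h6 := h'.h_neg W (by rw [h3, zero_smul]) hW
  linarith [h5 Wp hp, h5 (σ Wm) (by simpa using sm)]

/-- The dimension of the isotropy subspace does not depend on the point (signature). -/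
theorem HS.finrank_eq (h : HS σ q Z) (h' : HS σ q' Z') :
    Module.finrank ℂ q = Module.finrank ℂ q' := by
  obtain ⟨a1, a2, a3⟩ := Alg0_dims h
  obtain ⟨b1, b2, b3⟩ := Alg0_dims h'
  have c1 := Alg0_le h h'
  have c2 := Alg0_le h' h
  omega

theorem HS.eq_of_mem (h : HS σ q Z) (h' : HS σ q' Z')
    (hlie : ∀ X ∈ q', ∀ Y ∈ q', ⁅X, Y⁆ ∈ q') (hZ : Z ∈ q')
    (hm : ∀ W ∈ σ.mp q, W ∈ q' → W = 0) : q' = q := by
  refine Submodule.eq_of_le_of_finrank_eq (fun V hV => ?_) (h'.finrank_eq h)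
  obtain ⟨V₀, Vp, Vm, e, h0, hp, hn, q0, qm, -⟩ := Alg0_dec h V
  have h1 := hlie Z hZ V hV
  have h2 := hlie Z hZ _ h1
  have h3 : Vp = (-1 / 2 : ℂ) • ⁅Z, ⁅Z, V⁆⁆ + (-Complex.I / 2) • ⁅Z, V⁆ := by
    rw [e]
    simp only [lie_add, h0, hp, hn, lie_smul, smul_smul]
    match_scalars
    · linear_combination Complex.I_mul_I
    · ring
    · ring
  have h4 : Vp = 0 := hm Vp ((h.mem_mp_iff Vp).2 hp)
    (h3 ▸ q'.add_mem (q'.smul_mem _ h2) (q'.smul_mem _ h1))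
  rw [e, h4, add_zero]
  exact q.add_mem q0 qm

/-- Lie algebra automorphisms commuting with `σ` preserve `h` and `mp`. -/
theorem Conj.h_equiv (σ : Conj 𝔤) (e : 𝔤 ≃ₗ⁅ℂ⁆ 𝔤) (he : ∀ X, e (σ X) = σ (e X)) (X : 𝔤) :
    σ.h (e X) = σ.h X := by
  rw [Conj.h, Conj.h, ← he, LieAlgebra.killingForm_of_equiv_apply]

theorem Conj.mp_equiv (σ : Conj 𝔤) (e : 𝔤 ≃ₗ⁅ℂ⁆ 𝔤) (he : ∀ X, e (σ X) = σ (e X))
    (hq : ∀ X, e X ∈ q' ↔ X ∈ q) {W : 𝔤} (hW : W ∈ σ.mp q) : e W ∈ σ.mp q' := by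
  intro V hV
  rw [← e.apply_symm_apply V] at hV ⊢
  rw [← he, LieAlgebra.killingForm_of_equiv_apply]
  exact hW _ ((hq _).1 hV)

end Vale.Agent.P274
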