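import Vale.Agent.P274.Alg0

/-! The algebraic theorem, step 1: the decomposition `𝔤 = k ⊕ m⁺ ⊕ m⁻` and the element `Ξ`. -/

namespace Vale.Agent.P274

/-- An endomorphism diagonalisable with imaginary eigenvalues has a square of negative trace. -/
theorem Alg1_trace_sq {V : Type*} [AddCommGroup V] [Module ℂ V] [FiniteDimensional ℂ V]
    (A : Module.End ℂ V) (h : ⨆ c : ℝ, Module.End.eigenspace A (c * Complex.I) = ⊤) :
    (LinearMap.trace ℂ V (A ∘ₗ A)).re ≤ 0 ∧ ((LinearMap.trace ℂ V (A ∘ₗ A)).re = 0 → A = 0) := by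
  classical
  obtain ⟨s, hs, hspan, hli⟩ := exists_linearIndependent ℂ
    (⋃ c : ℝ, (Module.End.eigenspace A (c * Complex.I) : Set V))
  rw [← Submodule.iSup_eq_span, h] at hspan
  have : Fintype s := hli.setFinite.fintype
  let b : Module.Basis s ℂ V := Module.Basis.mk hli (by rw [Subtype.range_coe, hspan])
  have hb : ∀ v : s, ∃ c : ℝ, A (b v) = (c * Complex.I) • b v := by
    intro v
    obtain ⟨c, hc⟩ := Set.mem_iUnion.1 (hs v.2)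
    refine ⟨c, ?_⟩
    rw [Module.Basis.mk_apply]
    exact Module.End.mem_eigenspace_iff.1 hc
  choose c hc using hb
  have e : (LinearMap.trace ℂ V (A ∘ₗ A)).re = -∑ v, c v ^ 2 := by
    rw [LinearMap.trace_eq_matrix_trace ℂ b, Matrix.trace, Complex.re_sum, ← Finset.sum_neg_distrib]
    refine Finset.sum_congr rfl fun v _ => ?_
    rw [Matrix.diag_apply, LinearMap.toMatrix_apply, LinearMap.comp_apply, hc, map_smul, hc]
    simp [sq]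
  rw [e]
  refine ⟨neg_nonpos.2 (Finset.sum_nonneg fun v _ => sq_nonneg _), fun h0 => ?_⟩
  rw [neg_eq_zero, Finset.sum_eq_zero_iff_of_nonneg fun v _ => sq_nonneg _] at h0
  refine b.ext fun v => ?_
  rw [hc, pow_eq_zero_iff (two_ne_zero) |>.1 (h0 v (Finset.mem_univ v))]
  simp

variable {𝔤 : Type*} [LieRing 𝔤] [LieAlgebra ℂ 𝔤] [FiniteDimensional ℂ 𝔤]
  [LieAlgebra.IsKilling ℂ 𝔤] {σ : Conj 𝔤} {q : Submodule ℂ 𝔤}

omit [FiniteDimensional ℂ 𝔤] in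
theorem Alg1_eq_zero {X : 𝔤} (h : ∀ Y, killingForm ℂ 𝔤 X Y = 0) : X = 0 :=
  (LieAlgebra.IsKilling.killingForm_nondegenerate ℂ 𝔤).1 X h

theorem Alg1_real (H : AlgHyp σ q) {X : 𝔤} (h1 : X ∈ q) (h2 : σ X = X) :
    (killingForm ℂ 𝔤 X X).re ≤ 0 ∧ ((killingForm ℂ 𝔤 X X).re = 0 → X = 0) := by
  obtain ⟨a1, a2⟩ := Alg1_trace_sq _ (H.diag X h1 h2)
  rw [killingForm_apply_apply]
  refine ⟨a1, fun h0 => Alg1_eq_zero fun Y => ?_⟩
  rw [killingForm_apply_apply, a2 h0]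
  simp

/-- `h` is negative definite on `k = q ∩ σ q`. -/
theorem AlgHyp.h_neg (H : AlgHyp σ q) {W : 𝔤} (h1 : W ∈ q) (h2 : σ W ∈ q) (h0 : W ≠ 0) :
    σ.h W < 0 := by
  obtain ⟨X, hX⟩ : ∃ X, X = (1 / 2 : ℂ) • (W + σ W) := ⟨_, rfl⟩
  obtain ⟨Y, hY⟩ : ∃ Y, Y = (-Complex.I / 2) • (W - σ W) := ⟨_, rfl⟩
  have qX : X ∈ q := hX ▸ q.smul_mem _ (q.add_mem h1 h2)
  have qY : Y ∈ q := hY ▸ q.smul_mem _ (q.sub_mem h1 h2)
  have c2 : starRingEnd ℂ 2 = 2 := map_ofNat _ 2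
  have sX : σ X = X := by
    rw [hX, σ.map_smul, σ.map_add, σ.invol, map_div₀, map_one, c2, add_comm]
  have sY : σ Y = Y := by
    rw [hY, σ.map_smul, σ.map_sub, σ.invol, map_div₀, map_neg, Complex.conj_I, c2]
    module
  have e1 : W = X + Complex.I • Y := by
    rw [hX, hY]
    match_scalars
    · linear_combination (1 / 2 : ℂ) * Complex.I_mul_I
    · linear_combination (-1 / 2 : ℂ) * Complex.I_mul_I
  have e2 : σ W = X - Complex.I • Y := by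
    conv_lhs => rw [e1, σ.map_add, σ.map_smul, sX, sY, Complex.conj_I]
    module
  have e3 : σ.h W = (killingForm ℂ 𝔤 X X).re + (killingForm ℂ 𝔤 Y Y).re := by
    rw [Conj.h, e2, ← Complex.add_re]
    congr 1
    rw [e1]
    simp only [map_add, map_sub, map_smul, LinearMap.add_apply, LinearMap.smul_apply, smul_eq_mul]
    rw [Alg0_B_comm Y X]
    linear_combination (-killingForm ℂ 𝔤 Y Y) * Complex.I_mul_I
  obtain ⟨a1, a2⟩ := Alg1_real H qX sX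
  obtain ⟨b1, b2⟩ := Alg1_real H qY sY
  by_contra hn
  rw [e3, not_lt] at hn
  rw [a2 (by linarith), b2 (by linarith), smul_zero, add_zero] at e1
  exact h0 e1

theorem AlgHyp.conj_mp_mem (H : AlgHyp σ q) {W : 𝔤} (hW : W ∈ σ.mp q) : σ W ∈ q := by
  exact H.perp _ hW

theorem AlgHyp.mp_disjoint (H : AlgHyp σ q) {W : 𝔤} (hW : W ∈ σ.mp q) (h : W ∈ q) : W = 0 := by
  by_contra h0
  have h1 := H.h_neg h (H.conj_mp_mem hW) h0
  have h2 : killingForm ℂ 𝔤 (σ W) W = 0 := hW W h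
  rw [Conj.h, Alg0_B_comm, h2] at h1
  simp at h1

theorem Alg1_isCompl (H : AlgHyp σ q) : IsCompl (σ.mp q) q := by
  have h1 : Module.finrank ℂ (σ.mp q) =
      Module.finrank ℂ (LinearMap.BilinForm.orthogonal (killingForm ℂ 𝔤) q) := by
    refine Alg0_finrank σ fun W => ?_
    rw [LinearMap.BilinForm.mem_orthogonal_iff]
    exact forall₂_congr fun V _ => by rw [Alg0_B_comm]
  rw [LinearMap.BilinForm.finrank_orthogonal
    (LieAlgebra.IsKilling.killingForm_nondegenerate ℂ 𝔤)] at h1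
  refine (Submodule.isCompl_iff_disjoint _ _ (by omega)).2 ?_
  exact Submodule.disjoint_def.2 fun W h2 h3 => H.mp_disjoint h2 h3

theorem Alg1_split (H : AlgHyp σ q) (W : 𝔤) : ∃ a ∈ σ.mp q, ∃ b ∈ q, a + b = W := by
  refine Submodule.mem_sup.1 ?_
  rw [(Alg1_isCompl H).sup_eq_top]
  trivial

theorem AlgHyp.dec (H : AlgHyp σ q) (W : 𝔤) : ∃ W₀ Wp Wm : 𝔤, W = W₀ + Wp + Wm ∧
    W₀ ∈ q ∧ σ W₀ ∈ q ∧ Wp ∈ σ.mp q ∧ σ Wm ∈ σ.mp q := by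
  obtain ⟨Wp, hp, V, hV, e⟩ := Alg1_split H W
  obtain ⟨a, ha, b, hb, e'⟩ := Alg1_split H (σ V)
  have e1 : V = σ a + σ b := by rw [← σ.map_add, e', σ.invol]
  refine ⟨σ b, Wp, σ a, ?_, ?_, by rwa [σ.invol], hp, by rwa [σ.invol]⟩
  · rw [← e, e1]
    abel
  · rw [show σ b = V - σ a by rw [e1, add_sub_cancel_left]]
    exact q.sub_mem hV (H.conj_mp_mem ha)

theorem AlgHyp.dec_unique (H : AlgHyp σ q) {W₀ Wp Wm : 𝔤} (h : W₀ + Wp + Wm = 0)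
    (h1 : W₀ ∈ q) (h2 : σ W₀ ∈ q) (h3 : Wp ∈ σ.mp q) (h4 : σ Wm ∈ σ.mp q) :
    W₀ = 0 ∧ Wp = 0 ∧ Wm = 0 := by
  have h5 : Wm ∈ q := σ.invol Wm ▸ H.conj_mp_mem h4
  have e1 : Wp = -(W₀ + Wm) := by
    rw [eq_neg_iff_add_eq_zero, ← h]
    abel
  have h6 : Wp = 0 := H.mp_disjoint h3 (e1 ▸ q.neg_mem (q.add_mem h1 h5))
  rw [h6, add_zero] at h
  have e2 : Wm = -W₀ := (neg_eq_of_add_eq_zero_right h).symm
  have h7 : Wm = 0 := by
    refine Alg0_eq_zero σ (H.mp_disjoint h4 ?_)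
    rw [e2, σ.map_neg]
    exact q.neg_mem h2
  rw [h7, add_zero] at h
  exact ⟨h, h6, h7⟩

theorem AlgHyp.lie_k_mp (H : AlgHyp σ q) {Y W : 𝔤} (h1 : Y ∈ q) (h2 : σ Y ∈ q)
    (hW : W ∈ σ.mp q) : ⁅Y, W⁆ ∈ σ.mp q := by
  intro V hV
  rw [σ.map_lie, LieModule.traceForm_apply_lie_apply', neg_eq_zero]
  exact hW _ (H.lie_mem _ h2 _ hV)

theorem AlgHyp.lie_mp_mp (H : AlgHyp σ q) {W W' : 𝔤} (hW : W ∈ σ.mp q) (hW' : W' ∈ σ.mp q) :
    ⁅W, W'⁆ ∈ σ.mp q := by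
  intro V hV
  rw [σ.map_lie, LieModule.traceForm_apply_lie_apply', neg_eq_zero]
  exact hW' _ (H.lie_mem _ (H.conj_mp_mem hW) _ hV)

/-- The map `w ↦ ⁅w, Y⁆` on `m⁺`, modulo `q`. -/
noncomputable def Alg1_T (H : AlgHyp σ q) (Y : 𝔤) : Module.End ℂ (σ.mp q) :=
  (σ.mp q).projectionOnto q (Alg1_isCompl H) ∘ₗ (-LieAlgebra.ad ℂ 𝔤 Y) ∘ₗ (σ.mp q).subtype

theorem Alg1_T_apply (H : AlgHyp σ q) (Y : 𝔤) (w : σ.mp q) :
    (Alg1_T H Y w : 𝔤) = (σ.mp q).projection q (Alg1_isCompl H) ⁅(w : 𝔤), Y⁆ := by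
  rw [← lie_skew]
  rfl

theorem Alg1_T_mem (H : AlgHyp σ q) (Y : 𝔤) (w : σ.mp q) :
    ⁅(w : 𝔤), Y⁆ - Alg1_T H Y w ∈ q := by
  rw [Alg1_T_apply]
  exact Submodule.sub_projection_mem _ _

theorem Alg1_T_lie (H : AlgHyp σ q) {Y Y' : 𝔤} (h : Y ∈ q) (h' : Y' ∈ q) :
    Alg1_T H ⁅Y, Y'⁆ = Alg1_T H Y' * Alg1_T H Y - Alg1_T H Y * Alg1_T H Y' := by
  refine LinearMap.ext fun w => ?_
  rw [← sub_eq_zero]
  refine Subtype.ext (H.mp_disjoint (Subtype.prop _) ?_)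
  have a1 := Alg1_T_mem H ⁅Y, Y'⁆ w
  have a2 := H.lie_mem _ (Alg1_T_mem H Y w) _ h'
  have a3 := H.lie_mem _ (Alg1_T_mem H Y' w) _ h
  have a4 := Alg1_T_mem H Y' (Alg1_T H Y w)
  have a5 := Alg1_T_mem H Y (Alg1_T H Y' w)
  have a6 := q.sub_mem (q.sub_mem (q.add_mem a2 a4) (q.add_mem a3 a5)) a1
  have e : ⁅(w : 𝔤), ⁅Y, Y'⁆⁆ = ⁅⁅(w : 𝔤), Y⁆, Y'⁆ - ⁅⁅(w : 𝔤), Y'⁆, Y⁆ := by
    rw [leibniz_lie, sub_eq_add_neg, lie_skew]
  rw [sub_lie, sub_lie, e] at a6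
  simp only [LinearMap.sub_apply, Module.End.mul_apply, Submodule.coe_sub]
  refine (congrArg (· ∈ q) ?_).mp a6
  abel

theorem Alg1_lam (H : AlgHyp σ q) : ∃ lam : 𝔤 →ₗ[ℂ] ℂ,
    (∀ Y, lam (σ Y) = -(starRingEnd ℂ (lam Y))) ∧ (∀ Y ∈ q, ∀ Y' ∈ q, lam ⁅Y, Y'⁆ = 0) ∧
      ∀ W ∈ σ.mp q, W ≠ 0 → (lam ⁅W, σ W⁆).re < 0 := by
  let b := Module.finBasis ℂ (σ.mp q)
  have hsum : ∀ c : Fin (Module.finrank ℂ (σ.mp q)) → ℂ,
      ∑ l, c l • (b l : 𝔤) = (b.equivFun.symm c : σ.mp q) := by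
    intro c
    rw [Module.Basis.equivFun_symm_apply, Submodule.coe_sum]
    rfl
  obtain ⟨lam, h1, h2, h3⟩ := H.ext _ (fun l => (b l : 𝔤)) (fun c hc => by
    rw [hsum] at hc
    have h0 : b.equivFun.symm c = 0 := Subtype.ext (H.mp_disjoint (Subtype.prop _) hc)
    exact (LinearEquiv.map_eq_zero_iff _).1 h0)
  have hA : ∀ Y l, ⁅(b l : 𝔤), Y⁆ -
      ∑ m, LinearMap.toMatrix b b (Alg1_T H Y) m l • (b m : 𝔤) ∈ q := by
    intro Y l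
    have e : ∑ m, LinearMap.toMatrix b b (Alg1_T H Y) m l • (b m : 𝔤) = Alg1_T H Y (b l) := by
      conv_rhs => rw [← b.sum_repr (Alg1_T H Y (b l)), Submodule.coe_sum]
      simp only [LinearMap.toMatrix_apply, Submodule.coe_smul]
    rw [e]
    exact Alg1_T_mem H Y (b l)
  refine ⟨lam, h1, fun Y hY Y' hY' => ?_, fun W hW h0 => ?_⟩
  · rw [h2 _ (H.lie_mem _ hY _ hY') _ (hA _), ← LinearMap.trace_eq_matrix_trace,
      Alg1_T_lie H hY hY', map_sub, LinearMap.trace_mul_comm, sub_self]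
  · have e : ∑ l, b.equivFun ⟨W, hW⟩ l • (b l : 𝔤) = W := by
      rw [hsum, LinearEquiv.symm_apply_apply]
    have h4 := h3 (b.equivFun ⟨W, hW⟩)
      (fun h => h0 (congrArg Subtype.val ((LinearEquiv.map_eq_zero_iff _).1 h)))
    rw [e] at h4
    exact h4 (H.conj_mp_mem hW) ⟨_, hA _⟩

/-- The element `Ξ` representing the Koszul form; its centraliser is exactly `k`. -/
theorem AlgHyp.exists_xi (H : AlgHyp σ q) : ∃ Ξ : 𝔤, σ Ξ = -Ξ ∧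
    (∀ Y, ⁅Ξ, Y⁆ = 0 ↔ Y ∈ q ∧ σ Y ∈ q) ∧
    ∀ W ∈ σ.mp q, W ≠ 0 → (killingForm ℂ 𝔤 Ξ ⁅W, σ W⁆).re < 0 := by
  obtain ⟨lam, h1, h2, h3⟩ := Alg1_lam H
  obtain ⟨Ξ, hΞ⟩ : ∃ Ξ : 𝔤, ∀ V, killingForm ℂ 𝔤 Ξ V = lam V :=
    ⟨_, LinearMap.BilinForm.apply_toDual_symm_apply
      (hB := LieAlgebra.IsKilling.killingForm_nondegenerate ℂ 𝔤) lam⟩
  have h4 : ∀ Y Y', σ Y ∈ q → σ Y' ∈ q → lam ⁅Y, Y'⁆ = 0 := by
    intro Y Y' hY hY'
    have h5 := h1 ⁅σ Y, σ Y'⁆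
    rwa [σ.map_lie, σ.invol, σ.invol, h2 _ hY _ hY', map_zero, neg_zero] at h5
  have h5 : ∀ Y V, killingForm ℂ 𝔤 ⁅Ξ, Y⁆ V = lam ⁅Y, V⁆ := by
    intro Y V
    rw [LieModule.traceForm_apply_lie_apply, hΞ]
  have h6 : ∀ Y, Y ∈ q → σ Y ∈ q → ⁅Ξ, Y⁆ = 0 := by
    intro Y hY hY'
    refine Alg1_eq_zero fun V => ?_
    obtain ⟨a, ha, b, hb, e⟩ := Alg1_split H V
    rw [h5, ← e, lie_add, map_add, h4 _ _ hY' (H.conj_mp_mem ha), h2 _ hY _ hb, add_zero]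
  have h7 : ∀ W ∈ σ.mp q, (lam ⁅W, σ W⁆).re ≤ 0 := by
    intro W hW
    by_cases h0 : W = 0
    · simp [h0]
    · exact (h3 W hW h0).le
  refine ⟨Ξ, ?_, fun Y => ⟨fun hY => ?_, fun hY => h6 Y hY.1 hY.2⟩, fun W hW h0 => ?_⟩
  · rw [eq_neg_iff_add_eq_zero]
    refine Alg1_eq_zero fun V => ?_
    rw [map_add, LinearMap.add_apply, hΞ]
    conv_lhs => rw [← σ.invol V, σ.killing, hΞ, h1 (σ V)]
    simp
  · obtain ⟨Y₀, Yp, Ym, e, q0, s0, hp, hm⟩ := H.dec Y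
    have qm : Ym ∈ q := σ.invol Ym ▸ H.conj_mp_mem hm
    have h8 : ⁅Ξ, Yp + Ym⁆ = 0 := by
      rwa [e, add_assoc, lie_add, h6 _ q0 s0, zero_add] at hY
    have h9 := h5 (Yp + Ym) (σ Yp - σ Ym)
    rw [h8, map_zero, LinearMap.zero_apply, add_lie, lie_sub, lie_sub, map_add, map_sub, map_sub,
      h4 Yp (σ Ym) (H.conj_mp_mem hp) (by rwa [σ.invol]), h2 Ym qm (σ Yp) (H.conj_mp_mem hp),
      sub_zero, zero_sub, ← map_neg, lie_skew] at h9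
    have h10 := congrArg Complex.re h9
    have a1 := h7 _ hp
    have a2 := h7 _ hm
    rw [σ.invol] at a2
    rw [Complex.add_re, Complex.zero_re] at h10
    have zp : Yp = 0 := by
      by_contra hne
      linarith [h3 _ hp hne]
    have zm : σ Ym = 0 := by
      by_contra hne
      have a3 := h3 _ hm hne
      rw [σ.invol] at a3
      linarith
    rw [e, zp, Alg0_eq_zero σ zm, add_zero, add_zero]
    exact ⟨q0, s0⟩
  · rw [hΞ]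
    exact h3 W hW h0

/-- The rank one case of the extremal inequality. -/
theorem AlgHyp.rank_one (H : AlgHyp σ q) {W : 𝔤} (hW : W ∈ σ.mp q) (h0 : W ≠ 0)
    (h1 : ⁅W, σ W⁆ ∈ q) {a : ℂ} (ha : ⁅⁅W, σ W⁆, W⁆ = a • W) : 0 < a.re := by
  obtain ⟨lam, -, h2, h3⟩ := H.ext 1 (fun _ => W) (fun c hc => by
    rw [Fin.sum_univ_one] at hc
    have h4 := H.mp_disjoint ((σ.mp q).smul_mem _ hW) hc
    funext i
    rw [Subsingleton.elim i 0]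
    exact (smul_eq_zero.1 h4).resolve_right h0)
  have h4 := h2 _ h1 (Matrix.of fun _ _ => -a) (fun l => by
    rw [Fin.sum_univ_one, ← lie_skew, ha, Matrix.of_apply, neg_smul, sub_self]
    exact q.zero_mem)
  have h5 := h3 (fun _ => 1) (fun h => one_ne_zero (congrFun h 0))
  rw [Fin.sum_univ_one, one_smul] at h5
  have h6 := h5 (H.conj_mp_mem hW) ⟨0, fun l => by simpa using h1⟩
  rw [h4, Matrix.trace_fin_one] at h6
  simpa using h6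

end Vale.Agent.P274
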