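import Vale.Agent.P274.Alg1

/-! The algebraic theorem, step 2: weights of a maximal torus; all roots of `m⁺` are
noncompact. -/

namespace Vale.Agent.P274

variable {𝔤 : Type*} [LieRing 𝔤] [LieAlgebra ℂ 𝔤] [FiniteDimensional ℂ 𝔤]
  [LieAlgebra.IsKilling ℂ 𝔤] {σ : Conj 𝔤} {q : Submodule ℂ 𝔤}

/-- Simultaneous eigenvectors. -/
def IsWt (t : Submodule ℂ 𝔤) (β : 𝔤 → ℂ) (W : 𝔤) : Prop := ∀ H ∈ t, ⁅H, W⁆ = β H • W

theorem alg2_simdiag {V : Type*} [AddCommGroup V] [Module ℂ V] [FiniteDimensional ℂ V]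
    (F : Set (Module.End ℂ V)) (hc : ∀ f ∈ F, ∀ g ∈ F, ∀ v, f (g v) = g (f v))
    (hd : ∀ f ∈ F, ⨆ μ, f.eigenspace μ = ⊤) (S : Submodule ℂ V) :
    (∀ f ∈ F, ∀ v ∈ S, f v ∈ S) →
      S ≤ Submodule.span ℂ {W | W ∈ S ∧ ∀ f ∈ F, ∃ μ : ℂ, f W = μ • W} := by
  induction S using WellFoundedLT.induction with
  | _ S ih =>
    intro hS
    by_cases h : ∀ f ∈ F, ∃ μ, S ≤ f.eigenspace μ
    · refine fun W hW => Submodule.subset_span ⟨hW, fun f hf => ?_⟩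
      obtain ⟨μ, hμ⟩ := h f hf
      exact ⟨μ, Module.End.mem_eigenspace_iff.1 (hμ hW)⟩
    · push Not at h
      obtain ⟨f, hf, h⟩ := h
      refine (Submodule.eq_iSup_inf_genEigenspace 1 (hS f hf) (hd f hf)).trans_le
        (iSup_le fun μ => ?_)
      refine (ih (S ⊓ f.eigenspace μ) (inf_lt_left.2 (h μ)) fun g hg v hv =>
        ⟨hS g hg v hv.1, Module.End.mem_eigenspace_iff.2 ?_⟩).trans
          (Submodule.span_mono fun W hW => ⟨hW.1.1, hW.2⟩)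
      rw [hc f hf g hg, Module.End.mem_eigenspace_iff.1 hv.2, map_smul]

omit [FiniteDimensional ℂ 𝔤] [LieAlgebra.IsKilling ℂ 𝔤] in
theorem alg2_imag (H : AlgHyp σ q) {X W : 𝔤} (hX : X ∈ q) (h1 : σ X = X) (h0 : W ≠ 0) {μ : ℂ}
    (h : ⁅X, W⁆ = μ • W) : μ.re = 0 := by
  by_contra h2
  have h3 : (⊤ : Submodule ℂ 𝔤) ≤
      ⨆ ν, ⨆ _ : ν ≠ μ, Module.End.eigenspace (LieAlgebra.ad ℂ 𝔤 X) ν := by
    rw [← H.diag X hX h1]
    refine iSup_le fun c => le_iSup₂_of_le (c * Complex.I) (fun h4 => h2 ?_) le_rfl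
    simp [← h4]
  exact h0 (Submodule.disjoint_def.1 ((LieAlgebra.ad ℂ 𝔤 X).eigenspaces_iSupIndep μ) W
    (Module.End.mem_eigenspace_iff.2 h) (h3 Submodule.mem_top))

omit [FiniteDimensional ℂ 𝔤] [LieAlgebra.IsKilling ℂ 𝔤] in
theorem alg2_re (σ : Conj 𝔤) (X : 𝔤) : σ (X + σ X) = X + σ X := by
  rw [σ.map_add, σ.invol, add_comm]

omit [FiniteDimensional ℂ 𝔤] [LieAlgebra.IsKilling ℂ 𝔤] in
theorem alg2_im (σ : Conj 𝔤) (X : 𝔤) : σ (Complex.I • (X - σ X)) = Complex.I • (X - σ X) := by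
  rw [σ.map_smul, σ.map_sub, σ.invol, Complex.conj_I, neg_smul, ← smul_neg, neg_sub]

omit [FiniteDimensional ℂ 𝔤] [LieAlgebra.IsKilling ℂ 𝔤] in
theorem alg2_split (σ : Conj 𝔤) (X : 𝔤) :
    X = (1 / 2 : ℂ) • (X + σ X) + (-Complex.I / 2) • (Complex.I • (X - σ X)) := by
  have e : -Complex.I / 2 * Complex.I = 1 / 2 := by
    linear_combination (-1 / 2 : ℂ) * Complex.I_mul_I
  rw [smul_smul, e, ← smul_add, add_add_sub_cancel, ← two_smul ℂ X, smul_smul]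
  norm_num

/-- A maximal torus of `k` containing `Ξ`: abelian, `σ`-stable, self-centralising, and every
`t`-stable subspace is spanned by weight vectors. -/
theorem AlgHyp.exists_torus (H : AlgHyp σ q) {Ξ : 𝔤} (h1 : σ Ξ = -Ξ)
    (h2 : ∀ Y, ⁅Ξ, Y⁆ = 0 ↔ Y ∈ q ∧ σ Y ∈ q) :
    ∃ t : Submodule ℂ 𝔤, Ξ ∈ t ∧ (∀ X ∈ t, σ X ∈ t) ∧ t ≤ q ∧
      (∀ Y, Y ∈ t ↔ ∀ X ∈ t, ⁅X, Y⁆ = 0) ∧
      (∀ (β : 𝔤 → ℂ) W, W ≠ 0 → IsWt t β W → ∀ X ∈ t, β (σ X) = -(starRingEnd ℂ (β X))) ∧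
      ∀ S : Submodule ℂ 𝔤, (∀ X ∈ t, ∀ W ∈ S, ⁅X, W⁆ ∈ S) →
        S ≤ Submodule.span ℂ {W | W ∈ S ∧ ∃ β, IsWt t β W} := by
  have hΞ := ((h2 Ξ).1 (lie_self Ξ)).1
  obtain ⟨t, ⟨t1, t2, t3, t4⟩, hmax⟩ := (set_has_maximal_iff_noetherian.2
    (inferInstance : IsNoetherian ℂ 𝔤)) {t : Submodule ℂ 𝔤 | Ξ ∈ t ∧ (∀ X ∈ t, σ X ∈ t) ∧
      t ≤ q ∧ ∀ X ∈ t, ∀ Y ∈ t, ⁅X, Y⁆ = 0} ⟨ℂ ∙ Ξ, Submodule.mem_span_singleton_self Ξ,
      fun X hX => by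
        obtain ⟨c, rfl⟩ := Submodule.mem_span_singleton.1 hX
        rw [σ.map_smul, h1]
        exact Submodule.smul_mem _ _ (neg_mem (Submodule.mem_span_singleton_self Ξ)),
      (Submodule.span_singleton_le_iff_mem _ _).2 hΞ, fun X hX Y hY => by
        obtain ⟨c, rfl⟩ := Submodule.mem_span_singleton.1 hX
        obtain ⟨c', rfl⟩ := Submodule.mem_span_singleton.1 hY
        simp⟩
  have hfix : ∀ Y, σ Y = Y → (∀ X ∈ t, ⁅X, Y⁆ = 0) → Y ∈ t := by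
    intro Y hY h
    by_contra h3
    have hm : ∀ X ∈ t ⊔ ℂ ∙ Y, ∃ X' ∈ t, ∃ c : ℂ, X' + c • Y = X := fun X hX => by
      obtain ⟨X', h4, Z, h5, rfl⟩ := Submodule.mem_sup.1 hX
      obtain ⟨c, rfl⟩ := Submodule.mem_span_singleton.1 h5
      exact ⟨X', h4, c, rfl⟩
    refine hmax (t ⊔ ℂ ∙ Y) ⟨Submodule.mem_sup_left t1, fun X hX => ?_,
      sup_le t3 ((Submodule.span_singleton_le_iff_mem _ _).2 ((h2 Y).1 (h Ξ t1)).1),
      fun X hX Z hZ => ?_⟩ (left_lt_sup.2 fun h4 => h3 (h4 (Submodule.mem_span_singleton_self Y)))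
    · obtain ⟨X', h4, c, rfl⟩ := hm X hX
      rw [σ.map_add, σ.map_smul, hY]
      exact add_mem (Submodule.mem_sup_left (t2 _ h4)) (Submodule.mem_sup_right
        (Submodule.smul_mem _ _ (Submodule.mem_span_singleton_self Y)))
    · obtain ⟨X', h4, c, rfl⟩ := hm X hX
      obtain ⟨Z', h5, c', rfl⟩ := hm Z hZ
      have h6 : ⁅Y, Z'⁆ = 0 := by rw [← lie_skew, h Z' h5, neg_zero]
      simp [t4 X' h4 Z' h5, h X' h4, h6]
  have tre : ∀ X ∈ t, X + σ X ∈ t := fun X hX => add_mem hX (t2 X hX)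
  have tim : ∀ X ∈ t, Complex.I • (X - σ X) ∈ t := fun X hX =>
    t.smul_mem _ (sub_mem hX (t2 X hX))
  refine ⟨t, t1, t2, t3, fun Y => ⟨fun hY X hX => t4 X hX Y hY, fun h => ?_⟩,
    fun β W h0 hW X hX => ?_, fun S hS => ?_⟩
  · have h3 : ∀ X ∈ t, ⁅X, σ Y⁆ = 0 := fun X hX => by
      rw [← σ.invol X, ← σ.map_lie, h _ (t2 X hX), σ.map_zero]
    rw [alg2_split σ Y]
    refine add_mem (t.smul_mem _ (hfix _ (alg2_re σ Y) fun X hX => ?_))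
      (t.smul_mem _ (hfix _ (alg2_im σ Y) fun X hX => ?_))
    · rw [lie_add, h X hX, h3 X hX, add_zero]
    · rw [lie_smul, lie_sub, h X hX, h3 X hX, sub_zero, smul_zero]
  · have h3 := alg2_imag H (t3 (tre X hX)) (alg2_re σ X) h0 (μ := β X + β (σ X))
      (by rw [add_lie, hW X hX, hW _ (t2 X hX), add_smul])
    have h4 := alg2_imag H (t3 (tim X hX)) (alg2_im σ X) h0 (μ := Complex.I * (β X - β (σ X)))
      (by rw [smul_lie, sub_lie, hW X hX, hW _ (t2 X hX), ← sub_smul, smul_smul])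
    simp only [Complex.add_re, Complex.mul_re, Complex.I_re, Complex.I_im, Complex.sub_im,
      zero_mul, one_mul, zero_sub, neg_eq_zero] at h3 h4
    apply Complex.ext
    · simp only [Complex.neg_re, Complex.conj_re]
      linarith
    · simp only [Complex.neg_im, Complex.conj_im]
      linarith
  · refine (alg2_simdiag (LieAlgebra.ad ℂ 𝔤 '' {X | X ∈ t ∧ σ X = X}) ?_ ?_ S ?_).trans
      (Submodule.span_mono fun W hW => ⟨hW.1, ?_⟩)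
    · rintro _ ⟨X, hX, rfl⟩ _ ⟨Y, hY, rfl⟩ v
      simp only [LieAlgebra.ad_apply]
      rw [leibniz_lie, t4 X hX.1 Y hY.1, zero_lie, zero_add]
    · rintro _ ⟨X, hX, rfl⟩
      rw [eq_top_iff, ← H.diag X (t3 hX.1) hX.2]
      exact iSup_le fun c => le_iSup _ _
    · rintro _ ⟨X, hX, rfl⟩ v hv
      exact hS X hX.1 v hv
    · have h3 : ∀ X, ∃ μ : ℂ, X ∈ t → ⁅X, W⁆ = μ • W := fun X => by
        by_cases hX : X ∈ t
        · obtain ⟨μ, hμ⟩ := hW.2 _ ⟨_, ⟨tre X hX, alg2_re σ X⟩, rfl⟩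
          obtain ⟨ν, hν⟩ := hW.2 _ ⟨_, ⟨tim X hX, alg2_im σ X⟩, rfl⟩
          rw [LieAlgebra.ad_apply] at hμ hν
          refine ⟨1 / 2 * μ + -Complex.I / 2 * ν, fun _ => ?_⟩
          conv_lhs => rw [alg2_split σ X]
          rw [add_lie, smul_lie, hμ, smul_lie, hν, smul_smul, smul_smul, add_smul]
        · exact ⟨0, fun h => absurd h hX⟩
      choose β hβ using h3
      exact ⟨β, hβ⟩

/-- The data of a maximal torus. -/
structure Alg2Tor (σ : Conj 𝔤) (q : Submodule ℂ 𝔤) (Ξ : 𝔤) (t : Submodule ℂ 𝔤) : Prop where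
  cen : ∀ Y, ⁅Ξ, Y⁆ = 0 ↔ Y ∈ q ∧ σ Y ∈ q
  neg : ∀ W ∈ σ.mp q, W ≠ 0 → (killingForm ℂ 𝔤 Ξ ⁅W, σ W⁆).re < 0
  mem : Ξ ∈ t
  conj : ∀ X ∈ t, σ X ∈ t
  le : t ≤ q
  self : ∀ Y, Y ∈ t ↔ ∀ X ∈ t, ⁅X, Y⁆ = 0
  wt : ∀ (β : 𝔤 → ℂ) W, W ≠ 0 → IsWt t β W → ∀ X ∈ t, β (σ X) = -(starRingEnd ℂ (β X))
  span : σ.mp q ≤ Submodule.span ℂ {W | W ∈ σ.mp q ∧ ∃ β, IsWt t β W}

theorem alg2_tor (H : AlgHyp σ q) : ∃ Ξ t, Alg2Tor σ q Ξ t := by
  obtain ⟨Ξ, h1, h2, h3⟩ := H.exists_xi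
  obtain ⟨t, t1, t2, t3, t4, t5, t6⟩ := H.exists_torus h1 h2
  exact ⟨Ξ, t, h2, h3, t1, t2, t3, t4, t5,
    t6 _ fun X hX W hW => H.lie_k_mp (t3 hX) (t3 (t2 X hX)) hW⟩

section
variable {Ξ : 𝔤} {t : Submodule ℂ 𝔤} {β β' : 𝔤 → ℂ} {W W' : 𝔤}

omit [LieAlgebra.IsKilling ℂ 𝔤] [FiniteDimensional ℂ 𝔤] in
theorem alg2_lie (h : IsWt t β W) (h' : IsWt t β' W') : IsWt t (β + β') ⁅W, W'⁆ := fun X hX => by
  rw [leibniz_lie, h X hX, h' X hX, smul_lie, lie_smul, Pi.add_apply, add_smul]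

omit [LieAlgebra.IsKilling ℂ 𝔤] [FiniteDimensional ℂ 𝔤] in
theorem Alg2Tor.wt_conj (T : Alg2Tor σ q Ξ t) (h : IsWt t β W) : IsWt t (-β) (σ W) := by
  intro X hX
  by_cases h0 : W = 0
  · rw [h0, σ.map_zero, lie_zero, smul_zero]
  · conv_lhs => rw [← σ.invol X]
    rw [← σ.map_lie, h _ (T.conj X hX), σ.map_smul, T.wt β W h0 h X hX, map_neg,
      Complex.conj_conj, Pi.neg_apply]

omit [LieAlgebra.IsKilling ℂ 𝔤] [FiniteDimensional ℂ 𝔤] in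
theorem Alg2Tor.cor_mem (T : Alg2Tor σ q Ξ t) (h : IsWt t β W) : ⁅W, σ W⁆ ∈ t :=
  (T.self _).2 fun X hX => by
    rw [alg2_lie h (T.wt_conj h) X hX, add_neg_cancel, Pi.zero_apply, zero_smul]

omit [LieAlgebra.IsKilling ℂ 𝔤] in
theorem alg2_cor (h : IsWt t β W) {X : 𝔤} (hX : X ∈ t) :
    killingForm ℂ 𝔤 X ⁅W, σ W⁆ = β X * σ.h W := by
  rw [← LieModule.traceForm_apply_lie_apply, h X hX, map_smul, LinearMap.smul_apply,
    σ.killing_self, smul_eq_mul]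

theorem Alg2Tor.cor_pos (T : Alg2Tor σ q Ξ t) (H : AlgHyp σ q) (hW : W ∈ σ.mp q) (h0 : W ≠ 0)
    (h : IsWt t β W) : 0 < (β ⁅W, σ W⁆).re :=
  H.rank_one hW h0 (T.le (T.cor_mem h)) (h _ (T.cor_mem h))

theorem Alg2Tor.h_pos (T : Alg2Tor σ q Ξ t) (H : AlgHyp σ q) (hW : W ∈ σ.mp q) (h0 : W ≠ 0)
    (h : IsWt t β W) : 0 < σ.h W := by
  have h1 := T.cor_mem h
  have h2 := H.h_neg (T.le h1) (T.le (T.conj _ h1)) fun h2 => by
    simpa [h2] using T.neg W hW h0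
  have h3 : σ ⁅W, σ W⁆ = -⁅W, σ W⁆ := by rw [σ.map_lie, σ.invol, lie_skew]
  rw [Conj.h, h3, map_neg, alg2_cor h h1, Complex.neg_re, Complex.re_mul_ofReal] at h2
  exact (mul_pos_iff_of_pos_left (T.cor_pos H hW h0 h)).1 (neg_lt_zero.1 h2)

omit [LieAlgebra.IsKilling ℂ 𝔤] [FiniteDimensional ℂ 𝔤] in
theorem Alg2Tor.orth (T : Alg2Tor σ q Ξ t) (h : IsWt t β W) (h' : IsWt t β' W') {X : 𝔤}
    (hX : X ∈ t) (hne : β X ≠ β' X) : killingForm ℂ 𝔤 W (σ W') = 0 := by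
  have h1 := LieModule.traceForm_apply_lie_apply' ℂ 𝔤 𝔤 X W (σ W')
  rw [h X hX, T.wt_conj h' X hX, map_smul, LinearMap.smul_apply, map_smul, Pi.neg_apply, neg_smul,
    neg_neg, smul_eq_mul, smul_eq_mul] at h1
  exact (mul_eq_mul_right_iff.1 h1).resolve_left hne

theorem Alg2Tor.xi_neg (T : Alg2Tor σ q Ξ t) (H : AlgHyp σ q) (hW : W ∈ σ.mp q) (h0 : W ≠ 0)
    (h : IsWt t β W) : (β Ξ).re < 0 := by
  have h1 := T.neg W hW h0
  rw [alg2_cor h T.mem, Complex.re_mul_ofReal] at h1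
  nlinarith [T.h_pos H hW h0 h]

theorem Alg2Tor.mem_mp (T : Alg2Tor σ q Ξ t) (H : AlgHyp σ q) (h : IsWt t β W)
    (hβ : (β Ξ).re < 0) : W ∈ σ.mp q := by
  obtain ⟨W₀, Wp, Wm, rfl, h1, h2, h3, h4⟩ := H.dec W
  have h5 : ∀ X ∈ t, ⁅X, W₀⁆ - β X • W₀ = 0 ∧ ⁅X, Wp⁆ - β X • Wp = 0 ∧
      ⁅X, Wm⁆ - β X • Wm = 0 := fun X hX => by
    have h6 := T.le hX
    have h7 := T.le (T.conj X hX)
    refine H.dec_unique ?_ (sub_mem (H.lie_mem _ h6 _ h1) (q.smul_mem _ h1)) ?_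
      (sub_mem (H.lie_k_mp h6 h7 h3) (Submodule.smul_mem _ _ h3)) ?_
    · have h8 := h X hX
      rw [lie_add, lie_add, smul_add, smul_add] at h8
      rw [← sub_eq_zero.2 h8]
      abel
    · rw [σ.map_sub, σ.map_lie, σ.map_smul]
      exact sub_mem (H.lie_mem _ h7 _ h2) (q.smul_mem _ h2)
    · rw [σ.map_sub, σ.map_lie, σ.map_smul]
      exact sub_mem (H.lie_k_mp h7 ((σ.invol X).symm ▸ h6) h4) (Submodule.smul_mem _ _ h4)
  have h6 : W₀ = 0 := by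
    have h7 := (h5 Ξ T.mem).1
    rw [(T.cen W₀).2 ⟨h1, h2⟩, zero_sub, neg_eq_zero, smul_eq_zero] at h7
    exact h7.resolve_left fun h8 => by simp [h8] at hβ
  have h7 : σ Wm = 0 := by
    by_contra h7
    have h8 := T.xi_neg H h4 h7 (T.wt_conj fun X hX => sub_eq_zero.1 (h5 X hX).2.2)
    rw [Pi.neg_apply, Complex.neg_re] at h8
    linarith
  rw [h6, ← σ.invol Wm, h7, σ.map_zero, zero_add, add_zero]
  exact h3

end

theorem AlgHyp.h_pos (H : AlgHyp σ q) {W : 𝔤} (hW : W ∈ σ.mp q) (h0 : W ≠ 0) :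
    0 < σ.h W := by
  classical
  obtain ⟨Ξ, t, T⟩ := alg2_tor H
  let M : (t → ℂ) → Submodule ℂ 𝔤 := fun b =>
    σ.mp q ⊓ ⨅ X : t, Module.End.eigenspace (LieAlgebra.ad ℂ 𝔤 X) (b X)
  have hM : ∀ b, ∀ V ∈ M b, IsWt t (Function.extend Subtype.val b 0) V := fun b V hV X hX => by
    rw [Subtype.val_injective.extend_apply b 0 ⟨X, hX⟩]
    exact Module.End.mem_eigenspace_iff.1 ((Submodule.mem_iInf _).1 hV.2 ⟨X, hX⟩)
  have h1 : W ∈ ⨆ b, M b := by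
    refine Submodule.span_le.2 ?_ (T.span hW)
    rintro V ⟨h1, β, h2⟩
    exact Submodule.mem_iSup_of_mem (fun X : t => β X) ⟨h1, (Submodule.mem_iInf _).2 fun X =>
      Module.End.mem_eigenspace_iff.2 (h2 X X.2)⟩
  obtain ⟨f, hf, rfl⟩ := (Submodule.mem_iSup_iff_exists_finsupp _ _).1 h1
  have h2 : f.support.Nonempty := Finsupp.support_nonempty_iff.2 fun h => h0 (by simp [h])
  rw [Finsupp.sum, Conj.h, σ.map_sum, map_sum, Complex.re_sum]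
  refine Finset.sum_pos (fun b hb => ?_) h2
  rw [map_sum, LinearMap.sum_apply, Finset.sum_eq_single_of_mem b hb fun b' _ hne => ?_]
  · exact T.h_pos H (hf b).1 (Finsupp.mem_support_iff.1 hb) (hM b _ (hf b))
  · obtain ⟨X, hX⟩ := Function.ne_iff.1 hne
    refine T.orth (hM b' _ (hf b')) (hM b _ (hf b)) X.2 ?_
    rwa [Subtype.val_injective.extend_apply, Subtype.val_injective.extend_apply]

omit [LieAlgebra.IsKilling ℂ 𝔤] in
theorem Alg2Tor.h_lie {Ξ : 𝔤} {t : Submodule ℂ 𝔤} (T : Alg2Tor σ q Ξ t) {a m : 𝔤 → ℂ} {e U : 𝔤}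
    (he : IsWt t a e) (hU : IsWt t m U) :
    σ.h ⁅e, U⁆ = (m ⁅e, σ e⁆).re * σ.h U + σ.h ⁅σ e, U⁆ := by
  have h1 : killingForm ℂ 𝔤 ⁅e, U⁆ (σ ⁅e, U⁆) =
      m ⁅e, σ e⁆ * σ.h U + killingForm ℂ 𝔤 ⁅σ e, U⁆ (σ ⁅σ e, U⁆) := by
    rw [σ.map_lie, σ.map_lie, σ.invol, LieModule.traceForm_apply_lie_apply',
      LieModule.traceForm_apply_lie_apply', leibniz_lie e (σ e), T.wt_conj hU _ (T.cor_mem he),
      map_add, map_smul, σ.killing_self, Pi.neg_apply, smul_eq_mul]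
    ring
  rw [Conj.h, h1, Complex.add_re, Complex.re_mul_ofReal]
  rfl

theorem Alg2Tor.not_pos {Ξ : 𝔤} {t : Submodule ℂ 𝔤} (T : Alg2Tor σ q Ξ t) (H : AlgHyp σ q)
    {a b : 𝔤 → ℂ} {e f : 𝔤} (he : e ∈ σ.mp q) (hf : f ∈ σ.mp q) (ha : IsWt t a e)
    (hb : IsWt t b f) (h0 : ⁅e, f⁆ ≠ 0) : (a ⁅⁅e, f⁆, σ ⁅e, f⁆⁆).re ≤ 0 := by
  by_contra h1
  have e0 : e ≠ 0 := fun h => h0 (by rw [h, zero_lie])
  have f0 : f ≠ 0 := fun h => h0 (by rw [h, lie_zero])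
  have hc := alg2_lie ha hb
  have h2 : 0 < ((a + b) ⁅e, σ e⁆).re := by
    have h3 := alg2_cor (σ := σ) ha (T.cor_mem hc)
    rw [LieModule.traceForm_comm, alg2_cor hc (T.cor_mem ha)] at h3
    have h4 := congrArg Complex.re h3
    rw [Complex.re_mul_ofReal, Complex.re_mul_ofReal] at h4
    exact (mul_pos_iff_of_pos_right (H.h_pos (H.lie_mp_mp he hf) h0)).1
      (h4 ▸ mul_pos (not_le.1 h1) (H.h_pos he e0))
  have h3 := T.cor_pos H he e0 ha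
  have h4 := T.xi_neg H he e0 ha
  have h5 := T.xi_neg H hf f0 hb
  let U : ℕ → 𝔤 := fun j => (fun V => ⁅e, V⁆)^[j] ⁅e, f⁆
  have hU : ∀ j : ℕ, U j ∈ σ.mp q ∧ U j ≠ 0 ∧ IsWt t ((j : ℂ) • a + (a + b)) (U j) := by
    intro j
    induction j with
    | zero =>
      exact ⟨H.lie_mp_mp he hf, h0, by rw [Nat.cast_zero, zero_smul, zero_add]; exact hc⟩
    | succ j ih =>
      obtain ⟨u1, u2, u3⟩ := ih
      have e1 : U (j + 1) = ⁅e, U j⁆ := Function.iterate_succ_apply' _ _ _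
      rw [e1, Nat.cast_succ, add_smul, one_smul, add_comm _ a, add_assoc]
      refine ⟨H.lie_mp_mp he u1, fun h => ?_, alg2_lie ha u3⟩
      have h6 := T.h_lie ha u3
      have h7 : ⁅σ e, U j⁆ ∈ σ.mp q := by
        refine T.mem_mp H (alg2_lie (T.wt_conj ha) u3) ?_
        simp only [Pi.add_apply, Pi.neg_apply, Pi.smul_apply, smul_eq_mul, Complex.add_re,
          Complex.neg_re, Complex.mul_re, Complex.natCast_re, Complex.natCast_im]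
        nlinarith [Nat.cast_nonneg (α := ℝ) j]
      have h8 : 0 ≤ σ.h ⁅σ e, U j⁆ := by
        by_cases h9 : ⁅σ e, U j⁆ = 0
        · simp [h9, Conj.h]
        · exact (H.h_pos h7 h9).le
      have h9 : 0 < (((j : ℂ) • a + (a + b)) ⁅e, σ e⁆).re := by
        rw [Pi.add_apply, Pi.smul_apply, smul_eq_mul, Complex.add_re, Complex.mul_re,
          Complex.natCast_re, Complex.natCast_im]
        nlinarith [Nat.cast_nonneg (α := ℝ) j]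
      have h10 := mul_pos h9 (H.h_pos u1 u2)
      have h11 : σ.h ⁅e, U j⁆ = 0 := by simp [h, Conj.h]
      linarith
  have h6 := (LieAlgebra.ad ℂ 𝔤 Ξ).eigenvectors_linearIndependent'
    (fun j : ℕ => ((j : ℂ) • a + (a + b)) Ξ) (fun i j h => by
      have h7 : a Ξ ≠ 0 := fun h8 => by simp [h8] at h4
      simpa [h7] using h) U fun j =>
        ⟨Module.End.mem_eigenspace_iff.2 ((hU j).2.2 Ξ T.mem), (hU j).2.1⟩
  exact (not_finite_iff_infinite.2 (inferInstance : Infinite ℕ)) h6.finite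

theorem AlgHyp.mp_abelian (H : AlgHyp σ q) {W W' : 𝔤} (hW : W ∈ σ.mp q) (hW' : W' ∈ σ.mp q) :
    ⁅W, W'⁆ = 0 := by
  obtain ⟨Ξ, t, T⟩ := alg2_tor H
  have key : ∀ e ∈ {V | V ∈ σ.mp q ∧ ∃ β, IsWt t β V},
      ∀ f ∈ {V | V ∈ σ.mp q ∧ ∃ β, IsWt t β V}, ⁅e, f⁆ = 0 := by
    rintro e ⟨he, a, ha⟩ f ⟨hf, b, hb⟩
    by_contra h0
    have h1 := T.not_pos H he hf ha hb h0
    have h2 := T.not_pos H hf he hb ha (by rwa [← lie_skew, neg_ne_zero])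
    rw [← lie_skew f e, σ.map_neg, neg_lie, lie_neg, neg_neg] at h2
    have h3 := T.cor_pos H (H.lie_mp_mp he hf) h0 (alg2_lie ha hb)
    rw [Pi.add_apply, Complex.add_re] at h3
    linarith
  refine Submodule.span_induction₂ (p := fun x y _ _ => ⁅x, y⁆ = 0)
    (fun x y hx hy => key x hx y hy) (fun y _ => zero_lie y)
    (fun x _ => lie_zero x) (fun x y z _ _ _ h1 h2 => by rw [add_lie, h1, h2, add_zero])
    (fun x y z _ _ _ h1 h2 => by rw [lie_add, h1, h2, add_zero])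
    (fun r x y _ _ h => by rw [smul_lie, h, smul_zero])
    (fun r x y _ _ h => by rw [lie_smul, h, smul_zero]) (T.span hW) (T.span hW')

end Vale.Agent.P274
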