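import Vale.Agent.P274.Alg2

/-! The algebraic theorem: the complex structure is an inner derivation. -/

namespace Vale.Agent.P274

variable {𝔤 : Type*} [LieRing 𝔤] [LieAlgebra ℂ 𝔤] [FiniteDimensional ℂ 𝔤]
  [LieAlgebra.IsKilling ℂ 𝔤] {σ : Conj 𝔤} {q : Submodule ℂ 𝔤}

omit [LieAlgebra.IsKilling ℂ 𝔤] in
theorem alg3_B_conj_zero {X Y : 𝔤} (h : killingForm ℂ 𝔤 (σ X) (σ Y) = 0) :
    killingForm ℂ 𝔤 X Y = 0 := by
  rw [σ.killing] at h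
  simpa using h

omit [FiniteDimensional ℂ 𝔤] [LieAlgebra.IsKilling ℂ 𝔤] in
theorem alg3_B_comm (X Y : 𝔤) : killingForm ℂ 𝔤 X Y = killingForm ℂ 𝔤 Y X :=
  LieModule.traceForm_comm ℂ 𝔤 𝔤 X Y

omit [FiniteDimensional ℂ 𝔤] [LieAlgebra.IsKilling ℂ 𝔤] in
theorem alg3_B_lie (X Y Z : 𝔤) : killingForm ℂ 𝔤 ⁅X, Y⁆ Z = killingForm ℂ 𝔤 X ⁅Y, Z⁆ :=
  LieModule.traceForm_apply_lie_apply ℂ 𝔤 𝔤 X Y Z

theorem AlgHyp.lie_mp_mm (H : AlgHyp σ q) {W W' : 𝔤} (hW : W ∈ σ.mp q) (hW' : W' ∈ σ.mp q) :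
    ⁅W, σ W'⁆ ∈ q ∧ σ ⁅W, σ W'⁆ ∈ q := by
  obtain ⟨X₀, Xp, Xm, hX, h0, h0', hp, hm⟩ := H.dec ⁅W, σ W'⁆
  have hXm : Xm ∈ q := by
    have := H.conj_mp_mem hm
    rwa [σ.invol] at this
  have e1 : ∀ V ∈ σ.mp q, killingForm ℂ 𝔤 ⁅W, σ W'⁆ V = 0 := by
    intro V hV
    rw [← lie_skew, map_neg, LinearMap.neg_apply, alg3_B_lie, H.mp_abelian hW hV, map_zero,
      neg_zero]
  have e2 : ∀ V ∈ σ.mp q, killingForm ℂ 𝔤 ⁅W, σ W'⁆ (σ V) = 0 := by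
    intro V hV
    rw [alg3_B_lie, ← σ.map_lie, H.mp_abelian hW' hV, σ.map_zero, map_zero]
  have hp0 : Xp = 0 := by
    by_contra hne
    have h1 := e2 Xp hp
    rw [hX, map_add, map_add, LinearMap.add_apply, LinearMap.add_apply,
      alg3_B_comm X₀, hp X₀ h0, alg3_B_comm Xm, hp Xm hXm, σ.killing_self] at h1
    have h2 := H.h_pos hp hne
    have h3 : σ.h Xp = 0 := by simpa using h1
    linarith
  have hm0 : Xm = 0 := by
    by_contra hne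
    have hne' : σ Xm ≠ 0 := fun h => hne (by rw [← σ.invol Xm, h, σ.map_zero])
    have h1 := e1 (σ Xm) hm
    have a1 : killingForm ℂ 𝔤 X₀ (σ Xm) = 0 := by
      apply alg3_B_conj_zero (σ := σ)
      rw [alg3_B_comm]
      exact hm _ h0'
    rw [hX, hp0, add_zero, map_add, LinearMap.add_apply, a1, σ.killing_self] at h1
    have h2 := H.h_pos hm hne'
    rw [σ.h_conj] at h2
    have h3 : σ.h Xm = 0 := by simpa using h1
    linarith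
  rw [hX, hp0, hm0, add_zero, add_zero]
  exact ⟨h0, h0'⟩

/-- The graph of the complex structure `J`. -/
def alg3R (σ : Conj 𝔤) (q : Submodule ℂ 𝔤) (W V : 𝔤) : Prop :=
  ∃ W₀ Wp Wm : 𝔤, W = W₀ + Wp + Wm ∧ W₀ ∈ q ∧ σ W₀ ∈ q ∧ Wp ∈ σ.mp q ∧ σ Wm ∈ σ.mp q ∧
    V = Complex.I • Wp - Complex.I • Wm

theorem alg3R_unique (H : AlgHyp σ q) {W V V' : 𝔤} (h : alg3R σ q W V) (h' : alg3R σ q W V') :
    V = V' := by
  obtain ⟨a, b, c, hW, h1, h2, h3, h4, rfl⟩ := h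
  obtain ⟨a', b', c', hW', h1', h2', h3', h4', rfl⟩ := h'
  have e : (a - a') + (b - b') + (c - c') = 0 := by
    have := hW.symm.trans hW'
    rw [← sub_eq_zero] at this
    rw [← this]; abel
  obtain ⟨-, e2, e3⟩ := H.dec_unique e (q.sub_mem h1 h1')
    (by rw [σ.map_sub]; exact q.sub_mem h2 h2') ((σ.mp q).sub_mem h3 h3')
    (by rw [σ.map_sub]; exact (σ.mp q).sub_mem h4 h4')
  rw [sub_eq_zero] at e2 e3
  rw [e2, e3]

omit [FiniteDimensional ℂ 𝔤] [LieAlgebra.IsKilling ℂ 𝔤] in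
theorem alg3R_add {W V W' V' : 𝔤} (h : alg3R σ q W V) (h' : alg3R σ q W' V') :
    alg3R σ q (W + W') (V + V') := by
  obtain ⟨a, b, c, rfl, h1, h2, h3, h4, rfl⟩ := h
  obtain ⟨a', b', c', rfl, h1', h2', h3', h4', rfl⟩ := h'
  refine ⟨a + a', b + b', c + c', by abel, q.add_mem h1 h1', ?_, (σ.mp q).add_mem h3 h3', ?_, ?_⟩
  · rw [σ.map_add]; exact q.add_mem h2 h2'
  · rw [σ.map_add]; exact (σ.mp q).add_mem h4 h4'
  · rw [smul_add, smul_add]; abel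

omit [FiniteDimensional ℂ 𝔤] [LieAlgebra.IsKilling ℂ 𝔤] in
theorem alg3R_smul {W V : 𝔤} (z : ℂ) (h : alg3R σ q W V) : alg3R σ q (z • W) (z • V) := by
  obtain ⟨a, b, c, rfl, h1, h2, h3, h4, rfl⟩ := h
  refine ⟨z • a, z • b, z • c, by rw [smul_add, smul_add], q.smul_mem z h1, ?_,
    (σ.mp q).smul_mem z h3, ?_, ?_⟩
  · rw [σ.map_smul]; exact q.smul_mem _ h2
  · rw [σ.map_smul]; exact (σ.mp q).smul_mem _ h4
  · rw [smul_sub, smul_comm z, smul_comm z]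

theorem alg3R_lie (H : AlgHyp σ q) {W V W' V' : 𝔤} (h : alg3R σ q W V) (h' : alg3R σ q W' V') :
    alg3R σ q ⁅W, W'⁆ (⁅W, V'⁆ - ⁅W', V⁆) := by
  obtain ⟨a, b, c, rfl, h1, h2, h3, h4, rfl⟩ := h
  obtain ⟨a', b', c', rfl, h1', h2', h3', h4', rfl⟩ := h'
  have bb : ⁅b, b'⁆ = 0 := H.mp_abelian h3 h3'
  have bb' : ⁅b', b⁆ = 0 := H.mp_abelian h3' h3
  have cc : ⁅c, c'⁆ = 0 := by
    have := congrArg σ (H.mp_abelian h4 h4')
    rwa [σ.map_lie, σ.invol, σ.invol, σ.map_zero] at this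
  have cc' : ⁅c', c⁆ = 0 := by rw [← lie_skew, cc, neg_zero]
  have bc := H.lie_mp_mm h3 h4'
  have bc' := H.lie_mp_mm h3' h4
  rw [σ.invol] at bc bc'
  have s1 : ⁅b, a'⁆ = -⁅a', b⁆ := (lie_skew _ _).symm
  have s2 : ⁅c, a'⁆ = -⁅a', c⁆ := (lie_skew _ _).symm
  have s3 : ⁅c, b'⁆ = -⁅b', c⁆ := (lie_skew _ _).symm
  have s4 : ⁅c', b⁆ = -⁅b, c'⁆ := (lie_skew _ _).symm
  refine ⟨⁅a, a'⁆ + ⁅b, c'⁆ - ⁅b', c⁆, ⁅a, b'⁆ - ⁅a', b⁆, ⁅a, c'⁆ - ⁅a', c⁆, ?_, ?_, ?_, ?_, ?_, ?_⟩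
  · simp only [add_lie, lie_add, bb, cc, s1, s2, s3]; abel
  · exact q.sub_mem (q.add_mem (H.lie_mem _ h1 _ h1') bc.1) bc'.1
  · rw [σ.map_sub, σ.map_add]
    refine q.sub_mem (q.add_mem ?_ bc.2) bc'.2
    rw [σ.map_lie]; exact H.lie_mem _ h2 _ h2'
  · exact (σ.mp q).sub_mem (H.lie_k_mp h1 h2 h3') (H.lie_k_mp h1' h2' h3)
  · rw [σ.map_sub, σ.map_lie, σ.map_lie]
    refine (σ.mp q).sub_mem (H.lie_k_mp h2 ?_ h4') (H.lie_k_mp h2' ?_ h4)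
    · rwa [σ.invol]
    · rwa [σ.invol]
  · simp only [add_lie, lie_sub, lie_smul, bb, bb', cc, cc', s3, s4, smul_sub, smul_add,
      smul_neg, smul_zero]
    abel

omit [FiniteDimensional ℂ 𝔤] [LieAlgebra.IsKilling ℂ 𝔤] in
theorem alg3R_conj {W V : 𝔤} (h : alg3R σ q W V) : alg3R σ q (σ W) (σ V) := by
  obtain ⟨a, b, c, rfl, h1, h2, h3, h4, rfl⟩ := h
  refine ⟨σ a, σ c, σ b, ?_, h2, by rwa [σ.invol], h4, by rwa [σ.invol], ?_⟩
  · rw [σ.map_add, σ.map_add]; abel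
  · rw [σ.map_sub, σ.map_smul, σ.map_smul, Complex.conj_I, neg_smul, neg_smul]; abel

theorem alg3_exists_Z (H : AlgHyp σ q) : ∃ Z : 𝔤, ∀ W, alg3R σ q W ⁅Z, W⁆ := by
  have tot : ∀ W, ∃ V, alg3R σ q W V := fun W => by
    obtain ⟨a, b, c, h, h1, h2, h3, h4⟩ := H.dec W
    exact ⟨_, a, b, c, h, h1, h2, h3, h4, rfl⟩
  choose J hJ using tot
  let JL : 𝔤 →ₗ[ℂ] 𝔤 :=
    { toFun := J
      map_add' := fun W W' => alg3R_unique H (hJ _) (alg3R_add (hJ W) (hJ W'))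
      map_smul' := fun z W => alg3R_unique H (hJ _) (alg3R_smul z (hJ W)) }
  let D : LieDerivation ℂ 𝔤 𝔤 :=
    { toLinearMap := JL
      leibniz' := fun W W' => alg3R_unique H (hJ _) (alg3R_lie H (hJ W) (hJ W')) }
  obtain ⟨Z, hZ⟩ := LieDerivation.IsKilling.exists_eq_ad D
  refine ⟨Z, fun W => ?_⟩
  have e : LieDerivation.ad ℂ 𝔤 Z W = J W := by rw [hZ]; rfl
  have e' : LieDerivation.ad ℂ 𝔤 Z W = ⁅Z, W⁆ := by simp
  rw [← e', e]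
  exact hJ W

theorem AlgHyp.exists_HS (H : AlgHyp σ q) : ∃ Z, HS σ q Z := by
  obtain ⟨Z, hZ⟩ := alg3_exists_Z H
  have hI : (Complex.I : ℂ) ≠ 0 := Complex.I_ne_zero
  have hσ0 : σ 0 ∈ σ.mp q := by rw [σ.map_zero]; exact zero_mem _
  have hσ0' : σ 0 ∈ q := by rw [σ.map_zero]; exact zero_mem _
  have hk : ∀ W, ⁅Z, W⁆ = 0 → W ∈ q ∧ σ W ∈ q := by
    intro W hW
    obtain ⟨a, b, c, rfl, h1, h2, h3, h4, h5⟩ := hZ W
    rw [hW] at h5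
    have e : (0 : 𝔤) + Complex.I • b + (-Complex.I) • c = 0 := by
      rw [neg_smul, zero_add, ← sub_eq_add_neg, ← h5]
    obtain ⟨-, e2, e3⟩ := H.dec_unique e (zero_mem _) hσ0' ((σ.mp q).smul_mem _ h3)
      (by rw [σ.map_smul]; exact (σ.mp q).smul_mem _ h4)
    rw [smul_eq_zero_iff_right hI] at e2
    rw [smul_eq_zero_iff_right (neg_ne_zero.2 hI)] at e3
    rw [e2, e3, add_zero, add_zero]
    exact ⟨h1, h2⟩
  have hp : ∀ W, ⁅Z, W⁆ = Complex.I • W → W ∈ σ.mp q := by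
    intro W hW
    obtain ⟨a, b, c, rfl, h1, h2, h3, h4, h5⟩ := hZ W
    rw [hW] at h5
    have e : Complex.I • a + 0 + (2 * Complex.I) • c = 0 := by
      have h6 := sub_eq_zero.2 h5
      refine Eq.trans ?_ h6
      rw [two_mul, add_smul, smul_add, smul_add]; abel
    obtain ⟨e1, -, e3⟩ := H.dec_unique e (q.smul_mem _ h1)
      (by rw [σ.map_smul]; exact q.smul_mem _ h2) (zero_mem _)
      (by rw [σ.map_smul]; exact (σ.mp q).smul_mem _ h4)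
    rw [smul_eq_zero_iff_right hI] at e1
    rw [smul_eq_zero_iff_right (mul_ne_zero two_ne_zero hI)] at e3
    rw [e1, e3, add_zero, zero_add]
    exact h3
  have hm : ∀ W, ⁅Z, W⁆ = -(Complex.I • W) → W ∈ q := by
    intro W hW
    obtain ⟨a, b, c, rfl, h1, h2, h3, h4, h5⟩ := hZ W
    rw [hW] at h5
    have e : Complex.I • a + (2 * Complex.I) • b + 0 = 0 := by
      have h6 := sub_eq_zero.2 h5.symm
      refine Eq.trans ?_ h6
      rw [two_mul, add_smul, smul_add, smul_add]; abel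
    obtain ⟨e1, e2, -⟩ := H.dec_unique e (q.smul_mem _ h1)
      (by rw [σ.map_smul]; exact q.smul_mem _ h2) ((σ.mp q).smul_mem _ h3) hσ0
    rw [smul_eq_zero_iff_right hI] at e1
    rw [smul_eq_zero_iff_right (mul_ne_zero two_ne_zero hI)] at e2
    rw [e1, e2, add_zero, zero_add]
    have := H.conj_mp_mem h4
    rwa [σ.invol] at this
  refine ⟨Z, ?_, ?_, fun W hW => (hk W hW).1, hm, fun W hW hq => H.mp_disjoint (hp W hW) hq,
    fun W hW h0 => H.h_pos (hp W hW) h0, fun W hW h0 => H.h_neg (hk W hW).1 (hk W hW).2 h0⟩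
  · have e : ∀ W, ⁅σ Z, W⁆ = ⁅Z, W⁆ := fun W => by
      have h1 := alg3R_conj (hZ (σ W))
      rw [σ.map_lie, σ.invol] at h1
      exact alg3R_unique H h1 (hZ W)
    refine LieDerivation.injective_ad_of_center_eq_bot (R := ℂ) (LieAlgebra.center_eq_bot ℂ 𝔤) ?_
    ext W
    simpa using e W
  · intro W
    obtain ⟨a, b, c, h, h1, h2, h3, h4⟩ := H.dec W
    refine ⟨a, b, c, h, ?_, ?_, ?_⟩
    · refine alg3R_unique H (hZ a) ⟨a, 0, 0, by simp, h1, h2, zero_mem _, hσ0, by simp⟩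
    · refine alg3R_unique H (hZ b) ⟨0, b, 0, by simp, zero_mem _, hσ0', h3, hσ0, by simp⟩
    · refine alg3R_unique H (hZ c) ⟨0, 0, c, by simp, zero_mem _, hσ0', zero_mem _, h4, by simp⟩

end Vale.Agent.P274
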