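import Mathlib

/-! Abstract Lie algebra definitions. -/

namespace Vale.Agent.P274

/-- A conjugation (real structure) of a complex Lie algebra. -/
structure Conj (𝔤 : Type*) [LieRing 𝔤] [LieAlgebra ℂ 𝔤] where
  toFun : 𝔤 → 𝔤
  map_add : ∀ X Y, toFun (X + Y) = toFun X + toFun Y
  map_smul : ∀ (c : ℂ) X, toFun (c • X) = (starRingEnd ℂ c) • toFun X
  map_lie : ∀ X Y, toFun ⁅X, Y⁆ = ⁅toFun X, toFun Y⁆
  invol : ∀ X, toFun (toFun X) = X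

variable {𝔤 : Type*} [LieRing 𝔤] [LieAlgebra ℂ 𝔤]

instance : CoeFun (Conj 𝔤) (fun _ => 𝔤 → 𝔤) := ⟨Conj.toFun⟩

/-- The Hermitian quadratic form `B (W, σ W)`. -/
noncomputable def Conj.h (σ : Conj 𝔤) (W : 𝔤) : ℝ := (killingForm ℂ 𝔤 W (σ W)).re

/-- `m⁺ = σ (q^⊥)`. -/
def Conj.mp (σ : Conj 𝔤) (q : Submodule ℂ 𝔤) : Submodule ℂ 𝔤 where
  carrier := {W | ∀ V ∈ q, killingForm ℂ 𝔤 (σ W) V = 0}
  add_mem' := fun {a b} ha hb V hV => by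
    rw [σ.map_add, _root_.map_add, LinearMap.add_apply, ha V hV, hb V hV, add_zero]
  zero_mem' := fun V _ => by
    have : σ 0 = 0 := by simpa using σ.map_smul 0 0
    rw [this, _root_.map_zero, LinearMap.zero_apply]
  smul_mem' := fun c {a} ha V hV => by
    rw [σ.map_smul, _root_.map_smul, LinearMap.smul_apply, ha V hV, smul_zero]

/-- Hermitian symmetric structure at the isotropy subspace `q`, given by the element `Z`. -/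
structure HS (σ : Conj 𝔤) (q : Submodule ℂ 𝔤) (Z : 𝔤) : Prop where
  real : σ Z = Z
  dec : ∀ W, ∃ W₀ Wp Wm : 𝔤, W = W₀ + Wp + Wm ∧ ⁅Z, W₀⁆ = 0 ∧ ⁅Z, Wp⁆ = Complex.I • Wp ∧
    ⁅Z, Wm⁆ = -(Complex.I • Wm)
  mem_zero : ∀ W, ⁅Z, W⁆ = 0 → W ∈ q
  mem_neg : ∀ W, ⁅Z, W⁆ = -(Complex.I • W) → W ∈ q
  not_pos : ∀ W, ⁅Z, W⁆ = Complex.I • W → W ∈ q → W = 0
  h_pos : ∀ W, ⁅Z, W⁆ = Complex.I • W → W ≠ 0 → 0 < σ.h W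
  h_neg : ∀ W, ⁅Z, W⁆ = 0 → W ≠ 0 → σ.h W < 0

/-- The output of the extremal problem, as a hypothesis on `(σ, q)`. -/
def ExtHyp (σ : Conj 𝔤) (q : Submodule ℂ 𝔤) : Prop :=
  ∀ (r : ℕ) (W : Fin r → 𝔤), (∀ c : Fin r → ℂ, ∑ l, c l • W l ∈ q → c = 0) →
    ∃ lam : 𝔤 →ₗ[ℂ] ℂ, (∀ Y, lam (σ Y) = -(starRingEnd ℂ (lam Y))) ∧
      (∀ Y ∈ q, ∀ A : Matrix (Fin r) (Fin r) ℂ,
        (∀ l, ⁅W l, Y⁆ - ∑ m, A m l • W m ∈ q) → lam Y = A.trace) ∧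
      ∀ c : Fin r → ℂ, c ≠ 0 → σ (∑ l, c l • W l) ∈ q →
        (∃ A : Matrix (Fin r) (Fin r) ℂ,
          ∀ l, ⁅W l, σ (∑ l, c l • W l)⁆ - ∑ m, A m l • W m ∈ q) →
        (lam ⁅∑ l, c l • W l, σ (∑ l, c l • W l)⁆).re < 0

/-- The hypotheses of the algebraic theorem. -/
structure AlgHyp (σ : Conj 𝔤) (q : Submodule ℂ 𝔤) : Prop where
  lie_mem : ∀ X ∈ q, ∀ Y ∈ q, ⁅X, Y⁆ ∈ q
  perp : ∀ W, (∀ V ∈ q, killingForm ℂ 𝔤 W V = 0) → W ∈ q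
  diag : ∀ X ∈ q, σ X = X →
    ⨆ c : ℝ, Module.End.eigenspace (LieAlgebra.ad ℂ 𝔤 X) (c * Complex.I) = ⊤
  ext : ExtHyp σ q

end Vale.Agent.P274
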