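import Vale.Agent.P274.Defs

/-! Basic API, part a: topology, charts, closure properties, chain rule. -/

open Metric Set Filter Topology

namespace Vale.Agent.P274.BM

variable {N n : ℕ} (M : BM N n) {F G : Type*} [NormedAddCommGroup F] [NormedSpace ℂ F]
  [NormedAddCommGroup G] [NormedSpace ℂ G]

instance : Nonempty M.X := M.conn.nonempty.to_subtype

instance : ConnectedSpace M.X := isConnected_iff_connectedSpace.1 M.conn

theorem exists_bound : ∃ R : ℝ, 0 < R ∧ ∀ x : M.X, ‖x.1‖ ≤ R := by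
  obtain ⟨R, hR, h⟩ := M.bdd.exists_pos_norm_le
  exact ⟨R, hR, fun x => h x.1 x.2⟩

theorem co_self (x : M.X) : M.co x x = 0 := by
  simp [co]

theorem co_ψ (x : M.X) {w : E n} (hw : w ∈ ball (0 : E n) (M.r x)) : M.co x (M.ψ x w) = w :=
  M.L_ψ x w hw

theorem continuous_co (x : M.X) : Continuous (M.co x) :=
  (M.L x).continuous.comp (continuous_subtype_val.sub continuous_const)

theorem ψ_co_eventually' (x : M.X) {w : E n} (hw : w ∈ ball (0 : E n) (M.r x)) :
    ∀ᶠ y in 𝓝 (M.ψ x w), M.ψ x (M.co x y) = y ∧ M.co x y ∈ ball (0 : E n) (M.r x) := by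
  refine (M.ψ_L x w hw).and ((M.continuous_co x).continuousAt.eventually_mem ?_)
  rw [M.co_ψ x hw]
  exact isOpen_ball.mem_nhds hw

theorem ψ_co_eventually (x : M.X) :
    ∀ᶠ y in 𝓝 x, M.ψ x (M.co x y) = y ∧ M.co x y ∈ ball (0 : E n) (M.r x) := by
  have h := M.ψ_co_eventually' x (mem_ball_self (M.r_pos x))
  rwa [M.ψ_zero] at h

theorem continuousOn_ψ (x : M.X) : ContinuousOn (M.ψ x) (ball 0 (M.r x)) :=
  Topology.IsInducing.subtypeVal.continuousOn_iff.2 (M.ψ_hol x).continuousOn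

theorem map_ψ_nhds (x : M.X) {w : E n} (hw : w ∈ ball (0 : E n) (M.r x)) :
    map (M.ψ x) (𝓝 w) = 𝓝 (M.ψ x w) := by
  refine le_antisymm ((M.continuousOn_ψ x).continuousAt (isOpen_ball.mem_nhds hw)) fun S hS => ?_
  have h1 : Tendsto (M.co x) (𝓝 (M.ψ x w)) (𝓝 w) := by
    have h2 := (M.continuous_co x).tendsto (M.ψ x w)
    rwa [M.co_ψ x hw] at h2
  filter_upwards [h1 (mem_map.1 hS), M.ψ_co_eventually' x hw] with y h2 h3
  rw [← h3.1]
  exact h2

theorem isOpen_image_ψ (x : M.X) {S : Set (E n)} (hS : IsOpen S)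
    (h : S ⊆ ball (0 : E n) (M.r x)) : IsOpen (M.ψ x '' S) := by
  refine isOpen_iff_mem_nhds.2 ?_
  rintro _ ⟨w, hw, rfl⟩
  rw [← M.map_ψ_nhds x (h hw)]
  exact image_mem_map (hS.mem_nhds hw)

theorem image_ball_mem_nhds (x : M.X) {s : ℝ} (hs : 0 < s) : M.ψ x '' ball 0 s ∈ 𝓝 x := by
  have h := M.map_ψ_nhds x (mem_ball_self (M.r_pos x))
  have h2 := image_mem_map (m := M.ψ x) (ball_mem_nhds (0 : E n) hs)
  rwa [h, M.ψ_zero] at h2

theorem isCompact_image_closedBall (x : M.X) {s : ℝ} (hs : s < M.r x) :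
    IsCompact (M.ψ x '' closedBall 0 s) :=
  (isCompact_closedBall 0 s).image_of_continuousOn
    ((M.continuousOn_ψ x).mono (closedBall_subset_ball hs))

theorem isPreconnected_image_ball (x : M.X) {s : ℝ} (hs : s ≤ M.r x) :
    IsPreconnected (M.ψ x '' ball 0 s) :=
  (convex_ball 0 s).isPreconnected.image _ ((M.continuousOn_ψ x).mono (ball_subset_ball hs))

instance : LocallyCompactSpace M.X := by
  have : WeaklyLocallyCompactSpace M.X := ⟨fun x => ⟨M.ψ x '' closedBall 0 (M.r x / 2),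
    M.isCompact_image_closedBall x (half_lt_self (M.r_pos x)),
    mem_of_superset (M.image_ball_mem_nhds x (half_pos (M.r_pos x)))
      (image_mono ball_subset_closedBall)⟩⟩
  infer_instance

/-- Every compact set lies in a compact preconnected set. -/
theorem exists_preconnected_compact {C : Set M.X} (hC : IsCompact C) :
    ∃ C', IsCompact C' ∧ IsPreconnected C' ∧ C ⊆ C' := by
  obtain ⟨x0⟩ : Nonempty M.X := inferInstance
  have hB : ∀ x : M.X, ∃ B, IsCompact B ∧ IsPreconnected B ∧ B ∈ 𝓝 x := fun x =>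
    ⟨M.ψ x '' closedBall 0 (M.r x / 2),
      M.isCompact_image_closedBall x (half_lt_self (M.r_pos x)),
      (convex_closedBall 0 _).isPreconnected.image _ ((M.continuousOn_ψ x).mono
        (closedBall_subset_ball (half_lt_self (M.r_pos x)))),
      mem_of_superset (M.image_ball_mem_nhds x (half_pos (M.r_pos x)))
        (image_mono ball_subset_closedBall)⟩
  choose B hB1 hB2 hB3 using hB
  let S : Set M.X := {y | ∃ D, IsCompact D ∧ IsPreconnected D ∧ x0 ∈ D ∧ y ∈ D}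
  have key : ∀ y, ∀ z ∈ B y, z ∈ S → B y ⊆ S := by
    rintro y z hz ⟨D, h1, h2, h3, h4⟩ u hu
    exact ⟨D ∪ B y, h1.union (hB1 y), h2.union z h4 hz (hB2 y), Or.inl h3, Or.inr hu⟩
  have hS : IsClopen S := by
    refine ⟨⟨isOpen_iff_mem_nhds.2 fun y hy => mem_of_superset (hB3 y) fun z hz h => hy ?_⟩,
      isOpen_iff_mem_nhds.2 fun y hy => mem_of_superset (hB3 y)
        (key y y (mem_of_mem_nhds (hB3 y)) hy)⟩
    exact key y z hz h (mem_of_mem_nhds (hB3 y))
  have hU : S = univ := hS.eq_univ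
    ⟨x0, {x0}, isCompact_singleton, isPreconnected_singleton, rfl, rfl⟩
  refine hC.induction_on
    (p := fun C => ∃ D, IsCompact D ∧ IsPreconnected D ∧ x0 ∈ D ∧ C ⊆ D)
    ⟨{x0}, isCompact_singleton, isPreconnected_singleton, rfl, empty_subset _⟩
    (fun s t hst ⟨D, h1, h2, h3, h4⟩ => ⟨D, h1, h2, h3, hst.trans h4⟩)
    (fun s t ⟨D, h1, h2, h3, h4⟩ ⟨D', h1', h2', h3', h4'⟩ =>
      ⟨D ∪ D', h1.union h1', h2.union x0 h3 h3' h2', Or.inl h3, union_subset_union h4 h4'⟩)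
    (fun y _ => ?_) |>.imp fun D h => ⟨h.1, h.2.1, h.2.2.2⟩
  obtain ⟨D, h1, h2, h3, h4⟩ : y ∈ S := hU ▸ mem_univ y
  exact ⟨B y, mem_nhdsWithin_of_mem_nhds (hB3 y), D ∪ B y, h1.union (hB1 y),
    h2.union y h4 (mem_of_mem_nhds (hB3 y)) (hB2 y), Or.inl h3, subset_union_right⟩

theorem analyticAt_ψ (x : M.X) {w : E n} (hw : w ∈ ball (0 : E n) (M.r x)) :
    AnalyticAt ℂ (M.ι ∘ M.ψ x) w :=
  P278F.analyticOnNhd_of_differentiableOn isOpen_ball (M.ψ_hol x) w hw

theorem hol_ι : M.Hol M.ι := M.holAt_ι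

theorem hol_co (x : M.X) : M.Hol (M.co x) := fun y =>
  ((M.L x).analyticAt _).comp ((M.holAt_ι y).sub analyticAt_const)

theorem holAt_const (c : F) (x : M.X) : M.HolAt (fun _ => c) x := analyticAt_const

variable {M}

theorem tendsto_ψ (x : M.X) : Tendsto (M.ψ x) (𝓝 0) (𝓝 x) := by
  have h := (M.map_ψ_nhds x (mem_ball_self (M.r_pos x))).le
  rwa [M.ψ_zero] at h

theorem comp_eventuallyEq {P α : Type*} [TopologicalSpace P] (f : M.X → α) {h : P → M.X} {p : P}
    (hh : ContinuousAt (M.ι ∘ h) p) :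
    f ∘ h =ᶠ[𝓝 p] (f ∘ M.ψ (h p)) ∘ (M.co (h p) ∘ h) := by
  have h1 : ContinuousAt h p := Topology.IsInducing.subtypeVal.continuousAt_iff.2 hh
  filter_upwards [h1.eventually (M.ψ_co_eventually (h p))] with q hq
  exact congrArg f hq.1.symm

/-- Composition with an analytic parametrisation. -/
theorem HolAt.analyticAt_comp {P : Type*} [NormedAddCommGroup P] [NormedSpace ℂ P]
    {f : M.X → F} {h : P → M.X} {p : P} (hf : M.HolAt f (h p))
    (hh : AnalyticAt ℂ (M.ι ∘ h) p) : AnalyticAt ℂ (f ∘ h) p := by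
  have h1 : AnalyticAt ℂ (M.co (h p) ∘ h) p :=
    ((M.L (h p)).analyticAt _).comp (hh.sub analyticAt_const)
  exact (AnalyticAt.comp_of_eq hf h1 (M.co_self _)).congr
    (comp_eventuallyEq f hh.continuousAt).symm

theorem holAt_iff_chart {f : M.X → F} {x : M.X} {w : E n} (hw : w ∈ ball (0 : E n) (M.r x)) :
    M.HolAt f (M.ψ x w) ↔ AnalyticAt ℂ (f ∘ M.ψ x) w := by
  refine ⟨fun h => h.analyticAt_comp (M.analyticAt_ψ x hw), fun h => ?_⟩
  have h1 : AnalyticAt ℂ ((f ∘ M.ψ x) ∘ (M.co x ∘ M.ψ (M.ψ x w))) 0 :=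
    h.comp_of_eq (M.hol_co x _) (by simp [M.ψ_zero, M.co_ψ x hw])
  refine h1.congr ?_
  filter_upwards [tendsto_ψ (M.ψ x w) (M.ψ_co_eventually' x hw)] with u hu
  exact congrArg f hu.1

theorem Hol.analyticOnNhd {f : M.X → F} (hf : M.Hol f) (x : M.X) :
    AnalyticOnNhd ℂ (f ∘ M.ψ x) (ball 0 (M.r x)) := fun _ hw =>
  (holAt_iff_chart hw).1 (hf _)

theorem holAt_of_eventually [CompleteSpace F] {f : M.X → F} {x : M.X}
    (h : ∀ᶠ w in 𝓝 (0 : E n), DifferentiableAt ℂ (f ∘ M.ψ x) w) : M.HolAt f x :=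
  P278F.analyticAt_of_eventually h

theorem HolAt.continuousAt {f : M.X → F} {x : M.X} (hf : M.HolAt f x) : ContinuousAt f x := by
  have h1 : ContinuousAt ((f ∘ M.ψ x) ∘ M.co x) x :=
    (AnalyticAt.continuousAt hf).comp_of_eq (M.continuous_co x).continuousAt (M.co_self x)
  refine h1.congr ?_
  filter_upwards [M.ψ_co_eventually x] with y hy
  exact congrArg f hy.1

theorem Hol.continuous {f : M.X → F} (hf : M.Hol f) : Continuous f :=
  continuous_iff_continuousAt.2 fun x => (hf x).continuousAt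

theorem HolAt.continuousAt_map {a : M.X → M.X} {x : M.X} (ha : M.HolAt (M.ι ∘ a) x) :
    ContinuousAt a x :=
  Topology.IsInducing.subtypeVal.continuousAt_iff.2 ha.continuousAt

theorem continuous_smul_aut (a : M.Aut) : Continuous (fun x : M.X => a • x) :=
  continuous_iff_continuousAt.2 fun x =>
    HolAt.continuousAt_map (a := fun x => a • x) (M.hol_smul a x)

theorem HolAt.eventually [CompleteSpace F] {f : M.X → F} {x : M.X} (hf : M.HolAt f x) :
    ∀ᶠ y in 𝓝 x, M.HolAt f y := by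
  have h1 : Tendsto (M.co x) (𝓝 x) (𝓝 0) := by
    have h2 := (M.continuous_co x).tendsto x
    rwa [M.co_self] at h2
  filter_upwards [h1.eventually (AnalyticAt.eventually_analyticAt hf), M.ψ_co_eventually x]
    with y h2 h3
  rw [← h3.1]
  exact (holAt_iff_chart h3.2).2 h2

theorem HolAt.congr {f g : M.X → F} {x : M.X} (hf : M.HolAt f x) (h : f =ᶠ[𝓝 x] g) :
    M.HolAt g x :=
  AnalyticAt.congr hf (h.comp_tendsto (tendsto_ψ x))

theorem HolAt.comp_analytic {f : M.X → F} {g : F → G} {x : M.X} (hf : M.HolAt f x)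
    (hg : AnalyticAt ℂ g (f x)) : M.HolAt (fun y => g (f y)) x :=
  hg.comp_of_eq hf (by simp [M.ψ_zero])

theorem HolAt.clm {f : M.X → F} {x : M.X} (hf : M.HolAt f x) (g : F →L[ℂ] G) :
    M.HolAt (fun y => g (f y)) x :=
  hf.comp_analytic (g.analyticAt _)

theorem HolAt.add {f g : M.X → F} {x : M.X} (hf : M.HolAt f x) (hg : M.HolAt g x) :
    M.HolAt (fun y => f y + g y) x := AnalyticAt.add hf hg

theorem HolAt.sub {f g : M.X → F} {x : M.X} (hf : M.HolAt f x) (hg : M.HolAt g x) :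
    M.HolAt (fun y => f y - g y) x := AnalyticAt.sub hf hg

theorem HolAt.neg {f : M.X → F} {x : M.X} (hf : M.HolAt f x) :
    M.HolAt (fun y => - f y) x := AnalyticAt.neg hf

theorem HolAt.mul {f g : M.X → ℂ} {x : M.X} (hf : M.HolAt f x) (hg : M.HolAt g x) :
    M.HolAt (fun y => f y * g y) x := AnalyticAt.mul hf hg

theorem HolAt.smul {f : M.X → ℂ} {g : M.X → F} {x : M.X} (hf : M.HolAt f x)
    (hg : M.HolAt g x) : M.HolAt (fun y => f y • g y) x := AnalyticAt.smul hf hg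

theorem HolAt.div {f g : M.X → ℂ} {x : M.X} (hf : M.HolAt f x) (hg : M.HolAt g x)
    (h : g x ≠ 0) : M.HolAt (fun y => f y / g y) x :=
  AnalyticAt.div hf hg (by simpa [M.ψ_zero] using h)

theorem HolAt.pow {f : M.X → ℂ} {x : M.X} (hf : M.HolAt f x) (k : ℕ) :
    M.HolAt (fun y => f y ^ k) x :=
  AnalyticAt.pow hf k

theorem HolAt.prodMk {f : M.X → F} {g : M.X → G} {x : M.X} (hf : M.HolAt f x)
    (hg : M.HolAt g x) : M.HolAt (fun y => (f y, g y)) x := AnalyticAt.prod hf hg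

theorem holAt_sum {ι : Type*} (s : Finset ι) {f : ι → M.X → F} {x : M.X}
    (hf : ∀ i ∈ s, M.HolAt (f i) x) : M.HolAt (fun y => ∑ i ∈ s, f i y) x :=
  Finset.analyticAt_fun_sum s hf

theorem holAt_prod {ι : Type*} (s : Finset ι) {f : ι → M.X → ℂ} {x : M.X}
    (hf : ∀ i ∈ s, M.HolAt (f i) x) : M.HolAt (fun y => ∏ i ∈ s, f i y) x :=
  Finset.analyticAt_fun_prod s hf

theorem holAt_pi_iff {ι : Type*} [Fintype ι] {f : M.X → ι → F} {x : M.X} :
    M.HolAt f x ↔ ∀ i, M.HolAt (fun y => f y i) x :=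
  analyticAt_pi_iff

theorem holAt_det {ι : Type*} [Fintype ι] [DecidableEq ι] {f : M.X → Matrix ι ι ℂ} {x : M.X}
    (hf : ∀ i j, M.HolAt (fun y => f y i j) x) : M.HolAt (fun y => (f y).det) x := by
  simp only [Matrix.det_apply']
  exact holAt_sum _ fun s _ => (M.holAt_const _ x).mul (holAt_prod _ fun i _ => hf _ _)

theorem HolAt.hasFDerivAt_comp {P : Type*} [NormedAddCommGroup P] [NormedSpace ℂ P]
    {f : M.X → F} {h : P → M.X} {p : P} {h' : P →L[ℂ] E N} (hf : M.HolAt f (h p))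
    (hh : HasFDerivAt (M.ι ∘ h) h' p) : HasFDerivAt (f ∘ h) ((M.df f (h p)).comp h') p := by
  have h1 : HasFDerivAt (M.co (h p) ∘ h) ((M.L (h p)).comp h') p :=
    (M.L (h p)).hasFDerivAt.comp p (hh.sub_const (h p).1)
  have h2 : HasFDerivAt (f ∘ M.ψ (h p)) (fderiv ℂ (f ∘ M.ψ (h p)) 0) ((M.co (h p) ∘ h) p) := by
    rw [Function.comp_apply, M.co_self]
    exact (AnalyticAt.differentiableAt hf).hasFDerivAt
  exact (h2.comp p h1).congr_of_eventuallyEq (comp_eventuallyEq f hh.continuousAt)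

theorem HolAt.hasFDerivAt_comp_real {P : Type*} [NormedAddCommGroup P] [NormedSpace ℝ P]
    {f : M.X → F} {h : P → M.X} {p : P} {h' : P →L[ℝ] E N} (hf : M.HolAt f (h p))
    (hh : HasFDerivAt (M.ι ∘ h) h' p) :
    HasFDerivAt (f ∘ h) (((M.df f (h p)).restrictScalars ℝ).comp h') p := by
  have h1 : HasFDerivAt (M.co (h p) ∘ h) (((M.L (h p)).restrictScalars ℝ).comp h') p :=
    ((M.L (h p)).restrictScalars ℝ).hasFDerivAt.comp p (hh.sub_const (h p).1)
  have h2 : HasFDerivAt (f ∘ M.ψ (h p)) ((fderiv ℂ (f ∘ M.ψ (h p)) 0).restrictScalars ℝ)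
      ((M.co (h p) ∘ h) p) := by
    rw [Function.comp_apply, M.co_self]
    exact (AnalyticAt.differentiableAt hf).hasFDerivAt.restrictScalars ℝ
  exact (h2.comp p h1).congr_of_eventuallyEq (comp_eventuallyEq f hh.continuousAt)

theorem HolAt.hasDerivAt_comp {f : M.X → F} {c : ℂ → M.X} {s : ℂ} {v : E N}
    (hf : M.HolAt f (c s)) (hc : HasDerivAt (M.ι ∘ c) v s) :
    HasDerivAt (f ∘ c) (M.df f (c s) v) s := by
  simpa using (hf.hasFDerivAt_comp hc.hasFDerivAt).hasDerivAt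

theorem HolAt.hasDerivAt_comp_real {f : M.X → F} {c : ℝ → M.X} {s : ℝ} {v : E N}
    (hf : M.HolAt f (c s)) (hc : HasDerivAt (M.ι ∘ c) v s) :
    HasDerivAt (f ∘ c) (M.df f (c s) v) s := by
  simpa using (hf.hasFDerivAt_comp_real hc.hasFDerivAt).hasDerivAt

theorem Hol.differentiableOn_comp {P : Type*} [NormedAddCommGroup P] [NormedSpace ℂ P]
    {f : M.X → F} {h : P → M.X} {S : Set P} (hf : M.Hol f) (hS : IsOpen S)
    (hh : DifferentiableOn ℂ (M.ι ∘ h) S) : DifferentiableOn ℂ (f ∘ h) S := fun p hp =>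
  ((hf (h p)).hasFDerivAt_comp
    (hh.differentiableAt (hS.mem_nhds hp)).hasFDerivAt).differentiableAt.differentiableWithinAt

end Vale.Agent.P274.BM
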