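import Vale.Agent.P274.B1a

/-! Basic API, part b: differentials and tangent spaces. -/

open Metric Set Filter Topology

namespace Vale.Agent.P274.BM

variable {N n : ℕ} {M : BM N n} {F G : Type*} [NormedAddCommGroup F] [NormedSpace ℂ F]
  [NormedAddCommGroup G] [NormedSpace ℂ G]

theorem L_fderiv_ψ {x : M.X} {w : E n} (hw : w ∈ ball (0 : E n) (M.r x)) (u : E n) :
    M.L x (fderiv ℂ (M.ι ∘ M.ψ x) w u) = u := by
  have h1 : HasFDerivAt (fun w => M.L x ((M.ι ∘ M.ψ x) w - x.1))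
      ((M.L x).comp (fderiv ℂ (M.ι ∘ M.ψ x) w)) w :=
    (M.L x).hasFDerivAt.comp w ((M.analyticAt_ψ x hw).differentiableAt.hasFDerivAt.sub_const x.1)
  have h2 : HasFDerivAt (fun w => M.L x ((M.ι ∘ M.ψ x) w - x.1))
      (ContinuousLinearMap.id ℂ (E n)) w := by
    refine (hasFDerivAt_id w).congr_of_eventuallyEq ?_
    filter_upwards [isOpen_ball.mem_nhds hw] with w' hw' using M.L_ψ x w' hw'
  exact congrArg (fun A : E n →L[ℂ] E n => A u) (h1.unique h2)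

theorem fderiv_ψ_inj {x : M.X} {w : E n} (hw : w ∈ ball (0 : E n) (M.r x)) :
    Function.Injective (fderiv ℂ (M.ι ∘ M.ψ x) w).toLinearMap :=
  Function.LeftInverse.injective (g := M.L x) (L_fderiv_ψ hw)

theorem mem_T_of_hasFDerivAt {P : Type*} [NormedAddCommGroup P] [NormedSpace ℂ P]
    {h : P → M.X} {p : P} {h' : P →L[ℂ] E N} (hh : HasFDerivAt (M.ι ∘ h) h' p) (u : P) :
    h' u ∈ M.T (h p) := by
  have h1 := (M.holAt_ι (h p)).hasFDerivAt_comp hh
  rw [hh.unique h1]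
  exact ⟨_, rfl⟩

theorem mem_T_of_hasDerivAt {c : ℂ → M.X} {s : ℂ} {v : E N}
    (hc : HasDerivAt (M.ι ∘ c) v s) : v ∈ M.T (c s) := by
  rw [hc.unique ((M.holAt_ι (c s)).hasDerivAt_comp hc)]
  exact ⟨_, rfl⟩

theorem mem_T_of_hasDerivAt_real {c : ℝ → M.X} {s : ℝ} {v : E N}
    (hc : HasDerivAt (M.ι ∘ c) v s) : v ∈ M.T (c s) := by
  rw [hc.unique ((M.holAt_ι (c s)).hasDerivAt_comp_real hc)]
  exact ⟨_, rfl⟩

theorem df_comp {f : M.X → F} {a : M.X → M.X} {x : M.X} (hf : M.HolAt f (a x))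
    (ha : M.HolAt (M.ι ∘ a) x) (v : E N) :
    M.df (f ∘ a) x v = M.df f (a x) (M.df (M.ι ∘ a) x v) := by
  have h0 : (a ∘ M.ψ x) 0 = a x := by simp [M.ψ_zero]
  have h1 := HolAt.hasFDerivAt_comp (h := a ∘ M.ψ x) (p := 0) (h0 ▸ hf)
    (AnalyticAt.differentiableAt ha).hasFDerivAt
  rw [h0] at h1
  exact congrArg (fun A : E n →L[ℂ] F => A (M.L x v)) h1.fderiv

theorem df_mem_T {a : M.X → M.X} {x : M.X} (ha : M.HolAt (M.ι ∘ a) x) (v : E N) :
    M.df (M.ι ∘ a) x v ∈ M.T (a x) := by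
  have h0 : (a ∘ M.ψ x) 0 = a x := by simp [M.ψ_zero]
  have h1 := mem_T_of_hasFDerivAt (h := a ∘ M.ψ x) (p := 0)
    (AnalyticAt.differentiableAt ha).hasFDerivAt (M.L x v)
  rwa [h0] at h1

theorem df_ι {x : M.X} {v : E N} (hv : v ∈ M.T x) : M.df M.ι x v = v := by
  obtain ⟨u, rfl⟩ := hv
  exact congrArg (fderiv ℂ (M.ι ∘ M.ψ x) 0) (L_fderiv_ψ (mem_ball_self (M.r_pos x)) u)

theorem df_ι_mem (x : M.X) (v : E N) : M.df M.ι x v ∈ M.T x :=
  ⟨_, rfl⟩

theorem df_df_ι (f : M.X → F) (x : M.X) (v : E N) :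
    M.df f x (M.df M.ι x v) = M.df f x v :=
  congrArg (fderiv ℂ (f ∘ M.ψ x) 0) (L_fderiv_ψ (mem_ball_self (M.r_pos x)) (M.L x v))

theorem df_ambient {f : M.X → F} {g : F → G} {x : M.X} (hf : M.HolAt f x)
    (hg : DifferentiableAt ℂ g (f x)) (v : E N) :
    M.df (fun y => g (f y)) x v = fderiv ℂ g (f x) (M.df f x v) := by
  have h0 : (f ∘ M.ψ x) 0 = f x := by simp [M.ψ_zero]
  have h1 := (h0 ▸ hg.hasFDerivAt : HasFDerivAt g (fderiv ℂ g (f x)) ((f ∘ M.ψ x) 0)).comp 0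
    (AnalyticAt.differentiableAt hf).hasFDerivAt
  exact congrArg (fun A : E n →L[ℂ] G => A (M.L x v)) h1.fderiv

theorem df_restrict {g : E N → G} {x : M.X} (hg : DifferentiableAt ℂ g x.1) {v : E N}
    (hv : v ∈ M.T x) : M.df (fun y => g y.1) x v = fderiv ℂ g x.1 v := by
  have h1 := df_ambient (M.holAt_ι x) hg v
  rwa [df_ι hv] at h1

theorem df_clm {f : M.X → F} {x : M.X} (hf : M.HolAt f x) (g : F →L[ℂ] G) (v : E N) :
    M.df (fun y => g (f y)) x v = g (M.df f x v) := by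
  rw [df_ambient hf g.differentiableAt, g.fderiv]

theorem df_congr {f g : M.X → F} {x : M.X} (h : f =ᶠ[𝓝 x] g) : M.df f x = M.df g x := by
  rw [df, df, (h.comp_tendsto (tendsto_ψ x)).fderiv_eq]

theorem df_const (c : F) (x : M.X) : M.df (fun _ => c) x = 0 := by
  have h : (fun _ : M.X => c) ∘ M.ψ x = fun _ => c := rfl
  rw [df, h, fderiv_fun_const]
  simp

theorem df_add {f g : M.X → F} {x : M.X} (hf : M.HolAt f x) (hg : M.HolAt g x) (v : E N) :
    M.df (fun y => f y + g y) x v = M.df f x v + M.df g x v :=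
  congrArg (fun A : E n →L[ℂ] F => A (M.L x v))
    (fderiv_add (AnalyticAt.differentiableAt hf) (AnalyticAt.differentiableAt hg))

theorem df_sub {f g : M.X → F} {x : M.X} (hf : M.HolAt f x) (hg : M.HolAt g x) (v : E N) :
    M.df (fun y => f y - g y) x v = M.df f x v - M.df g x v :=
  congrArg (fun A : E n →L[ℂ] F => A (M.L x v))
    (fderiv_sub (AnalyticAt.differentiableAt hf) (AnalyticAt.differentiableAt hg))

theorem df_const_smul {f : M.X → F} {x : M.X} (hf : M.HolAt f x) (c : ℂ) (v : E N) :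
    M.df (fun y => c • f y) x v = c • M.df f x v :=
  congrArg (fun A : E n →L[ℂ] F => A (M.L x v))
    (fderiv_const_smul (AnalyticAt.differentiableAt hf) c)

theorem df_smul {f : M.X → ℂ} {g : M.X → F} {x : M.X} (hf : M.HolAt f x) (hg : M.HolAt g x)
    (v : E N) : M.df (fun y => f y • g y) x v = M.df f x v • g x + f x • M.df g x v := by
  have h1 := congrArg (fun A : E n →L[ℂ] F => A (M.L x v))
    (fderiv_smul (AnalyticAt.differentiableAt hf) (AnalyticAt.differentiableAt hg))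
  refine Eq.trans h1 ?_
  simp [df, M.ψ_zero, add_comm]

theorem df_mul {f g : M.X → ℂ} {x : M.X} (hf : M.HolAt f x) (hg : M.HolAt g x) (v : E N) :
    M.df (fun y => f y * g y) x v = M.df f x v * g x + f x * M.df g x v := by
  rw [← smul_eq_mul, ← smul_eq_mul]
  exact df_smul hf hg v

theorem df_sum {ι : Type*} (s : Finset ι) {f : ι → M.X → F} {x : M.X}
    (hf : ∀ i ∈ s, M.HolAt (f i) x) (v : E N) :
    M.df (fun y => ∑ i ∈ s, f i y) x v = ∑ i ∈ s, M.df (f i) x v := by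
  have h1 := congrArg (fun A : E n →L[ℂ] F => A (M.L x v))
    (fderiv_fun_sum fun i hi => AnalyticAt.differentiableAt (hf i hi))
  refine Eq.trans h1 ?_
  simp [df]

theorem df_pi {ι : Type*} [Fintype ι] {f : M.X → ι → F} {x : M.X} (hf : M.HolAt f x)
    (v : E N) (i : ι) : M.df f x v i = M.df (fun y => f y i) x v :=
  (df_clm hf (ContinuousLinearMap.proj (R := ℂ) (φ := fun _ : ι => F) i) v).symm

theorem df_co {x y : M.X} {v : E N} (hv : v ∈ M.T y) : M.df (M.co x) y v = M.L x v := by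
  have h1 : HasFDerivAt (fun z : E N => M.L x (z - x.1)) (M.L x) y.1 :=
    (M.L x).hasFDerivAt.comp y.1 ((hasFDerivAt_id y.1).sub_const x.1)
  have h2 := df_restrict h1.differentiableAt hv
  rwa [h1.fderiv] at h2

theorem finrank_T (x : M.X) : Module.finrank ℂ (M.T x) = n := by
  rw [T, LinearMap.finrank_range_of_inj (fderiv_ψ_inj (mem_ball_self (M.r_pos x)))]
  simp

theorem L_inj {x : M.X} {v : E N} (hv : v ∈ M.T x) (h : M.L x v = 0) : v = 0 := by
  rw [← df_ι hv, df, ContinuousLinearMap.comp_apply, h, map_zero]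

theorem L_surj (x : M.X) (w : E n) : ∃ v ∈ M.T x, M.L x v = w :=
  ⟨_, ⟨w, rfl⟩, L_fderiv_ψ (mem_ball_self (M.r_pos x)) w⟩

theorem fderiv_chart {f : M.X → F} {x : M.X} {w : E n} (hw : w ∈ ball (0 : E n) (M.r x))
    (hf : M.HolAt f (M.ψ x w)) (u : E n) :
    fderiv ℂ (f ∘ M.ψ x) w u = M.df f (M.ψ x w) (fderiv ℂ (M.ι ∘ M.ψ x) w u) :=
  congrArg (fun A : E n →L[ℂ] F => A u)
    (hf.hasFDerivAt_comp (M.analyticAt_ψ x hw).differentiableAt.hasFDerivAt).fderiv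

theorem fderiv_ψ_mem_T {x : M.X} {w : E n} (hw : w ∈ ball (0 : E n) (M.r x)) (u : E n) :
    fderiv ℂ (M.ι ∘ M.ψ x) w u ∈ M.T (M.ψ x w) :=
  mem_T_of_hasFDerivAt (M.analyticAt_ψ x hw).differentiableAt.hasFDerivAt u

theorem fderiv_ψ_L {x : M.X} {w : E n} (hw : w ∈ ball (0 : E n) (M.r x)) {v : E N}
    (hv : v ∈ M.T (M.ψ x w)) : fderiv ℂ (M.ι ∘ M.ψ x) w (M.L x v) = v := by
  have h1 : LinearMap.range (fderiv ℂ (M.ι ∘ M.ψ x) w).toLinearMap = M.T (M.ψ x w) := by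
    refine Submodule.eq_of_le_of_finrank_eq ?_ ?_
    · rintro _ ⟨u, rfl⟩
      exact fderiv_ψ_mem_T hw u
    · rw [finrank_T, LinearMap.finrank_range_of_inj (fderiv_ψ_inj hw)]
      simp
  rw [← h1] at hv
  obtain ⟨u, rfl⟩ := hv
  exact congrArg (fderiv ℂ (M.ι ∘ M.ψ x) w) (L_fderiv_ψ hw u)

/-- The differential read in the chart at another point. -/
theorem df_eq_chart {f : M.X → F} {x : M.X} {w : E n} (hw : w ∈ ball (0 : E n) (M.r x))
    (hf : M.HolAt f (M.ψ x w)) {v : E N} (hv : v ∈ M.T (M.ψ x w)) :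
    M.df f (M.ψ x w) v = fderiv ℂ (f ∘ M.ψ x) w (M.L x v) := by
  rw [fderiv_chart hw hf, fderiv_ψ_L hw hv]

/-- Differentiation along a holomorphic tangent field. -/
theorem HolAt.df_apply [CompleteSpace F] {f : M.X → F} {ξ : M.X → E N} {x : M.X}
    (hf : M.HolAt f x) (hξ : M.HolAt ξ x) (hT : ∀ᶠ y in 𝓝 x, ξ y ∈ M.T y) :
    M.HolAt (fun y => M.df f y (ξ y)) x := by
  have h1 : AnalyticAt ℂ (fun w => fderiv ℂ (f ∘ M.ψ x) w (M.L x (ξ (M.ψ x w)))) 0 :=
    ((ContinuousLinearMap.id ℂ (E n →L[ℂ] F)).analyticAt_bilinear _).comp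
      ((AnalyticAt.fderiv hf).prod (hξ.clm (M.L x)))
  refine h1.congr ?_
  filter_upwards [tendsto_ψ x hT, tendsto_ψ x hf.eventually, ball_mem_nhds (0 : E n) (M.r_pos x)]
    with w h2 h3 h4
  exact (df_eq_chart h4 h3 h2).symm

/-- The differential of an automorphism is injective on the tangent space. -/
theorem df_aut_inv (a : M.Aut) (x : M.X) {v : E N} (hv : v ∈ M.T x) :
    M.df (fun y => M.ι (a⁻¹ • y)) (a • x) (M.df (fun y => M.ι (a • y)) x v) = v := by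
  have h1 := df_comp (f := fun y => M.ι (a⁻¹ • y)) (a := fun y => a • y) (x := x)
    (M.hol_smul a⁻¹ _) (M.hol_smul a x) v
  have h2 : ((fun y => M.ι (a⁻¹ • y)) ∘ fun y : M.X => a • y) = M.ι := by
    funext y
    simp
  rw [h2, df_ι hv] at h1
  exact h1.symm

/-- Limits of tangent vectors are tangent. -/
theorem mem_T_of_tendsto {ι : Type*} {l : Filter ι} [l.NeBot] {x : ι → M.X} {v : ι → E N}
    {x₀ : M.X} {v₀ : E N} (hx : Tendsto x l (𝓝 x₀)) (hv : Tendsto v l (𝓝 v₀))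
    (hT : ∀ᶠ j in l, v j ∈ M.T (x j)) : v₀ ∈ M.T x₀ := by
  have h1 : Tendsto (fun j => M.co x₀ (x j)) l (𝓝 0) := by
    have h2 := ((M.continuous_co x₀).tendsto x₀).comp hx
    rwa [M.co_self] at h2
  have h2 : ContinuousAt (fun q : E n × E N => fderiv ℂ (M.ι ∘ M.ψ x₀) q.1 (M.L x₀ q.2))
      (0, v₀) :=
    ((AnalyticAt.fderiv (M.holAt_ι x₀)).continuousAt.comp_of_eq continuousAt_fst rfl).clm_apply
      ((M.L x₀).continuous.comp continuous_snd).continuousAt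
  have h3 := h2.tendsto.comp (h1.prodMk_nhds hv)
  refine ⟨M.L x₀ v₀, tendsto_nhds_unique (h3.congr' ?_) hv⟩
  filter_upwards [hT, hx.eventually (M.ψ_co_eventually x₀)] with j h4 h5
  exact fderiv_ψ_L h5.2 (h5.1.symm ▸ h4)

end Vale.Agent.P274.BM
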