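import Vale.Agent.P274.B2x

/-! Cauchy estimates, Vitali and Montel theorems. -/

open Metric Set Filter Topology

namespace Vale.Agent.P274

variable {F : Type*} [NormedAddCommGroup F] [NormedSpace ℂ F]

/-- Vitali's theorem along a filter, in a finite dimensional space. -/
theorem vitali [CompleteSpace F] {P ι : Type*} [NormedAddCommGroup P] [NormedSpace ℂ P]
    [FiniteDimensional ℂ P] {l : Filter ι} [l.NeBot] {S : Set P} (hS : IsOpen S)
    {f : ι → P → F} {g : P → F}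
    (hb : ∀ p ∈ S, ∃ C : ℝ, ∃ t ∈ 𝓝 p, ∀ᶠ j in l, DifferentiableOn ℂ (f j) t ∧
      ∀ w ∈ t, ‖f j w‖ ≤ C)
    (hp : ∀ p ∈ S, Tendsto (fun j => f j p) l (𝓝 (g p))) :
    DifferentiableOn ℂ g S ∧ TendstoLocallyUniformlyOn f g l S ∧
      TendstoLocallyUniformlyOn (fun j => fderiv ℂ (f j)) (fderiv ℂ g) l S := by
  exact vitali_aux hS hb hp

/-- Pointwise limits along an ultrafilter. -/
theorem ultra_lim {α ι : Type*} [FiniteDimensional ℂ F] (𝒰 : Ultrafilter ι) {f : ι → α → F}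
    {S : Set α} (hb : ∀ x ∈ S, ∃ C : ℝ, ∀ᶠ j in (𝒰 : Filter ι), ‖f j x‖ ≤ C) :
    ∃ g : α → F, ∀ x ∈ S, Tendsto (fun j => f j x) 𝒰 (𝓝 (g x)) := by
  exact ultra_lim_aux 𝒰 hb

namespace BM

variable {N n : ℕ} {M : BM N n}

/-- Vitali's theorem on an open subset of the manifold. -/
theorem vitali_on [CompleteSpace F] {ι : Type*} {l : Filter ι} [l.NeBot] {S : Set M.X}
    (hS : IsOpen S) {f : ι → M.X → F} {g : M.X → F}
    (hb : ∀ x ∈ S, ∃ C : ℝ, ∃ t ∈ 𝓝 x, ∀ᶠ j in l, ∀ y ∈ t, M.HolAt (f j) y ∧ ‖f j y‖ ≤ C)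
    (hp : ∀ x ∈ S, Tendsto (fun j => f j x) l (𝓝 (g x))) :
    (∀ x ∈ S, M.HolAt g x) ∧ TendstoLocallyUniformlyOn f g l S ∧
      ∀ x ∈ S, ∀ v, Tendsto (fun j => M.df (f j) x v) l (𝓝 (M.df g x v)) := by
  exact vitali_on_aux hS hb hp

/-- Locally uniformly bounded families. -/
def LocBdd (M : BM N n) {ι : Type*} (l : Filter ι) (f : ι → M.X → F) : Prop :=
  ∀ x, ∃ C : ℝ, ∃ t ∈ 𝓝 x, ∀ᶠ j in l, ∀ y ∈ t, ‖f j y‖ ≤ C

theorem LocBdd.holBdd {ι : Type*} {l : Filter ι} {f : ι → M.X → F} (hb : M.LocBdd l f)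
    (hf : ∀ᶠ j in l, M.Hol (f j)) (x : M.X) :
    ∃ C : ℝ, ∃ t ∈ 𝓝 x, ∀ᶠ j in l, ∀ y ∈ t, M.HolAt (f j) y ∧ ‖f j y‖ ≤ C := by
  obtain ⟨C, t, ht, hj⟩ := hb x
  refine ⟨C, t, ht, ?_⟩
  filter_upwards [hj, hf] with j hj hf y hy using ⟨hf y, hj y hy⟩

theorem chart_bound {f : M.X → F} (hf : M.Hol f) (a : M.X) {b : ℝ}
    (hb : ∀ u ∈ closedBall (0 : E n) (M.r a / 2), ‖f (M.ψ a u)‖ ≤ b) {w : E n}
    (hw : w ∈ ball (0 : E n) (M.r a / 4)) : ‖fderiv ℂ (f ∘ M.ψ a) w‖ ≤ 8 / M.r a * b := by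
  have hr := M.r_pos a
  refine (P278F.norm_fderiv_le (R := M.r a / 4) (by linarith)
    ((hf.analyticOnNhd a).differentiableOn.mono ((quarter_sub a hw).trans (half_sub a)))
    (fun u hu => hb u (quarter_sub a hw hu))).trans_eq ?_
  field_simp
  ring

theorem locBdd_of_bound {ι : Type*} {l : Filter ι} {f : ι → M.X → F} {C : ℝ}
    (h : ∀ᶠ j in l, ∀ y, ‖f j y‖ ≤ C) : M.LocBdd l f := by
  exact fun _ => ⟨C, univ, univ_mem, h.mono fun _ hj y _ => hj y⟩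

theorem locBdd_of_compact {ι : Type*} {l : Filter ι} {f : ι → M.X → F}
    (h : ∀ K, IsCompact K → ∃ C : ℝ, ∀ᶠ j in l, ∀ y ∈ K, ‖f j y‖ ≤ C) : M.LocBdd l f := by
  intro x
  obtain ⟨K, hK, hx⟩ := exists_compact_mem_nhds x
  obtain ⟨C, hC⟩ := h K hK
  exact ⟨C, K, hx, hC⟩

theorem vitali_hol [CompleteSpace F] {ι : Type*} {l : Filter ι} [l.NeBot]
    {f : ι → M.X → F} {g : M.X → F} (hf : ∀ᶠ j in l, M.Hol (f j)) (hb : M.LocBdd l f)
    (hp : ∀ x, Tendsto (fun j => f j x) l (𝓝 (g x))) :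
    M.Hol g ∧ TendstoLocallyUniformly f g l ∧
      ∀ x v, Tendsto (fun j => M.df (f j) x v) l (𝓝 (M.df g x v)) := by
  obtain ⟨h1, h2, h3⟩ := vitali_on isOpen_univ (fun x _ => hb.holBdd hf x) fun x _ => hp x
  exact ⟨fun x => h1 x trivial, tendstoLocallyUniformlyOn_univ.1 h2, fun x => h3 x trivial⟩

theorem vitali_moving [CompleteSpace F] {ι : Type*} {l : Filter ι} [l.NeBot]
    {f : ι → M.X → F} {g : M.X → F} (hf : ∀ᶠ j in l, M.Hol (f j)) (hb : M.LocBdd l f)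
    (hp : ∀ x, Tendsto (fun j => f j x) l (𝓝 (g x))) {x : ι → M.X} {x₀ : M.X}
    (hx : Tendsto x l (𝓝 x₀)) : Tendsto (fun j => f j (x j)) l (𝓝 (g x₀)) := by
  obtain ⟨h1, h2, -⟩ := vitali_hol hf hb hp
  exact h2.tendsto_comp (h1 x₀).continuousAt hx

theorem vitali_df_moving [CompleteSpace F] {ι : Type*} {l : Filter ι} [l.NeBot]
    {f : ι → M.X → F} {g : M.X → F} (hf : ∀ᶠ j in l, M.Hol (f j)) (hb : M.LocBdd l f)
    (hp : ∀ x, Tendsto (fun j => f j x) l (𝓝 (g x))) {x : ι → M.X} {x₀ : M.X}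
    (hx : Tendsto x l (𝓝 x₀)) {v : ι → E N} {v₀ : E N} (hv : Tendsto v l (𝓝 v₀))
    (hT : ∀ᶠ j in l, v j ∈ M.T (x j)) :
    Tendsto (fun j => M.df (f j) (x j) (v j)) l (𝓝 (M.df g x₀ v₀)) := by
  have hg := (vitali_hol hf hb hp).1
  obtain ⟨ho, -, -, h3⟩ := vitali_chart isOpen_univ (fun x _ => hb.holBdd hf x)
    (fun x _ => hp x) x₀
  have h0 : (0 : E n) ∈ ball 0 (M.r x₀) ∩ M.ψ x₀ ⁻¹' univ := ⟨mem_ball_self (M.r_pos x₀), trivial⟩
  have hc : Tendsto (fun j => M.co x₀ (x j)) l (𝓝 0) := (tendsto_co x₀).comp hx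
  have h4 := h3.tendsto_comp (g := fun j => M.co x₀ (x j))
    (hg x₀).fderiv.continuousAt.continuousWithinAt h0 (by rwa [ho.nhdsWithin_eq h0])
  have h5 : Tendsto (fun j => M.L x₀ (v j)) l (𝓝 (M.L x₀ v₀)) :=
    ((M.L x₀).continuous.tendsto _).comp hv
  have h6 : Tendsto (fun j => fderiv ℂ (f j ∘ M.ψ x₀) (M.co x₀ (x j)) (M.L x₀ (v j))) l
      (𝓝 (fderiv ℂ (g ∘ M.ψ x₀) 0 (M.L x₀ v₀))) :=
    (isBoundedBilinearMap_apply.continuous.tendsto
      (fderiv ℂ (g ∘ M.ψ x₀) 0, M.L x₀ v₀)).comp (h4.prodMk_nhds h5)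
  refine h6.congr' ?_
  filter_upwards [hf, hT, hx.eventually (M.ψ_co_eventually x₀)] with j hj hT he
  have := df_eq_chart (f := f j) he.2 (hj _) (v := v j) (by rwa [he.1])
  rw [he.1] at this
  exact this.symm

/-- Montel's theorem along an ultrafilter. -/
theorem montel [FiniteDimensional ℂ F] {ι : Type*} (𝒰 : Ultrafilter ι) {f : ι → M.X → F}
    (hf : ∀ᶠ j in (𝒰 : Filter ι), M.Hol (f j)) (hb : M.LocBdd (𝒰 : Filter ι) f) :
    ∃ g, M.Hol g ∧ ∀ x, Tendsto (fun j => f j x) 𝒰 (𝓝 (g x)) := by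
  have : CompleteSpace F := FiniteDimensional.complete ℂ F
  obtain ⟨g, hg⟩ := ultra_lim 𝒰 (f := f) (S := univ) fun x _ => by
    obtain ⟨C, t, ht, hj⟩ := hb x
    exact ⟨C, hj.mono fun j hj => hj x (mem_of_mem_nhds ht)⟩
  exact ⟨g, (vitali_hol hf hb fun x => hg x trivial).1, fun x => hg x trivial⟩

/-- Convergence on an open set propagates (Vitali-Porter). -/
theorem tendsto_of_eventually [FiniteDimensional ℂ F] {ι : Type*} {l : Filter ι}
    {f : ι → M.X → F} {g : M.X → F} (hf : ∀ᶠ j in l, M.Hol (f j)) (hb : M.LocBdd l f)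
    (hg : M.Hol g) {x₀ : M.X} (hp : ∀ᶠ x in 𝓝 x₀, Tendsto (fun j => f j x) l (𝓝 (g x)))
    (x : M.X) : Tendsto (fun j => f j x) l (𝓝 (g x)) := by
  have : CompleteSpace F := FiniteDimensional.complete ℂ F
  rw [tendsto_iff_ultrafilter]
  intro 𝒰 hU
  obtain ⟨g', hg', h⟩ := montel 𝒰 (hf.filter_mono hU) fun y => by
    obtain ⟨C, t, ht, hj⟩ := hb y
    exact ⟨C, t, ht, hj.filter_mono hU⟩
  have : g' = g := hg'.eq_of_eventuallyEq hg (x := x₀) (by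
    filter_upwards [hp] with y hy
    exact tendsto_nhds_unique (h y) (hy.mono_left hU))
  exact this ▸ h x

theorem cauchy_df [CompleteSpace F] {C : Set M.X} (hC : IsCompact C) :
    ∃ C', IsCompact C' ∧ C ⊆ C' ∧ ∃ K : ℝ, 0 < K ∧ ∀ (f : M.X → F) (b : ℝ), M.Hol f →
      (∀ y ∈ C', ‖f y‖ ≤ b) → ∀ x ∈ C, ∀ v ∈ M.T x, ‖M.df f x v‖ ≤ K * b * ‖v‖ := by
  obtain ⟨t, ht, hc⟩ := exists_cover hC
  obtain ⟨K, hK, hKt⟩ := exists_const t
  have hsub : C ⊆ ⋃ a ∈ t, M.ψ a '' closedBall 0 (M.r a / 2) :=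
    ht.trans (iUnion₂_mono fun a _ => image_mono (quarter_sub' a))
  refine ⟨_, hc, hsub, K, hK, fun f b hf hb x hx v hv => ?_⟩
  have hb0 : 0 ≤ b := (norm_nonneg _).trans (hb x (hsub hx))
  obtain ⟨a, ha, w, hw, rfl⟩ := mem_iUnion₂.1 (ht hx)
  rw [df_eq_chart (half_sub a (quarter_sub' a hw)) (hf _) hv]
  have h1 := chart_bound hf a (fun u hu => hb _ (mem_iUnion₂.2 ⟨a, ha, u, hu, rfl⟩)) hw
  have hr := M.r_pos a
  calc _ ≤ ‖fderiv ℂ (f ∘ M.ψ a) w‖ * (‖M.L a‖ * ‖v‖) :=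
        (ContinuousLinearMap.le_opNorm _ _).trans
          (mul_le_mul_of_nonneg_left ((M.L a).le_opNorm v) (norm_nonneg _))
    _ ≤ (8 / M.r a * b) * (‖M.L a‖ * ‖v‖) := by gcongr
    _ = (8 / M.r a * ‖M.L a‖) * b * ‖v‖ := by ring
    _ ≤ K * b * ‖v‖ := by gcongr; exact hKt a ha

theorem cauchy_lip [CompleteSpace F] {C : Set M.X} (hC : IsCompact C) :
    ∃ C', IsCompact C' ∧ C ⊆ C' ∧ ∃ δ K : ℝ, 0 < δ ∧ 0 < K ∧ (∀ x ∈ C, ball x δ ⊆ C') ∧
      ∀ (f : M.X → F) (b : ℝ), M.Hol f → (∀ y ∈ C', ‖f y‖ ≤ b) →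
        ∀ x ∈ C, ∀ y, dist y x < δ → ‖f y - f x‖ ≤ K * b * dist y x := by
  obtain ⟨t, ht, hc⟩ := exists_cover hC
  obtain ⟨K, hK, hKt⟩ := exists_const t
  have hsub : C ⊆ ⋃ a ∈ t, M.ψ a '' closedBall 0 (M.r a / 2) :=
    ht.trans (iUnion₂_mono fun a _ => image_mono (quarter_sub' a))
  obtain ⟨δ, hδ, hL⟩ := lebesgue_number_lemma_of_metric
    (c := fun a : t => M.ψ a.1 '' ball 0 (M.r a.1 / 4)) hC
    (fun a => M.isOpen_image_ψ a.1 isOpen_ball ((quarter_sub' a.1).trans (half_sub a.1)))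
    fun x hx => by
      obtain ⟨a, ha, h⟩ := mem_iUnion₂.1 (ht hx)
      exact mem_iUnion.2 ⟨⟨a, ha⟩, h⟩
  refine ⟨_, hc, hsub, δ, K, hδ, hK, fun x hx y hy => ?_, fun f b hf hb x hx y hy => ?_⟩
  · obtain ⟨a, ha⟩ := hL x hx
    exact mem_iUnion₂.2 ⟨a.1, a.2, image_mono (quarter_sub' a.1) (ha hy)⟩
  have hb0 : 0 ≤ b := (norm_nonneg _).trans (hb x (hsub hx))
  obtain ⟨⟨a, ha⟩, h⟩ := hL x hx
  obtain ⟨w, hw, hwx⟩ := h (mem_ball_self hδ)
  obtain ⟨u, hu, huy⟩ := h (mem_ball.2 hy)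
  simp only at hw hu hwx huy
  have h1 := Convex.norm_image_sub_le_of_norm_fderiv_le (𝕜 := ℂ) (f := f ∘ M.ψ a)
    (fun z hz => (hf.analyticOnNhd a z (half_sub a (quarter_sub' a hz))).differentiableAt)
    (fun z hz => chart_bound hf a (fun u hu => hb _ (mem_iUnion₂.2 ⟨a, ha, u, hu, rfl⟩)) hz)
    (convex_ball _ _) hw hu
  have h2 : u - w = M.L a (y.1 - x.1) := by
    rw [← M.co_ψ a (half_sub a (quarter_sub' a hw)), ← M.co_ψ a (half_sub a (quarter_sub' a hu)),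
      hwx, huy, co, co, ← map_sub, sub_sub_sub_cancel_right]
  have h3 : ‖u - w‖ ≤ ‖M.L a‖ * dist y x := by
    rw [h2, Subtype.dist_eq, dist_eq_norm]
    exact (M.L a).le_opNorm _
  simp only [Function.comp_apply, hwx, huy] at h1
  have hr := M.r_pos a
  calc _ ≤ (8 / M.r a * b) * ‖u - w‖ := h1
    _ ≤ (8 / M.r a * b) * (‖M.L a‖ * dist y x) := by gcongr
    _ = (8 / M.r a * ‖M.L a‖) * b * dist y x := by ring
    _ ≤ K * b * dist y x := by gcongr; exact hKt a ha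

/-- Integrals of holomorphic functions depending on a real parameter. -/
theorem hol_integral [CompleteSpace F] {f : ℝ → M.X → F} (hf : ∀ t, M.Hol (f t))
    (hc : Continuous (fun p : ℝ × M.X => f p.1 p.2)) (a b : ℝ) :
    M.Hol (fun x => ∫ t in a..b, f t x) ∧
      ∀ x v, Continuous (fun t => M.df (f t) x v) ∧
        M.df (fun x => ∫ t in a..b, f t x) x v = ∫ t in a..b, M.df (f t) x v := by
  have hct : ∀ y, Continuous fun t => f t y := fun y =>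
    hc.comp (continuous_id.prodMk continuous_const)
  have hD : ∀ x, ∀ w ∈ ball (0 : E n) (M.r x), Continuous fun t => fderiv ℂ (f t ∘ M.ψ x) w :=
    fun x w hw => continuous_iff_continuousAt.2 fun s => by
      obtain ⟨-, -, -, h3⟩ := vitali_chart (l := 𝓝 s) (f := f) (g := f s) isOpen_univ
        (fun y _ => by
          have h1 : ∀ᶠ p : ℝ × M.X in 𝓝 (s, y), ‖f p.1 p.2‖ < ‖f s y‖ + 1 :=
            (hc.norm.tendsto (s, y)).eventually (gt_mem_nhds (by simp))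
          obtain ⟨u, hu, v, hv, huv⟩ := mem_nhds_prod_iff.1 h1
          refine ⟨‖f s y‖ + 1, v, hv, ?_⟩
          filter_upwards [hu] with j hj z hz
          exact ⟨hf j z, le_of_lt (huv (mk_mem_prod hj hz))⟩)
        (fun y _ => (hct y).tendsto s) x
      exact h3.tendsto_at ⟨hw, trivial⟩
  have key : ∀ x, ∀ w ∈ ball (0 : E n) (M.r x / 4),
      HasFDerivAt ((fun x => ∫ t in a..b, f t x) ∘ M.ψ x)
        (∫ t in a..b, fderiv ℂ (f t ∘ M.ψ x) w) w := fun x w hw => by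
    obtain ⟨B, hB⟩ := (isCompact_uIcc (a := a) (b := b)).prod
      (M.isCompact_image_closedBall x (s := M.r x / 2) (by linarith [M.r_pos x]))
      |>.exists_bound_of_continuousOn hc.continuousOn
    refine intervalIntegral.hasFDerivAt_integral_of_dominated_of_fderiv_le (𝕜 := ℂ)
      (F := fun z s => f s (M.ψ x z)) (F' := fun z s => fderiv ℂ (f s ∘ M.ψ x) z)
      (bound := fun _ => 8 / M.r x * B) (isOpen_ball.mem_nhds hw)
      (Eventually.of_forall fun z => (hct _).aestronglyMeasurable)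
      ((hct _).intervalIntegrable _ _)
      (hD x w (half_sub x (quarter_sub' x hw))).aestronglyMeasurable ?_
      intervalIntegrable_const ?_
    · refine Eventually.of_forall fun s hs z hz => ?_
      exact chart_bound (hf s) x (fun u hu =>
        hB (s, M.ψ x u) (mk_mem_prod (uIoc_subset_uIcc hs) ⟨u, hu, rfl⟩)) hz
    · refine Eventually.of_forall fun s _ z hz => ?_
      exact ((hf s).analyticOnNhd x z (half_sub x (quarter_sub' x hz))).differentiableAt.hasFDerivAt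
  have hq : ∀ x, (0 : ℝ) < M.r x / 4 := fun x => by linarith [M.r_pos x]
  refine ⟨fun x => holAt_of_eventually ?_, fun x v => ⟨?_, ?_⟩⟩
  · filter_upwards [ball_mem_nhds _ (hq x)] with w hw using (key x w hw).differentiableAt
  · exact (ContinuousLinearMap.apply ℂ F (M.L x v)).continuous.comp
      (hD x 0 (mem_ball_self (M.r_pos x)))
  · simp only [df, ContinuousLinearMap.comp_apply]
    rw [(key x 0 (mem_ball_self (hq x))).fderiv]
    exact ContinuousLinearMap.intervalIntegral_apply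
      ((hD x 0 (mem_ball_self (M.r_pos x))).intervalIntegrable _ _) _

end BM

end Vale.Agent.P274
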