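import Vale.Agent.P274.B1c

/-! Auxiliary results for Vitali's theorem. -/

open Metric Set Filter Topology

namespace Vale.Agent.P274

variable {F : Type*} [NormedAddCommGroup F] [NormedSpace ℂ F]

theorem unif_ball {P ι : Type*} [NormedAddCommGroup P] [NormedSpace ℂ P]
    [FiniteDimensional ℂ P] {l : Filter ι} [l.NeBot] {f : ι → P → F} {g : P → F} {c : P}
    {R C : ℝ} (hR : 0 < R)
    (hb : ∀ᶠ j in l, DifferentiableOn ℂ (f j) (ball c R) ∧ ∀ w ∈ ball c R, ‖f j w‖ ≤ C)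
    (hp : ∀ p ∈ ball c R, Tendsto (fun j => f j p) l (𝓝 (g p))) :
    TendstoUniformlyOn f g l (closedBall c (R / 4)) := by
  have : ProperSpace P := FiniteDimensional.proper ℂ P
  have hC : 0 ≤ C := by
    obtain ⟨j, hj⟩ := hb.exists
    exact (norm_nonneg _).trans (hj.2 c (mem_ball_self hR))
  set K : ℝ := 2 * C / (R / 2) with hK
  have hK0 : 0 ≤ K := by positivity
  have hsub : ∀ z ∈ closedBall c (R / 4), ball z (R / 2) ⊆ ball c R := fun z hz w hw => by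
    rw [mem_ball] at *
    rw [mem_closedBall] at hz
    linarith [dist_triangle w z c]
  have hlip : ∀ᶠ j in l, ∀ z ∈ closedBall c (R / 4), ∀ w ∈ ball z (R / 2),
      ‖f j w - f j z‖ ≤ K * ‖w - z‖ := by
    filter_upwards [hb] with j hj z hz w hw
    exact P278F.norm_sub_le_of_bound (hj.1.mono (hsub z hz))
      (fun y hy => hj.2 y (hsub z hz hy)) hw
  have hg : ∀ z ∈ closedBall c (R / 4), ∀ w ∈ ball z (R / 2),
      ‖g w - g z‖ ≤ K * ‖w - z‖ := fun z hz w hw => by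
    have h1 := ((hp w (hsub z hz hw)).sub
      (hp z (hsub z hz (mem_ball_self (by linarith))))).norm
    refine le_of_tendsto h1 ?_
    filter_upwards [hlip] with j hj using hj z hz w hw
  rw [Metric.tendstoUniformlyOn_iff]
  intro ε hε
  set δ : ℝ := min (R / 2) (ε / (3 * (K + 1))) with hδ
  have hδ0 : 0 < δ := lt_min (by linarith) (by positivity)
  obtain ⟨t, hts, htf, hcov⟩ :=
    finite_cover_balls_of_compact (isCompact_closedBall c (R / 4)) hδ0
  have h3 : ∀ᶠ j in l, ∀ y ∈ t, dist (f j y) (g y) < ε / 3 :=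
    (eventually_all_finite htf).2 fun y hy =>
      (Metric.tendsto_nhds.1 (hp y (hsub y (hts hy) (mem_ball_self (by linarith))))) _
        (by linarith)
  filter_upwards [h3, hlip] with j h3 hlip w hw
  obtain ⟨y, hy, hwy⟩ := mem_iUnion₂.1 (hcov hw)
  have hw2 : w ∈ ball y (R / 2) := ball_subset_ball (min_le_left _ _) hwy
  have hn : ‖w - y‖ < ε / (3 * (K + 1)) := by
    rw [← dist_eq_norm]; exact lt_of_lt_of_le hwy (min_le_right _ _)
  have hn2 : K * ‖w - y‖ ≤ ε / 3 := by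
    rw [lt_div_iff₀ (by positivity)] at hn
    nlinarith [norm_nonneg (w - y)]
  have a1 := hlip y (hts hy) w hw2
  have a2 := hg y (hts hy) w hw2
  have a3 := h3 y hy
  rw [← dist_eq_norm] at a1 a2
  have := dist_triangle4 (g w) (g y) (f j y) (f j w)
  rw [dist_comm (g y), dist_comm (f j y) (f j w)] at this
  linarith

theorem diff_of_unif [CompleteSpace F] {P ι : Type*} [NormedAddCommGroup P] [NormedSpace ℂ P]
    {l : Filter ι} [l.NeBot] {f : ι → P → F} {g : P → F} {c : P} {R : ℝ} (hR : 0 < R)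
    (hb : ∀ᶠ j in l, DifferentiableOn ℂ (f j) (ball c R))
    (hu : TendstoUniformlyOn f g l (ball c R)) : DifferentiableAt ℂ g c := by
  have hex : ∀ k : ℕ, ∃ j, DifferentiableOn ℂ (f j) (ball c R) ∧
      ∀ z ∈ ball c R, ‖f j z - g z‖ ≤ 1 / ((k : ℝ) + 1) := fun k => by
    have h1 := (Metric.tendstoUniformlyOn_iff.1 hu) (1 / ((k : ℝ) + 1)) (by positivity)
    obtain ⟨j, hj1, hj2⟩ := (hb.and h1).exists
    refine ⟨j, hj1, fun z hz => ?_⟩
    rw [← dist_eq_norm, dist_comm]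
    exact (hj2 z hz).le
  choose j hj1 hj2 using hex
  exact P278F.differentiableAt_of_unif (f := fun k => f (j k)) hR hj1
    tendsto_one_div_add_atTop_nhds_zero_nat hj2

theorem fderiv_unif {P ι : Type*} [NormedAddCommGroup P] [NormedSpace ℂ P]
    {l : Filter ι} {f : ι → P → F} {g : P → F} {c : P} {R : ℝ} (hR : 0 < R)
    (hb : ∀ᶠ j in l, DifferentiableOn ℂ (f j) (ball c R)) (hg : DifferentiableOn ℂ g (ball c R))
    (hu : TendstoUniformlyOn f g l (ball c R)) :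
    TendstoUniformlyOn (fun j => fderiv ℂ (f j)) (fderiv ℂ g) l (ball c (R / 2)) := by
  rw [Metric.tendstoUniformlyOn_iff] at hu ⊢
  intro ε hε
  have hsub : ∀ z ∈ ball c (R / 2), ball z (R / 2) ⊆ ball c R := fun z hz w hw => by
    rw [mem_ball] at *
    linarith [dist_triangle w z c]
  filter_upwards [hb, hu (ε * R / 8) (by positivity)] with j hj hu z hz
  have hzm : ball c R ∈ 𝓝 z := isOpen_ball.mem_nhds (hsub z hz (mem_ball_self (by linarith)))
  rw [dist_eq_norm, ← fderiv_sub (hg.differentiableAt hzm) (hj.differentiableAt hzm)]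
  have := P278F.norm_fderiv_le (half_pos hR) ((hg.sub hj).mono (hsub z hz))
    (M := ε * R / 8) fun w hw => by
      have := hu w (hsub z hz hw)
      rw [dist_eq_norm] at this
      exact this.le
  refine this.trans_lt ?_
  rw [div_lt_iff₀ (half_pos hR)]
  nlinarith [mul_pos hε hR]

theorem vitali_aux [CompleteSpace F] {P ι : Type*} [NormedAddCommGroup P] [NormedSpace ℂ P]
    [FiniteDimensional ℂ P] {l : Filter ι} [l.NeBot] {S : Set P} (hS : IsOpen S)
    {f : ι → P → F} {g : P → F}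
    (hb : ∀ p ∈ S, ∃ C : ℝ, ∃ t ∈ 𝓝 p, ∀ᶠ j in l, DifferentiableOn ℂ (f j) t ∧
      ∀ w ∈ t, ‖f j w‖ ≤ C)
    (hp : ∀ p ∈ S, Tendsto (fun j => f j p) l (𝓝 (g p))) :
    DifferentiableOn ℂ g S ∧ TendstoLocallyUniformlyOn f g l S ∧
      TendstoLocallyUniformlyOn (fun j => fderiv ℂ (f j)) (fderiv ℂ g) l S := by
  have key : ∀ p ∈ S, ∃ r > 0, ball p r ⊆ S ∧ (∀ᶠ j in l, DifferentiableOn ℂ (f j) (ball p r)) ∧
      TendstoUniformlyOn f g l (ball p r) := fun p hpS => by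
    obtain ⟨C, t, ht, hj⟩ := hb p hpS
    obtain ⟨R, hR, hRt⟩ := Metric.mem_nhds_iff.1 (inter_mem ht (hS.mem_nhds hpS))
    have h4 : ball p (R / 4) ⊆ ball p R := ball_subset_ball (by linarith)
    refine ⟨R / 4, by linarith, fun z hz => (hRt (h4 hz)).2, ?_, ?_⟩
    · filter_upwards [hj] with j hj using hj.1.mono fun z hz => (hRt (h4 hz)).1
    · refine (unif_ball (C := C) hR ?_ fun z hz => hp z (hRt hz).2).mono ball_subset_closedBall
      filter_upwards [hj] with j hj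
      exact ⟨hj.1.mono fun z hz => (hRt hz).1, fun w hw => hj.2 w (hRt hw).1⟩
  have hg : DifferentiableOn ℂ g S := fun p hpS => by
    obtain ⟨r, hr, -, h1, h2⟩ := key p hpS
    exact (diff_of_unif hr h1 h2).differentiableWithinAt
  refine ⟨hg, tendstoLocallyUniformlyOn_of_forall_exists_nhds fun p hpS => ?_,
    tendstoLocallyUniformlyOn_of_forall_exists_nhds fun p hpS => ?_⟩
  · obtain ⟨r, hr, -, -, h2⟩ := key p hpS
    exact ⟨_, mem_nhdsWithin_of_mem_nhds (ball_mem_nhds p hr), h2⟩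
  · obtain ⟨r, hr, h0, h1, h2⟩ := key p hpS
    exact ⟨_, mem_nhdsWithin_of_mem_nhds (ball_mem_nhds p (half_pos hr)),
      fderiv_unif hr h1 (hg.mono h0) h2⟩

theorem ultra_lim_aux {α ι : Type*} [FiniteDimensional ℂ F] (𝒰 : Ultrafilter ι) {f : ι → α → F}
    {S : Set α} (hb : ∀ x ∈ S, ∃ C : ℝ, ∀ᶠ j in (𝒰 : Filter ι), ‖f j x‖ ≤ C) :
    ∃ g : α → F, ∀ x ∈ S, Tendsto (fun j => f j x) 𝒰 (𝓝 (g x)) := by
  have : ProperSpace F := FiniteDimensional.proper ℂ F
  have h : ∀ x, ∃ y : F, x ∈ S → Tendsto (fun j => f j x) 𝒰 (𝓝 y) := fun x => by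
    by_cases hx : x ∈ S
    · obtain ⟨C, hC⟩ := hb x hx
      obtain ⟨y, -, hy⟩ := (isCompact_closedBall (0 : F) C).ultrafilter_le_nhds
        (𝒰.map fun j => f j x) (by
          rw [le_principal_iff, Ultrafilter.coe_map, mem_map]
          filter_upwards [hC] with j hj
          simpa using hj)
      exact ⟨y, fun _ => hy⟩
    · exact ⟨0, fun h => absurd h hx⟩
  choose g hg using h
  exact ⟨g, hg⟩

namespace BM

variable {N n : ℕ} {M : BM N n}

theorem vitali_chart [CompleteSpace F] {ι : Type*} {l : Filter ι} [l.NeBot] {S : Set M.X}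
    (hS : IsOpen S) {f : ι → M.X → F} {g : M.X → F}
    (hb : ∀ x ∈ S, ∃ C : ℝ, ∃ t ∈ 𝓝 x, ∀ᶠ j in l, ∀ y ∈ t, M.HolAt (f j) y ∧ ‖f j y‖ ≤ C)
    (hp : ∀ x ∈ S, Tendsto (fun j => f j x) l (𝓝 (g x))) (x : M.X) :
    IsOpen (ball 0 (M.r x) ∩ M.ψ x ⁻¹' S) ∧
    DifferentiableOn ℂ (g ∘ M.ψ x) (ball 0 (M.r x) ∩ M.ψ x ⁻¹' S) ∧
      TendstoLocallyUniformlyOn (fun j => f j ∘ M.ψ x) (g ∘ M.ψ x) l
        (ball 0 (M.r x) ∩ M.ψ x ⁻¹' S) ∧
      TendstoLocallyUniformlyOn (fun j => fderiv ℂ (f j ∘ M.ψ x)) (fderiv ℂ (g ∘ M.ψ x)) l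
        (ball 0 (M.r x) ∩ M.ψ x ⁻¹' S) := by
  have ho : IsOpen (ball 0 (M.r x) ∩ M.ψ x ⁻¹' S) :=
    (M.continuousOn_ψ x).isOpen_inter_preimage isOpen_ball hS
  refine ⟨ho, vitali_aux ho (fun w hw => ?_) fun w hw => hp _ hw.2⟩
  obtain ⟨C, t, ht, hj⟩ := hb _ hw.2
  have h1 : M.ψ x ⁻¹' t ∈ 𝓝 w :=
    ((M.continuousOn_ψ x).continuousAt (isOpen_ball.mem_nhds hw.1)) ht
  refine ⟨C, ball 0 (M.r x) ∩ M.ψ x ⁻¹' t, inter_mem (isOpen_ball.mem_nhds hw.1) h1, ?_⟩
  filter_upwards [hj] with j hj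
  exact ⟨fun u hu => ((holAt_iff_chart hu.1).1
    (hj _ hu.2).1).differentiableAt.differentiableWithinAt, fun u hu => (hj _ hu.2).2⟩

theorem tendsto_co (x : M.X) : Tendsto (M.co x) (𝓝 x) (𝓝 0) := by
  have := (M.continuous_co x).tendsto x
  rwa [M.co_self] at this

theorem vitali_on_aux [CompleteSpace F] {ι : Type*} {l : Filter ι} [l.NeBot] {S : Set M.X}
    (hS : IsOpen S) {f : ι → M.X → F} {g : M.X → F}
    (hb : ∀ x ∈ S, ∃ C : ℝ, ∃ t ∈ 𝓝 x, ∀ᶠ j in l, ∀ y ∈ t, M.HolAt (f j) y ∧ ‖f j y‖ ≤ C)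
    (hp : ∀ x ∈ S, Tendsto (fun j => f j x) l (𝓝 (g x))) :
    (∀ x ∈ S, M.HolAt g x) ∧ TendstoLocallyUniformlyOn f g l S ∧
      ∀ x ∈ S, ∀ v, Tendsto (fun j => M.df (f j) x v) l (𝓝 (M.df g x v)) := by
  have h0 : ∀ x ∈ S, (0 : E n) ∈ ball 0 (M.r x) ∩ M.ψ x ⁻¹' S := fun x hx =>
    ⟨mem_ball_self (M.r_pos x), by simpa [M.ψ_zero] using hx⟩
  refine ⟨fun x hx => ?_, fun u hu x hx => ?_, fun x hx v => ?_⟩
  · obtain ⟨ho, h1, -, -⟩ := vitali_chart hS hb hp x
    refine holAt_of_eventually ?_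
    filter_upwards [ho.mem_nhds (h0 x hx)] with w hw
    exact h1.differentiableAt (ho.mem_nhds hw)
  · obtain ⟨ho, -, h2, -⟩ := vitali_chart hS hb hp x
    obtain ⟨t, ht, hj⟩ := h2 u hu 0 (h0 x hx)
    rw [ho.nhdsWithin_eq (h0 x hx)] at ht
    refine ⟨{y | M.ψ x (M.co x y) = y ∧ M.co x y ∈ t}, mem_nhdsWithin_of_mem_nhds ?_, ?_⟩
    · filter_upwards [M.ψ_co_eventually x, tendsto_co x ht] with y h1 h2 using ⟨h1.1, h2⟩
    · filter_upwards [hj] with j hj y hy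
      have := hj _ hy.2
      simpa only [Function.comp_apply, hy.1] using this
  · obtain ⟨ho, -, -, h3⟩ := vitali_chart hS hb hp x
    have := h3.tendsto_at (h0 x hx)
    exact ((ContinuousLinearMap.apply ℂ F (M.L x v)).continuous.tendsto _).comp this

/-- A finite chart cover of a compact set. -/
theorem exists_cover {C : Set M.X} (hC : IsCompact C) :
    ∃ t : Finset M.X, C ⊆ ⋃ a ∈ t, M.ψ a '' ball 0 (M.r a / 4) ∧
      IsCompact (⋃ a ∈ t, M.ψ a '' closedBall 0 (M.r a / 2)) := by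
  obtain ⟨t, -, ht⟩ := hC.elim_nhds_subcover (fun a => M.ψ a '' ball 0 (M.r a / 4))
    fun a _ => M.image_ball_mem_nhds a (by linarith [M.r_pos a])
  exact ⟨t, ht, t.isCompact_biUnion fun a _ =>
    M.isCompact_image_closedBall a (by linarith [M.r_pos a])⟩

theorem quarter_sub (a : M.X) {w : E n} (hw : w ∈ ball (0 : E n) (M.r a / 4)) :
    ball w (M.r a / 4) ⊆ closedBall 0 (M.r a / 2) := fun u hu => by
  rw [mem_ball] at *
  rw [mem_closedBall]
  linarith [dist_triangle u w 0]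

theorem half_sub (a : M.X) : closedBall (0 : E n) (M.r a / 2) ⊆ ball 0 (M.r a) :=
  closedBall_subset_ball (by linarith [M.r_pos a])

theorem quarter_sub' (a : M.X) : ball (0 : E n) (M.r a / 4) ⊆ closedBall 0 (M.r a / 2) :=
  ball_subset_closedBall.trans (closedBall_subset_closedBall (by linarith [M.r_pos a]))

theorem exists_const (t : Finset M.X) : ∃ K : ℝ, 0 < K ∧ ∀ a ∈ t, 8 / M.r a * ‖M.L a‖ ≤ K := by
  refine ⟨∑ a ∈ t, 8 / M.r a * ‖M.L a‖ + 1, ?_, fun a ha => ?_⟩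
  · have : 0 ≤ ∑ a ∈ t, 8 / M.r a * ‖M.L a‖ :=
      Finset.sum_nonneg fun a _ => by have := M.r_pos a; positivity
    linarith
  · have := Finset.single_le_sum (f := fun a => 8 / M.r a * ‖M.L a‖)
      (fun a _ => by have := M.r_pos a; positivity) ha
    linarith

end BM

end Vale.Agent.P274
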