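import Vale.Agent.P274.B2

/-! Consequences of cocompactness: compactness of holomorphic discs, tautness. -/

open Metric Set Filter Topology

namespace Vale.Agent.P274.CM

variable {N n : ℕ} (M : CM N n)

theorem b3_chain {α X : Type*} [TopologicalSpace α] [TopologicalSpace X] {S Q : Set α}
    (hS : IsPreconnected S) (hQ : IsCompact Q) (hQS : Q ⊆ S) (H : Set (α → X))
    (hl : ∀ p ∈ S, ∃ t ∈ 𝓝 p, ∀ C, IsCompact C → ∃ C', IsCompact C' ∧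
      ∀ h ∈ H, ∀ q ∈ t, ∀ q' ∈ t, h q ∈ C → h q' ∈ C') {C : Set X} (hC : IsCompact C) :
    ∃ C', IsCompact C' ∧ ∀ h ∈ H, ∀ q ∈ Q, ∀ q' ∈ Q, h q ∈ C → h q' ∈ C' := by
  rcases Q.eq_empty_or_nonempty with rfl | ⟨p, hp⟩
  · exact ⟨∅, isCompact_empty, by simp⟩
  let R : Set α → Set α → Prop := fun A B => ∀ C, IsCompact C → ∃ C', IsCompact C' ∧
    ∀ h ∈ H, ∀ q ∈ A, ∀ q' ∈ B, h q ∈ C → h q' ∈ C'
  have mono : ∀ {A B A' B'}, A' ⊆ A → B' ⊆ B → R A B → R A' B' := fun a b h C hC =>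
    (h C hC).imp fun C' h => ⟨h.1, fun f hf q hq q' hq' => h.2 f hf q (a hq) q' (b hq')⟩
  have tr : ∀ {A B} x, R A {x} → R {x} B → R A B := fun x a b C hC => by
    obtain ⟨C1, a1, a2⟩ := a C hC
    obtain ⟨C2, b1, b2⟩ := b C1 a1
    exact ⟨C2, b1, fun f hf q hq q' hq' h => b2 f hf x rfl q' hq' (a2 f hf q hq x rfl h)⟩
  have pt : ∀ x ∈ S, ∀ y ∈ S, R {x} {y} := fun x hx y hy =>
    hS.induction₂' (fun x y => R {x} {y}) (fun x hx => by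
      obtain ⟨t, ht, h⟩ := hl x hx
      have hx := singleton_subset_iff.2 (mem_of_mem_nhds ht)
      filter_upwards [mem_nhdsWithin_of_mem_nhds ht] with y hy
      exact ⟨mono hx (singleton_subset_iff.2 hy) h, mono (singleton_subset_iff.2 hy) hx h⟩)
      (fun _ y _ _ _ _ => tr y) hx hy
  have key : R Q {p} ∧ R {p} Q := by
    refine hQ.induction_on (p := fun A => R A {p} ∧ R {p} A)
      ⟨fun _ _ => ⟨∅, isCompact_empty, by simp⟩, fun _ _ => ⟨∅, isCompact_empty, by simp⟩⟩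
      (fun _ _ a h => ⟨mono a subset_rfl h.1, mono subset_rfl a h.2⟩)
      (fun s t a b => ⟨fun C hC => ?_, fun C hC => ?_⟩) fun x hx => ?_
    · obtain ⟨C1, a1, a2⟩ := a.1 C hC
      obtain ⟨C2, b1, b2⟩ := b.1 C hC
      exact ⟨_, a1.union b1, fun f hf q hq q' hq' h => hq.imp (a2 f hf q · q' hq' h)
        (b2 f hf q · q' hq' h)⟩
    · obtain ⟨C1, a1, a2⟩ := a.2 C hC
      obtain ⟨C2, b1, b2⟩ := b.2 C hC
      exact ⟨_, a1.union b1, fun f hf q hq q' hq' h => hq'.imp (a2 f hf q hq q' · h)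
        (b2 f hf q hq q' · h)⟩
    · obtain ⟨t, ht, h⟩ := hl x (hQS hx)
      have hx' := singleton_subset_iff.2 (mem_of_mem_nhds ht)
      exact ⟨t, mem_nhdsWithin_of_mem_nhds ht,
        tr x (mono subset_rfl hx' h) (pt x (hQS hx) p (hQS hp)),
        tr x (pt p (hQS hp) x (hQS hx)) (mono hx' subset_rfl h)⟩
  exact tr p key.1 key.2 C hC

theorem b3_lim {ι : Type*} {l : Filter ι} [l.NeBot] {x y : ι → M.X} {u v : E N}
    (hx : Tendsto (fun j => M.ι (x j)) l (𝓝 u)) (hy : Tendsto (fun j => M.ι (y j)) l (𝓝 v))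
    (h : ∀ C, IsCompact C → ∃ C', IsCompact C' ∧ ∀ᶠ j in l, x j ∈ C → y j ∈ C')
    (hu : u ∈ M.U) : v ∈ M.U := by
  obtain ⟨C, hC, h1⟩ := exists_compact_mem_nhds (⟨u, hu⟩ : M.X)
  obtain ⟨C', h2, h3⟩ := h C hC
  obtain ⟨z, -, rfl⟩ := (h2.image continuous_subtype_val).isClosed.mem_of_tendsto hy
    ((h3.and ((tendsto_subtype_rng.2 hx).eventually h1)).mono fun j a => ⟨_, a.1 a.2, rfl⟩)
  exact z.2

theorem T0 {P : Type*} [NormedAddCommGroup P] [NormedSpace ℂ P] :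
    ∃ r₀ : ℝ, 0 < r₀ ∧ r₀ < 1 ∧ ∀ C : Set M.X, IsCompact C → ∃ C', IsCompact C' ∧
      ∀ (h : P → M.X) (c : P) (R : ℝ), DifferentiableOn ℂ (M.ι ∘ h) (ball c R) → h c ∈ C →
        ∀ w ∈ ball c (r₀ * R), h w ∈ C' := by
  obtain ⟨B, hB, hb⟩ := M.exists_bound
  obtain ⟨δ, hδ, hK⟩ := M.K_cpt.exists_isCompact_cthickening
  refine ⟨min (1 / 2) (δ / (2 * B)), by positivity, (min_le_left _ _).trans_lt (by norm_num),
    fun C hC => ⟨_, (M.pd _ (hC.union M.K_cpt)).isCompact_biUnion fun γ _ =>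
      hK.image (BM.continuous_smul_aut γ⁻¹), fun h c R hd hc w hw => ?_⟩⟩
  obtain ⟨γ, hγ, hk⟩ := M.cover (h c)
  have hR : 0 < R := pos_of_mul_pos_right (pos_of_mem_ball hw) (by positivity)
  refine mem_iUnion₂.2 ⟨γ, ⟨hγ, _, Or.inl hc, Or.inr hk⟩, γ • h w,
    mem_cthickening_of_dist_le _ _ _ _ hk ?_, inv_smul_smul _ _⟩
  rw [mem_ball, dist_eq_norm] at hw
  have h1 := P278F.norm_sub_le_of_bound ((M.hol_smul γ).differentiableOn_comp isOpen_ball hd)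
    (fun z _ => hb _) (z := w) (by
      rw [mem_ball, dist_eq_norm]
      exact hw.trans_le (mul_le_of_le_one_left hR.le ((min_le_left _ _).trans (by norm_num))))
  rw [Subtype.dist_eq, dist_eq_norm]
  refine h1.trans ((mul_le_mul_of_nonneg_left (hw.le.trans (mul_le_mul_of_nonneg_right
    (min_le_right _ _) hR.le)) (by positivity)).trans_eq ?_)
  field_simp

theorem b3_loc {P : Type*} [NormedAddCommGroup P] [NormedSpace ℂ P] {S : Set P} {p : P}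
    (hS : S ∈ 𝓝 p) : ∃ t ∈ 𝓝 p, ∀ C, IsCompact C → ∃ C', IsCompact C' ∧
      ∀ h : P → M.X, DifferentiableOn ℂ (M.ι ∘ h) S → ∀ q ∈ t, ∀ q' ∈ t, h q ∈ C → h q' ∈ C' := by
  obtain ⟨R, hR, hb⟩ := Metric.mem_nhds_iff.1 hS
  obtain ⟨r, h0, h1, h2⟩ := M.T0 (P := P)
  refine ⟨_, ball_mem_nhds p (by positivity : 0 < r * R / 4), fun C hC => ?_⟩
  obtain ⟨C', h3, h4⟩ := h2 C hC
  refine ⟨C', h3, fun h hd q hq q' hq' hc => h4 h q (R / 2)
    (hd.mono ((ball_subset ?_).trans hb)) hc q' ?_⟩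
  · have := mul_le_of_le_one_left hR.le h1.le
    linarith [mem_ball.1 hq]
  · rw [mem_ball]
    linarith [mem_ball.1 hq, mem_ball.1 hq', dist_triangle_right q' q p]

theorem T1_param {P : Type*} [NormedAddCommGroup P] [NormedSpace ℂ P] {S Q : Set P}
    (hS : IsOpen S) (hS' : IsPreconnected S) (hQ : IsCompact Q) (hQS : Q ⊆ S)
    {C : Set M.X} (hC : IsCompact C) : ∃ C', IsCompact C' ∧
      ∀ h : P → M.X, DifferentiableOn ℂ (M.ι ∘ h) S → (∃ p ∈ Q, h p ∈ C) →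
        ∀ w ∈ Q, h w ∈ C' := by
  obtain ⟨C', h1, h2⟩ := b3_chain hS' hQ hQS {h : P → M.X | DifferentiableOn ℂ (M.ι ∘ h) S}
    (fun p hp => by
      obtain ⟨t, ht, h⟩ := M.b3_loc (hS.mem_nhds hp)
      exact ⟨t, ht, h⟩) hC
  exact ⟨C', h1, fun h hh ⟨p, hp, hc⟩ w hw => h2 h hh p hp w hw hc⟩

theorem T1 {C₀ C : Set M.X} (hC₀ : IsCompact C₀) (hC : IsCompact C) : ∃ C', IsCompact C' ∧
    ∀ a : M.X → M.X, M.Hol (M.ι ∘ a) → (∃ x ∈ C, a x ∈ C₀) → ∀ x ∈ C, a x ∈ C' := by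
  obtain ⟨C', h1, h2⟩ := b3_chain isPreconnected_univ hC (subset_univ _)
    {a : M.X → M.X | M.Hol (M.ι ∘ a)} (fun p _ => by
      obtain ⟨t, ht, h⟩ := M.b3_loc (ball_mem_nhds (0 : E n) (M.r_pos p))
      have h0 := M.map_ψ_nhds p (mem_ball_self (M.r_pos p))
      rw [M.ψ_zero] at h0
      refine ⟨M.ψ p '' t, h0 ▸ image_mem_map ht, fun C hC => ?_⟩
      obtain ⟨C', h1, h2⟩ := h C hC
      refine ⟨C', h1, ?_⟩
      rintro a ha _ ⟨q, hq, rfl⟩ _ ⟨q', hq', rfl⟩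
      exact h2 (a ∘ M.ψ p) (BM.Hol.analyticOnNhd ha p).differentiableOn q hq q' hq') hC₀
  exact ⟨C', h1, fun h hh ⟨p, hp, hc⟩ w hw => h2 h hh p hp w hw hc⟩

theorem taut_param {P ι : Type*} [NormedAddCommGroup P] [NormedSpace ℂ P] {l : Filter ι}
    [l.NeBot] {S : Set P} (hS : IsOpen S) (hS' : IsPreconnected S) {h : ι → P → M.X}
    {g : P → E N} (hd : ∀ p ∈ S, ∃ t ∈ 𝓝 p, ∀ᶠ j in l, DifferentiableOn ℂ (M.ι ∘ h j) t)
    (hp : ∀ p ∈ S, Tendsto (fun j => M.ι (h j p)) l (𝓝 (g p))) {p : P} (hpS : p ∈ S)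
    (hpU : g p ∈ M.U) : ∀ w ∈ S, g w ∈ M.U := by
  refine fun w hw => hS'.induction₂' (fun x y => g x ∈ M.U → g y ∈ M.U) (fun x hx => ?_)
    (fun _ _ _ _ _ _ a b c => b (a c)) hpS hw hpU
  obtain ⟨t, ht, hj⟩ := hd x hx
  obtain ⟨u, hu, h1⟩ := M.b3_loc ht
  have k : ∀ q ∈ u ∩ S, ∀ q' ∈ u ∩ S, g q ∈ M.U → g q' ∈ M.U := fun q hq q' hq' =>
    M.b3_lim (hp q hq.2) (hp q' hq'.2) fun C hC => by
      obtain ⟨C', h2, h3⟩ := h1 C hC
      exact ⟨C', h2, hj.mono fun j a => h3 _ a q hq.1 q' hq'.1⟩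
  have hx' : x ∈ u ∩ S := ⟨mem_of_mem_nhds hu, hx⟩
  filter_upwards [mem_nhdsWithin_of_mem_nhds hu, self_mem_nhdsWithin] with y a b
  exact ⟨k x hx' y ⟨a, b⟩, k y ⟨a, b⟩ x hx'⟩

theorem taut {ι : Type*} {l : Filter ι} [l.NeBot] {a : ι → M.X → M.X} {g : M.X → E N}
    (hd : ∀ᶠ j in l, M.Hol (M.ι ∘ a j)) (hp : ∀ x, Tendsto (fun j => M.ι (a j x)) l (𝓝 (g x)))
    {x : M.X} (hx : g x ∈ M.U) (y : M.X) : g y ∈ M.U := by
  refine M.b3_lim (hp x) (hp y) (fun C hC => ?_) hx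
  obtain ⟨C', h1, h2⟩ := M.T1 hC (toFinite {x, y}).isCompact
  exact ⟨C', h1, hd.mono fun j hj h => h2 _ hj ⟨x, by simp, h⟩ y (by simp)⟩

/-- Limits of holomorphic self-maps along an ultrafilter. -/
theorem map_lim {ι : Type*} (𝒰 : Ultrafilter ι) {a : ι → M.X → M.X}
    (hd : ∀ᶠ j in (𝒰 : Filter ι), M.Hol (M.ι ∘ a j)) {p : M.X} {C : Set M.X} (hC : IsCompact C)
    (hp : ∀ᶠ j in (𝒰 : Filter ι), a j p ∈ C) :
    ∃ b : M.X → M.X, M.Hol (M.ι ∘ b) ∧ ∀ x, Tendsto (fun j => a j x) 𝒰 (𝓝 (b x)) := by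
  have h1 : ∀ x, ∃ y, Tendsto (fun j => a j x) 𝒰 (𝓝 y) := fun x => by
    obtain ⟨C', h1, h2⟩ := M.T1 hC (toFinite {p, x}).isCompact
    obtain ⟨y, -, hy⟩ := h1.ultrafilter_le_nhds' (𝒰.map fun j => a j x)
      ((hd.and hp).mono fun j hj => h2 _ hj.1 ⟨p, by simp, hj.2⟩ x (by simp))
    exact ⟨y, hy⟩
  choose b hb using h1
  obtain ⟨B, -, hB⟩ := M.exists_bound
  exact ⟨b, (BM.vitali_hol hd (BM.locBdd_of_bound (.of_forall fun j y => hB _))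
    fun x => tendsto_subtype_rng.1 (hb x)).1, hb⟩

theorem map_moving {ι : Type*} {l : Filter ι} {a : ι → M.X → M.X} {b : M.X → M.X}
    (hd : ∀ᶠ j in l, M.Hol (M.ι ∘ a j)) (hp : ∀ x, Tendsto (fun j => a j x) l (𝓝 (b x)))
    {x : ι → M.X} {x₀ : M.X} (hx : Tendsto x l (𝓝 x₀)) :
    Tendsto (fun j => a j (x j)) l (𝓝 (b x₀)) := by
  rcases l.eq_or_neBot with rfl | _
  · exact tendsto_bot
  obtain ⟨B, -, hB⟩ := M.exists_bound
  exact tendsto_subtype_rng.2 (BM.vitali_moving (g := M.ι ∘ b) hd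
    (BM.locBdd_of_bound (.of_forall fun j y => hB _)) (fun x => tendsto_subtype_rng.1 (hp x)) hx)

/-- Limits of automorphisms (H. Cartan). -/
theorem aut_lim {ι : Type*} (𝒰 : Ultrafilter ι) (a : ι → M.Aut) {p : M.X} {C : Set M.X}
    (hC : IsCompact C) (hp : ∀ᶠ j in (𝒰 : Filter ι), a j • p ∈ C) :
    ∃ b : M.Aut, ∀ x : M.X, Tendsto (fun j => a j • x) 𝒰 (𝓝 (b • x)) ∧
      Tendsto (fun j => (a j)⁻¹ • x) 𝒰 (𝓝 (b⁻¹ • x)) := by
  have h1 : ∀ᶠ j in (𝒰 : Filter ι), M.Hol (M.ι ∘ fun x => a j • x) :=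
    .of_forall fun j => M.hol_smul _
  have h2 : ∀ᶠ j in (𝒰 : Filter ι), M.Hol (M.ι ∘ fun x => (a j)⁻¹ • x) :=
    .of_forall fun j => M.hol_smul _
  obtain ⟨b, hb, hb1⟩ := M.map_lim 𝒰 h1 hC hp
  obtain ⟨C', h3, h4⟩ := M.T1 (isCompact_singleton (x := p)) (hC.insert p)
  obtain ⟨b', hb', hb2⟩ := M.map_lim 𝒰 h2 (p := p) h3 (hp.mono fun j hj =>
    h4 _ (M.hol_smul (a j)⁻¹) ⟨_, Or.inr hj, inv_smul_smul _ _⟩ p (Or.inl rfl))
  obtain ⟨c, c1, c2⟩ := BM.exists_aut hb hb'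
    (fun x => tendsto_nhds_unique (M.map_moving h1 hb1 (hb2 x)) (by simp))
    (fun x => tendsto_nhds_unique (M.map_moving h2 hb2 (hb1 x)) (by simp))
  exact ⟨c, fun x => ⟨c1 x ▸ hb1 x, c2 x ▸ hb2 x⟩⟩

/-- The continuity principle. -/
theorem cont_principle {Z O : Set (E N)} (hO : IsOpen O) (hU : M.U = Z ∩ O)
    {h : ℝ → ℂ → E N}
    (hc : ContinuousOn (fun p : ℝ × ℂ => h p.1 p.2) (Icc 0 1 ×ˢ closedBall 0 1))
    (hd : ∀ τ ∈ Icc (0 : ℝ) 1, DifferentiableOn ℂ (h τ) (ball 0 1))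
    (hZ : ∀ τ ∈ Icc (0 : ℝ) 1, ∀ ζ ∈ closedBall (0 : ℂ) 1, h τ ζ ∈ Z)
    (hb : ∀ τ ∈ Icc (0 : ℝ) 1, ∀ ζ ∈ sphere (0 : ℂ) 1, h τ ζ ∈ M.U)
    (h0 : ∀ ζ ∈ closedBall (0 : ℂ) 1, h 0 ζ ∈ M.U) :
    ∀ τ ∈ Icc (0 : ℝ) 1, ∀ ζ ∈ closedBall (0 : ℂ) 1, h τ ζ ∈ M.U := by
  classical
  refine fun τ hτ => isPreconnected_Icc.induction₂'
    (fun x y => (∀ ζ ∈ closedBall (0 : ℂ) 1, h x ζ ∈ M.U) → ∀ ζ ∈ closedBall (0 : ℂ) 1, h y ζ ∈ M.U)
    (fun x hx => ?_) (fun _ _ _ _ _ _ a b c => b (a c)) (left_mem_Icc.2 zero_le_one) hτ h0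
  have hO' : ∀ ζ ∈ closedBall (0 : ℂ) 1, h x ζ ∈ M.U → ∀ᶠ z : ℝ × ℂ in 𝓝 (x, ζ),
      z ∈ Icc 0 1 ×ˢ closedBall 0 1 → h z.1 z.2 ∈ M.U := fun ζ hζ hu => by
    filter_upwards [eventually_nhdsWithin_iff.1
      ((hc (x, ζ) ⟨hx, hζ⟩).eventually (hO.mem_nhds (hU ▸ hu).2))] with z a b
    exact hU ▸ ⟨hZ _ b.1 _ b.2, a b⟩
  by_cases hx' : ∀ ζ ∈ closedBall (0 : ℂ) 1, h x ζ ∈ M.U
  · filter_upwards [mem_nhdsWithin_of_mem_nhds
      ((isCompact_closedBall (0 : ℂ) 1).eventually_forall_of_forall_eventually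
        (P := fun y ζ => (y, ζ) ∈ Icc 0 1 ×ˢ closedBall 0 1 → h y ζ ∈ M.U)
        fun ζ hζ => hO' ζ hζ (hx' ζ hζ)), self_mem_nhdsWithin] with y a b
    exact ⟨fun _ ζ hζ => a ζ hζ ⟨b, hζ⟩, fun _ => hx'⟩
  suffices H : ∀ᶠ y in 𝓝[Icc 0 1] x, ¬ ∀ ζ ∈ closedBall (0 : ℂ) 1, h y ζ ∈ M.U from
    H.mono fun y a => ⟨fun b => absurd b hx', fun b => absurd b a⟩
  by_contra H
  have := frequently_iff_neBot.1 (not_eventually.1 H)
  set l := 𝓝[Icc 0 1] x ⊓ 𝓟 {y | ¬¬∀ ζ ∈ closedBall (0 : ℂ) 1, h y ζ ∈ M.U}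
  have l1 : ∀ᶠ y in l, y ∈ Icc (0 : ℝ) 1 := mem_inf_of_left self_mem_nhdsWithin
  obtain ⟨x0⟩ : Nonempty M.X := inferInstance
  let H' : ℝ → ℂ → M.X := fun y ζ => if hh : h y ζ ∈ M.U then ⟨h y ζ, hh⟩ else x0
  have l2 : ∀ᶠ y in l, ∀ ζ ∈ ball (0 : ℂ) 1, M.ι (H' y ζ) = h y ζ := by
    filter_upwards [mem_inf_of_right (mem_principal_self _)] with y a ζ hζ
    simp only [H', dif_pos (not_not.1 a ζ (ball_subset_closedBall hζ))]
  obtain ⟨p, hp, hp'⟩ : ∃ p, p ∈ ball (0 : ℂ) 1 ∧ h x p ∈ M.U := by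
    have h1 : (1 : ℂ) ∈ closure (ball (0 : ℂ) 1) := by simp [closure_ball]
    obtain ⟨p, a, b⟩ := ((mem_closure_iff_frequently.1 h1).and_eventually
      ((Continuous.prodMk_right x).continuousAt.eventually
        (hO' 1 (by simp) (hb x hx 1 (by simp))))).exists
    exact ⟨p, a, b ⟨hx, ball_subset_closedBall a⟩⟩
  have key := M.taut_param (l := l) (h := H') (g := h x) isOpen_ball
    (convex_ball (0 : ℂ) 1).isPreconnected
    (fun q hq => ⟨_, isOpen_ball.mem_nhds hq, (l1.and l2).mono fun y a => (hd y a.1).congr a.2⟩)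
    (fun q hq => Tendsto.congr' (l2.mono fun y a => (a q hq).symm)
      ((hc (x, q) ⟨hx, ball_subset_closedBall hq⟩).tendsto.comp (f := fun y => (y, q))
        (tendsto_nhdsWithin_iff.2 ⟨(Continuous.prodMk_left q).continuousAt.tendsto.mono_left
          (inf_le_left.trans nhdsWithin_le_nhds),
          l1.mono fun y a => ⟨a, ball_subset_closedBall hq⟩⟩))) hp hp'
  refine hx' fun ζ hζ => ?_
  rcases (mem_closedBall.1 hζ).lt_or_eq with a | a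
  exacts [key ζ a, hb x hx ζ a]

/-- The maximum trick: a bounded holomorphic function vanishing on a nonempty invariant set
vanishes identically. -/
theorem max_trick {f : M.X → ℂ} (hf : M.Hol f) {b : ℝ} (hb : ∀ x, ‖f x‖ ≤ b) {S : Set M.X}
    (hS : S.Nonempty) (hinv : ∀ γ ∈ M.Γ, ∀ x ∈ S, γ • x ∈ S) (h0 : ∀ x ∈ S, f x = 0)
    (x : M.X) : f x = 0 := by
  have hbd : BddAbove (range fun x => ‖f x‖) := ⟨b, by rintro _ ⟨y, rfl⟩; exact hb y⟩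
  obtain ⟨u, hu, hu'⟩ := mem_closure_iff_seq_limit.1
    ((isLUB_ciSup hbd).mem_closure (range_nonempty _))
  choose y hy using hu
  choose γ hγ hk using fun j => M.cover (y j)
  obtain ⟨k, -, hk'⟩ := M.K_cpt.ultrafilter_le_nhds' ((hyperfilter ℕ).map fun j => γ j • y j)
    (Eventually.of_forall (f := (hyperfilter ℕ : Filter ℕ)) hk)
  have h1 : ∀ᶠ j in (hyperfilter ℕ : Filter ℕ), M.Hol fun z => f ((γ j)⁻¹ • z) :=
    .of_forall fun j z => (hf _).comp (M.hol_smul _ z)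
  have h2 : M.LocBdd (hyperfilter ℕ : Filter ℕ) fun j z => f ((γ j)⁻¹ • z) :=
    BM.locBdd_of_bound (.of_forall fun j z => hb _)
  obtain ⟨g, hg, hg'⟩ := BM.montel _ h1 h2
  have h3 := (BM.vitali_moving h1 h2 hg' hk').norm
  simp only [inv_smul_smul, hy] at h3
  have h4 := tendsto_nhds_unique h3 (hu'.mono_left Nat.hyperfilter_le_atTop)
  obtain ⟨s, hs⟩ := hS
  have h5 := hg.const_of_max (x := k)
    (fun z => h4 ▸ le_of_tendsto' (hg' z).norm fun j => le_ciSup hbd _) s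
  have h6 : g s = 0 := tendsto_nhds_unique (hg' s)
    (by simp only [fun j => h0 _ (hinv _ (inv_mem (hγ j)) s hs)]; exact tendsto_const_nhds)
  rw [← h5, h6, norm_zero] at h4
  exact norm_le_zero_iff.1 (h4 ▸ le_ciSup hbd x)

theorem countable_Γ : (M.Γ : Set M.Aut).Countable := by
  obtain ⟨x⟩ : Nonempty M.X := inferInstance
  refine (countable_iUnion fun k => (M.pd _
    ((isCompact_compactCovering M.X k).insert x)).countable).mono fun γ hγ => ?_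
  obtain ⟨k, hk⟩ := exists_mem_compactCovering (γ • x)
  exact mem_iUnion.2 ⟨k, hγ, x, Or.inl rfl, Or.inr hk⟩

/-- Uniform Cauchy estimate for the derivative along an invariant family: a bounded function
composed with automorphisms, on a compact set. -/
theorem df_aut_bound {C : Set M.X} (hC : IsCompact C) : ∃ K : ℝ, 0 < K ∧
    ∀ a : M.Aut, ∀ x ∈ C, ∀ v ∈ M.T x, ‖M.df (fun y => M.ι (a • y)) x v‖ ≤ K * ‖v‖ := by
  obtain ⟨B, hB, hb⟩ := M.exists_bound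
  obtain ⟨C', -, -, K, hK, h⟩ := BM.cauchy_df (F := E N) hC
  exact ⟨K * B, by positivity, fun a => h _ B (M.hol_smul a) fun y _ => hb _⟩

end Vale.Agent.P274.CM
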