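import Vale.Agent.P274.B3

/-! The extension lemma for holomorphic self-maps. -/

open Metric Set Filter Topology

namespace Vale.Agent.P274.CM

variable {N n : ℕ} (M : CM N n)

/-- If for every bounded holomorphic `f` the function `f ∘ m` extends from `S` to the whole
manifold with a uniform bound, then `m` extends as a holomorphic self-map. -/
theorem extend {m : M.X → M.X} {S : Set M.X} (hS : IsOpen S) (hne : S.Nonempty)
    (hm : ∀ x ∈ S, M.HolAt (M.ι ∘ m) x) (K : ℝ)
    (hT : ∀ f : M.X → ℂ, M.Hol f → (∀ x, ‖f x‖ ≤ 1) →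
      ∃ g : M.X → ℂ, M.Hol g ∧ (∀ x, ‖g x‖ ≤ K) ∧ ∀ x ∈ S, g x = f (m x)) :
    ∃ m' : M.X → M.X, M.Hol (M.ι ∘ m') ∧ ∀ x ∈ S, m' x = m x := by
  obtain ⟨R, hR, hb⟩ := M.exists_bound
  have h1 : ∀ β : M.Aut, ∃ g : M.X → E N, M.Hol g ∧ (∀ x, ‖g x‖ ≤ R * |K|) ∧
      ∀ x ∈ S, g x = M.ι (β • m x) := fun β => by
    have hR' : (R : ℂ) ≠ 0 := by exact_mod_cast hR.ne'
    choose g a b c using fun i : Fin N => hT (fun x => (R : ℂ)⁻¹ * M.ι (β • x) i)
      (fun x => (M.holAt_const _ x).mul (BM.holAt_pi_iff.1 (M.hol_smul β x) i)) fun x => by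
        rw [norm_mul, norm_inv, Complex.norm_real, Real.norm_of_nonneg hR.le]
        exact inv_mul_le_one_of_le₀ ((norm_le_pi_norm _ i).trans (hb _)) hR.le
    refine ⟨fun x i => R * g i x, fun x => BM.holAt_pi_iff.2 fun i =>
      (M.holAt_const _ x).mul (a i x), fun x => (pi_norm_le_iff_of_nonneg (by positivity)).2
        fun i => ?_, fun x hx => funext fun i => ?_⟩
    · rw [norm_mul, Complex.norm_real, Real.norm_of_nonneg hR.le]
      exact mul_le_mul_of_nonneg_left ((b i x).trans (le_abs_self _)) hR.le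
    · simp only [c i x hx, mul_inv_cancel_left₀ hR']
  choose g hg hgb hgS using h1
  let p : M.X → Prop := fun y => ∃ z : M.X, ∀ β, g β y = M.ι (β • z)
  have key : ∀ x, ∀ᶠ y in 𝓝 x, p y := by
    have hc : IsClosed {x | ∀ᶠ y in 𝓝 x, p y} := isClosed_of_closure_subset fun x hx => by
      obtain ⟨x0⟩ : Nonempty M.X := inferInstance
      have : ∀ y, ∃ z : M.X, p y → ∀ β, g β y = M.ι (β • z) := fun y => by
        by_cases h : p y
        exacts [h.imp fun _ a _ => a, ⟨x0, fun a => absurd a h⟩]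
      choose z hz using this
      choose γ _ hk using fun y => M.cover (z y)
      have := mem_closure_iff_nhdsWithin_neBot.1 hx
      obtain ⟨k, -, hk'⟩ := M.K_cpt.exists_mapClusterPt_of_frequently
        (l := 𝓝[{x | ∀ᶠ y in 𝓝 x, p y}] x) (f := fun y => γ y • z y) (.of_forall hk)
      have h1 : ∀ᶠ u in 𝓝 k.1, M.L k (u - k.1) ∈ ball 0 (M.r k) :=
        (((M.L k).continuous.comp (continuous_sub_right k.1)).tendsto' _ 0 (by simp)).eventually
          (ball_mem_nhds _ (M.r_pos k))
      obtain ⟨η, hη, h2⟩ := Metric.eventually_nhds_iff_ball.1 (h1.and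
        (eventually_comap.1 (nhds_subtype _ k ▸ M.ψ_co_eventually k)))
      obtain ⟨_, -, -, δ, L, hδ, hL, -, h3⟩ := BM.cauchy_lip (F := E N) (isCompact_singleton (x := x))
      have h4 : ∀ᶠ y in 𝓝 x, ∀ β, ‖g β y - g β x‖ < η / 4 := by
        have : Tendsto (fun y => L * (R * |K|) * dist y x) (𝓝 x) (𝓝 0) :=
          (by fun_prop : Continuous _).tendsto' _ _ (by simp)
        filter_upwards [ball_mem_nhds x hδ, this.eventually (gt_mem_nhds (by positivity : 0 < η / 4))]
          with y a b β using (h3 _ _ (hg β) (fun y _ => hgb β y) x rfl y a).trans_lt b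
      have h5 := M.map_ψ_nhds x (mem_ball_self (M.r_pos x))
      rw [M.ψ_zero] at h5
      rw [← h5, eventually_map] at h4
      obtain ⟨s, hs, h6⟩ := Metric.eventually_nhds_iff_ball.1
        (h4.and (ball_mem_nhds _ (M.r_pos x)))
      set B := M.ψ x '' ball 0 (min s (M.r x))
      have hB : B ∈ 𝓝 x := M.image_ball_mem_nhds x (lt_min hs (M.r_pos x))
      have hBo : IsOpen B := M.isOpen_image_ψ x isOpen_ball (ball_subset_ball (min_le_right _ _))
      have h7 : ∀ y ∈ B, ∀ β, ‖g β y - g β x‖ < η / 4 := by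
        rintro _ ⟨w, hw, rfl⟩
        exact (h6 w (ball_subset_ball (min_le_left _ _) hw)).1
      obtain ⟨y, y1, y2, y3⟩ := ((hk'.frequently (ball_mem_nhds k (half_pos hη))).and_eventually
        (inter_mem_inf hB (mem_principal_self _))).exists
      have h8 : ∀ w ∈ B, g (γ y) w ∈ ball k.1 η := fun w hw => by
        have a := h7 w hw (γ y)
        have b := h7 y y2 (γ y)
        rw [hz y y3.self_of_nhds, ← dist_eq_norm] at b
        rw [← dist_eq_norm] at a
        have c : dist (M.ι (γ y • z y)) k.1 < η / 2 := y1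
        rw [mem_ball]
        linarith [dist_triangle (g (γ y) w) (M.ι (γ y • z y)) k.1,
          dist_triangle_right (g (γ y) w) (M.ι (γ y • z y)) (g (γ y) x)]
      let q : M.X → M.X := fun w => M.ψ k (M.L k (g (γ y) w - k.1))
      have hq : ∀ w ∈ B, M.HolAt (M.ι ∘ q) w := fun w hw =>
        (((hg _ w).sub (M.holAt_const _ w)).clm (M.L k)).comp_analytic
          (M.analyticAt_ψ k (h2 _ (h8 w hw)).1)
      filter_upwards [hB] with w hw
      refine ⟨(γ y)⁻¹ • q w, fun β => BM.eqOn_of_preconnected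
        (g := fun w => M.ι (β • (γ y)⁻¹ • q w)) (M.isPreconnected_image_ball x (min_le_right _ _))
        (fun v _ => hg β v) (fun v hv => ?_) y2 ?_ hw⟩
      · exact (M.hol_smul β _).comp (a := fun w => (γ y)⁻¹ • q w)
          ((M.hol_smul (γ y)⁻¹ _).comp (hq v hv))
      · filter_upwards [y3, hBo.mem_nhds y2] with v a b
        have e : q v = γ y • z v := by
          simp only [q, hz v a]
          exact ((h2 _ (h8 v b)).2 _ (hz v a _).symm).1
        rw [e, inv_smul_smul, hz v a]
    obtain ⟨x0, hx0⟩ := hne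
    exact fun x => (IsClopen.eq_univ ⟨hc, isOpen_setOfPred_eventually_nhds⟩ ⟨x0,
      mem_of_superset (hS.mem_nhds hx0) fun y hy => ⟨m y, fun β => hgS β y hy⟩⟩).ge (mem_univ x)
  choose m' hm' using fun x => (key x).self_of_nhds
  have e : M.ι ∘ m' = g 1 := funext fun x => by rw [hm', one_smul]; rfl
  exact ⟨m', e ▸ hg 1, fun x hx => Subtype.ext ((congrFun e x).trans (by rw [hgS 1 x hx, one_smul]))⟩

end Vale.Agent.P274.CM
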