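import Vale.Agent.P274.B1c

/-! Propagation of smallness: local lemmas and their global versions. -/

open Metric Set Filter Topology

namespace Vale.Agent.P274

/-- The maximum principle on an open set inside a closed set. -/
theorem b4_max {g : ℂ → ℂ} {U A : Set ℂ} {c : ℝ} (hU : IsOpen U) (hb : Bornology.IsBounded U)
    (hA : IsClosed A) (hUA : U ⊆ A) (hd : ∀ z ∈ A, DifferentiableAt ℂ g z)
    (hc : ∀ z ∈ A, z ∉ U → ‖g z‖ ≤ c) {z : ℂ} (hz : z ∈ U) : ‖g z‖ ≤ c := by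
  have h1 : closure U ⊆ A := closure_minimal hUA hA
  refine Complex.norm_le_of_forall_mem_frontier_norm_le hb
    (DifferentiableOn.diffContOnCl fun w hw => (hd w (h1 hw)).differentiableWithinAt)
    (fun w hw => ?_) (subset_closure hz)
  rw [hU.frontier_eq] at hw
  exact hc w (h1 hw.1) hw.2

theorem b4_annulus {F : ℂ → ℂ} {σ : ℝ} (hσ : 0 ≤ σ)
    (hd : ∀ z : ℂ, ‖z‖ ≤ 2 → DifferentiableAt ℂ F z) (h1 : ∀ z : ℂ, ‖z‖ ≤ 2 → ‖F z‖ ≤ 1)
    (hs : ∀ z : ℂ, ‖z‖ ≤ 1 / 2 → ‖F z‖ ≤ σ) : ‖F 1‖ ^ 2 ≤ σ := by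
  have key := b4_max (g := fun z => F z * F z⁻¹) (U := {z | 1 / 2 < ‖z‖ ∧ ‖z‖ < 2})
    (A := {z | 1 / 2 ≤ ‖z‖ ∧ ‖z‖ ≤ 2}) (c := σ) (z := 1)
    ((isOpen_lt continuous_const continuous_norm).inter (isOpen_lt continuous_norm continuous_const))
    (isBounded_ball.subset (t := ball (0 : ℂ) 2) fun z hz => mem_ball_zero_iff.2 hz.2)
    ((isClosed_le continuous_const continuous_norm).inter
      (isClosed_le continuous_norm continuous_const))
    (fun z hz => ⟨hz.1.le, hz.2.le⟩) (fun z hz => ?_) (fun z hz hz' => ?_)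
    (by constructor <;> norm_num)
  · simpa [sq] using key
  · have h0 : 0 < ‖z‖ := lt_of_lt_of_le (by norm_num) hz.1
    have h2 : ‖z⁻¹‖ ≤ 2 := by
      rw [norm_inv, inv_le_comm₀ h0 two_pos]
      simpa using hz.1
    exact (hd z hz.2).mul ((hd _ h2).comp z (differentiableAt_inv (norm_pos_iff.1 h0)))
  · have h0 : 0 < ‖z‖ := lt_of_lt_of_le (by norm_num) hz.1
    have h2 : ‖z⁻¹‖ ≤ 2 := by
      rw [norm_inv, inv_le_comm₀ h0 two_pos]
      simpa using hz.1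
    rw [norm_mul]
    by_cases h : ‖z‖ ≤ 1 / 2
    · exact (mul_le_mul (hs z h) (h1 _ h2) (norm_nonneg _) hσ).trans_eq (mul_one _)
    · have h3 : 2 ≤ ‖z‖ := by
        by_contra h4
        exact hz' ⟨not_le.1 h, not_le.1 h4⟩
      have h4 : ‖z⁻¹‖ ≤ 1 / 2 := by
        rw [norm_inv, one_div]
        exact inv_anti₀ two_pos h3
      exact (mul_le_mul (h1 z hz.2) (hs _ h4) (norm_nonneg _) zero_le_one).trans_eq (one_mul _)

theorem b4_two {f : ℂ → ℂ} {σ : ℝ} (hσ : 0 < σ) (hσ1 : σ ≤ 1)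
    (hd : DifferentiableOn ℂ f (ball 0 3)) (h1 : ∀ w ∈ ball (0 : ℂ) 3, ‖f w‖ ≤ 1)
    (hs : ∀ t : ℝ, |t| ≤ 2 → ‖f t‖ ≤ σ) : ‖f Complex.I‖ ≤ σ ^ (1 / 4 : ℝ) := by
  set c : ℝ := -Real.log σ with hc
  have hc0 : 0 ≤ c := neg_nonneg.2 (Real.log_nonpos hσ.le hσ1)
  have hn : ∀ z : ℂ, ‖Complex.exp (c * (1 - z ^ 2 / 4 + Complex.I * z))‖ =
      Real.exp (c * (1 - (z.re ^ 2 - z.im ^ 2) / 4 - z.im)) := fun z => by
    rw [Complex.norm_exp]
    congr 1
    simp [sq]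
    left
    ring
  have hb : ∀ z : ℂ, ‖z‖ ≤ 2 → z ∈ ball (0 : ℂ) 3 := fun z hz =>
    mem_ball_zero_iff.2 (by linarith)
  have key := b4_max (g := fun z => f z * Complex.exp (c * (1 - z ^ 2 / 4 + Complex.I * z)))
    (U := {z | 0 < z.im ∧ ‖z‖ < 2}) (A := {z | 0 ≤ z.im ∧ ‖z‖ ≤ 2}) (c := 1) (z := Complex.I)
    ((isOpen_lt continuous_const Complex.continuous_im).inter
      (isOpen_lt continuous_norm continuous_const))
    (isBounded_ball.subset (t := ball (0 : ℂ) 2) fun z hz => mem_ball_zero_iff.2 hz.2)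
    ((isClosed_le continuous_const Complex.continuous_im).inter
      (isClosed_le continuous_norm continuous_const))
    (fun z hz => ⟨hz.1.le, hz.2.le⟩) (fun z hz => ?_) (fun z hz hz' => ?_)
    (by constructor <;> simp)
  · rw [norm_mul, hn] at key
    have e : c * (1 - (Complex.I.re ^ 2 - Complex.I.im ^ 2) / 4 - Complex.I.im) =
        -(Real.log σ * (1 / 4)) := by
      simp [hc]
      ring
    rw [e, Real.exp_neg, ← div_eq_mul_inv, div_le_one (Real.exp_pos _)] at key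
    rwa [Real.rpow_def_of_pos hσ]
  · exact (hd.differentiableAt (isOpen_ball.mem_nhds (hb z hz.2))).mul (by fun_prop)
  · rw [norm_mul, hn]
    rcases hz.1.eq_or_lt with h | h
    · have e : z = (z.re : ℂ) := Complex.ext (by simp) (by simp [← h])
      have h2 : ‖f z‖ ≤ σ := by
        rw [e]
        exact hs _ ((Complex.abs_re_le_norm z).trans hz.2)
      have h3 : Real.exp (c * (1 - (z.re ^ 2 - z.im ^ 2) / 4 - z.im)) ≤ σ⁻¹ := by
        rw [← Real.exp_log hσ, ← Real.exp_neg, ← hc, ← h]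
        refine Real.exp_le_exp.2 ?_
        nlinarith [mul_nonneg hc0 (sq_nonneg z.re)]
      exact (mul_le_mul h2 h3 (Real.exp_pos _).le hσ.le).trans_eq (mul_inv_cancel₀ hσ.ne')
    · have h2 : ‖z‖ = 2 := le_antisymm hz.2 (not_lt.1 fun h' => hz' ⟨h, h'⟩)
      have h3 : z.re ^ 2 + z.im ^ 2 = 4 := by
        have h4 := Complex.sq_norm z
        rw [h2, Complex.normSq_apply] at h4
        nlinarith
      have h4 : z.im ≤ 2 := (le_abs_self _).trans ((Complex.abs_im_le_norm z).trans hz.2)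
      have h5 : 1 - (z.re ^ 2 - z.im ^ 2) / 4 - z.im ≤ 0 := by nlinarith
      exact mul_le_one₀ (h1 z (hb z hz.2)) (Real.exp_pos _).le
        (Real.exp_le_one_iff.2 (mul_nonpos_of_nonneg_of_nonpos hc0 h5))

section
variable {P : Type*} [NormedAddCommGroup P] [NormedSpace ℂ P]

/-- Three circles. -/
theorem three_circles {f : P → ℂ} {c : P} {r σ : ℝ} (hr : 0 < r) (hσ : 0 ≤ σ)
    (hd : DifferentiableOn ℂ f (ball c (4 * r))) (h1 : ∀ w ∈ ball c (4 * r), ‖f w‖ ≤ 1)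
    (hs : ∀ w ∈ ball c r, ‖f w‖ ≤ σ) : ∀ w ∈ ball c (2 * r), ‖f w‖ ≤ σ ^ (1 / 2 : ℝ) := by
  intro w hw
  rw [mem_ball_iff_norm] at hw
  have hm : ∀ (z : ℂ) (a : ℝ), 0 < a → ‖z‖ ≤ a → c + z • (w - c) ∈ ball c (a * (2 * r)) := by
    intro z a ha hz
    rw [mem_ball_iff_norm, add_sub_cancel_left, norm_smul]
    exact lt_of_le_of_lt (mul_le_mul_of_nonneg_right hz (norm_nonneg _))
      (mul_lt_mul_of_pos_left hw ha)
  have h4 : ∀ z : ℂ, ‖z‖ ≤ 2 → c + z • (w - c) ∈ ball c (4 * r) := fun z hz => by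
    have := hm z 2 two_pos hz
    rwa [show 2 * (2 * r) = 4 * r by ring] at this
  have key := b4_annulus (F := fun z => f (c + z • (w - c))) hσ
    (fun z hz => (hd.differentiableAt (isOpen_ball.mem_nhds (h4 z hz))).comp z (by fun_prop))
    (fun z hz => h1 _ (h4 z hz)) fun z hz => hs _ (by
      have := hm z (1 / 2) (by norm_num) hz
      rwa [show 1 / 2 * (2 * r) = r by ring] at this)
  simp only [one_smul, add_sub_cancel] at key
  rw [← Real.sqrt_eq_rpow]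
  exact Real.le_sqrt_of_sq_le key

/-- Two constants on a half disc. -/
theorem two_constants {f : ℂ → ℂ} {σ : ℝ} (hσ : 0 ≤ σ) (hσ1 : σ ≤ 1)
    (hd : DifferentiableOn ℂ f (ball 0 3)) (h1 : ∀ w ∈ ball (0 : ℂ) 3, ‖f w‖ ≤ 1)
    (hs : ∀ t : ℝ, |t| ≤ 2 → ‖f t‖ ≤ σ) : ‖f Complex.I‖ ≤ σ ^ (1 / 4 : ℝ) := by
  rcases hσ.eq_or_lt with h | h
  · subst h
    rw [Real.zero_rpow (by norm_num)]
    refine le_of_forall_pos_le_add fun ε hε => ?_
    have h2 : 0 < min ε 1 := lt_min hε one_pos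
    have h3 := b4_two (σ := min ε 1 ^ 4) (pow_pos h2 4) (pow_le_one₀ h2.le (min_le_right _ _))
      hd h1 fun t ht => (hs t ht).trans (pow_pos h2 4).le
    have h4 : (min ε 1 ^ 4) ^ (1 / 4 : ℝ) = min ε 1 := by
      have := Real.pow_rpow_inv_natCast h2.le (n := 4) (by norm_num)
      simpa using this
    rw [h4] at h3
    rw [zero_add]
    exact h3.trans (min_le_left _ _)
  · exact b4_two h hσ1 hd h1 hs

/-- Smallness on the diagonal `η = star x` propagates off the diagonal. -/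
theorem diag_small [StarAddMonoid P] [NormedStarGroup P] [StarModule ℂ P] {f : P × P → ℂ}
    {R σ : ℝ} (hσ : 0 ≤ σ) (hσ1 : σ ≤ 1) (hd : DifferentiableOn ℂ f (ball 0 R))
    (h1 : ∀ w ∈ ball (0 : P × P) R, ‖f w‖ ≤ 1)
    (hs : ∀ x ∈ ball (0 : P) R, ‖f (x, star x)‖ ≤ σ) :
    ∀ w ∈ ball (0 : P × P) (R / 4), ‖f w‖ ≤ σ ^ (1 / 4 : ℝ) := by
  rintro ⟨x, η⟩ hw
  rw [mem_ball_zero_iff] at hw
  have hx : ‖x‖ ≤ ‖(x, η)‖ := norm_fst_le (x, η)
  have hη : ‖η‖ ≤ ‖(x, η)‖ := norm_snd_le (x, η)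
  set m : P := (1 / 2 : ℂ) • (x + star η) with hm
  set d : P := (-Complex.I / 2) • (x - star η) with hd'
  have n1 : ‖m‖ ≤ ‖(x, η)‖ := by
    have := norm_add_le x (star η)
    rw [norm_star] at this
    rw [hm, norm_smul]
    simp only [norm_div, norm_one, Complex.norm_ofNat]
    linarith
  have n2 : ‖d‖ ≤ ‖(x, η)‖ := by
    have := norm_sub_le x (star η)
    rw [norm_star] at this
    rw [hd', norm_smul]
    simp only [norm_div, norm_neg, Complex.norm_I, Complex.norm_ofNat]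
    linarith
  have n3 : ∀ (a b : P) (z : ℂ), ‖a‖ = ‖m‖ → ‖b‖ = ‖d‖ → ‖z‖ ≤ 3 → ‖a + z • b‖ < R := by
    intro a b z ha hb hz
    have h2 := norm_add_le a (z • b)
    rw [norm_smul, ha, hb] at h2
    have h3 := mul_le_mul_of_nonneg_right hz (norm_nonneg d)
    linarith
  have n4 : ∀ z ∈ ball (0 : ℂ) 3, (m + z • d, star m + z • star d) ∈ ball (0 : P × P) R := by
    intro z hz
    have h2 := (mem_ball_zero_iff.1 hz).le
    rw [mem_ball_zero_iff, Prod.norm_def]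
    exact max_lt (n3 _ _ z rfl rfl h2) (n3 _ _ z (norm_star _) (norm_star _) h2)
  have key := two_constants (f := fun z => f (m + z • d, star m + z • star d)) hσ hσ1
    (hd.comp (f := fun z : ℂ => (m + z • d, star m + z • star d)) (by fun_prop) n4)
    (fun z hz => h1 _ (n4 z hz)) fun t ht => by
      have e : star m + (t : ℂ) • star d = star (m + (t : ℂ) • d) := by
        rw [star_add, star_smul]
        simp
      rw [e]
      refine hs _ (mem_ball_zero_iff.2 (n3 _ _ _ rfl rfl ?_))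
      rw [Complex.norm_real, Real.norm_eq_abs]
      linarith
  have a1 : Complex.I * (-Complex.I / 2) = 1 / 2 := by
    linear_combination (-1 / 2 : ℂ) * Complex.I_mul_I
  have a2 : Complex.I * star (-Complex.I / 2) = -(1 / 2) := by
    simp only [star_div₀, star_neg, Complex.star_def, Complex.conj_I, map_ofNat]
    linear_combination (1 / 2 : ℂ) * Complex.I_mul_I
  have a3 : star (1 / 2 : ℂ) = 1 / 2 := by simp
  have e1 : m + Complex.I • d = x := by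
    rw [hm, hd', smul_smul, a1]
    module
  have e2 : star m + Complex.I • star d = η := by
    rw [hm, hd', star_smul, star_smul, smul_smul, a2, a3, star_add, star_sub, star_star]
    module
  rwa [e1, e2] at key

theorem b4_iter {f : P → ℂ} {c : P} {r : ℝ} (hr : 0 < r)
    (hd : DifferentiableOn ℂ f (ball c (2 * r))) (h1 : ∀ w ∈ ball c (2 * r), ‖f w‖ ≤ 1) (k : ℕ) :
    ∀ σ : ℝ, 0 ≤ σ → (∀ w ∈ ball c (r / 2 ^ k), ‖f w‖ ≤ σ) →
      ∀ w ∈ ball c r, ‖f w‖ ≤ σ ^ ((1 / 2 : ℝ) ^ k) := by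
  induction k with
  | zero =>
    intro σ _ hs
    simpa using hs
  | succ k ih =>
    intro σ hσ hs
    have h2 : ball c (4 * (r / 2 ^ (k + 1))) ⊆ ball c (2 * r) := by
      refine ball_subset_ball ?_
      have h3 : r / 2 ^ k ≤ r := div_le_self hr.le (one_le_pow₀ one_le_two)
      have h4 : 4 * (r / 2 ^ (k + 1)) = 2 * (r / 2 ^ k) := by
        field_simp
        ring
      linarith
    have h3 := three_circles (by positivity) hσ (hd.mono h2) (fun w hw => h1 w (h2 hw)) hs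
    have h4 : 2 * (r / 2 ^ (k + 1)) = r / 2 ^ k := by
      field_simp
      ring
    rw [h4] at h3
    have h5 := ih _ (Real.rpow_nonneg hσ _) h3
    rwa [← Real.rpow_mul hσ, ← pow_succ'] at h5

end

namespace BM

variable {N n : ℕ} {M : BM N n}

/-- Smallness on `O` propagates to `s`. -/
def B4Prop (M : BM N n) (O s : Set M.X) : Prop :=
  ∃ C', IsCompact C' ∧ ∃ θ : ℝ, 0 < θ ∧ θ ≤ 1 ∧ ∀ (f : M.X → ℂ) (σ : ℝ), M.Hol f → 0 ≤ σ →
    σ ≤ 1 → (∀ y ∈ C', ‖f y‖ ≤ 1) → (∀ y ∈ O, ‖f y‖ ≤ σ) → ∀ x ∈ s, ‖f x‖ ≤ σ ^ θ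

theorem b4_chart {x : M.X} {u : E n} (hu : u ∈ ball (0 : E n) (M.r x)) {t : Set M.X}
    (ht : t ∈ 𝓝 (M.ψ x u)) : ∃ ε > 0, ∀ w ∈ ball u ε, M.ψ x w ∈ t := by
  rw [← M.map_ψ_nhds x hu, mem_map] at ht
  exact Metric.mem_nhds_iff.1 ht

theorem b4_closed (O : Set M.X) : IsClosed {x | ∃ t ∈ 𝓝 x, M.B4Prop O t} := by
  refine isClosed_of_closure_subset fun x hx => ?_
  have hR := M.r_pos x
  set ρ := M.r x / 6 with hρ
  have hρ0 : 0 < ρ := by positivity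
  obtain ⟨y, ⟨u, hu, rfl⟩, t, ht, C', hC', θ, h0, h1, H⟩ :=
    mem_closure_iff_nhds.1 hx _ (M.image_ball_mem_nhds x hρ0)
  have hu' := mem_ball_zero_iff.1 hu
  obtain ⟨ε, hε, hεt⟩ := b4_chart (ball_subset_ball (by linarith) hu) ht
  obtain ⟨k, hk⟩ := pow_unbounded_of_one_lt (2 * ρ / ε) (one_lt_two (α := ℝ))
  have hk' : 2 * ρ / 2 ^ k ≤ ε := by
    rw [div_le_iff₀ (by positivity)]
    rw [div_lt_iff₀ hε] at hk
    linarith
  have hsub : ball u (2 * (2 * ρ)) ⊆ closedBall (0 : E n) (5 * ρ) := fun w hw => by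
    rw [mem_ball_iff_norm] at hw
    rw [mem_closedBall_zero_iff]
    have := norm_add_le (w - u) u
    rw [sub_add_cancel] at this
    linarith
  have hsub' : closedBall (0 : E n) (5 * ρ) ⊆ ball 0 (M.r x) :=
    closedBall_subset_ball (by linarith)
  refine ⟨_, M.image_ball_mem_nhds x hρ0, C' ∪ M.ψ x '' closedBall 0 (5 * ρ),
    hC'.union (M.isCompact_image_closedBall x (by linarith)), θ * (1 / 2) ^ k, by positivity,
    mul_le_one₀ h1 (by positivity) (pow_le_one₀ (by norm_num) (by norm_num)), ?_⟩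
  rintro f σ hf hσ hσ1 hb hs _ ⟨w, hw, rfl⟩
  have key := b4_iter (f := f ∘ M.ψ x) (c := u) (r := 2 * ρ) (by positivity)
    (((hf.analyticOnNhd x).differentiableOn).mono (hsub.trans hsub'))
    (fun v hv => hb _ (Or.inr ⟨v, hsub hv, rfl⟩)) k (σ ^ θ) (Real.rpow_nonneg hσ _)
    (fun v hv => H f σ hf hσ hσ1 (fun z hz => hb z (Or.inl hz)) hs _
      (hεt v (ball_subset_ball hk' hv))) w (by
      rw [mem_ball_zero_iff] at hw
      rw [mem_ball_iff_norm]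
      have := norm_sub_le w u
      linarith)
  rwa [← Real.rpow_mul hσ] at key

/-- Global propagation of smallness. -/
theorem power_small {O C : Set M.X} (hO : IsOpen O) (hne : O.Nonempty) (hC : IsCompact C) :
    ∃ C', IsCompact C' ∧ ∃ θ : ℝ, 0 < θ ∧ θ ≤ 1 ∧ ∀ (f : M.X → ℂ) (σ : ℝ), M.Hol f → 0 ≤ σ →
      σ ≤ 1 → (∀ y ∈ C', ‖f y‖ ≤ 1) → (∀ y ∈ O, ‖f y‖ ≤ σ) → ∀ x ∈ C, ‖f x‖ ≤ σ ^ θ := by
  have h1 : IsOpen {x | ∃ t ∈ 𝓝 x, M.B4Prop O t} := by
    refine isOpen_iff_mem_nhds.2 ?_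
    rintro x ⟨t, ht, H⟩
    filter_upwards [eventually_mem_nhds_iff.2 ht] with y hy using ⟨t, hy, H⟩
  obtain ⟨x₀, hx₀⟩ := hne
  have h2 : {x | ∃ t ∈ 𝓝 x, M.B4Prop O t} = univ :=
    IsClopen.eq_univ ⟨b4_closed O, h1⟩ ⟨x₀, O, hO.mem_nhds hx₀, ∅, isCompact_empty, 1, one_pos,
      le_rfl, fun f σ _ _ _ _ hs x hx => by simpa using hs x hx⟩
  refine hC.induction_on (p := M.B4Prop O)
    ⟨∅, isCompact_empty, 1, one_pos, le_rfl, fun _ _ _ _ _ _ _ x hx => hx.elim⟩ ?_ ?_ ?_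
  · rintro s t hst ⟨C', hC', θ, a1, a2, H⟩
    exact ⟨C', hC', θ, a1, a2, fun f σ b1 b2 b3 b4 b5 x hx => H f σ b1 b2 b3 b4 b5 x (hst hx)⟩
  · rintro s t ⟨C', hC', θ, a1, a2, H⟩ ⟨C'', hC'', θ', a1', a2', H'⟩
    refine ⟨C' ∪ C'', hC'.union hC'', min θ θ', lt_min a1 a1', (min_le_left _ _).trans a2, ?_⟩
    rintro f σ b1 b2 b3 b4 b5 x (hx | hx)
    · exact (H f σ b1 b2 b3 (fun y hy => b4 y (Or.inl hy)) b5 x hx).trans
        (Real.rpow_le_rpow_of_exponent_ge' b2 b3 (lt_min a1 a1').le (min_le_left _ _))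
    · exact (H' f σ b1 b2 b3 (fun y hy => b4 y (Or.inr hy)) b5 x hx).trans
        (Real.rpow_le_rpow_of_exponent_ge' b2 b3 (lt_min a1 a1').le (min_le_right _ _))
  · intro x _
    obtain ⟨t, ht, H⟩ : x ∈ {x | ∃ t ∈ 𝓝 x, M.B4Prop O t} := h2 ▸ mem_univ x
    exact ⟨t, mem_nhdsWithin_of_mem_nhds ht, H⟩

/-- Smallness of the diagonal values of a separately (anti)holomorphic function propagates. -/
theorem power_small_diag {x₀ : M.X} {t C : Set M.X} (ht : t ∈ 𝓝 x₀) (hC : IsCompact C) :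
    ∃ θ : ℝ, 0 < θ ∧ θ ≤ 1 ∧ ∀ (f : M.X → M.X → ℂ) (σ : ℝ), M.Sesq f →
      (∀ y, M.Hol (fun x => f x y)) → (∀ x, M.Hol (fun y => star (f x y))) → 0 ≤ σ → σ ≤ 1 →
      (∀ x y, ‖f x y‖ ≤ 1) → (∀ y ∈ t, ‖f y y‖ ≤ σ) → ∀ x ∈ C, ‖f x x‖ ≤ σ ^ θ := by
  have hR := M.r_pos x₀
  obtain ⟨ε, hε, hεt⟩ := b4_chart (x := x₀) (u := 0) (mem_ball_self hR)
    (by rwa [M.ψ_zero])
  set δ := min ε (M.r x₀) with hδ
  have hδ0 : 0 < δ := lt_min hε hR
  have hδ1 : δ ≤ ε := min_le_left _ _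
  have hδ2 : δ ≤ M.r x₀ := min_le_right _ _
  obtain ⟨C', -, θ, a1, a2, H⟩ := power_small (O := M.ψ x₀ '' ball 0 (δ / 4))
    (M.isOpen_image_ψ x₀ isOpen_ball (ball_subset_ball (by linarith)))
    ⟨_, 0, mem_ball_self (by positivity), rfl⟩ hC
  refine ⟨1 / 4 * θ * θ, by positivity, by nlinarith, ?_⟩
  intro f σ hf h1 h2 hσ hσ1 hb hs x hx
  have k1 := diag_small (f := fun p : E n × E n => f (M.ψ x₀ p.1) (M.ψ x₀ (star p.2))) hσ hσ1
    ((hf x₀).mono (ball_subset_ball hδ2)) (fun w _ => hb _ _) fun v hv => by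
      simpa only [star_star] using hs _ (hεt v (ball_subset_ball hδ1 hv))
  have s0 : 0 ≤ σ ^ (1 / 4 : ℝ) := Real.rpow_nonneg hσ _
  have s1 : σ ^ (1 / 4 : ℝ) ≤ 1 := Real.rpow_le_one hσ hσ1 (by norm_num)
  have k2 : ∀ y ∈ M.ψ x₀ '' ball 0 (δ / 4), ‖star (f x y)‖ ≤ (σ ^ (1 / 4 : ℝ)) ^ θ := by
    rintro _ ⟨v, hv, rfl⟩
    rw [norm_star]
    refine H (fun z => f z (M.ψ x₀ v)) _ (h1 _) s0 s1 (fun _ _ => hb _ _) ?_ x hx
    rintro _ ⟨u, hu, rfl⟩
    have h3 := k1 (u, star v) (by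
      rw [mem_ball_zero_iff] at hu hv ⊢
      rw [Prod.norm_def]
      exact max_lt hu (by rwa [norm_star]))
    simpa only [star_star] using h3
  have k3 := H (fun y => star (f x y)) _ (h2 x) (Real.rpow_nonneg s0 _)
    (Real.rpow_le_one s0 s1 a1.le) (fun y _ => by rw [norm_star]; exact hb _ _) k2 x hx
  rwa [norm_star, ← Real.rpow_mul hσ, ← Real.rpow_mul hσ] at k3

end BM

end Vale.Agent.P274
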