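import Vale.Agent.P274.B4

/-! Division estimate and Riemann extension. -/

open Metric Set Filter Topology

namespace Vale.Agent.P274

/-- Harnack's inequality on a disc. -/
theorem b5_harnack {u : ℂ → ℝ} {ρ : ℝ} {a : ℂ} (ha : ‖a‖ < ρ)
    (hu : InnerProductSpace.HarmonicOnNhd u (closedBall 0 ρ))
    (h0 : ∀ z ∈ sphere (0 : ℂ) ρ, 0 ≤ u z) : (ρ - ‖a‖) / (ρ + ‖a‖) * u 0 ≤ u a := by
  have hρ : 0 < ρ := (norm_nonneg a).trans_lt ha
  have hab : a ∈ ball (0 : ℂ) ρ := by simpa using ha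
  have huc : ContinuousOn u (sphere 0 ρ) := hu.continuousOn.mono sphere_subset_closedBall
  have e1 := hu.circleAverage_re_herglotzRieszKernel_smul hab
  have e2 : Real.circleAverage u 0 ρ = u 0 :=
    InnerProductSpace.HarmonicOnNhd.circleAverage_eq (by rwa [abs_of_pos hρ])
  have e3 : Real.circleAverage (fun z => ((ρ - ‖a‖) / (ρ + ‖a‖)) • u z) 0 ρ
      = (ρ - ‖a‖) / (ρ + ‖a‖) * u 0 := by
    rw [Real.circleAverage_fun_smul, e2, smul_eq_mul]
  rw [← e1, ← e3]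
  have hk : ContinuousOn (herglotzRieszKernel 0 a) (sphere 0 ρ) := by
    have := continuousOn_herglotzRieszKernel_sphere hab
    rwa [abs_of_pos hρ] at this
  refine Real.circleAverage_mono
    (ContinuousOn.circleIntegrable hρ.le (huc.const_smul ((ρ - ‖a‖) / (ρ + ‖a‖))))
    (ContinuousOn.circleIntegrable hρ.le
      ((Complex.continuous_re.comp_continuousOn hk).smul huc)) ?_
  intro x hx
  rw [abs_of_pos hρ] at hx
  have := le_re_herglotzRieszKernel hx hab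
  simp only [sub_zero] at this
  simp only [smul_eq_mul, Pi.smul_apply', Function.comp_apply, herglotzRieszKernel_def, sub_zero]
  exact mul_le_mul_of_nonneg_right this (h0 x hx)

theorem b5_factor_sq (R : ℝ) (b z : ℂ) :
    ‖(R : ℂ) ^ 2 - (starRingEnd ℂ) b * z‖ ^ 2 - R ^ 2 * ‖z - b‖ ^ 2
      = (R ^ 2 - ‖z‖ ^ 2) * (R ^ 2 - ‖b‖ ^ 2) := by
  simp only [← Complex.normSq_eq_norm_sq, Complex.normSq_apply, ← Complex.ofReal_pow,
    Complex.sub_re, Complex.sub_im, Complex.mul_re, Complex.mul_im, Complex.conj_re,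
    Complex.conj_im, Complex.ofReal_re, Complex.ofReal_im]
  ring

theorem b5_factor_le {R : ℝ} (hR : 0 < R) {b z : ℂ} (hb : ‖b‖ ≤ R) (hz : ‖z‖ ≤ R) :
    ‖z - b‖ ≤ ‖((R : ℂ) ^ 2 - (starRingEnd ℂ) b * z) / R‖ := by
  rw [norm_div, Complex.norm_real, Real.norm_eq_abs, abs_of_pos hR, le_div_iff₀ hR]
  have h := b5_factor_sq R b z
  have h1 : 0 ≤ R ^ 2 - ‖z‖ ^ 2 := by nlinarith [norm_nonneg z]
  have h2 : 0 ≤ R ^ 2 - ‖b‖ ^ 2 := by nlinarith [norm_nonneg b]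
  have h3 := mul_nonneg h1 h2
  exact (pow_le_pow_iff_left₀ (by positivity) (norm_nonneg _) two_ne_zero).1 (by nlinarith)

theorem b5_factor_eq {R : ℝ} (hR : 0 < R) {b z : ℂ} (hz : ‖z‖ = R) :
    ‖((R : ℂ) ^ 2 - (starRingEnd ℂ) b * z) / R‖ = ‖z - b‖ := by
  rw [norm_div, Complex.norm_real, Real.norm_eq_abs, abs_of_pos hR, div_eq_iff hR.ne']
  have h := b5_factor_sq R b z
  rw [hz, sub_self, zero_mul] at h
  exact (pow_left_inj₀ (norm_nonneg _) (by positivity) two_ne_zero).1 (by nlinarith)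

theorem b5_factor_ne {R : ℝ} (hR : 0 < R) {b z : ℂ} (hb : ‖b‖ < R) (hz : ‖z‖ < R) :
    ((R : ℂ) ^ 2 - (starRingEnd ℂ) b * z) / R ≠ 0 := by
  refine div_ne_zero ?_ (by exact_mod_cast hR.ne')
  intro h
  have h1 := b5_factor_sq R b z
  rw [h, norm_zero] at h1
  have h2 : 0 < R ^ 2 - ‖z‖ ^ 2 := by nlinarith [norm_nonneg z]
  have h3 : 0 < R ^ 2 - ‖b‖ ^ 2 := by nlinarith [norm_nonneg b]
  have h4 := mul_pos h2 h3
  have h5 : 0 ≤ R ^ 2 * ‖z - b‖ ^ 2 := by positivity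
  nlinarith

/-- Removing one zero. -/
theorem b5_extract {f : ℂ → ℂ} {K : Set ℂ} {b : ℂ} (hf : AnalyticOnNhd ℂ f K) (hb : b ∈ K)
    (hne : ¬ ∀ᶠ z in 𝓝 b, f z = 0) :
    ∃ (m : ℕ) (g : ℂ → ℂ), AnalyticOnNhd ℂ g K ∧ g b ≠ 0 ∧ ∀ z, f z = (z - b) ^ m * g z := by
  classical
  obtain ⟨m, g₀, hg₀, hg₀b, he⟩ :=
    (hf b hb).exists_eventuallyEq_pow_smul_nonzero_iff.2 hne
  refine ⟨m, fun z => if z = b then g₀ b else f z / (z - b) ^ m, ?_, by simpa using hg₀b, ?_⟩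
  · intro z hz
    by_cases hzb : z = b
    · subst hzb
      refine hg₀.congr ?_
      filter_upwards [he] with y hy
      by_cases hyz : y = z
      · simp [hyz]
      · rw [if_neg hyz, hy, smul_eq_mul,
          mul_div_cancel_left₀ _ (pow_ne_zero m (sub_ne_zero.2 hyz))]
    · have h1 : AnalyticAt ℂ (fun y => f y / (y - b) ^ m) z :=
        (hf z hz).div ((analyticAt_id.sub analyticAt_const).pow m)
          (pow_ne_zero m (sub_ne_zero.2 hzb))
      refine h1.congr ?_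
      filter_upwards [isOpen_ne.mem_nhds hzb] with y hy
      rw [if_neg hy]
  · intro z
    by_cases hzb : z = b
    · subst hzb
      have := he.self_of_nhds
      simpa using this
    · simp only [if_neg hzb]
      rw [mul_div_cancel₀ _ (pow_ne_zero m (sub_ne_zero.2 hzb))]

/-- Dividing by the Blaschke product. -/
theorem b5_blaschke {R : ℝ} (hR : 0 < R) (S : Finset ℂ) : ∀ f : ℂ → ℂ,
    AnalyticOnNhd ℂ f (closedBall 0 R) → (∀ z ∈ ball (0 : ℂ) R, f z = 0 → z ∈ S) →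
    ∃ h : ℂ → ℂ, AnalyticOnNhd ℂ h (closedBall 0 R) ∧ (∀ z ∈ ball (0 : ℂ) R, h z ≠ 0) ∧
      (∀ z ∈ sphere (0 : ℂ) R, ‖h z‖ = ‖f z‖) ∧ ∀ z ∈ ball (0 : ℂ) R, ‖f z‖ ≤ ‖h z‖ := by
  classical
  induction S using Finset.induction_on with
  | empty =>
    intro f hf hz
    exact ⟨f, hf, fun z hz' h0 => by simpa using hz z hz' h0, fun _ _ => rfl, fun _ _ => le_rfl⟩
  | insert b S _ ih =>
    intro f hf hz
    by_cases hb : b ∈ ball (0 : ℂ) R
    swap
    · refine ih f hf fun z hz' h0 => ?_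
      rcases Finset.mem_insert.1 (hz z hz' h0) with rfl | h
      · exact absurd hz' hb
      · exact h
    have hne : ¬ ∀ᶠ z in 𝓝 b, f z = 0 := by
      intro hev
      have h1 : ∀ᶠ z in 𝓝 b, z ∈ ((insert b S : Finset ℂ) : Set ℂ) := by
        filter_upwards [hev, isOpen_ball.mem_nhds hb] with z h0 hz'
        exact hz z hz' h0
      exact (infinite_of_mem_nhds b h1) (Finset.finite_toSet _)
    obtain ⟨m, g, hg, hgb, hfg⟩ := b5_extract hf (ball_subset_closedBall hb) hne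
    have hb' : ‖b‖ < R := by simpa using hb
    obtain ⟨h, hh, hh0, hs, hle⟩ := ih
      (fun z => (((R : ℂ) ^ 2 - (starRingEnd ℂ) b * z) / R) ^ m * g z)
      (fun z hz' => (((analyticAt_const.sub (analyticAt_const.mul analyticAt_id)).div
        analyticAt_const (by exact_mod_cast hR.ne')).pow m).mul (hg z hz'))
      (by
        intro z hz' h0
        have hz'' : ‖z‖ < R := by simpa using hz'
        have hg0 : g z = 0 :=
          (mul_eq_zero.1 h0).resolve_left (pow_ne_zero m (b5_factor_ne hR hb' hz''))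
        rcases Finset.mem_insert.1 (hz z hz' (by rw [hfg, hg0, mul_zero])) with rfl | h
        · exact absurd hg0 hgb
        · exact h)
    refine ⟨h, hh, hh0, fun z hz' => ?_, fun z hz' => le_trans ?_ (hle z hz')⟩
    · rw [hs z hz', hfg z, norm_mul, norm_mul, norm_pow, norm_pow,
        b5_factor_eq hR (by simpa using hz')]
    · have hz'' : ‖z‖ < R := by simpa using hz'
      rw [hfg z, norm_mul, norm_mul, norm_pow, norm_pow]
      exact mul_le_mul_of_nonneg_right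
        (pow_le_pow_left₀ (norm_nonneg _) (b5_factor_le hR hb'.le hz''.le) m) (norm_nonneg _)

theorem b5_finite_zeros {f : ℂ → ℂ} {R : ℝ} {a : ℂ} (hf : AnalyticOnNhd ℂ f (closedBall 0 R))
    (ha : a ∈ closedBall (0 : ℂ) R) (hfa : f a ≠ 0) :
    {z ∈ closedBall (0 : ℂ) R | f z = 0}.Finite := by
  by_contra hinf
  obtain ⟨x, hx, hacc⟩ := (Set.not_finite.1 hinf).exists_accPt_of_subset_isCompact
    (isCompact_closedBall (0 : ℂ) R) (fun z hz => hz.1)
  have hfr : ∃ᶠ z in 𝓝[≠] x, f z = 0 :=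
    (accPt_iff_frequently_nhdsNE.1 hacc).mono fun z hz => hz.2
  exact hfa (hf.eqOn_zero_of_preconnected_of_frequently_eq_zero
    (convex_closedBall (0 : ℂ) R).isPreconnected hx hfr ha)

/-- The division estimate in logarithmic form, for a smaller radius. -/
theorem b5_log {f w : ℂ → ℂ} {ρ R : ℝ} {a : ℂ} (ha : ‖a‖ < ρ) (hρ : ρ < R)
    (hf : AnalyticOnNhd ℂ f (closedBall 0 R)) (hw : AnalyticOnNhd ℂ w (closedBall 0 R))
    (h1 : ∀ z ∈ closedBall (0 : ℂ) R, ‖f z‖ ≤ 1)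
    (h2 : ∀ z ∈ closedBall (0 : ℂ) R, ‖f z * w z‖ ≤ 1) (hfa : f a ≠ 0) (hw0 : w 0 ≠ 0) :
    (ρ - ‖a‖) / (ρ + ‖a‖) * Real.log ‖w 0‖ ≤ - Real.log ‖f a‖ := by
  have hρ0 : 0 < ρ := (norm_nonneg a).trans_lt ha
  have hR : 0 < R := hρ0.trans hρ
  have haR : a ∈ ball (0 : ℂ) R := by simpa using ha.trans hρ
  have hfin := b5_finite_zeros hf (ball_subset_closedBall haR) hfa
  obtain ⟨h, hh, hh0, hs, hle⟩ := b5_blaschke hR hfin.toFinset f hf
    (fun z hz h0 => hfin.mem_toFinset.2 ⟨ball_subset_closedBall hz, h0⟩)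
  have hmax : ∀ g : ℂ → ℂ, AnalyticOnNhd ℂ g (closedBall 0 R) →
      (∀ z ∈ sphere (0 : ℂ) R, ‖g z‖ ≤ 1) → ∀ z ∈ closedBall (0 : ℂ) R, ‖g z‖ ≤ 1 := by
    intro g hg hb z hz
    have hd : DiffContOnCl ℂ g (ball 0 R) := by
      refine DifferentiableOn.diffContOnCl ?_
      rw [closure_ball _ hR.ne']
      exact hg.differentiableOn
    refine Complex.norm_le_of_forall_mem_frontier_norm_le isBounded_ball hd ?_ ?_
    · rwa [frontier_ball _ hR.ne']
    · rwa [closure_ball _ hR.ne']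
  have hh1 := hmax h hh fun z hz => (hs z hz).trans_le (h1 z (sphere_subset_closedBall hz))
  have hh2 := hmax (fun z => h z * w z) (hh.mul hw) (fun z hz => by
    have := h2 z (sphere_subset_closedBall hz)
    rwa [norm_mul, ← hs z hz, ← norm_mul] at this) 0 (mem_closedBall_self hR.le)
  have hsub : closedBall (0 : ℂ) ρ ⊆ ball 0 R := closedBall_subset_ball hρ
  have hharm : InnerProductSpace.HarmonicOnNhd (-(fun z => Real.log ‖h z‖)) (closedBall 0 ρ) :=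
    fun z hz => ((hh z (ball_subset_closedBall (hsub hz))).harmonicAt_log_norm
      (hh0 z (hsub hz))).neg
  have hH := b5_harnack ha hharm (fun z hz => by
    have hz' := hsub (sphere_subset_closedBall hz)
    simp only [Pi.neg_apply, Left.nonneg_neg_iff]
    exact Real.log_nonpos (norm_nonneg _) (hh1 z (ball_subset_closedBall hz')))
  simp only [Pi.neg_apply] at hH
  have h00 : 0 < ‖h 0‖ := norm_pos_iff.2 (hh0 0 (mem_ball_self hR))
  have hw0' : 0 < ‖w 0‖ := norm_pos_iff.2 hw0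
  have e1 : Real.log ‖w 0‖ ≤ - Real.log ‖h 0‖ := by
    have := Real.log_nonpos (norm_nonneg _) hh2
    rw [norm_mul, Real.log_mul h00.ne' hw0'.ne'] at this
    linarith
  have e2 : Real.log ‖f a‖ ≤ Real.log ‖h a‖ :=
    Real.log_le_log (norm_pos_iff.2 hfa) (hle a haR)
  have hk : 0 ≤ (ρ - ‖a‖) / (ρ + ‖a‖) :=
    div_nonneg (by linarith) (by linarith [norm_nonneg a])
  have := mul_le_mul_of_nonneg_left e1 hk
  linarith

/-- One variable division estimate. -/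
theorem div_disc {f w : ℂ → ℂ} {R σ : ℝ} {a : ℂ} (hσ : 0 < σ) (ha : ‖a‖ ≤ 2 / 3 * R)
    (hR : 0 < R) (hf : DiffContOnCl ℂ f (ball 0 R)) (hw : DiffContOnCl ℂ w (ball 0 R))
    (h1 : ∀ z ∈ closedBall (0 : ℂ) R, ‖f z‖ ≤ 1)
    (h2 : ∀ z ∈ closedBall (0 : ℂ) R, ‖f z * w z‖ ≤ 1) (hfa : σ ≤ ‖f a‖) :
    ‖w 0‖ ≤ σ ^ (-5 : ℝ) := by
  have hpos : 0 < σ ^ (-5 : ℝ) := Real.rpow_pos_of_pos hσ _
  by_cases hw0 : w 0 = 0
  · rw [hw0, norm_zero]; exact hpos.le
  have hfa0 : f a ≠ 0 := norm_pos_iff.1 (hσ.trans_le hfa)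
  have haR : ‖a‖ < R := by linarith
  have hl : ∀ ρ ∈ Ioo ‖a‖ R, (ρ - ‖a‖) / (ρ + ‖a‖) * Real.log ‖w 0‖ ≤ - Real.log σ := by
    intro ρ hρ
    have hsub : closedBall (0 : ℂ) ((ρ + R) / 2) ⊆ ball 0 R :=
      closedBall_subset_ball (by linarith [hρ.2])
    have := b5_log (R := (ρ + R) / 2) hρ.1 (by linarith [hρ.2])
      ((hf.differentiableOn.analyticOnNhd isOpen_ball).mono hsub)
      ((hw.differentiableOn.analyticOnNhd isOpen_ball).mono hsub)
      (fun z hz => h1 z (ball_subset_closedBall (hsub hz)))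
      (fun z hz => h2 z (ball_subset_closedBall (hsub hz))) hfa0 hw0
    have h3 := Real.log_le_log hσ hfa
    linarith
  have hc : ContinuousAt (fun ρ : ℝ => (ρ - ‖a‖) / (ρ + ‖a‖) * Real.log ‖w 0‖) R :=
    ((continuousAt_id.sub continuousAt_const).div (continuousAt_id.add continuousAt_const)
      (add_pos_of_pos_of_nonneg hR (norm_nonneg a)).ne').mul continuousAt_const
  have hlim : (R - ‖a‖) / (R + ‖a‖) * Real.log ‖w 0‖ ≤ - Real.log σ :=
    le_of_tendsto (hc.tendsto.mono_left (nhdsWithin_le_nhds (s := Iio R)))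
      (by filter_upwards [Ioo_mem_nhdsLT haR] with ρ hρ using hl ρ hρ)
  have hσ1 : σ ≤ 1 := hfa.trans (h1 a (by simpa using haR.le))
  have hlσ : Real.log σ ≤ 0 := Real.log_nonpos hσ.le hσ1
  have hw0' : 0 < ‖w 0‖ := norm_pos_iff.2 hw0
  rw [← Real.log_le_log_iff hw0' hpos, Real.log_rpow hσ]
  by_cases hlw : Real.log ‖w 0‖ ≤ 0
  · linarith
  have hk : 1 / 5 ≤ (R - ‖a‖) / (R + ‖a‖) := by
    rw [le_div_iff₀ (by linarith [norm_nonneg a])]
    linarith
  have := mul_le_mul_of_nonneg_right hk (not_le.1 hlw).le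
  linarith

theorem div_local {P : Type*} [NormedAddCommGroup P] [NormedSpace ℂ P] {f w : P → ℂ} {c a : P}
    {r σ : ℝ} (hσ : 0 < σ) (hf : DifferentiableOn ℂ f (ball c (5 * r)))
    (hw : DifferentiableOn ℂ w (ball c (5 * r))) (h1 : ∀ z ∈ ball c (5 * r), ‖f z‖ ≤ 1)
    (h2 : ∀ z ∈ ball c (5 * r), ‖f z * w z‖ ≤ 1) (ha : a ∈ ball c r) (hfa : σ ≤ ‖f a‖) :
    ∀ z ∈ ball c r, ‖w z‖ ≤ σ ^ (-5 : ℝ) := by
  intro z hz
  have hza : ‖a - z‖ < 2 * r := by
    have := dist_triangle_right a z c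
    rw [mem_ball] at ha hz
    rw [← dist_eq_norm]
    linarith
  have hr : 0 < r := by linarith [norm_nonneg (a - z)]
  have hmem : ∀ t ∈ closedBall (0 : ℂ) (3 / 2), z + t • (a - z) ∈ ball c (5 * r) := by
    intro t ht
    rw [mem_closedBall_zero_iff] at ht
    rw [mem_ball_iff_norm] at hz ⊢
    have e : z + t • (a - z) - c = (z - c) + t • (a - z) := by abel
    have h3 : ‖t • (a - z)‖ ≤ 3 / 2 * (2 * r) := by
      rw [norm_smul]
      exact mul_le_mul ht hza.le (norm_nonneg _) (by norm_num)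
    rw [e]
    linarith [norm_add_le (z - c) (t • (a - z))]
  have hd : ∀ g : P → ℂ, DifferentiableOn ℂ g (ball c (5 * r)) →
      DiffContOnCl ℂ (fun t : ℂ => g (z + t • (a - z))) (ball 0 (3 / 2)) := by
    intro g hg
    refine DifferentiableOn.diffContOnCl ?_
    rw [closure_ball _ (by norm_num)]
    exact hg.comp (f := fun t : ℂ => z + t • (a - z))
      ((differentiable_id.smul_const _).const_add z).differentiableOn hmem
  have := div_disc (f := fun t : ℂ => f (z + t • (a - z))) (w := fun t : ℂ => w (z + t • (a - z)))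
    (R := 3 / 2) (a := 1) hσ (by norm_num) (by norm_num) (hd f hf) (hd w hw)
    (fun t ht => h1 _ (hmem t ht)) (fun t ht => h2 _ (hmem t ht)) (by simpa using hfa)
  simpa using this

namespace BM

variable {N n : ℕ} {M : BM N n}

theorem div_global (ω : M.X) {C₀ : Set M.X} (hC₀ : IsCompact C₀) :
    ∃ t ∈ 𝓝 ω, ∃ C', IsCompact C' ∧ ∃ κ : ℝ, 0 < κ ∧ ∀ (f w : M.X → ℂ) (σ : ℝ), M.Hol f →
      M.Hol w → 0 < σ → σ ≤ 1 → (∀ y ∈ C', ‖f y‖ ≤ 1) → (∀ y ∈ C', ‖f y * w y‖ ≤ 1) →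
      (∃ x ∈ C₀, σ ≤ ‖f x‖) → ∀ y ∈ t, ‖w y‖ ≤ (σ / 2) ^ (-κ) := by
  obtain ⟨r, hr⟩ : ∃ r : ℝ, r = M.r ω / 6 := ⟨_, rfl⟩
  have hω := M.r_pos ω
  have hr0 : 0 < r := by rw [hr]; positivity
  have hr5 : 5 * r < M.r ω := by rw [hr]; linarith
  obtain ⟨C₁, hC₁, θ, hθ, -, H⟩ := power_small (M := M) (O := M.ψ ω '' ball 0 r) (C := C₀)
    (M.isOpen_image_ψ ω isOpen_ball (ball_subset_ball (by linarith)))
    ⟨_, mem_image_of_mem _ (mem_ball_self hr0)⟩ hC₀
  refine ⟨M.ψ ω '' ball 0 r, M.image_ball_mem_nhds ω hr0, C₁ ∪ M.ψ ω '' closedBall 0 (5 * r),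
    hC₁.union (M.isCompact_image_closedBall ω hr5), 5 / θ, by positivity, ?_⟩
  rintro f w σ hf hw hσ hσ1 h1 h2 ⟨x, hx, hfx⟩ y ⟨z, hz, rfl⟩
  have hσ2 : 0 < σ / 2 := by positivity
  obtain ⟨τ, hτ⟩ : ∃ τ : ℝ, τ = (σ / 2) ^ θ⁻¹ := ⟨_, rfl⟩
  have hτ0 : 0 < τ := by rw [hτ]; exact Real.rpow_pos_of_pos hσ2 _
  have hτ1 : τ ≤ 1 := by
    rw [hτ]; exact Real.rpow_le_one hσ2.le (by linarith) (by positivity)
  have hτθ : τ ^ θ = σ / 2 := by rw [hτ]; exact Real.rpow_inv_rpow hσ2.le hθ.ne'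
  have hex : ∃ a ∈ ball (0 : E n) r, τ ≤ ‖f (M.ψ ω a)‖ := by
    by_contra hno
    push Not at hno
    have := H f τ hf hτ0.le hτ1 (fun y hy => h1 y (Or.inl hy))
      (by rintro _ ⟨a, ha, rfl⟩; exact (hno a ha).le) x hx
    linarith
  obtain ⟨a, ha, hfa⟩ := hex
  have hsub : ball (0 : E n) (5 * r) ⊆ ball 0 (M.r ω) := ball_subset_ball hr5.le
  have := div_local (f := f ∘ M.ψ ω) (w := w ∘ M.ψ ω) (c := 0) (a := a) (r := r) hτ0
    ((hf.analyticOnNhd ω).differentiableOn.mono hsub)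
    ((hw.analyticOnNhd ω).differentiableOn.mono hsub)
    (fun v hv => h1 _ (Or.inr (mem_image_of_mem _ (ball_subset_closedBall hv))))
    (fun v hv => h2 _ (Or.inr (mem_image_of_mem _ (ball_subset_closedBall hv)))) ha hfa z hz
  have e : τ ^ (-5 : ℝ) = (σ / 2) ^ (-(5 / θ)) := by
    rw [hτ, ← Real.rpow_mul hσ2.le]
    congr 1
    field_simp
  rw [← e]
  exact this

end BM

end Vale.Agent.P274
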