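import Vale.Agent.P274.B2

/-! Riemann extension theorem. -/

open Metric Set Filter Topology

namespace Vale.Agent.P274

theorem b6_isolated {ψ : ℂ → ℂ} {ρ : ℝ} (hψ : DifferentiableOn ℂ ψ (ball 0 ρ)) {a z : ℂ}
    (ha : a ∈ ball (0 : ℂ) ρ) (h0 : ψ a ≠ 0) (hz : z ∈ ball (0 : ℂ) ρ) :
    ∀ᶠ ζ in 𝓝[≠] z, ψ ζ ≠ 0 := by
  have han := hψ.analyticOnNhd isOpen_ball
  rcases (han z hz).eventually_eq_zero_or_eventually_ne_zero with h | h
  · exact absurd (han.eqOn_zero_of_preconnected_of_eventuallyEq_zero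
      (convex_ball 0 ρ).isPreconnected hz h ha) h0
  · exact h

/-- mean value property across removable singularities -/
theorem b6_mean {φ ψ : ℂ → ℂ} {ρ s K : ℝ} (hs : 0 < s) (hsρ : s < ρ)
    (hψ : DifferentiableOn ℂ ψ (ball 0 ρ)) (h0 : ψ 0 ≠ 0)
    (hφ : ∀ ζ ∈ ball (0 : ℂ) ρ, ψ ζ ≠ 0 → DifferentiableAt ℂ φ ζ ∧ ‖φ ζ‖ ≤ K)
    (hS : ∀ ζ ∈ sphere (0 : ℂ) s, ψ ζ ≠ 0) : Real.circleAverage φ 0 s = φ 0 := by
  classical
  have hb0 : (0 : ℂ) ∈ ball (0 : ℂ) ρ := mem_ball_self (hs.trans hsρ)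
  set Φ : ℂ → ℂ := fun ζ => if ψ ζ = 0 then limUnder (𝓝[≠] ζ) φ else φ ζ with hΦ
  have hd : ∀ z ∈ ball (0 : ℂ) ρ, DifferentiableAt ℂ Φ z := by
    intro z hz
    have hzn := isOpen_ball.mem_nhds hz
    by_cases h : ψ z = 0
    · have h1 : ∀ᶠ ζ in 𝓝 z, ζ ∈ ball (0 : ℂ) ρ ∧ (ζ ≠ z → ψ ζ ≠ 0) :=
        (show ∀ᶠ ζ in 𝓝 z, ζ ∈ ball (0 : ℂ) ρ from hzn).and
          (eventually_nhdsWithin_iff.1 (b6_isolated hψ hb0 h0 hz))
      have h2 := Complex.differentiableOn_update_limUnder_of_bddAbove (f := φ) h1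
        (fun ζ hζ => (hφ ζ hζ.1.1 (hζ.1.2 hζ.2)).1.differentiableWithinAt)
        ⟨K, by
          rintro _ ⟨ζ, hζ, rfl⟩
          exact (hφ ζ hζ.1.1 (hζ.1.2 hζ.2)).2⟩
      refine (h2.differentiableAt h1).congr_of_eventuallyEq ?_
      filter_upwards [h1] with ζ hζ
      by_cases e : ζ = z
      · subst e
        simp only [hΦ, if_pos h, Function.update_self]
      · simp only [hΦ, if_neg (hζ.2 e), Function.update_of_ne e]
    · refine (hφ z hz h).1.congr_of_eventuallyEq ?_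
      filter_upwards [(hψ.differentiableAt hzn).continuousAt.eventually_ne h] with ζ hζ
      simp only [hΦ, if_neg hζ]
  have h3 : Real.circleAverage Φ 0 s = Φ 0 := by
    refine DiffContOnCl.circleAverage (DifferentiableOn.diffContOnCl fun z hz => ?_)
    rw [abs_of_pos hs] at hz
    exact (hd z (closedBall_subset_ball hsρ (closure_ball_subset_closedBall hz))
      ).differentiableWithinAt
  have h4 : Real.circleAverage φ 0 s = Real.circleAverage Φ 0 s := by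
    refine Real.circleAverage_congr_sphere fun z hz => ?_
    rw [abs_of_pos hs] at hz
    simp only [hΦ, if_neg (hS z hz)]
  rw [h4, h3]
  simp only [hΦ, if_neg h0]

/-- circle means depend holomorphically on the centre -/
theorem b6_diff {P : Type*} [NormedAddCommGroup P] [NormedSpace ℂ P] [FiniteDimensional ℂ P]
    {f : P → ℂ} {U T W : Set P} (hU : IsOpen U) (hf : DifferentiableOn ℂ f U) (hT : IsCompact T)
    (hTU : T ⊆ U) (hW : IsOpen W) {v : P} {s : ℝ}
    (h : ∀ w ∈ W, ∀ θ : ℝ, w + circleMap 0 s θ • v ∈ T) :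
    DifferentiableOn ℂ (fun w => Real.circleAverage (fun ζ : ℂ => f (w + ζ • v)) 0 s) W := by
  have han := P278F.analyticOnNhd_of_differentiableOn hU hf
  have hc1 : ContinuousOn f T := hf.continuousOn.mono hTU
  have hc2 : ContinuousOn (fderiv ℂ f) T := han.fderiv.continuousOn.mono hTU
  obtain ⟨C, hC⟩ := hT.exists_bound_of_continuousOn hc2
  have hm : ∀ w : P, Continuous fun θ : ℝ => w + circleMap 0 s θ • v := fun w =>
    continuous_const.add ((continuous_circleMap 0 s).smul continuous_const)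
  intro w hw
  have hwn := hW.mem_nhds hw
  have key := intervalIntegral.hasFDerivAt_integral_of_dominated_of_fderiv_le (𝕜 := ℂ)
    (μ := MeasureTheory.volume) (a := 0) (b := 2 * Real.pi) (bound := fun _ => C)
    (F := fun (x : P) (θ : ℝ) => f (x + circleMap 0 s θ • v))
    (F' := fun (x : P) (θ : ℝ) => fderiv ℂ f (x + circleMap 0 s θ • v)) hwn
    (by
      filter_upwards [hwn] with x hx
      exact (hc1.comp_continuous (hm x) (h x hx)).aestronglyMeasurable)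
    ((hc1.comp_continuous (hm w) (h w hw)).intervalIntegrable _ _)
    (hc2.comp_continuous (hm w) (h w hw)).aestronglyMeasurable
    (Eventually.of_forall fun θ _ x hx => hC _ (h x hx θ))
    intervalIntegrable_const
    (Eventually.of_forall fun θ _ x hx => by
      have h1 := (hf.differentiableAt (hU.mem_nhds (hTU (h x hx θ)))).hasFDerivAt
      simpa [Function.comp_def] using h1.comp x ((hasFDerivAt_id x).add_const (circleMap 0 s θ • v)))
  exact (key.differentiableAt.const_smul (2 * Real.pi)⁻¹).differentiableWithinAt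

theorem riemann_local {P : Type*} [NormedAddCommGroup P] [NormedSpace ℂ P]
    [FiniteDimensional ℂ P] {D f : P → ℂ} {c : P} {R K : ℝ} (hR : 0 < R)
    (hD : DifferentiableOn ℂ D (ball c R)) (hne : ∃ w ∈ ball c R, D w ≠ 0)
    (hf : ∀ w ∈ ball c R, D w ≠ 0 → DifferentiableAt ℂ f w ∧ ‖f w‖ ≤ K) :
    ∃ r, 0 < r ∧ r ≤ R ∧ ∃ g : P → ℂ, DifferentiableOn ℂ g (ball c r) ∧
      ∀ w ∈ ball c r, D w ≠ 0 → g w = f w := by
  have : ProperSpace P := FiniteDimensional.proper ℂ P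
  obtain ⟨w0, hw0, hD0⟩ := hne
  set v := w0 - c with hv
  have hvR : ‖v‖ < R := mem_ball_iff_norm.1 hw0
  have hv0 := norm_nonneg v
  have hline : ∀ w : P, Differentiable ℂ fun ζ : ℂ => w + ζ • v := fun w =>
    (differentiable_id.smul_const v).const_add w
  have hmem1 : ∀ ζ ∈ ball (0 : ℂ) (2 * R / (R + ‖v‖)), c + ζ • v ∈ ball c R := by
    intro ζ hζ
    rw [mem_ball_zero_iff, lt_div_iff₀ (by linarith)] at hζ
    rw [mem_ball_iff_norm, add_sub_cancel_left, norm_smul]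
    by_contra hcon
    have h1 := mul_le_mul_of_nonneg_left hvR.le (norm_nonneg ζ)
    linarith [not_lt.1 hcon]
  have hρ : 1 < 2 * R / (R + ‖v‖) := by
    rw [lt_div_iff₀ (by linarith)]
    linarith
  have hiso : ∀ᶠ ζ in 𝓝[≠] (0 : ℂ), D (c + ζ • v) ≠ 0 :=
    b6_isolated (ψ := fun ζ : ℂ => D (c + ζ • v)) (a := 1)
      (hD.comp (hline c).differentiableOn hmem1) (by simpa using hρ) (by simpa [hv] using hD0)
      (mem_ball_self (by linarith))
  obtain ⟨ε, hε, hεD⟩ := Metric.eventually_nhds_iff.1 (eventually_nhdsWithin_iff.1 hiso)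
  set s := min (ε / 2) (1 / 4) with hs
  have hs0 : 0 < s := lt_min (by linarith) (by norm_num)
  have hs1 : s < ε := (min_le_left _ _).trans_lt (by linarith)
  have hs2 : s ≤ 1 / 4 := min_le_right _ _
  have hmem2 : ∀ w ∈ ball c (R / 2), ∀ ζ ∈ ball (0 : ℂ) (2 * s), w + ζ • v ∈ ball c R := by
    intro w hw ζ hζ
    rw [mem_ball_zero_iff] at hζ
    rw [mem_ball_iff_norm] at hw ⊢
    have h1 : ‖w + ζ • v - c‖ ≤ ‖w - c‖ + ‖ζ‖ * ‖v‖ := by
      rw [add_sub_right_comm, ← norm_smul]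
      exact norm_add_le _ _
    have h2 : ‖ζ‖ * ‖v‖ ≤ 1 / 2 * R :=
      mul_le_mul (by linarith) hvR.le hv0 (by norm_num)
    linarith
  set U := ball c R ∩ D ⁻¹' {0}ᶜ with hU
  have hUo : IsOpen U := hD.continuousOn.isOpen_inter_preimage isOpen_ball isOpen_compl_singleton
  have hSc : IsCompact ((fun ζ : ℂ => c + ζ • v) '' sphere 0 s) :=
    (isCompact_sphere 0 s).image (hline c).continuous
  have hSU : (fun ζ : ℂ => c + ζ • v) '' sphere 0 s ⊆ U := by
    rintro _ ⟨ζ, hζ, rfl⟩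
    have h1 : ‖ζ‖ = s := mem_sphere_zero_iff_norm.1 hζ
    refine ⟨hmem2 c (mem_ball_self (by linarith)) ζ (mem_ball_zero_iff.2 (by linarith)), ?_⟩
    refine hεD (by rw [dist_zero_right]; linarith) ?_
    intro h0
    rw [mem_singleton_iff.1 h0, norm_zero] at h1
    linarith
  obtain ⟨δ, hδ, hδU⟩ := hSc.exists_cthickening_subset_open hUo hSU
  have hT : ∀ w ∈ ball c (min δ (R / 2)), ∀ ζ ∈ sphere (0 : ℂ) s,
      w + ζ • v ∈ cthickening δ ((fun ζ : ℂ => c + ζ • v) '' sphere 0 s) := by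
    intro w hw ζ hζ
    refine mem_cthickening_of_dist_le _ (c + ζ • v) _ _ ⟨ζ, hζ, rfl⟩ ?_
    rw [dist_add_right]
    exact (mem_ball.1 hw).le.trans (min_le_left _ _)
  refine ⟨min δ (R / 2), lt_min hδ (by linarith), (min_le_right _ _).trans (by linarith),
    fun w => Real.circleAverage (fun ζ : ℂ => f (w + ζ • v)) 0 s, ?_, fun w hw hDw => ?_⟩
  · exact b6_diff hUo (fun w hw => (hf w hw.1 hw.2).1.differentiableWithinAt) hSc.cthickening hδU
      isOpen_ball fun w hw θ => hT w hw _ (circleMap_mem_sphere 0 hs0.le θ)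
  · have hw' : w ∈ ball c (R / 2) := ball_subset_ball (min_le_right _ _) hw
    have h := b6_mean (φ := fun ζ : ℂ => f (w + ζ • v)) (ψ := fun ζ : ℂ => D (w + ζ • v))
      (ρ := 2 * s) (K := K) hs0 (by linarith)
      (hD.comp (hline w).differentiableOn (hmem2 w hw')) (by simpa using hDw)
      (fun ζ hζ h0 => ⟨(hf _ (hmem2 w hw' ζ hζ) h0).1.comp ζ (hline w ζ),
        (hf _ (hmem2 w hw' ζ hζ) h0).2⟩)
      (fun ζ hζ => (hδU (hT w hw ζ hζ)).2)
    simpa using h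

namespace BM

variable {N n : ℕ} {M : BM N n}

theorem b6_local {D f : M.X → ℂ} {K : ℝ} (hD : M.Hol D) (hne : ∃ x, D x ≠ 0)
    (hf : ∀ x, D x ≠ 0 → M.HolAt f x ∧ ‖f x‖ ≤ K) (x : M.X) :
    ∃ r, 0 < r ∧ ∃ g : E n → ℂ, DifferentiableOn ℂ g (ball 0 r) ∧
      ∀ w ∈ ball (0 : E n) r, Tendsto f (𝓝[{y | D y ≠ 0}] (M.ψ x w)) (𝓝 (g w)) := by
  obtain ⟨y, hy1, w0, hw0, rfl⟩ :=
    (hD.dense_ne_zero hne).inter_nhds_nonempty (M.image_ball_mem_nhds x (M.r_pos x))
  obtain ⟨r, hr, hrR, g, hg, hgf⟩ := riemann_local (D := D ∘ M.ψ x) (f := f ∘ M.ψ x) (K := K)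
    (M.r_pos x) (hD.analyticOnNhd x).differentiableOn ⟨w0, hw0, hy1⟩
    fun w hw h0 => ⟨((holAt_iff_chart hw).1 (hf _ h0).1).differentiableAt, (hf _ h0).2⟩
  refine ⟨r, hr, g, hg, fun w hw => ?_⟩
  have hw' : w ∈ ball (0 : E n) (M.r x) := ball_subset_ball hrR hw
  have hco : Tendsto (M.co x) (𝓝 (M.ψ x w)) (𝓝 w) := by
    have h := (M.continuous_co x).tendsto (M.ψ x w)
    rwa [M.co_ψ x hw'] at h
  have h1 : Tendsto (fun y => g (M.co x y)) (𝓝 (M.ψ x w)) (𝓝 (g w)) :=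
    (hg.differentiableAt (isOpen_ball.mem_nhds hw)).continuousAt.tendsto.comp hco
  refine (h1.mono_left nhdsWithin_le_nhds).congr' ?_
  refine eventually_nhdsWithin_iff.2 ?_
  filter_upwards [M.ψ_co_eventually' x hw', hco.eventually (isOpen_ball.mem_nhds hw)]
    with y h2 h3 h4
  have h5 := hgf _ h3 (by rw [Function.comp_apply, h2.1]; exact h4)
  rwa [Function.comp_apply, h2.1] at h5

theorem riemann {D f : M.X → ℂ} {K : ℝ} (hD : M.Hol D) (hne : ∃ x, D x ≠ 0)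
    (hf : ∀ x, D x ≠ 0 → M.HolAt f x ∧ ‖f x‖ ≤ K) :
    ∃ g : M.X → ℂ, M.Hol g ∧ (∀ x, ‖g x‖ ≤ K) ∧ ∀ x, D x ≠ 0 → g x = f x := by
  have hnb : ∀ x, (𝓝[{y | D y ≠ 0}] x).NeBot := fun x =>
    mem_closure_iff_nhdsWithin_neBot.1 (hD.dense_ne_zero hne x)
  refine ⟨fun x => limUnder (𝓝[{y | D y ≠ 0}] x) f, fun x => ?_, fun x => ?_, fun x hx => ?_⟩
  · obtain ⟨r, hr, g, hg, ht⟩ := b6_local hD hne hf x
    refine (P278F.analyticOnNhd_of_differentiableOn isOpen_ball hg 0 (mem_ball_self hr)).congr ?_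
    filter_upwards [ball_mem_nhds (0 : E n) hr] with w hw
    have := hnb (M.ψ x w)
    exact (ht w hw).limUnder_eq.symm
  · obtain ⟨r, hr, g, -, ht⟩ := b6_local hD hne hf x
    have h := ht 0 (mem_ball_self hr)
    rw [M.ψ_zero] at h
    have := hnb x
    simp only [h.limUnder_eq]
    exact le_of_tendsto h.norm (eventually_nhdsWithin_of_forall fun y hy => (hf y hy).2)
  · have := hnb x
    exact ((hf x hx).1.continuousAt.tendsto.mono_left nhdsWithin_le_nhds).limUnder_eq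

end BM

end Vale.Agent.P274
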