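import Vale.Agent.P274.Defs

/-! Circle means. -/

open Metric Set Filter Topology MeasureTheory

namespace Vale.Agent.P274

/-- The mean value of `g` over the circle. -/
noncomputable def cmean (g : ℝ → ℝ) : ℝ := (2 * Real.pi)⁻¹ * ∫ θ in (0 : ℝ)..2 * Real.pi, g θ

/-- The point `exp (i θ)`. -/
noncomputable def ce (θ : ℝ) : ℂ := Complex.exp (θ * Complex.I)

theorem norm_ce (θ : ℝ) : ‖ce θ‖ = 1 := Complex.norm_exp_ofReal_mul_I θ

theorem continuous_ce : Continuous ce := by
  unfold ce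
  fun_prop

theorem exists_ce {ζ : ℂ} (h : ‖ζ‖ = 1) : ∃ θ ∈ Icc (0 : ℝ) (2 * Real.pi), ce θ = ζ := by
  have h1 : ce ζ.arg = ζ := by
    have := Complex.norm_mul_exp_arg_mul_I ζ
    rwa [h, Complex.ofReal_one, one_mul] at this
  have h2 := Complex.neg_pi_lt_arg ζ
  have h3 := Complex.arg_le_pi ζ
  have h4 := Real.pi_pos
  rcases le_or_gt 0 ζ.arg with h0 | h0
  · exact ⟨ζ.arg, ⟨h0, by linarith⟩, h1⟩
  · refine ⟨ζ.arg + 2 * Real.pi, ⟨by linarith, by linarith⟩, Eq.trans ?_ h1⟩
    unfold ce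
    push_cast
    rw [add_mul, Complex.exp_add, Complex.exp_two_pi_mul_I, mul_one]

theorem cmean_const (a : ℝ) : cmean (fun _ => a) = a := by
  have := Real.pi_pos
  simp only [cmean, intervalIntegral.integral_const, sub_zero, smul_eq_mul]
  field_simp

theorem cmean_add {f g : ℝ → ℝ} (hf : Continuous f) (hg : Continuous g) :
    cmean (fun θ => f θ + g θ) = cmean f + cmean g := by
  simp only [cmean]
  rw [intervalIntegral.integral_add (hf.intervalIntegrable _ _) (hg.intervalIntegrable _ _), mul_add]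

theorem cmean_const_mul (a : ℝ) (f : ℝ → ℝ) : cmean (fun θ => a * f θ) = a * cmean f := by
  simp only [cmean, intervalIntegral.integral_const_mul]
  ring

theorem cmean_mono {f g : ℝ → ℝ} (hf : Continuous f) (hg : Continuous g)
    (h : ∀ θ ∈ Icc (0 : ℝ) (2 * Real.pi), f θ ≤ g θ) : cmean f ≤ cmean g := by
  have := Real.pi_pos
  exact mul_le_mul_of_nonneg_left (intervalIntegral.integral_mono_on (by positivity)
    (hf.intervalIntegrable _ _) (hg.intervalIntegrable _ _) h) (by positivity)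

theorem b7_cmean_re {F : ℂ → ℂ} (hF : DiffContOnCl ℂ F (ball 0 1)) :
    cmean (fun θ => (F (ce θ)).re) = (F 0).re := by
  have h1 : Real.circleAverage F 0 1 = F 0 := DiffContOnCl.circleAverage (by rwa [abs_one])
  have h2 : CircleIntegrable F 0 1 := ContinuousOn.circleIntegrable zero_le_one
    (hF.continuousOn_ball.mono sphere_subset_closedBall)
  have h3 := Complex.reCLM.circleAverage_comp_comm h2
  rw [h1] at h3
  refine Eq.trans ?_ h3
  simp [cmean, Real.circleAverage_def, circleMap, ce]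

theorem b7_span {p : C(AddCircle (2 * Real.pi), ℂ)}
    (hp : p ∈ Submodule.span ℂ (range (@fourier (2 * Real.pi)))) (c : ℂ) :
    ∃ h : ℂ → ℂ, Differentiable ℂ h ∧ ∀ θ : ℝ, (h (ce θ)).re = (c * p θ).re := by
  have hk : ∀ (k : ℕ) (θ : ℝ), fourier k (θ : AddCircle (2 * Real.pi)) = ce θ ^ k := by
    intro k θ
    have : (Real.pi : ℂ) ≠ 0 := Complex.ofReal_ne_zero.2 Real.pi_ne_zero
    rw [fourier_coe_apply, ce, ← Complex.exp_nat_mul]
    congr 1
    push_cast
    field_simp
  induction hp using Submodule.span_induction generalizing c with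
  | mem p hp =>
    obtain ⟨n, rfl⟩ := hp
    obtain ⟨k, rfl | rfl⟩ := n.eq_nat_or_neg
    · exact ⟨fun z => c * z ^ k, by fun_prop, fun θ => by rw [hk]⟩
    · refine ⟨fun z => (starRingEnd ℂ) c * z ^ k, by fun_prop, fun θ => ?_⟩
      rw [fourier_neg, hk]
      simp only [Complex.mul_re, Complex.conj_re, Complex.conj_im]
      ring
  | zero => exact ⟨fun _ => 0, by fun_prop, fun θ => by simp⟩
  | add p q _ _ ihp ihq =>
    obtain ⟨h1, d1, e1⟩ := ihp c
    obtain ⟨h2, d2, e2⟩ := ihq c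
    refine ⟨fun z => h1 z + h2 z, d1.add d2, fun θ => ?_⟩
    rw [Complex.add_re, e1, e2, ContinuousMap.add_apply, mul_add, Complex.add_re]
  | smul a p _ ihp =>
    obtain ⟨h1, d1, e1⟩ := ihp (c * a)
    refine ⟨h1, d1, fun θ => ?_⟩
    rw [e1, ContinuousMap.smul_apply, smul_eq_mul, mul_assoc]

/-- Approximation of a continuous function on the circle by real parts of entire functions. -/
theorem exists_entire_approx {g : ℝ → ℝ} (hg : Continuous g) (hp : g 0 = g (2 * Real.pi))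
    {η : ℝ} (hη : 0 < η) : ∃ h : ℂ → ℂ, Differentiable ℂ h ∧
      (∀ θ ∈ Icc (0 : ℝ) (2 * Real.pi), |(h (ce θ)).re - g θ| < η) ∧
      |(h 0).re - cmean g| ≤ η := by
  have hpi := Real.two_pi_pos
  have : Fact (0 < 2 * Real.pi) := ⟨hpi⟩
  let G : C(AddCircle (2 * Real.pi), ℂ) := ⟨AddCircle.liftIco (2 * Real.pi) 0 fun θ => (g θ : ℂ),
    AddCircle.liftIco_zero_continuous (by rw [hp])
      (Complex.continuous_ofReal.comp hg).continuousOn⟩
  have hG : ∀ θ ∈ Icc (0 : ℝ) (2 * Real.pi), G θ = g θ := by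
    intro θ hθ
    rcases hθ.2.eq_or_lt with e | e
    · rw [e, AddCircle.coe_period, ← hp]
      exact AddCircle.liftIco_zero_coe_apply (f := fun θ => (g θ : ℂ)) ⟨le_rfl, hpi⟩
    · exact AddCircle.liftIco_zero_coe_apply (f := fun θ => (g θ : ℂ)) ⟨hθ.1, e⟩
  have h1 : G ∈ closure (Submodule.span ℂ (range (@fourier (2 * Real.pi))) :
      Set C(AddCircle (2 * Real.pi), ℂ)) := by
    rw [← Submodule.topologicalClosure_coe, span_fourier_closure_eq_top]
    trivial
  obtain ⟨p, hp1, hp2⟩ := Metric.mem_closure_iff.1 h1 η hη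
  obtain ⟨h, hd, he⟩ := b7_span hp1 1
  have h2 : ∀ θ ∈ Icc (0 : ℝ) (2 * Real.pi), |(h (ce θ)).re - g θ| < η := by
    intro θ hθ
    have a1 := ContinuousMap.dist_apply_le_dist (f := G) (g := p) (θ : AddCircle (2 * Real.pi))
    rw [hG θ hθ, dist_comm, dist_eq_norm] at a1
    have a2 := Complex.abs_re_le_norm (p θ - g θ)
    rw [Complex.sub_re, Complex.ofReal_re] at a2
    rw [he, one_mul]
    linarith
  refine ⟨h, hd, h2, ?_⟩
  have hc : Continuous fun θ => (h (ce θ)).re :=
    Complex.continuous_re.comp (hd.continuous.comp continuous_ce)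
  have a1 := cmean_mono (g := fun θ => g θ + η) hc (by fun_prop) fun θ hθ => by
    linarith [(abs_lt.1 (h2 θ hθ)).2]
  have a2 := cmean_mono (g := fun θ => (h (ce θ)).re + η) hg (by fun_prop) fun θ hθ => by
    linarith [(abs_lt.1 (h2 θ hθ)).1]
  rw [cmean_add hg continuous_const, cmean_const, b7_cmean_re hd.diffContOnCl] at a1
  rw [cmean_add hc continuous_const, cmean_const, b7_cmean_re hd.diffContOnCl] at a2
  exact abs_le.2 ⟨by linarith, by linarith⟩

/-- Sub-mean value inequality for `log ‖f‖` against a continuous majorant. -/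
theorem norm_le_exp_cmean {f : ℂ → ℂ} (hf : DiffContOnCl ℂ f (ball 0 1)) {g : ℝ → ℝ}
    (hg : Continuous g) (hp : g 0 = g (2 * Real.pi))
    (h : ∀ θ ∈ Icc (0 : ℝ) (2 * Real.pi), ‖f (ce θ)‖ ≤ Real.exp (g θ)) :
    ‖f 0‖ ≤ Real.exp (cmean g) := by
  have key : ∀ η : ℝ, 0 < η → ‖f 0‖ ≤ Real.exp (cmean g + 2 * η) := by
    intro η hη
    obtain ⟨k, hd, h1, h2⟩ := exists_entire_approx hg hp hη
    have h3 : DiffContOnCl ℂ (fun z => f z • Complex.exp (-k z)) (ball 0 1) :=
      hf.smul hd.neg.cexp.diffContOnCl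
    have h4 := Complex.norm_le_of_forall_mem_frontier_norm_le isBounded_ball h3 (C := Real.exp η)
      (fun z hz => by
        rw [frontier_ball _ one_ne_zero, mem_sphere_zero_iff_norm] at hz
        obtain ⟨θ, hθ, rfl⟩ := exists_ce hz
        rw [norm_smul, Complex.norm_exp, Complex.neg_re]
        refine (mul_le_mul_of_nonneg_right (h θ hθ) (Real.exp_pos _).le).trans ?_
        rw [← Real.exp_add]
        exact Real.exp_le_exp.2 (by linarith [(abs_lt.1 (h1 θ hθ)).1]))
      (subset_closure (mem_ball_self one_pos))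
    rw [norm_smul, Complex.norm_exp, Complex.neg_re, Real.exp_neg,
      mul_inv_le_iff₀ (Real.exp_pos _), ← Real.exp_add] at h4
    exact h4.trans (Real.exp_le_exp.2 (by linarith [(abs_le.1 h2).2]))
  have hc : Continuous fun η : ℝ => Real.exp (cmean g + 2 * η) := by fun_prop
  have h5 := ge_of_tendsto ((hc.tendsto 0).mono_left (nhdsWithin_le_nhds (s := Ioi 0)))
    (eventually_nhdsWithin_of_forall key)
  simpa using h5

/-- The first two terms of Parseval's identity. -/
theorem sq_le_cmean {f : ℂ → ℂ} {R : ℝ} (hR : 1 < R) (hf : DifferentiableOn ℂ f (ball 0 R)) :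
    ‖f 0‖ ^ 2 + ‖deriv f 0‖ ^ 2 ≤ cmean (fun θ => ‖f (ce θ)‖ ^ 2) := by
  have h0 : ball (0 : ℂ) R ∈ 𝓝 (0 : ℂ) := ball_mem_nhds _ (by linarith)
  have hG : DifferentiableOn ℂ (dslope f 0) (ball 0 R) :=
    (Complex.differentiableOn_dslope h0).2 hf
  have hm : ∀ θ, ce θ ∈ ball (0 : ℂ) R := fun θ => by
    rwa [mem_ball_zero_iff, norm_ce]
  have hF : DifferentiableOn ℂ (fun z => ((‖f 0‖ ^ 2 - ‖deriv f 0‖ ^ 2 : ℝ) : ℂ) +
      2 * ((starRingEnd ℂ) (f 0) * (z * dslope f 0 z)) +
      2 * ((starRingEnd ℂ) (deriv f 0) * dslope f 0 z)) (ball 0 R) := by fun_prop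
  have h1 := b7_cmean_re (hF.diffContOnCl_ball (closedBall_subset_ball hR))
  have h2 := cmean_mono (Complex.continuous_re.comp (hF.continuousOn.comp_continuous continuous_ce hm))
    ((hf.continuousOn.comp_continuous continuous_ce hm).norm.pow 2) fun θ _ => by
      have a1 : f (ce θ) = f 0 + ce θ * dslope f 0 (ce θ) := by
        have := sub_smul_dslope f 0 (ce θ)
        rw [sub_zero, smul_eq_mul] at this
        rw [this]
        ring
      have a2 : ‖ce θ * dslope f 0 (ce θ)‖ ^ 2 = ‖dslope f 0 (ce θ)‖ ^ 2 := by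
        rw [norm_mul, norm_ce, one_mul]
      simp only [Function.comp_apply, Pi.pow_apply]
      rw [a1]
      generalize ce θ * dslope f 0 (ce θ) = u at a2 ⊢
      generalize dslope f 0 (ce θ) = v at a2 ⊢
      generalize deriv f 0 = b
      generalize f 0 = a
      simp only [Complex.sq_norm, Complex.normSq_apply] at a2 ⊢
      simp only [Complex.add_re, Complex.add_im, Complex.ofReal_re, Complex.mul_re, Complex.mul_im,
        Complex.conj_re, Complex.conj_im, Complex.re_ofNat, Complex.im_ofNat]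
      nlinarith [sq_nonneg (v.re - b.re), sq_nonneg (v.im - b.im)]
  refine le_trans (le_of_eq ?_) (h1 ▸ h2)
  rw [dslope_same, Complex.conj_mul']
  simp only [Complex.add_re, Complex.ofReal_re, zero_mul, mul_zero, Complex.zero_re, Complex.mul_re,
    Complex.re_ofNat, Complex.im_ofNat, ← Complex.ofReal_pow]
  ring

/-- A continuous cut-off supported in an open set of angles. -/
theorem exists_cutoff {O : Set ℝ} (hO : IsOpen O) {μ η : ℝ} (hμ : 0 ≤ μ) (hη : 0 < η)
    (h : volume (Icc (0 : ℝ) (2 * Real.pi) \ O) ≤ ENNReal.ofReal μ) :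
    ∃ χ : ℝ → ℝ, Continuous χ ∧ χ 0 = 0 ∧ χ (2 * Real.pi) = 0 ∧ (∀ θ, 0 ≤ χ θ ∧ χ θ ≤ 1) ∧
      (∀ θ, θ ∉ O → χ θ = 0) ∧ 1 - (μ + η) / (2 * Real.pi) ≤ cmean χ := by
  have hpi := Real.two_pi_pos
  have hA : IsOpen (O ∩ Ioo 0 (2 * Real.pi)) := hO.inter isOpen_Ioo
  have hA' : volume (O ∩ Ioo 0 (2 * Real.pi)) ≠ ⊤ :=
    ((measure_mono inter_subset_right).trans_lt measure_Ioo_lt_top).ne
  obtain ⟨K, hKA, hK, hv⟩ := hA.measurableSet.exists_isCompact_lt_add hA'
    (ENNReal.ofReal_pos.2 hη).ne'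
  obtain ⟨χ, h1, h0, -, h01⟩ := exists_continuous_one_zero_of_isCompact hK hA.isClosed_compl
    (disjoint_compl_right_iff_subset.2 hKA)
  refine ⟨χ, χ.continuous, h0 fun e => lt_irrefl _ e.2.1, h0 fun e => lt_irrefl _ e.2.2, h01,
    fun θ hθ => h0 fun e => hθ e.1, ?_⟩
  have a1 : ENNReal.ofReal (2 * Real.pi) ≤ volume K + ENNReal.ofReal η + ENNReal.ofReal μ := by
    calc ENNReal.ofReal (2 * Real.pi) = volume (Ioo 0 (2 * Real.pi)) := by simp
      _ ≤ volume (O ∩ Ioo 0 (2 * Real.pi) ∪ Icc 0 (2 * Real.pi) \ O) := measure_mono fun θ hθ => by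
          by_cases e : θ ∈ O
          · exact Or.inl ⟨e, hθ⟩
          · exact Or.inr ⟨Ioo_subset_Icc_self hθ, e⟩
      _ ≤ _ := (measure_union_le _ _).trans (add_le_add hv.le h)
  have a2 : 2 * Real.pi ≤ volume.real K + η + μ := by
    rw [← ENNReal.ofReal_toReal hK.measure_lt_top.ne, ← ENNReal.ofReal_add ENNReal.toReal_nonneg hη.le,
      ← ENNReal.ofReal_add (by positivity) hμ] at a1
    exact (ENNReal.ofReal_le_ofReal_iff (by positivity)).1 a1
  have a3 : volume.real K ≤ ∫ θ in (0 : ℝ)..2 * Real.pi, χ θ := by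
    rw [intervalIntegral.integral_of_le hpi.le]
    calc volume.real K = ∫ θ in K, χ θ := by
          rw [setIntegral_congr_fun hK.measurableSet h1]
          simp
      _ ≤ _ := setIntegral_mono_set (χ.continuous.integrableOn_Ioc)
          (Eventually.of_forall fun θ => (h01 θ).1)
          (LE.le.eventuallyLE fun θ hθ => Ioo_subset_Ioc_self (hKA hθ).2)
  rw [cmean, inv_mul_eq_div, le_div_iff₀ hpi, sub_mul, div_mul_cancel₀ _ hpi.ne']
  linarith

end Vale.Agent.P274
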