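import Vale.Agent.P274.B7

/-! Circles avoiding the sublevel sets of a real analytic function. -/

open Metric Set Filter Topology MeasureTheory

namespace Vale.Agent.P274

theorem b8_seq (k : ℕ) : ∀ {f : ℕ → ℝ → ℝ} {a b c ℓ γ : ℝ}, 0 < ℓ →
    (∀ j < k, ∀ t ∈ Icc a b, HasDerivAt (f j) (f (j + 1) t) t) →
    (∀ t ∈ Icc a b, c ≤ f k t) → ∀ {s : ℕ → ℝ}, (∀ i < 2 ^ k, s i ∈ Icc a b ∧ |f 0 (s i)| ≤ γ) →
    (∀ i, i + 1 < 2 ^ k → s i + ℓ ≤ s (i + 1)) → c * ℓ ^ k ≤ 2 ^ k * γ := by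
  induction k with
  | zero =>
    intro f a b c ℓ γ _ _ hc s hs _
    have h1 := hs 0 (by norm_num)
    have := (hc _ h1.1).trans ((le_abs_self _).trans h1.2)
    simpa using this
  | succ k ih =>
    intro f a b c ℓ γ hℓ hf hc s hs hg
    have key : ∀ i, ∃ ξ, i < 2 ^ k → ξ ∈ Ioo (s (2 * i)) (s (2 * i + 1)) ∧
        |f 1 ξ| ≤ 2 * γ / ℓ := by
      intro i
      by_cases hi : i < 2 ^ k
      · have h1 := hs (2 * i) (by omega)
        have h2 := hs (2 * i + 1) (by omega)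
        have h3 := hg (2 * i) (by omega)
        have hsub : Icc (s (2 * i)) (s (2 * i + 1)) ⊆ Icc a b := Icc_subset_Icc h1.1.1 h2.1.2
        obtain ⟨ξ, hξ, e⟩ := exists_hasDerivAt_eq_slope (f 0) (f 1)
          (show s (2 * i) < s (2 * i + 1) by linarith)
          (fun t ht => (hf 0 (by omega) t (hsub ht)).continuousAt.continuousWithinAt)
          (fun t ht => hf 0 (by omega) t (hsub (Ioo_subset_Icc_self ht)))
        refine ⟨ξ, fun _ => ⟨hξ, ?_⟩⟩
        have h4 := abs_sub (f 0 (s (2 * i + 1))) (f 0 (s (2 * i)))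
        have h5 := (abs_nonneg _).trans h1.2
        rw [e, abs_div, abs_of_pos (show 0 < s (2 * i + 1) - s (2 * i) by linarith)]
        exact div_le_div₀ (by linarith) (by linarith [h1.2, h2.2]) hℓ (by linarith)
      · exact ⟨0, fun h => absurd h hi⟩
    choose ξ hξ using key
    have := ih (f := fun j => f (j + 1)) (a := a) (b := b) (c := c) (γ := 2 * γ / ℓ) hℓ
      (fun j hj => hf (j + 1) (by omega)) hc (s := ξ) (fun i hi => ⟨?_, (hξ i hi).2⟩)
      (fun i hi => ?_)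
    · rw [← mul_div_assoc, le_div_iff₀ hℓ] at this
      calc c * ℓ ^ (k + 1) = c * ℓ ^ k * ℓ := by ring
        _ ≤ 2 ^ k * (2 * γ) := this
        _ = 2 ^ (k + 1) * γ := by ring
    · have h1 := hs (2 * i) (by omega)
      have h2 := hs (2 * i + 1) (by omega)
      exact ⟨h1.1.1.trans (hξ i hi).1.1.le, (hξ i hi).1.2.le.trans h2.1.2⟩
    · have h1 := (hξ i (by omega)).1.2
      have h2 := (hξ (i + 1) hi).1.1
      have h3 := hg (2 * i + 1) (by omega)
      rw [show 2 * (i + 1) = 2 * i + 1 + 1 by ring] at h2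
      linarith

/-- Among `2 ^ k` points with gaps at least `ℓ` there is one where `f` is not small, if the
`k`-th derivative is bounded below. -/
theorem divided_diff (k : ℕ) : ∀ {f : ℕ → ℝ → ℝ} {a b c ℓ γ : ℝ}, 0 < ℓ →
    (∀ j < k, ∀ t ∈ Icc a b, HasDerivAt (f j) (f (j + 1) t) t) →
    (∀ t ∈ Icc a b, c ≤ f k t) → ∀ {S : Finset ℝ}, (∀ s ∈ S, s ∈ Icc a b ∧ |f 0 s| ≤ γ) →
    (∀ s ∈ S, ∀ s' ∈ S, s < s' → s + ℓ ≤ s') → 2 ^ k ≤ S.card → c * ℓ ^ k ≤ 2 ^ k * γ := by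
  intro f a b c ℓ γ hℓ hf hc S hS hg hk
  refine b8_seq k hℓ hf hc
    (s := fun i => if h : i < S.card then S.orderEmbOfFin rfl ⟨i, h⟩ else 0)
    (fun i hi => ?_) (fun i hi => ?_)
  · rw [dif_pos (by omega)]
    exact hS _ (S.orderEmbOfFin_mem _ _)
  · rw [dif_pos (by omega), dif_pos (by omega)]
    exact hg _ (S.orderEmbOfFin_mem _ _) _ (S.orderEmbOfFin_mem _ _)
      ((S.orderEmbOfFin rfl).strictMono (Nat.lt_succ_self i))

variable {n : ℕ}

theorem b8_line {F : E n × E n → ℂ} {R ρ : ℝ} (hF : DifferentiableOn ℂ F (ball 0 R))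
    {p w : E n × E n} (h : ∀ t ∈ ball (0 : ℂ) ρ, p + t • w ∈ ball (0 : E n × E n) R) :
    DifferentiableOn ℂ (fun t : ℂ => F (p + t • w)) (ball 0 ρ) :=
  hF.comp (by fun_prop) h

/-- A direction of finite order of vanishing. -/
theorem exists_order {F : E n × E n → ℂ} {R : ℝ} (hR : 0 < R)
    (hF : DifferentiableOn ℂ F (ball 0 R)) (hne : ∃ᶠ x in 𝓝 (0 : E n), F (x, star x) ≠ 0) :
    ∃ (v : E n) (k : ℕ), ‖v‖ ≤ 1 ∧ iteratedDeriv k (fun t : ℂ => F (t • v, t • star v)) 0 ≠ 0 := by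
  obtain ⟨x, hx, hx'⟩ := (hne.and_eventually
    (ball_mem_nhds (0 : E n) (lt_min one_pos (half_pos hR)))).exists
  rw [dist_zero_right, lt_min_iff] at hx'
  by_contra hc
  push Not at hc
  have hd := b8_line (ρ := 2) hF (p := 0) (w := (x, star x)) fun t ht => by
    rw [mem_ball_zero_iff] at ht ⊢
    rw [zero_add, norm_smul, Prod.norm_mk, norm_star, max_self]
    nlinarith [norm_nonneg t, norm_nonneg x]
  simp only [zero_add, Prod.smul_mk] at hd
  have hs := Complex.hasSum_taylorSeries_on_ball hd (z := 1) (by simp)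
  simp only [hc x _ hx'.1.le, smul_zero, one_smul] at hs
  exact hx (hs.unique hasSum_zero)

/-- The direction of the circle. -/
noncomputable def b8w (v : E n) (θ : ℝ) : E n × E n := (ce θ • v, star (ce θ) • star v)

theorem b8w_norm {v : E n} (hv : ‖v‖ ≤ 1) (θ : ℝ) : ‖b8w v θ‖ ≤ 1 := by
  rw [b8w, Prod.norm_mk, norm_smul, norm_smul, norm_star, norm_star, norm_ce, one_mul, max_self]
  exact hv

theorem b8w_pt (x v : E n) (r θ : ℝ) :
    (x + (r * ce θ) • v, star (x + (r * ce θ) • v)) = (x, star x) + (r : ℂ) • b8w v θ := by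
  simp [b8w, smul_smul]

theorem b8_small {k : ℕ} (A : ContinuousMultilinearMap ℂ (fun _ : Fin k => E n × E n) ℂ)
    {v : E n} (hA : A (fun _ => (v, star v)) ≠ 0) {μ : ℝ} (hμ : 0 < μ) :
    ∃ c, 0 < c ∧ volume (Icc (0 : ℝ) (2 * Real.pi) ∩ {θ | ‖A fun _ => b8w v θ‖ ≤ c}) ≤
      ENNReal.ofReal μ := by
  have h1 : Differentiable ℂ fun z : ℂ => A fun _ =>
      (Complex.exp (z * Complex.I) • v, Complex.exp (-(z * Complex.I)) • star v) :=
    (A.contDiff (n := 1)).differentiable one_ne_zero |>.comp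
      (differentiable_pi.2 fun _ => by fun_prop)
  have h2 : AnalyticOnNhd ℝ (fun θ : ℝ => A fun _ => b8w v θ) univ := by
    intro θ _
    have h3 := ((h1.analyticAt θ).restrictScalars (𝕜 := ℝ)).comp_of_eq
      (Complex.ofRealCLM.analyticAt θ) rfl
    refine h3.congr (Eventually.of_forall fun t => ?_)
    simp [b8w, ce, ← Complex.exp_conj]
  have hc : Continuous fun θ : ℝ => A fun _ => b8w v θ :=
    continuous_iff_continuousAt.2 fun θ => (h2 θ trivial).continuousAt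
  have h4 : ∀ᵐ θ : ℝ, (A fun _ => b8w v θ) ≠ 0 := by
    rcases h2.eqOn_zero_or_eventually_ne_zero_of_preconnected isPreconnected_univ with h | h
    · have := h (mem_univ 0)
      simp only [b8w, ce, Complex.ofReal_zero, zero_mul, Complex.exp_zero, one_smul, star_one,
        Pi.zero_apply] at this
      exact absurd this hA
    · have := ae_restrict_le_codiscreteWithin (μ := volume) MeasurableSet.univ h
      rwa [Measure.restrict_univ] at this
  have h5 := tendsto_measure_iInter_atTop (μ := volume)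
    (s := fun m : ℕ => Icc (0 : ℝ) (2 * Real.pi) ∩ {θ | ‖A fun _ => b8w v θ‖ ≤ 1 / ((m : ℝ) + 1)})
    (fun m => (measurableSet_Icc.inter
      (isClosed_le hc.norm continuous_const).measurableSet).nullMeasurableSet)
    (fun m m' hm => inter_subset_inter_right _ fun θ hθ => by
      rw [mem_ofPred_eq] at hθ ⊢
      exact hθ.trans (Nat.one_div_le_one_div hm))
    ⟨0, ((measure_mono inter_subset_left).trans_lt measure_Icc_lt_top).ne⟩
  have h6 : volume (⋂ m : ℕ, Icc (0 : ℝ) (2 * Real.pi) ∩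
      {θ | ‖A fun _ => b8w v θ‖ ≤ 1 / ((m : ℝ) + 1)}) = 0 := by
    refine measure_mono_null (fun θ hθ => ?_) (ae_iff.1 h4)
    intro h
    obtain ⟨m, hm⟩ := exists_nat_one_div_lt (norm_pos_iff.2 h)
    exact absurd (mem_iInter.1 hθ m).2 (not_le.2 hm)
  rw [h6] at h5
  obtain ⟨m, hm⟩ := (h5.eventually (gt_mem_nhds (ENNReal.ofReal_pos.2 hμ))).exists
  exact ⟨1 / ((m : ℝ) + 1), by positivity, hm.le⟩

theorem b8_pigeon {T : ℕ → Set ℝ} {I : Set ℝ} (hI : MeasurableSet I) {M K : ℕ} (hM : 0 < M)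
    (hT : ∀ m < M, MeasurableSet (T m)) (hTI : ∀ m, T m ⊆ I)
    (hK : ∀ θ (S : Finset ℕ), (∀ m ∈ S, m < M ∧ θ ∈ T m) → S.card ≤ K) {a : ENNReal}
    (ha : K * volume I ≤ M * a) : ∃ m < M, volume (T m) ≤ a := by
  classical
  have h1 : ∑ m ∈ Finset.range M, volume (T m) ≤ ∑ _m ∈ Finset.range M, a := by
    rw [Finset.sum_const, Finset.card_range, nsmul_eq_mul]
    refine le_trans ?_ ha
    rw [Finset.sum_congr rfl fun m hm => (lintegral_indicator_one (μ := volume)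
      (hT m (Finset.mem_range.1 hm))).symm, ← lintegral_finsetSum _ fun m hm =>
        measurable_one.indicator (hT m (Finset.mem_range.1 hm)), ← lintegral_indicator_const hI]
    refine lintegral_mono fun θ => ?_
    by_cases hθ : θ ∈ I
    · rw [indicator_of_mem hθ]
      simp only [indicator_apply, Pi.one_apply, Finset.sum_boole, Nat.cast_le]
      exact hK θ _ fun m hm => ⟨Finset.mem_range.1 (Finset.mem_filter.1 hm).1,
        (Finset.mem_filter.1 hm).2⟩
    · rw [Finset.sum_eq_zero fun m _ => indicator_of_notMem (fun h => hθ (hTI m h)) _]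
      exact bot_le
  obtain ⟨m, hm, h⟩ := ENNReal.exists_le_of_sum_le ⟨0, Finset.mem_range.2 hM⟩ h1
  exact ⟨m, Finset.mem_range.1 hm, h⟩

theorem b8_close {F : E n × E n → ℂ} {R : ℝ} (hR : 0 < R)
    (hF : DifferentiableOn ℂ F (ball 0 R)) (k : ℕ) {ε : ℝ} (hε : 0 < ε) :
    ∃ r₁ δ : ℝ, 0 < r₁ ∧ 8 * r₁ ≤ R ∧ 0 < δ ∧ ∀ F' : E n × E n → ℂ,
      DifferentiableOn ℂ F' (ball 0 (R / 2)) → (∀ p ∈ ball (0 : E n × E n) (R / 2),
        ‖F' p - F p‖ ≤ δ) → ∀ q : E n × E n, ‖q‖ < 2 * r₁ →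
      ‖iteratedFDeriv ℂ k F' q - iteratedFDeriv ℂ k F 0‖ ≤ ε := by
  have hA := P278F.analyticOnNhd_of_differentiableOn isOpen_ball hF
  obtain ⟨ρ, hρ, h1⟩ := Metric.continuousAt_iff.1
    (hA.iteratedFDeriv k 0 (mem_ball_self hR)).continuousAt _ (half_pos hε)
  have hd : 0 < R / (4 * (k + 1)) := by positivity
  refine ⟨min (ρ / 2) (R / 8), ε / 2 / (2 / (R / (4 * (k + 1)))) ^ k, by positivity,
    by linarith [min_le_right (ρ / 2) (R / 8)], by positivity, fun F' hF' hδ q hq => ?_⟩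
  have q1 : ‖q‖ < ρ := by linarith [min_le_left (ρ / 2) (R / 8)]
  have q2 : ‖q‖ < R / 4 := by linarith [min_le_right (ρ / 2) (R / 8)]
  have hF2 := hF.mono (ball_subset_ball (half_le_self hR.le))
  have h2 := P278F.norm_iteratedFDeriv_le hd (hF'.sub hF2) hδ k q (by
    have : (k : ℝ) * (R / (4 * (k + 1))) ≤ R / 4 := by
      rw [← mul_div_assoc, div_le_div_iff₀ (by positivity) (by norm_num)]
      nlinarith
    rw [dist_zero_right]
    linarith)
  have hq' : q ∈ ball (0 : E n × E n) (R / 2) := mem_ball_zero_iff.2 (by linarith)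
  rw [iteratedFDeriv_sub_apply
    (P278F.analyticOnNhd_of_differentiableOn isOpen_ball hF' q hq').contDiffAt
    (P278F.analyticOnNhd_of_differentiableOn isOpen_ball hF2 q hq').contDiffAt,
    mul_div_cancel₀ _ (by positivity)] at h2
  have h3 := h1 (x := q) (by rwa [dist_zero_right])
  rw [dist_eq_norm] at h3
  have h4 := norm_sub_le_norm_sub_add_norm_sub (iteratedFDeriv ℂ k F' q) (iteratedFDeriv ℂ k F q)
    (iteratedFDeriv ℂ k F 0)
  linarith

/-- Few radii are bad in a good direction. -/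
theorem b8_ray {F' : E n × E n → ℂ} {R r₁ c γ ℓ : ℝ} (hr : 8 * r₁ ≤ R) (hc : 0 < c) (hℓ : 0 < ℓ)
    (hF' : DifferentiableOn ℂ F' (ball 0 (R / 2))) {k : ℕ}
    {A : ContinuousMultilinearMap ℂ (fun _ : Fin k => E n × E n) ℂ}
    (hA : ∀ q : E n × E n, ‖q‖ < 2 * r₁ → ‖iteratedFDeriv ℂ k F' q - A‖ ≤ c)
    {p w : E n × E n} (hp : ‖p‖ < r₁) (hw : ‖w‖ ≤ 1) (hP : 2 * c < ‖A fun _ => w‖)
    {S : Finset ℝ} (hS : ∀ s ∈ S, s ∈ Icc 0 r₁ ∧ ‖F' (p + (s : ℂ) • w)‖ ≤ γ)
    (hg : ∀ s ∈ S, ∀ s' ∈ S, s < s' → s + ℓ ≤ s') (hk : 2 ^ k ≤ S.card) :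
    c * ℓ ^ k ≤ 2 ^ k * γ := by
  have hr0 : 0 < r₁ := (norm_nonneg _).trans_lt hp
  have hn : ∀ t : ℂ, ‖p + t • w‖ ≤ ‖p‖ + ‖t‖ := fun t => (norm_add_le _ _).trans (by
    rw [norm_smul]
    nlinarith [norm_nonneg t])
  have hφ := (b8_line (ρ := 2 * r₁) hF' (p := p) (w := w) fun t ht => by
    rw [mem_ball_zero_iff] at ht ⊢
    linarith [hn t]).analyticOnNhd isOpen_ball
  set P := A fun _ => w with hPd
  have hP0 : 0 < ‖P‖ := by linarith
  set u : ℂ := star P / ‖P‖ with hu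
  have hu1 : ‖u‖ = 1 := by
    rw [hu, norm_div, norm_star, Complex.norm_real, norm_norm, div_self hP0.ne']
  have huP : (u * P).re = ‖P‖ := by
    have : u * P = (‖P‖ : ℝ) := by
      have h0 : ((‖P‖ : ℝ) : ℂ) ≠ 0 := by exact_mod_cast hP0.ne'
      rw [hu, div_mul_eq_mul_div, div_eq_iff h0, Complex.star_def, Complex.conj_mul']
      ring
    rw [this, Complex.ofReal_re]
  have hre : ∀ z : ℂ, |(u * z).re| ≤ ‖z‖ := fun z =>
    (Complex.abs_re_le_norm _).trans (by rw [norm_mul, hu1, one_mul])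
  have hnt : ∀ t ∈ Icc 0 r₁, ‖(t : ℂ)‖ ≤ r₁ := fun t ht => by
    rw [Complex.norm_real, Real.norm_of_nonneg ht.1]; exact ht.2
  refine divided_diff k (a := 0) (b := r₁)
    (f := fun j t => (u * iteratedDeriv j (fun t : ℂ => F' (p + t • w)) t).re) hℓ
    (fun j _ t ht => ?_) (fun t ht => ?_) (fun s hs => ⟨(hS s hs).1, ?_⟩) hg hk
  · have h1 := (hφ t (mem_ball_zero_iff.2 (by linarith [hnt t ht]))).iterated_deriv j
    rw [← iteratedDeriv_eq_iterate] at h1
    rw [iteratedDeriv_succ]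
    exact (h1.differentiableAt.hasDerivAt.const_mul u).real_of_complex
  · have hq : ‖p + (t : ℂ) • w‖ < 2 * r₁ := by linarith [hn t, hnt t ht]
    have h1 := congrFun (iteratedDeriv_comp_const_add k (fun t : ℂ => F' (p + t • w)) t) 0
    have h2 := P278F.iteratedDeriv_line (c := p + (t : ℂ) • w) (y := w) hr0
      (hF'.mono (ball_subset_ball' (by rw [dist_zero_right]; linarith))) k
    simp only [add_smul, ← add_assoc, add_zero] at h1
    rw [← h1, h2]
    have h3 := ((iteratedFDeriv ℂ k F' (p + (t : ℂ) • w) - A).unit_le_opNorm (m := fun _ => w)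
      ((pi_norm_le_iff_of_nonneg zero_le_one).2 fun _ => hw)).trans (hA _ hq)
    rw [sub_apply, ← hPd] at h3
    have h4 := (abs_le.1 ((hre _).trans h3)).1
    rw [mul_sub, Complex.sub_re, huP] at h4
    linarith
  · exact (hre _).trans (hS s hs).2

/-- Good circles, stable under small perturbations of the function. -/
theorem good_circle {F : E n × E n → ℂ} {R : ℝ} (hR : 0 < R)
    (hF : DifferentiableOn ℂ F (ball 0 R)) {v : E n} (hv : ‖v‖ ≤ 1) {k : ℕ}
    (hk : iteratedDeriv k (fun t : ℂ => F (t • v, t • star v)) 0 ≠ 0) {μ : ℝ} (hμ : 0 < μ) :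
    ∃ c r₁ δ : ℝ, 0 < c ∧ 0 < r₁ ∧ 8 * r₁ ≤ R ∧ 0 < δ ∧ ∀ F' : E n × E n → ℂ,
      DifferentiableOn ℂ F' (ball 0 (R / 2)) → (∀ p ∈ ball (0 : E n × E n) (R / 2),
        ‖F' p - F p‖ ≤ δ) → ∀ x ∈ ball (0 : E n) r₁, ∀ h : ℝ, 0 < h → h ≤ r₁ →
      ∃ r : ℝ, h / 2 ≤ r ∧ r ≤ h ∧ volume (Icc (0 : ℝ) (2 * Real.pi) \
        {θ | c * h ^ k < ‖F' (x + (r * ce θ) • v, star (x + (r * ce θ) • v))‖}) ≤
          ENNReal.ofReal μ := by
  classical
  have h0 := P278F.iteratedDeriv_line (c := 0) (y := (v, star v)) hR hF k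
  simp only [zero_add, Prod.smul_mk] at h0
  rw [h0] at hk
  obtain ⟨c₁, hc₁, hB⟩ := b8_small _ hk (half_pos hμ)
  obtain ⟨r₁, δ, hr₁, hr, hδ, hcl⟩ := b8_close hR hF k (half_pos hc₁)
  obtain ⟨M, hM⟩ := exists_nat_gt (2 ^ k * (2 * Real.pi) / (μ / 2))
  have hM0 : (0 : ℝ) < M := lt_trans (by positivity) hM
  refine ⟨c₁ / 4 / (4 * M) ^ k, r₁, δ, by positivity, hr₁, hr, hδ,
    fun F' hF' hFF x hx h hh hh' => ?_⟩
  simp only [b8w_pt]
  have hp : ‖((x, star x) : E n × E n)‖ < r₁ := by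
    rw [Prod.norm_mk, norm_star, max_self]
    exact mem_ball_zero_iff.1 hx
  have hℓ : 0 < h / (2 * M) := by positivity
  have hrad : ∀ m < M, h / 2 ≤ h / 2 + m * (h / (2 * M)) ∧ h / 2 + m * (h / (2 * M)) ≤ h := by
    intro m hm
    have h1 : (m : ℝ) * (h / (2 * M)) ≤ M * (h / (2 * M)) :=
      mul_le_mul_of_nonneg_right (by exact_mod_cast hm.le) hℓ.le
    have h2 : (M : ℝ) * (h / (2 * M)) = h / 2 := by field_simp
    have h3 : 0 ≤ (m : ℝ) * (h / (2 * M)) := by positivity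
    constructor <;> linarith
  have hw : Continuous (b8w v) := by
    have := continuous_ce
    unfold b8w
    fun_prop
  refine Exists.elim (b8_pigeon (I := Icc (0 : ℝ) (2 * Real.pi)) (M := M) (K := 2 ^ k)
    (T := fun m => Icc (0 : ℝ) (2 * Real.pi) ∩ ({θ | c₁ < ‖iteratedFDeriv ℂ k F 0 fun _ => b8w v θ‖} ∩
      {θ | ‖F' ((x, star x) + ((h / 2 + m * (h / (2 * M)) : ℝ) : ℂ) • b8w v θ)‖ ≤
        c₁ / 4 / (4 * M) ^ k * h ^ k}))
    measurableSet_Icc (by exact_mod_cast hM0) (fun m hm => ?_) (fun _ => inter_subset_left)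
    (fun θ S hS => ?_) (a := ENNReal.ofReal (μ / 2)) ?_) fun m ⟨hm, hT⟩ => ?_
  rotate_right
  · refine ⟨_, (hrad m hm).1, (hrad m hm).2, ?_⟩
    rw [← add_halves μ, ENNReal.ofReal_add (half_pos hμ).le (half_pos hμ).le]
    refine le_trans (le_trans (measure_mono fun θ hθ => ?_) (measure_union_le _ _))
      (add_le_add hB hT)
    by_cases hc : ‖iteratedFDeriv ℂ k F 0 fun _ => b8w v θ‖ ≤ c₁
    · exact Or.inl ⟨hθ.1, hc⟩
    · have h2 := hθ.2
      rw [mem_ofPred_eq, not_lt] at h2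
      exact Or.inr ⟨hθ.1, not_le.1 hc, h2⟩
  · refine measurableSet_Icc.inter (MeasurableSet.inter (IsOpen.measurableSet ?_)
      (IsClosed.measurableSet ?_))
    · exact isOpen_lt continuous_const (((iteratedFDeriv ℂ k F 0).cont.comp
        (continuous_pi fun _ => hw)).norm)
    · refine isClosed_le (Continuous.norm (hF'.continuousOn.comp_continuous (by fun_prop)
        fun θ => mem_ball_zero_iff.2 ?_)) continuous_const
      refine (norm_add_le _ _).trans_lt ?_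
      rw [norm_smul, Complex.norm_real, Real.norm_of_nonneg (by linarith [(hrad m hm).1])]
      have := mul_le_mul (hrad m hm).2 (b8w_norm hv θ) (norm_nonneg _) hh.le
      linarith
  · by_contra hc
    have hinj : Function.Injective fun m : ℕ => h / 2 + m * (h / (2 * M)) := fun a b e => by
      have := mul_right_cancel₀ hℓ.ne' (add_left_cancel e)
      exact_mod_cast this
    obtain ⟨m₀, hm₀⟩ : S.Nonempty := Finset.card_pos.1 ((Nat.zero_le _).trans_lt (not_le.1 hc))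
    have key := b8_ray (γ := c₁ / 4 / (4 * M) ^ k * h ^ k) hr (half_pos hc₁) hℓ hF'
      (hcl F' hF' hFF) hp (b8w_norm hv θ) (by linarith [show c₁ < _ from (hS m₀ hm₀).2.2.1])
      (S := S.image fun m : ℕ => h / 2 + m * (h / (2 * M))) (fun s hs => ?_)
      (fun s hs s' hs' hlt => ?_) (by rw [Finset.card_image_of_injective _ hinj]; omega)
    · have e : (2 : ℝ) ^ k * (c₁ / 4 / (4 * M) ^ k * h ^ k) = c₁ / 4 * (h / (2 * M)) ^ k := by
        rw [show (4 : ℝ) * M = 2 * (2 * M) by ring, mul_pow 2 (2 * (M : ℝ)), div_pow]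
        field_simp
      have := mul_pos hc₁ (pow_pos hℓ k)
      rw [e] at key
      linarith
    · obtain ⟨m, hm, rfl⟩ := Finset.mem_image.1 hs
      have := hrad m (hS m hm).1
      exact ⟨⟨by linarith [this.1], this.2.trans hh'⟩, (hS m hm).2.2.2⟩
    · obtain ⟨m, -, rfl⟩ := Finset.mem_image.1 hs
      obtain ⟨m', -, rfl⟩ := Finset.mem_image.1 hs'
      have h1 : (m : ℝ) < m' := lt_of_mul_lt_mul_right (by linarith) hℓ.le
      have h2 : (m : ℝ) + 1 ≤ m' := by exact_mod_cast h1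
      have := mul_le_mul_of_nonneg_right h2 hℓ.le
      linarith
  · rw [Real.volume_Icc, ← ENNReal.ofReal_natCast, ← ENNReal.ofReal_natCast,
      ← ENNReal.ofReal_mul (Nat.cast_nonneg _), ← ENNReal.ofReal_mul (Nat.cast_nonneg _)]
    refine ENNReal.ofReal_le_ofReal ?_
    rw [div_lt_iff₀ (half_pos hμ)] at hM
    push_cast
    linarith

end Vale.Agent.P274
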