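import Vale.Agent.P274.B9x
import Vale.Agent.P274.B1c

/-! A plurisubharmonic function that is locally constant off a real analytic set is bounded by
its generic value. -/

open Metric Set Filter Topology MeasureTheory

namespace Vale.Agent.P274

/-- Sub-mean value property against continuous majorants, on a ball. -/
def SubMean {n : ℕ} (ν : E n → ℝ) (R : ℝ) : Prop :=
  ∀ w v : E n, (∀ ζ : ℂ, ‖ζ‖ ≤ 1 → w + ζ • v ∈ ball (0 : E n) R) → ∀ g : ℝ → ℝ, Continuous g →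
    g 0 = g (2 * Real.pi) → (∀ θ ∈ Icc (0 : ℝ) (2 * Real.pi), ν (w + ce θ • v) < g θ) →
      ν w ≤ cmean g

section aux

variable {n : ℕ} {ν : E n → ℝ} {F : E n × E n → ℂ} {R : ℝ}

theorem b9_T (hF : DifferentiableOn ℂ F (ball 0 R)) (hu : UpperSemicontinuousOn ν (ball 0 R))
    (hs : SubMean ν R) {w : E n} (hw : w ∈ ball (0 : E n) R) {v : E n} (hv : ‖v‖ ≤ 1) {k : ℕ}
    (hk : (b9D (b9d v))^[k] F (b9d w) ≠ 0) {a : ℝ}
    (ha : ∀ᶠ y in 𝓝 w, F (b9d y) ≠ 0 → ν y ≤ a) {ε : ℝ} (hε : 0 < ε) :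
    ∃ r₀ > 0, ∀ x ∈ ball w r₀, ∀ h : ℝ, 0 < h → h ≤ r₀ → ∀ b α β : ℝ, b ≤ a → 0 ≤ α →
      α + β ≤ 2 * Real.pi → (∀ r ∈ Icc (h / 2) h, ∀ θ ∈ Ioo α (α + β),
        F (b9d (x + (r * ce θ) • v)) ≠ 0 → ν (x + (r * ce θ) • v) ≤ b) →
      ν x ≤ a + ε - (a - b) * ((β - ε) / (2 * Real.pi)) := by
  have h1 := hu w hw (ν w + 1) (lt_add_one _)
  rw [isOpen_ball.nhdsWithin_eq hw] at h1
  obtain ⟨C, hCa, hC⟩ : ∃ C, a ≤ C ∧ ∀ᶠ y in 𝓝 w, ν y ≤ C :=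
    ⟨max (ν w + 1) a, le_max_right _ _, h1.mono fun y hy => hy.le.trans (le_max_left _ _)⟩
  obtain ⟨ρ, hρ, h2⟩ := Metric.eventually_nhds_iff_ball.1
    (ha.and (hC.and (isOpen_ball.eventually_mem hw)))
  obtain ⟨η, hη, hηε⟩ : ∃ η > 0, η * (2 + (C - a)) = ε :=
    ⟨ε / (2 + (C - a)), div_pos hε (by linarith), div_mul_cancel₀ _ (by linarith)⟩
  obtain ⟨r₁, hr₁, h3⟩ := b9_circle hF hw hv hk hη
  refine ⟨min r₁ (ρ / 2), lt_min hr₁ (half_pos hρ), fun x hx h hh hhr b α β hb hα hβ hab => ?_⟩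
  obtain ⟨r, hr, h4⟩ := h3 x (ball_subset_ball (min_le_left _ _) hx) h hh
    (hhr.trans (min_le_left _ _))
  have h5 : ∀ ζ : ℂ, ‖ζ‖ ≤ 1 → x + (r * ζ) • v ∈ ball w ρ := fun ζ hζ => by
    have := b9_near (ball_subset_ball (min_le_right _ _) hx) hv (r := r) (by
      rw [abs_of_nonneg (by linarith [hr.1])]
      exact hr.2.trans (hhr.trans (min_le_right _ _))) hζ
    rwa [mul_div_cancel₀ _ two_ne_zero] at this
  have hO : IsOpen {θ | F (b9d (x + (r * ce θ) • v)) ≠ 0} := by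
    refine isOpen_ne_fun (hF.continuousOn.comp_continuous (b9_cont.comp ?_) fun θ =>
      b9_mem (h2 _ (h5 _ (norm_ce θ).le)).2.2) continuous_const
    exact continuous_const.add ((continuous_const.mul continuous_ce).smul continuous_const)
  obtain ⟨χ, c1, c2, c3, c4, c5, c6⟩ := exists_cutoff hO hη.le hη h4
  obtain ⟨χ', d1, d2, d3, d4, d5, d6⟩ := exists_cutoff (hO.inter isOpen_Ioo) (by linarith) hη
    (b9_vol hη.le hα hβ h4)
  have e : ∀ ζ : ℂ, x + ζ • ((r : ℂ) • v) = x + (r * ζ) • v := fun ζ => by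
    rw [smul_smul, mul_comm]
  have h6 := hs x ((r : ℂ) • v) (fun ζ hζ => e ζ ▸ (h2 _ (h5 ζ hζ)).2.2)
    (fun θ => (C + η) + (-(C - a) * χ θ + -(a - b) * χ' θ)) (by fun_prop)
    (by simp only [c2, c3, d2, d3]) (fun θ _ => by
      rw [e]
      obtain ⟨k1, k2, -⟩ := h2 _ (h5 _ (norm_ce θ).le)
      have k3 := mul_le_mul_of_nonneg_left (c4 θ).2 (sub_nonneg.2 hCa)
      have k4 := mul_le_mul_of_nonneg_left (d4 θ).2 (sub_nonneg.2 hb)
      by_cases m2 : θ ∈ {θ | F (b9d (x + (r * ce θ) • v)) ≠ 0} ∩ Ioo α (α + β)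
      · have := hab r hr θ m2.2 m2.1
        linarith
      rw [d5 θ m2]
      by_cases m1 : θ ∈ {θ | F (b9d (x + (r * ce θ) • v)) ≠ 0}
      · have := k1 m1
        linarith
      rw [c5 θ m1]
      linarith)
  rw [cmean_add continuous_const (by fun_prop), cmean_const,
    cmean_add (by fun_prop) (by fun_prop), cmean_const_mul, cmean_const_mul] at h6
  have hπ : 0 < 2 * Real.pi := by positivity
  have k1 : 1 - η ≤ cmean χ := by
    refine le_trans (sub_le_sub_left ?_ _) c6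
    rw [div_le_iff₀ hπ]
    nlinarith [Real.pi_gt_three]
  have k2 : (β - ε) / (2 * Real.pi) ≤ cmean χ' := by
    refine le_trans ?_ d6
    rw [le_sub_iff_add_le, ← add_div, div_le_one hπ]
    nlinarith [mul_nonneg hη.le (sub_nonneg.2 hCa)]
  have k3 := mul_le_mul_of_nonneg_left k1 (sub_nonneg.2 hCa)
  have k4 := mul_le_mul_of_nonneg_left k2 (sub_nonneg.2 hb)
  nlinarith

/-- `c` is the generic value of `ν` near `x`. -/
def b9P (ν : E n → ℝ) (F : E n × E n → ℂ) (x : E n) (c : ℝ) : Prop :=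
  ∀ᶠ y in 𝓝 x, F (b9d y) ≠ 0 → ν y = c

theorem b9_side (hF : DifferentiableOn ℂ F (ball 0 R))
    (hc : ∀ w ∈ ball (0 : E n) R, F (b9d w) ≠ 0 → ∀ᶠ w' in 𝓝 w, ν w' = ν w)
    (hne : ∀ w ∈ ball (0 : E n) R, ∃ᶠ w' in 𝓝 w, F (b9d w') ≠ 0) {g : E n → ℝ}
    (hg : ContinuousOn g (ball 0 R)) (hP : ∀ x ∈ ball (0 : E n) R, g x ≠ 0 → ∃ c, b9P ν F x c)
    {w z : E n} (hgw : g w = 0) {ρ : ℝ} (hρ : 0 < ρ)
    (hz : ∀ x ∈ ball w ρ, ∀ t ∈ Icc 0 ρ, x + t • z ∈ ball (0 : E n) R ∧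
      (0 < t → g x < g (x + t • z))) :
    (∃ c, ∀ᶠ x in 𝓝 w, 0 ≤ g x → F (b9d x) ≠ 0 → ν x = c) ∧
      ∃ᶠ x in 𝓝 w, 0 < g x ∧ F (b9d x) ≠ 0 := by
  have hw := mem_ball_self (x := w) hρ
  have ten : ∀ x : E n, Tendsto (fun t : ℝ => x + t • z) (𝓝[>] 0) (𝓝 x) := fun x => by
    have h1 : ContinuousAt (fun t : ℝ => x + t • z) 0 := by fun_prop
    simpa using h1.tendsto.mono_left nhdsWithin_le_nhds
  constructor
  · obtain ⟨h1, h2⟩ := hz w hw ρ ⟨hρ.le, le_rfl⟩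
    obtain ⟨c, h3⟩ := hP _ h1 (hgw ▸ h2 hρ).ne'
    have h4 : ContinuousAt (fun x : E n => x + ρ • z) w := by fun_prop
    refine ⟨c, ?_⟩
    filter_upwards [h4.tendsto.eventually h3.eventually_nhds, ball_mem_nhds w hρ]
      with x h5 hx h6 h7
    have hxB : x ∈ ball (0 : E n) R := by simpa using (hz x hx 0 ⟨le_rfl, hρ.le⟩).1
    have h8 : ∀ t ∈ Ioc 0 ρ, b9P ν F (x + t • z) c := fun t ht => by
      refine b9_prop (P := b9P ν F) (S := (fun t : ℝ => x + t • z) '' Ioc 0 ρ)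
        (isPreconnected_Ioc.image _ (by fun_prop)) (fun _ _ h => h.eventually_nhds) ?_ ?_
        ⟨ρ, ⟨hρ, le_rfl⟩, rfl⟩ ⟨t, ht, rfl⟩ h5
      · rintro _ ⟨s, hs, rfl⟩
        obtain ⟨k1, k2⟩ := hz x hx s ⟨hs.1.le, hs.2⟩
        exact hP _ k1 (h6.trans_lt (k2 hs.1)).ne'
      · rintro _ ⟨s, hs, rfl⟩ c1 c2 k1 k2
        obtain ⟨y, k3, k4, k5⟩ :=
          ((hne _ (hz x hx s ⟨hs.1.le, hs.2⟩).1).and_eventually (k1.and k2)).exists
        rw [← k4 k3, k5 k3]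
    have h9 : ContinuousAt (fun y => F (b9d y)) x :=
      ContinuousAt.comp (f := b9d)
        (hF.continuousOn.continuousAt (isOpen_ball.mem_nhds (b9_mem hxB))) b9_cont.continuousAt
    obtain ⟨t, k1, k2, k3⟩ := (((ten x).eventually (hc x hxB h7)).and
      (((ten x).eventually (h9.eventually_ne h7)).and (Ioc_mem_nhdsGT hρ))).exists
    rw [← k1]
    exact (h8 t k3).self_of_nhds k2
  · rw [Filter.frequently_iff]
    intro U hU
    obtain ⟨t, k1, k2⟩ := (((ten w).eventually (eventually_mem_nhds_iff.2 hU)).and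
      (Ioc_mem_nhdsGT hρ)).exists
    obtain ⟨k3, k4⟩ := hz w hw t ⟨k2.1.le, k2.2⟩
    have k5 := (hg.continuousAt (isOpen_ball.mem_nhds k3)).eventually
      (lt_mem_nhds (hgw ▸ k4 k2.1))
    obtain ⟨y, m1, m2, m3⟩ := ((hne _ k3).and_eventually (k5.and k1)).exists
    exact ⟨y, m3, m2, m1⟩

theorem b9_contra (hF : DifferentiableOn ℂ F (ball 0 R))
    (hu : UpperSemicontinuousOn ν (ball 0 R)) (hs : SubMean ν R) {w : E n}
    (hw : w ∈ ball (0 : E n) R) {v : E n} (hv : ‖v‖ ≤ 1) {k : ℕ}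
    (hk : (b9D (b9d v))^[k] F (b9d w) ≠ 0) {g : E n → ℝ} (hg : ContinuousAt g w) (hgw : g w = 0)
    {a ρ α β c₁ c₂ : ℝ} (ha : 0 < a) (hρ : 0 < ρ) (hα : 0 ≤ α) (hβ : 0 < β)
    (hαβ : α + β ≤ 2 * Real.pi) (hm : ∀ x ∈ ball w ρ, ∀ r ∈ Icc 0 ρ, ∀ θ ∈ Ioo α (α + β),
      g (x + (r * ce θ) • v) ≤ g x - a * r)
    (h1 : ∀ᶠ x in 𝓝 w, 0 ≤ g x → F (b9d x) ≠ 0 → ν x = c₁)
    (h2 : ∀ᶠ x in 𝓝 w, g x ≤ 0 → F (b9d x) ≠ 0 → ν x = c₂)
    (h3 : ∃ᶠ x in 𝓝 w, 0 < g x ∧ F (b9d x) ≠ 0) : c₁ ≤ c₂ := by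
  by_contra hlt
  push Not at hlt
  have hπ : 0 < 2 * Real.pi := by positivity
  obtain ⟨ε, hε, hεe⟩ : ∃ ε > 0, ε * (2 * Real.pi + (c₁ - c₂)) = (c₁ - c₂) * β / 2 :=
    ⟨(c₁ - c₂) * β / 2 / (2 * Real.pi + (c₁ - c₂)),
      div_pos (half_pos (mul_pos (by linarith) hβ)) (by linarith),
      div_mul_cancel₀ _ (by linarith)⟩
  obtain ⟨r₀, hr₀, hT⟩ := b9_T hF hu hs hw hv hk (a := c₁) (by
    filter_upwards [h1, h2] with y k1 k2 k3
    rcases le_total 0 (g y) with k4 | k4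
    · exact (k1 k4 k3).le
    · exact (k2 k4 k3).le.trans hlt.le) hε
  obtain ⟨ρ', hρ', h4⟩ := Metric.eventually_nhds_iff_ball.1 h2
  obtain ⟨h, hh, b1, b2, b3⟩ : ∃ h > 0, h ≤ r₀ ∧ h ≤ ρ ∧ h ≤ ρ' / 2 :=
    ⟨min r₀ (min ρ (ρ' / 2)), by positivity, min_le_left _ _,
      (min_le_right _ _).trans (min_le_left _ _), (min_le_right _ _).trans (min_le_right _ _)⟩
  have h5 : ∀ᶠ x in 𝓝 w, g x < a * (h / 2) :=
    hg.eventually (gt_mem_nhds (by rw [hgw]; positivity))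
  obtain ⟨x, ⟨k1, k2⟩, k3, k4, k5⟩ :=
    (h3.and_eventually (h1.and (h5.and (ball_mem_nhds w hh)))).exists
  have h6 := hT x (ball_subset_ball b1 k5) h hh b1 c₂ α β hlt.le hα hαβ fun r hr θ hθ hne => by
    have r0 : 0 ≤ r := by linarith [hr.1]
    have m1 := hm x (ball_subset_ball b2 k5) r ⟨r0, hr.2.trans b2⟩ θ hθ
    have m2 := b9_near (ball_subset_ball b3 k5) hv (r := r)
      (by rw [abs_of_nonneg r0]; exact hr.2.trans b3) (norm_ce θ).le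
    rw [mul_div_cancel₀ _ two_ne_zero] at m2
    have m3 := mul_le_mul_of_nonneg_left hr.1 ha.le
    exact (h4 _ m2 (by linarith) hne).le
  rw [k3 k1.le k2, ← mul_div_assoc] at h6
  have h7 : (c₁ - c₂) * (β - ε) / (2 * Real.pi) ≤ ε := by linarith
  rw [div_le_iff₀ hπ] at h7
  nlinarith [mul_pos (sub_pos.2 hlt) hβ]

theorem b9_all (hF : DifferentiableOn ℂ F (ball 0 R))
    (hu : UpperSemicontinuousOn ν (ball 0 R)) (hs : SubMean ν R)
    (hc : ∀ w ∈ ball (0 : E n) R, F (b9d w) ≠ 0 → ∀ᶠ w' in 𝓝 w, ν w' = ν w)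
    (hne : ∀ w ∈ ball (0 : E n) R, ∃ᶠ w' in 𝓝 w, F (b9d w') ≠ 0) {v : E n} (hv : ‖v‖ ≤ 1)
    (k : ℕ) : ∀ w ∈ ball (0 : E n) R, (b9D (b9d v))^[k] F (b9d w) ≠ 0 → ∃ c, b9P ν F w c := by
  induction k with
  | zero => exact fun w hw h => ⟨ν w, (hc w hw h).mono fun _ h _ => h⟩
  | succ k ih =>
    intro w hw hk
    by_cases h0 : (b9D (b9d v))^[k] F (b9d w) = 0
    swap
    · exact ih w hw h0
    have hH := b9_an (b9d v) k (P278F.analyticOnNhd_of_differentiableOn isOpen_ball hF)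
    have hk' := hk
    rw [Function.iterate_succ_apply'] at hk'
    generalize (b9D (b9d v))^[k] F = H at ih h0 hH hk'
    obtain ⟨u, a, ha, hua⟩ : ∃ (u : ℂ) (a : ℝ), 0 < a ∧ a < (u * b9D (b9d v) H (b9d w)).re :=
      ⟨(b9D (b9d v) H (b9d w))⁻¹, 1 / 2, by norm_num, by
        rw [inv_mul_cancel₀ hk', Complex.one_re]; norm_num⟩
    obtain ⟨ρ, hρ, β, hβ, hβπ, hB, hm⟩ := b9_mono hH hw hv hua
    obtain ⟨g, hg⟩ : ∃ g : E n → ℝ, ∀ x, g x = (u * H (b9d x)).re := ⟨_, fun _ => rfl⟩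
    simp only [← hg] at hm
    have hgc : ContinuousOn g (ball 0 R) := by
      rw [funext hg]
      exact Complex.continuous_re.comp_continuousOn (continuousOn_const.mul
        (hH.continuousOn.comp b9_cont.continuousOn fun _ => b9_mem))
    have hgw : g w = 0 := by rw [hg, h0, mul_zero, Complex.zero_re]
    have hP : ∀ x ∈ ball (0 : E n) R, g x ≠ 0 → ∃ c, b9P ν F x c := fun x hx h =>
      ih x hx fun h1 => h (by rw [hg, h1, mul_zero, Complex.zero_re])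
    have z0 : (0 : ℝ) ∈ Icc (-ρ) ρ := ⟨by linarith, hρ.le⟩
    have m1 : ∀ θ ∈ Ico 0 β, ∀ x ∈ ball w ρ, ∀ r ∈ Icc 0 ρ,
        a * r ≤ g (x + (r * ce θ) • v) - g x := fun θ hθ x hx r hr => by
      simpa using hm θ hθ x hx 0 z0 r ⟨by linarith [hr.1], hr.2⟩ hr.1
    have m2 : ∀ θ ∈ Ico 0 β, ∀ x ∈ ball w ρ, ∀ r ∈ Icc 0 ρ,
        a * r ≤ g x - g (x + (r * -ce θ) • v) := fun θ hθ x hx r hr => by
      simpa using hm θ hθ x hx (-r) ⟨by linarith [hr.2], by linarith [hr.1]⟩ 0 z0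
        (by linarith [hr.1])
    have m3 : ∀ x ∈ ball w ρ, ∀ r ∈ Icc 0 ρ, ∀ ζ : ℂ, ‖ζ‖ ≤ 1 →
        x + (r * ζ) • v ∈ ball (0 : E n) R := fun x hx r hr ζ hζ =>
      hB (b9_near hx hv (by rw [abs_of_nonneg hr.1]; exact hr.2) hζ)
    obtain ⟨⟨c₁, p1⟩, p2⟩ := b9_side hF hc hne hgc hP hgw hρ (z := v) fun x hx t ht => by
      have k1 := m1 0 ⟨le_rfl, hβ⟩ x hx t ht
      have k2 := m3 x hx t ht 1 (by simp)
      rw [b9_ce_zero] at k1
      rw [mul_one, Complex.coe_smul] at k1 k2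
      exact ⟨k2, fun h => by linarith [mul_pos ha h]⟩
    obtain ⟨⟨c₂, q1⟩, q2⟩ := b9_side hF hc hne (g := fun x => -g x) hgc.neg
      (fun x hx h => hP x hx (neg_ne_zero.1 h)) (w := w) (by simp only [hgw, neg_zero]) hρ
      (z := -v)
      fun x hx t ht => by
        have k1 := m2 0 ⟨le_rfl, hβ⟩ x hx t ht
        have k2 := m3 x hx t ht (-1) (by simp)
        rw [b9_ce_zero] at k1
        rw [mul_neg_one, neg_smul, ← smul_neg, Complex.coe_smul] at k1 k2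
        exact ⟨k2, fun h => by linarith [mul_pos ha h]⟩
    have hgw' := hgc.continuousAt (isOpen_ball.mem_nhds hw)
    have r1 : c₁ ≤ c₂ := b9_contra hF hu hs hw hv hk hgw' hgw ha hρ Real.pi_pos.le hβ
      (by linarith) (fun x hx r hr θ hθ => by
        have := m2 (θ - Real.pi) ⟨by linarith [hθ.1], by linarith [hθ.2]⟩ x hx r hr
        rw [← b9_ce_pi] at this
        linarith) p1 (q1.mono fun x h h' => h (neg_nonneg.2 h')) p2
    have r2 : c₂ ≤ c₁ := b9_contra hF hu hs hw hv hk (g := fun x => -g x) hgw'.neg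
      (by simp only [hgw, neg_zero]) ha hρ le_rfl hβ (by linarith [Real.pi_pos])
      (fun x hx r hr θ hθ => by
        have := m1 θ ⟨hθ.1.le, by linarith [hθ.2]⟩ x hx r hr
        linarith) q1 (p1.mono fun x h h' => h (neg_nonpos.1 h')) q2
    refine ⟨c₁, ?_⟩
    filter_upwards [p1, q1] with x k1 k2 k3
    rcases le_total 0 (g x) with k4 | k4
    · exact k1 k4 k3
    · rw [k2 (neg_nonneg.2 k4) k3, le_antisymm r1 r2]

end aux

/-- Local statement: the generic value is locally constant. -/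
theorem psh_local {n : ℕ} {ν : E n → ℝ} {F : E n × E n → ℂ} {R : ℝ}
    (hF : DifferentiableOn ℂ F (ball 0 R)) (hu : UpperSemicontinuousOn ν (ball 0 R))
    (hs : SubMean ν R)
    (hc : ∀ w ∈ ball (0 : E n) R, F (w, star w) ≠ 0 → ∀ᶠ w' in 𝓝 w, ν w' = ν w)
    (hne : ∀ w ∈ ball (0 : E n) R, ∃ᶠ w' in 𝓝 w, F (w', star w') ≠ 0) :
    ∀ w ∈ ball (0 : E n) R, ∃ c : ℝ, ν w ≤ c ∧ ∀ᶠ w' in 𝓝 w, F (w', star w') ≠ 0 → ν w' = c := by
  intro w hw
  obtain ⟨v, k, hv, hk⟩ := b9_order hF hw (hne w hw)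
  obtain ⟨c, h⟩ := b9_all hF hu hs hc hne hv k w hw hk
  refine ⟨c, le_of_forall_pos_le_add fun ε hε => ?_, h⟩
  obtain ⟨r, hr, hT⟩ := b9_T hF hu hs hw hv hk (a := c) (h.mono fun y h1 h2 => (h1 h2).le) hε
  have h1 := hT w (mem_ball_self hr) r hr le_rfl c 0 0 le_rfl le_rfl (by linarith [Real.pi_pos])
    fun _ _ θ hθ => absurd (hθ.1.trans hθ.2) (by simp)
  simpa using h1

namespace BM

variable {N n : ℕ} {M : BM N n}

theorem psh_const {ν : M.X → ℝ} {f : M.X → M.X → ℂ} (hf : M.Sesq f)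
    (hu : UpperSemicontinuous ν) (hs : ∀ x, SubMean (ν ∘ M.ψ x) (M.r x))
    (hc : ∀ x, f x x ≠ 0 → ∀ᶠ y in 𝓝 x, ν y = ν x) {x₀ : M.X} (h0 : f x₀ x₀ ≠ 0) (x : M.X) :
    ν x ≤ ν x₀ := by
  have hne := hf.frequently_ne ⟨x₀, h0⟩
  have key : ∀ x, ∃ c, ν x ≤ c ∧ ∀ᶠ y in 𝓝 x, f y y ≠ 0 → ν y = c := by
    intro x
    have ten : ∀ w ∈ ball (0 : E n) (M.r x), Tendsto (M.ψ x) (𝓝 w) (𝓝 (M.ψ x w)) :=
      fun w hw => (M.map_ψ_nhds x hw).le
    obtain ⟨c, h1, h2⟩ := psh_local (ν := ν ∘ M.ψ x) (hf x)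
      (fun w hw y hy => ((ten w hw).eventually (hu _ y hy)).filter_mono nhdsWithin_le_nhds) (hs x)
      (fun w hw h => (ten w hw).eventually (hc _ (by simpa only [star_star] using h)))
      (fun w hw => by
        have h := hne (M.ψ x w)
        rw [← M.map_ψ_nhds x hw, frequently_map] at h
        simpa only [star_star] using h) 0 (mem_ball_self (M.r_pos x))
    simp only [Function.comp_apply, M.ψ_zero, star_star] at h1 h2
    refine ⟨c, h1, ?_⟩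
    have h3 := M.map_ψ_nhds x (mem_ball_self (M.r_pos x))
    rw [M.ψ_zero] at h3
    rw [← h3, eventually_map]
    exact h2
  have uniq : ∀ x c c', (∀ᶠ y in 𝓝 x, f y y ≠ 0 → ν y = c) →
      (∀ᶠ y in 𝓝 x, f y y ≠ 0 → ν y = c') → c = c' := fun x c c' k1 k2 => by
    obtain ⟨y, k3, k4, k5⟩ := ((hne x).and_eventually (k1.and k2)).exists
    rw [← k4 k3, k5 k3]
  obtain ⟨c, h1, h2⟩ := key x
  have h3 := b9_prop (P := fun x c => ∀ᶠ y in 𝓝 x, f y y ≠ 0 → ν y = c) isPreconnected_univ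
    (fun _ _ h => h.eventually_nhds) (fun x _ => (key x).imp fun _ h => h.2)
    (fun x _ => uniq x) (mem_univ x) (mem_univ x₀) h2
  rwa [h3.self_of_nhds h0]

end BM

end Vale.Agent.P274
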