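import Vale.Agent.P274.B8

/-! Auxiliary lemmas for `B9`: directional derivatives, good circles, monotone directions. -/

open Metric Set Filter Topology MeasureTheory

namespace Vale.Agent.P274

variable {n : ℕ}

/-- The real diagonal. -/
def b9d (x : E n) : E n × E n := (x, star x)

theorem b9_norm (x : E n) : ‖b9d x‖ = ‖x‖ := by simp [b9d, Prod.norm_def]

theorem b9_cont : Continuous (b9d : E n → E n × E n) := by
  unfold b9d
  fun_prop

theorem b9_mem {x : E n} {R : ℝ} (hx : x ∈ ball (0 : E n) R) : b9d x ∈ ball (0 : E n × E n) R := by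
  rwa [mem_ball_zero_iff, b9_norm, ← mem_ball_zero_iff]

theorem b9_add (x y : E n) : b9d (x + y) = b9d x + b9d y := by simp [b9d]

theorem b9_smul (t : ℝ) (x : E n) : b9d (t • x) = t • b9d x := by simp [b9d]

/-- Derivative in the direction `e`. -/
noncomputable def b9D (e : E n × E n) (F : E n × E n → ℂ) : E n × E n → ℂ :=
  fun p => fderiv ℂ F p e

theorem b9_an1 {F : E n × E n → ℂ} {S : Set (E n × E n)} (hF : AnalyticOnNhd ℂ F S)
    (e : E n × E n) : AnalyticOnNhd ℂ (b9D e F) S := fun p hp =>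
  ((ContinuousLinearMap.apply ℂ ℂ e).analyticAt _).comp (hF.fderiv p hp)

theorem b9_an {S : Set (E n × E n)} (e : E n × E n) (k : ℕ) : ∀ {F : E n × E n → ℂ},
    AnalyticOnNhd ℂ F S → AnalyticOnNhd ℂ ((b9D e)^[k] F) S := by
  induction k with
  | zero => exact fun h => h
  | succ k ih => exact fun h => ih (b9_an1 h e)

theorem b9_iter {S : Set (E n × E n)} (hS : IsOpen S) (e : E n × E n) {p : E n × E n}
    (hp : p ∈ S) (k : ℕ) : ∀ {F : E n × E n → ℂ}, AnalyticOnNhd ℂ F S →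
      iteratedDeriv k (fun t : ℂ => F (t • e + p)) 0 = (b9D e)^[k] F p := by
  induction k with
  | zero => intro F _; simp
  | succ k ih =>
    intro F hF
    rw [iteratedDeriv_succ', Function.iterate_succ_apply, ← ih (b9_an1 hF e)]
    refine Filter.EventuallyEq.iteratedDeriv_eq k ?_
    have hc : ContinuousAt (fun t : ℂ => t • e + p) 0 := by fun_prop
    have h1 : ∀ᶠ t : ℂ in 𝓝 0, t • e + p ∈ S :=
      hc.preimage_mem_nhds (hS.mem_nhds (by simpa using hp))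
    filter_upwards [h1] with t ht
    have h2 : HasDerivAt (fun t : ℂ => t • e + p) e t := by
      simpa using ((hasDerivAt_id t).smul_const e).add_const p
    exact ((hF _ ht).differentiableAt.hasFDerivAt.comp_hasDerivAt t h2).deriv

theorem b9_shift {F : E n × E n → ℂ} {R : ℝ} (hF : DifferentiableOn ℂ F (ball 0 R)) {w : E n} :
    DifferentiableOn ℂ (fun p => F (p + b9d w)) (ball 0 (R - ‖w‖)) := by
  refine hF.comp (differentiableOn_id.add_const _) fun p hp => ?_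
  rw [mem_ball_zero_iff] at hp ⊢
  have := norm_add_le p (b9d w)
  rw [b9_norm] at this
  exact lt_of_le_of_lt this (by linarith)

theorem b9_order {F : E n × E n → ℂ} {R : ℝ} (hF : DifferentiableOn ℂ F (ball 0 R)) {w : E n}
    (hw : w ∈ ball (0 : E n) R) (hne : ∃ᶠ x in 𝓝 w, F (b9d x) ≠ 0) :
    ∃ (v : E n) (k : ℕ), ‖v‖ ≤ 1 ∧ (b9D (b9d v))^[k] F (b9d w) ≠ 0 := by
  have hR : 0 < R - ‖w‖ := sub_pos.2 (mem_ball_zero_iff.1 hw)
  obtain ⟨v, k, hv, hk⟩ := exists_order hR (b9_shift hF (w := w)) (by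
    have h1 : Tendsto (fun x : E n => x - w) (𝓝 w) (𝓝 0) := by
      have h2 : ContinuousAt (fun x : E n => x - w) w := by fun_prop
      simpa using h2.tendsto
    refine h1.frequently (hne.mono fun x hx => ?_)
    have e : ((x - w, star (x - w)) : E n × E n) + b9d w = b9d x := by simp [b9d]
    rwa [e])
  refine ⟨v, k, hv, ?_⟩
  rw [← b9_iter isOpen_ball _ (b9_mem hw) k
    (P278F.analyticOnNhd_of_differentiableOn isOpen_ball hF)]
  exact hk

theorem b9_circle {F : E n × E n → ℂ} {R : ℝ} (hF : DifferentiableOn ℂ F (ball 0 R)) {w : E n}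
    (hw : w ∈ ball (0 : E n) R) {v : E n} (hv : ‖v‖ ≤ 1) {k : ℕ}
    (hk : (b9D (b9d v))^[k] F (b9d w) ≠ 0) {μ : ℝ} (hμ : 0 < μ) :
    ∃ r₁ > 0, ∀ x ∈ ball w r₁, ∀ h : ℝ, 0 < h → h ≤ r₁ → ∃ r ∈ Icc (h / 2) h,
      volume (Icc (0 : ℝ) (2 * Real.pi) \ {θ | F (b9d (x + (r * ce θ) • v)) ≠ 0}) ≤
        ENNReal.ofReal μ := by
  have hR : 0 < R - ‖w‖ := sub_pos.2 (mem_ball_zero_iff.1 hw)
  rw [← b9_iter isOpen_ball _ (b9_mem hw) k
    (P278F.analyticOnNhd_of_differentiableOn isOpen_ball hF)] at hk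
  obtain ⟨c, r₁, δ, hc, hr, -, hδ, h⟩ := good_circle hR (b9_shift hF (w := w)) hv hk hμ
  refine ⟨r₁, hr, fun x hx s hs hsr => ?_⟩
  obtain ⟨r, h1, h2, h3⟩ := h _ ((b9_shift hF (w := w)).mono (ball_subset_ball (by linarith)))
    (fun p _ => by simpa using hδ.le) (x - w) (by rwa [mem_ball_zero_iff, ← mem_ball_iff_norm])
    s hs hsr
  refine ⟨r, ⟨h1, h2⟩, le_trans (measure_mono (sdiff_subset_sdiff_right fun θ hθ => ?_)) h3⟩
  have e : ((x - w + (r * ce θ) • v, star (x - w + (r * ce θ) • v)) : E n × E n) + b9d w =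
      b9d (x + (r * ce θ) • v) := by
    rw [show ((x - w + (r * ce θ) • v, star (x - w + (r * ce θ) • v)) : E n × E n) =
      b9d (x - w + (r * ce θ) • v) from rfl, ← b9_add]
    congr 1
    abel
  have h4 : c * s ^ k < ‖F (b9d (x + (r * ce θ) • v))‖ := e ▸ hθ
  exact norm_pos_iff.1 (lt_trans (by positivity) h4)

theorem b9_near {w x v : E n} {ρ r : ℝ} (hx : x ∈ ball w ρ) (hv : ‖v‖ ≤ 1) (hr : |r| ≤ ρ)
    {ζ : ℂ} (hζ : ‖ζ‖ ≤ 1) : x + (r * ζ) • v ∈ ball w (2 * ρ) := by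
  rw [mem_ball_iff_norm] at hx ⊢
  have h1 : ‖(r * ζ) • v‖ ≤ ρ := by
    rw [norm_smul, norm_mul, Complex.norm_real, Real.norm_eq_abs]
    have h0 : 0 ≤ ρ := (abs_nonneg r).trans hr
    calc |r| * ‖ζ‖ * ‖v‖ ≤ ρ * 1 * 1 := by gcongr
      _ = ρ := by ring
  have h2 := norm_add_le (x - w) ((r * ζ) • v)
  rw [show x - w + (r * ζ) • v = x + (r * ζ) • v - w by abel] at h2
  linarith

theorem b9_ce_zero : ce 0 = 1 := by simp [ce]

theorem b9_ce_pi (θ : ℝ) : ce θ = -ce (θ - Real.pi) := by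
  simp only [ce]
  rw [show ((θ : ℂ)) * Complex.I = ((θ - Real.pi : ℝ) : ℂ) * Complex.I + Real.pi * Complex.I by
    push_cast; ring, Complex.exp_add, Complex.exp_pi_mul_I]
  ring

theorem b9_mono {H : E n × E n → ℂ} {R : ℝ} (hH : AnalyticOnNhd ℂ H (ball 0 R)) {w : E n}
    (hw : w ∈ ball (0 : E n) R) {v : E n} (hv : ‖v‖ ≤ 1) {u : ℂ} {a : ℝ}
    (ha : a < (u * b9D (b9d v) H (b9d w)).re) : ∃ ρ > 0, ∃ β > 0, β ≤ Real.pi ∧
      ball w (2 * ρ) ⊆ ball 0 R ∧ ∀ θ ∈ Ico 0 β, ∀ x ∈ ball w ρ, ∀ s ∈ Icc (-ρ) ρ,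
        ∀ t ∈ Icc (-ρ) ρ, s ≤ t → a * (t - s) ≤ (u * H (b9d (x + (t * ce θ) • v))).re -
          (u * H (b9d (x + (s * ce θ) • v))).re := by
  have c1 : ContinuousAt (fun p : E n × ℝ => fderiv ℂ H (b9d p.1)) (w, 0) :=
    ContinuousAt.comp (f := fun p : E n × ℝ => b9d p.1) (hH.fderiv _ (b9_mem hw)).continuousAt
      (b9_cont.comp continuous_fst).continuousAt
  have c2 : ContinuousAt (fun p : E n × ℝ => b9d (ce p.2 • v)) (w, 0) :=
    (b9_cont.comp ((continuous_ce.comp continuous_snd).smul continuous_const)).continuousAt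
  have c3 : ContinuousAt
      (fun p : E n × ℝ => (u * fderiv ℂ H (b9d p.1) (b9d (ce p.2 • v))).re) (w, 0) :=
    Complex.continuous_re.continuousAt.comp (continuousAt_const.mul (c1.clm_apply c2))
  have e1 := c3.eventually (lt_mem_nhds (a := a) (by simpa [b9_ce_zero, b9D] using ha))
  have e2 : ∀ᶠ p : E n × ℝ in 𝓝 (w, 0), p.1 ∈ ball (0 : E n) R :=
    continuous_fst.continuousAt.preimage_mem_nhds (isOpen_ball.mem_nhds hw)
  obtain ⟨ε, hε, h⟩ := Metric.eventually_nhds_iff.1 (e1.and e2)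
  have h' : ∀ y ∈ ball w (2 * (ε / 2)), ∀ θ ∈ Ico 0 (min ε Real.pi),
      a < (u * fderiv ℂ H (b9d y) (b9d (ce θ • v))).re ∧ y ∈ ball (0 : E n) R := by
    intro y hy θ hθ
    refine h (y := (y, θ)) ?_
    rw [Prod.dist_eq, max_lt_iff, Real.dist_eq, sub_zero, abs_of_nonneg hθ.1]
    exact ⟨by simpa [mul_div_cancel₀] using hy, hθ.2.trans_le (min_le_left _ _)⟩
  have hβ : 0 < min ε Real.pi := lt_min hε Real.pi_pos
  refine ⟨ε / 2, half_pos hε, _, hβ, min_le_right _ _, fun y hy => (h' y hy 0 ⟨le_rfl, hβ⟩).2,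
    fun θ hθ x hx => ?_⟩
  have hd : ∀ t ∈ Icc (-(ε / 2)) (ε / 2), HasDerivAt
      (fun t : ℝ => (u * H (b9d (x + (t * ce θ) • v))).re)
      ((u * fderiv ℂ H (b9d (x + (t * ce θ) • v)) (b9d (ce θ • v))).re) t := by
    intro t ht
    have m := (h' _ (b9_near hx hv (abs_le.2 ht) (norm_ce θ).le) θ hθ).2
    have e : ∀ t : ℝ, b9d (x + (t * ce θ) • v) = b9d x + t • b9d (ce θ • v) := fun t => by
      rw [b9_add, mul_smul, Complex.coe_smul, b9_smul]
    have d1 : HasDerivAt (fun t : ℝ => b9d (x + (t * ce θ) • v)) (b9d (ce θ • v)) t := by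
      simp only [e]
      simpa using ((hasDerivAt_id t).smul_const (b9d (ce θ • v))).const_add (b9d x)
    have d2 := ((hH _ (b9_mem m)).differentiableAt.hasFDerivAt.restrictScalars ℝ).comp_hasDerivAt
      t d1
    exact Complex.reCLM.hasFDerivAt.comp_hasDerivAt t (d2.const_mul u)
  refine (convex_Icc _ _).mul_sub_le_image_sub_of_le_deriv
    (fun t ht => (hd t ht).continuousAt.continuousWithinAt)
    (fun t ht => (hd t (interior_subset ht)).differentiableAt.differentiableWithinAt)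
    fun t ht => ?_
  have ht' : t ∈ Icc (-(ε / 2)) (ε / 2) := interior_subset ht
  rw [(hd t ht').deriv]
  exact (h' _ (b9_near hx hv (abs_le.2 ht') (norm_ce θ).le) θ hθ).1.le

/-- Propagation of a locally constant value along a preconnected set. -/
theorem b9_prop {X : Type*} [TopologicalSpace X] {P : X → ℝ → Prop} {S : Set X}
    (hS : IsPreconnected S) (h1 : ∀ x c, P x c → ∀ᶠ y in 𝓝 x, P y c)
    (h2 : ∀ x ∈ S, ∃ c, P x c) (h3 : ∀ x ∈ S, ∀ c c', P x c → P x c' → c = c') {x y : X}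
    (hx : x ∈ S) (hy : y ∈ S) {c : ℝ} (h : P x c) : P y c := by
  by_contra hn
  obtain ⟨c', hc'⟩ := h2 y hy
  obtain ⟨z, hz, h4, c2, h5, h6⟩ := hS {z | P z c} {z | ∃ c', c' ≠ c ∧ P z c'}
    (isOpen_iff_mem_nhds.2 fun z hz => h1 z c hz)
    (isOpen_iff_mem_nhds.2 fun z ⟨c2, h5, h6⟩ => (h1 z c2 h6).mono fun y hy => ⟨c2, h5, hy⟩)
    (fun z hz => by
      obtain ⟨c2, h5⟩ := h2 z hz
      by_cases h6 : c2 = c
      · exact Or.inl (h6 ▸ h5)
      · exact Or.inr ⟨c2, h6, h5⟩) ⟨x, hx, h⟩ ⟨y, hy, c', fun h7 => hn (h7 ▸ hc'), hc'⟩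
  exact h5 (h3 z hz _ _ h6 h4)

theorem b9_vol {O : Set ℝ} {μ α β : ℝ} (hμ : 0 ≤ μ) (hα : 0 ≤ α)
    (hβ : α + β ≤ 2 * Real.pi)
    (h : volume (Icc (0 : ℝ) (2 * Real.pi) \ O) ≤ ENNReal.ofReal μ) :
    volume (Icc (0 : ℝ) (2 * Real.pi) \ (O ∩ Ioo α (α + β))) ≤
      ENNReal.ofReal (μ + (2 * Real.pi - β)) := by
  have h1 : Icc (0 : ℝ) (2 * Real.pi) \ (O ∩ Ioo α (α + β)) ⊆
      (Icc (0 : ℝ) (2 * Real.pi) \ O) ∪ (Icc 0 α ∪ Icc (α + β) (2 * Real.pi)) := by
    rintro θ ⟨h2, h3⟩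
    by_cases h4 : θ ∈ O
    · right
      by_cases h5 : θ ≤ α
      · exact Or.inl ⟨h2.1, h5⟩
      · refine Or.inr ⟨?_, h2.2⟩
        by_contra h6
        exact h3 ⟨h4, not_le.1 h5, not_le.1 h6⟩
    · exact Or.inl ⟨h2, h4⟩
  refine (measure_mono h1).trans ((measure_union_le _ _).trans ?_)
  refine (add_le_add h (measure_union_le _ _)).trans (le_of_eq ?_)
  rw [Real.volume_Icc, Real.volume_Icc, ← ENNReal.ofReal_add (by linarith) (by linarith),
    ← ENNReal.ofReal_add hμ (by linarith)]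
  congr 1
  ring

end Vale.Agent.P274
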