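import Vale.Agent.P274.B2

/-! Vector fields as endomorphisms of the algebra of holomorphic functions. -/

open Metric Set Filter Topology

noncomputable section

namespace Vale.Agent.P274.BM

variable {N n : ℕ} {M : BM N n} {F : Type*} [NormedAddCommGroup F] [NormedSpace ℂ F]

theorem ev_add (W W' : M.End) (x : M.X) : M.ev (W + W') x = M.ev W x + M.ev W' x := rfl

theorem ev_sub (W W' : M.End) (x : M.X) : M.ev (W - W') x = M.ev W x - M.ev W' x := rfl

theorem ev_neg (W : M.End) (x : M.X) : M.ev (-W) x = -M.ev W x := rfl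

theorem ev_smul (c : ℂ) (W : M.End) (x : M.X) : M.ev (c • W) x = c • M.ev W x := rfl

theorem ev_zero (x : M.X) : M.ev 0 x = 0 := rfl

theorem ev_sum {ι : Type*} (s : Finset ι) (W : ι → M.End) (x : M.X) :
    M.ev (∑ i ∈ s, W i) x = ∑ i ∈ s, M.ev (W i) x := by
  classical
  induction s using Finset.induction_on with
  | empty => simp [ev_zero]
  | insert i s hi ih => rw [Finset.sum_insert hi, Finset.sum_insert hi, ev_add, ih]

theorem hol_ev (W : M.End) : M.Hol (M.ev W) := by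
  exact fun x => holAt_pi_iff.2 fun m => (W (M.zc m)).2 x

/-- The vector field defined by a holomorphic tangent map. -/
def ofField (ξ : M.X → E N) (hξ : M.Hol ξ) (hT : ∀ x, ξ x ∈ M.T x) : M.End where
  toFun f := ⟨fun x => M.df f.1 x (ξ x), fun x =>
    HolAt.df_apply (f.2 x) (hξ x) (Eventually.of_forall hT)⟩
  map_add' f g := Subtype.ext (funext fun x => df_add (f.2 x) (g.2 x) _)
  map_smul' c f := Subtype.ext (funext fun x => df_const_smul (f.2 x) c _)

theorem ev_ofField (ξ : M.X → E N) (hξ : M.Hol ξ) (hT : ∀ x, ξ x ∈ M.T x) (x : M.X) :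
    M.ev (ofField ξ hξ hT) x = ξ x := by
  funext m
  have h1 := df_pi (f := M.ι) (M.holAt_ι x) (ξ x) m
  rw [df_ι (hT x)] at h1
  exact h1.symm

theorem isVF_ofField (ξ : M.X → E N) (hξ : M.Hol ξ) (hT : ∀ x, ξ x ∈ M.T x) :
    M.IsVF (ofField ξ hξ hT) := by
  intro x
  rw [ev_ofField]
  exact ⟨hT x, fun f => rfl⟩

theorem IsVF.ext {W W' : M.End} (hW : M.IsVF W) (hW' : M.IsVF W')
    (h : ∀ x, M.ev W x = M.ev W' x) : W = W' := by
  refine LinearMap.ext fun f => Subtype.ext (funext fun x => ?_)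
  rw [(hW x).2, (hW' x).2, h]

theorem IsVF.eq_zero_of_eventually {W : M.End} (hW : M.IsVF W) {x : M.X}
    (h : ∀ᶠ y in 𝓝 x, M.ev W y = 0) : W = 0 := by
  have h1 : M.ev W = fun _ => 0 :=
    (hol_ev W).eq_of_eventuallyEq (g := fun _ => 0) (M.holAt_const 0) h
  refine LinearMap.ext fun f => Subtype.ext (funext fun y => ?_)
  rw [(hW y).2, h1, map_zero]
  rfl

theorem isVF_zero : M.IsVF 0 := by
  intro x
  rw [ev_zero]
  refine ⟨zero_mem _, fun f => ?_⟩
  rw [map_zero]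
  rfl

theorem IsVF.add {W W' : M.End} (hW : M.IsVF W) (hW' : M.IsVF W') : M.IsVF (W + W') := by
  intro x
  rw [ev_add]
  refine ⟨add_mem (hW x).1 (hW' x).1, fun f => ?_⟩
  rw [map_add, ← (hW x).2, ← (hW' x).2]
  rfl

theorem IsVF.smul {W : M.End} (hW : M.IsVF W) (c : ℂ) : M.IsVF (c • W) := by
  intro x
  rw [ev_smul]
  refine ⟨Submodule.smul_mem _ c (hW x).1, fun f => ?_⟩
  rw [map_smul, ← (hW x).2]
  rfl

theorem IsVF.sum {ι : Type*} (s : Finset ι) {W : ι → M.End} (hW : ∀ i ∈ s, M.IsVF (W i)) :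
    M.IsVF (∑ i ∈ s, W i) := by
  classical
  induction s using Finset.induction_on with
  | empty => simpa using isVF_zero
  | insert i s hi ih =>
    rw [Finset.sum_insert hi]
    exact (hW i (Finset.mem_insert_self _ _)).add
      (ih fun j hj => hW j (Finset.mem_insert_of_mem hj))

theorem lie_apply (W W' : M.End) (f : M.O) : ⁅W, W'⁆ f = W (W' f) - W' (W f) := rfl

theorem ev_lie {W W' : M.End} (hW : M.IsVF W) (hW' : M.IsVF W') (x : M.X) :
    M.ev ⁅W, W'⁆ x = M.df (M.ev W') x (M.ev W x) - M.df (M.ev W) x (M.ev W' x) := by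
  funext m
  rw [Pi.sub_apply, df_pi (hol_ev W' x), df_pi (hol_ev W x)]
  have h1 := (hW x).2 (W' (M.zc m))
  have h2 := (hW' x).2 (W (M.zc m))
  change (W (W' (M.zc m))).1 x - (W' (W (M.zc m))).1 x = _
  rw [h1, h2]
  rfl

theorem c1_second [CompleteSpace F] {W : M.End} (hW : M.IsVF W) {f : M.X → F} {x : M.X}
    (hf : M.HolAt f x) (v : E N) :
    M.df (fun y => M.df f y (M.ev W y)) x v =
      M.df f x (M.df (M.ev W) x v) +
        fderiv ℂ (fderiv ℂ (f ∘ M.ψ x)) 0 (M.L x v) (M.L x (M.ev W x)) := by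
  have hg : AnalyticAt ℂ (f ∘ M.ψ x) 0 := hf
  have he : AnalyticAt ℂ (M.ev W ∘ M.ψ x) 0 := hol_ev W x
  have hw : DifferentiableAt ℂ (fun u => M.L x ((M.ev W ∘ M.ψ x) u)) 0 :=
    (M.L x).differentiableAt.comp _ he.differentiableAt
  have hb : ball (0 : E n) (M.r x) ∈ 𝓝 (0 : E n) := ball_mem_nhds _ (M.r_pos x)
  have h1 : (fun y => M.df f y (M.ev W y)) ∘ M.ψ x =ᶠ[𝓝 0]
      fun u => fderiv ℂ (f ∘ M.ψ x) u (M.L x ((M.ev W ∘ M.ψ x) u)) := by
    filter_upwards [hb, hg.eventually_analyticAt] with u hu hu'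
    exact df_eq_chart hu ((holAt_iff_chart hu).2 hu') (hW _).1
  have h2 : fderiv ℂ (fun u => M.L x ((M.ev W ∘ M.ψ x) u)) 0 =
      (M.L x).comp (fderiv ℂ (M.ev W ∘ M.ψ x) 0) :=
    ((M.L x).hasFDerivAt.comp _ he.differentiableAt.hasFDerivAt).fderiv
  change fderiv ℂ ((fun y => M.df f y (M.ev W y)) ∘ M.ψ x) 0 (M.L x v) = _
  rw [h1.fderiv_eq, fderiv_clm_apply hg.fderiv.differentiableAt hw, h2]
  simp [M.ψ_zero, df]

/-- The bracket formula for vector valued functions. -/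
theorem df_lie [CompleteSpace F] {W W' : M.End} (hW : M.IsVF W) (hW' : M.IsVF W')
    {f : M.X → F} {x : M.X} (hf : M.HolAt f x) :
    M.df f x (M.ev ⁅W, W'⁆ x) =
      M.df (fun y => M.df f y (M.ev W' y)) x (M.ev W x) -
        M.df (fun y => M.df f y (M.ev W y)) x (M.ev W' x) := by
  have hg : AnalyticAt ℂ (f ∘ M.ψ x) 0 := hf
  have hs := hg.contDiffAt.isSymmSndFDerivAt_of_omega (M.L x (M.ev W x)) (M.L x (M.ev W' x))
  rw [c1_second hW hf, c1_second hW' hf, ev_lie hW hW', map_sub, hs]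
  abel

theorem IsVF.lie {W W' : M.End} (hW : M.IsVF W) (hW' : M.IsVF W') : M.IsVF ⁅W, W'⁆ := by
  intro x
  constructor
  · have h1 := df_lie hW hW' (M.holAt_ι x)
    have e1 : (fun y => M.df M.ι y (M.ev W' y)) = M.ev W' := funext fun y => df_ι (hW' y).1
    have e2 : (fun y => M.df M.ι y (M.ev W y)) = M.ev W := funext fun y => df_ι (hW y).1
    rw [e1, e2, ← ev_lie hW hW'] at h1
    rw [← h1]
    exact df_ι_mem x _
  · intro f
    rw [df_lie hW hW' (f.2 x)]
    have e1 : (fun y => M.df f.1 y (M.ev W' y)) = (W' f).1 := funext fun y => ((hW' y).2 f).symm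
    have e2 : (fun y => M.df f.1 y (M.ev W y)) = (W f).1 := funext fun y => ((hW y).2 f).symm
    rw [e1, e2, ← (hW x).2, ← (hW' x).2]
    rfl

theorem isVF_of_mem_gC {W : M.End} (hW : W ∈ M.gC) : M.IsVF W := by
  let S : LieSubalgebra ℂ M.End :=
    { carrier := {W | M.IsVF W}
      add_mem' := fun ha hb => ha.add hb
      zero_mem' := isVF_zero
      smul_mem' := fun c _ ha => ha.smul c
      lie_mem' := fun ha hb => ha.lie hb }
  have h : M.gC ≤ S := LieSubalgebra.lieSpan_le.2 fun W ⟨_, h⟩ => h.vf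
  exact h hW

theorem mem_gC_of_mem_gR {W : M.End} (hW : W ∈ M.gR) : W ∈ M.gC :=
  LieSubalgebra.subset_lieSpan hW

theorem mem_q_iff (p : M.X) (W : M.gC) : W ∈ M.q p ↔ M.ev W.1 p = 0 := Iff.rfl

theorem lie_mem_q (p : M.X) {W W' : M.gC} (hW : W ∈ M.q p) (hW' : W' ∈ M.q p) :
    ⁅W, W'⁆ ∈ M.q p := by
  rw [mem_q_iff] at hW hW' ⊢
  have := ev_lie (isVF_of_mem_gC W.2) (isVF_of_mem_gC W'.2) p
  rw [hW, hW', map_zero, map_zero, sub_zero] at this
  exact this

theorem pull_apply (a : M.Aut) (f : M.O) (x : M.X) : (M.pull a f).1 x = f.1 (a • x) := rfl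

theorem pull_mul (a b : M.Aut) : M.pull (a * b) = M.pull b * M.pull a := by
  refine LinearMap.ext fun f => Subtype.ext (funext fun x => ?_)
  change f.1 ((a * b) • x) = f.1 (a • b • x)
  rw [mul_smul]

theorem pull_one : M.pull 1 = 1 := by
  refine LinearMap.ext fun f => Subtype.ext (funext fun x => ?_)
  change f.1 ((1 : M.Aut) • x) = f.1 x
  rw [one_smul]

theorem Ad_apply (a : M.Aut) (W : M.End) (f : M.O) (x : M.X) :
    (M.Ad a W f).1 x = (W (M.pull a f)).1 (a⁻¹ • x) := rfl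

theorem Ad_one (W : M.End) : M.Ad 1 W = W := by
  unfold Ad
  rw [inv_one, pull_one, one_mul, mul_one]

theorem Ad_mul (a b : M.Aut) (W : M.End) : M.Ad (a * b) W = M.Ad a (M.Ad b W) := by
  unfold Ad
  rw [mul_inv_rev, pull_mul, pull_mul]
  simp only [mul_assoc]

theorem Ad_add (a : M.Aut) (W W' : M.End) : M.Ad a (W + W') = M.Ad a W + M.Ad a W' := by
  unfold Ad
  rw [mul_add, add_mul]

theorem Ad_smul (a : M.Aut) (c : ℂ) (W : M.End) : M.Ad a (c • W) = c • M.Ad a W := by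
  unfold Ad
  rw [mul_smul_comm, smul_mul_assoc]

theorem Ad_sum (a : M.Aut) {ι : Type*} (s : Finset ι) (W : ι → M.End) :
    M.Ad a (∑ i ∈ s, W i) = ∑ i ∈ s, M.Ad a (W i) := by
  unfold Ad
  rw [Finset.mul_sum, Finset.sum_mul]

theorem c1_Ad_mul (a : M.Aut) (W W' : M.End) : M.Ad a (W * W') = M.Ad a W * M.Ad a W' := by
  have h : M.pull a * M.pull a⁻¹ = 1 := by rw [← pull_mul, inv_mul_cancel, pull_one]
  unfold Ad
  calc M.pull a⁻¹ * (W * W') * M.pull a
      = M.pull a⁻¹ * W * (M.pull a * M.pull a⁻¹) * W' * M.pull a := by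
        rw [h, mul_one, mul_assoc (M.pull a⁻¹) W W']
    _ = _ := by simp only [mul_assoc]

theorem Ad_lie (a : M.Aut) (W W' : M.End) : M.Ad a ⁅W, W'⁆ = ⁅M.Ad a W, M.Ad a W'⁆ := by
  change M.Ad a (W * W' - W' * W) = M.Ad a W * M.Ad a W' - M.Ad a W' * M.Ad a W
  rw [← c1_Ad_mul, ← c1_Ad_mul, eq_sub_iff_add_eq, ← Ad_add, sub_add_cancel]

theorem ev_Ad (a : M.Aut) {W : M.End} (hW : M.IsVF W) (x : M.X) :
    M.ev (M.Ad a W) (a • x) = M.df (fun y => M.ι (a • y)) x (M.ev W x) := by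
  funext m
  rw [df_pi (M.hol_smul a x)]
  change (W (M.pull a (M.zc m))).1 (a⁻¹ • a • x) = _
  rw [inv_smul_smul, (hW x).2]
  rfl

theorem IsVF.Ad {W : M.End} (hW : M.IsVF W) (a : M.Aut) : M.IsVF (M.Ad a W) := by
  intro y
  obtain ⟨x, rfl⟩ : ∃ x, y = a • x := ⟨a⁻¹ • y, (smul_inv_smul a y).symm⟩
  rw [ev_Ad a hW]
  refine ⟨df_mem_T (a := fun y => a • y) (M.hol_smul a x) _, fun f => ?_⟩
  rw [Ad_apply, inv_smul_smul, (hW x).2]
  exact df_comp (f := f.1) (a := fun y => a • y) (f.2 _) (M.hol_smul a x) _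

theorem IsFlow.Ad {θ : ℝ → M.Aut} {W : M.End} (h : M.IsFlow θ W) (a : M.Aut) :
    M.IsFlow (fun t => a * θ t * a⁻¹) (M.Ad a W) := by
  refine ⟨by rw [h.zero, mul_one, mul_inv_cancel], fun s t => ?_, h.vf.Ad a, fun x t => ?_⟩
  · rw [h.add]
    group
  · simp only [mul_smul]
    rw [ev_Ad a h.vf]
    exact (M.hol_smul a _).hasDerivAt_comp_real (c := fun t => θ t • a⁻¹ • x) (h.deriv _ t)

theorem Ad_mem_gR (a : M.Aut) {W : M.End} (hW : W ∈ M.gR) : M.Ad a W ∈ M.gR := by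
  obtain ⟨θ, h⟩ := hW
  exact ⟨_, h.Ad a⟩

theorem Ad_mem_gC (a : M.Aut) {W : M.End} (hW : W ∈ M.gC) : M.Ad a W ∈ M.gC := by
  let S : LieSubalgebra ℂ M.End :=
    { carrier := {W | M.Ad a W ∈ M.gC}
      add_mem' := fun {b c} hb hc => by
        change M.Ad a (b + c) ∈ M.gC
        rw [Ad_add]
        exact add_mem hb hc
      zero_mem' := by
        change M.Ad a 0 ∈ M.gC
        unfold Ad
        rw [mul_zero, zero_mul]
        exact zero_mem _
      smul_mem' := fun c b hb => by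
        change M.Ad a (c • b) ∈ M.gC
        rw [Ad_smul]
        exact M.gC.smul_mem c hb
      lie_mem' := fun {b c} hb hc => by
        change M.Ad a ⁅b, c⁆ ∈ M.gC
        rw [Ad_lie]
        exact M.gC.lie_mem hb hc }
  have h : M.gC ≤ S :=
    LieSubalgebra.lieSpan_le.2 fun W hW => mem_gC_of_mem_gR (Ad_mem_gR a hW)
  exact h hW

/-- The adjoint action on the complex Lie algebra. -/
def AdC (a : M.Aut) : M.gC ≃ₗ⁅ℂ⁆ M.gC where
  toFun W := ⟨M.Ad a W.1, Ad_mem_gC a W.2⟩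
  map_add' W W' := Subtype.ext (Ad_add a W.1 W'.1)
  map_smul' c W := Subtype.ext (Ad_smul a c W.1)
  map_lie' := fun {W W'} => Subtype.ext (Ad_lie a W.1 W'.1)
  invFun W := ⟨M.Ad a⁻¹ W.1, Ad_mem_gC a⁻¹ W.2⟩
  left_inv W := Subtype.ext (by
    change M.Ad a⁻¹ (M.Ad a W.1) = W.1
    rw [← Ad_mul, inv_mul_cancel, Ad_one])
  right_inv W := Subtype.ext (by
    change M.Ad a (M.Ad a⁻¹ W.1) = W.1
    rw [← Ad_mul, mul_inv_cancel, Ad_one])

theorem AdC_coe (a : M.Aut) (W : M.gC) : (AdC a W).1 = M.Ad a W.1 := rfl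

theorem AdC_mem_q (a : M.Aut) (x : M.X) (W : M.gC) : AdC a W ∈ M.q (a • x) ↔ W ∈ M.q x := by
  have hW := isVF_of_mem_gC W.2
  rw [mem_q_iff, mem_q_iff, AdC_coe, ev_Ad a hW]
  constructor
  · intro h
    rw [← df_aut_inv a x (hW x).1, h, map_zero]
  · intro h
    rw [h, map_zero]

theorem IsFlow.inv {θ : ℝ → M.Aut} {W : M.End} (h : M.IsFlow θ W) (t : ℝ) :
    (θ t)⁻¹ = θ (-t) := by
  rw [inv_eq_iff_mul_eq_one, ← h.add, add_neg_cancel, h.zero]

theorem IsFlow.smul {θ : ℝ → M.Aut} {W : M.End} (h : M.IsFlow θ W) (c : ℝ) :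
    M.IsFlow (fun t => θ (c * t)) ((c : ℂ) • W) := by
  refine ⟨by rw [mul_zero, h.zero], fun s t => by rw [mul_add, h.add], h.vf.smul _, fun x t => ?_⟩
  have h1 := (h.deriv x (c * t)).scomp t ((hasDerivAt_id t).const_mul c)
  rw [ev_smul, Complex.coe_smul]
  rw [mul_one] at h1
  exact h1

theorem isFlow_zero : M.IsFlow (fun _ => 1) 0 := by
  exact ⟨rfl, fun _ _ => (one_mul _).symm, isVF_zero, fun x t => hasDerivAt_const _ _⟩

theorem IsFlow.hasDerivAt {θ : ℝ → M.Aut} {W : M.End} (h : M.IsFlow θ W) {f : M.X → F}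
    (hf : M.Hol f) (x : M.X) (t : ℝ) :
    HasDerivAt (fun t => f (θ t • x)) (M.df f (θ t • x) (M.ev W (θ t • x))) t := by
  exact (hf _).hasDerivAt_comp_real (c := fun t => θ t • x) (h.deriv x t)

theorem IsFlow.continuous {θ : ℝ → M.Aut} {W : M.End} (h : M.IsFlow θ W) :
    Continuous (fun p : ℝ × M.X => θ p.1 • p.2) := by
  obtain ⟨R, -, hR⟩ := M.exists_bound
  refine continuous_induced_rng.2 (continuous_iff_continuousAt.2 fun p => ?_)
  exact vitali_moving (l := 𝓝 p) (f := fun j y => M.ι (θ j.1 • y)) (g := fun y => M.ι (θ p.1 • y))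
    (Eventually.of_forall fun j => M.hol_smul _)
    (locBdd_of_bound (C := R) (Eventually.of_forall fun j y => hR _))
    (fun y => (h.deriv y p.1).continuousAt.tendsto.comp continuous_fst.continuousAt)
    (x := fun j => j.2) continuous_snd.continuousAt

theorem IsFlow.Ad_self {θ : ℝ → M.Aut} {W : M.End} (h : M.IsFlow θ W) (t : ℝ) :
    M.Ad (θ t) W = W := by
  refine (h.vf.Ad _).ext h.vf fun y => ?_
  obtain ⟨x, rfl⟩ : ∃ x, y = θ t • x := ⟨(θ t)⁻¹ • y, (smul_inv_smul _ y).symm⟩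
  rw [ev_Ad _ h.vf]
  have h1 := h.hasDerivAt (M.hol_smul (θ t)) x 0
  rw [h.zero, one_smul] at h1
  have h2 : HasDerivAt (fun s => M.ι (θ (t + s) • x)) (M.ev W (θ t • x)) 0 := by
    have h3 := h.deriv x (t + 0)
    have h4 := h3.comp_const_add t 0
    rwa [add_zero] at h4
  simp only [h.add, mul_smul] at h2
  exact h1.unique h2

theorem c1_unique {ξ : M.X → E N} (hξ : M.Hol ξ) {c c' : ℝ → M.X}
    (hc : ∀ t, HasDerivAt (M.ι ∘ c) (ξ (c t)) t) (hc' : ∀ t, HasDerivAt (M.ι ∘ c') (ξ (c' t)) t)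
    (h0 : c 0 = c' 0) (t : ℝ) : c t = c' t := by
  classical
  have cc : Continuous c :=
    continuous_induced_rng.2 (continuous_iff_continuousAt.2 fun s => (hc s).continuousAt)
  have cc' : Continuous c' :=
    continuous_induced_rng.2 (continuous_iff_continuousAt.2 fun s => (hc' s).continuousAt)
  have hcl : IsClosed {s | c s = c' s} := isClosed_eq cc cc'
  have hop : IsOpen {s | c s = c' s} := by
    rw [isOpen_iff_mem_nhds]
    intro s hs
    obtain ⟨C, hC, hCn⟩ := exists_compact_mem_nhds (c s)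
    obtain ⟨C', hC', -, δ, K, hδ, hK, -, hL⟩ := cauchy_lip (M := M) (F := E N) hC
    obtain ⟨b, hb⟩ := hC'.exists_bound_of_continuousOn hξ.continuous.continuousOn
    have hS : C ∩ ball (c s) (δ / 2) ∈ 𝓝 (c s) := inter_mem hCn (ball_mem_nhds _ (half_pos hδ))
    have hlip : LipschitzOnWith (Real.toNNReal (K * b))
        (fun z : E N => if hz : z ∈ M.U then ξ ⟨z, hz⟩ else 0)
        (Subtype.val '' (C ∩ ball (c s) (δ / 2))) := by
      refine LipschitzOnWith.of_dist_le' ?_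
      rintro _ ⟨y, hy, rfl⟩ _ ⟨z, hz, rfl⟩
      rw [dif_pos y.2, dif_pos z.2, dist_eq_norm]
      refine hL ξ b hξ hb z hz.1 y ?_
      have e1 := dist_triangle_right y z (c s)
      have e2 := mem_ball.1 hy.2
      have e3 := mem_ball.1 hz.2
      linarith
    have key := ODE_solution_unique_of_eventually (t₀ := s) (f := M.ι ∘ c) (g := M.ι ∘ c')
      (v := fun _ z => if hz : z ∈ M.U then ξ ⟨z, hz⟩ else 0)
      (s := fun _ => Subtype.val '' (C ∩ ball (c s) (δ / 2))) (Eventually.of_forall fun _ => hlip)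
      (by
        filter_upwards [cc.continuousAt.eventually_mem hS] with u hu
        refine ⟨?_, c u, hu, rfl⟩
        have : (M.ι ∘ c) u ∈ M.U := (c u).2
        rw [dif_pos this]
        exact hc u)
      (by
        have hS' : C ∩ ball (c s) (δ / 2) ∈ 𝓝 (c' s) := by
          have e : c s = c' s := hs
          rw [← e]
          exact hS
        filter_upwards [cc'.continuousAt.eventually_mem hS'] with u hu
        refine ⟨?_, c' u, hu, rfl⟩
        have : (M.ι ∘ c') u ∈ M.U := (c' u).2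
        rw [dif_pos this]
        exact hc' u)
      (congrArg Subtype.val hs)
    filter_upwards [key] with u hu
    exact Subtype.ext hu
  have := (IsClopen.eq_univ ⟨hcl, hop⟩ ⟨0, h0⟩)
  have ht : t ∈ {s | c s = c' s} := this ▸ mem_univ t
  exact ht

/-- Uniqueness of integral curves. -/
theorem IsFlow.eq_of_curve {θ : ℝ → M.Aut} {W : M.End} (h : M.IsFlow θ W) {c : ℝ → M.X}
    (hc : ∀ t, HasDerivAt (M.ι ∘ c) (M.ev W (c t)) t) (t : ℝ) : c t = θ t • c 0 := by
  exact c1_unique (hol_ev W) (c' := fun t => θ t • c 0) hc (h.deriv (c 0))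
    (by rw [h.zero, one_smul]) t

theorem IsFlow.fix {θ : ℝ → M.Aut} {W : M.End} (h : M.IsFlow θ W) {p : M.X}
    (hp : M.ev W p = 0) (t : ℝ) : θ t • p = p := by
  refine (h.eq_of_curve (c := fun _ => p) (fun s => ?_) t).symm
  rw [hp]
  exact hasDerivAt_const _ _

theorem IsFlow.comm {θ θ' : ℝ → M.Aut} {W W' : M.End} (h : M.IsFlow θ W) (h' : M.IsFlow θ' W')
    (hc : ∀ s, M.Ad (θ s) W' = W') (s t : ℝ) : θ s * θ' t = θ' t * θ s := by
  have h1 := h'.Ad (θ s)
  rw [hc] at h1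
  have h2 : θ s * θ' t * (θ s)⁻¹ = θ' t := by
    refine Subtype.ext (Equiv.ext fun x => ?_)
    have h3 := h'.eq_of_curve (c := fun t => (θ s * θ' t * (θ s)⁻¹) • x) (h1.deriv x) t
    have h4 := h1.zero
    rw [h4, one_smul] at h3
    exact h3
  rw [← mul_inv_eq_iff_eq_mul]
  exact h2

end Vale.Agent.P274.BM
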