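import Vale.Agent.P274.B3
import Vale.Agent.P274.C1

/-! H. Cartan's estimates; normalised limits of automorphisms are infinitesimal generators. -/

open Metric Set Filter Topology

namespace Vale.Agent.P274.CM

variable {N n : ℕ} (M : CM N n)

theorem c2_hol (a : M.Aut) : M.Hol (fun y => M.ι (a • y) - M.ι y) :=
  fun x => (M.hol_smul a x).sub (M.holAt_ι x)

theorem c2_dist (x y : M.X) : dist x y = ‖M.ι x - M.ι y‖ := by
  rw [Subtype.dist_eq, dist_eq_norm]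

theorem c2_bound : ∃ R : ℝ, 0 < R ∧ ∀ x y : M.X, ‖M.ι x - M.ι y‖ ≤ R := by
  obtain ⟨R, hR, h⟩ := M.exists_bound
  refine ⟨R + R, by linarith, fun x y => (norm_sub_le _ _).trans (add_le_add (h x) (h y))⟩

/-- Cartan's estimate for iterates. -/
theorem iterate_est {C : Set M.X} (hC : IsCompact C) : ∃ C', IsCompact C' ∧ C ⊆ C' ∧
    ∃ η₀ K : ℝ, 0 < η₀ ∧ 0 < K ∧ ∀ (a : M.Aut) (m : ℕ) (η : ℝ), η ≤ η₀ →
      (∀ k < m, ∀ y ∈ C', ‖M.ι (a ^ k • y) - M.ι y‖ ≤ η) →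
      (∀ y ∈ C', ‖M.ι (a • y) - M.ι y‖ ≤ η) → ∀ x ∈ C,
        ‖M.ι (a ^ m • x) - M.ι x - (m : ℂ) • (M.ι (a • x) - M.ι x)‖ ≤
          K * η * m * ‖M.ι (a • x) - M.ι x‖ := by
  obtain ⟨C', hC', hCC, δ, K, hδ, hK, -, hL⟩ := BM.cauchy_lip (M := M.toBM) (F := E N) hC
  refine ⟨C', hC', hCC, δ / 2, K, half_pos hδ, hK, fun a m η hη h1 h2 x hx => ?_⟩
  have hd : dist (a • x) x < δ := by
    rw [c2_dist]
    linarith [h2 x (hCC hx)]
  induction m with
  | zero => simp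
  | succ m ih =>
    have e1 := ih fun k hk => h1 k (Nat.lt_succ_of_lt hk)
    have e2 := hL _ η (M.c2_hol (a ^ m)) (h1 m (Nat.lt_succ_self m)) x hx (a • x) hd
    rw [c2_dist, ← mul_smul, ← pow_succ] at e2
    have e : M.ι (a ^ (m + 1) • x) - M.ι x - ((m + 1 : ℕ) : ℂ) • (M.ι (a • x) - M.ι x) =
        (M.ι (a ^ m • x) - M.ι x - (m : ℂ) • (M.ι (a • x) - M.ι x)) +
          (M.ι (a ^ (m + 1) • x) - M.ι (a • x) - (M.ι (a ^ m • x) - M.ι x)) := by
      push_cast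
      rw [add_smul, one_smul]
      abel
    rw [e]
    refine (norm_add_le _ _).trans ((add_le_add e1 e2).trans (le_of_eq ?_))
    push_cast
    ring

/-- Uniform convergence to the identity on compact sets. -/
theorem c2_unif {ι : Type*} {l : Filter ι} [l.NeBot] (a : ι → M.Aut) {x₀ : M.X}
    (h : ∀ᶠ x in 𝓝 x₀, Tendsto (fun j => M.ι (a j • x) - M.ι x) l (𝓝 0)) {C : Set M.X}
    (hC : IsCompact C) {ε : ℝ} (hε : 0 < ε) :
    ∀ᶠ j in l, ∀ y ∈ C, ‖M.ι (a j • y) - M.ι y‖ < ε := by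
  obtain ⟨R, -, hR⟩ := M.c2_bound
  have hf : ∀ᶠ j in l, M.Hol (fun y => M.ι (a j • y) - M.ι y) :=
    Eventually.of_forall fun j => M.c2_hol _
  have hb : M.LocBdd l (fun j y => M.ι (a j • y) - M.ι y) :=
    BM.locBdd_of_bound (C := R) (Eventually.of_forall fun j y => hR _ _)
  have hp := BM.tendsto_of_eventually hf hb (g := fun _ => 0) (M.holAt_const 0) h
  have hu := (BM.vitali_hol hf hb hp).2.1
  have hu' := (tendstoLocallyUniformlyOn_iff_tendstoUniformlyOn_of_compact hC).1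
    (hu.tendstoLocallyUniformlyOn (s := C))
  filter_upwards [Metric.tendstoUniformlyOn_iff.1 hu' ε hε] with j hj y hy
  have := hj y hy
  rwa [dist_comm, dist_zero_right] at this

theorem c2_qual {B C : Set M.X} {x₀ : M.X} (hB : B ∈ 𝓝 x₀) (hC : IsCompact C) {ε : ℝ}
    (hε : 0 < ε) : ∃ η : ℝ, 0 < η ∧ ∀ a : M.Aut, (∀ y ∈ B, ‖M.ι (a • y) - M.ι y‖ ≤ η) →
      ∀ y ∈ C, ‖M.ι (a • y) - M.ι y‖ ≤ ε := by
  by_contra hcon
  push Not at hcon
  choose a ha y hy hlt using fun j : ℕ => hcon (1 / ((j : ℝ) + 1)) Nat.one_div_pos_of_nat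
  have h1 : ∀ᶠ x in 𝓝 x₀, Tendsto (fun j => M.ι (a j • x) - M.ι x) atTop (𝓝 0) := by
    filter_upwards [hB] with x hx
    exact squeeze_zero_norm (fun j => ha j x hx) tendsto_one_div_add_atTop_nhds_zero_nat
  obtain ⟨j, hj⟩ := (M.c2_unif a h1 hC hε).exists
  exact lt_asymm (hj _ (hy j)) (hlt j)

theorem c2_two_sided {u v : E N} {m : ℕ} (h : ‖u - (m : ℂ) • v‖ ≤ 1 / 2 * m * ‖v‖) :
    m * ‖v‖ ≤ 2 * ‖u‖ ∧ ‖u‖ ≤ 2 * (m * ‖v‖) := by
  have e : ‖(m : ℂ) • v‖ = m * ‖v‖ := by rw [norm_smul, Complex.norm_natCast]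
  have e1 := norm_sub_norm_le u ((m : ℂ) • v)
  have e2 := norm_sub_norm_le ((m : ℂ) • v) u
  rw [norm_sub_rev] at e2
  have e3 : (0 : ℝ) ≤ m * ‖v‖ := by positivity
  rw [e] at e1 e2
  constructor <;> linarith

/-- The displacement on a compact set is controlled by the displacement on an open set. -/
theorem small_disp {O C : Set M.X} (hO : IsOpen O) (hne : O.Nonempty) (hC : IsCompact C) :
    ∃ η K : ℝ, 0 < η ∧ 0 < K ∧ ∀ (a : M.Aut) (d : ℝ), 0 ≤ d → d ≤ η →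
      (∀ y ∈ O, ‖M.ι (a • y) - M.ι y‖ ≤ d) → ∀ x ∈ C, ‖M.ι (a • x) - M.ι x‖ ≤ K * d := by
  classical
  obtain ⟨x₀, hx₀⟩ := hne
  obtain ⟨B, hB, hBn, hBO⟩ := exists_compact_subset hO hx₀
  have hBn' : B ∈ 𝓝 x₀ := mem_interior_iff_mem_nhds.1 hBn
  obtain ⟨C', hC', -, η₀, K, hη₀, hK, hit⟩ := M.iterate_est (hC.union hB)
  obtain ⟨R, hR0, hR⟩ := M.c2_bound
  have hε : 0 < min η₀ (1 / (2 * K)) := lt_min hη₀ (by positivity)
  obtain ⟨η, hη, hq⟩ := M.c2_qual hBn' hC' hε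
  refine ⟨η, 4 * R / η, hη, by positivity, fun a d hd hdη ha x hx => ?_⟩
  have key : ∀ m : ℕ, (∀ k < m, ∀ y ∈ B, ‖M.ι (a ^ k • y) - M.ι y‖ ≤ η) → ∀ x ∈ C ∪ B,
      m * ‖M.ι (a • x) - M.ι x‖ ≤ 2 * ‖M.ι (a ^ m • x) - M.ι x‖ ∧
        ‖M.ι (a ^ m • x) - M.ι x‖ ≤ 2 * (m * ‖M.ι (a • x) - M.ι x‖) := by
    intro m hm x hx
    refine c2_two_sided ((hit a m _ (min_le_left _ _) (fun k hk => hq _ (hm k hk))
      (hq a fun y hy => (ha y (hBO hy)).trans hdη) x hx).trans ?_)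
    have : K * min η₀ (1 / (2 * K)) ≤ 1 / 2 := by
      calc K * min η₀ (1 / (2 * K)) ≤ K * (1 / (2 * K)) := by gcongr; exact min_le_right _ _
        _ = 1 / 2 := by field_simp
    gcongr
  by_cases hall : ∃ m : ℕ, ∃ y ∈ B, η < ‖M.ι (a ^ m • y) - M.ι y‖
  · have hk := key (Nat.find hall) fun k hk y hy => by
      have := Nat.find_min hall hk
      push Not at this
      exact this y hy
    obtain ⟨y, hy, hlt⟩ := Nat.find_spec hall
    generalize Nat.find hall = m at hk hlt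
    have e1 := (hk y (Or.inr hy)).2
    have e2 := (hk x (Or.inl hx)).1
    have e3 := hR (a ^ m • x) x
    have e4 := ha y (hBO hy)
    have hm : (0 : ℝ) ≤ m := Nat.cast_nonneg m
    have e5 : η ≤ 2 * (m * d) := by nlinarith [mul_le_mul_of_nonneg_left e4 hm]
    rw [div_mul_eq_mul_div, le_div_iff₀ hη]
    have e6 := norm_nonneg (M.ι (a • x) - M.ι x)
    nlinarith [mul_le_mul_of_nonneg_left e5 e6, mul_le_mul_of_nonneg_left (e2.trans
      (mul_le_mul_of_nonneg_left e3 zero_le_two)) hd]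
  · push Not at hall
    have h0 : ‖M.ι (a • x) - M.ι x‖ ≤ 0 := by
      by_contra hpos
      push Not at hpos
      obtain ⟨m, hm⟩ := exists_nat_gt (2 * R / ‖M.ι (a • x) - M.ι x‖)
      rw [div_lt_iff₀ hpos] at hm
      have e2 := (key m (fun k _ => hall k) x (Or.inl hx)).1
      have e3 := hR (a ^ m • x) x
      linarith
    exact h0.trans (by positivity)

/-- Estimates for natural powers. -/
theorem c2_pow {O C : Set M.X} (hO : IsOpen O) (hne : O.Nonempty) (hC : IsCompact C) :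
    ∃ t K : ℝ, 0 < t ∧ 0 < K ∧ ∀ (a : M.Aut) (D : ℝ) (k : ℕ), 0 ≤ D →
      (∀ y ∈ O, ‖M.ι (a • y) - M.ι y‖ ≤ D) → k * D ≤ t → ∀ x ∈ C,
        ‖M.ι (a ^ k • x) - M.ι x‖ ≤ K * (k * D) ∧
        ‖M.ι (a ^ k • x) - M.ι x - (k : ℂ) • (M.ι (a • x) - M.ι x)‖ ≤ K * (k * D) ^ 2 := by
  obtain ⟨x₀, hx₀⟩ := hne
  obtain ⟨B, hB, hBn, hBO⟩ := exists_compact_subset hO hx₀
  obtain ⟨C', hC', hCC, η₀, K, hη₀, hK, hit⟩ := M.iterate_est (hC.union hB)
  obtain ⟨η, K1, hη, hK1, hsd⟩ := M.small_disp isOpen_interior ⟨x₀, hBn⟩ hC'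
  obtain ⟨t, ht, ht1, ht2, ht3⟩ : ∃ t : ℝ, 0 < t ∧ 2 * t ≤ η ∧ K1 * (2 * t) ≤ η₀ ∧
      K * (K1 * (2 * t)) ≤ 1 / 2 := by
    refine ⟨min (η / 2) (min (η₀ / (2 * K1)) (1 / (4 * K * K1))), by positivity, ?_, ?_, ?_⟩
    · linarith [min_le_left (η / 2) (min (η₀ / (2 * K1)) (1 / (4 * K * K1)))]
    · calc K1 * (2 * min (η / 2) (min (η₀ / (2 * K1)) (1 / (4 * K * K1))))
          ≤ K1 * (2 * (η₀ / (2 * K1))) := by
            gcongr
            exact (min_le_right _ _).trans (min_le_left _ _)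
        _ = η₀ := by field_simp
    · calc K * (K1 * (2 * min (η / 2) (min (η₀ / (2 * K1)) (1 / (4 * K * K1)))))
          ≤ K * (K1 * (2 * (1 / (4 * K * K1)))) := by
            gcongr
            exact (min_le_right _ _).trans (min_le_right _ _)
        _ = 1 / 2 := by field_simp; norm_num
  refine ⟨t, 2 * K1 + 4 * K * K1 ^ 2, ht, by positivity, fun a D k hD ha => ?_⟩
  have est : ∀ k : ℕ, 1 ≤ k → k * D ≤ t →
      (∀ i < k, ∀ y ∈ B, ‖M.ι (a ^ i • y) - M.ι y‖ ≤ 2 * (i * D)) → ∀ x ∈ C ∪ B,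
      ‖M.ι (a ^ k • x) - M.ι x - (k : ℂ) • (M.ι (a • x) - M.ι x)‖ ≤
        K * (K1 * (2 * (k * D))) * k * ‖M.ι (a • x) - M.ι x‖ := by
    intro k hk hkt h x hx
    have hk' : (1 : ℝ) ≤ k := by exact_mod_cast hk
    have hkD : D ≤ k * D := le_mul_of_one_le_left hD hk'
    refine hit a k _ (le_trans (by gcongr) ht2) (fun i hi y hy => ?_) (fun y hy => ?_) x hx
    · have hik : (i : ℝ) * D ≤ k * D := by gcongr
      refine hsd (a ^ i) (2 * (k * D)) (by positivity) (by linarith) (fun z hz => ?_) y hy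
      exact (h i hi z (interior_subset hz)).trans (by linarith)
    · refine hsd a (2 * (k * D)) (by positivity) (by linarith) (fun z hz => ?_) y hy
      exact (ha z (hBO (interior_subset hz))).trans (by linarith)
  have boot : ∀ k : ℕ, k * D ≤ t → ∀ y ∈ B, ‖M.ι (a ^ k • y) - M.ι y‖ ≤ 2 * (k * D) := by
    intro k
    induction k using Nat.strong_induction_on with
    | _ k ih =>
      intro hkt y hy
      rcases Nat.eq_zero_or_pos k with rfl | hk
      · simp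
      · have e1 := est k hk hkt (fun i hi => ih i hi (le_trans (by gcongr) hkt)) y (Or.inr hy)
        have e2 : K * (K1 * (2 * (k * D))) ≤ 1 / 2 := le_trans (by gcongr) ht3
        have e3 := (c2_two_sided (e1.trans (by gcongr))).2
        refine e3.trans ?_
        gcongr
        exact ha y (hBO hy)
  intro hkt x hx
  have hkD : (0 : ℝ) ≤ k * D := by positivity
  constructor
  · have := hsd (a ^ k) (2 * (k * D)) (by positivity) (by linarith)
      (fun z hz => boot k hkt z (interior_subset hz)) x (hCC (Or.inl hx))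
    nlinarith [mul_nonneg (show 0 ≤ 4 * K * K1 ^ 2 by positivity) hkD]
  · rcases Nat.eq_zero_or_pos k with rfl | hk
    · simp
    · have hk' : (1 : ℝ) ≤ k := by exact_mod_cast hk
      have hkD' : D ≤ k * D := le_mul_of_one_le_left hD hk'
      have e1 := est k hk hkt (fun i hi => boot i (le_trans (by gcongr) hkt)) x (Or.inl hx)
      have e2 := hsd a D hD (by linarith) (fun z hz => ha z (hBO (interior_subset hz))) x
        (hCC (Or.inl hx))
      calc _ ≤ K * (K1 * (2 * (k * D))) * k * (K1 * D) := e1.trans (by gcongr)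
        _ = 2 * K * K1 ^ 2 * (k * D) ^ 2 := by ring
        _ ≤ _ := by
          gcongr
          nlinarith [mul_pos hK (pow_pos hK1 2)]

/-- Estimates for integer powers. -/
theorem c2_zpow {O C : Set M.X} (hO : IsOpen O) (hne : O.Nonempty) (hC : IsCompact C) :
    ∃ t K : ℝ, 0 < t ∧ 0 < K ∧ ∀ (a : M.Aut) (D : ℝ) (k : ℤ), 0 ≤ D →
      (∀ y ∈ O, ‖M.ι (a • y) - M.ι y‖ ≤ D) → (∀ y ∈ O, ‖M.ι (a⁻¹ • y) - M.ι y‖ ≤ D) →
      |(k : ℝ)| * D ≤ t → ∀ x ∈ C,
        ‖M.ι (a ^ k • x) - M.ι x‖ ≤ K * (|(k : ℝ)| * D) ∧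
        ‖M.ι (a ^ k • x) - M.ι x - (k : ℂ) • (M.ι (a • x) - M.ι x)‖ ≤
          K * (|(k : ℝ)| * D) ^ 2 := by
  obtain ⟨C', hC', hCC, δ, K0, hδ, hK0, -, hL⟩ := BM.cauchy_lip (M := M.toBM) (F := E N) hC
  obtain ⟨t, K, ht, hK, hp⟩ := M.c2_pow hO hne hC'
  refine ⟨min t (δ / (2 * K)), K + K0 * K ^ 2, by positivity, by positivity,
    fun a D k hD ha ha' hkt x hx => ?_⟩
  have hKK : K ≤ K + K0 * K ^ 2 := le_add_of_nonneg_right (by positivity)
  obtain ⟨m, rfl | rfl⟩ := k.eq_nat_or_neg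
  · simp only [Int.cast_natCast, Nat.abs_cast, zpow_natCast] at hkt ⊢
    obtain ⟨e1, e2⟩ := hp a D m hD ha (hkt.trans (min_le_left _ _)) x (hCC hx)
    exact ⟨e1.trans (by gcongr), e2.trans (by gcongr)⟩
  · simp only [Int.cast_neg, Int.cast_natCast, abs_neg, Nat.abs_cast, zpow_neg, zpow_natCast,
      ← inv_pow] at hkt ⊢
    obtain ⟨e1, e2⟩ := hp a⁻¹ D m hD ha' (hkt.trans (min_le_left _ _)) x (hCC hx)
    refine ⟨e1.trans (by gcongr), ?_⟩
    rcases Nat.eq_zero_or_pos m with rfl | hm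
    · simp
    have hm' : (1 : ℝ) ≤ m := by exact_mod_cast hm
    have hmD : D ≤ m * D := le_mul_of_one_le_left hD hm'
    have hDt : ((1 : ℕ) : ℝ) * D ≤ t := by
      rw [Nat.cast_one, one_mul]
      exact hmD.trans (hkt.trans (min_le_left _ _))
    have f1 : ∀ y ∈ C', ‖M.ι (a • y) - M.ι y‖ ≤ K * D := fun y hy => by
      simpa using (hp a D 1 hD ha hDt y hy).1
    have f2 : ‖M.ι (a⁻¹ • x) - M.ι x‖ ≤ K * D := by
      simpa using (hp a⁻¹ D 1 hD ha' hDt x (hCC hx)).1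
    have f3 : K * D < δ := by
      have : D ≤ δ / (2 * K) := hmD.trans (hkt.trans (min_le_right _ _))
      rw [le_div_iff₀ (by positivity)] at this
      nlinarith [mul_nonneg hK.le hD]
    have f4 := hL _ (K * D) (M.c2_hol a) f1 x hx (a⁻¹ • x) (by rw [c2_dist]; linarith)
    rw [c2_dist, smul_inv_smul] at f4
    have e : M.ι (a⁻¹ ^ m • x) - M.ι x - -(m : ℂ) • (M.ι (a • x) - M.ι x) =
        (M.ι (a⁻¹ ^ m • x) - M.ι x - (m : ℂ) • (M.ι (a⁻¹ • x) - M.ι x)) -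
          (m : ℂ) • (M.ι x - M.ι (a⁻¹ • x) - (M.ι (a • x) - M.ι x)) := by
      simp only [smul_sub, neg_smul]
      abel
    rw [e]
    refine (norm_sub_le _ _).trans ?_
    rw [norm_smul, Complex.norm_natCast]
    have f5 : ‖M.ι x - M.ι (a⁻¹ • x) - (M.ι (a • x) - M.ι x)‖ ≤ K0 * (K * D) * (K * D) :=
      f4.trans (by gcongr)
    have f6 : (m : ℝ) * (K0 * (K * D) * (K * D)) ≤ K0 * K ^ 2 * (m * D) ^ 2 := by
      have : (m : ℝ) ≤ m ^ 2 := by nlinarith
      calc (m : ℝ) * (K0 * (K * D) * (K * D)) ≤ m ^ 2 * (K0 * (K * D) * (K * D)) := by gcongr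
        _ = _ := by ring
    have f7 := mul_le_mul_of_nonneg_left f5 (Nat.cast_nonneg (α := ℝ) m)
    linarith

/-- The inverse of an automorphism close to the identity is close to the identity. -/
theorem c2_inv {O : Set M.X} (hO : IsOpen O) (hne : O.Nonempty) :
    ∃ O' : Set M.X, IsOpen O' ∧ O'.Nonempty ∧ ∃ η K : ℝ, 0 < η ∧ 0 < K ∧
      ∀ (a : M.Aut) (d : ℝ), 0 ≤ d → d ≤ η → (∀ y ∈ O, ‖M.ι (a • y) - M.ι y‖ ≤ d) →
        (∀ y ∈ O', ‖M.ι (a • y) - M.ι y‖ ≤ K * d) ∧ ∀ y ∈ O', ‖M.ι (a⁻¹ • y) - M.ι y‖ ≤ K * d := by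
  obtain ⟨x₀, hx₀⟩ := hne
  obtain ⟨B, hB, hBn⟩ := exists_compact_mem_nhds x₀
  obtain ⟨ε, hε, hεB⟩ := Metric.mem_nhds_iff.1 hBn
  obtain ⟨C', hC', hT⟩ := M.T1 (isCompact_singleton (x := x₀)) hB
  obtain ⟨η, K, hη, hK, hsd⟩ := M.small_disp hO ⟨x₀, hx₀⟩ (hB.union hC')
  refine ⟨interior B, isOpen_interior, ⟨x₀, mem_interior_iff_mem_nhds.2 hBn⟩, min η (ε / 2), K,
    by positivity, hK, fun a d hd hdη ha => ?_⟩
  have h1 := hsd a d hd (hdη.trans (min_le_left _ _)) ha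
  refine ⟨fun y hy => h1 y (Or.inl (interior_subset hy)), fun y hy => ?_⟩
  have h2 : a • x₀ ∈ B := hεB (by
    rw [mem_ball, c2_dist]
    linarith [ha x₀ hx₀, min_le_right η (ε / 2)])
  have h3 := hT (fun y => a⁻¹ • y) (M.hol_smul a⁻¹) ⟨a • x₀, h2, inv_smul_smul a x₀⟩ y
    (interior_subset hy)
  have h4 := h1 _ (Or.inr h3)
  rwa [smul_inv_smul, norm_sub_rev] at h4

/-- Orbits of bounded normalised length stay in a compact set. -/
theorem c2_cpt {ι : Type*} {l : Filter ι} (a : ι → M.Aut) (d : ι → ℝ)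
    (hd : ∀ᶠ j in l, 0 < d j) (hd0 : Tendsto d l (𝓝 0)) (p : M.X) {t₀ : ℝ} (ht₀ : 0 < t₀)
    {C₀ : Set M.X} (hC₀ : IsCompact C₀)
    (h0 : ∀ᶠ j in l, ∀ k : ℤ, |(k : ℝ)| * d j ≤ t₀ → a j ^ k • p ∈ C₀) (T : ℝ) :
    ∃ C, IsCompact C ∧ ∀ᶠ j in l, ∀ k : ℤ, |(k : ℝ)| * d j ≤ T → a j ^ k • p ∈ C := by
  have ind : ∀ i : ℕ, ∃ C, IsCompact C ∧
      ∀ᶠ j in l, ∀ k : ℤ, |(k : ℝ)| * d j ≤ (3 / 2) ^ i * t₀ → a j ^ k • p ∈ C := by
    intro i
    induction i with
    | zero => exact ⟨C₀, hC₀, by simpa using h0⟩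
    | succ i ih =>
      obtain ⟨C, hC, h⟩ := ih
      obtain ⟨C', hC', hT⟩ := M.T1 hC (hC.insert p)
      refine ⟨C', hC', ?_⟩
      have hs : 0 < (3 / 2 : ℝ) ^ i * t₀ / 2 := by positivity
      filter_upwards [h, hd, hd0.eventually_lt_const hs] with j hj h1 h2 k hk
      have half : ∀ k' : ℤ, 2 * |k'| ≤ |k| + 1 → |(k' : ℝ)| * d j ≤ (3 / 2) ^ i * t₀ := by
        intro k' hk'
        have e : 2 * |(k' : ℝ)| ≤ |(k : ℝ)| + 1 := by exact_mod_cast hk'
        rw [pow_succ] at hk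
        nlinarith [mul_le_mul_of_nonneg_right e h1.le]
      have e1 := hj (k / 2) (half _ (by
        rcases abs_cases k with h3 | h3 <;> rcases abs_cases (k / 2) with h4 | h4 <;> omega))
      have e2 := hj (k - k / 2) (half _ (by
        rcases abs_cases k with h3 | h3 <;> rcases abs_cases (k - k / 2) with h4 | h4 <;> omega))
      have e3 := hT (fun y => a j ^ (k / 2) • y) (M.hol_smul _) ⟨p, mem_insert _ _, e1⟩ _
        (mem_insert_of_mem _ e2)
      rwa [← mul_smul, ← zpow_add, add_sub_cancel] at e3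
  have ht := (tendsto_pow_atTop_atTop_of_one_lt (show (1 : ℝ) < 3 / 2 by norm_num)).atTop_mul_const
    ht₀
  obtain ⟨i, hi⟩ := (ht.eventually_ge_atTop T).exists
  obtain ⟨C, hC, h⟩ := ind i
  refine ⟨C, hC, ?_⟩
  filter_upwards [h] with j hj k hk
  exact hj k (hk.trans hi)

theorem c2_floor {ι : Type*} {l : Filter ι} {d : ι → ℝ} (hd : ∀ᶠ j in l, 0 < d j)
    (hd0 : Tendsto d l (𝓝 0)) (t : ℝ) :
    Tendsto (fun j => ((⌊t / d j⌋ : ℤ) : ℝ) * d j) l (𝓝 t) := by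
  have h1 : Tendsto (fun j => t - d j) l (𝓝 t) := by
    simpa using hd0.const_sub t
  refine tendsto_of_tendsto_of_tendsto_of_le_of_le' h1 tendsto_const_nhds ?_ ?_
  · filter_upwards [hd] with j hj
    have := Int.lt_floor_add_one (t / d j)
    rw [div_lt_iff₀ hj] at this
    linarith
  · filter_upwards [hd] with j hj
    have := Int.floor_le (t / d j)
    rwa [le_div_iff₀ hj] at this

theorem c2_floor_abs {ι : Type*} {l : Filter ι} {d : ι → ℝ} (hd : ∀ᶠ j in l, 0 < d j)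
    (hd0 : Tendsto d l (𝓝 0)) (t : ℝ) :
    Tendsto (fun j => |((⌊t / d j⌋ : ℤ) : ℝ)| * d j) l (𝓝 |t|) := by
  refine (c2_floor hd hd0 t).abs.congr' ?_
  filter_upwards [hd] with j hj
  rw [abs_mul, abs_of_pos hj]

/-- Normalised limits of automorphisms generate one-parameter groups. -/
theorem gen_limit {ι : Type*} (𝒰 : Ultrafilter ι) (a : ι → M.Aut) (d : ι → ℝ)
    (hd : ∀ᶠ j in (𝒰 : Filter ι), 0 < d j) (hd0 : Tendsto d 𝒰 (𝓝 0)) {O : Set M.X}
    (hO : IsOpen O) (hne : O.Nonempty) (K : ℝ)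
    (hK : ∀ᶠ j in (𝒰 : Filter ι), ∀ y ∈ O, ‖M.ι (a j • y) - M.ι y‖ ≤ K * d j) :
    ∃ (θ : ℝ → M.Aut) (W : M.End), M.IsFlow θ W ∧
      TendstoLocallyUniformly (fun j (x : M.X) => ((d j : ℂ))⁻¹ • (M.ι (a j • x) - M.ι x))
        (M.ev W) 𝒰 ∧
      ∀ (t : ℝ) (x : M.X), Tendsto (fun j => a j ^ ⌊t / d j⌋ • x) 𝒰 (𝓝 (θ t • x)) := by
  obtain ⟨O', hO', hne', η, K1, hη, hK1, hinv⟩ := M.c2_inv hO hne
  have hK0 : 0 < max K 1 := lt_max_of_lt_right one_pos
  obtain ⟨L, hL, hev⟩ : ∃ L : ℝ, 0 < L ∧ ∀ᶠ j in (𝒰 : Filter ι),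
      (∀ y ∈ O', ‖M.ι (a j • y) - M.ι y‖ ≤ L * d j) ∧
        ∀ y ∈ O', ‖M.ι ((a j)⁻¹ • y) - M.ι y‖ ≤ L * d j := by
    refine ⟨K1 * max K 1, by positivity, ?_⟩
    have h1 : Tendsto (fun j => max K 1 * d j) 𝒰 (𝓝 0) := by simpa using hd0.const_mul (max K 1)
    filter_upwards [hd, hK, h1.eventually_lt_const hη] with j h2 h3 h4
    rw [mul_assoc]
    exact hinv (a j) (max K 1 * d j) (by positivity) h4.le fun y hy =>
      (h3 y hy).trans (mul_le_mul_of_nonneg_right (le_max_left _ _) h2.le)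
  have est : ∀ C : Set M.X, IsCompact C → ∃ t₀ A : ℝ, 0 < t₀ ∧ 0 < A ∧
      ∀ᶠ j in (𝒰 : Filter ι), ∀ k : ℤ, |(k : ℝ)| * d j ≤ t₀ → ∀ x ∈ C,
        ‖M.ι (a j ^ k • x) - M.ι x‖ ≤ A * (|(k : ℝ)| * d j) ∧
        ‖M.ι (a j ^ k • x) - M.ι x - (k : ℂ) • (M.ι (a j • x) - M.ι x)‖ ≤
          A * (|(k : ℝ)| * d j) ^ 2 := by
    intro C hC
    obtain ⟨t, A, ht, hA, h⟩ := M.c2_zpow hO' hne' hC
    refine ⟨t / L, A * L + A * L ^ 2, by positivity, by positivity, ?_⟩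
    filter_upwards [hev, hd] with j hj h2 k hk x hx
    rw [le_div_iff₀ hL] at hk
    obtain ⟨e1, e2⟩ := h (a j) (L * d j) k (by positivity) hj.1 hj.2 (by linarith) x hx
    have e3 : 0 ≤ |(k : ℝ)| * d j := by positivity
    constructor
    · nlinarith [mul_nonneg (show 0 ≤ A * L ^ 2 by positivity) e3]
    · nlinarith [mul_nonneg (show 0 ≤ A * L by positivity) (sq_nonneg (|(k : ℝ)| * d j))]
  have hf : ∀ᶠ j in (𝒰 : Filter ι),
      M.Hol (fun x : M.X => ((d j : ℂ))⁻¹ • (M.ι (a j • x) - M.ι x)) :=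
    Eventually.of_forall fun j x => (M.holAt_const _ x).smul (M.c2_hol (a j) x)
  have hb : M.LocBdd (𝒰 : Filter ι)
      (fun j (x : M.X) => ((d j : ℂ))⁻¹ • (M.ι (a j • x) - M.ι x)) := by
    refine BM.locBdd_of_compact fun C hC => ?_
    obtain ⟨t₀, A, ht₀, hA, h⟩ := est C hC
    refine ⟨A, ?_⟩
    filter_upwards [h, hd, hd0.eventually_lt_const ht₀] with j hj h2 h3 y hy
    have e1 := (hj 1 (by simpa using h3.le) y hy).1
    simp only [zpow_one, Int.cast_one, abs_one, one_mul] at e1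
    rw [norm_smul, norm_inv, Complex.norm_real, Real.norm_of_nonneg h2.le, inv_mul_le_iff₀ h2]
    linarith
  obtain ⟨ξ, hξ, hp⟩ := BM.montel 𝒰 hf hb
  have small : ∀ (k : ι → ℤ) (x : M.X), Tendsto (fun j => |(k j : ℝ)| * d j) 𝒰 (𝓝 0) →
      Tendsto (fun j => a j ^ k j • x) 𝒰 (𝓝 x) := by
    intro k x hk
    obtain ⟨t₀, A, ht₀, hA, h⟩ := est {x} isCompact_singleton
    rw [tendsto_iff_dist_tendsto_zero]
    have h1 : Tendsto (fun j => A * (|(k j : ℝ)| * d j)) 𝒰 (𝓝 0) := by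
      simpa using hk.const_mul A
    refine squeeze_zero' (Eventually.of_forall fun _ => dist_nonneg) ?_ h1
    filter_upwards [h, hk.eventually_lt_const ht₀] with j hj h2
    rw [c2_dist]
    exact (hj _ h2.le x rfl).1
  have hlim : ∀ t : ℝ, ∃ b : M.Aut, ∀ x : M.X,
      Tendsto (fun j => a j ^ ⌊t / d j⌋ • x) 𝒰 (𝓝 (b • x)) := by
    intro t
    obtain ⟨p, -⟩ := hne
    obtain ⟨B, hB, hBn⟩ := exists_compact_mem_nhds p
    obtain ⟨ε, hε, hεB⟩ := Metric.mem_nhds_iff.1 hBn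
    obtain ⟨t₀, A, ht₀, hA, h⟩ := est {p} isCompact_singleton
    obtain ⟨C, hC, hCe⟩ := M.c2_cpt a d hd hd0 p (t₀ := min t₀ (ε / (2 * A))) (by positivity) hB
      (by
        filter_upwards [h] with j hj k hk
        refine hεB ?_
        rw [mem_ball, c2_dist]
        have e1 := (hj k (hk.trans (min_le_left _ _)) p rfl).1
        have e2 := hk.trans (min_le_right _ _)
        rw [le_div_iff₀ (by positivity)] at e2
        nlinarith) (|t| + 1)
    obtain ⟨b, hb⟩ := M.aut_lim 𝒰 (fun j => a j ^ ⌊t / d j⌋) (p := p) hC (by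
      filter_upwards [hCe, (c2_floor_abs hd hd0 t).eventually_lt_const (lt_add_one _)] with j h1 h2
      exact h1 _ h2.le)
    exact ⟨b, fun x => (hb x).1⟩
  choose θ hθ using hlim
  have hzero : θ 0 = 1 := by
    refine Subtype.ext (Equiv.ext fun x => ?_)
    have h1 := hθ 0 x
    simp only [zero_div, Int.floor_zero, zpow_zero, one_smul] at h1
    exact tendsto_nhds_unique h1 tendsto_const_nhds
  have hadd : ∀ s t, θ (s + t) = θ s * θ t := by
    intro s t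
    refine Subtype.ext (Equiv.ext fun x => ?_)
    have h1 := small (fun j => ⌊(s + t) / d j⌋ - ⌊s / d j⌋ - ⌊t / d j⌋) x (by
      refine squeeze_zero' ?_ ?_ hd0
      · filter_upwards [hd] with j hj
        positivity
      · filter_upwards [hd] with j hj
        refine mul_le_of_le_one_left hj.le ?_
        have e1 := Int.le_floor_add (s / d j) (t / d j)
        have e2 := Int.le_floor_add_floor (s / d j) (t / d j)
        rw [← add_div] at e1 e2
        have e3 : |⌊(s + t) / d j⌋ - ⌊s / d j⌋ - ⌊t / d j⌋| ≤ 1 := abs_le.2 ⟨by omega, by omega⟩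
        exact_mod_cast e3)
    have h2 := M.map_moving (a := fun j y => a j ^ ⌊t / d j⌋ • y) (b := fun y => θ t • y)
      (Eventually.of_forall fun j => M.hol_smul _) (hθ t) h1
    have h3 := M.map_moving (a := fun j y => a j ^ ⌊s / d j⌋ • y) (b := fun y => θ s • y)
      (Eventually.of_forall fun j => M.hol_smul _) (hθ s) h2
    have h4 : Tendsto (fun j => a j ^ ⌊(s + t) / d j⌋ • x) 𝒰 (𝓝 (θ s • θ t • x)) := by
      refine h3.congr fun j => ?_
      rw [← mul_smul, ← mul_smul, ← zpow_add, ← zpow_add]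
      congr 2
      ring
    rw [← mul_smul] at h4
    exact tendsto_nhds_unique (hθ (s + t) x) h4
  have hder0 : ∀ x : M.X, HasDerivAt (fun t => M.ι (θ t • x)) (ξ x) 0 := by
    intro x
    obtain ⟨t₀, A, ht₀, hA, h⟩ := est {x} isCompact_singleton
    have hq : ∀ t : ℝ, |t| < t₀ → ‖M.ι (θ t • x) - M.ι x - t • ξ x‖ ≤ A * |t| ^ 2 := by
      intro t ht
      have h1 : Tendsto (fun j => M.ι (a j ^ ⌊t / d j⌋ • x)) 𝒰 (𝓝 (M.ι (θ t • x))) :=
        (continuous_subtype_val.tendsto _).comp (hθ t x)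
      have h2 : Tendsto (fun j => ((⌊t / d j⌋ : ℤ) : ℂ) • (M.ι (a j • x) - M.ι x)) 𝒰
          (𝓝 (t • ξ x)) := by
        refine ((c2_floor hd hd0 t).smul (hp x)).congr' ?_
        filter_upwards [hd] with j hj
        have hj' : (d j : ℂ) ≠ 0 := Complex.ofReal_ne_zero.2 hj.ne'
        rw [← Complex.coe_smul, smul_smul]
        push_cast
        rw [mul_assoc, mul_inv_cancel₀ hj', mul_one]
      have h3 := ((h1.sub_const (M.ι x)).sub h2).norm
      have h4 := ((c2_floor_abs hd hd0 t).pow 2).const_mul A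
      refine le_of_tendsto_of_tendsto h3 h4 ?_
      filter_upwards [h, (c2_floor_abs hd hd0 t).eventually_lt_const ht] with j hj h5
      exact (hj _ h5.le x rfl).2
    rw [hasDerivAt_iff_isLittleO_nhds_zero]
    simp only [zero_add, hzero, one_smul]
    have h5 : (fun t : ℝ => M.ι (θ t • x) - M.ι x - t • ξ x) =O[𝓝 0] fun t : ℝ => t ^ 2 := by
      refine Asymptotics.IsBigO.of_bound A ?_
      filter_upwards [Metric.ball_mem_nhds (0 : ℝ) ht₀] with t ht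
      rw [mem_ball, dist_zero_right, Real.norm_eq_abs] at ht
      rw [norm_pow, Real.norm_eq_abs]
      exact hq t ht
    exact h5.trans_isLittleO (Asymptotics.isLittleO_pow_id (by norm_num))
  have hT : ∀ x, ξ x ∈ M.T x := by
    intro x
    have h1 := BM.mem_T_of_hasDerivAt_real (c := fun t => θ t • x) (hder0 x)
    simp only [hzero, one_smul] at h1
    exact h1
  have hevW : M.ev (BM.ofField ξ hξ hT) = ξ := funext (BM.ev_ofField ξ hξ hT)
  refine ⟨θ, BM.ofField ξ hξ hT, ⟨hzero, hadd, BM.isVF_ofField ξ hξ hT, fun x t => ?_⟩, ?_, hθ⟩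
  · rw [hevW]
    have h1 := hder0 (θ t • x)
    rw [← sub_self t] at h1
    have h2 := h1.comp_sub_const t t
    refine h2.congr_of_eventuallyEq (Eventually.of_forall fun s => ?_)
    simp only
    rw [← mul_smul, ← hadd, sub_add_cancel]
  · rw [hevW]
    exact (BM.vitali_hol hf hb hp).2.1

/-- A sequence of nontrivial automorphisms tending to the identity and preserving `φ` gives a
nonzero infinitesimal automorphism killing `φ`. -/
theorem gen_of_seq (τ : ℕ → M.Aut) (hne : ∀ k, τ k ≠ 1) {x₀ : M.X}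
    (hlim : ∀ᶠ x in 𝓝 x₀, Tendsto (fun k => τ k • x) atTop (𝓝 x)) {φ : M.X → E N}
    (hφ : M.Hol φ) (hinv : ∀ k x, φ (τ k • x) = φ x) :
    ∃ W ∈ M.gR, W ≠ 0 ∧ ∀ x, M.df φ x (M.ev W x) = 0 := by
  obtain ⟨B, hB, hBn⟩ := exists_compact_mem_nhds x₀
  have hmax : ∀ k, ∃ y ∈ B, IsMaxOn (fun y => ‖M.ι (τ k • y) - M.ι y‖) B y := fun k =>
    hB.exists_isMaxOn ⟨x₀, mem_of_mem_nhds hBn⟩ (M.c2_hol (τ k)).continuous.norm.continuousOn
  choose y hyB hy using hmax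
  have hd : ∀ k, 0 < ‖M.ι (τ k • y k) - M.ι (y k)‖ := by
    intro k
    by_contra hle
    push Not at hle
    refine hne k (BM.aut_eq_one_of_eventually (x := x₀) ?_)
    filter_upwards [hBn] with z hz
    have h1 : ‖M.ι (τ k • z) - M.ι z‖ ≤ ‖M.ι (τ k • y k) - M.ι (y k)‖ := hy k hz
    exact Subtype.ext (sub_eq_zero.1 (norm_le_zero_iff.1 (h1.trans hle)))
  have hd0 : Tendsto (fun k => ‖M.ι (τ k • y k) - M.ι (y k)‖) atTop (𝓝 0) := by
    have h1 : ∀ᶠ x in 𝓝 x₀, Tendsto (fun k => M.ι (τ k • x) - M.ι x) atTop (𝓝 0) := by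
      filter_upwards [hlim] with x hx
      have := ((continuous_subtype_val.tendsto _).comp hx).sub_const (M.ι x)
      rwa [sub_self] at this
    rw [Metric.tendsto_nhds]
    intro ε hε
    filter_upwards [M.c2_unif τ h1 hB hε] with k hk
    rw [dist_zero_right, norm_norm]
    exact hk _ (hyB k)
  have hU : (hyperfilter ℕ : Filter ℕ) ≤ atTop := Nat.cofinite_eq_atTop ▸ hyperfilter_le_cofinite
  obtain ⟨θ, W, hW, hu, hθ⟩ := M.gen_limit (hyperfilter ℕ) τ _ (Eventually.of_forall hd)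
    (hd0.mono_left hU) isOpen_interior ⟨x₀, mem_interior_iff_mem_nhds.2 hBn⟩ 1
    (Eventually.of_forall fun k z hz => by
      rw [one_mul]
      exact hy k (interior_subset hz))
  refine ⟨W, ⟨θ, hW⟩, ?_, fun x => ?_⟩
  · rintro rfl
    have hu' := (tendstoLocallyUniformlyOn_iff_tendstoUniformlyOn_of_compact hB).1
      (hu.tendstoLocallyUniformlyOn (s := B))
    obtain ⟨k, hk⟩ := (Metric.tendstoUniformlyOn_iff.1 hu' 1 one_pos).exists
    have h1 := hk _ (hyB k)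
    rw [BM.ev_zero, dist_comm, dist_zero_right, norm_smul, norm_inv, Complex.norm_real, norm_norm,
      inv_mul_cancel₀ (hd k).ne'] at h1
    exact lt_irrefl _ h1
  · have hz : ∀ k (m : ℤ) z, φ (τ k ^ m • z) = φ z := by
      intro k m
      induction m using Int.induction_on with
      | zero => simp
      | succ i ih => exact fun z => by rw [zpow_add_one, mul_smul, ih, hinv]
      | pred i ih =>
        intro z
        rw [zpow_sub_one, mul_smul, ih, ← hinv k ((τ k)⁻¹ • z), smul_inv_smul]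
    have hc : ∀ t, φ (θ t • x) = φ x := by
      intro t
      have h1 := (hφ.continuous.tendsto _).comp (hθ t x)
      refine tendsto_nhds_unique h1 (tendsto_const_nhds.congr fun k => ?_)
      exact (hz _ _ _).symm
    have h1 := hW.hasDerivAt hφ x 0
    simp only [hc, hW.zero, one_smul] at h1
    exact h1.unique (hasDerivAt_const _ _)

end Vale.Agent.P274.CM
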