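import Vale.Agent.P274.C2

/-! The infinitesimal automorphisms form a finite dimensional real Lie algebra. -/

open Metric Set Filter Topology

namespace Vale.Agent.P274.CM

variable {N n : ℕ} (M : CM N n)

theorem c3_mvt {θ : ℝ → M.Aut} {W : M.End} (h : M.IsFlow θ W) {y : M.X} {t b : ℝ} (ht : 0 ≤ t)
    (hb : ∀ s ∈ Icc 0 t, ‖M.ev W (θ s • y)‖ ≤ b) : ‖M.ι (θ t • y) - M.ι y‖ ≤ b * t := by
  have h1 := (convex_Icc (0 : ℝ) t).norm_image_sub_le_of_norm_hasDerivWithin_le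
    (f := fun s => M.ι (θ s • y)) (fun s _ => (h.deriv y s).hasDerivWithinAt) hb
    (left_mem_Icc.2 ht) (right_mem_Icc.2 ht)
  simp only [h.zero, one_smul, sub_zero, Real.norm_of_nonneg ht] at h1
  exact h1

theorem c3_flow_bound {θ : ℝ → M.Aut} {W : M.End} (h : M.IsFlow θ W) {C : Set M.X}
    (hC : IsCompact C) : ∃ C', IsCompact C' ∧ ∃ K : ℝ, ∀ t ∈ Icc (0 : ℝ) 1, ∀ y ∈ C,
      θ t • y ∈ C' ∧ ‖M.ι (θ t • y) - M.ι y‖ ≤ K * t := by
  have hC' : IsCompact ((fun p : ℝ × M.X => θ p.1 • p.2) '' (Icc (0 : ℝ) 1 ×ˢ C)) :=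
    (isCompact_Icc.prod hC).image h.continuous
  obtain ⟨K, hK⟩ := hC'.exists_bound_of_continuousOn (BM.hol_ev W).continuous.continuousOn
  refine ⟨_, hC', K, fun t ht y hy => ⟨⟨(t, y), ⟨ht, hy⟩, rfl⟩, ?_⟩⟩
  exact M.c3_mvt h ht.1 fun s hs => hK _ ⟨(s, y), ⟨⟨hs.1, hs.2.trans ht.2⟩, hy⟩, rfl⟩

theorem c3_slope {θ : ℝ → M.Aut} {W : M.End} (h : M.IsFlow θ W) (x : M.X) :
    Tendsto (fun t : ℝ => ((t : ℂ))⁻¹ • (M.ι (θ t • x) - M.ι x)) (𝓝[>] 0) (𝓝 (M.ev W x)) := by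
  have h1 := (h.deriv x 0).tendsto_slope_zero_right
  simp only [h.zero, one_smul, zero_add] at h1
  refine h1.congr fun t => ?_
  rw [← Complex.ofReal_inv, Complex.coe_smul]

theorem c3_norm_inv_smul {t K : ℝ} (ht : 0 < t) {v : E N} (h : ‖v‖ ≤ K * t) :
    ‖((t : ℂ))⁻¹ • v‖ ≤ K := by
  rw [norm_smul, norm_inv, Complex.norm_real, Real.norm_of_nonneg ht.le, inv_mul_le_iff₀ ht]
  linarith

theorem c3_hol (a : M.Aut) (c : ℂ) : M.Hol (fun x => c • (M.ι (a • x) - M.ι x)) :=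
  fun x => (M.holAt_const c x).smul (M.c2_hol a x)

theorem c3_locBdd {θ : ℝ → M.Aut} {W : M.End} (h : M.IsFlow θ W) :
    M.LocBdd (𝓝[>] (0 : ℝ)) (fun t x => ((t : ℂ))⁻¹ • (M.ι (θ t • x) - M.ι x)) := by
  refine BM.locBdd_of_compact fun C hC => ?_
  obtain ⟨C', -, K, hK⟩ := M.c3_flow_bound h hC
  refine ⟨K, ?_⟩
  filter_upwards [Ioc_mem_nhdsGT (zero_lt_one' ℝ)] with t ht y hy
  exact c3_norm_inv_smul ht.1 (hK t ⟨ht.1.le, ht.2⟩ y hy).2

theorem c3_unif {θ : ℝ → M.Aut} {W : M.End} (h : M.IsFlow θ W) {B : Set M.X} (hB : IsCompact B)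
    {ε : ℝ} (hε : 0 < ε) : ∀ᶠ t : ℝ in 𝓝[>] 0, ∀ y ∈ B,
      ‖((t : ℂ))⁻¹ • (M.ι (θ t • y) - M.ι y) - M.ev W y‖ < ε := by
  have hu := (BM.vitali_hol (Eventually.of_forall fun t : ℝ => M.c3_hol (θ t) ((t : ℂ))⁻¹)
    (M.c3_locBdd h) (M.c3_slope h)).2.1
  have hu' := (tendstoLocallyUniformlyOn_iff_tendstoUniformlyOn_of_compact hB).1
    (hu.tendstoLocallyUniformlyOn (s := B))
  filter_upwards [Metric.tendstoUniformlyOn_iff.1 hu' ε hε] with t ht y hy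
  have := ht y hy
  rwa [dist_comm, dist_eq_norm] at this

theorem add_mem_gR {W W' : M.End} (hW : W ∈ M.gR) (hW' : W' ∈ M.gR) : W + W' ∈ M.gR := by
  obtain ⟨θ, h⟩ := hW
  obtain ⟨θ', h'⟩ := hW'
  obtain ⟨x₀⟩ : Nonempty M.X := inferInstance
  obtain ⟨B, hB, hBn⟩ := exists_compact_mem_nhds x₀
  obtain ⟨C', hC', K', hK'⟩ := M.c3_flow_bound h' hB
  obtain ⟨C, -, K, hK⟩ := M.c3_flow_bound h hC'
  have hU : (Ultrafilter.of (𝓝[>] (0 : ℝ)) : Filter ℝ) ≤ 𝓝[>] 0 := Ultrafilter.of_le _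
  obtain ⟨φ, W₀, hW₀, hu, -⟩ := M.gen_limit (Ultrafilter.of (𝓝[>] (0 : ℝ)))
    (fun t => θ t * θ' t) (fun t => t) (hU self_mem_nhdsWithin) (hU.trans nhdsWithin_le_nhds)
    isOpen_interior ⟨x₀, mem_interior_iff_mem_nhds.2 hBn⟩ (K + K') (by
      filter_upwards [hU (Ioc_mem_nhdsGT (zero_lt_one' ℝ))] with t ht y hy
      obtain ⟨e1, e2⟩ := hK' t ⟨ht.1.le, ht.2⟩ y (interior_subset hy)
      have e3 := (hK t ⟨ht.1.le, ht.2⟩ _ e1).2
      have e4 := norm_sub_le_norm_sub_add_norm_sub (M.ι (θ t • θ' t • y)) (M.ι (θ' t • y)) (M.ι y)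
      rw [mul_smul]
      linarith)
  have hE : W₀ = W + W' := by
    refine hW₀.vf.ext (h.vf.add h'.vf) fun x => ?_
    have h1 := hu.tendstoLocallyUniformlyOn (s := univ) |>.tendsto_at (mem_univ x)
    have h2 : Tendsto (fun t : ℝ => θ' t • x) (𝓝[>] 0) (𝓝 x) := by
      have h3 : Continuous (fun t : ℝ => θ' t • x) :=
        h'.continuous.comp (continuous_id.prodMk continuous_const)
      have h4 := h3.tendsto 0
      rw [h'.zero, one_smul] at h4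
      exact h4.mono_left nhdsWithin_le_nhds
    have h5 := BM.vitali_moving (Eventually.of_forall fun t : ℝ => M.c3_hol (θ t) ((t : ℂ))⁻¹)
      (M.c3_locBdd h) (M.c3_slope h) h2
    have h6 := (h5.add (M.c3_slope h' x)).mono_left hU
    refine tendsto_nhds_unique h1 (h6.congr fun t => ?_)
    rw [← smul_add, mul_smul, sub_add_sub_cancel]
  exact ⟨φ, hE ▸ hW₀⟩

theorem smul_mem_gR (c : ℝ) {W : M.End} (hW : W ∈ M.gR) : (c : ℂ) • W ∈ M.gR := by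
  obtain ⟨θ, h⟩ := hW
  exact ⟨_, h.smul c⟩

theorem sum_mem_gR {ι : Type*} (s : Finset ι) (c : ι → ℝ) {W : ι → M.End}
    (hW : ∀ i ∈ s, W i ∈ M.gR) : ∑ i ∈ s, (c i : ℂ) • W i ∈ M.gR := by
  classical
  induction s using Finset.induction_on with
  | empty => exact ⟨_, BM.isFlow_zero⟩
  | insert i s hi ih =>
    rw [Finset.sum_insert hi]
    exact M.add_mem_gR (M.smul_mem_gR _ (hW i (Finset.mem_insert_self _ _)))
      (ih fun j hj => hW j (Finset.mem_insert_of_mem hj))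

/-- Uniform bound on a compact set in terms of the bound on an open set. -/
theorem gR_bound {O C : Set M.X} (hO : IsOpen O) (hne : O.Nonempty) (hC : IsCompact C) :
    ∃ K : ℝ, 0 < K ∧ ∀ W ∈ M.gR, ∀ b : ℝ, (∀ y ∈ O, ‖M.ev W y‖ ≤ b) →
      ∀ x ∈ C, ‖M.ev W x‖ ≤ K * b := by
  obtain ⟨x₀, hx₀⟩ := hne
  obtain ⟨B, hB, hBn, hBO⟩ := exists_compact_subset hO hx₀
  obtain ⟨η, K, hη, hK, hsd⟩ := M.small_disp isOpen_interior ⟨x₀, hBn⟩ hC
  refine ⟨K, hK, ?_⟩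
  rintro W ⟨θ, h⟩ b hb x hx
  have hb0 : 0 ≤ b := (norm_nonneg _).trans (hb x₀ hx₀)
  have h1 : ∀ᶠ t in 𝓝 (0 : ℝ), ∀ y ∈ B, θ t • y ∈ O := by
    refine hB.eventually_forall_of_forall_eventually fun y hy => ?_
    refine h.continuous.continuousAt.eventually_mem (hO.mem_nhds ?_)
    rw [h.zero, one_smul]
    exact hBO hy
  obtain ⟨δ, hδ, h2⟩ := Metric.eventually_nhds_iff.1 h1
  have h3 : Tendsto (fun t : ℝ => b * t) (𝓝[>] 0) (𝓝 0) := by
    have : Tendsto (fun t : ℝ => b * t) (𝓝 0) (𝓝 (b * 0)) := tendsto_id.const_mul b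
    rw [mul_zero] at this
    exact this.mono_left nhdsWithin_le_nhds
  refine le_of_tendsto (M.c3_slope h x).norm ?_
  filter_upwards [Ioo_mem_nhdsGT hδ, h3.eventually_lt_const hη] with t ht h4
  refine c3_norm_inv_smul ht.1 ?_
  rw [mul_assoc]
  refine hsd (θ t) (b * t) (mul_nonneg hb0 ht.1.le) h4.le (fun y hy => ?_) x hx
  refine M.c3_mvt h ht.1.le fun s hs => hb _ (h2 ?_ y (interior_subset hy))
  rw [dist_zero_right, Real.norm_of_nonneg hs.1]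
  exact hs.2.trans_lt ht.2

theorem gR_closed {ι : Type*} {l : Filter ι} [l.NeBot] {W : ι → M.End} {ξ : M.X → E N}
    (hW : ∀ᶠ j in l, W j ∈ M.gR) (hb : M.LocBdd l (fun j => M.ev (W j)))
    (hp : ∀ x, Tendsto (fun j => M.ev (W j) x) l (𝓝 (ξ x))) :
    ∃ W₀ ∈ M.gR, ∀ x, M.ev W₀ x = ξ x := by
  obtain ⟨x₀⟩ : Nonempty M.X := inferInstance
  obtain ⟨A, T, hT, hA⟩ := hb x₀
  obtain ⟨B, hBn, hBT, hB⟩ := local_compact_nhds hT
  have hξ := (BM.vitali_hol (Eventually.of_forall fun j => BM.hol_ev (W j)) hb hp).1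
  have hch : ∀ p : ι × ℕ, ∃ (a : M.Aut) (d : ℝ), 0 < d ∧ d ≤ 1 / ((p.2 : ℝ) + 1) ∧
      (W p.1 ∈ M.gR → ∀ y ∈ B,
        ‖((d : ℂ))⁻¹ • (M.ι (a • y) - M.ι y) - M.ev (W p.1) y‖ ≤ 1 / ((p.2 : ℝ) + 1)) := by
    intro p
    have hε : (0 : ℝ) < 1 / ((p.2 : ℝ) + 1) := Nat.one_div_pos_of_nat
    by_cases h : W p.1 ∈ M.gR
    · obtain ⟨θ, h⟩ := h
      obtain ⟨t, h1, h2⟩ := ((M.c3_unif h hB hε).and (Ioc_mem_nhdsGT hε)).exists
      exact ⟨θ t, t, h2.1, h2.2, fun _ y hy => (h1 y hy).le⟩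
    · exact ⟨1, _, hε, le_rfl, fun h' => absurd h' h⟩
  choose a d hd0 hd1 had using hch
  have hU : (Ultrafilter.of (l ×ˢ (atTop : Filter ℕ)) : Filter (ι × ℕ)) ≤ l ×ˢ atTop :=
    Ultrafilter.of_le _
  generalize Ultrafilter.of (l ×ˢ (atTop : Filter ℕ)) = 𝒰 at hU
  have h1 : Tendsto Prod.fst (𝒰 : Filter (ι × ℕ)) l := tendsto_fst.mono_left hU
  have h2 : Tendsto (fun p : ι × ℕ => 1 / ((p.2 : ℝ) + 1)) 𝒰 (𝓝 0) :=
    tendsto_one_div_add_atTop_nhds_zero_nat.comp (tendsto_snd.mono_left hU)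
  obtain ⟨φ, W₀, hW₀, hu, -⟩ := M.gen_limit 𝒰 a d (Eventually.of_forall hd0)
    (squeeze_zero (fun p => (hd0 p).le) hd1 h2) isOpen_interior
    ⟨x₀, mem_interior_iff_mem_nhds.2 hBn⟩ (A + 1) (by
      filter_upwards [h1.eventually hW, h1.eventually hA] with p e1 e2 y hy
      have e3 := had p e1 y (interior_subset hy)
      have e4 := e2 y (hBT (interior_subset hy))
      have e5 : (1 : ℝ) / ((p.2 : ℝ) + 1) ≤ 1 := by
        rw [div_le_one (by positivity)]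
        linarith [Nat.cast_nonneg (α := ℝ) p.2]
      have e6 := norm_le_norm_sub_add (((d p : ℂ))⁻¹ • (M.ι (a p • y) - M.ι y)) (M.ev (W p.1) y)
      have e7 : ‖((d p : ℂ))⁻¹ • (M.ι (a p • y) - M.ι y)‖ ≤ A + 1 := by linarith
      rw [norm_smul, norm_inv, Complex.norm_real, Real.norm_of_nonneg (hd0 p).le,
        inv_mul_le_iff₀ (hd0 p)] at e7
      linarith)
  refine ⟨W₀, ⟨φ, hW₀⟩, congrFun ((BM.hol_ev W₀).eq_of_eventuallyEq hξ (x := x₀) ?_)⟩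
  filter_upwards [hBn] with y hy
  have h3 := hu.tendstoLocallyUniformlyOn (s := univ) |>.tendsto_at (mem_univ y)
  have h4 : Tendsto (fun p => ((d p : ℂ))⁻¹ • (M.ι (a p • y) - M.ι y) - M.ev (W p.1) y) 𝒰
      (𝓝 0) := by
    refine squeeze_zero_norm' ?_ h2
    filter_upwards [h1.eventually hW] with p e1
    exact had p e1 y hy
  have h5 := h4.add ((hp y).comp h1)
  rw [zero_add] at h5
  exact tendsto_nhds_unique h3 (h5.congr fun p => by simp)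

/-- Restrictions of infinitesimal automorphisms to a subset. -/
def c3Sub (B : Set M.X) : Submodule ℝ C(B, E N) where
  carrier := {g | ∃ W ∈ M.gR, ∀ y : B, g y = M.ev W y.1}
  add_mem' := by
    rintro g g' ⟨W, hW, h⟩ ⟨W', hW', h'⟩
    exact ⟨W + W', M.add_mem_gR hW hW', fun y => by
      rw [ContinuousMap.add_apply, h, h', BM.ev_add]⟩
  zero_mem' := ⟨0, ⟨_, BM.isFlow_zero⟩, fun _ => rfl⟩
  smul_mem' := by
    rintro c g ⟨W, hW, h⟩
    exact ⟨(c : ℂ) • W, M.smul_mem_gR c hW, fun y => by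
      rw [ContinuousMap.smul_apply, h, BM.ev_smul, Complex.coe_smul]⟩

/-- The restriction of an infinitesimal automorphism. -/
noncomputable def c3Res (B : Set M.X) {W : M.End} (hW : W ∈ M.gR) : M.c3Sub B :=
  ⟨⟨fun y => M.ev W y.1, (BM.hol_ev W).continuous.comp continuous_subtype_val⟩,
    W, hW, fun _ => rfl⟩

theorem c3_finite {B : Set M.X} {x₀ : M.X} (hB : IsCompact B) (hBn : B ∈ 𝓝 x₀) :
    FiniteDimensional ℝ (M.c3Sub B) := by
  have : CompactSpace B := isCompact_iff_compactSpace.1 hB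
  refine FiniteDimensional.of_isCompact_closedBall₀ ℝ (V := M.c3Sub B) one_pos ?_
  refine isCompact_iff_ultrafilter_le_nhds'.2 fun 𝒰 hU => ?_
  choose W hW hWe using fun g : M.c3Sub B => g.2
  have hb : M.LocBdd (𝒰 : Filter (M.c3Sub B)) (fun g => M.ev (W g)) := by
    refine BM.locBdd_of_compact fun C hC => ?_
    obtain ⟨K, -, hK⟩ := M.gR_bound isOpen_interior ⟨x₀, mem_interior_iff_mem_nhds.2 hBn⟩ hC
    refine ⟨K * 1, ?_⟩
    filter_upwards [hU] with g hg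
    refine hK _ (hW g) 1 fun y hy => ?_
    rw [← hWe g ⟨y, interior_subset hy⟩]
    exact (g.1.norm_coe_le_norm _).trans (mem_closedBall_zero_iff.1 hg)
  have hf : ∀ᶠ g in (𝒰 : Filter (M.c3Sub B)), M.Hol (M.ev (W g)) :=
    Eventually.of_forall fun g => BM.hol_ev _
  obtain ⟨ξ, -, hp⟩ := BM.montel 𝒰 hf hb
  obtain ⟨W₀, hW₀, hξ⟩ := M.gR_closed (Eventually.of_forall hW) hb hp
  have hu := (BM.vitali_hol hf hb hp).2.1
  have hu' := (tendstoLocallyUniformlyOn_iff_tendstoUniformlyOn_of_compact hB).1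
    (hu.tendstoLocallyUniformlyOn (s := B))
  have hlim : Tendsto id (𝒰 : Filter (M.c3Sub B)) (𝓝 (M.c3Res B hW₀)) := by
    rw [Metric.tendsto_nhds]
    intro ε hε
    filter_upwards [Metric.tendstoUniformlyOn_iff.1 hu' ε hε] with g hg
    rw [Subtype.dist_eq, ContinuousMap.dist_lt_iff hε]
    intro y
    have h1 := hg y.1 y.2
    rw [← hξ, ← hWe, dist_comm] at h1
    exact h1
  exact ⟨_, isClosed_closedBall.mem_of_tendsto hlim hU, hlim⟩

theorem gR_finite : ∃ (k : ℕ) (B : Fin k → M.End), (∀ l, B l ∈ M.gR) ∧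
    ∀ W ∈ M.gR, ∃ c : Fin k → ℝ, W = ∑ l, (c l : ℂ) • B l := by
  obtain ⟨x₀⟩ : Nonempty M.X := inferInstance
  obtain ⟨B, hB, hBn⟩ := exists_compact_mem_nhds x₀
  have := M.c3_finite hB hBn
  have : Module.Free ℝ (M.c3Sub B) := Module.Free.of_divisionRing ℝ (M.c3Sub B)
  let b := Module.finBasis ℝ (M.c3Sub B)
  choose V hV hVe using fun l => (b l).2
  refine ⟨_, V, hV, fun W hW => ⟨b.repr (M.c3Res B hW), ?_⟩⟩
  have hS := M.sum_mem_gR Finset.univ (b.repr (M.c3Res B hW)) (W := V) fun l _ => hV l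
  obtain ⟨θ, h⟩ := id hW
  obtain ⟨θ', h'⟩ := hS
  refine h.vf.ext h'.vf (congrFun ((BM.hol_ev _).eq_of_eventuallyEq (BM.hol_ev _) (x := x₀) ?_))
  filter_upwards [hBn] with y hy
  have h1 := congrArg (fun g : M.c3Sub B => g.1 ⟨y, hy⟩) (b.sum_repr (M.c3Res B hW))
  simp only [Submodule.coe_sum, Submodule.coe_smul, ContinuousMap.sum_apply,
    ContinuousMap.smul_apply, hVe] at h1
  rw [BM.ev_sum]
  simp only [BM.ev_smul, Complex.coe_smul]
  exact h1.symm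

end Vale.Agent.P274.CM
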