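import Vale.Agent.P274.C3
import Vale.Agent.P274.Alg0

/-! Brackets, the adjoint action of flows, the conjugation. -/

open Metric Set Filter Topology

noncomputable section

namespace Vale.Agent.P274

/-- A linear differential equation with a resonant exponential forcing. -/
theorem c4a_ode {u : ℝ → ℂ} {c w : ℂ}
    (h : ∀ t : ℝ, HasDerivAt u (-(c * u t) - Complex.exp (-(c * t)) * w) t) (t : ℝ) :
    u t = Complex.exp (-(c * t)) * (u 0 - t * w) := by
  have h1 : ∀ t : ℝ, HasDerivAt (fun t : ℝ => Complex.exp (c * t) * u t + t * w) 0 t := by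
    intro t
    have a1 : HasDerivAt (fun t : ℝ => (t : ℂ)) 1 t := Complex.ofRealCLM.hasDerivAt
    have a2 := ((a1.const_mul c).cexp.mul (h t)).add (a1.mul_const w)
    refine a2.congr_deriv ?_
    have a3 : Complex.exp (c * t) * Complex.exp (-(c * t)) = 1 := by
      rw [← Complex.exp_add, add_neg_cancel, Complex.exp_zero]
    linear_combination (-w) * a3
  have h2 := is_const_of_deriv_eq_zero (fun t => (h1 t).differentiableAt) (fun t => (h1 t).deriv)
    t 0
  have a3 : Complex.exp (-(c * t)) * Complex.exp (c * t) = 1 := by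
    rw [← Complex.exp_add, neg_add_cancel, Complex.exp_zero]
  simp only [Complex.ofReal_zero, mul_zero, Complex.exp_zero, one_mul, zero_mul, add_zero] at h2
  linear_combination Complex.exp (-(c * t)) * h2 - u t * a3

/-- A bounded solution of the Cauchy-Riemann equations has zero derivative. -/
theorem c4a_CR {F : Type*} [NormedAddCommGroup F] [NormedSpace ℂ F] {f v : ℝ → ℝ → F}
    (h1 : ∀ s t, HasDerivAt (fun s => f s t) (v s t) s)
    (h2 : ∀ s t, HasDerivAt (fun t => f s t) (Complex.I • v s t) t)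
    (hc : Continuous (fun p : ℝ × ℝ => v p.1 p.2)) {R : ℝ} (hb : ∀ s t, ‖f s t‖ ≤ R) :
    v 0 0 = 0 := by
  have hs : Continuous (fun y : F => ContinuousLinearMap.toSpanSingleton ℝ y) :=
    (ContinuousLinearMap.toSpanSingletonLIE ℝ F).continuous
  have hd : Differentiable ℂ (fun z : ℂ => f z.re z.im) := by
    intro z
    have a1 := hasStrictFDerivAt_uncurry_coprod (𝕜 := ℝ) (u := (z.re, z.im)) (f := f)
      (f₁ := fun s t => ContinuousLinearMap.toSpanSingleton ℝ (v s t))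
      (f₂ := fun s t => ContinuousLinearMap.toSpanSingleton ℝ (Complex.I • v s t))
      (Eventually.of_forall fun p => (h1 p.1 p.2).hasFDerivAt)
      (Eventually.of_forall fun p => (h2 p.1 p.2).hasFDerivAt)
      (hs.comp hc).continuousAt (hs.comp (hc.const_smul Complex.I)).continuousAt
    have a2 := a1.hasFDerivAt.comp z (Complex.reCLM.prod Complex.imCLM).hasFDerivAt
    refine (a2.complexOfReal_hasFDerivAt ?_).differentiableAt
    simp [Function.HasUncurry.uncurry]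
  have hk : ∀ s, f s 0 = f 0 0 := by
    intro s
    have a1 := hd.apply_eq_apply_of_bounded
      (isBounded_iff_forall_norm_le.2 ⟨R, by rintro _ ⟨z, rfl⟩; exact hb _ _⟩) (s : ℂ) 0
    simpa using a1
  have a2 := h1 0 0
  simp only [hk] at a2
  exact a2.unique (hasDerivAt_const _ _)

namespace BM

variable {N n : ℕ} {M : BM N n}

theorem c4a_deriv {θ : ℝ → M.Aut} {Y : M.End} (h : M.IsFlow θ Y) (f : M.O) (x : M.X) (t : ℝ) :
    HasDerivAt (fun t => f.1 (θ t • x)) ((Y f).1 (θ t • x)) t := by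
  rw [(h.vf _).2]
  exact h.hasDerivAt f.2 x t

/-- Convergence of the difference quotients, after applying a vector field, at moving points. -/
theorem c4a_quot {θ : ℝ → M.Aut} {Y : M.End} (h : M.IsFlow θ Y) {W : M.End}
    (hW : M.IsVF W) (f : M.O) (s : ℝ) {x : ℝ → M.X} {x₀ : M.X}
    (hx : Tendsto x (𝓝[≠] 0) (𝓝 x₀)) :
    Tendsto (fun r : ℝ => r⁻¹ • ((W (M.pull (θ (s + r)) f)).1 (x r) - (W (M.pull (θ s) f)).1 (x r)))
      (𝓝[≠] 0) (𝓝 ((W (M.pull (θ s) (Y f))).1 x₀)) := by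
  let Q : ℝ → M.O := fun r => ((r⁻¹ : ℝ) : ℂ) • (M.pull (θ (s + r)) f - M.pull (θ s) f)
  have hQ : ∀ r y, (Q r).1 y = r⁻¹ • (f.1 (θ (s + r) • y) - f.1 (θ s • y)) := fun r y => rfl
  have hb : M.LocBdd (𝓝[≠] (0 : ℝ)) (fun r => (Q r).1) := by
    refine locBdd_of_compact fun K hK => ?_
    have hc : Continuous (fun p : ℝ × M.X => (Y f).1 (θ p.1 • p.2)) :=
      (Hol.continuous (Y f).2).comp h.continuous
    obtain ⟨C, hC⟩ := ((isCompact_closedBall s 1).prod hK).exists_bound_of_continuousOn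
      hc.continuousOn
    refine ⟨C, ?_⟩
    filter_upwards [self_mem_nhdsWithin,
      mem_nhdsWithin_of_mem_nhds (closedBall_mem_nhds (0 : ℝ) one_pos)] with r hr0 hr y hy
    have a1 := (convex_closedBall s 1).norm_image_sub_le_of_norm_hasDerivWithin_le
      (fun t _ => (c4a_deriv h f y t).hasDerivWithinAt) (fun t ht => hC (t, y) ⟨ht, hy⟩)
      (mem_closedBall_self zero_le_one) (show s + r ∈ closedBall s 1 by simpa using hr)
    rw [add_sub_cancel_left] at a1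
    rw [hQ, norm_smul, norm_inv, inv_mul_le_iff₀ (norm_pos_iff.2 hr0), mul_comm]
    exact a1
  have hp : ∀ y, Tendsto (fun r => (Q r).1 y) (𝓝[≠] (0 : ℝ))
      (𝓝 ((M.pull (θ s) (Y f)).1 y)) := fun y => (c4a_deriv h f y s).tendsto_slope_zero
  have key := vitali_df_moving (Eventually.of_forall fun r => (Q r).2) hb hp hx
    (((hol_ev W).continuous.tendsto x₀).comp hx) (Eventually.of_forall fun r => (hW _).1)
  rw [← (hW x₀).2] at key
  refine key.congr fun r => ?_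
  rw [Function.comp_apply, ← (hW (x r)).2]
  simp only [Q, map_smul, map_sub]
  rfl

/-- Differentiating `W (f ∘ θ s)` in `s`. -/
theorem IsFlow.hasDerivAt_pull {θ : ℝ → M.Aut} {Y : M.End} (h : M.IsFlow θ Y) {W : M.End}
    (hW : M.IsVF W) (f : M.O) (x : M.X) (s : ℝ) :
    HasDerivAt (fun s => (W (M.pull (θ s) f)).1 x) ((W (M.pull (θ s) (Y f))).1 x) s := by
  exact hasDerivAt_iff_tendsto_slope_zero.2 (c4a_quot h hW f s tendsto_const_nhds)

theorem c4a_pull_comm {θ : ℝ → M.Aut} {Y : M.End} (h : M.IsFlow θ Y) (f : M.O) (s : ℝ) :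
    M.pull (θ s) (Y f) = Y (M.pull (θ s) f) := by
  refine Subtype.ext (funext fun x => ?_)
  have a1 := Ad_apply (θ s) Y f (θ s • x)
  rw [h.Ad_self, inv_smul_smul] at a1
  exact a1

theorem IsFlow.hasDerivAt_Ad {θ : ℝ → M.Aut} {Y : M.End} (h : M.IsFlow θ Y) {W : M.End}
    (hW : M.IsVF W) (f : M.O) (x : M.X) (s : ℝ) :
    HasDerivAt (fun s => (M.Ad (θ s) W f).1 x) ((M.Ad (θ s) ⁅W, Y⁆ f).1 x) s := by
  have hx : Tendsto (fun r : ℝ => θ (-(s + r)) • x) (𝓝[≠] 0) (𝓝 (θ (-s) • x)) := by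
    have a1 : Continuous (fun r : ℝ => θ (-(s + r)) • x) :=
      h.continuous.comp (f := fun r : ℝ => (-(s + r), x)) (by fun_prop)
    have a2 := a1.tendsto 0
    rw [add_zero] at a2
    exact a2.mono_left nhdsWithin_le_nhds
  have h1 := c4a_quot h hW f s hx
  have h2 := ((c4a_deriv h (W (M.pull (θ s) f)) x (-s)).scomp s
    (hasDerivAt_neg s)).tendsto_slope_zero
  rw [hasDerivAt_iff_tendsto_slope_zero]
  have e : (M.Ad (θ s) ⁅W, Y⁆ f).1 x = (W (M.pull (θ s) (Y f))).1 (θ (-s) • x) +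
      (-1 : ℝ) • (Y (W (M.pull (θ s) f))).1 (θ (-s) • x) := by
    rw [Ad_apply, h.inv, lie_apply, c4a_pull_comm h, neg_one_smul, ← sub_eq_add_neg]
    rfl
  rw [e]
  refine (h1.add h2).congr fun r => ?_
  rw [Ad_apply, Ad_apply, h.inv, h.inv, ← smul_add]
  simp only [Function.comp_apply]
  rw [sub_add_sub_cancel]

theorem c4a_jordan {θ : ℝ → M.Aut} {Y : M.End} (h : M.IsFlow θ Y) {W W' : M.End}
    (hW' : M.IsVF W') {c : ℂ} (hA : ∀ t : ℝ, M.Ad (θ t) W = Complex.exp (-(c * t)) • W)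
    (hc' : ⁅Y, W'⁆ = c • W' + W) (t : ℝ) :
    M.Ad (θ t) W' = Complex.exp (-(c * t)) • (W' - (t : ℂ) • W) := by
  refine LinearMap.ext fun f => Subtype.ext (funext fun x => ?_)
  have e : ⁅W', Y⁆ = (-c) • W' + (-1 : ℂ) • W := by
    rw [← lie_skew, hc', neg_add, neg_smul, neg_one_smul]
  have a1 := c4a_ode (u := fun s => (M.Ad (θ s) W' f).1 x) (c := c) (w := (W f).1 x) (fun s => by
    refine (h.hasDerivAt_Ad hW' f x s).congr_deriv ?_
    rw [e, Ad_add, Ad_smul, Ad_smul, hA]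
    change -c * _ + -1 * (_ * _) = _
    ring) t
  rw [a1, h.zero, Ad_one]
  rfl

theorem IsFlow.Ad_eigen {θ : ℝ → M.Aut} {Y : M.End} (h : M.IsFlow θ Y) {W : M.End}
    (hW : M.IsVF W) {c : ℂ} (hc : ⁅Y, W⁆ = c • W) (t : ℝ) :
    M.Ad (θ t) W = Complex.exp (-(c * t)) • W := by
  have a1 := c4a_jordan h (W := 0) hW (c := c)
    (fun t => by rw [BM.Ad, mul_zero, zero_mul, smul_zero]) (by rw [hc, add_zero]) t
  rwa [smul_zero, sub_zero] at a1

theorem IsFlow.Ad_jordan {θ : ℝ → M.Aut} {Y : M.End} (h : M.IsFlow θ Y) {W W' : M.End}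
    (hW : M.IsVF W) (hW' : M.IsVF W') {c : ℂ} (hc : ⁅Y, W⁆ = c • W)
    (hc' : ⁅Y, W'⁆ = c • W' + W) (t : ℝ) :
    M.Ad (θ t) W' = Complex.exp (-(c * t)) • (W' - (t : ℂ) • W) := by
  exact c4a_jordan h hW' (h.Ad_eigen hW hc) hc' t

theorem c4a_Ad_fix {θ : ℝ → M.Aut} {Y : M.End} (h : M.IsFlow θ Y) {W : M.End}
    (hW : M.IsVF W) (hc : ⁅Y, W⁆ = 0) (t : ℝ) : M.Ad (θ t) W = W := by
  have a1 := h.Ad_eigen hW (c := 0) (by rw [hc, zero_smul]) t
  rwa [zero_mul, neg_zero, Complex.exp_zero, one_smul] at a1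

theorem IsFlow.comm_of_lie {θ θ' : ℝ → M.Aut} {W W' : M.End} (h : M.IsFlow θ W)
    (h' : M.IsFlow θ' W') (hc : ⁅W, W'⁆ = 0) (s t : ℝ) : θ s * θ' t = θ' t * θ s := by
  exact h.comm h' (c4a_Ad_fix h h'.vf hc) s t

/-- Liouville lemma. -/
theorem liouville {X Y : M.End} (hX : X ∈ M.gR) (hY : Y ∈ M.gR) (hc : ⁅X, Y⁆ = 0) {p : M.X}
    (hp : M.ev X p + Complex.I • M.ev Y p = 0) : M.ev X p = 0 ∧ M.ev Y p = 0 := by
  obtain ⟨θ, h⟩ := hX
  obtain ⟨θ', h'⟩ := hY
  obtain ⟨R, -, hR⟩ := M.exists_bound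
  have hZ : M.IsVF (X + Complex.I • Y) := h.vf.add (h'.vf.smul _)
  have hc' : ⁅Y, X⁆ = 0 := by rw [← lie_skew, hc, neg_zero]
  have hI : ∀ y, M.ev (X + Complex.I • Y) y = 0 → M.ev Y y = Complex.I • M.ev X y := by
    intro y hy
    rw [ev_add, ev_smul] at hy
    rw [eq_neg_of_add_eq_zero_left hy, smul_neg, smul_smul, Complex.I_mul_I, neg_one_smul, neg_neg]
  have h0 : ∀ (a : M.Aut) y, M.Ad a (X + Complex.I • Y) = X + Complex.I • Y →
      M.ev (X + Complex.I • Y) y = 0 → M.ev (X + Complex.I • Y) (a • y) = 0 := by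
    intro a y ha hy
    rw [← ha, ev_Ad a hZ, hy, map_zero]
  have hp' : M.ev (X + Complex.I • Y) p = 0 := by rw [ev_add, ev_smul, hp]
  have h1 : ∀ s t, M.ev Y (θ s • θ' t • p) = Complex.I • M.ev X (θ s • θ' t • p) := by
    intro s t
    refine hI _ (h0 _ _ (c4a_Ad_fix h hZ ?_ s) (h0 _ _ (c4a_Ad_fix h' hZ ?_ t) hp'))
    · rw [lie_add, lie_smul, lie_self, hc, smul_zero, add_zero]
    · rw [lie_add, lie_smul, lie_self, hc', smul_zero, add_zero]
  have h2 : ∀ s t, θ s • θ' t • p = θ' t • θ s • p := by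
    intro s t
    rw [← mul_smul, ← mul_smul, h.comm_of_lie h' hc]
  have h3 := c4a_CR (f := fun s t => M.ι (θ s • θ' t • p))
    (v := fun s t => M.ev X (θ s • θ' t • p)) (fun s t => h.deriv _ s)
    (fun s t => by
      rw [← h1]
      simp only [h2]
      exact h'.deriv _ t)
    ((hol_ev X).continuous.comp (h.continuous.comp (continuous_fst.prodMk
      (h'.continuous.comp (continuous_snd.prodMk continuous_const))))) (fun s t => hR _)
  simp only [h.zero, h'.zero, one_smul] at h3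
  exact ⟨h3, by rw [hI p hp', h3, smul_zero]⟩

theorem eq_zero_of_add_I {X Y : M.End} (hX : X ∈ M.gR) (hY : Y ∈ M.gR)
    (h : X + Complex.I • Y = 0) : X = 0 ∧ Y = 0 := by
  have hc : ⁅X, Y⁆ = 0 := by
    rw [eq_neg_of_add_eq_zero_left h, neg_lie, smul_lie, lie_self, smul_zero, neg_zero]
  have h1 : ∀ p, M.ev X p = 0 ∧ M.ev Y p = 0 := fun p =>
    liouville hX hY hc (by rw [← ev_smul, ← ev_add, h, ev_zero])
  obtain ⟨θ, hθ⟩ := hX
  obtain ⟨θ', hθ'⟩ := hY
  exact ⟨hθ.vf.ext isVF_zero fun p => by rw [(h1 p).1, ev_zero],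
    hθ'.vf.ext isVF_zero fun p => by rw [(h1 p).2, ev_zero]⟩

end BM

end Vale.Agent.P274
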