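import Vale.Agent.P274.C3
import Vale.Agent.P274.Alg0
import Vale.Agent.P274.C4a

/-! Brackets, the adjoint action of flows, the conjugation. -/

open Metric Set Filter Topology

noncomputable section

namespace Vale.Agent.P274

theorem c4_smul_dec {V : Type*} [AddCommGroup V] [Module ℂ V] (c : ℂ) (X Y : V) :
    c • (X + Complex.I • Y) = ((c.re : ℂ) • X - (c.im : ℂ) • Y) +
      Complex.I • ((c.im : ℂ) • X + (c.re : ℂ) • Y) := by
  have hI : Complex.I * Complex.I = -1 := Complex.I_mul_I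
  have hc : c = c.re + c.im * Complex.I := (Complex.re_add_im c).symm
  generalize (c.re : ℂ) = a at hc ⊢
  generalize (c.im : ℂ) = b at hc ⊢
  subst hc
  match_scalars
  · ring
  · linear_combination b * hI

theorem c4_smul_dec' {V : Type*} [AddCommGroup V] [Module ℂ V] (c : ℂ) (X Y : V) :
    ((c.re : ℂ) • X - (c.im : ℂ) • Y) - Complex.I • ((c.im : ℂ) • X + (c.re : ℂ) • Y) =
      starRingEnd ℂ c • (X - Complex.I • Y) := by
  have hI : Complex.I * Complex.I = -1 := Complex.I_mul_I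
  have hc : starRingEnd ℂ c = c.re - c.im * Complex.I := by
    apply Complex.ext <;> simp
  rw [hc]
  generalize (c.re : ℂ) = a
  generalize (c.im : ℂ) = b
  match_scalars
  · ring
  · linear_combination (-b) * hI

theorem c4_lie_dec {V : Type*} [LieRing V] [LieAlgebra ℂ V] (X Y X' Y' : V) :
    ⁅X + Complex.I • Y, X' + Complex.I • Y'⁆ = (⁅X, X'⁆ - ⁅Y, Y'⁆) +
      Complex.I • (⁅X, Y'⁆ + ⁅Y, X'⁆) := by
  have hI : Complex.I * Complex.I = -1 := Complex.I_mul_I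
  simp only [add_lie, lie_add, smul_lie, lie_smul]
  match_scalars
  · ring
  · ring
  · ring
  · linear_combination hI

theorem c4_lie_dec' {V : Type*} [LieRing V] [LieAlgebra ℂ V] (X Y X' Y' : V) :
    (⁅X, X'⁆ - ⁅Y, Y'⁆) - Complex.I • (⁅X, Y'⁆ + ⁅Y, X'⁆) =
      ⁅X - Complex.I • Y, X' - Complex.I • Y'⁆ := by
  have hI : Complex.I * Complex.I = -1 := Complex.I_mul_I
  simp only [sub_lie, lie_sub, smul_lie, lie_smul]
  match_scalars
  · ring
  · linear_combination -hI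
  · ring
  · ring

namespace CM

variable {N n : ℕ} (M : CM N n)

theorem c4_isVF {W : M.End} (hW : W ∈ M.gR) : M.IsVF W := by
  obtain ⟨θ, h⟩ := hW
  exact h.vf

theorem c4_neg_mem {W : M.End} (hW : W ∈ M.gR) : -W ∈ M.gR := by
  have h := M.smul_mem_gR (-1) hW
  have e : ((-1 : ℝ) : ℂ) • W = -W := by
    rw [Complex.ofReal_neg, Complex.ofReal_one, neg_one_smul]
  rwa [e] at h

theorem c4_sub_mem {W W' : M.End} (hW : W ∈ M.gR) (hW' : W' ∈ M.gR) : W - W' ∈ M.gR := by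
  rw [sub_eq_add_neg]
  exact M.add_mem_gR hW (M.c4_neg_mem hW')

theorem c4_zero_mem : (0 : M.End) ∈ M.gR := ⟨_, BM.isFlow_zero⟩

/-- Closedness of the real Lie algebra under pointwise limits, by finite dimensionality. -/
theorem c4_closed {ι : Type*} {l : Filter ι} [l.NeBot] {W : ι → M.End} {V : M.End}
    (hV : M.IsVF V) (hW : ∀ᶠ j in l, W j ∈ M.gR)
    (hp : ∀ x, Tendsto (fun j => M.ev (W j) x) l (𝓝 (M.ev V x))) : V ∈ M.gR := by
  obtain ⟨k, B, hB, hspan⟩ := M.gR_finite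
  let S : Submodule ℝ (M.X → E N) := Submodule.span ℝ (range fun l => M.ev (B l))
  have : FiniteDimensional ℝ S := FiniteDimensional.span_of_finite ℝ (finite_range _)
  have hS : IsClosed (S : Set (M.X → E N)) := S.closed_of_finiteDimensional
  have hev : ∀ c : Fin k → ℝ, M.ev (∑ l, (c l : ℂ) • B l) = ∑ l, c l • M.ev (B l) := by
    intro c
    funext x
    rw [BM.ev_sum, Finset.sum_apply]
    refine Finset.sum_congr rfl fun l _ => ?_
    rw [BM.ev_smul, Pi.smul_apply, Complex.coe_smul]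
  have hlim : Tendsto (fun j => M.ev (W j)) l (𝓝 (M.ev V)) := tendsto_pi_nhds.2 hp
  have hmem : M.ev V ∈ S := by
    refine hS.mem_of_tendsto hlim ?_
    filter_upwards [hW] with j hj
    obtain ⟨c, hc⟩ := hspan _ hj
    rw [hc, hev]
    exact Submodule.sum_mem _ fun l _ =>
      Submodule.smul_mem _ _ (Submodule.subset_span ⟨l, rfl⟩)
  obtain ⟨c, hc⟩ := (Submodule.mem_span_range_iff_exists_fun ℝ).1 hmem
  have hg : ∑ l, (c l : ℂ) • B l ∈ M.gR := M.sum_mem_gR _ c fun l _ => hB l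
  have e : V = ∑ l, (c l : ℂ) • B l := by
    refine hV.ext (M.c4_isVF hg) fun x => ?_
    rw [hev, hc]
  rwa [e]

theorem lie_mem_gR {W W' : M.End} (hW : W ∈ M.gR) (hW' : W' ∈ M.gR) : ⁅W, W'⁆ ∈ M.gR := by
  obtain ⟨θ, h⟩ := hW'
  have hv := M.c4_isVF hW
  refine M.c4_closed (l := 𝓝[≠] (0 : ℝ))
    (W := fun s => ((s⁻¹ : ℝ) : ℂ) • (M.Ad (θ s) W - W)) (hv.lie h.vf)
    (Eventually.of_forall fun s =>
      M.smul_mem_gR _ (M.c4_sub_mem (BM.Ad_mem_gR _ hW) hW)) fun x => ?_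
  refine tendsto_pi_nhds.2 fun m => ?_
  have h1 := (h.hasDerivAt_Ad hv (M.zc m) x 0).tendsto_slope_zero
  simp only [zero_add, h.zero, BM.Ad_one] at h1
  refine h1.congr fun s => ?_
  rw [BM.ev_smul, BM.ev_sub, Pi.smul_apply, Pi.sub_apply, Complex.coe_smul]
  rfl

theorem mem_gC_iff (W : M.End) :
    W ∈ M.gC ↔ ∃ X ∈ M.gR, ∃ Y ∈ M.gR, W = X + Complex.I • Y := by
  constructor
  · intro hW
    let S : LieSubalgebra ℂ M.End :=
      { carrier := {W | ∃ X ∈ M.gR, ∃ Y ∈ M.gR, W = X + Complex.I • Y}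
        add_mem' := by
          rintro _ _ ⟨X, hX, Y, hY, rfl⟩ ⟨X', hX', Y', hY', rfl⟩
          exact ⟨X + X', M.add_mem_gR hX hX', Y + Y', M.add_mem_gR hY hY', by
            rw [smul_add]; abel⟩
        zero_mem' := ⟨0, M.c4_zero_mem, 0, M.c4_zero_mem, by rw [smul_zero, add_zero]⟩
        smul_mem' := by
          rintro c _ ⟨X, hX, Y, hY, rfl⟩
          refine ⟨(c.re : ℂ) • X - (c.im : ℂ) • Y,
            M.c4_sub_mem (M.smul_mem_gR _ hX) (M.smul_mem_gR _ hY),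
            (c.im : ℂ) • X + (c.re : ℂ) • Y,
            M.add_mem_gR (M.smul_mem_gR _ hX) (M.smul_mem_gR _ hY), ?_⟩
          exact c4_smul_dec c X Y
        lie_mem' := by
          rintro _ _ ⟨X, hX, Y, hY, rfl⟩ ⟨X', hX', Y', hY', rfl⟩
          refine ⟨⁅X, X'⁆ - ⁅Y, Y'⁆,
            M.c4_sub_mem (M.lie_mem_gR hX hX') (M.lie_mem_gR hY hY'),
            ⁅X, Y'⁆ + ⁅Y, X'⁆,
            M.add_mem_gR (M.lie_mem_gR hX hY') (M.lie_mem_gR hY hX'), ?_⟩
          exact c4_lie_dec X Y X' Y' }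
    have hle : M.gC ≤ S := by
      refine LieSubalgebra.lieSpan_le.2 fun X hX => ?_
      exact ⟨X, hX, 0, M.c4_zero_mem, by rw [smul_zero, add_zero]⟩
    exact hle hW
  · rintro ⟨X, hX, Y, hY, rfl⟩
    exact M.gC.add_mem (BM.mem_gC_of_mem_gR hX)
      (M.gC.smul_mem _ (BM.mem_gC_of_mem_gR hY))

instance : FiniteDimensional ℂ M.gC := by
  obtain ⟨k, B, -, hspan⟩ := M.gR_finite
  have : FiniteDimensional ℂ (Submodule.span ℂ (range B)) :=
    FiniteDimensional.span_of_finite ℂ (finite_range _)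
  have hR : ∀ X ∈ M.gR, X ∈ Submodule.span ℂ (range B) := by
    intro X hX
    obtain ⟨c, rfl⟩ := hspan X hX
    exact Submodule.sum_mem _ fun l _ =>
      Submodule.smul_mem _ _ (Submodule.subset_span ⟨l, rfl⟩)
  have hle : M.gC.toSubmodule ≤ Submodule.span ℂ (range B) := by
    intro W hW
    obtain ⟨X, hX, Y, hY, rfl⟩ := (M.mem_gC_iff W).1 hW
    exact Submodule.add_mem _ (hR X hX) (Submodule.smul_mem _ _ (hR Y hY))
  exact Submodule.finiteDimensional_of_le hle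

theorem c4_unique {X Y X' Y' : M.End} (hX : X ∈ M.gR) (hY : Y ∈ M.gR) (hX' : X' ∈ M.gR)
    (hY' : Y' ∈ M.gR) (h : X + Complex.I • Y = X' + Complex.I • Y') : X = X' ∧ Y = Y' := by
  have h1 : (X - X') + Complex.I • (Y - Y') = 0 := by
    rw [smul_sub, ← sub_eq_zero.2 h]; abel
  obtain ⟨h2, h3⟩ := BM.eq_zero_of_add_I (M.c4_sub_mem hX hX') (M.c4_sub_mem hY hY') h1
  exact ⟨sub_eq_zero.1 h2, sub_eq_zero.1 h3⟩

theorem exists_conj : ∃ σ : Conj M.gC, ∀ W, σ W = W ↔ W.1 ∈ M.gR := by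
  have hdec : ∀ W : M.gC, ∃ X ∈ M.gR, ∃ Y ∈ M.gR, W.1 = X + Complex.I • Y :=
    fun W => (M.mem_gC_iff W.1).1 W.2
  choose X hX Y hY hW using hdec
  let s : M.gC → M.gC := fun W => ⟨X W - Complex.I • Y W,
    M.gC.sub_mem (BM.mem_gC_of_mem_gR (hX W)) (M.gC.smul_mem _ (BM.mem_gC_of_mem_gR (hY W)))⟩
  have hs : ∀ (W : M.gC) (X' Y' : M.End), X' ∈ M.gR → Y' ∈ M.gR → W.1 = X' + Complex.I • Y' →
      (s W).1 = X' - Complex.I • Y' := by
    intro W X' Y' hX' hY' h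
    obtain ⟨h1, h2⟩ := M.c4_unique (hX W) (hY W) hX' hY' ((hW W).symm.trans h)
    change X W - Complex.I • Y W = _
    rw [h1, h2]
  have hs0 : ∀ W : M.gC, (s W).1 = X W - Complex.I • Y W := fun _ => rfl
  refine ⟨⟨s, fun A B => Subtype.ext ?_, fun c A => Subtype.ext ?_,
    fun A B => Subtype.ext ?_, fun A => Subtype.ext ?_⟩, fun W => ?_⟩
  · have e : (A + B).1 = (X A + X B) + Complex.I • (Y A + Y B) := by
      change A.1 + B.1 = _
      rw [hW A, hW B, smul_add]; abel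
    rw [hs _ _ _ (M.add_mem_gR (hX A) (hX B)) (M.add_mem_gR (hY A) (hY B)) e]
    change _ = (s A).1 + (s B).1
    rw [hs0, hs0, smul_add]; abel
  · have e : (c • A).1 = ((c.re : ℂ) • X A - (c.im : ℂ) • Y A) +
        Complex.I • ((c.im : ℂ) • X A + (c.re : ℂ) • Y A) := by
      change c • A.1 = _
      rw [hW A, c4_smul_dec]
    rw [hs _ _ _ (M.c4_sub_mem (M.smul_mem_gR _ (hX A)) (M.smul_mem_gR _ (hY A)))
      (M.add_mem_gR (M.smul_mem_gR _ (hX A)) (M.smul_mem_gR _ (hY A))) e]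
    change _ = starRingEnd ℂ c • (s A).1
    rw [hs0, c4_smul_dec']
  · have e : (⁅A, B⁆ : M.gC).1 = (⁅X A, X B⁆ - ⁅Y A, Y B⁆) +
        Complex.I • (⁅X A, Y B⁆ + ⁅Y A, X B⁆) := by
      change ⁅A.1, B.1⁆ = _
      rw [hW A, hW B, c4_lie_dec]
    rw [hs _ _ _ (M.c4_sub_mem (M.lie_mem_gR (hX A) (hX B)) (M.lie_mem_gR (hY A) (hY B)))
      (M.add_mem_gR (M.lie_mem_gR (hX A) (hY B)) (M.lie_mem_gR (hY A) (hX B))) e]
    change _ = ⁅(s A).1, (s B).1⁆
    rw [hs0, hs0, c4_lie_dec']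
  · have e : (s A).1 = X A + Complex.I • (-Y A) := by
      rw [hs0, smul_neg, sub_eq_add_neg]
    rw [hs _ _ _ (hX A) (M.c4_neg_mem (hY A)) e, hW A, smul_neg, sub_neg_eq_add]
  · change s W = W ↔ _
    constructor
    · intro h
      have h1 : X W + Complex.I • (-Y W) = X W + Complex.I • Y W := by
        rw [smul_neg, ← sub_eq_add_neg, ← hs0, h, hW W]
      have h2 := (M.c4_unique (hX W) (M.c4_neg_mem (hY W)) (hX W) (hY W) h1).2
      have h3 : (2 : ℂ) • Y W = 0 := by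
        rw [two_smul]
        nth_rewrite 1 [← h2]
        exact neg_add_cancel _
      have h4 : Y W = 0 := (smul_eq_zero.1 h3).resolve_left two_ne_zero
      rw [hW W, h4, smul_zero, add_zero]
      exact hX W
    · intro h
      refine Subtype.ext ?_
      rw [hs W W.1 0 h M.c4_zero_mem (by rw [smul_zero, add_zero]), smul_zero, sub_zero]

/-- The conjugation of the complex Lie algebra with respect to the real one. -/
def σ : Conj M.gC := M.exists_conj.choose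

theorem σ_eq_iff (W : M.gC) : M.σ W = W ↔ W.1 ∈ M.gR := M.exists_conj.choose_spec W

theorem AdC_σ (a : M.Aut) (W : M.gC) : BM.AdC a (M.σ W) = M.σ (BM.AdC a W) := by
  obtain ⟨X, hX, Y, hY, hW⟩ := (M.mem_gC_iff W.1).1 W.2
  let X' : M.gC := ⟨X, BM.mem_gC_of_mem_gR hX⟩
  let Y' : M.gC := ⟨Y, BM.mem_gC_of_mem_gR hY⟩
  have e : W = X' + Complex.I • Y' := Subtype.ext hW
  have h1 : M.σ X' = X' := (M.σ_eq_iff X').2 hX
  have h2 : M.σ Y' = Y' := (M.σ_eq_iff Y').2 hY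
  have h3 : M.σ (BM.AdC a X') = BM.AdC a X' := (M.σ_eq_iff _).2 (BM.Ad_mem_gR a hX)
  have h4 : M.σ (BM.AdC a Y') = BM.AdC a Y' := (M.σ_eq_iff _).2 (BM.Ad_mem_gR a hY)
  rw [e, M.σ.map_add, M.σ.map_smul, h1, h2, map_add, map_add, map_smul, map_smul,
    M.σ.map_add, M.σ.map_smul, h3, h4]

/-- The adjoint action of the stabiliser of a point is bounded. -/
theorem Ad_bound (p x : M.X) {W : M.End} (hW : M.IsVF W) :
    ∃ K : ℝ, ∀ a : M.Aut, a • p = p → ‖M.ev (M.Ad a W) x‖ ≤ K := by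
  obtain ⟨C', hC', hT⟩ := M.T1 (C₀ := {p}) (C := {p, x}) isCompact_singleton
    (Set.toFinite _).isCompact
  obtain ⟨K, hK, hdf⟩ := M.df_aut_bound hC'
  obtain ⟨b, hb⟩ := hC'.exists_bound_of_continuousOn (BM.hol_ev W).continuous.continuousOn
  refine ⟨K * b, fun a ha => ?_⟩
  have hy : a⁻¹ • x ∈ C' := by
    refine hT (fun y => a⁻¹ • y) (M.hol_smul a⁻¹) ⟨p, by simp, ?_⟩ x (by simp)
    exact inv_smul_eq_iff.2 ha.symm
  have e := BM.ev_Ad a hW (a⁻¹ • x)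
  rw [smul_inv_smul] at e
  rw [e]
  exact (hdf a _ hy _ (hW _).1).trans (mul_le_mul_of_nonneg_left (hb _ hy) hK.le)

theorem c4_exists_ev {W : M.End} (hW : M.IsVF W) (h0 : W ≠ 0) : ∃ x, M.ev W x ≠ 0 := by
  by_contra h
  push Not at h
  exact h0 (hW.ext BM.isVF_zero h)

theorem c4_re_eq_zero {θ : ℝ → M.Aut} {X W : M.End} (h : M.IsFlow θ X) {p : M.X}
    (hp : M.ev X p = 0) (hW : M.IsVF W) (h0 : W ≠ 0) {c : ℂ} (hc : ⁅X, W⁆ = c • W) :
    c.re = 0 := by
  obtain ⟨x, hx⟩ := M.c4_exists_ev hW h0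
  obtain ⟨K, hK⟩ := M.Ad_bound p x hW
  have hv : 0 < ‖M.ev W x‖ := norm_pos_iff.2 hx
  by_contra hre
  have h1 := hK _ (h.fix hp (-(K / ‖M.ev W x‖) / c.re))
  rw [h.Ad_eigen hW hc, BM.ev_smul, norm_smul, Complex.norm_exp] at h1
  have h2 : (-(c * ((-(K / ‖M.ev W x‖) / c.re : ℝ) : ℂ))).re = K / ‖M.ev W x‖ := by
    rw [Complex.neg_re, Complex.re_mul_ofReal]
    field_simp
  rw [h2] at h1
  have h3 := Real.add_one_le_exp (K / ‖M.ev W x‖)
  have h4 : (K / ‖M.ev W x‖ + 1) * ‖M.ev W x‖ ≤ K :=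
    (mul_le_mul_of_nonneg_right h3 hv.le).trans h1
  rw [add_mul, div_mul_cancel₀ _ hv.ne', one_mul] at h4
  linarith

theorem c4_no_jordan {θ : ℝ → M.Aut} {X W W' : M.End} (h : M.IsFlow θ X) {p : M.X}
    (hp : M.ev X p = 0) (hW : M.IsVF W) (hW' : M.IsVF W') {c : ℂ} (hc : ⁅X, W⁆ = c • W)
    (hc' : ⁅X, W'⁆ = c • W' + W) : W = 0 := by
  by_contra h0
  have hre := M.c4_re_eq_zero h hp hW h0 hc
  obtain ⟨x, hx⟩ := M.c4_exists_ev hW h0
  obtain ⟨K, hK⟩ := M.Ad_bound p x hW'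
  have hv : 0 < ‖M.ev W x‖ := norm_pos_iff.2 hx
  set t : ℝ := (|K| + ‖M.ev W' x‖ + 1) / ‖M.ev W x‖ with ht
  have ht0 : 0 ≤ t := by positivity
  have h1 := hK _ (h.fix hp t)
  rw [h.Ad_jordan hW hW' hc hc', BM.ev_smul, norm_smul, Complex.norm_exp, Complex.neg_re,
    Complex.re_mul_ofReal, hre, zero_mul, neg_zero, Real.exp_zero, one_mul, BM.ev_sub,
    BM.ev_smul] at h1
  have h2 := norm_sub_norm_le ((t : ℂ) • M.ev W x) (M.ev W' x)
  rw [norm_sub_rev, norm_smul, Complex.norm_real, Real.norm_of_nonneg ht0, ht,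
    div_mul_cancel₀ _ hv.ne'] at h2
  have h3 := le_abs_self K
  rw [← ht] at h2
  linarith

theorem isotropy_diag (p : M.X) (X : M.gC) (hX : X ∈ M.q p) (hσ : M.σ X = X) :
    ⨆ c : ℝ, Module.End.eigenspace (LieAlgebra.ad ℂ M.gC X) (c * Complex.I) = ⊤ := by
  obtain ⟨θ, h⟩ := (M.σ_eq_iff X).1 hσ
  have hp : M.ev X.1 p = 0 := hX
  set T : Module.End ℂ M.gC := LieAlgebra.ad ℂ M.gC X with hT
  have hTa : ∀ W : M.gC, (T W).1 = ⁅X.1, W.1⁆ := fun _ => rfl
  have hstep : ∀ (μ : ℂ) (W : M.gC), (T - μ • 1) ((T - μ • 1) W) = 0 → (T - μ • 1) W = 0 := by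
    intro μ W hW
    refine Subtype.ext (M.c4_no_jordan h hp (BM.isVF_of_mem_gC ((T - μ • 1) W).2)
      (BM.isVF_of_mem_gC W.2) (c := μ) ?_ ?_)
    · have e : T ((T - μ • 1) W) = μ • (T - μ • 1) W := sub_eq_zero.1 hW
      rw [← hTa, e]; rfl
    · have e : T W = μ • W + (T - μ • 1) W := (add_sub_cancel (μ • W) (T W)).symm
      rw [← hTa, e]; rfl
  have hpow : ∀ (μ : ℂ) (k : ℕ) (W : M.gC), ((T - μ • 1) ^ k) W = 0 → (T - μ • 1) W = 0 := by
    intro μ k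
    induction k with
    | zero =>
      intro W hW
      have : W = 0 := hW
      rw [this, map_zero]
    | succ k ih =>
      intro W hW
      rw [pow_succ, Module.End.mul_apply] at hW
      exact hstep μ W (ih _ hW)
  rw [eq_top_iff, ← Module.End.iSup_maxGenEigenspace_eq_top T]
  refine iSup_le fun μ W hW => ?_
  obtain ⟨k, hk⟩ := (Module.End.mem_maxGenEigenspace T μ W).1 hW
  have e : T W = μ • W := sub_eq_zero.1 (hpow μ k W hk)
  by_cases h0 : W = 0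
  · rw [h0]; exact Submodule.zero_mem _
  have hre : μ.re = 0 := by
    refine M.c4_re_eq_zero h hp (BM.isVF_of_mem_gC W.2) (fun h1 => h0 (Subtype.ext h1)) ?_
    rw [← hTa, e]; rfl
  have hμ : μ = (μ.im : ℂ) * Complex.I := by
    apply Complex.ext <;> simp [hre]
  refine Submodule.mem_iSup_of_mem μ.im ?_
  rw [Module.End.mem_eigenspace_iff, ← hμ]
  exact e

end CM

end Vale.Agent.P274
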