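import Vale.Agent.P274.C4
import Vale.Agent.Lib.RiemannMapping

/-! The Casimir bivector vanishes. -/

open Metric Set Filter Topology

noncomputable section

namespace Vale.Agent.P274.CM

variable {N n : ℕ} (M : CM N n)

/-- The functional `W ↦ (W f)(x)`. -/
def casL (f : M.O) (x : M.X) : Module.Dual ℂ M.gC where
  toFun W := (W.1 f).1 x
  map_add' _ _ := rfl
  map_smul' _ _ := rfl

theorem casL_apply (f : M.O) (x : M.X) (W : M.gC) : M.casL f x W = (W.1 f).1 x := rfl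

theorem casL_df (f : M.O) (x : M.X) (W : M.gC) :
    M.casL f x W = M.df f.1 x (M.ev W.1 x) := (BM.isVF_of_mem_gC W.2 x).2 f

theorem casL_add (f g : M.O) (x : M.X) : M.casL (f + g) x = M.casL f x + M.casL g x := by
  ext W
  simp only [casL_apply, map_add, LinearMap.add_apply]
  rfl

theorem casL_smul (c : ℂ) (f : M.O) (x : M.X) : M.casL (c • f) x = c • M.casL f x := by
  ext W
  simp only [casL_apply, map_smul, LinearMap.smul_apply]
  rfl

theorem casL_pull (a : M.Aut) (f : M.O) (x : M.X) (W : M.gC) :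
    M.casL (M.pull a f) x W = M.casL f (a • x) (BM.AdC a W) := by
  rw [casL_apply, casL_apply, BM.AdC_coe, BM.Ad_apply, inv_smul_smul]

variable [LieAlgebra.IsKilling ℂ M.gC]

/-- The Killing dual of a functional. -/
def casD : Module.Dual ℂ M.gC ≃ₗ[ℂ] M.gC :=
  ((killingForm ℂ M.gC).toDual (LieAlgebra.IsKilling.killingForm_nondegenerate ℂ M.gC)).symm

theorem killing_casD (φ : Module.Dual ℂ M.gC) (W : M.gC) :
    killingForm ℂ M.gC (M.casD φ) W = φ W :=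
  LinearMap.BilinForm.apply_toDual_symm_apply φ W

theorem casD_eq {φ : Module.Dual ℂ M.gC} {Y : M.gC} (h : ∀ W, killingForm ℂ M.gC Y W = φ W) :
    M.casD φ = Y := by
  rw [casD, LinearEquiv.symm_apply_eq]
  ext W
  exact (h W).symm

/-- The Casimir bivector. -/
def casQ (f g : M.O) (x : M.X) : ℂ := M.casL f x (M.casD (M.casL g x))

theorem casQ_comm (f g : M.O) (x : M.X) : M.casQ f g x = M.casQ g f x := by
  rw [casQ, casQ, ← killing_casD, LieModule.traceForm_comm, killing_casD]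

theorem casQ_eq (f g : M.O) (x : M.X) : M.casQ f g x =
    ∑ i, M.casL g x (Module.finBasis ℂ M.gC i) *
      M.casL f x (M.casD ((Module.finBasis ℂ M.gC).coord i)) := by
  rw [casQ]
  conv_lhs => rw [← (Module.finBasis ℂ M.gC).sum_dual_apply_smul_coord (M.casL g x)]
  simp only [map_sum, map_smul, smul_eq_mul]

theorem hol_casQ (f g : M.O) : M.Hol (M.casQ f g) := by
  intro x
  have e : M.casQ f g = fun x => ∑ i, M.casL g x (Module.finBasis ℂ M.gC i) *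
      M.casL f x (M.casD ((Module.finBasis ℂ M.gC).coord i)) := funext (M.casQ_eq f g)
  rw [e]
  exact BM.holAt_sum _ fun i _ => BM.HolAt.mul ((_ : M.O).2 x) ((_ : M.O).2 x)

theorem casQ_pull (a : M.Aut) (f g : M.O) (x : M.X) :
    M.casQ (M.pull a f) (M.pull a g) x = M.casQ f g (a • x) := by
  have e : M.casD (M.casL g (a • x)) = BM.AdC a (M.casD (M.casL (M.pull a g) x)) := by
    refine M.casD_eq fun W => ?_
    rw [← (BM.AdC a).apply_symm_apply W, LieAlgebra.killingForm_of_equiv_apply, killing_casD,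
      casL_pull]
  rw [casQ, casQ, casL_pull, e]

theorem casQ_of_smul {f h : M.O} {x : M.X} {c : ℂ} (e : M.casL h x = c • M.casL f x) :
    M.casQ h h x = c ^ 2 * M.casQ f f x := by
  rw [casQ, casQ, e]
  simp only [map_smul, LinearMap.smul_apply, smul_eq_mul]
  ring

omit [LieAlgebra.IsKilling ℂ M.gC] in
theorem casL_bound (W : M.gC) : ∃ C : ℝ, 0 ≤ C ∧ ∀ f : M.O, (∀ y, ‖f.1 y‖ ≤ 1) →
    ∀ x ∈ M.K, ‖M.casL f x W‖ ≤ C := by
  obtain ⟨C', -, -, K, hK, h⟩ := BM.cauchy_df (F := ℂ) M.K_cpt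
  obtain ⟨b, hb⟩ := M.K_cpt.exists_bound_of_continuousOn
    (BM.hol_ev W.1).continuous.continuousOn
  refine ⟨K * |b|, by positivity, fun f hf x hx => ?_⟩
  rw [casL_df]
  have h1 := h f.1 1 f.2 (fun y _ => hf y) x hx _ (BM.isVF_of_mem_gC W.2 x).1
  rw [mul_one] at h1
  exact h1.trans (mul_le_mul_of_nonneg_left ((hb x hx).trans (le_abs_self b)) hK.le)

theorem casQ_bound : ∃ C : ℝ, ∀ f : M.O, (∀ y, ‖f.1 y‖ ≤ 1) →
    ∀ x ∈ M.K, ‖M.casQ f f x‖ ≤ C := by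
  choose C hC0 hC using M.casL_bound
  refine ⟨∑ i, C (Module.finBasis ℂ M.gC i) * C (M.casD ((Module.finBasis ℂ M.gC).coord i)),
    fun f hf x hx => ?_⟩
  rw [casQ_eq]
  refine norm_sum_le_of_le _ fun i _ => ?_
  rw [norm_mul]
  exact mul_le_mul (hC _ f hf x hx) (hC _ f hf x hx) (norm_nonneg _) (hC0 _)

theorem casQ_extremal : ∃ (g : M.O) (x₀ : M.X), (∀ y, ‖g.1 y‖ ≤ 1) ∧
    ∀ f : M.O, (∀ y, ‖f.1 y‖ ≤ 1) → ∀ x, ‖M.casQ f f x‖ ≤ ‖M.casQ g g x₀‖ := by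
  obtain ⟨C, hC⟩ := M.casQ_bound
  set S : Set ℝ := {s | ∃ f : M.O, (∀ y, ‖f.1 y‖ ≤ 1) ∧ ∃ x ∈ M.K, ‖M.casQ f f x‖ = s} with hS
  have hbd : BddAbove S := ⟨C, by
    rintro s ⟨f, hf, x, hx, rfl⟩
    exact hC f hf x hx⟩
  have hle : ∀ f : M.O, (∀ y, ‖f.1 y‖ ≤ 1) → ∀ x, ‖M.casQ f f x‖ ≤ sSup S := by
    intro f hf x
    obtain ⟨γ, -, hγ⟩ := M.cover x
    refine le_csSup hbd ⟨M.pull γ⁻¹ f, fun y => hf _, γ • x, hγ, ?_⟩
    rw [casQ_pull, inv_smul_smul]
  have hne : S.Nonempty := by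
    obtain ⟨x⟩ : Nonempty M.X := inferInstance
    obtain ⟨γ, -, hγ⟩ := M.cover x
    exact ⟨_, 0, fun y => by simp, _, hγ, rfl⟩
  obtain ⟨u, -, hu, hm⟩ := exists_seq_tendsto_sSup hne hbd
  choose f hf x hx he using hm
  obtain ⟨x₀, -, hx₀⟩ := M.K_cpt.ultrafilter_le_nhds ((hyperfilter ℕ).map x) (by
    rw [Ultrafilter.coe_map, le_principal_iff, mem_map]
    exact Eventually.of_forall hx)
  have hx1 : Tendsto x (hyperfilter ℕ) (𝓝 x₀) := hx₀
  have hh : ∀ᶠ j in (hyperfilter ℕ : Filter ℕ), M.Hol (f j).1 :=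
    Eventually.of_forall fun j => (f j).2
  have hl : M.LocBdd (hyperfilter ℕ : Filter ℕ) fun j => (f j).1 :=
    BM.locBdd_of_bound (Eventually.of_forall hf)
  obtain ⟨g, hg, hlim⟩ := BM.montel (hyperfilter ℕ) hh hl
  have hL : ∀ W : M.gC, Tendsto (fun j => M.casL (f j) (x j) W) (hyperfilter ℕ)
      (𝓝 (M.casL ⟨g, hg⟩ x₀ W)) := by
    intro W
    simp only [casL_df]
    exact BM.vitali_df_moving hh hl hlim hx1
      (((BM.hol_ev W.1).continuous.tendsto x₀).comp hx1)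
      (Eventually.of_forall fun j => (BM.isVF_of_mem_gC W.2 _).1)
  have hQ : Tendsto (fun j => M.casQ (f j) (f j) (x j)) (hyperfilter ℕ)
      (𝓝 (M.casQ ⟨g, hg⟩ ⟨g, hg⟩ x₀)) := by
    simp only [casQ_eq]
    exact tendsto_finset_sum _ fun i _ => (hL _).mul (hL _)
  have h1 := hQ.norm
  simp only [he] at h1
  have h2 := tendsto_nhds_unique h1 (hu.mono_left Nat.hyperfilter_le_atTop)
  refine ⟨⟨g, hg⟩, x₀, fun y => le_of_tendsto' (hlim y).norm fun j => hf j y, fun f' hf' x' => ?_⟩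
  rw [h2]
  exact hle f' hf' x'

theorem casQ_const {g : M.O} {c : ℂ} (h : ∀ y, g.1 y = c) (x : M.X) : M.casQ g g x = 0 := by
  have e : g.1 = fun _ => c := funext h
  rw [casQ, casL_df, e, BM.df_const, ContinuousLinearMap.zero_apply]

theorem casQ_zero_of_le {f : M.O} (hf : ∀ y, ‖f.1 y‖ ≤ 1) (x : M.X) : M.casQ f f x = 0 := by
  obtain ⟨g, x₀, hg, hmax⟩ := M.casQ_extremal
  suffices h : M.casQ g g x₀ = 0 by
    have h1 := hmax f hf x
    rwa [h, norm_zero, norm_le_zero_iff] at h1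
  by_contra hne
  have hc := (M.hol_casQ g g).const_of_max (hmax g hg)
  refine hne (M.casQ_const (c := 0) (fun y => ?_) x₀)
  have hlt : ‖g.1 y‖ < 1 := by
    by_contra hge
    exact hne (M.casQ_const
      (BM.Hol.const_of_max g.2 fun z => (hg z).trans (not_lt.1 hge)) x₀)
  have hh : M.Hol fun z => Lib.RMT.mob (g.1 y) (g.1 z) := fun z =>
    BM.HolAt.div (BM.HolAt.sub (g.2 z) (M.holAt_const _ z))
      (BM.HolAt.sub (M.holAt_const _ z) (BM.HolAt.mul (M.holAt_const _ z) (g.2 z)))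
      (Lib.RMT.mob_den_ne hlt (hg z))
  have hd := Lib.RMT.hasDerivAt_mob hlt hlt.le
  have hL : M.casL ⟨_, hh⟩ y = ((1 - (starRingEnd ℂ) (g.1 y) * g.1 y) /
      (1 - (starRingEnd ℂ) (g.1 y) * g.1 y) ^ 2) • M.casL g y := by
    ext W
    rw [casL_df, LinearMap.smul_apply, casL_df]
    have h1 := BM.df_ambient (g.2 y) hd.differentiableAt (M.ev W.1 y)
    rw [hd.hasFDerivAt.fderiv] at h1
    refine h1.trans ?_
    simp [mul_comm]
  have h1 := hmax ⟨_, hh⟩ (fun z => Lib.RMT.norm_mob_le hlt (hg z)) y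
  rw [M.casQ_of_smul hL, hc y, norm_mul, norm_pow, norm_div, norm_pow,
    Lib.RMT.norm_one_sub_conj_mul_self hlt] at h1
  have h2 : 0 < ‖M.casQ g g x₀‖ := norm_pos_iff.2 hne
  have h3 : 0 < 1 - ‖g.1 y‖ ^ 2 := by nlinarith [norm_nonneg (g.1 y)]
  have h4 : ((1 - ‖g.1 y‖ ^ 2) / (1 - ‖g.1 y‖ ^ 2) ^ 2) ^ 2 ≤ 1 :=
    (mul_le_iff_le_one_left h2).1 h1
  have h5 : (1 - ‖g.1 y‖ ^ 2) / (1 - ‖g.1 y‖ ^ 2) ^ 2 = (1 - ‖g.1 y‖ ^ 2)⁻¹ := by
    field_simp
  rw [h5, sq_le_one_iff₀ (by positivity), inv_le_one₀ h3] at h4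
  have h6 : ‖g.1 y‖ ^ 2 = 0 := le_antisymm (by linarith) (sq_nonneg _)
  exact norm_eq_zero.1 (pow_eq_zero_iff two_ne_zero |>.1 h6)

theorem casQ_zero_of_bdd {f : M.O} {b : ℝ} (hb : 0 < b) (hf : ∀ y, ‖f.1 y‖ ≤ b) (x : M.X) :
    M.casQ f f x = 0 := by
  have h1 := M.casQ_zero_of_le (f := ((b : ℂ))⁻¹ • f) (fun y => by
    have e : (((b : ℂ))⁻¹ • f).1 y = ((b : ℂ))⁻¹ * f.1 y := rfl
    rw [e, norm_mul, norm_inv, Complex.norm_real, Real.norm_of_nonneg hb.le,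
      inv_mul_le_iff₀ hb, mul_one]
    exact hf y) x
  rw [M.casQ_of_smul (M.casL_smul _ f x), mul_eq_zero] at h1
  refine h1.resolve_left (pow_ne_zero _ (inv_ne_zero ?_))
  exact_mod_cast hb.ne'

theorem casQ_zc (i m : Fin N) (x : M.X) : M.casQ (M.zc i) (M.zc m) x = 0 := by
  obtain ⟨R, hR, h⟩ := M.exists_bound
  have h0 : ∀ (k : Fin N) y, ‖(M.zc k).1 y‖ ≤ R := fun k y => (norm_le_pi_norm y.1 k).trans (h y)
  have h1 := M.casQ_zero_of_bdd hR (h0 i) x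
  have h2 := M.casQ_zero_of_bdd hR (h0 m) x
  have h3 := M.casQ_zero_of_bdd (f := M.zc i + M.zc m) (add_pos hR hR)
    (fun y => (norm_add_le _ _).trans (add_le_add (h0 i y) (h0 m y))) x
  have h4 := M.casQ_comm (M.zc i) (M.zc m) x
  simp only [casQ, casL_add, map_add, LinearMap.add_apply] at h1 h2 h3 h4 ⊢
  linear_combination (h3 - h1 - h2 + h4) / 2

omit [LieAlgebra.IsKilling ℂ M.gC] in
theorem casimir [LieAlgebra.IsKilling ℂ M.gC] (p : M.X) (W : M.gC)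
    (hW : ∀ V ∈ M.q p, killingForm ℂ M.gC W V = 0) : W ∈ M.q p := by
  have h1 : killingForm ℂ M.gC W ∈ Submodule.span ℂ (range fun m => M.casL (M.zc m) p) := by
    refine mem_span_of_iInf_ker_le_ker fun V hV => ?_
    rw [Submodule.mem_iInf] at hV
    exact hW V (funext fun m => hV m)
  obtain ⟨c, hc⟩ := (Submodule.mem_span_range_iff_exists_fun ℂ).1 h1
  refine funext fun m => ?_
  have h2 : M.ev W.1 p m = M.casL (M.zc m) p W := rfl
  have h3 : ∀ i, M.casL (M.zc i) p (M.casD (M.casL (M.zc m) p)) = 0 := fun i => M.casQ_zc i m p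
  rw [h2, ← killing_casD, LieModule.traceForm_comm, ← hc]
  simp only [LinearMap.sum_apply, LinearMap.smul_apply, h3, smul_zero, Finset.sum_const_zero,
    Pi.zero_apply]

end Vale.Agent.P274.CM
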