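import Vale.Agent.P274.D0b

/-! Module D0: holomorphic changes of coordinates. -/

open Metric Set Filter Topology MeasureTheory Matrix
open scoped ContDiff ComplexOrder

namespace Vale.Agent.P274

open P271A (eX zv bv)

variable {n : ℕ} {g φ φ' : E n → ℂ} {T : E n → E n} {w : E n}

theorem det_jac (T : E n → E n) (w : E n) : (jac T w).det = (fderiv ℂ T w).det := by
  rw [← det_transpose, ContinuousLinearMap.det, ← LinearMap.det_toMatrix']
  rfl

theorem real_det (L : E n →L[ℂ] E n) : |(L.restrictScalars ℝ).det| = ‖L.det‖ ^ 2 := by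
  have h : (L.restrictScalars ℝ).det = Algebra.norm ℝ L.det :=
    LinearMap.det_restrictScalars (R := ℝ) (S := ℂ) (f := (L : E n →ₗ[ℂ] E n))
  rw [h, Algebra.norm_complex_eq]
  show |Complex.normSq L.det| = _
  rw [abs_of_nonneg (Complex.normSq_nonneg _), Complex.normSq_eq_norm_sq]

theorem D0c_jac (hT : AnalyticAt ℂ T w) (a c : Fin n) :
    AnalyticAt ℂ (fun z => jac T z a c) w :=
  ((ContinuousLinearMap.proj c : E n →L[ℂ] ℂ).comp
    (ContinuousLinearMap.apply ℂ (E n) (eb a))).analyticAt _ |>.comp hT.fderiv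

theorem analyticAt_det (hT : AnalyticAt ℂ T w) :
    AnalyticAt ℂ (fun z => (fderiv ℂ T z).det) w := by
  simp only [← det_jac, det_apply']
  exact Finset.analyticAt_fun_sum _ fun σ _ =>
    analyticAt_const.mul (Finset.analyticAt_fun_prod _ fun i _ => D0c_jac hT _ _)

theorem D0c_lin (A : E n →L[ℝ] ℂ) (v : E n) :
    A v = ∑ c, (v c * (A (zv c).1 + Complex.I * A (zv c).2) +
      star (v c) * (A (bv c).1 + Complex.I * A (bv c).2)) := by
  conv_lhs => rw [← Finset.univ_sum_single v, map_sum]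
  refine Finset.sum_congr rfl fun c _ => ?_
  have e1 : (Pi.single c (v c) : E n) = (2 * (v c).re) • (Pi.single c (1 / 2) : E n) +
      (2 * (v c).im) • (Pi.single c (Complex.I / 2) : E n) := by
    rw [← Pi.single_smul, ← Pi.single_smul, ← Pi.single_add, Complex.real_smul, Complex.real_smul]
    refine congrArg _ ?_
    conv_lhs => rw [← Complex.re_add_im (v c)]
    push_cast
    ring
  have e2 : (Pi.single c (-Complex.I / 2) : E n) = -(Pi.single c (Complex.I / 2) : E n) := by
    rw [neg_div, Pi.single_neg]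
  simp only [zv, bv]
  rw [e1, e2, map_add, map_smul, map_smul, map_neg, Complex.real_smul, Complex.real_smul]
  have e3 : star (v c) = (v c).re - (v c).im * Complex.I := by
    apply Complex.ext <;> simp
  have e4 := Complex.re_add_im (v c)
  rw [e3]
  generalize ((v c).re : ℝ) = x at *
  generalize ((v c).im : ℝ) = y at *
  rw [← e4]
  push_cast
  linear_combination (2 * y * A (Pi.single c (Complex.I / 2))) * Complex.I_mul_I

theorem D0c_chain (hg : DifferentiableAt ℝ g (T w)) (hT : DifferentiableAt ℂ T w) (a : Fin n)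
    (s : ℂ) : fderiv ℝ (g ∘ T) w (Pi.single a s) =
      ∑ c, (s * jac T w a c * eX (zv c) g (T w) +
        star s * star (jac T w a c) * eX (bv c) g (T w)) := by
  have e : (Pi.single a s : E n) = s • eb a := by
    rw [eb, ← Pi.single_smul, smul_eq_mul, mul_one]
  rw [fderiv_comp w hg (hT.restrictScalars ℝ), hT.fderiv_restrictScalars ℝ,
    ContinuousLinearMap.comp_apply, ContinuousLinearMap.coe_restrictScalars', e, map_smul, D0c_lin]
  refine Finset.sum_congr rfl fun c _ => ?_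
  rw [Pi.smul_apply, smul_eq_mul, star_mul']
  rfl

theorem eX_zv_comp (hg : DifferentiableAt ℝ g (T w)) (hT : DifferentiableAt ℂ T w) (a : Fin n) :
    eX (zv a) (g ∘ T) w = ∑ c, jac T w a c * eX (zv c) g (T w) := by
  show fderiv ℝ (g ∘ T) w (Pi.single a (1 / 2)) +
    Complex.I * fderiv ℝ (g ∘ T) w (Pi.single a (-Complex.I / 2)) = _
  rw [D0c_chain hg hT, D0c_chain hg hT, Finset.mul_sum, ← Finset.sum_add_distrib]
  refine Finset.sum_congr rfl fun c _ => ?_
  have e1 : star (1 / 2 : ℂ) = 1 / 2 := by simp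
  have e2 : star (-Complex.I / 2) = Complex.I / 2 := by simp
  rw [e1, e2]
  linear_combination (star (jac T w a c) * eX (bv c) g (T w) / 2 -
    jac T w a c * eX (zv c) g (T w) / 2) * Complex.I_mul_I

theorem eX_bv_comp (hg : DifferentiableAt ℝ g (T w)) (hT : DifferentiableAt ℂ T w) (b : Fin n) :
    eX (bv b) (g ∘ T) w = ∑ d, star (jac T w b d) * eX (bv d) g (T w) := by
  show fderiv ℝ (g ∘ T) w (Pi.single b (1 / 2)) +
    Complex.I * fderiv ℝ (g ∘ T) w (Pi.single b (Complex.I / 2)) = _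
  rw [D0c_chain hg hT, D0c_chain hg hT, Finset.mul_sum, ← Finset.sum_add_distrib]
  refine Finset.sum_congr rfl fun c _ => ?_
  have e1 : star (1 / 2 : ℂ) = 1 / 2 := by simp
  have e2 : star (Complex.I / 2) = -Complex.I / 2 := by simp
  rw [e1, e2]
  linear_combination (jac T w b c * eX (zv c) g (T w) / 2 -
    star (jac T w b c) * eX (bv c) g (T w) / 2) * Complex.I_mul_I

theorem D0c_bv {F : E n → ℂ} (hF : DifferentiableAt ℂ F w) (a : Fin n) : eX (bv a) F w = 0 := by
  rw [P271A.eX_hol hF, P271A.bv_hol, map_zero]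

theorem D0c_zv {F : E n → ℂ} (hF : DifferentiableAt ℂ F w) (a : Fin n) :
    eX (zv a) (fun z => star (F z)) w = 0 := by
  have h := P271A.conj_eX (bv a) F w
  rw [P271A.bv_conj, D0c_bv hF, map_zero] at h
  exact h.symm

theorem D0c_star {F : E n → ℂ} (hF : ContDiffAt ℝ ∞ F w) :
    ContDiffAt ℝ ∞ (fun z => star (F z)) w :=
  Complex.conjCLE.contDiff.contDiffAt.comp _ hF

theorem D0c_smooth {X : Type*} [NormedAddCommGroup X] [NormedSpace ℂ X] [CompleteSpace X]
    [NormedSpace ℝ X] [IsScalarTower ℝ ℂ X] {F : E n → X} (hF : AnalyticAt ℂ F w) :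
    ContDiffAt ℝ ∞ F w := (hF.contDiffAt (n := ∞)).restrict_scalars ℝ

theorem Hs_comp (hg : ContDiffAt ℝ ∞ g (T w)) (hT : AnalyticAt ℂ T w) :
    Hs (g ∘ T) w = jac T w * Hs g (T w) * (jac T w)ᴴ := by
  ext a b
  have h1 : ∀ᶠ z in 𝓝 w, DifferentiableAt ℝ g (T z) :=
    hT.continuousAt.eventually (((hg.of_le (m := 1) (by simp)).eventually (by simp)).mono
      fun _ h => h.differentiableAt (by simp))
  have h2 : eX (bv b) (g ∘ T) =ᶠ[𝓝 w]
      fun z => ∑ d, star (jac T z b d) * (eX (bv d) g ∘ T) z := by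
    filter_upwards [h1, hT.eventually_analyticAt] with z h h'
    exact eX_bv_comp h h'.differentiableAt b
  have h3 : ∀ d, DifferentiableAt ℝ (eX (bv d) g) (T w) := fun d =>
    (P271A.contDiffAt_eX hg).differentiableAt (by simp)
  have h4 : ∀ d, DifferentiableAt ℝ (fun z => star (jac T z b d)) w := fun d =>
    (D0c_star (D0c_smooth (D0c_jac hT b d))).differentiableAt (by simp)
  have h5 : ∀ d, DifferentiableAt ℝ (eX (bv d) g ∘ T) w := fun d =>
    (h3 d).comp w (hT.differentiableAt.restrictScalars ℝ)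
  show eX (zv a) (eX (bv b) (g ∘ T)) w = _
  rw [P271A.eX_congr h2, eX_sum _ _ fun d _ => (h4 d).fun_mul (h5 d), mul_apply]
  refine Finset.sum_congr rfl fun d _ => ?_
  rw [P271A.eX_mul (h4 d) (h5 d), D0c_zv (D0c_jac hT b d).differentiableAt, zero_mul, zero_add,
    eX_zv_comp (h3 d) hT.differentiableAt, mul_comm, mul_apply, conjTranspose_apply]
  rfl

theorem D0c_Hs_hol {F : E n → ℂ} (hF : AnalyticAt ℂ F w) : Hs F w = 0 := by
  ext a b
  have h : eX (bv b) F =ᶠ[𝓝 w] fun _ => 0 :=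
    hF.eventually_analyticAt.mono fun z hz => D0c_bv hz.differentiableAt b
  show eX (zv a) (eX (bv b) F) w = 0
  rw [P271A.eX_congr h, P271A.eX_const]

theorem D0c_Hs_anti {F : E n → ℂ} (hF : AnalyticAt ℂ F w) : Hs (fun z => star (F z)) w = 0 := by
  ext a b
  have h : eX (zv a) (fun z => star (F z)) =ᶠ[𝓝 w] fun _ => 0 :=
    hF.eventually_analyticAt.mono fun z hz => D0c_zv hz.differentiableAt a
  show eX (zv a) (eX (bv b) fun z => star (F z)) w = 0
  rw [P271A.eX_comm (D0c_star (D0c_smooth hF)), P271A.eX_congr h, P271A.eX_const]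

theorem Hs_log {j : E n → ℂ} (hj : AnalyticAt ℂ j w) (h0 : j w ≠ 0) :
    ContDiffAt ℝ ∞ (fun z => ((Real.log (‖j z‖ ^ 2) : ℝ) : ℂ)) w ∧
      Hs (fun z => ((Real.log (‖j z‖ ^ 2) : ℝ) : ℂ)) w = 0 := by
  have hl : AnalyticAt ℂ (fun z => Complex.log (j z / j w)) w :=
    (hj.div_const (c := j w)).clog (by rw [div_self h0]; exact Complex.one_mem_slitPlane)
  have e : (fun z => ((Real.log (‖j z‖ ^ 2) : ℝ) : ℂ)) =ᶠ[𝓝 w] fun z =>
      ((Real.log (‖j w‖ ^ 2) : ℝ) : ℂ) +
        (Complex.log (j z / j w) + star (Complex.log (j z / j w))) := by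
    filter_upwards [hj.continuousAt.eventually_ne h0] with z hz
    have h1 : Complex.log (j z / j w) + star (Complex.log (j z / j w)) =
        ((2 * (Complex.log (j z / j w)).re : ℝ) : ℂ) := Complex.add_conj _
    rw [h1, Complex.log_re, norm_div, Real.log_div (norm_ne_zero_iff.2 hz) (norm_ne_zero_iff.2 h0),
      Real.log_pow, Real.log_pow]
    push_cast
    ring
  have s1 := D0c_smooth hl
  have s2 := D0c_star s1
  refine ⟨(contDiffAt_const.add (s1.add s2)).congr_of_eventuallyEq e, ?_⟩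
  rw [Hs_congr e, Hs_add contDiffAt_const (s1.add s2), Hs_add s1 s2, Hs_const, D0c_Hs_hol hl,
    D0c_Hs_anti hl, add_zero, add_zero]

theorem Lop_comp (hφ : Hs φ w = jac T w * Hs φ' (T w) * (jac T w)ᴴ)
    (hg : ContDiffAt ℝ ∞ g (T w)) (hT : AnalyticAt ℂ T w) :
    Lop φ (g ∘ T) w = ((‖(fderiv ℂ T w).det‖ ^ 2 : ℝ) : ℂ) * Lop φ' g (T w) := by
  rw [Lop, Lop, hφ, Hs_comp hg hT, ← det_jac]
  generalize jac T w = J
  generalize Hs φ' (T w) = A
  generalize Hs g (T w) = B
  have e : (J * A * Jᴴ).adjugate * (J * B * Jᴴ) =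
      Jᴴ.adjugate * (A.adjugate * (J.adjugate * J) * B * Jᴴ) := by
    rw [adjugate_mul_distrib, adjugate_mul_distrib]
    simp only [Matrix.mul_assoc]
  rw [e, trace_mul_comm, Matrix.mul_assoc, mul_adjugate, adjugate_mul, det_conjTranspose,
    Matrix.mul_smul, Matrix.mul_smul, Matrix.mul_one, Matrix.mul_one, Matrix.smul_mul, trace_smul,
    trace_smul, smul_eq_mul, smul_eq_mul, ← mul_assoc]
  refine congrArg (· * _) ?_
  push_cast
  exact Complex.conj_mul' _

end Vale.Agent.P274
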