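import Vale.Agent.P274.D0K
import Vale.Agent.P274.D0c

/-! Module D0: the invariant potential in matrix form. -/

open Metric Set Filter Topology MeasureTheory Matrix
open scoped ContDiff ComplexOrder

namespace Vale.Agent.P274

variable {N n : ℕ}

theorem AM.exists_pot (M : AM N n) : Nonempty (Pot M.toCM) := by
  obtain ⟨Φ, h1, h2, h3⟩ := M.exists_potential
  have hs : ∀ x, ∀ w ∈ ball (0 : E n) (M.r x), ContDiffAt ℝ ∞ (Φ x) w := fun x w hw =>
    (h1 x).contDiffAt (isOpen_ball.mem_nhds hw)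
  refine ⟨⟨fun x z => (Φ x z : ℂ), fun x w hw => contDiffAt_ofReal (hs x w hw),
    fun x w hw => posDef_of_lev (hs x w hw) fun v hv => ?_, fun γ hγ x y w hw h => ?_⟩⟩
  · rw [lev_eq (hs x w hw)]
    have := h2 x w hw v hv
    unfold levi at this
    linarith
  · obtain ⟨w', hw', he⟩ := h
    have h4 := h3 γ hγ x y w hw w' hw' he.symm
    have hT : AnalyticAt ℂ (M.toBM.tr γ x y) w := M.toBM.analyticAt_tr γ x y hw
    have hTw : M.toBM.tr γ x y w = w' := by
      unfold BM.tr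
      rw [← he]
      exact M.co_ψ y hw'
    have hl := Hs_log (analyticAt_det hT) h4.self_of_nhds.1
    have hy : ContDiffAt ℝ ∞ (fun z => (Φ y z : ℂ)) (M.toBM.tr γ x y w) :=
      contDiffAt_ofReal (hs y _ (hTw ▸ hw'))
    have hc : ContDiffAt ℝ ∞ ((fun z => (Φ y z : ℂ)) ∘ M.toBM.tr γ x y) w :=
      hy.comp w (hT.contDiffAt.restrict_scalars ℝ)
    have h5 : (fun z => (Φ x z : ℂ)) =ᶠ[𝓝 w] fun z =>
        ((fun z => (Φ y z : ℂ)) ∘ M.toBM.tr γ x y) z +
          ((Real.log (‖(fderiv ℂ (M.toBM.tr γ x y) z).det‖ ^ 2) : ℝ) : ℂ) := by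
      filter_upwards [h4] with u hu
      rw [hu.2, Complex.ofReal_add]
      rfl
    rw [Hs_congr h5, Hs_add hc hl.1, hl.2, add_zero, Hs_comp hy hT]

end Vale.Agent.P274
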