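import Vale.Agent.P274.D0c

/-! Module D0: change of charts in the pairing.
Let T = M.tr γ α β and s = the open set of w in ball 0 (r α) with γ • ψ α w ∈ V β. T is injective on s
(ψ_tr, co_ψ), T '' s lies in ball 0 (r β) and a point w' of that ball outside T '' s has γ⁻¹ • ψ β w' ∉ V α, so
the integrand vanishes there by h2; on ball 0 (r α) outside s the integrand vanishes by h1 and Lop_of_const
(setIntegral_eq_of_subset_of_forall_sdiff_eq_zero). integral_image_eq_integral_abs_det_fderiv_smul with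
f' = (fderiv ℂ T w).restrictScalars ℝ, real_det, Lop_congr (ψ_tr), Lop_comp with P.trans. -/

open Metric Set Filter Topology MeasureTheory Matrix
open scoped ContDiff ComplexOrder

namespace Vale.Agent.P274

open P271A (eX zv bv)

variable {N n : ℕ} {M : CM N n}

theorem Pot.B_cv (P : Pot M) {γ : M.Aut} (hγ : γ ∈ M.Γ) (α β : M.X) {f g : M.X → ℂ}
    (hg : M.Sm g) (h1 : ∀ y, y ∉ M.V β → ∀ᶠ z in 𝓝 y, g z = 0)
    (h2 : ∀ y, y ∉ M.V α → f (γ • y) = 0) :
    P.B β f g = P.B α (fun y => f (γ • y)) (fun y => g (γ • y)) := by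
  set T := M.tr γ α β with hT
  set s : Set (E n) := {w | w ∈ ball (0 : E n) (M.r α) ∧ γ • M.ψ α w ∈ M.V β} with hs
  have so : IsOpen s := isOpen_iff_mem_nhds.2 fun w hw => by
    filter_upwards [isOpen_ball.mem_nhds hw.1, M.ψ_tr hw.1 hw.2] with z h3 h4
    exact ⟨h3, h4.1⟩
  have key : ∀ w ∈ s, M.ψ β (T w) = γ • M.ψ α w ∧ T w ∈ ball (0 : E n) (M.r β) :=
    fun w hw => M.ψ_co hw.2
  have an : ∀ w ∈ s, AnalyticAt ℂ T w := fun w hw => M.analyticAt_tr γ α β hw.1
  have inj : InjOn T s := fun w hw w' hw' h => by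
    have e : γ • M.ψ α w = γ • M.ψ α w' := by rw [← (key w hw).1, ← (key w' hw').1, h]
    rw [← M.co_ψ α hw.1, ← M.co_ψ α hw'.1, smul_left_cancel γ e]
  have e1 : P.B β f g = ∫ w in T '' s, f (M.ψ β w) * Lop (P.φ β) (g ∘ M.ψ β) w := by
    refine setIntegral_eq_of_subset_of_forall_sdiff_eq_zero measurableSet_ball ?_ fun w hw => ?_
    · rintro _ ⟨w, hw, rfl⟩
      exact (key w hw).2
    · have k : γ⁻¹ • M.ψ β w ∉ M.V α := by
        rintro ⟨z, hz, e⟩
        have e2 : γ • M.ψ α z = M.ψ β w := by rw [e, smul_inv_smul]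
        refine hw.2 ⟨z, ⟨hz, e2 ▸ ⟨w, hw.1, rfl⟩⟩, ?_⟩
        show M.co β (γ • M.ψ α z) = w
        rw [e2, M.co_ψ β hw.1]
      have k2 := h2 _ k
      rw [smul_inv_smul] at k2
      rw [k2, zero_mul]
  have e2 : P.B α (fun y => f (γ • y)) (fun y => g (γ • y)) = ∫ w in s,
      f (γ • M.ψ α w) * Lop (P.φ α) ((fun y => g (γ • y)) ∘ M.ψ α) w := by
    refine setIntegral_eq_of_subset_of_forall_sdiff_eq_zero measurableSet_ball
      (fun w hw => hw.1) fun w hw => ?_
    have hc : ContinuousAt (fun z => γ • M.ψ α z) w :=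
      (BM.continuous_smul_aut γ).continuousAt.comp
        ((M.continuousOn_ψ α).continuousAt (isOpen_ball.mem_nhds hw.1))
    have k := hc.eventually (h1 _ fun h => hw.2 ⟨hw.1, h⟩)
    rw [Lop_of_const (P.φ α) (g := (fun y => g (γ • y)) ∘ M.ψ α) k, mul_zero]
  rw [e1, e2, integral_image_eq_integral_abs_det_fderiv_smul volume so.measurableSet
    (f' := fun w => (fderiv ℂ T w).restrictScalars ℝ)
    (fun w hw => ((an w hw).differentiableAt.hasFDerivAt.restrictScalars ℝ).hasFDerivWithinAt) inj]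
  refine setIntegral_congr_fun so.measurableSet fun w hw => ?_
  have e3 : (fun y => g (γ • y)) ∘ M.ψ α =ᶠ[𝓝 w] (g ∘ M.ψ β) ∘ T := by
    filter_upwards [M.ψ_tr hw.1 hw.2] with z hz
    exact congrArg g hz.2.1.symm
  beta_reduce
  rw [real_det, Lop_congr _ e3, Lop_comp (P.trans γ hγ α β w hw.1 hw.2) (hg β _ (key w hw).2)
    (an w hw), (key w hw).1, Complex.real_smul]
  ring

end Vale.Agent.P274
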