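import Vale.Agent.P274.D0e
import Vale.Agent.P271A.Moll

/-! Module D0: mollification of a plurisubharmonic function.
Take r0 < r1 < r2 < r, a ContDiffBump χ at 0 with rIn = r1, rOut = r2, U = χ * u (continuous with compact
support on the whole space, equal to u on ball 0 r1) and g w = ∫ t, β.normed volume t * U (w - t), β a bump
of radius below (r1 - r0)/2, δ/2 and the modulus of continuity (HasCompactSupport.contDiff_convolution_left,
ContDiffBump.dist_normed_convolution_le; P271A/Moll.lean moll_unif is a model). Fubini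
(intervalIntegral_integral_swap, the integrand is continuous with compact support in t) moves cmean inside;
for t in the support of β and s small all points lie in ball 0 r1. Then lev_ge (κ = 0, hsub with the vector
s • v') and posSemidef_of_lev. -/

open Metric Set Filter Topology MeasureTheory Matrix
open scoped ContDiff ComplexOrder

namespace Vale.Agent.P274

open P271A (eX zv bv)

variable {n : ℕ}

theorem D0f_key {U : E n → ℝ} (hU : Continuous U) (hc : HasCompactSupport U)
    (β : ContDiffBump (0 : E n)) {p : ℝ → E n} (hp : Continuous p) {w : E n} {c : ℝ}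
    (h : ∀ t ∈ ball (0 : E n) β.rOut, U (w - t) + c ≤ cmean fun θ => U (w - t + p θ)) :
    (∫ t, β.normed volume t * U (w - t)) + c ≤
      cmean fun θ => ∫ t, β.normed volume t * U (w + p θ - t) := by
  obtain ⟨M, hM⟩ := hc.exists_bound_of_continuous hU
  have hk : Integrable (β.normed (volume : Measure (E n))) volume := β.integrable_normed
  have hkc : Continuous (β.normed (volume : Measure (E n))) := β.continuous_normed
  have hF : Continuous fun q : ℝ × E n => β.normed volume q.2 * U (w + p q.1 - q.2) := by fun_prop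
  have hI : Integrable (Function.uncurry fun θ t => β.normed volume t * U (w + p θ - t))
      ((volume.restrict (uIoc (0 : ℝ) (2 * Real.pi))).prod (volume : Measure (E n))) := by
    have h1 : Integrable (fun _ : ℝ => M) (volume.restrict (uIoc (0 : ℝ) (2 * Real.pi))) :=
      integrableOn_const (by simp [uIoc]) (by simp)
    refine (h1.mul_prod hk).mono' hF.aestronglyMeasurable (Eventually.of_forall fun q => ?_)
    change ‖β.normed volume q.2 * U (w + p q.1 - q.2)‖ ≤ _
    rw [norm_mul, Real.norm_of_nonneg (β.nonneg_normed _), mul_comm]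
    exact mul_le_mul_of_nonneg_right (hM _) (β.nonneg_normed _)
  have hb : ∀ f : E n → ℝ, Continuous f →
      Integrable (fun t => β.normed volume t * f t) volume := fun f hf =>
    (hkc.mul hf).integrable_of_hasCompactSupport β.hasCompactSupport_normed.mul_right
  have e1 : (cmean fun θ => ∫ t, β.normed volume t * U (w + p θ - t)) =
      ∫ t, β.normed volume t * cmean fun θ => U (w - t + p θ) := by
    unfold cmean
    rw [intervalIntegral_integral_swap hI, ← integral_const_mul]
    refine integral_congr_ae (Eventually.of_forall fun t => ?_)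
    simp only [intervalIntegral.integral_const_mul, add_sub_right_comm]
    ring
  have e2 : (∫ t, β.normed volume t * U (w - t)) + c =
      ∫ t, β.normed volume t * (U (w - t) + c) := by
    simp only [mul_add]
    rw [integral_add (hb _ (by fun_prop)) (hk.mul_const c), integral_mul_const, β.integral_normed,
      one_mul]
  have hcm : Continuous fun t => cmean fun θ => U (w - t + p θ) := by
    unfold cmean
    exact continuous_const.mul
      (intervalIntegral.continuous_parametric_intervalIntegral_of_continuous'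
        (f := fun t θ => U (w - t + p θ)) (by fun_prop) _ _)
  rw [e1, e2]
  refine integral_mono (hb _ (by fun_prop)) (hb _ hcm) fun t => ?_
  by_cases ht : t ∈ ball (0 : E n) β.rOut
  · exact mul_le_mul_of_nonneg_left (h t ht) (β.nonneg_normed _)
  · have h0 : β.normed volume t = 0 := by
      rw [← β.support_normed_eq (μ := volume)] at ht
      exact Function.notMem_support.1 ht
    simp only [h0, zero_mul, le_refl]

theorem D0f_ext {r r1 : ℝ} {u : E n → ℝ} (h0 : 0 < r1) (hr : r1 < r)
    (hu : ContinuousOn u (ball 0 r)) : ∃ U : E n → ℝ, Continuous U ∧ HasCompactSupport U ∧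
      ∀ z ∈ ball (0 : E n) r1, U z = u z := by
  let χ : ContDiffBump (0 : E n) := ⟨r1, (r1 + r) / 2, h0, by linarith⟩
  have hs : tsupport (fun z => χ z * u z) ⊆ ball 0 r :=
    (tsupport_mul_subset_left.trans χ.tsupport_eq.subset).trans
      (closedBall_subset_ball (by change (r1 + r) / 2 < r; linarith))
  refine ⟨fun z => χ z * u z, ?_, χ.hasCompactSupport.mul_right, fun z hz => ?_⟩
  · exact (χ.continuous.continuousOn.mul hu).continuous_of_tsupport_subset isOpen_ball hs
  · simp only
    rw [χ.one_of_mem_closedBall (ball_subset_closedBall hz), one_mul]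

theorem D0f_norm {s : ℝ} (hs : 0 < s) (θ : ℝ) (v : E n) : ‖((s : ℂ) * ce θ) • v‖ = s * ‖v‖ := by
  rw [norm_smul, norm_mul, norm_ce, mul_one, Complex.norm_real, Real.norm_of_nonneg hs.le]

theorem exists_moll {r r0 κ δ ε : ℝ} {u : E n → ℝ} {v : E n} (h0 : 0 < r0) (hr : r0 < r)
    (hu : ContinuousOn u (ball 0 r))
    (hsub : ∀ w v' : E n, (∀ ζ : ℂ, ‖ζ‖ ≤ 1 → w + ζ • v' ∈ ball (0 : E n) r) →
      u w ≤ cmean (fun θ => u (w + ce θ • v')))
    (hδ : 0 < δ) (hstrict : ∀ w ∈ ball (0 : E n) δ, ∀ s : ℝ, 0 < s → s < δ →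
      u w + κ * s ^ 2 ≤ cmean (fun θ => u (w + (s * ce θ) • v))) (hε : 0 < ε) :
    ∃ g : E n → ℝ, ContDiff ℝ ∞ g ∧
      (∀ w ∈ ball (0 : E n) r0, |g w - u w| ≤ ε ∧ (Hs (fun z => (g z : ℂ)) w).PosSemidef) ∧
      ∀ w ∈ ball (0 : E n) (min r0 (δ / 2)), κ ≤ lev g w v := by
  obtain ⟨U, hU, hc, hUu⟩ := D0f_ext (r1 := (r0 + r) / 2) (by linarith) (by linarith) hu
  obtain ⟨η, hη, hun⟩ := Metric.uniformContinuous_iff.1 (hc.uniformContinuous_of_continuous hU) ε hε
  have hd : 0 < (r - r0) / 8 := by linarith
  have hρ : 0 < min η (min ((r - r0) / 8) (δ / 2)) := lt_min hη (lt_min hd (by linarith))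
  let β : ContDiffBump (0 : E n) := ⟨_, _, half_pos hρ, half_lt_self hρ⟩
  have b1 : β.rOut ≤ η := min_le_left _ _
  have b2 : β.rOut ≤ (r - r0) / 8 := (min_le_right _ _).trans (min_le_left _ _)
  have b3 : β.rOut ≤ δ / 2 := (min_le_right _ _).trans (min_le_right _ _)
  have hg : ContDiff ℝ ∞ fun w => ∫ t, β.normed volume t * U (w - t) :=
    β.hasCompactSupport_normed.contDiff_convolution_left (ContinuousLinearMap.lsmul ℝ ℝ)
      β.contDiff_normed (hU.locallyIntegrable (μ := volume))
  have key : ∀ (w v' : E n) (κ' δ' : ℝ), w ∈ ball (0 : E n) r0 → 0 < δ' →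
      (∀ t ∈ ball (0 : E n) β.rOut, ∀ s : ℝ, 0 < s → s < δ' → s * ‖v'‖ ≤ (r - r0) / 8 →
        u (w - t) + κ' * s ^ 2 ≤ cmean fun θ => u (w - t + (s * ce θ) • v')) →
      κ' ≤ lev (fun w => ∫ t, β.normed volume t * U (w - t)) w v' := by
    intro w v' κ' δ' hw hδ' h
    have h1 : 0 < (r - r0) / 8 / (‖v'‖ + 1) := by positivity
    refine lev_ge hg.contDiffAt (lt_min hδ' h1) fun s hs hs' => ?_
    have h2 : s * ‖v'‖ ≤ (r - r0) / 8 := by
      have h3 := (lt_div_iff₀ (by positivity)).1 (hs'.trans_le (min_le_right _ _))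
      nlinarith
    refine D0f_key hU hc β (p := fun θ => ((s : ℂ) * ce θ) • v')
      ((continuous_const.mul continuous_ce).smul continuous_const) fun t ht => ?_
    have h3 : ‖w - t‖ ≤ ‖w‖ + ‖t‖ := norm_sub_le _ _
    have h4 := mem_ball_zero_iff.1 hw
    have h5 := mem_ball_zero_iff.1 ht
    rw [hUu _ (mem_ball_zero_iff.2 (by linarith))]
    have h6 : (fun θ => U (w - t + ((s : ℂ) * ce θ) • v')) =
        fun θ => u (w - t + ((s : ℂ) * ce θ) • v') := by
      funext θ
      refine hUu _ (mem_ball_zero_iff.2 ((norm_add_le _ _).trans_lt ?_))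
      rw [D0f_norm hs]
      linarith
    rw [h6]
    exact h t ht s hs (hs'.trans_le (min_le_left _ _)) h2
  refine ⟨_, hg, fun w hw => ⟨?_, posSemidef_of_lev hg.contDiffAt fun v' => ?_⟩, fun w hw => ?_⟩
  · have h1 := β.dist_normed_convolution_le (μ := volume) (g := U) (x₀ := w) (ε := ε)
      hU.aestronglyMeasurable fun x hx => (hun (lt_of_lt_of_le hx b1)).le
    rw [← hUu w (ball_subset_ball (by linarith) hw), ← Real.dist_eq]
    exact h1
  · refine key w v' 0 1 hw one_pos fun t ht s hs _ h2 => ?_
    have h3 : ‖w - t‖ ≤ ‖w‖ + ‖t‖ := norm_sub_le _ _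
    have h4 := mem_ball_zero_iff.1 hw
    have h5 := mem_ball_zero_iff.1 ht
    have h6 := hsub (w - t) ((s : ℂ) • v') fun ζ hζ => by
      refine mem_ball_zero_iff.2 ((norm_add_le _ _).trans_lt ?_)
      rw [norm_smul, norm_smul, Complex.norm_real, Real.norm_of_nonneg hs.le]
      have h7 : ‖ζ‖ * (s * ‖v'‖) ≤ 1 * (s * ‖v'‖) :=
        mul_le_mul_of_nonneg_right hζ (by positivity)
      linarith
    simp only [smul_smul, mul_comm _ (s : ℂ)] at h6
    rwa [zero_mul, add_zero]
  · have h4 := mem_ball_zero_iff.1 hw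
    refine key w v κ δ (ball_subset_ball (min_le_left _ _) hw) hδ fun t ht s hs hs' _ =>
      hstrict _ (mem_ball_zero_iff.2 ?_) s hs hs'
    have h3 : ‖w - t‖ ≤ ‖w‖ + ‖t‖ := norm_sub_le _ _
    have h5 := mem_ball_zero_iff.1 ht
    have h6 := min_le_right r0 (δ / 2)
    linarith

end Vale.Agent.P274
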