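import Vale.Agent.P274.D0d
import Vale.Agent.P274.D0f

/-! Module D0: positivity of the pairing.
v ≠ 0 (else hstrict and cmean_const are absurd). K ⊆ ball 0 r0 with 0 < r0 < r. For every ε take g from
exists_moll: Lop_symm gives ∫ g * Lop φ η = ∫ η * Lop φ g, whose real part is at least
c0 = ∫ over ball 0 (min r0 (δ/2)) of η w * (κ * (det (Hs φ w)).re / (v ⬝ᵥ Hs φ w *ᵥ star v).re) > 0
(trace_adj_nonneg, trace_adj_ge; continuous, nonnegative, positive at 0; independent of ε; a smaller closed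
ball where the integrand is above a positive constant also works). Lop φ η vanishes off K (Lop_of_const),
so the norm of ∫ (g - u) * Lop φ η is at most ε * ∫ ‖Lop φ η‖ (integrableOn_of_cpt). -/

open Metric Set Filter Topology MeasureTheory Matrix
open scoped ContDiff ComplexOrder

namespace Vale.Agent.P274

open P271A (eX zv bv)

variable {n : ℕ}

theorem Lop_pos {r κ δ : ℝ} {φ : E n → ℂ} {u η : E n → ℝ} {v : E n} {K : Set (E n)} (hr : 0 < r)
    (hK : IsCompact K) (hKr : K ⊆ ball 0 r)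
    (hφ : ∀ w ∈ ball (0 : E n) r, ContDiffAt ℝ ∞ φ w ∧ (Hs φ w).PosDef)
    (hu : ContinuousOn u (ball 0 r))
    (hsub : ∀ w v' : E n, (∀ ζ : ℂ, ‖ζ‖ ≤ 1 → w + ζ • v' ∈ ball (0 : E n) r) →
      u w ≤ cmean (fun θ => u (w + ce θ • v')))
    (hκ : 0 < κ) (hδ : 0 < δ) (hstrict : ∀ w ∈ ball (0 : E n) δ, ∀ s : ℝ, 0 < s → s < δ →
      u w + κ * s ^ 2 ≤ cmean (fun θ => u (w + (s * ce θ) • v)))
    (hη : ∀ w ∈ ball (0 : E n) r, ContDiffAt ℝ ∞ η w ∧ 0 ≤ η w)
    (h0 : ∀ w ∈ ball (0 : E n) r, w ∉ K → η w = 0) (hpos : 0 < η 0) :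
    0 < (∫ w in ball (0 : E n) r, (u w : ℂ) * Lop φ (fun z => (η z : ℂ)) w).re := by
  have hv : v ≠ 0 := by
    rintro rfl
    have h1 := hstrict 0 (mem_ball_self hδ) (δ / 2) (half_pos hδ) (half_lt_self hδ)
    simp only [smul_zero, add_zero, cmean_const] at h1
    linarith [mul_pos hκ (pow_pos (half_pos hδ) 2)]
  obtain ⟨r0, ⟨r1, r2⟩, hK0⟩ := exists_pos_lt_subset_ball hr hK.isClosed hKr
  have hη' := fun w hw => contDiffAt_ofReal (hη w hw).1
  have hL : ContinuousOn (Lop φ fun z => (η z : ℂ)) (ball 0 r) := fun w hw =>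
    (contDiffAt_Lop (hφ w hw).1 (hη' w hw)).continuousAt.continuousWithinAt
  have hL0 : ∀ w ∈ ball (0 : E n) r, w ∉ K → Lop φ (fun z => (η z : ℂ)) w = 0 := by
    intro w hw hwK
    refine Lop_of_const φ (c := 0) ?_
    filter_upwards [isOpen_ball.mem_nhds hw, hK.isClosed.isOpen_compl.mem_nhds hwK] with z h1 h2
    rw [h0 z h1 h2, Complex.ofReal_zero]
  have ha : ∀ w ∈ ball (0 : E n) r, 0 < (v ⬝ᵥ (Hs φ w *ᵥ star v)).re := fun w hw => by
    have h1 := (hφ w hw).2.dotProduct_mulVec_pos (star_ne_zero.2 hv)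
    rw [star_star] at h1
    exact (Complex.pos_iff.1 h1).1
  have hd : ∀ w ∈ ball (0 : E n) r, 0 < (Hs φ w).det.re := fun w hw =>
    (Complex.pos_iff.1 (hφ w hw).2.det_pos).1
  have m0 := mem_ball_self (x := (0 : E n)) hr
  obtain ⟨F, hF⟩ : ∃ F : E n → ℝ, F = fun w =>
    η w * (κ * (Hs φ w).det.re / (v ⬝ᵥ (Hs φ w *ᵥ star v)).re) := ⟨_, rfl⟩
  have F0 : 0 < F 0 := hF ▸ mul_pos hpos (div_pos (mul_pos hκ (hd 0 m0)) (ha 0 m0))
  have Fc : ContinuousAt F 0 := by
    have c1 := fun a b => (contDiffAt_Hs (hφ 0 m0).1 a b).continuousAt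
    have c2 : ContinuousAt (fun w => v ⬝ᵥ (Hs φ w *ᵥ star v)) 0 := by
      simp only [dotProduct, mulVec]
      exact tendsto_finsetSum _ fun a _ => tendsto_const_nhds.mul
        (tendsto_finsetSum _ fun b _ => (c1 a b).tendsto.mul tendsto_const_nhds)
    rw [hF]
    exact (hη 0 m0).1.continuousAt.mul ((continuousAt_const.mul
      (Complex.continuous_re.continuousAt.comp (contDiffAt_det (hφ 0 m0).1).continuousAt)).div
      (Complex.continuous_re.continuousAt.comp c2) (ha 0 m0).ne')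
  obtain ⟨ρ, hρ, hρ1⟩ := Metric.eventually_nhds_iff_ball.1
    ((Fc.eventually (lt_mem_nhds (half_lt_self F0))).and
      (ball_mem_nhds (0 : E n) (lt_min r1 (half_pos hδ))))
  have hsb : ball (0 : E n) (min r0 (δ / 2)) ⊆ ball 0 r0 := ball_subset_ball (min_le_left _ _)
  have hsr : ball (0 : E n) r0 ⊆ ball 0 r := ball_subset_ball r2.le
  have hc0 : 0 < F 0 / 2 * volume.real (ball (0 : E n) ρ) :=
    mul_pos (half_pos F0) (ENNReal.toReal_pos (measure_ball_pos _ _ hρ).ne' measure_ball_lt_top.ne)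
  have iL := (integrableOn_of_cpt isOpen_ball hK hKr hL hL0).norm
  have hN : 0 ≤ ∫ w in ball (0 : E n) r, ‖Lop φ (fun z => (η z : ℂ)) w‖ :=
    integral_nonneg fun w => norm_nonneg _
  obtain ⟨ε, hε, hε1⟩ := exists_pos_mul_lt hc0
    (∫ w in ball (0 : E n) r, ‖Lop φ (fun z => (η z : ℂ)) w‖)
  obtain ⟨g, hg, hg1, hg2⟩ := exists_moll r1 r2 hu hsub hδ hstrict hε
  have hg' : ∀ w, ContDiffAt ℝ ∞ (fun z => (g z : ℂ)) w := fun w => contDiffAt_ofReal hg.contDiffAt
  have hz : ∀ w ∈ ball (0 : E n) r, w ∉ K → (η w : ℂ) = 0 := fun w hw hwK => by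
    rw [h0 w hw hwK, Complex.ofReal_zero]
  have e1 := Lop_symm isOpen_ball hK hKr (fun w hw => ⟨(hφ w hw).1, (hφ w hw).2.det_pos.ne'⟩)
    hη' (fun w _ => hg' w) hz
  have i1 : IntegrableOn (fun w => (η w : ℂ) * Lop φ (fun z => (g z : ℂ)) w) (ball 0 r) :=
    integrableOn_of_cpt isOpen_ball hK hKr (fun w hw => ((hη' w hw).mul
      (contDiffAt_Lop (hφ w hw).1 (hg' w))).continuousAt.continuousWithinAt)
      fun w hw hwK => by rw [hz w hw hwK, zero_mul]
  have i2 : IntegrableOn (fun w => ((η w : ℂ) * Lop φ (fun z => (g z : ℂ)) w).re) (ball 0 r) :=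
    i1.re
  have hρr : ball (0 : E n) ρ ⊆ ball 0 r := fun w hw => hsr (hsb (hρ1 w hw).2)
  have h1 : F 0 / 2 * volume.real (ball (0 : E n) ρ) ≤
      (∫ w in ball (0 : E n) r, (η w : ℂ) * Lop φ (fun z => (g z : ℂ)) w).re := by
    refine le_trans ?_ (integral_re i1).le
    refine (setIntegral_ge_of_const_le_real measurableSet_ball measure_ball_lt_top.ne
      (fun w hw => ?_) (i2.mono_set hρr)).trans (setIntegral_mono_set i2
        ((ae_restrict_mem measurableSet_ball).mono fun w hw => ?_) hρr.eventuallyLE)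
    · obtain ⟨a1, a2⟩ := hρ1 w hw
      have a3 := trace_adj_ge (hφ w (hρr hw)).2 (hg1 w (hsb a2)).2 v
      have a4 := mul_le_mul_of_nonneg_left (hg2 w a2) (hd w (hρr hw)).le
      refine a1.le.trans ?_
      rw [hF, Complex.re_ofReal_mul]
      refine mul_le_mul_of_nonneg_left ?_ (hη w (hρr hw)).2
      rw [div_le_iff₀' (ha w (hρr hw)), mul_comm κ]
      exact a4.trans a3
    · change 0 ≤ ((η w : ℂ) * Lop φ (fun z => (g z : ℂ)) w).re
      by_cases hwK : w ∈ K
      · rw [Complex.re_ofReal_mul]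
        exact mul_nonneg (hη w hw).2 (trace_adj_nonneg (hφ w hw).2 (hg1 w (hK0 hwK)).2)
      · rw [hz w hw hwK, zero_mul, Complex.zero_re]
  have i3 : ∀ {f : E n → ℝ}, ContinuousOn f (ball 0 r) →
      IntegrableOn (fun w => (f w : ℂ) * Lop φ (fun z => (η z : ℂ)) w) (ball 0 r) := fun hf =>
    integrableOn_of_cpt isOpen_ball hK hKr
      ((Complex.continuous_ofReal.comp_continuousOn hf).mul hL)
      fun w hw hwK => by rw [hL0 w hw hwK, mul_zero]
  have h2 := norm_integral_le_of_norm_le (iL.const_mul ε)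
    (f := fun w => (g w : ℂ) * Lop φ (fun z => (η z : ℂ)) w - u w * Lop φ (fun z => (η z : ℂ)) w)
    ((ae_restrict_mem measurableSet_ball).mono fun w hw => by
      rw [← sub_mul, norm_mul, ← Complex.ofReal_sub, Complex.norm_real, Real.norm_eq_abs]
      by_cases hwK : w ∈ K
      · exact mul_le_mul_of_nonneg_right (hg1 w (hK0 hwK)).1 (norm_nonneg _)
      · rw [hL0 w hw hwK, norm_zero, mul_zero, mul_zero])
  rw [integral_sub (i3 hg.continuous.continuousOn) (i3 hu), integral_const_mul, ← e1] at h2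
  have h3 := (Complex.re_le_norm _).trans h2
  rw [Complex.sub_re] at h3
  linarith

end Vale.Agent.P274
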