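import Vale.Agent.P274.D0j
import Vale.Agent.P274.D0k
import Vale.Agent.P274.D0l

/-! Module D0: properties of the pairing. -/

open Metric Set Filter Topology MeasureTheory Matrix
open scoped ContDiff ComplexOrder

namespace Vale.Agent.P274

variable {N n : ℕ}

theorem sum_inv_eq {Γ : Type*} [Group Γ] {G : Finset Γ} (hG : ∀ γ ∈ G, γ⁻¹ ∈ G) (F : Γ → ℂ) :
    ∑ γ ∈ G, F γ⁻¹ = ∑ γ ∈ G, F γ :=
  Finset.sum_nbij' (fun γ => γ⁻¹) (fun γ => γ⁻¹) hG hG (fun _ _ => inv_inv _)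
    (fun _ _ => inv_inv _) (fun _ _ => rfl)

theorem antisym_sum {X Γ : Type*} [Group Γ] (A : Finset X) {G : Finset Γ}
    (hG : ∀ γ ∈ G, γ⁻¹ ∈ G) {c : Γ → ℂ} (hc : ∀ γ ∈ G, c γ⁻¹ = -c γ) {a : X → X → Γ → ℂ}
    (ha : ∀ α β, ∀ γ ∈ G, a α β γ = a β α γ⁻¹) :
    ∑ β ∈ A, ∑ γ ∈ G, ∑ α ∈ A, c γ * a α β γ = 0 := by
  have h1 : ∑ β ∈ A, ∑ γ ∈ G, ∑ α ∈ A, c γ * a α β γ =
      ∑ γ ∈ G, ∑ β ∈ A, ∑ α ∈ A, c γ * a α β γ := Finset.sum_comm
  have h2 : ∑ γ ∈ G, ∑ β ∈ A, ∑ α ∈ A, c γ * a α β γ =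
      -∑ γ ∈ G, ∑ β ∈ A, ∑ α ∈ A, c γ * a α β γ := by
    conv_lhs => rw [← sum_inv_eq hG]
    rw [← Finset.sum_neg_distrib]
    refine Finset.sum_congr rfl fun γ hγ => ?_
    rw [Finset.sum_comm, ← Finset.sum_neg_distrib]
    refine Finset.sum_congr rfl fun α _ => ?_
    rw [← Finset.sum_neg_distrib]
    refine Finset.sum_congr rfl fun β _ => ?_
    rw [hc γ hγ, ← ha _ _ γ hγ, neg_mul]
  rw [h1]
  linear_combination h2 / 2

namespace BM

variable {M : BM N n}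

theorem Sm.ofReal {η : M.X → ℝ} (h : M.Sm η) : M.Sm (fun y => (η y : ℂ)) :=
  fun x w hw => contDiffAt_ofReal (h x w hw)

theorem ev_zero_off {g : M.X → ℂ} {α : M.X} (h : ∀ y, y ∉ M.Cp α → g y = 0) {y : M.X}
    (hy : y ∉ M.Cp α) : ∀ᶠ z in 𝓝 y, g z = 0 := by
  filter_upwards [(M.isCompact_Cp α).isClosed.isOpen_compl.mem_nhds hy] with z hz
  exact h z hz

theorem notMem_Cp {x : M.X} {w : E n} (hw : w ∈ ball (0 : E n) (M.r x))
    (h : w ∉ closedBall (0 : E n) (M.r x / 2)) : M.ψ x w ∉ M.Cp x := by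
  rintro ⟨w', hw', he⟩
  have h1 := M.co_ψ x (closedBall_subset_ball (half_lt_self (M.r_pos x)) hw')
  rw [he, M.co_ψ x hw] at h1
  exact h (h1 ▸ hw')

theorem continuousAt_ψ (x : M.X) {w : E n} (hw : w ∈ ball (0 : E n) (M.r x)) :
    ContinuousAt (M.ψ x) w := (M.continuousOn_ψ x).continuousAt (isOpen_ball.mem_nhds hw)

end BM

namespace Pot

variable {M : CM N n} (P : Pot M) {x : M.X} {f f' g : M.X → ℂ}

theorem Lop_zero (h : ∀ y, y ∉ M.Cp x → g y = 0) {w : E n} (hw : w ∈ ball (0 : E n) (M.r x))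
    (hy : M.ψ x w ∉ M.Cp x) : Lop (P.φ x) (g ∘ M.ψ x) w = 0 :=
  Lop_of_const _ ((BM.continuousAt_ψ x hw).eventually (BM.ev_zero_off h hy))

theorem integrableOn (hf : Continuous f) (hg : M.Sm g)
    (h0 : (∀ y, y ∉ M.Cp x → f y = 0) ∨ ∀ y, y ∉ M.Cp x → g y = 0) :
    IntegrableOn (fun w => f (M.ψ x w) * Lop (P.φ x) (g ∘ M.ψ x) w) (ball (0 : E n) (M.r x)) := by
  refine integrableOn_of_cpt isOpen_ball (isCompact_closedBall 0 (M.r x / 2))
    (closedBall_subset_ball (half_lt_self (M.r_pos x))) (fun w hw => ?_) fun w hw hK => ?_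
  · exact ((hf.continuousAt.comp (BM.continuousAt_ψ x hw)).mul
      (contDiffAt_Lop (P.smooth x w hw) (hg x w hw)).continuousAt).continuousWithinAt
  · rcases h0 with h0 | h0
    · rw [h0 _ (BM.notMem_Cp hw hK), zero_mul]
    · rw [P.Lop_zero h0 hw (BM.notMem_Cp hw hK), mul_zero]

theorem B_congr (h : ∀ y ∈ M.Cp x, f y = f' y) (h0 : ∀ y, y ∉ M.Cp x → g y = 0) :
    P.B x f g = P.B x f' g := by
  refine setIntegral_congr_fun measurableSet_ball fun w hw => ?_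
  by_cases hy : M.ψ x w ∈ M.Cp x
  · simp only [h _ hy]
  · simp only [P.Lop_zero h0 hw hy, mul_zero]

theorem B_sum_left {ι : Type*} (s : Finset ι) {F : ι → M.X → ℂ} (hF : ∀ i, Continuous (F i))
    (hg : M.Sm g) (h0 : ∀ y, y ∉ M.Cp x → g y = 0) :
    P.B x (fun y => ∑ i ∈ s, F i y) g = ∑ i ∈ s, P.B x (F i) g := by
  unfold B
  rw [← integral_finsetSum _ fun i _ => P.integrableOn (hF i) hg (Or.inr h0)]
  simp only [Finset.sum_mul]

theorem B_add_mul (hf : Continuous f) (hf' : Continuous f') (hg : M.Sm g)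
    (h0 : ∀ y, y ∉ M.Cp x → f y = 0) (c : ℂ) :
    P.B x (fun y => f y * (f' y + c)) g = P.B x (fun y => f y * f' y) g + c * P.B x f g := by
  unfold B
  rw [← integral_const_mul, ← integral_add (P.integrableOn (f := fun y => f y * f' y) (hf.mul hf')
    hg (Or.inl fun y hy => by simp [h0 y hy])) ((P.integrableOn hf hg (Or.inl h0)).const_mul c)]
  refine integral_congr_ae (Eventually.of_forall fun w => ?_)
  simp only
  ring

theorem B_sum_right {ι : Type*} (s : Finset ι) {G : ι → M.X → ℂ} (hG : ∀ i, M.Sm (G i))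
    (hf : Continuous f) (h0 : ∀ y, y ∉ M.Cp x → f y = 0)
    (h1 : ∀ y ∈ M.Cp x, ∀ᶠ z in 𝓝 y, ∑ i ∈ s, G i z = 1) : ∑ i ∈ s, P.B x f (G i) = 0 := by
  unfold B
  rw [← integral_finsetSum _ fun i _ => P.integrableOn hf (hG i) (Or.inl h0)]
  refine setIntegral_eq_zero_of_forall_eq_zero fun w hw => ?_
  by_cases hy : M.ψ x w ∈ M.Cp x
  · rw [← Finset.mul_sum, ← Lop_sum _ s fun i _ => hG i x w hw,
      Lop_of_const (g := fun z => ∑ i ∈ s, (G i ∘ M.ψ x) z) _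
        ((BM.continuousAt_ψ x hw).eventually (h1 _ hy)), mul_zero]
  · simp [h0 _ hy]

theorem B_symm (hf : M.Sm f) (hg : M.Sm g) (h0 : ∀ y, y ∉ M.Cp x → f y = 0) :
    P.B x f g = P.B x g f :=
  Lop_symm isOpen_ball (isCompact_closedBall 0 (M.r x / 2))
    (closedBall_subset_ball (half_lt_self (M.r_pos x)))
    (fun w hw => ⟨P.smooth x w hw, (P.pos x w hw).det_pos.ne'⟩) (hf x) (hg x)
    fun _ hw hK => h0 _ (BM.notMem_Cp hw hK)

end Pot

end Vale.Agent.P274
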