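import Vale.Agent.P274.B3
import Vale.Agent.P274.B7
import Vale.Agent.P274.D0i
import Vale.Agent.P274.D0m

/-! No strictly plurisubharmonic additive cocycle (interface of module D). -/

open Metric Set Filter Topology

namespace Vale.Agent.P274

variable {N n : ℕ}

theorem Pou.sum_B {M : CM N n} (Q : Pou M) (P : Pot M) {u : M.X → ℂ} (hu : Continuous u)
    {c : M.Aut → ℂ} (hc : ∀ γ ∈ M.Γ, ∀ x, u (γ • x) = u x + c γ) :
    ∑ β ∈ Q.A, P.B β u (fun y => (Q.η β y : ℂ)) = 0 := by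
  set e : M.X → M.X → ℂ := fun α y => (Q.η α y : ℂ) with he
  have sm : ∀ α, M.Sm (e α) := fun α => (Q.sm α).ofReal
  have sp : ∀ α y, y ∉ M.Cp α → e α y = 0 := fun α y hy => by simp [he, Q.supp α y hy]
  have spV : ∀ α y, y ∉ M.V α → e α y = 0 := fun α y hy => sp α y fun h => hy (M.Cp_subset α h)
  have evV : ∀ α y, y ∉ M.V α → ∀ᶠ z in 𝓝 y, e α z = 0 := fun α y hy =>
    BM.ev_zero_off (sp α) fun h => hy (M.Cp_subset α h)
  have one : ∀ α ∈ Q.A, ∀ y ∈ M.Cp α, ∀ᶠ z in 𝓝 y, ∑ γ ∈ Q.G, ∑ β ∈ Q.A, e β (γ • z) = 1 :=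
    fun α hα y hy => (Q.sum α hα y hy).mono fun z hz => by
      simp only [he]
      exact_mod_cast hz
  have hci : ∀ γ ∈ Q.G, c γ⁻¹ = -c γ := fun γ hγ => by
    obtain ⟨x⟩ : Nonempty M.X := inferInstance
    have h1 := hc γ⁻¹ (inv_mem (Q.mem γ hγ)) (γ • x)
    rw [inv_smul_smul, hc γ (Q.mem γ hγ)] at h1
    linear_combination -h1
  have h1 : ∀ β ∈ Q.A, P.B β u (e β) = ∑ γ ∈ Q.G, ∑ α ∈ Q.A,
      (P.B α (fun y => e α y * u y) (fun y => e β (γ • y)) +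
        c γ * P.B α (e α) (fun y => e β (γ • y))) := by
    intro β hβ
    have hF : ∀ (γ : M.Aut) (α : M.X), Continuous fun y => e α (γ⁻¹ • y) * u y := fun γ α =>
      ((sm α).smul γ⁻¹).continuous.mul hu
    rw [P.B_congr (f' := fun y => ∑ γ ∈ Q.G, ∑ α ∈ Q.A, e α (γ⁻¹ • y) * u y) (fun y hy => ?_)
      (sp β), P.B_sum_left Q.G (fun γ => continuous_finsetSum _ fun α _ => hF γ α) (sm β) (sp β)]
    · refine Finset.sum_congr rfl fun γ hγ => ?_
      rw [P.B_sum_left Q.A (hF γ) (sm β) (sp β)]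
      refine Finset.sum_congr rfl fun α _ => ?_
      rw [P.B_cv (Q.mem γ hγ) α β (sm β) (evV β) fun y hy => by
        rw [inv_smul_smul, spV α y hy, zero_mul]]
      simp only [inv_smul_smul, hc γ (Q.mem γ hγ)]
      exact P.B_add_mul (sm α).continuous hu ((sm β).smul γ) (sp α) _
    · simp only [← Finset.sum_mul]
      rw [sum_inv_eq Q.inv fun γ => ∑ α ∈ Q.A, e α (γ • y), (one β hβ y hy).self_of_nhds, one_mul]
  have h2 : ∑ β ∈ Q.A, ∑ γ ∈ Q.G, ∑ α ∈ Q.A,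
      P.B α (fun y => e α y * u y) (fun y => e β (γ • y)) = 0 := by
    rw [Finset.sum_comm]
    simp only [Finset.sum_comm (s := Q.A) (t := Q.A)
      (f := fun β α => P.B α (fun y => e α y * u y) (fun y => e β (_ • y)))]
    rw [Finset.sum_comm]
    refine Finset.sum_eq_zero fun α hα => ?_
    rw [← Finset.sum_product']
    refine P.B_sum_right (Q.G ×ˢ Q.A) (G := fun i y => e i.2 (i.1 • y))
      (fun i => (sm i.2).smul i.1) ((sm α).continuous.mul hu)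
      (fun y hy => by rw [sp α y hy, zero_mul]) fun y hy => ?_
    refine (one α hα y hy).mono fun z hz => ?_
    rw [Finset.sum_product, hz]
  have h3 : ∑ β ∈ Q.A, ∑ γ ∈ Q.G, ∑ α ∈ Q.A, c γ * P.B α (e α) (fun y => e β (γ • y)) = 0 := by
    refine antisym_sum Q.A Q.inv hci (a := fun α β γ => P.B α (e α) (fun y => e β (γ • y)))
      fun α β γ hγ => ?_
    rw [P.B_symm (sm α) ((sm β).smul γ) (sp α),
      P.B_cv (inv_mem (Q.mem γ hγ)) β α (sm α) (evV α) fun y hy => by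
        rw [smul_inv_smul, spV β y hy]]
    simp only [smul_inv_smul]
  rw [Finset.sum_congr rfl h1]
  simp only [Finset.sum_add_distrib]
  rw [h2, h3, add_zero]

namespace AM

variable (M : AM N n)

theorem no_cocycle {u : M.X → ℝ} (hu : Continuous u) {c : M.Aut → ℝ}
    (hc : ∀ γ ∈ M.Γ, ∀ x, u (γ • x) = u x + c γ)
    (hsub : ∀ (x : M.X) (w v : E n), (∀ ζ : ℂ, ‖ζ‖ ≤ 1 → w + ζ • v ∈ ball (0 : E n) (M.r x)) →
      u (M.ψ x w) ≤ cmean (fun θ => u (M.ψ x (w + ce θ • v))))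
    (hstrict : ∀ x : M.X, ∃ (v : E n) (κ δ : ℝ), 0 < κ ∧ 0 < δ ∧ ∀ w ∈ ball (0 : E n) δ,
      ∀ s : ℝ, 0 < s → s < δ →
        u (M.ψ x w) + κ * s ^ 2 ≤ cmean (fun θ => u (M.ψ x (w + (s * ce θ) • v)))) : False := by
  obtain ⟨P⟩ := M.exists_pot
  obtain ⟨Q⟩ := M.toCM.exists_pou
  have h1 := Q.sum_B P (u := fun y => (u y : ℂ)) (c := fun γ => (c γ : ℂ))
    (Complex.continuous_ofReal.comp hu) fun γ hγ x => by rw [hc γ hγ, Complex.ofReal_add]
  have h2 : ∀ β ∈ Q.A, 0 < (P.B β (fun y => (u y : ℂ)) (fun y => (Q.η β y : ℂ))).re := by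
    intro β hβ
    obtain ⟨v, κ, δ, hκ, hδ, hs⟩ := hstrict β
    exact Lop_pos (u := fun w => u (M.ψ β w)) (η := fun w => Q.η β (M.ψ β w)) (M.r_pos β)
      (isCompact_closedBall 0 (M.r β / 2)) (closedBall_subset_ball (half_lt_self (M.r_pos β)))
      (fun w hw => ⟨P.smooth β w hw, P.pos β w hw⟩) (hu.comp_continuousOn (M.continuousOn_ψ β))
      (hsub β) hκ hδ hs (fun w hw => ⟨Q.sm β β w hw, Q.nonneg _ _⟩)
      (fun w hw hK => Q.supp _ _ (BM.notMem_Cp hw hK)) (by rw [M.ψ_zero]; exact Q.pos β hβ)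
  have h3 := Finset.sum_pos h2 Q.ne
  rw [← Complex.re_sum, h1] at h3
  exact lt_irrefl _ h3

end AM

end Vale.Agent.P274
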