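import Vale.Agent.P274.D0KDefs

/-! The Levi form of `log ‖F‖²` for a holomorphic map to a Hilbert space. -/

open Metric Set Filter Topology

namespace Vale.Agent.P274

variable {n : ℕ} {G : Type*} [NormedAddCommGroup G] [InnerProductSpace ℂ G] [CompleteSpace G]

private theorem kd_contDiffAt {F : E n → G} {w : E n} (hF : AnalyticAt ℂ F w) (h0 : F w ≠ 0)
    (k : ℕ∞) : ContDiffAt ℝ k (fun w => Real.log (‖F w‖ ^ 2)) w := by
  have h1 : ContDiffAt ℝ k F w := (hF.restrictScalars (𝕜 := ℝ)).contDiffAt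
  exact (h1.norm_sq ℂ).log (pow_ne_zero 2 (norm_ne_zero_iff.2 h0))

theorem contDiffOn_log_norm_sq {S : Set (E n)} (hS : IsOpen S) {F : E n → G}
    (hF : DifferentiableOn ℂ F S) (h0 : ∀ w ∈ S, F w ≠ 0) :
    ContDiffOn ℝ (⊤ : ℕ∞) (fun w => Real.log (‖F w‖ ^ 2)) S := by
  intro w hw
  exact (kd_contDiffAt (P278F.analyticOnNhd_of_differentiableOn hS hF w hw) (h0 w hw)
    ⊤).contDiffWithinAt

private theorem kd_line (w a : E n) : HasDerivAt (fun t : ℝ => w + t • a) a 0 := by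
  simpa using ((hasDerivAt_id (0 : ℝ)).smul_const a).const_add w

private theorem kd_comp {H : Type*} [NormedAddCommGroup H] [NormedSpace ℝ H] {g : E n → H}
    {g' : E n →L[ℝ] H} {w : E n} (hg : HasFDerivAt g g' w) (a : E n) :
    HasDerivAt (fun t : ℝ => g (w + t • a)) (g' a) 0 := by
  have h1 : HasFDerivAt g g' (w + (0 : ℝ) • a) := by simpa using hg
  exact h1.comp_hasDerivAt (0 : ℝ) (kd_line w a)

omit [CompleteSpace G] in
private theorem kd_self (x : G) : (inner ℂ x x).re = ‖x‖ ^ 2 := inner_self_eq_norm_sq (𝕜 := ℂ) x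

omit [CompleteSpace G] in
private theorem kd_re {φ ψ : ℝ → G} {φ' ψ' : G} {t : ℝ} (hφ : HasDerivAt φ φ' t)
    (hψ : HasDerivAt ψ ψ' t) : HasDerivAt (fun s => (inner ℂ (φ s) (ψ s)).re)
      ((inner ℂ (φ t) ψ').re + (inner ℂ φ' (ψ t)).re) t :=
  Complex.reCLM.hasFDerivAt.comp_hasDerivAt t (hφ.inner ℂ hψ)

omit [CompleteSpace G] in
private theorem kd_ns {φ : ℝ → G} {φ' : G} {t : ℝ} (hφ : HasDerivAt φ φ' t) :
    HasDerivAt (fun s => ‖φ s‖ ^ 2) (2 * (inner ℂ (φ t) φ').re) t := by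
  have h1 := kd_re hφ hφ
  simp only [kd_self] at h1
  refine h1.congr_deriv ?_
  have : (inner ℂ φ' (φ t)).re = (inner ℂ (φ t) φ').re := inner_re_symm (𝕜 := ℂ) _ _
  rw [this]
  ring

private theorem kd_first {F : E n → G} {z : E n} (hF : AnalyticAt ℂ F z) (h0 : F z ≠ 0)
    (a : E n) : fderiv ℝ (fun w => Real.log (‖F w‖ ^ 2)) z a =
      2 * (inner ℂ (F z) (fderiv ℂ F z a)).re / ‖F z‖ ^ 2 := by
  have h1 := kd_comp ((kd_contDiffAt hF h0 1).differentiableAt (by norm_cast)).hasFDerivAt a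
  have hφ := kd_comp (hF.differentiableAt.hasFDerivAt.restrictScalars ℝ) a
  have hq : ‖F (z + (0 : ℝ) • a)‖ ^ 2 ≠ 0 := by
    simpa using h0
  have h3 := h1.unique ((kd_ns hφ).log hq)
  simpa only [zero_smul, add_zero, ContinuousLinearMap.coe_restrictScalars'] using h3

private theorem kd_second {F : E n → G} {w : E n} (hF : AnalyticAt ℂ F w) (h0 : F w ≠ 0)
    (a : E n) : fderiv ℝ (fderiv ℝ (fun w => Real.log (‖F w‖ ^ 2))) w a a =
      (2 * ((inner ℂ (F w) (fderiv ℂ (fderiv ℂ F) w a a)).re + ‖fderiv ℂ F w a‖ ^ 2) * ‖F w‖ ^ 2 -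
        4 * (inner ℂ (F w) (fderiv ℂ F w a)).re ^ 2) / (‖F w‖ ^ 2) ^ 2 := by
  have hu := kd_contDiffAt hF h0 2
  have hu1 : DifferentiableAt ℝ (fderiv ℝ (fun w => Real.log (‖F w‖ ^ 2))) w :=
    (hu.fderiv_right (m := 1) (by norm_cast)).differentiableAt one_ne_zero
  have h1 := (kd_comp hu1.hasFDerivAt a).clm_apply (hasDerivAt_const (0 : ℝ) a)
  have hφ := kd_comp (hF.differentiableAt.hasFDerivAt.restrictScalars ℝ) a
  have hψ : HasDerivAt (fun t : ℝ => fderiv ℂ F (w + t • a) a)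
      (fderiv ℂ (fderiv ℂ F) w a a) 0 := by
    have h2 := (hF.fderiv.differentiableAt.hasFDerivAt.clm_apply (hasFDerivAt_const a w))
    have h3 := kd_comp (h2.restrictScalars ℝ) a
    simpa using h3
  have hq : ‖F (w + (0 : ℝ) • a)‖ ^ 2 ≠ 0 := by
    simpa using h0
  have h2 := ((kd_re hφ hψ).const_mul 2).div (kd_ns hφ) hq
  have ht : Tendsto (fun t : ℝ => w + t • a) (𝓝 0) (𝓝 w) := by
    have := (kd_line w a).continuousAt.tendsto
    simpa using this
  have hev : ∀ᶠ z in 𝓝 w, AnalyticAt ℂ F z ∧ F z ≠ 0 :=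
    hF.eventually_analyticAt.and (hF.continuousAt.eventually_ne h0)
  have h3 := h1.unique (h2.congr_of_eventuallyEq ((ht.eventually hev).mono fun t ht =>
    kd_first ht.1 ht.2 a))
  simp only [zero_smul, add_zero, map_zero, ContinuousLinearMap.coe_restrictScalars',
    kd_self] at h3
  rw [h3]
  ring

theorem levi_log_norm_sq_pos {S : Set (E n)} (hS : IsOpen S) {F : E n → G}
    (hF : DifferentiableOn ℂ F S) {w v : E n} (hw : w ∈ S) (h0 : F w ≠ 0)
    (hv : ∀ c : ℂ, fderiv ℂ F w v ≠ c • F w) :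
    0 < levi (fun w => Real.log (‖F w‖ ^ 2)) w v := by
  have hA := P278F.analyticOnNhd_of_differentiableOn hS hF w hw
  unfold levi
  rw [kd_second hA h0, kd_second hA h0]
  have e1 : fderiv ℂ F w (Complex.I • v) = Complex.I • fderiv ℂ F w v := map_smul _ _ _
  have e2 : fderiv ℂ (fderiv ℂ F) w (Complex.I • v) (Complex.I • v) =
      -fderiv ℂ (fderiv ℂ F) w v v := by
    rw [map_smul, map_smul, smul_apply, smul_smul, Complex.I_mul_I, neg_one_smul]
  rw [e1, e2]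
  generalize fderiv ℂ (fderiv ℂ F) w v v = B
  generalize fderiv ℂ F w v = A at hv
  generalize F w = x at hv h0
  have hA0 : A ≠ 0 := by simpa using hv 0
  have hlt : ‖inner ℂ x A‖ < ‖x‖ * ‖A‖ := by
    refine lt_of_le_of_ne (norm_inner_le_norm x A) fun h => ?_
    obtain ⟨r, -, hr⟩ := (norm_inner_eq_norm_iff h0 hA0).1 h
    exact hv r hr
  have hsq : (inner ℂ x A).re ^ 2 + (inner ℂ x A).im ^ 2 < ‖x‖ ^ 2 * ‖A‖ ^ 2 := by
    have h1 : ‖inner ℂ x A‖ ^ 2 < (‖x‖ * ‖A‖) ^ 2 :=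
      pow_lt_pow_left₀ hlt (norm_nonneg _) two_ne_zero
    rw [Complex.sq_norm, Complex.normSq_apply, mul_pow] at h1
    nlinarith
  have r2 : (inner ℂ x (Complex.I • A)).re = -(inner ℂ x A).im := by
    rw [inner_smul_right]
    simp
  have r3 : ‖Complex.I • A‖ = ‖A‖ := by
    rw [norm_smul, Complex.norm_I, one_mul]
  rw [r2, r3, inner_neg_right, Complex.neg_re, ← add_div]
  refine div_pos ?_ (pow_pos (pow_pos (norm_pos_iff.2 h0) 2) 2)
  nlinarith

end Vale.Agent.P274
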