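import Vale.Agent.P274.I0
import Vale.Agent.P278F.Comm

/-! Existence of flows, walls. -/

open Metric Set Filter Topology

namespace Vale.Agent.P274

theorem i1_star {P Q : Type*} [NormedAddCommGroup P] [NormedSpace ℂ P] [StarAddMonoid P]
    [StarModule ℂ P] [ContinuousStar P] [NormedAddCommGroup Q] [NormedSpace ℂ Q] [StarAddMonoid Q]
    [StarModule ℂ Q] [ContinuousStar Q] {f : P → Q} (hf : Differentiable ℂ f) :
    Differentiable ℂ fun x => star (f (star x)) := fun x => by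
  simpa [Function.comp_def] using (hf (star x)).star_star

theorem i1_lip {P Q : Type*} [NormedAddCommGroup P] [NormedSpace ℂ P] [FiniteDimensional ℂ P]
    [NormedAddCommGroup Q] [NormedSpace ℂ Q] [CompleteSpace Q] {f : P → Q}
    (hf : Differentiable ℂ f) (R : ℝ) : ∃ K, LipschitzOnWith K f (closedBall 0 R) := by
  have := FiniteDimensional.proper ℂ P
  obtain ⟨C, hC⟩ := (isCompact_closedBall (0 : P) R).exists_bound_of_continuousOn
    ((P278F.differentiableOn_fderiv isOpen_univ hf.differentiableOn).continuousOn.mono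
      (subset_univ _))
  exact ⟨C.toNNReal, (convex_closedBall _ _).lipschitzOnWith_of_nnnorm_fderiv_le (fun x _ => hf x)
    fun x hx => (hC x hx).trans (Real.le_coe_toNNReal C)⟩

theorem i1_ray {F : Type*} [NormedAddCommGroup F] [NormedSpace ℂ F] {c : ℂ → F} {v : F} {s : ℂ}
    {t : ℝ} (h : HasDerivAt c v (t * s)) : HasDerivAt (fun t : ℝ => c (t * s)) (s • v) t := by
  simpa [Function.comp_def] using h.scomp t ((hasDerivAt_id t).ofReal_comp.mul_const s)

theorem i1_mem {s : ℂ} {r t : ℝ} (hs : ‖s‖ < r) (ht : t ∈ Icc (0 : ℝ) 1) : ‖t * s‖ < r := by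
  rw [norm_mul, Complex.norm_real, Real.norm_of_nonneg ht.1]
  exact (mul_le_of_le_one_left (norm_nonneg _) ht.2).trans_lt hs

theorem i1_uniq {N : ℕ} {V : E N → E N} (hV : Differentiable ℂ V) {c₁ c₂ : ℂ → E N} {r R : ℝ}
    (h₁ : ∀ s ∈ ball (0 : ℂ) r, HasDerivAt c₁ (V (c₁ s)) s)
    (h₂ : ∀ s ∈ ball (0 : ℂ) r, HasDerivAt c₂ (V (c₂ s)) s)
    (b₁ : ∀ s ∈ ball (0 : ℂ) r, c₁ s ∈ closedBall (0 : E N) R)
    (b₂ : ∀ s ∈ ball (0 : ℂ) r, c₂ s ∈ closedBall (0 : E N) R) (h0 : c₁ 0 = c₂ 0) {s : ℂ}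
    (hs : s ∈ ball (0 : ℂ) r) : c₁ s = c₂ s := by
  obtain ⟨K, hK⟩ := i1_lip hV R
  have m : ∀ t ∈ Icc (0 : ℝ) 1, t * s ∈ ball (0 : ℂ) r := fun t ht =>
    mem_ball_zero_iff.2 (i1_mem (mem_ball_zero_iff.1 hs) ht)
  have m' := fun t ht => m t (Ico_subset_Icc_self ht)
  simpa using ODE_solution_unique_of_mem_Icc_right (v := fun _ x => s • V x)
    (f := fun t : ℝ => c₁ (t * s)) (g := fun t : ℝ => c₂ (t * s))
    (fun _ _ => (lipschitzWith_smul s).comp_lipschitzOnWith hK)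
    (fun t ht => (i1_ray (h₁ _ (m t ht))).continuousAt.continuousWithinAt)
    (fun t ht => (i1_ray (h₁ _ (m' t ht))).hasDerivWithinAt) (fun t ht => b₁ _ (m' t ht))
    (fun t ht => (i1_ray (h₂ _ (m t ht))).continuousAt.continuousWithinAt)
    (fun t ht => (i1_ray (h₂ _ (m' t ht))).hasDerivWithinAt) (fun t ht => b₂ _ (m' t ht))
    (by simpa using h0) (right_mem_Icc.2 zero_le_one)

theorem exists_Fl {N : ℕ} {V : E N → E N} (hV : Differentiable ℂ V) {R₀ : ℝ} (hR : 0 < R₀) :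
    Nonempty (Fl V R₀) := by
  obtain ⟨C, hC⟩ := (isCompact_closedBall (0 : E N) (4 * (R₀ + 1))).exists_bound_of_continuousOn
    hV.continuous.continuousOn
  have hK : 1 ≤ max C 1 := le_max_right _ _
  have hC' := fun x hx => (hC x hx).trans (le_max_left C 1)
  generalize max C 1 = K at hK hC'
  let T : E N →L[ℂ] ℂ →L[ℂ] E N := (ContinuousLinearMap.lsmul ℂ ℂ).flip
  have h : P278F.Dat (fun q => T (V q)) 0 (R₀ + 1) (1 / (2 * K)) K :=
    ⟨by positivity, by positivity, (T.differentiable.comp hV).differentiableOn, fun q hq =>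
      ContinuousLinearMap.opNorm_le_bound _ (by positivity) fun w => by
        simp only [T, ContinuousLinearMap.flip_apply, ContinuousLinearMap.lsmul_apply, norm_smul]
        rw [mul_comm]
        exact mul_le_mul_of_nonneg_right (hC' q (ball_subset_closedBall hq)) (norm_nonneg _),
      by field_simp; linarith⟩
  obtain ⟨γ, g, hf⟩ := h.exists_fixed
  have h1 : (1 : ℝ) ∈ Icc (0 : ℝ) 1 := by simp
  have e2 : 2 * (1 / (2 * K) / 2) = 1 / (2 * K) := by ring
  have hz : ∀ z ∈ ball (0 : E N) (R₀ + 1), γ 1 (0, z) = z := fun z hz => by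
    rw [hf 1 h1 (0, z) ⟨mem_ball_self h.hρ, hz⟩]
    simp [P278F.pic]
  have hm : ∀ z ∈ ball (0 : E N) (R₀ + 1), ∀ s ∈ ball (0 : ℂ) (1 / (2 * K)),
      γ 1 (s, z) ∈ closedBall (0 : E N) (3 * (R₀ + 1) / 2) := fun z hz s hs =>
    g.mem 1 h1 (s, z) ⟨hs, hz⟩
  have hode : ∀ z ∈ ball (0 : E N) (R₀ + 1), ∀ s ∈ ball (0 : ℂ) (1 / (2 * K)),
      HasDerivAt (fun s => γ 1 (s, z)) (V (γ 1 (s, z))) s := fun z hz s hs => by
    have hc : (s, z) ∈ P278F.dom (0 : E N) (R₀ + 1) (1 / (2 * K)) := ⟨hs, hz⟩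
    have h2 := ((g.hol 1 h1).differentiableAt
      (P278F.isOpen_dom.mem_nhds hc)).hasFDerivAt.comp_hasDerivAt s
        ((hasDerivAt_id' s).prodMk (hasDerivAt_const s z))
    rw [h.pde g hf (fun q _ v w => ?_) hc 1] at h2
    · simpa [T, Function.comp_def] using h2
    have k : ∀ (A : ℂ →L[ℂ] E N) (v : ℂ), A v = v • A 1 := fun A v => by simp [← A.map_smul]
    rw [k (T _) v, k (T _) w, map_smul, map_smul, smul_apply, smul_apply, k _ v, k _ w, smul_comm]
  have hmem : ∀ z, ‖z‖ ≤ R₀ → ∀ s ∈ ball (0 : ℂ) (1 / (2 * K)),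
      γ 1 (s, z) ∈ ball (0 : E N) (R₀ + 1) := fun z hz' s hs => by
    have hz1 : z ∈ ball (0 : E N) (R₀ + 1) := mem_ball_zero_iff.2 (by linarith)
    have := (convex_ball (0 : ℂ) _).norm_image_sub_le_of_norm_hasDerivWithin_le
      (fun x hx => (hode z hz1 x hx).hasDerivWithinAt) (fun x hx => hC' _
        (closedBall_subset_closedBall (by linarith) (hm z hz1 x hx))) (mem_ball_self h.hρ) hs
    rw [hz z hz1, sub_zero] at this
    rw [mem_ball_zero_iff, lt_div_iff₀ (by positivity)] at hs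
    rw [mem_ball_zero_iff]
    linarith [norm_le_insert' (γ 1 (s, z)) z]
  refine ⟨⟨1 / (2 * K) / 2, by positivity, ?_, γ 1, e2.symm ▸ g.hol 1 h1, hz, e2.symm ▸ hode,
    e2.symm ▸ hmem, fun z hz' s s' hs hs' => ?_⟩⟩
  · rw [div_div, div_le_div_iff₀ (by positivity) (by positivity)]
    linarith
  have hz1 : z ∈ ball (0 : E N) (R₀ + 1) := mem_ball_zero_iff.2 (by linarith)
  have b1 : ball (0 : ℂ) (1 / (2 * K) / 2) ⊆ ball 0 (1 / (2 * K)) :=
    ball_subset_ball (half_le_self h.hρ.le)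
  have b2 : ∀ x ∈ ball (0 : ℂ) (1 / (2 * K) / 2), x + s' ∈ ball (0 : ℂ) (1 / (2 * K)) :=
    fun x hx => mem_ball_zero_iff.2 (by linarith [norm_add_le x s', mem_ball_zero_iff.1 hx])
  have hz2 := hmem z hz' s' (b1 (mem_ball_zero_iff.2 hs'))
  exact i1_uniq hV (c₂ := fun x => γ 1 (x + s', z)) (fun x hx => hode _ hz2 x (b1 hx))
    (fun x hx => (hode z hz1 _ (b2 x hx)).comp_add_const x s') (fun x hx => hm _ hz2 x (b1 hx))
    (fun x hx => hm _ hz1 _ (b2 x hx)) (by rw [hz _ hz2, zero_add]) (mem_ball_zero_iff.2 hs)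

namespace AM

variable {N n : ℕ} (M : AM N n)

theorem U_sub : M.U ⊆ M.A.Z := by
  obtain ⟨O, -, h⟩ := M.U_open
  exact h ▸ inter_subset_left

theorem eventually_mem_U {z : E N} (hz : z ∈ M.U) : ∀ᶠ z' in 𝓝 z, z' ∈ M.A.Z → z' ∈ M.U := by
  obtain ⟨O, hO, h⟩ := M.U_open
  filter_upwards [hO.mem_nhds (h ▸ hz).2] with z' a b using h ▸ ⟨b, a⟩

theorem exists_WF (i : Fin n) : Nonempty (WF M i) := by
  obtain ⟨R, hR, h⟩ := M.exists_bound
  obtain ⟨F⟩ := exists_Fl (M.A.V_diff i) hR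
  exact ⟨⟨R, hR, fun z hz => h ⟨z, hz⟩, F⟩⟩

theorem ρ_eq (z : E N) : M.W.ρ (M.A.π z, star (M.A.π z)) = (M.p z : ℂ) := by
  exact (Complex.conj_eq_iff_re.1 (by simpa using M.W.ρ_symm (M.A.π z) (star (M.A.π z)))).symm

theorem continuous_p : Continuous M.p := by
  have := M.W.ρ_diff.continuous
  have := M.A.π_diff.continuous
  unfold p
  fun_prop

theorem g_entire (i : Fin n) :
    Differentiable ℂ (fun q : E N × E N => M.g i q.1 (star q.2)) := by
  have h1 := M.A.Δ_diff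
  have h2 := M.A.π_diff
  have h3 := i1_star h2
  have h4 := differentiableOn_univ.1
    (P278F.differentiableOn_fderiv isOpen_univ M.W.ρ_diff.differentiableOn)
  exact ((h1.comp (h2.comp differentiable_fst)).pow 2).mul ((h4.comp
    ((h2.comp differentiable_fst).prodMk (h3.comp differentiable_snd))).clm_apply
      (differentiable_const _))

theorem g_star_entire (i : Fin n) :
    Differentiable ℂ (fun q : E N × E N => star (M.g i (star q.2) q.1)) := by
  simpa [Function.comp_def] using (i1_star (M.g_entire i)).comp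
    (differentiable_snd.prodMk differentiable_fst)

theorem continuous_g (i : Fin n) : Continuous (fun q : E N × E N => M.g i q.1 q.2) := by
  simpa [Function.comp_def] using (M.g_entire i).continuous.comp
    (continuous_fst.prodMk continuous_snd.star)

theorem bad_iff (i : Fin n) {z : E N} (hz : M.p z = 0) :
    Bad M.A.Δ M.W.ρ i (M.A.π z) ↔ M.g i z z = 0 := by
  simp [Bad, g, ρ_eq, hz]

theorem ι_toX {z : E N} (hz : z ∈ M.U) : M.ι (M.toX z) = z := by
  simp [toX, hz]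

theorem toX_ι (x : M.X) : M.toX (M.ι x) = x := by
  exact Subtype.ext (M.ι_toX x.2)

theorem V_mem_T (l : Fin n) (x : M.X) : M.A.V l x.1 ∈ M.T x := by
  obtain ⟨D⟩ := M.exists_WF l
  have h0 : (0 : ℂ) ∈ ball (0 : ℂ) (2 * D.F.r) := mem_ball_self (by linarith [D.F.r_pos])
  have hx : x.1 ∈ ball (0 : E N) (D.R₀ + 1) := mem_ball_zero_iff.2 (by linarith [D.bd _ x.2])
  have h1 := D.F.ode _ hx 0 h0
  have h2 := D.F.zero _ hx
  have h3 : HasDerivAt (M.ι ∘ fun s => M.toX (D.F.fl (s, x.1))) _ 0 := h1.congr_of_eventuallyEq (by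
    filter_upwards [h1.continuousAt.eventually (M.eventually_mem_U (by simp [h2])),
      isOpen_ball.mem_nhds h0] with s a b
    exact M.ι_toX (a (M.A.V_Z l _ _ (D.F.ode _ hx) (h2.symm ▸ M.U_sub x.2) s b)))
  simpa only [h2, M.toX_ι] using BM.mem_T_of_hasDerivAt h3

theorem hol_V (l : Fin n) : M.Hol (fun x => M.A.V l x.1) := by
  exact fun x => (M.hol_ι x).comp_analytic (P278F.analyticOnNhd_of_differentiableOn isOpen_univ
    (M.A.V_diff l).differentiableOn _ trivial)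

/-- Where the discriminant does not vanish `π` is an immersion. -/
theorem dπ_inj {x : M.X} (hx : M.A.Δ (M.A.π x.1) ≠ 0) {v : E N} (hv : v ∈ M.T x)
    (h : fderiv ℂ M.A.π x.1 v = 0) : v = 0 := by
  obtain ⟨s, h1, -, -, h2⟩ := M.A.sec _ (M.U_sub x.2) hx
  have h3 : M.ι =ᶠ[𝓝 x] fun y => (s ∘ M.A.π) y.1 :=
    ((tendsto_nhdsWithin_iff.2 ⟨continuous_subtype_val.continuousAt,
      .of_forall fun y => M.U_sub y.2⟩).eventually h2).mono fun y hy => hy.symm
  rw [← BM.df_ι hv, BM.df_congr h3, BM.df_restrict (h1.differentiableAt.comp _ (M.A.π_diff _)) hv,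
    fderiv_comp _ h1.differentiableAt (M.A.π_diff _)]
  simp [h]

/-- Off the walls membership in `U` is constant along connected families. -/
theorem mem_of_preconnected {α : Type*} [TopologicalSpace α] {Q : Set α} (hQ : IsPreconnected Q)
    {c : α → E N} (hc : ContinuousOn c Q) (hZ : ∀ x ∈ Q, c x ∈ M.A.Z)
    (hp : ∀ x ∈ Q, M.p (c x) ≠ 0) {x y : α} (hx : x ∈ Q) (hy : y ∈ Q) (h : c x ∈ M.U) :
    c y ∈ M.U := by
  refine hQ.induction₂' (fun a b => c a ∈ M.U → c b ∈ M.U) (fun a ha => ?_)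
    (fun _ _ _ _ _ _ a b c => b (a c)) hx hy h
  exact (((hc a ha).tendsto_nhdsWithin hZ).eventually (M.W.S1 _ (hZ a ha)
    (by simpa [ρ_eq] using hp a ha))).mono fun b hb => ⟨hb.2, hb.1⟩

/-- On the regular part of the walls membership in `U` is constant along connected families. -/
theorem mem_of_preconnected_wall (i : Fin n) {α : Type*} [TopologicalSpace α] {Q : Set α}
    (hQ : IsPreconnected Q) {c : α → E N} (hc : ContinuousOn c Q) (hZ : ∀ x ∈ Q, c x ∈ M.A.Z)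
    (hp : ∀ x ∈ Q, M.p (c x) = 0 ∧ M.g i (c x) (c x) ≠ 0) {x y : α} (hx : x ∈ Q) (hy : y ∈ Q)
    (h : c x ∈ M.U) : c y ∈ M.U := by
  refine hQ.induction₂' (fun a b => c a ∈ M.U → c b ∈ M.U) (fun a ha => ?_)
    (fun _ _ _ _ _ _ a b c => b (a c)) hx hy h
  filter_upwards [((hc a ha).tendsto_nhdsWithin hZ).eventually (M.W.S2 i _ (hZ a ha)
    (by simp [ρ_eq, (hp a ha).1]) (mt (M.bad_iff i (hp a ha).1).1 (hp a ha).2)),
    self_mem_nhdsWithin] with b hb hb'
  have := hb (by simp [ρ_eq, (hp b hb').1])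
  exact ⟨this.2, this.1⟩

/-- Boundary points lie on the walls. -/
theorem p_eq_zero {z : E N} (hz : z ∈ closure M.U) (hU : z ∉ M.U) : M.p z = 0 := by
  by_contra h
  obtain ⟨y, a, b⟩ := ((mem_closure_iff_frequently.1 hz).and_eventually (eventually_nhdsWithin_iff.1
    (M.W.S1 z (closure_minimal M.U_sub M.A.Z_closed hz) (by simpa [ρ_eq] using h)))).exists
  exact hU ((b (M.U_sub a)).1 a)

end AM

end Vale.Agent.P274
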