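import Vale.Agent.P274.D0Kb
import Vale.Agent.P274.I1a

/-! Non-vanishing and transformation law of the Poincaré series. -/

open Metric Set Filter Topology

namespace Vale.Agent.P274.AM

variable {N n : ℕ} (M : AM N n)

theorem ke_fderiv_pc (γ : M.Aut) (x : M.X) {w : E n} (hw : w ∈ ball (0 : E n) (M.r x))
    (v : E n) : fderiv ℂ (M.pc γ x) w v = fderiv ℂ M.A.π (M.ι (γ • M.ψ x w))
      (fderiv ℂ (M.ι ∘ fun z => γ • M.ψ x z) w v) := by
  have h := fderiv_comp w (g := M.A.π) (M.A.π_diff _)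
    (M.analyticAt_smul_ψ γ x hw).differentiableAt
  exact congrArg (fun A : E n →L[ℂ] E n => A v) h

theorem ke_det_ne {A : E n →L[ℂ] E n} : A.det ≠ 0 ↔ ∀ v, A v = 0 → v = 0 := by
  rw [ContinuousLinearMap.det, Ne, LinearMap.det_eq_zero_iff_ker_ne_bot, not_not,
    LinearMap.ker_eq_bot']
  rfl

theorem exists_jac_ne (x : M.X) {w : E n} (hw : w ∈ ball (0 : E n) (M.r x)) :
    ∃ γ ∈ M.Γ, M.jac γ x w ≠ 0 := by
  obtain ⟨R, -, hb⟩ := M.exists_bound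
  have hd : Differentiable ℂ (fun z => M.A.Δ (M.A.π z)) := M.A.Δ_diff.comp M.A.π_diff
  obtain ⟨b, hb'⟩ := (isCompact_closedBall (0 : E N) R).exists_bound_of_continuousOn
    hd.continuous.continuousOn
  have h1 : ∃ γ ∈ M.Γ, M.A.Δ (M.A.π (γ • M.ψ x w).1) ≠ 0 := by
    by_contra h
    push Not at h
    obtain ⟨z, hz, h0⟩ := M.Δ_ne
    refine h0 (M.max_trick (f := fun y => M.A.Δ (M.A.π y.1)) (b := b)
      (S := {y | ∃ γ ∈ M.Γ, γ • M.ψ x w = y}) (fun y => ?_)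
      (fun y => hb' _ (mem_closedBall_zero_iff.2 (hb y))) ⟨_, 1, M.Γ.one_mem, rfl⟩ ?_ ?_ ⟨z, hz⟩)
    · exact (M.holAt_ι y).comp_analytic (g := fun z => M.A.Δ (M.A.π z))
        (P278F.analyticOnNhd_of_differentiableOn isOpen_univ hd.differentiableOn _ (mem_univ _))
    · rintro γ hγ _ ⟨g, hg, rfl⟩
      exact ⟨γ * g, M.Γ.mul_mem hγ hg, mul_smul _ _ _⟩
    · rintro _ ⟨g, hg, rfl⟩
      exact h g hg
  obtain ⟨γ, hγ, h⟩ := h1
  refine ⟨γ, hγ, ke_det_ne.2 fun v hv => ?_⟩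
  rw [M.ke_fderiv_pc γ x hw] at hv
  have h2 : fderiv ℂ (M.ι ∘ fun z => γ • M.ψ x z) w v =
      M.df (fun y => M.ι (γ • y)) (M.ψ x w) (fderiv ℂ (M.ι ∘ M.ψ x) w v) :=
    BM.fderiv_chart (f := fun y => M.ι (γ • y)) hw (M.hol_smul γ _) v
  rw [h2] at hv
  have h3 := M.dπ_inj h (BM.df_mem_T (a := fun y => γ • y) (M.hol_smul γ _) _) hv
  have h4 := BM.df_aut_inv γ (M.ψ x w) (BM.fderiv_ψ_mem_T hw v)
  have h5 : M.df (fun y => M.ι (γ • y)) (M.ψ x w) (fderiv ℂ (M.ι ∘ M.ψ x) w v) = 0 := h3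
  rw [h5, map_zero] at h4
  rw [← BM.L_fderiv_ψ hw v, ← h4, map_zero]

theorem not_parallel (x : M.X) {w v : E n} (hw : w ∈ ball (0 : E n) (M.r x)) {c : ℂ}
    (h : ∀ i, fderiv ℂ (M.hh x i) w v = c * M.hh x i w) : v = 0 := by
  obtain ⟨γ, hγ, hj⟩ := M.exists_jac_ne x hw
  have hJ := (M.jac_diff γ x).differentiableAt (isOpen_ball.mem_nhds hw)
  have h0 : fderiv ℂ (M.jac γ x) w v = c * M.jac γ x w := by
    have h1 := h (⟨γ, hγ⟩, none)
    have h2 : M.hh x (⟨γ, hγ⟩, none) = M.jac γ x := funext fun u => mul_one _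
    rwa [h2] at h1
  refine ke_det_ne.1 hj v ?_
  rw [M.ke_fderiv_pc γ x hw]
  have h3 : fderiv ℂ (M.ι ∘ fun z => γ • M.ψ x z) w v = 0 := by
    funext m
    have h1 := h (⟨γ, hγ⟩, some m)
    have h2 : M.hh x (⟨γ, hγ⟩, some m) = fun u => M.jac γ x u * M.ι (γ • M.ψ x u) m := rfl
    rw [h2, fderiv_fun_mul hJ (M.kb_coord_diff γ x m hw)] at h1
    simp only [ContinuousLinearMap.add_apply, ContinuousLinearMap.smul_apply, smul_eq_mul,
      h0] at h1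
    have h4 : M.jac γ x w * fderiv ℂ (fun u => M.ι (γ • M.ψ x u) m) w v = 0 := by
      linear_combination h1
    have h5 := (mul_eq_zero.1 h4).resolve_left hj
    have h6 := fderiv_apply (M.analyticAt_smul_ψ γ x hw).differentiableAt m
    have h7 := congrArg (fun A : E n →L[ℂ] ℂ => A v) h6
    exact h7.symm.trans h5
  rw [h3, map_zero]

theorem ke_jac_mul (g γ : M.Aut) {x y : M.X} {w : E n} (hw : w ∈ ball (0 : E n) (M.r x))
    (h : γ • M.ψ x w ∈ M.V y) : M.jac (g * γ) x w =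
      M.jac g y (M.tr γ x y w) * (fderiv ℂ (M.tr γ x y) w).det := by
  have h1 := M.ψ_tr hw h
  have h2 : M.pc (g * γ) x =ᶠ[𝓝 w] M.pc g y ∘ M.tr γ x y := by
    filter_upwards [h1] with u hu
    simp only [pc, Function.comp_apply]
    rw [hu.2.1, mul_smul]
  simp only [jac]
  rw [h2.fderiv_eq, fderiv_comp w ((M.pc_diff g y).differentiableAt
    (isOpen_ball.mem_nhds h1.self_of_nhds.2.2)) (M.analyticAt_tr γ x y hw).differentiableAt]
  exact LinearMap.det_comp _ _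

theorem th_tr {γ : M.Aut} (hγ : γ ∈ M.Γ) {x y : M.X} {w w' : E n}
    (hw : w ∈ ball (0 : E n) (M.r x)) (hw' : w' ∈ ball (0 : E n) (M.r y))
    (h : γ • M.ψ x w = M.ψ y w') :
    ∀ᶠ u in 𝓝 w, M.tr γ x y u ∈ ball (0 : E n) (M.r y) ∧
      M.th x u = M.th y (M.tr γ x y u) * ‖(fderiv ℂ (M.tr γ x y) u).det‖ ^ 2 := by
  filter_upwards [M.ψ_tr hw ⟨w', hw', h.symm⟩, isOpen_ball.mem_nhds hw] with u hu hb
  refine ⟨hu.2.2, ?_⟩
  simp only [th]
  rw [← tsum_mul_right, ← ((Equiv.mulRight (⟨γ, hγ⟩ : M.Γ)).prodCongr (Equiv.refl _)).tsum_eq]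
  refine tsum_congr fun i => ?_
  rw [← mul_pow, ← norm_mul]
  congr 2
  have h1 := M.ke_jac_mul i.1.1 γ hb hu.1
  change M.jac (i.1.1 * γ) x u * i.2.elim 1 (fun m => M.ι ((i.1.1 * γ) • M.ψ x u) m) = _
  simp only [hh]
  rw [h1, hu.2.1, mul_smul]
  ring

end Vale.Agent.P274.AM
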