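import Vale.Agent.P274.D0Kc
import Vale.Agent.P274.D0Kd
import Vale.Agent.P274.D0Ke

/-! An invariant Kähler potential. -/

open Metric Set Filter Topology

namespace Vale.Agent.P274.AM

variable {N n : ℕ} (M : AM N n)

theorem th_data (x : M.X) : (∀ w ∈ ball (0 : E n) (M.r x), 0 < M.th x w) ∧
    ContDiffOn ℝ (⊤ : ℕ∞) (fun w => Real.log (M.th x w)) (ball 0 (M.r x)) ∧
    ∀ w ∈ ball (0 : E n) (M.r x), ∀ v, v ≠ 0 → 0 < levi (fun w => Real.log (M.th x w)) w v := by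
  obtain ⟨F, hF, h⟩ := exists_lp_map (M.hh_diff x) (fun s hs => M.hh_sum_lt_top x hs)
  have h0 : ∀ w ∈ ball (0 : E n) (M.r x), F w ≠ 0 := by
    intro w hw hz
    obtain ⟨γ, hγ, hj⟩ := M.exists_jac_ne x hw
    have h1 := (h w hw).1 (⟨γ, hγ⟩, none)
    rw [hz] at h1
    apply hj
    simpa [hh] using h1.symm
  have he : EqOn (fun w => Real.log (M.th x w)) (fun w => Real.log (‖F w‖ ^ 2))
      (ball 0 (M.r x)) := fun w hw => by
    simp only [th]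
    rw [(h w hw).2.2.1]
  refine ⟨fun w hw => ?_, (contDiffOn_log_norm_sq isOpen_ball hF h0).congr he,
    fun w hw v hv => ?_⟩
  · rw [th, ← (h w hw).2.2.1]
    exact pow_pos (norm_pos_iff.2 (h0 w hw)) 2
  · have h1 : (fun w => Real.log (M.th x w)) =ᶠ[𝓝 w] fun w => Real.log (‖F w‖ ^ 2) :=
      he.eventuallyEq_of_mem (isOpen_ball.mem_nhds hw)
    have h2 : levi (fun w => Real.log (M.th x w)) w v =
        levi (fun w => Real.log (‖F w‖ ^ 2)) w v := by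
      simp only [levi]
      rw [h1.fderiv.fderiv_eq]
    rw [h2]
    refine levi_log_norm_sq_pos isOpen_ball hF hw (h0 w hw) fun c hc => hv ?_
    refine M.not_parallel x hw (c := c) fun i => ?_
    rw [← (h w hw).2.2.2 i v, hc, ← (h w hw).1 i]
    simp

theorem exists_potential : ∃ Φ : M.X → E n → ℝ,
    (∀ x, ContDiffOn ℝ (⊤ : ℕ∞) (Φ x) (ball 0 (M.r x))) ∧
    (∀ x, ∀ w ∈ ball (0 : E n) (M.r x), ∀ v, v ≠ 0 → 0 < levi (Φ x) w v) ∧
    ∀ γ ∈ M.Γ, ∀ x y : M.X, ∀ w ∈ ball (0 : E n) (M.r x), ∀ w' ∈ ball (0 : E n) (M.r y),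
      γ • M.ψ x w = M.ψ y w' → ∀ᶠ u in 𝓝 w, (fderiv ℂ (M.tr γ x y) u).det ≠ 0 ∧
        Φ x u = Φ y (M.tr γ x y u) + Real.log (‖(fderiv ℂ (M.tr γ x y) u).det‖ ^ 2) := by
  refine ⟨fun x w => Real.log (M.th x w), fun x => (M.th_data x).2.1,
    fun x => (M.th_data x).2.2, fun γ hγ x y w hw w' hw' h => ?_⟩
  filter_upwards [M.th_tr hγ hw hw' h, isOpen_ball.mem_nhds hw] with u hu hb
  have h1 := (M.th_data x).1 u hb
  have h2 := (M.th_data y).1 _ hu.1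
  have h3 : ‖(fderiv ℂ (M.tr γ x y) u).det‖ ^ 2 ≠ 0 := by
    intro h0
    rw [hu.2, h0, mul_zero] at h1
    exact lt_irrefl _ h1
  refine ⟨fun h0 => h3 (by rw [h0]; simp), ?_⟩
  rw [hu.2, Real.log_mul h2.ne' h3]

end Vale.Agent.P274.AM
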