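import Vale.Agent.P274.B1a
import Vale.Agent.P271A.Basic

/-! Module D0: definitions (complex Hessian, the operator `Lop`, invariant potentials, partitions). -/

open Metric Set Filter Topology MeasureTheory Matrix
open scoped ContDiff ComplexOrder

noncomputable section

namespace Vale.Agent.P274

open P271A (eX zv bv)

variable {N n : ℕ}

/-- The complex Hessian; `eX (zv a)` and `eX (bv b)` are the Wirtinger derivatives. -/
def Hs (g : E n → ℂ) (w : E n) : Matrix (Fin n) (Fin n) ℂ :=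
  Matrix.of fun a b => eX (zv a) (eX (bv b) g) w

/-- The (transposed) complex Jacobian matrix. -/
def jac (T : E n → E n) (w : E n) : Matrix (Fin n) (Fin n) ℂ :=
  Matrix.of fun a c => fderiv ℂ T w (eb a) c

/-- The linearised Monge-Ampere operator of `φ`. -/
def Lop (φ g : E n → ℂ) (w : E n) : ℂ := ((Hs φ w).adjugate * Hs g w).trace

/-- The Levi form of a real function. -/
def lev (g : E n → ℝ) (w v : E n) : ℝ := (v ⬝ᵥ (Hs (fun z => (g z : ℂ)) w *ᵥ star v)).re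

namespace BM

variable (M : BM N n)

/-- Smooth functions. -/
def Sm {F : Type*} [NormedAddCommGroup F] [NormedSpace ℝ F] (f : M.X → F) : Prop :=
  ∀ x, ∀ w ∈ ball (0 : E n) (M.r x), ContDiffAt ℝ ∞ (f ∘ M.ψ x) w

/-- The chart domain. -/
def V (x : M.X) : Set M.X := M.ψ x '' ball 0 (M.r x)

/-- A compact part of the chart domain. -/
def Cp (x : M.X) : Set M.X := M.ψ x '' closedBall 0 (M.r x / 2)

/-- An automorphism read in two charts. -/
def tr (a : M.Aut) (x y : M.X) (z : E n) : E n := M.co y (a • M.ψ x z)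

theorem isOpen_V (x : M.X) : IsOpen (M.V x) := M.isOpen_image_ψ x isOpen_ball subset_rfl

theorem isCompact_Cp (x : M.X) : IsCompact (M.Cp x) :=
  M.isCompact_image_closedBall x (half_lt_self (M.r_pos x))

theorem Cp_subset (x : M.X) : M.Cp x ⊆ M.V x :=
  image_mono (closedBall_subset_ball (half_lt_self (M.r_pos x)))

theorem analyticAt_smul_ψ (a : M.Aut) (x : M.X) {w : E n} (hw : w ∈ ball (0 : E n) (M.r x)) :
    AnalyticAt ℂ (M.ι ∘ fun z => a • M.ψ x z) w :=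
  (M.hol_smul a).analyticOnNhd x w hw

theorem analyticAt_tr (a : M.Aut) (x y : M.X) {w : E n} (hw : w ∈ ball (0 : E n) (M.r x)) :
    AnalyticAt ℂ (M.tr a x y) w :=
  HolAt.analyticAt_comp (f := M.co y) (h := fun z => a • M.ψ x z) (M.hol_co y _)
    (M.analyticAt_smul_ψ a x hw)

theorem ψ_co {y p : M.X} (h : p ∈ M.V y) :
    M.ψ y (M.co y p) = p ∧ M.co y p ∈ ball (0 : E n) (M.r y) := by
  obtain ⟨w, hw, rfl⟩ := h
  rw [M.co_ψ y hw]
  exact ⟨rfl, hw⟩

theorem ψ_tr {a : M.Aut} {x y : M.X} {w : E n} (hw : w ∈ ball (0 : E n) (M.r x))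
    (h : a • M.ψ x w ∈ M.V y) : ∀ᶠ z in 𝓝 w, a • M.ψ x z ∈ M.V y ∧
      M.ψ y (M.tr a x y z) = a • M.ψ x z ∧ M.tr a x y z ∈ ball (0 : E n) (M.r y) := by
  have hc : ContinuousAt (fun z => a • M.ψ x z) w :=
    (continuous_smul_aut a).continuousAt.comp
      ((M.continuousOn_ψ x).continuousAt (isOpen_ball.mem_nhds hw))
  filter_upwards [hc.eventually ((M.isOpen_V y).mem_nhds h)] with z hz
  exact ⟨hz, M.ψ_co hz⟩

end BM

/-- Local potentials of an invariant Kaehler form. -/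
structure Pot (M : CM N n) where
  φ : M.X → E n → ℂ
  smooth : ∀ x, ∀ w ∈ ball (0 : E n) (M.r x), ContDiffAt ℝ ∞ (φ x) w
  pos : ∀ x, ∀ w ∈ ball (0 : E n) (M.r x), (Hs (φ x) w).PosDef
  trans : ∀ γ ∈ M.Γ, ∀ x y, ∀ w ∈ ball (0 : E n) (M.r x), γ • M.ψ x w ∈ M.V y →
    Hs (φ x) w = jac (M.tr γ x y) w * Hs (φ y) (M.tr γ x y w) * (jac (M.tr γ x y) w)ᴴ

/-- The pairing in the chart at `x`. -/
def Pot.B {M : CM N n} (P : Pot M) (x : M.X) (f g : M.X → ℂ) : ℂ :=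
  ∫ w in ball (0 : E n) (M.r x), f (M.ψ x w) * Lop (P.φ x) (g ∘ M.ψ x) w

/-- A partition of unity modulo the group. -/
structure Pou (M : CM N n) where
  A : Finset M.X
  η : M.X → M.X → ℝ
  G : Finset M.Aut
  ne : A.Nonempty
  sm : ∀ α, M.Sm (η α)
  nonneg : ∀ α y, 0 ≤ η α y
  pos : ∀ α ∈ A, 0 < η α α
  supp : ∀ α y, y ∉ M.Cp α → η α y = 0
  mem : ∀ γ ∈ G, γ ∈ M.Γ
  inv : ∀ γ ∈ G, γ⁻¹ ∈ G
  sum : ∀ α ∈ A, ∀ y ∈ M.Cp α, ∀ᶠ z in 𝓝 y, ∑ γ ∈ G, ∑ β ∈ A, η β (γ • z) = 1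

end Vale.Agent.P274
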