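import Vale.Agent.P274.B3
import Vale.Agent.P274.D0a

/-! The Poincaré series defining an invariant Kähler potential: definitions. -/

open Metric Set Filter Topology

noncomputable section

namespace Vale.Agent.P274

/-- Four times the Levi form of `u` at `w` in the direction `v`. -/
def levi {n : ℕ} (u : E n → ℝ) (w v : E n) : ℝ :=
  fderiv ℝ (fderiv ℝ u) w v v + fderiv ℝ (fderiv ℝ u) w (Complex.I • v) (Complex.I • v)

namespace AM

variable {N n : ℕ} (M : AM N n)

/-- The map `π ∘ γ` in the chart at `x`. -/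
def pc (γ : M.Aut) (x : M.X) (w : E n) : E n := M.A.π (M.ι (γ • M.ψ x w))

/-- Its Jacobian determinant. -/
def jac (γ : M.Aut) (x : M.X) (w : E n) : ℂ := (fderiv ℂ (M.pc γ x) w).det

/-- The terms of the Poincaré series. -/
def hh (x : M.X) (i : M.Γ × Option (Fin N)) (w : E n) : ℂ :=
  M.jac i.1.1 x w * i.2.elim 1 (fun m => M.ι (i.1.1 • M.ψ x w) m)

/-- The Poincaré series in the chart at `x`. -/
def th (x : M.X) (w : E n) : ℝ := ∑' i, ‖M.hh x i w‖ ^ 2

end AM

end Vale.Agent.P274
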