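import Vale.Agent.P274.B1c

/-! Area bound for a countable family of holomorphic maps of bounded total multiplicity. -/

open Metric Set Filter Topology MeasureTheory

namespace Vale.Agent.P274

theorem d0ka_det {n : ℕ} (L : E n →L[ℂ] E n) :
    ENNReal.ofReal |(L.restrictScalars ℝ).det| = ‖L.det‖ₑ ^ 2 := by
  have h : (L.restrictScalars ℝ).det = Complex.normSq L.det := by
    rw [← Algebra.norm_complex_apply]
    exact LinearMap.det_restrictScalars (R := ℝ) (S := ℂ) (f := (L : E n →ₗ[ℂ] E n))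
  rw [h, abs_of_nonneg (Complex.normSq_nonneg _), Complex.normSq_eq_norm_sq,
    ENNReal.ofReal_pow (norm_nonneg _), ofReal_norm]

theorem d0ka_pieces {n : ℕ} {S : Set (E n)} (hS : IsOpen S) {f : E n → E n}
    (hf : DifferentiableOn ℂ f S) : ∃ P : ℕ → Set (E n), (∀ k, MeasurableSet (P k)) ∧
      Pairwise (Function.onFun Disjoint P) ∧ (∀ k, InjOn f (P k)) ∧
      ∀ w ∈ S, (fderiv ℂ f w).det ≠ 0 → w ∈ ⋃ k, P k := by
  have hc : (insert ∅ {U | U ∈ TopologicalSpace.countableBasis (E n) ∧ InjOn f U}).Countable :=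
    ((TopologicalSpace.countable_countableBasis (E n)).mono fun U hU => hU.1).insert _
  obtain ⟨U, hU⟩ := hc.exists_eq_range (insert_nonempty _ _)
  have h1 : ∀ k, IsOpen (U k) ∧ InjOn f (U k) := by
    intro k
    have : U k ∈ insert ∅ {U | U ∈ TopologicalSpace.countableBasis (E n) ∧ InjOn f U} :=
      hU ▸ mem_range_self k
    rcases this with h | h
    · rw [h]; exact ⟨isOpen_empty, injOn_empty f⟩
    · exact ⟨TopologicalSpace.isOpen_of_mem_countableBasis h.1, h.2⟩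
  refine ⟨disjointed U, fun k => MeasurableSet.disjointed (fun k => (h1 k).1.measurableSet) k,
    disjoint_disjointed U, fun k => (h1 k).2.mono (disjointed_subset U k), fun w hw h0 => ?_⟩
  rw [iUnion_disjointed]
  obtain ⟨Ψ, -, hl, -, -⟩ := exists_analytic_inverse rfl
    (P278F.analyticOnNhd_of_differentiableOn hS hf w hw) (fun v hv => by
      by_contra hne
      refine h0 (LinearMap.det_eq_zero_iff_ker_ne_bot.2 fun hb => hne ?_)
      exact (Submodule.eq_bot_iff _).1 hb v hv)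
  obtain ⟨V, hV, hwV, hsub⟩ :=
    (TopologicalSpace.isBasis_countableBasis (E n)).mem_nhds_iff.1 hl
  have h2 : V ∈ range U := by
    rw [← hU]
    refine Or.inr ⟨hV, fun a ha b hb hab => ?_⟩
    have e1 : Ψ (f a) = a := hsub ha
    have e2 : Ψ (f b) = b := hsub hb
    rw [← e1, hab, e2]
  obtain ⟨k, rfl⟩ := h2
  exact mem_iUnion.2 ⟨k, hwV⟩

theorem area_bound {n : ℕ} {ι : Type*} [Countable ι] {S A B : Set (E n)} (hS : IsOpen S)
    (hA : MeasurableSet A) (hAS : A ⊆ S) (hB : MeasurableSet B) {f : ι → E n → E n}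
    (hf : ∀ i, DifferentiableOn ℂ (f i) S) (hfB : ∀ i, MapsTo (f i) A B) {D : ℕ}
    (hD : ∀ y, {p : ι × E n | p.2 ∈ A ∧ f p.1 p.2 = y}.Finite ∧
      {p : ι × E n | p.2 ∈ A ∧ f p.1 p.2 = y}.ncard ≤ D) :
    ∑' i, ∫⁻ w in A, ‖(fderiv ℂ (f i) w).det‖ₑ ^ 2 ≤ D * volume B := by
  choose P hPm hPd hPi hPc using fun i => d0ka_pieces hS (hf i)
  have hder : ∀ i k, ∀ w ∈ A ∩ P i k, HasFDerivWithinAt (f i)
      ((fderiv ℂ (f i) w).restrictScalars ℝ) (A ∩ P i k) w := fun i k w hw =>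
    (((hf i).differentiableAt (hS.mem_nhds (hAS hw.1))).hasFDerivAt.restrictScalars
      ℝ).hasFDerivWithinAt
  have hinj : ∀ i k, InjOn (f i) (A ∩ P i k) := fun i k => (hPi i k).mono inter_subset_right
  have hmeas : ∀ p : ι × ℕ, MeasurableSet (f p.1 '' (A ∩ P p.1 p.2)) := fun p =>
    measurable_image_of_fderivWithin (hA.inter (hPm _ _)) (hder _ _) (hinj _ _)
  have h1 : ∀ i, ∫⁻ w in A, ‖(fderiv ℂ (f i) w).det‖ₑ ^ 2 ≤
      ∑' k, volume (f i '' (A ∩ P i k)) := by
    intro i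
    have hU : MeasurableSet (⋃ k, A ∩ P i k) := MeasurableSet.iUnion fun k => hA.inter (hPm i k)
    calc ∫⁻ w in A, ‖(fderiv ℂ (f i) w).det‖ₑ ^ 2
        ≤ ∫⁻ w in ⋃ k, A ∩ P i k, ‖(fderiv ℂ (f i) w).det‖ₑ ^ 2 := by
          rw [← lintegral_indicator hA, ← lintegral_indicator hU]
          refine lintegral_mono fun w => ?_
          by_cases hw : w ∈ A
          · by_cases h0 : (fderiv ℂ (f i) w).det = 0
            · rw [indicator_of_mem hw, h0]
              simp
            · obtain ⟨k, hk⟩ := mem_iUnion.1 (hPc i w (hAS hw) h0)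
              have hm : w ∈ ⋃ k, A ∩ P i k := mem_iUnion.2 ⟨k, hw, hk⟩
              rw [indicator_of_mem hw, indicator_of_mem hm]
          · rw [indicator_of_notMem hw]
            exact zero_le
      _ ≤ ∑' k, ∫⁻ w in A ∩ P i k, ‖(fderiv ℂ (f i) w).det‖ₑ ^ 2 := lintegral_iUnion_le _ _
      _ = ∑' k, volume (f i '' (A ∩ P i k)) := by
          refine tsum_congr fun k => ?_
          rw [← lintegral_abs_det_fderiv_eq_addHaar_image volume (hA.inter (hPm i k))
            (hder i k) (hinj i k)]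
          simp only [d0ka_det]
  have h2 : ∀ y, ∑' p : ι × ℕ, (f p.1 '' (A ∩ P p.1 p.2)).indicator (1 : E n → ENNReal) y ≤
      B.indicator (fun _ => (D : ENNReal)) y := by
    intro y
    have e : ∑' p : ι × ℕ, (f p.1 '' (A ∩ P p.1 p.2)).indicator (1 : E n → ENNReal) y =
        ({p : ι × ℕ | y ∈ f p.1 '' (A ∩ P p.1 p.2)}.encard : ENNReal) := by
      rw [← ENNReal.tsum_set_one, tsum_subtype {p : ι × ℕ | y ∈ f p.1 '' (A ∩ P p.1 p.2)}
        (fun _ => (1 : ENNReal))]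
      refine tsum_congr fun p => ?_
      by_cases hp : y ∈ f p.1 '' (A ∩ P p.1 p.2)
      · have hp' : p ∈ {p : ι × ℕ | y ∈ f p.1 '' (A ∩ P p.1 p.2)} := hp
        rw [indicator_of_mem hp, indicator_of_mem hp']
        rfl
      · have hp' : p ∉ {p : ι × ℕ | y ∈ f p.1 '' (A ∩ P p.1 p.2)} := hp
        rw [indicator_of_notMem hp, indicator_of_notMem hp']
    rw [e]
    by_cases hy : y ∈ B
    · rw [indicator_of_mem hy]
      have hch : ∀ p : ι × ℕ, ∃ w, y ∈ f p.1 '' (A ∩ P p.1 p.2) →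
          w ∈ A ∩ P p.1 p.2 ∧ f p.1 w = y := by
        intro p
        by_cases hp : y ∈ f p.1 '' (A ∩ P p.1 p.2)
        · obtain ⟨w, hw⟩ := hp
          exact ⟨w, fun _ => hw⟩
        · exact ⟨y, fun h => absurd h hp⟩
      choose w hw using hch
      have h3 := encard_le_encard_of_injOn (s := {p : ι × ℕ | y ∈ f p.1 '' (A ∩ P p.1 p.2)})
        (t := {p : ι × E n | p.2 ∈ A ∧ f p.1 p.2 = y}) (f := fun p => (p.1, w p))
        (fun p hp => ⟨(hw p hp).1.1, (hw p hp).2⟩) (by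
          rintro ⟨i, k⟩ hp ⟨j, l⟩ hq hpq
          obtain ⟨rfl, h4⟩ := Prod.mk.inj hpq
          by_cases hkl : k = l
          · rw [hkl]
          · exact absurd (h4 ▸ (hw _ hp).1.2 : w (i, l) ∈ P i k)
              (disjoint_right.1 (hPd i hkl) (hw _ hq).1.2))
      rw [← (hD y).1.cast_ncard_eq] at h3
      have h5 : ({p : ι × ℕ | y ∈ f p.1 '' (A ∩ P p.1 p.2)}.encard) ≤ (D : ℕ∞) :=
        h3.trans (by exact_mod_cast (hD y).2)
      exact_mod_cast ENat.toENNReal_le.2 h5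
    · have : {p : ι × ℕ | y ∈ f p.1 '' (A ∩ P p.1 p.2)} = ∅ := by
        refine eq_empty_of_forall_notMem fun p hp => ?_
        obtain ⟨w, hw, rfl⟩ := hp
        exact hy (hfB _ hw.1)
      rw [this]
      simp
  calc ∑' i, ∫⁻ w in A, ‖(fderiv ℂ (f i) w).det‖ₑ ^ 2
      ≤ ∑' i, ∑' k, volume (f i '' (A ∩ P i k)) := ENNReal.tsum_le_tsum h1
    _ = ∑' p : ι × ℕ, volume (f p.1 '' (A ∩ P p.1 p.2)) :=
        (ENNReal.tsum_prod (f := fun i k => volume (f i '' (A ∩ P i k)))).symm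
    _ = ∑' p : ι × ℕ, ∫⁻ y, (f p.1 '' (A ∩ P p.1 p.2)).indicator 1 y :=
        tsum_congr fun p => (lintegral_indicator_one (hmeas p)).symm
    _ = ∫⁻ y, ∑' p : ι × ℕ, (f p.1 '' (A ∩ P p.1 p.2)).indicator 1 y :=
        (lintegral_tsum fun p => (measurable_one.indicator (hmeas p)).aemeasurable).symm
    _ ≤ ∫⁻ y, B.indicator (fun _ => (D : ENNReal)) y := lintegral_mono h2
    _ = D * volume B := lintegral_indicator_const hB _

end Vale.Agent.P274
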