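import Vale.Agent.P274.D0KDefs
import Vale.Agent.P274.D0Ka

/-! Convergence of the Poincaré series in the mean. -/

open Metric Set Filter Topology MeasureTheory

namespace Vale.Agent.P274.AM

variable {N n : ℕ} (M : AM N n)

theorem pc_analytic (γ : M.Aut) (x : M.X) : AnalyticOnNhd ℂ (M.pc γ x) (ball 0 (M.r x)) :=
  fun _ hw => (P278F.analyticOnNhd_of_differentiableOn isOpen_univ
    M.A.π_diff.differentiableOn _ (mem_univ _)).comp (M.analyticAt_smul_ψ γ x hw)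

theorem pc_diff (γ : M.Aut) (x : M.X) : DifferentiableOn ℂ (M.pc γ x) (ball 0 (M.r x)) :=
  (M.pc_analytic γ x).differentiableOn

theorem kb_det_analytic {A : E n → (E n →L[ℂ] E n)} {w : E n} (hA : AnalyticAt ℂ A w) :
    AnalyticAt ℂ (fun u => (A u).det) w := by
  have h : (fun u => (A u).det) = fun u => (Matrix.of fun i j => A u (eb j) i).det := by
    funext u
    rw [ContinuousLinearMap.det, ← LinearMap.det_toMatrix']
    congr 1
  rw [h]
  simp only [Matrix.det_apply']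
  refine Finset.analyticAt_fun_sum _ fun s _ => analyticAt_const.mul
    (Finset.analyticAt_fun_prod _ fun i _ => ?_)
  exact ((ContinuousLinearMap.proj (R := ℂ) (φ := fun _ : Fin n => ℂ) (s i)).analyticAt _).comp
    (((ContinuousLinearMap.apply ℂ (E n) (eb i)).analyticAt _).comp hA)

theorem jac_diff (γ : M.Aut) (x : M.X) : DifferentiableOn ℂ (M.jac γ x) (ball 0 (M.r x)) :=
  fun w hw => (kb_det_analytic
    ((M.pc_analytic γ x).fderiv w hw)).differentiableAt.differentiableWithinAt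

theorem kb_coord_diff (γ : M.Aut) (x : M.X) (m : Fin N) {w : E n}
    (hw : w ∈ ball (0 : E n) (M.r x)) :
    DifferentiableAt ℂ (fun w => M.ι (γ • M.ψ x w) m) w :=
  differentiableAt_pi.1 (M.analyticAt_smul_ψ γ x hw).differentiableAt m

theorem hh_diff (x : M.X) (i : M.Γ × Option (Fin N)) :
    DifferentiableOn ℂ (M.hh x i) (ball 0 (M.r x)) := by
  obtain ⟨γ, _ | m⟩ := i
  · exact (M.jac_diff γ.1 x).mul (differentiableOn_const 1)
  · exact (M.jac_diff γ.1 x).mul fun w hw => (M.kb_coord_diff γ.1 x m hw).differentiableWithinAt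

theorem kb_mult (x : M.X) {s : ℝ} (hs : s < M.r x) : ∃ D : ℕ, ∀ y,
    {p : M.Γ × E n | p.2 ∈ closedBall (0 : E n) s ∧ M.pc p.1.1 x p.2 = y}.Finite ∧
      {p : M.Γ × E n | p.2 ∈ closedBall (0 : E n) s ∧ M.pc p.1.1 x p.2 = y}.ncard ≤ D := by
  classical
  have hP := M.pd _ (M.isCompact_image_closedBall x hs)
  set P := {γ : M.Aut | γ ∈ M.Γ ∧ ∃ z ∈ M.ψ x '' closedBall 0 s, γ • z ∈ M.ψ x '' closedBall 0 s}
  refine ⟨M.A.e * P.ncard, fun y => ?_⟩
  set Q := {p : M.Γ × E n | p.2 ∈ closedBall (0 : E n) s ∧ M.pc p.1.1 x p.2 = y}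
  let pt : M.Γ × E n → M.X := fun p => p.1.1 • M.ψ x p.2
  let b : M.X → M.Aut := fun z => if h : ∃ p ∈ Q, pt p = z then h.choose.1.1 else 1
  let φ : M.Γ × E n → E N × M.Aut := fun p => (M.ι (pt p), (p.1.1)⁻¹ * b (pt p))
  have hmap : MapsTo φ Q ((M.A.Z ∩ M.A.π ⁻¹' {y}) ×ˢ P) := by
    intro p hp
    have h : ∃ p' ∈ Q, pt p' = pt p := ⟨p, hp, rfl⟩
    obtain ⟨O, -, hU⟩ := M.U_open
    refine ⟨⟨(hU ▸ (pt p).2 : (pt p).1 ∈ M.A.Z ∩ O).1, hp.2⟩, ?_⟩
    have hb : b (pt p) = h.choose.1.1 := dif_pos h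
    refine ⟨?_, M.ψ x h.choose.2, ⟨_, h.choose_spec.1.1, rfl⟩, p.2, hp.1, ?_⟩
    · simp only [φ, hb]
      exact M.Γ.mul_mem (M.Γ.inv_mem p.1.2) h.choose.1.2
    · simp only [φ, hb]
      rw [mul_smul]
      have h2 : h.choose.1.1 • M.ψ x h.choose.2 = p.1.1 • M.ψ x p.2 := h.choose_spec.2
      rw [h2, inv_smul_smul]
  have hinj : InjOn φ Q := by
    intro p hp p' hp' h
    have h1 : pt p = pt p' := Subtype.ext (congrArg Prod.fst h)
    have h2 : (p.1.1)⁻¹ * b (pt p) = (p'.1.1)⁻¹ * b (pt p') := congrArg Prod.snd h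
    rw [h1, mul_left_inj, inv_inj] at h2
    have h3 : M.ψ x p.2 = M.ψ x p'.2 := by
      simp only [pt, h2] at h1
      exact MulAction.injective _ h1
    refine Prod.ext (Subtype.ext h2) ?_
    rw [← M.co_ψ x (closedBall_subset_ball hs hp.1), h3, M.co_ψ x (closedBall_subset_ball hs hp'.1)]
  have hfin := (M.A.fib y).1.prod hP
  refine ⟨Finite.of_injOn hmap hinj hfin, (ncard_le_ncard_of_injOn φ hmap hinj hfin).trans ?_⟩
  rw [ncard_prod]
  exact Nat.mul_le_mul_right _ (M.A.fib y).2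

theorem hh_sum_lt_top (x : M.X) {s : ℝ} (hs : s < M.r x) :
    ∑' i, ∫⁻ w in closedBall (0 : E n) s, ‖M.hh x i w‖ₑ ^ 2 < ⊤ := by
  obtain ⟨R, hR, hb⟩ := M.exists_bound
  obtain ⟨D, hD⟩ := M.kb_mult x hs
  have : Countable M.Γ := M.countable_Γ.to_subtype
  have hB : IsCompact (M.A.π '' closedBall 0 R) :=
    (isCompact_closedBall _ _).image M.A.π_diff.continuous
  have h1 := area_bound (f := fun γ : M.Γ => M.pc γ.1 x) isOpen_ball measurableSet_closedBall
    (closedBall_subset_ball hs) hB.measurableSet (fun γ => M.pc_diff γ.1 x)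
    (fun γ w _ => ⟨_, mem_closedBall_zero_iff.2 (hb _), rfl⟩) hD
  have h2 : ∀ i : M.Γ × Option (Fin N), ∫⁻ w in closedBall (0 : E n) s, ‖M.hh x i w‖ₑ ^ 2 ≤
      ENNReal.ofReal (R + 1) ^ 2 * ∫⁻ w in closedBall (0 : E n) s, ‖M.jac i.1.1 x w‖ₑ ^ 2 := by
    intro i
    rw [← lintegral_const_mul' _ _ (ENNReal.pow_ne_top ENNReal.ofReal_ne_top)]
    refine lintegral_mono fun w => ?_
    simp only [hh]
    rw [enorm_mul, mul_pow, mul_comm]
    gcongr
    rw [← ofReal_norm]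
    refine ENNReal.ofReal_le_ofReal ?_
    obtain ⟨γ, _ | m⟩ := i
    · simp [hR.le]
    · exact ((norm_le_pi_norm _ m).trans (hb _)).trans (by linarith)
  refine (ENNReal.tsum_le_tsum h2).trans_lt ?_
  rw [ENNReal.tsum_mul_left, ENNReal.tsum_prod']
  refine ENNReal.mul_lt_top (ENNReal.pow_lt_top ENNReal.ofReal_lt_top) ?_
  simp only [tsum_fintype, Finset.sum_const, nsmul_eq_mul]
  rw [ENNReal.tsum_mul_left]
  exact ENNReal.mul_lt_top (ENNReal.natCast_lt_top _)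
    (h1.trans_lt (ENNReal.mul_lt_top (ENNReal.natCast_lt_top _) hB.measure_lt_top))

end Vale.Agent.P274.AM
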