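import Vale.Agent.P274.B2
import Vale.Agent.P274.B7
import Vale.Agent.P274.D0Ka

/-! A family of holomorphic functions, square summable in the mean, is a holomorphic map to `ℓ²`. -/

open Metric Set Filter Topology MeasureTheory

namespace Vale.Agent.P274

theorem d0kc_circle {n : ℕ} {ρ : ℝ} {g : E n → ℂ} {w : E n} {S : Set (E n)}
    (hS : IsOpen S) (hw : closedBall w ρ ⊆ S) (hg : DifferentiableOn ℂ g S) {h : E n}
    (hh : h ∈ closedBall (0 : E n) ρ) :
    ‖g w‖ₑ ^ 2 * ENNReal.ofReal (2 * Real.pi) ≤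
      ∫⁻ θ in Ioc (0 : ℝ) (2 * Real.pi), ‖g (w + ce θ • h)‖ₑ ^ 2 := by
  have hc : Continuous fun ζ : ℂ => w + ζ • h := by fun_prop
  have h1 : closedBall (0 : ℂ) 1 ⊆ (fun ζ : ℂ => w + ζ • h) ⁻¹' S := by
    intro ζ hζ
    apply hw
    rw [mem_closedBall, dist_eq_norm, add_sub_cancel_left, norm_smul]
    exact (mul_le_of_le_one_left (norm_nonneg _) (mem_closedBall_zero_iff.1 hζ)).trans
      (mem_closedBall_zero_iff.1 hh)
  obtain ⟨δ, hδ, h2⟩ := (isCompact_closedBall (0 : ℂ) 1).exists_thickening_subset_open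
    (hS.preimage hc) h1
  rw [thickening_closedBall hδ zero_le_one] at h2
  have h3 := sq_le_cmean (f := fun ζ : ℂ => g (w + ζ • h)) (R := δ + 1) (by linarith)
    (hg.comp (by fun_prop) h2)
  have hp : 0 < 2 * Real.pi := by positivity
  simp only [zero_smul, add_zero, cmean] at h3
  rw [intervalIntegral.integral_of_le hp.le, le_inv_mul_iff₀ hp] at h3
  have h4 : ‖g w‖ ^ 2 * (2 * Real.pi) ≤
      ∫ θ in Ioc (0 : ℝ) (2 * Real.pi), ‖g (w + ce θ • h)‖ ^ 2 := by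
    nlinarith [sq_nonneg ‖deriv (fun ζ : ℂ => g (w + ζ • h)) 0‖]
  calc ‖g w‖ₑ ^ 2 * ENNReal.ofReal (2 * Real.pi)
      = ENNReal.ofReal (‖g w‖ ^ 2 * (2 * Real.pi)) := by
        rw [ENNReal.ofReal_mul (sq_nonneg _), ENNReal.ofReal_pow (norm_nonneg _), ofReal_norm]
    _ ≤ ‖∫ θ in Ioc (0 : ℝ) (2 * Real.pi), ‖g (w + ce θ • h)‖ ^ 2‖ₑ :=
        (ENNReal.ofReal_le_ofReal h4).trans (Real.ofReal_le_enorm _)
    _ ≤ ∫⁻ θ in Ioc (0 : ℝ) (2 * Real.pi), ‖‖g (w + ce θ • h)‖ ^ 2‖ₑ :=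
        enorm_integral_le_lintegral_enorm _
    _ = _ := by simp only [enorm_pow, enorm_norm]

theorem d0kc_rot {n : ℕ} (ρ : ℝ) (G : E n → ENNReal) (w : E n) {c : ℂ} (hc : ‖c‖ = 1) :
    ∫⁻ h in closedBall (0 : E n) ρ, G (w + c • h) ≤ ∫⁻ u in closedBall w ρ, G u := by
  have hc0 : c ≠ 0 := by
    intro h
    rw [h, norm_zero] at hc
    exact zero_ne_one hc
  have h1 := lintegral_image_eq_lintegral_abs_det_fderiv_mul (volume : Measure (E n))
    (s := closedBall (0 : E n) ρ) (f := fun h => w + c • h)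
    (f' := fun _ => (c • ContinuousLinearMap.id ℂ (E n)).restrictScalars ℝ)
    measurableSet_closedBall
    (fun x _ => ((((hasFDerivAt_id (𝕜 := ℂ) x).const_smul c).const_add w).restrictScalars
      ℝ).hasFDerivWithinAt)
    (fun a _ b _ hab => smul_right_injective _ hc0 (add_left_cancel hab)) G
  have h2 : ‖(c • ContinuousLinearMap.id ℂ (E n)).det‖ₑ ^ 2 = 1 := by
    have : (c • ContinuousLinearMap.id ℂ (E n)).det = c ^ Module.finrank ℂ (E n) := by
      change LinearMap.det (c • (LinearMap.id : E n →ₗ[ℂ] E n)) = _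
      rw [LinearMap.det_smul, LinearMap.det_id, mul_one]
    rw [this, ← ofReal_norm, norm_pow, hc]
    simp
  simp only [d0ka_det, h2, one_mul] at h1
  rw [← h1]
  refine lintegral_mono_set ?_
  rintro _ ⟨h, hh, rfl⟩
  rw [mem_closedBall, dist_eq_norm, add_sub_cancel_left, norm_smul, hc, one_mul]
  exact mem_closedBall_zero_iff.1 hh

theorem sq_le_lintegral {n : ℕ} {ρ : ℝ} (hρ : 0 < ρ) {g : E n → ℂ} {w : E n} {S : Set (E n)}
    (hS : IsOpen S) (hw : closedBall w ρ ⊆ S) (hg : DifferentiableOn ℂ g S) :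
    ‖g w‖ₑ ^ 2 * volume (closedBall (0 : E n) ρ) ≤ ∫⁻ u in closedBall w ρ, ‖g u‖ₑ ^ 2 := by
  have hp : 0 < 2 * Real.pi := by positivity
  have hm : AEMeasurable
      (Function.uncurry fun (h : E n) (θ : ℝ) => ‖g (w + ce θ • h)‖ₑ ^ 2)
      ((volume.restrict (closedBall (0 : E n) ρ)).prod
        (volume.restrict (Ioc (0 : ℝ) (2 * Real.pi)))) := by
    rw [Measure.prod_restrict]
    have hc : Continuous fun p : E n × ℝ => w + ce p.2 • p.1 :=
      continuous_const.add ((continuous_ce.comp continuous_snd).smul continuous_fst)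
    have h1 : ContinuousOn (fun p : E n × ℝ => g (w + ce p.2 • p.1))
        (closedBall (0 : E n) ρ ×ˢ Ioc (0 : ℝ) (2 * Real.pi)) := by
      refine hg.continuousOn.comp hc.continuousOn fun p hp => hw ?_
      rw [mem_closedBall, dist_eq_norm, add_sub_cancel_left, norm_smul, norm_ce, one_mul]
      exact mem_closedBall_zero_iff.1 hp.1
    exact (h1.aemeasurable (measurableSet_closedBall.prod measurableSet_Ioc)).enorm.pow_const 2
  have h1 : ‖g w‖ₑ ^ 2 * volume (closedBall (0 : E n) ρ) * ENNReal.ofReal (2 * Real.pi) ≤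
      (∫⁻ u in closedBall w ρ, ‖g u‖ₑ ^ 2) * ENNReal.ofReal (2 * Real.pi) := by
    calc ‖g w‖ₑ ^ 2 * volume (closedBall (0 : E n) ρ) * ENNReal.ofReal (2 * Real.pi)
        = ∫⁻ _ in closedBall (0 : E n) ρ, ‖g w‖ₑ ^ 2 * ENNReal.ofReal (2 * Real.pi) := by
          rw [setLIntegral_const, mul_right_comm]
      _ ≤ ∫⁻ h in closedBall (0 : E n) ρ, ∫⁻ θ in Ioc (0 : ℝ) (2 * Real.pi),
            ‖g (w + ce θ • h)‖ₑ ^ 2 :=
          setLIntegral_mono' measurableSet_closedBall fun h hh => d0kc_circle hS hw hg hh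
      _ = ∫⁻ θ in Ioc (0 : ℝ) (2 * Real.pi), ∫⁻ h in closedBall (0 : E n) ρ,
            ‖g (w + ce θ • h)‖ₑ ^ 2 := lintegral_lintegral_swap hm
      _ ≤ ∫⁻ _ in Ioc (0 : ℝ) (2 * Real.pi), ∫⁻ u in closedBall w ρ, ‖g u‖ₑ ^ 2 :=
          lintegral_mono fun θ => d0kc_rot ρ (fun u => ‖g u‖ₑ ^ 2) w (norm_ce θ)
      _ = _ := by rw [setLIntegral_const, Real.volume_Ioc, sub_zero]
  exact (ENNReal.mul_le_mul_iff_left (ENNReal.ofReal_pos.2 hp).ne' ENNReal.ofReal_ne_top).1 h1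

theorem d0kc_bound {n : ℕ} {ι : Type*} {R : ℝ} {f : ι → E n → ℂ}
    (hf : ∀ i, DifferentiableOn ℂ (f i) (ball 0 R))
    (hs : ∀ s < R, ∑' i, ∫⁻ w in closedBall (0 : E n) s, ‖f i w‖ₑ ^ 2 < ⊤) {p : E n}
    (hp : p ∈ ball (0 : E n) R) : ∃ C : ℝ, ∃ t ∈ 𝓝 p, t ⊆ ball (0 : E n) R ∧
      ∀ w ∈ t, ∀ T : Finset ι, ∑ i ∈ T, ‖f i w‖ ^ 2 ≤ C := by
  have hp' := mem_ball_zero_iff.1 hp
  obtain ⟨ρ, hρ, hρ0⟩ : ∃ ρ : ℝ, ρ = (R - ‖p‖) / 3 ∧ 0 < ρ := ⟨_, rfl, by linarith⟩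
  have hsR : ‖p‖ + 2 * ρ < R := by linarith
  have hV0 : volume (closedBall (0 : E n) ρ) ≠ 0 := (measure_closedBall_pos _ _ hρ0).ne'
  have hVt : volume (closedBall (0 : E n) ρ) ≠ ⊤ := measure_closedBall_lt_top.ne
  have hsub : ∀ w ∈ ball p ρ, closedBall w ρ ⊆ closedBall (0 : E n) (‖p‖ + 2 * ρ) := by
    intro w hw
    refine closedBall_subset_closedBall' ?_
    have h1 := dist_triangle w p 0
    rw [dist_zero_right p] at h1
    linarith [mem_ball.1 hw]
  refine ⟨((∑' i, ∫⁻ w in closedBall (0 : E n) (‖p‖ + 2 * ρ), ‖f i w‖ₑ ^ 2) /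
    volume (closedBall (0 : E n) ρ)).toReal, ball p ρ, ball_mem_nhds _ hρ0,
    fun w hw => closedBall_subset_ball hsR (hsub w hw (mem_closedBall_self hρ0.le)),
    fun w hw T => ?_⟩
  rw [← ENNReal.ofReal_le_iff_le_toReal (ENNReal.div_lt_top (hs _ hsR).ne hV0).ne,
    ENNReal.le_div_iff_mul_le (Or.inl hV0) (Or.inl hVt),
    ENNReal.ofReal_sum_of_nonneg (fun i _ => sq_nonneg _), Finset.sum_mul]
  refine le_trans (Finset.sum_le_sum fun i _ => ?_) (ENNReal.sum_le_tsum T)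
  rw [ENNReal.ofReal_pow (norm_nonneg _), ofReal_norm]
  exact (sq_le_lintegral hρ0 isOpen_ball ((hsub w hw).trans (closedBall_subset_ball hsR))
    (hf i)).trans (lintegral_mono_set (hsub w hw))

theorem exists_lp_map {n : ℕ} {ι : Type*} {R : ℝ} {f : ι → E n → ℂ}
    (hf : ∀ i, DifferentiableOn ℂ (f i) (ball 0 R))
    (hs : ∀ s < R, ∑' i, ∫⁻ w in closedBall (0 : E n) s, ‖f i w‖ₑ ^ 2 < ⊤) :
    ∃ F : E n → lp (fun _ : ι => ℂ) 2, DifferentiableOn ℂ F (ball 0 R) ∧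
      ∀ w ∈ ball (0 : E n) R, (∀ i, F w i = f i w) ∧ Summable (fun i => ‖f i w‖ ^ 2) ∧
        ‖F w‖ ^ 2 = ∑' i, ‖f i w‖ ^ 2 ∧
        ∀ i v, fderiv ℂ F w v i = fderiv ℂ (f i) w v := by
  classical
  have e2 : ∀ x : ℝ, x ^ (2 : ENNReal).toReal = x ^ 2 := fun x => by
    rw [ENNReal.toReal_ofNat, Real.rpow_two]
  have h2 : 0 < (2 : ENNReal).toReal := by norm_num
  have hmem : ∀ w ∈ ball (0 : E n) R, Memℓp (fun i => f i w) 2 := by
    intro w hw
    obtain ⟨C, t, ht, -, h⟩ := d0kc_bound hf hs hw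
    refine memℓp_gen' (C := C) fun T => ?_
    simp only [e2]
    exact h w (mem_of_mem_nhds ht) T
  obtain ⟨F, hF⟩ : ∃ F : E n → lp (fun _ : ι => ℂ) 2,
      ∀ w ∈ ball (0 : E n) R, ∀ i, F w i = f i w := by
    refine ⟨fun w => if h : Memℓp (fun i => f i w) 2 then ⟨fun i => f i w, h⟩ else 0,
      fun w hw i => ?_⟩
    simp only [dif_pos (hmem w hw)]
  have hd : DifferentiableOn ℂ F (ball 0 R) := by
    refine (vitali (l := (atTop : Filter (Finset ι))) isOpen_ball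
      (f := fun T w => ∑ i ∈ T, lp.single 2 i (f i w)) (fun p hp => ?_) fun p hp => ?_).1
    · obtain ⟨C, t, ht, hsub, h⟩ := d0kc_bound hf hs hp
      refine ⟨√C, t, ht, Eventually.of_forall fun T => ⟨?_, fun w hw => ?_⟩⟩
      · refine DifferentiableOn.fun_sum fun i _ => ?_
        exact (lp.singleContinuousLinearMap ℂ (fun _ : ι => ℂ) 2 i).differentiable.comp_differentiableOn
          ((hf i).mono hsub)
      · refine Real.le_sqrt_of_sq_le ?_
        have := lp.norm_sum_single (E := fun _ : ι => ℂ) h2 (fun i => f i w) T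
        simp only [e2] at this
        rw [this]
        exact h w hw T
    · have := lp.hasSum_single (E := fun _ : ι => ℂ) (p := 2) (by norm_num) (F p)
      simp only [hF p hp] at this
      exact this
  refine ⟨F, hd, fun w hw => ⟨hF w hw, ?_, ?_, fun i v => ?_⟩⟩
  · have := (lp.hasSum_norm h2 (F w)).summable
    simpa only [e2, hF w hw] using this
  · have := (lp.hasSum_norm h2 (F w)).tsum_eq
    simp only [e2, hF w hw] at this
    exact this.symm
  · have h1 := HasFDerivAt.comp (g := lp.evalCLM ℂ (fun _ : ι => ℂ) 2 i) w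
      (lp.evalCLM ℂ (fun _ : ι => ℂ) 2 i).hasFDerivAt
      (hd.differentiableAt (isOpen_ball.mem_nhds hw)).hasFDerivAt
    have h3 : f i =ᶠ[𝓝 w] (lp.evalCLM ℂ (fun _ : ι => ℂ) 2 i) ∘ F := by
      filter_upwards [isOpen_ball.mem_nhds hw] with u hu
      exact (hF u hu i).symm
    rw [(h1.congr_of_eventuallyEq h3).fderiv]
    rfl

end Vale.Agent.P274
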