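import Vale.Agent.P274.D0a

/-! Module D0: pointwise calculus of the complex Hessian.
Use P271A/Basic.lean: eX_congr, eX_congr_ev, contDiffAt_eX, eX_add, eX_mul, eX_const, eX_comm, conj_eX,
zv_conj, bv_conj. For second derivatives first get an eventual equality of the inner derivative
(ContDiffAt.eventually). adjugate entries: adjugate_apply, det_apply', ContDiffAt.sum, contDiffAt_prod,
split updateRow_apply. lev_eq: the sum of v a * eX (zv a) F is eX (v/2, -I v/2) F for every F (real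
linearity of fderiv; write v = sum of Pi.single), likewise for bv with conj (v b); then unfold and take
real parts (fderiv of ofReal . g is ofRealCLM.comp). posDef: PosDef.of_dotProduct_mulVec_pos with
v = star x; the imaginary part vanishes for a Hermitian matrix. -/

open Metric Set Filter Topology MeasureTheory Matrix
open scoped ContDiff ComplexOrder

namespace Vale.Agent.P274

open P271A (eX zv bv)

variable {n : ℕ} {f g φ : E n → ℂ} {w : E n}

theorem D0b_ev (hf : ContDiffAt ℝ ∞ f w) : ∀ᶠ z in 𝓝 w, DifferentiableAt ℝ f z :=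
  ((hf.of_le (m := 1) (by simp)).eventually (by simp)).mono fun _ h =>
    h.differentiableAt (by simp)

theorem D0b_diff (hf : ContDiffAt ℝ ∞ f w) : DifferentiableAt ℝ f w :=
  hf.differentiableAt (by simp)

theorem eX_sum {ι : Type*} (ξ : E n × E n) (s : Finset ι) {F : ι → E n → ℂ}
    (hF : ∀ i ∈ s, DifferentiableAt ℝ (F i) w) :
    eX ξ (fun z => ∑ i ∈ s, F i z) w = ∑ i ∈ s, eX ξ (F i) w := by
  simp only [eX, fderiv_fun_sum hF, _root_.sum_apply, Finset.sum_add_distrib,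
    Finset.mul_sum]

theorem Hs_congr (h : f =ᶠ[𝓝 w] g) : Hs f w = Hs g w := by
  ext a b
  exact P271A.eX_congr (P271A.eX_congr_ev h)

theorem Hs_const (c : ℂ) (w : E n) : Hs (fun _ => c) w = 0 := by
  ext a b
  have : eX (bv b) (fun _ : E n => c) = fun _ => 0 := funext (P271A.eX_const _ c)
  simp only [Hs, of_apply, this, P271A.eX_const, Matrix.zero_apply]

theorem Hs_add (hf : ContDiffAt ℝ ∞ f w) (hg : ContDiffAt ℝ ∞ g w) :
    Hs (fun z => f z + g z) w = Hs f w + Hs g w := by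
  ext a b
  have e : eX (bv b) (fun z => f z + g z) =ᶠ[𝓝 w] fun z => eX (bv b) f z + eX (bv b) g z := by
    filter_upwards [D0b_ev hf, D0b_ev hg] with z h1 h2 using P271A.eX_add h1 h2
  simp only [Hs, of_apply, Matrix.add_apply]
  rw [P271A.eX_congr e, P271A.eX_add (D0b_diff (P271A.contDiffAt_eX hf))
    (D0b_diff (P271A.contDiffAt_eX hg))]

theorem Hs_sum {ι : Type*} (s : Finset ι) {F : ι → E n → ℂ}
    (hF : ∀ i ∈ s, ContDiffAt ℝ ∞ (F i) w) :
    Hs (fun z => ∑ i ∈ s, F i z) w = ∑ i ∈ s, Hs (F i) w := by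
  classical
  induction s using Finset.induction_on with
  | empty => simpa using Hs_const 0 w
  | insert a s ha ih =>
    simp only [Finset.sum_insert ha]
    rw [Hs_add (hF a (by simp)) (ContDiffAt.sum fun i hi => hF i (by simp [hi])),
      ih fun i hi => hF i (by simp [hi])]

theorem contDiffAt_Hs (hg : ContDiffAt ℝ ∞ g w) (a b : Fin n) :
    ContDiffAt ℝ ∞ (fun z => Hs g z a b) w :=
  P271A.contDiffAt_eX (P271A.contDiffAt_eX hg)

theorem D0b_det {A : E n → Matrix (Fin n) (Fin n) ℂ}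
    (h : ∀ a b, ContDiffAt ℝ ∞ (fun z => A z a b) w) :
    ContDiffAt ℝ ∞ (fun z => (A z).det) w := by
  simp only [det_apply']
  exact ContDiffAt.sum fun σ _ => contDiffAt_const.mul (contDiffAt_prod fun i _ => h _ _)

theorem contDiffAt_det (hg : ContDiffAt ℝ ∞ g w) : ContDiffAt ℝ ∞ (fun z => (Hs g z).det) w :=
  D0b_det (contDiffAt_Hs hg)

theorem contDiffAt_adj (hg : ContDiffAt ℝ ∞ g w) (a b : Fin n) :
    ContDiffAt ℝ ∞ (fun z => (Hs g z).adjugate a b) w := by
  simp only [adjugate_apply]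
  refine D0b_det fun c d => ?_
  simp only [updateRow_apply]
  split_ifs
  · exact contDiffAt_const
  · exact contDiffAt_Hs hg c d

theorem contDiffAt_Lop (hφ : ContDiffAt ℝ ∞ φ w) (hg : ContDiffAt ℝ ∞ g w) :
    ContDiffAt ℝ ∞ (Lop φ g) w := by
  have e : Lop φ g = fun z => ∑ a, ∑ b, (Hs φ z).adjugate a b * Hs g z b a := by
    funext z
    simp only [Lop, trace, diag_apply, mul_apply]
  rw [e]
  exact ContDiffAt.sum fun a _ => ContDiffAt.sum fun b _ =>
    (contDiffAt_adj hφ a b).mul (contDiffAt_Hs hg b a)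

theorem Lop_congr (φ : E n → ℂ) (h : f =ᶠ[𝓝 w] g) : Lop φ f w = Lop φ g w := by
  simp only [Lop, Hs_congr h]

theorem Lop_of_const (φ : E n → ℂ) {c : ℂ} (h : ∀ᶠ z in 𝓝 w, g z = c) : Lop φ g w = 0 := by
  rw [Lop_congr φ (g := fun _ => c) h, Lop, Hs_const, Matrix.mul_zero, trace_zero]

theorem Lop_sum {ι : Type*} (φ : E n → ℂ) (s : Finset ι) {F : ι → E n → ℂ}
    (hF : ∀ i ∈ s, ContDiffAt ℝ ∞ (F i) w) :
    Lop φ (fun z => ∑ i ∈ s, F i z) w = ∑ i ∈ s, Lop φ (F i) w := by
  simp only [Lop, Hs_sum s hF, Matrix.mul_sum, trace_sum]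

theorem contDiffAt_ofReal {u : E n → ℝ} (hu : ContDiffAt ℝ ∞ u w) :
    ContDiffAt ℝ ∞ (fun z => (u z : ℂ)) w :=
  Complex.ofRealCLM.contDiff.contDiffAt.comp w hu

theorem Hs_herm {u : E n → ℝ} (hu : ContDiffAt ℝ ∞ u w) :
    (Hs (fun z => (u z : ℂ)) w).IsHermitian := by
  ext a c
  have e : (fun z => (starRingEnd ℂ) (eX (bv a) (fun z => (u z : ℂ)) z)) =
      eX (zv a) (fun z => (u z : ℂ)) := by
    funext z
    rw [P271A.conj_eX, P271A.bv_conj]
    simp only [Complex.conj_ofReal]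
  simp only [conjTranspose_apply, Hs, of_apply]
  change (starRingEnd ℂ) _ = _
  rw [P271A.conj_eX, P271A.zv_conj, e, P271A.eX_comm (contDiffAt_ofReal hu)]

theorem D0b_single (L : E n →L[ℝ] ℂ) (j : Fin n) (c : ℂ) :
    L (Pi.single j c) = c.re * L (Pi.single j 1) + c.im * L (Pi.single j Complex.I) := by
  have e : (Pi.single j c : E n) =
      c.re • (Pi.single j 1 : E n) + c.im • (Pi.single j Complex.I : E n) := by
    ext i
    by_cases hi : i = j
    · subst hi; simp
    · simp [hi]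
  rw [e, map_add, map_smul, map_smul]
  rfl

theorem D0b_vec (L : E n →L[ℝ] ℂ) (v : E n) : L v = ∑ j, L (Pi.single j (v j)) := by
  rw [← map_sum, Finset.univ_sum_single]

theorem D0b_z (L : E n →L[ℝ] ℂ) (v : E n) :
    ∑ a, v a * (L (zv a).1 + Complex.I * L (zv a).2) =
      (L v - Complex.I * L (Complex.I • v)) / 2 := by
  rw [D0b_vec L v, D0b_vec L (Complex.I • v), Finset.mul_sum, ← Finset.sum_sub_distrib,
    Finset.sum_div]
  refine Finset.sum_congr rfl fun a _ => ?_
  simp only [zv, Pi.smul_apply, smul_eq_mul]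
  rw [D0b_single L a (1 / 2), D0b_single L a (-Complex.I / 2), D0b_single L a (v a),
    D0b_single L a (Complex.I * v a)]
  have h := Complex.re_add_im (v a)
  generalize L (Pi.single a 1) = A
  generalize L (Pi.single a Complex.I) = B
  simp
  linear_combination (-(A - Complex.I * B) / 2) * h - (v a).im * B / 2 * Complex.I_mul_I

theorem D0b_b (L : E n →L[ℝ] ℂ) (v : E n) :
    ∑ a, (L (bv a).1 + Complex.I * L (bv a).2) * star (v a) =
      (L v + Complex.I * L (Complex.I • v)) / 2 := by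
  rw [D0b_vec L v, D0b_vec L (Complex.I • v), Finset.mul_sum, ← Finset.sum_add_distrib,
    Finset.sum_div]
  refine Finset.sum_congr rfl fun a _ => ?_
  simp only [bv, Pi.smul_apply, smul_eq_mul]
  rw [D0b_single L a (1 / 2), D0b_single L a (Complex.I / 2), D0b_single L a (v a),
    D0b_single L a (Complex.I * v a)]
  have h : star (v a) = (v a).re - (v a).im * Complex.I := by
    apply Complex.ext <;> simp
  rw [h]
  generalize L (Pi.single a 1) = A
  generalize L (Pi.single a Complex.I) = B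
  simp
  linear_combination (-(v a).im * B / 2) * Complex.I_mul_I

theorem D0b_second {u : E n → ℝ} (hu : ContDiffAt ℝ ∞ u w) (ζ : E n × E n) (x : E n) :
    fderiv ℝ (eX ζ fun z => (u z : ℂ)) w x =
      (fderiv ℝ (fderiv ℝ u) w x ζ.1 : ℝ) + Complex.I * (fderiv ℝ (fderiv ℝ u) w x ζ.2 : ℝ) := by
  have h1 : ContDiffAt ℝ ∞ (fderiv ℝ u) w := hu.fderiv_right (m := ∞) (by simp)
  have h2 : DifferentiableAt ℝ (fderiv ℝ u) w := h1.differentiableAt (by simp)
  have e : (eX ζ fun z => (u z : ℂ)) =ᶠ[𝓝 w] fun z =>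
      ((fderiv ℝ u z ζ.1 : ℝ) : ℂ) + Complex.I * ((fderiv ℝ u z ζ.2 : ℝ) : ℂ) := by
    filter_upwards [(hu.of_le (m := 1) (by simp)).eventually (by simp)] with z hz
    have := (Complex.ofRealCLM.hasFDerivAt.comp z
      (hz.differentiableAt (by simp)).hasFDerivAt).fderiv
    have e2 : fderiv ℝ (fun z => (u z : ℂ)) z = Complex.ofRealCLM.comp (fderiv ℝ u z) := this
    simp only [eX, e2, ContinuousLinearMap.comp_apply, Complex.ofRealCLM_apply]
  have ha := Complex.ofRealCLM.hasFDerivAt.comp w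
    (h2.hasFDerivAt.clm_apply (hasFDerivAt_const ζ.1 w))
  have hb := Complex.ofRealCLM.hasFDerivAt.comp w
    (h2.hasFDerivAt.clm_apply (hasFDerivAt_const ζ.2 w))
  have := (ha.add (hb.const_mul Complex.I)).fderiv
  rw [e.fderiv_eq]
  refine (congrArg (fun T : E n →L[ℝ] ℂ => T x) this).trans ?_
  simp

theorem lev_eq {u : E n → ℝ} (hu : ContDiffAt ℝ ∞ u w) (v : E n) :
    lev u w v = (fderiv ℝ (fderiv ℝ u) w v v +
      fderiv ℝ (fderiv ℝ u) w (Complex.I • v) (Complex.I • v)) / 4 := by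
  obtain ⟨b, hb⟩ : ∃ b, b = fderiv ℝ (fderiv ℝ u) w := ⟨_, rfl⟩
  have h1 : ∀ x : E n, ∑ c, (((b x (bv c).1 : ℝ) : ℂ) + Complex.I * (b x (bv c).2 : ℝ)) *
      star (v c) = ((b x v : ℝ) + Complex.I * (b x (Complex.I • v) : ℝ)) / 2 := fun x =>
    D0b_b (Complex.ofRealCLM.comp (b x)) v
  have h2 : ∀ y : E n, ∑ a, v a * (((b (zv a).1 y : ℝ) : ℂ) + Complex.I * (b (zv a).2 y : ℝ)) =
      ((b v y : ℝ) - Complex.I * (b (Complex.I • v) y : ℝ)) / 2 := fun y =>
    D0b_z (Complex.ofRealCLM.comp (b.flip y)) v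
  have h3 : ∀ a, (Hs (fun z => (u z : ℂ)) w *ᵥ star v) a =
      (((b (zv a).1 v : ℝ) : ℂ) + Complex.I * (b (zv a).2 v : ℝ)) / 2 + Complex.I / 2 *
        (((b (zv a).1 (Complex.I • v) : ℝ) : ℂ) + Complex.I * (b (zv a).2 (Complex.I • v) : ℝ)) := by
    intro a
    have e : (Hs (fun z => (u z : ℂ)) w *ᵥ star v) a =
        ∑ c, (((b (zv a).1 (bv c).1 : ℝ) : ℂ) + Complex.I * (b (zv a).1 (bv c).2 : ℝ)) * star (v c)
        + Complex.I * ∑ c, (((b (zv a).2 (bv c).1 : ℝ) : ℂ) +
          Complex.I * (b (zv a).2 (bv c).2 : ℝ)) * star (v c) := by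
      rw [Finset.mul_sum, ← Finset.sum_add_distrib, mulVec, dotProduct]
      refine Finset.sum_congr rfl fun c _ => ?_
      simp only [Hs, of_apply, Pi.star_apply]
      rw [eX, D0b_second hu, D0b_second hu, ← hb]
      ring
    rw [e, h1, h1]
    ring
  have h4 : v ⬝ᵥ (Hs (fun z => (u z : ℂ)) w *ᵥ star v) =
      ((b v v : ℝ) - Complex.I * (b (Complex.I • v) v : ℝ)) / 2 / 2 + Complex.I / 2 *
        (((b v (Complex.I • v) : ℝ) - Complex.I * (b (Complex.I • v) (Complex.I • v) : ℝ)) / 2) := by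
    rw [← h2, ← h2, Finset.sum_div, Finset.mul_sum, ← Finset.sum_add_distrib, dotProduct]
    refine Finset.sum_congr rfl fun a _ => ?_
    rw [h3]
    ring
  rw [lev, h4, ← hb]
  simp
  ring

theorem posSemidef_of_lev {u : E n → ℝ} (hu : ContDiffAt ℝ ∞ u w) (h : ∀ v, 0 ≤ lev u w v) :
    (Hs (fun z => (u z : ℂ)) w).PosSemidef := by
  refine .of_dotProduct_mulVec_nonneg (Hs_herm hu) fun x => ?_
  have h1 := h (star x)
  rw [lev, star_star] at h1
  exact Complex.nonneg_iff.2 ⟨h1, ((Hs_herm hu).im_star_dotProduct_mulVec_self x).symm⟩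

theorem posDef_of_lev {u : E n → ℝ} (hu : ContDiffAt ℝ ∞ u w) (h : ∀ v ≠ 0, 0 < lev u w v) :
    (Hs (fun z => (u z : ℂ)) w).PosDef := by
  refine .of_dotProduct_mulVec_pos (Hs_herm hu) fun x hx => ?_
  have h1 := h (star x) (star_ne_zero.2 hx)
  rw [lev, star_star] at h1
  exact Complex.pos_iff.2 ⟨h1, ((Hs_herm hu).im_star_dotProduct_mulVec_self x).symm⟩

end Vale.Agent.P274
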