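import Vale.Agent.P274.D0b

/-! Module D0: Piola identity and symmetry of the operator.
eX_det is Jacobi's formula (copy P264/Alg.lean jacobi with D = eX ξ at w; product rule by induction).
piola_gen: apply eX (ξ a) to entry (p, a) of M * adj M = det • 1 (mul_adjugate) and sum over a; by
Jacobi and the symmetry hypothesis the first terms cancel, so M w *ᵥ (div adj) = 0
(eq_zero_of_mulVec_eq_zero). piola_z: M = Hs φ, eX_comm. piola_b: M = transpose, adjugate_transpose.
integral_eX_on: extend F by zero (Ω.indicator F is smooth with compact support; see P271A/Part.lean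
integral_eX). Lop_symm: f * Lop φ g - g * Lop φ f = sum over a of eX (zv a) (f * sum_b C b a * eX (bv b) g)
minus sum over b of eX (bv b) (g * sum_a C b a * eX (zv a) f), C = adjugate (Hs φ). -/

open Metric Set Filter Topology MeasureTheory Matrix
open scoped ContDiff ComplexOrder

namespace Vale.Agent.P274

open P271A (eX zv bv)

variable {n : ℕ} {f g φ : E n → ℂ} {w : E n} {Ω K : Set (E n)}

theorem D0d_prod {ι : Type*} [DecidableEq ι] (ξ : E n × E n) (s : Finset ι) {F : ι → E n → ℂ}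
    (hF : ∀ i ∈ s, DifferentiableAt ℝ (F i) w) :
    eX ξ (fun z => ∏ i ∈ s, F i z) w = ∑ i ∈ s, eX ξ (F i) w * ∏ j ∈ s.erase i, F j w := by
  have h := (HasFDerivAt.finsetProd fun i hi => (hF i hi).hasFDerivAt).fderiv
  simp only [eX, h, _root_.sum_apply, _root_.smul_apply, smul_eq_mul, Finset.mul_sum,
    ← Finset.sum_add_distrib]
  exact Finset.sum_congr rfl fun i _ => by ring

theorem eX_det (ξ : E n × E n) {M : E n → Matrix (Fin n) (Fin n) ℂ}
    (hM : ∀ a b, DifferentiableAt ℝ (fun z => M z a b) w) :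
    eX ξ (fun z => (M z).det) w =
      ∑ a, ∑ b, (M w).adjugate b a * eX ξ (fun z => M z a b) w := by
  have h : ∀ i, ∑ a, (M w).adjugate i a * eX ξ (fun z => M z a i) w =
      ∑ σ : Equiv.Perm (Fin n), ((Equiv.Perm.sign σ : ℤ) : ℂ) *
        (eX ξ (fun z => M z (σ i) i) w * ∏ j ∈ Finset.univ.erase i, M w (σ j) j) := fun i => by
    refine (congrFun (cramer_eq_adjugate_mulVec (M w)
      fun k => eX ξ (fun z => M z k i) w) i).symm.trans ?_
    rw [cramer_apply, det_apply']
    refine Finset.sum_congr rfl fun σ _ => congrArg _ ?_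
    rw [← Finset.mul_prod_erase _ _ (Finset.mem_univ i), updateCol_self]
    exact congrArg _ (Finset.prod_congr rfl fun j hj => updateCol_ne (Finset.ne_of_mem_erase hj))
  have hp : ∀ σ : Equiv.Perm (Fin n), DifferentiableAt ℝ (fun z => ∏ i, M z (σ i) i) w :=
    fun σ => (HasFDerivAt.finsetProd fun i _ => (hM (σ i) i).hasFDerivAt).differentiableAt
  rw [Finset.sum_comm]
  simp only [h, det_apply']
  rw [eX_sum ξ _ fun σ _ => (hp σ).const_mul _, Finset.sum_comm]
  refine Finset.sum_congr rfl fun σ _ => ?_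
  rw [P271A.eX_mul (differentiableAt_const _) (hp σ), P271A.eX_const, zero_mul, zero_add,
    D0d_prod ξ _ fun i _ => hM (σ i) i, Finset.mul_sum]

theorem piola_gen (ξ : Fin n → E n × E n) {M : E n → Matrix (Fin n) (Fin n) ℂ}
    (hM : ∀ a b, DifferentiableAt ℝ (fun z => M z a b) w)
    (hA : ∀ a b, DifferentiableAt ℝ (fun z => (M z).adjugate a b) w)
    (hs : ∀ a p q, eX (ξ a) (fun z => M z p q) w = eX (ξ p) (fun z => M z a q) w)
    (hd : (M w).det ≠ 0) (b : Fin n) : ∑ a, eX (ξ a) (fun z => (M z).adjugate b a) w = 0 := by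
  have key : M w *ᵥ (fun q => ∑ a, eX (ξ a) (fun z => (M z).adjugate q a) w) = 0 := by
    funext p
    have h1 : ∀ a, ∑ q, (eX (ξ a) (fun z => M z p q) w * (M w).adjugate q a +
        M w p q * eX (ξ a) (fun z => (M z).adjugate q a) w) =
        if p = a then eX (ξ a) (fun z => (M z).det) w else 0 := by
      intro a
      have h2 : (fun z => ∑ q, M z p q * (M z).adjugate q a) =
          fun z => if p = a then (M z).det else 0 := by
        funext z
        have h3 := congrFun (congrFun (mul_adjugate (M z)) p) a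
        rw [mul_apply, Matrix.smul_apply, Matrix.one_apply] at h3
        rw [h3]
        split_ifs <;> simp
      have h3 := eX_sum (ξ a) Finset.univ (F := fun q z => M z p q * (M z).adjugate q a)
        fun q _ => (hM p q).mul (hA q a)
      rw [h2] at h3
      simp only [P271A.eX_mul (hM p _) (hA _ a)] at h3
      rw [← h3]
      split_ifs
      · rfl
      · exact P271A.eX_const _ _ _
    have h2 := Finset.sum_congr rfl fun a (_ : a ∈ Finset.univ) => h1 a
    rw [Finset.sum_ite_eq, if_pos (Finset.mem_univ _), eX_det _ hM] at h2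
    simp only [Finset.sum_add_distrib] at h2
    have h3 : ∑ a, ∑ q, eX (ξ a) (fun z => M z p q) w * (M w).adjugate q a =
        ∑ a, ∑ q, (M w).adjugate q a * eX (ξ p) (fun z => M z a q) w :=
      Finset.sum_congr rfl fun a _ => Finset.sum_congr rfl fun q _ => by rw [hs, mul_comm]
    rw [h3, add_eq_left, Finset.sum_comm] at h2
    simp only [mulVec, dotProduct, Finset.mul_sum, Pi.zero_apply]
    exact h2
  exact congrFun (eq_zero_of_mulVec_eq_zero hd key) b

theorem piola_z (hφ : ContDiffAt ℝ ∞ φ w) (hd : (Hs φ w).det ≠ 0) (b : Fin n) :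
    ∑ a, eX (zv a) (fun z => (Hs φ z).adjugate b a) w = 0 := by
  refine piola_gen zv (M := Hs φ) (fun a b => (contDiffAt_Hs hφ a b).differentiableAt (by simp))
    (fun a b => (contDiffAt_adj hφ a b).differentiableAt (by simp)) (fun a p q => ?_) hd b
  exact P271A.eX_comm (P271A.contDiffAt_eX hφ)

theorem D0d_comm {ξ ζ : E n × E n} (h : ContDiffAt ℝ 2 f w) :
    eX ξ (eX ζ f) w = eX ζ (eX ξ f) w := by
  have h1 : ContDiffAt ℝ 1 (fderiv ℝ f) w := h.fderiv_right (m := 1) (by norm_num)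
  have h2 : DifferentiableAt ℝ (fderiv ℝ f) w := h1.differentiableAt (by simp)
  have hs : IsSymmSndFDerivAt ℝ f w := h.isSymmSndFDerivAt (by
    rw [minSmoothness_of_isRCLikeNormedField])
  have key : ∀ a b v : E n,
      fderiv ℝ (fun w => fderiv ℝ f w a + Complex.I * fderiv ℝ f w b) w v =
      fderiv ℝ (fderiv ℝ f) w v a + Complex.I * fderiv ℝ (fderiv ℝ f) w v b := by
    intro a b v
    have ha := (h2.hasFDerivAt.clm_apply (hasFDerivAt_const a w))
    have hb := (h2.hasFDerivAt.clm_apply (hasFDerivAt_const b w))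
    have := (ha.add (hb.const_mul Complex.I)).fderiv
    rw [show (fun w => fderiv ℝ f w a + Complex.I * fderiv ℝ f w b) =
      ((fun y => (fderiv ℝ f y) a) + fun y => Complex.I * (fderiv ℝ f y) b) from rfl, this]
    simp
  have e1 : ∀ η : E n × E n,
      eX η f = fun w => fderiv ℝ f w η.1 + Complex.I * fderiv ℝ f w η.2 := fun _ => rfl
  rw [eX, eX, e1, e1, key, key, key, key, hs.eq ξ.1 ζ.1, hs.eq ξ.1 ζ.2, hs.eq ξ.2 ζ.1,
    hs.eq ξ.2 ζ.2]
  ring

theorem D0d_ev (h : ContDiffAt ℝ ∞ f w) : ∀ᶠ z in 𝓝 w, ContDiffAt ℝ 2 f z :=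
  (h.of_le (m := 2) ENat.LEInfty.out).eventually (by simp)

theorem piola_b (hφ : ContDiffAt ℝ ∞ φ w) (hd : (Hs φ w).det ≠ 0) (a : Fin n) :
    ∑ b, eX (bv b) (fun z => (Hs φ z).adjugate b a) w = 0 := by
  have e : ∀ p q, (fun z => Hs φ z p q) =ᶠ[𝓝 w] eX (bv q) (eX (zv p) φ) := fun p q => by
    filter_upwards [D0d_ev hφ] with z hz using D0d_comm hz
  have h := piola_gen bv (M := fun z => (Hs φ z)ᵀ)
    (fun a b => (contDiffAt_Hs hφ b a).differentiableAt (by simp))
    (fun a b => by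
      simp only [← adjugate_transpose, transpose_apply]
      exact (contDiffAt_adj hφ b a).differentiableAt (by simp))
    (fun a p q => by
      simp only [transpose_apply]
      rw [P271A.eX_congr (e q p), P271A.eX_congr (e q a)]
      exact P271A.eX_comm (P271A.contDiffAt_eX hφ)) (by rwa [det_transpose]) a
  simpa only [← adjugate_transpose, transpose_apply] using h

theorem integrableOn_of_cpt (hΩ : IsOpen Ω) (hK : IsCompact K) (hKΩ : K ⊆ Ω)
    (hf : ContinuousOn f Ω) (h0 : ∀ w ∈ Ω, w ∉ K → f w = 0) : IntegrableOn f Ω := by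
  have h1 : IntegrableOn f K := (hf.mono hKΩ).integrableOn_compact hK
  exact h1.of_forall_sdiff_eq_zero hΩ.measurableSet fun w hw => h0 w hw.1 hw.2

theorem D0d_integrable {F : E n → ℂ} (hF : ContDiff ℝ ∞ F) (hc : HasCompactSupport F)
    (v : E n) : Integrable fun z => fderiv ℝ F z v :=
  ((hF.continuous_fderiv (by simp)).clm_apply continuous_const).integrable_of_hasCompactSupport
    (hc.fderiv_apply ℝ v)

theorem D0d_integral_fderiv {F : E n → ℂ} (hF : ContDiff ℝ ∞ F) (hc : HasCompactSupport F)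
    (v : E n) : ∫ z, fderiv ℝ F z v = 0 := by
  have h := integral_mul_fderiv_eq_neg_fderiv_mul_of_integrable (μ := (volume : Measure (E n)))
    (f := fun _ : E n => (1 : ℂ)) (g := F) (v := v) (by simp)
    (by simpa using D0d_integrable hF hc v)
    (by simpa using hF.continuous.integrable_of_hasCompactSupport hc)
    (fun _ _ => differentiableAt_const _) (fun x _ => hF.differentiable (by simp) x)
  simpa using h

theorem D0d_zero_ev (hΩ : IsOpen Ω) (hK : IsCompact K) (h0 : ∀ w ∈ Ω, w ∉ K → f w = 0)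
    (hw : w ∈ Ω) (hw' : w ∉ K) : f =ᶠ[𝓝 w] fun _ => 0 := by
  filter_upwards [hΩ.mem_nhds hw, hK.isClosed.isOpen_compl.mem_nhds hw'] with z h1 h2
    using h0 z h1 h2

theorem D0d_eX_zero (hΩ : IsOpen Ω) (hK : IsCompact K) (h0 : ∀ w ∈ Ω, w ∉ K → f w = 0)
    (ξ : E n × E n) (hw : w ∈ Ω) (hw' : w ∉ K) : eX ξ f w = 0 := by
  rw [P271A.eX_congr (D0d_zero_ev hΩ hK h0 hw hw'), P271A.eX_const]

theorem integral_eX_on (hΩ : IsOpen Ω) (hK : IsCompact K) (hKΩ : K ⊆ Ω)
    (hf : ∀ w ∈ Ω, ContDiffAt ℝ ∞ f w) (h0 : ∀ w ∈ Ω, w ∉ K → f w = 0) (ξ : E n × E n) :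
    ∫ w in Ω, eX ξ f w = 0 := by
  have e1 : ∀ w ∈ Ω, Ω.indicator f =ᶠ[𝓝 w] f := fun w hw => by
    filter_upwards [hΩ.mem_nhds hw] with z hz using indicator_of_mem hz f
  have e0 : ∀ w, w ∉ K → Ω.indicator f w = 0 := fun w hw => by
    by_cases h : w ∈ Ω
    · rw [indicator_of_mem h, h0 w h hw]
    · exact indicator_of_notMem h f
  have e2 : ∀ w, w ∉ K → Ω.indicator f =ᶠ[𝓝 w] fun _ => 0 := fun w hw => by
    filter_upwards [hK.isClosed.isOpen_compl.mem_nhds hw] with z hz using e0 z hz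
  have hF : ContDiff ℝ ∞ (Ω.indicator f) := contDiff_iff_contDiffAt.2 fun w => by
    by_cases h : w ∈ Ω
    · exact (hf w h).congr_of_eventuallyEq (e1 w h)
    · exact contDiffAt_const.congr_of_eventuallyEq (e2 w fun h' => h (hKΩ h'))
  have hc : HasCompactSupport (Ω.indicator f) := HasCompactSupport.intro hK e0
  have h1 : ∫ w in Ω, eX ξ f w = ∫ w in Ω, eX ξ (Ω.indicator f) w :=
    setIntegral_congr_fun hΩ.measurableSet fun w hw => (P271A.eX_congr (e1 w hw)).symm
  rw [h1, setIntegral_eq_integral_of_forall_compl_eq_zero fun w hw => by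
    rw [P271A.eX_congr (e2 w fun h' => hw (hKΩ h')), P271A.eX_const]]
  simp only [eX]
  rw [integral_add (D0d_integrable hF hc _) ((D0d_integrable hF hc _).const_mul _),
    integral_const_mul, D0d_integral_fderiv hF hc, D0d_integral_fderiv hF hc, mul_zero, add_zero]

theorem D0d_Lop (φ g : E n → ℂ) (w : E n) :
    Lop φ g w = ∑ a, ∑ b, (Hs φ w).adjugate b a * eX (zv a) (eX (bv b) g) w := by
  rw [Finset.sum_comm]
  rfl

theorem D0d_point (hφ : ContDiffAt ℝ ∞ φ w) (hd : (Hs φ w).det ≠ 0) (hf : ContDiffAt ℝ ∞ f w)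
    (hg : ContDiffAt ℝ ∞ g w) : f w * Lop φ g w - g w * Lop φ f w = ∑ a, ∑ b,
      (eX (zv a) (fun z => f z * ((Hs φ z).adjugate b a * eX (bv b) g z)) w -
        eX (bv b) (fun z => g z * ((Hs φ z).adjugate b a * eX (zv a) f z)) w) := by
  have dC : ∀ b a, DifferentiableAt ℝ (fun z => (Hs φ z).adjugate b a) w := fun b a =>
    (contDiffAt_adj hφ b a).differentiableAt (by simp)
  have df : DifferentiableAt ℝ f w := hf.differentiableAt (by simp)
  have dg : DifferentiableAt ℝ g w := hg.differentiableAt (by simp)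
  have df' : ∀ ξ, DifferentiableAt ℝ (eX ξ f) w := fun ξ =>
    (P271A.contDiffAt_eX hf).differentiableAt (by simp)
  have dg' : ∀ ξ, DifferentiableAt ℝ (eX ξ g) w := fun ξ =>
    (P271A.contDiffAt_eX hg).differentiableAt (by simp)
  have h1 : ∀ a b, eX (zv a) (fun z => f z * ((Hs φ z).adjugate b a * eX (bv b) g z)) w -
      eX (bv b) (fun z => g z * ((Hs φ z).adjugate b a * eX (zv a) f z)) w =
      f w * ((Hs φ w).adjugate b a * eX (zv a) (eX (bv b) g) w) -
        g w * ((Hs φ w).adjugate b a * eX (zv a) (eX (bv b) f) w) +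
        (f w * eX (bv b) g w * eX (zv a) (fun z => (Hs φ z).adjugate b a) w -
          g w * eX (zv a) f w * eX (bv b) (fun z => (Hs φ z).adjugate b a) w) := by
    intro a b
    rw [P271A.eX_mul df ((dC b a).fun_mul (dg' _)), P271A.eX_mul dg ((dC b a).fun_mul (df' _)),
      P271A.eX_mul (dC b a) (dg' _), P271A.eX_mul (dC b a) (df' _),
      P271A.eX_comm (ξ := bv b) hf]
    ring
  have h2 : ∑ a, ∑ b, f w * eX (bv b) g w * eX (zv a) (fun z => (Hs φ z).adjugate b a) w = 0 := by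
    rw [Finset.sum_comm]
    refine Finset.sum_eq_zero fun b _ => ?_
    rw [← Finset.mul_sum, piola_z hφ hd, mul_zero]
  have h3 : ∑ a, ∑ b, g w * eX (zv a) f w * eX (bv b) (fun z => (Hs φ z).adjugate b a) w = 0 := by
    refine Finset.sum_eq_zero fun a _ => ?_
    rw [← Finset.mul_sum, piola_b hφ hd, mul_zero]
  simp only [h1, Finset.sum_add_distrib, Finset.sum_sub_distrib, h2, h3, D0d_Lop,
    Finset.mul_sum, sub_zero, add_zero]

theorem Lop_symm (hΩ : IsOpen Ω) (hK : IsCompact K) (hKΩ : K ⊆ Ω)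
    (hφ : ∀ w ∈ Ω, ContDiffAt ℝ ∞ φ w ∧ (Hs φ w).det ≠ 0) (hf : ∀ w ∈ Ω, ContDiffAt ℝ ∞ f w)
    (hg : ∀ w ∈ Ω, ContDiffAt ℝ ∞ g w) (h0 : ∀ w ∈ Ω, w ∉ K → f w = 0) :
    ∫ w in Ω, f w * Lop φ g w = ∫ w in Ω, g w * Lop φ f w := by
  have i1 : IntegrableOn (fun w => f w * Lop φ g w) Ω :=
    integrableOn_of_cpt hΩ hK hKΩ (fun w hw => ((hf w hw).mul
      (contDiffAt_Lop (hφ w hw).1 (hg w hw))).continuousAt.continuousWithinAt)
      fun w hw hw' => by rw [h0 w hw hw', zero_mul]
  have i2 : IntegrableOn (fun w => g w * Lop φ f w) Ω :=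
    integrableOn_of_cpt hΩ hK hKΩ (fun w hw => ((hg w hw).mul
      (contDiffAt_Lop (hφ w hw).1 (hf w hw))).continuousAt.continuousWithinAt)
      fun w hw hw' => by rw [Lop_of_const φ (D0d_zero_ev hΩ hK h0 hw hw'), mul_zero]
  have s1 : ∀ a b, ∀ w ∈ Ω,
      ContDiffAt ℝ ∞ (fun z => f z * ((Hs φ z).adjugate b a * eX (bv b) g z)) w :=
    fun a b w hw => (hf w hw).mul ((contDiffAt_adj (hφ w hw).1 b a).mul
      (P271A.contDiffAt_eX (hg w hw)))
  have s2 : ∀ a b, ∀ w ∈ Ω,
      ContDiffAt ℝ ∞ (fun z => g z * ((Hs φ z).adjugate b a * eX (zv a) f z)) w :=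
    fun a b w hw => (hg w hw).mul ((contDiffAt_adj (hφ w hw).1 b a).mul
      (P271A.contDiffAt_eX (hf w hw)))
  have z1 : ∀ a b, ∀ w ∈ Ω, w ∉ K → f w * ((Hs φ w).adjugate b a * eX (bv b) g w) = 0 :=
    fun a b w hw hw' => by rw [h0 w hw hw', zero_mul]
  have z2 : ∀ a b, ∀ w ∈ Ω, w ∉ K → g w * ((Hs φ w).adjugate b a * eX (zv a) f w) = 0 :=
    fun a b w hw hw' => by rw [D0d_eX_zero hΩ hK h0 _ hw hw', mul_zero, mul_zero]
  have j : ∀ {F : E n → ℂ} (ξ : E n × E n), (∀ w ∈ Ω, ContDiffAt ℝ ∞ F w) →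
      (∀ w ∈ Ω, w ∉ K → F w = 0) → IntegrableOn (eX ξ F) Ω := fun ξ h1 h2 =>
    integrableOn_of_cpt hΩ hK hKΩ
      (fun w hw => (P271A.contDiffAt_eX (h1 w hw)).continuousAt.continuousWithinAt)
      fun w hw hw' => D0d_eX_zero hΩ hK h2 ξ hw hw'
  have j1 : ∀ a b, Integrable (fun w =>
      eX (zv a) (fun z => f z * ((Hs φ z).adjugate b a * eX (bv b) g z)) w -
        eX (bv b) (fun z => g z * ((Hs φ z).adjugate b a * eX (zv a) f z)) w)
      (volume.restrict Ω) :=
    fun a b => (j (zv a) (s1 a b) (z1 a b)).sub (j (bv b) (s2 a b) (z2 a b))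
  rw [← sub_eq_zero, ← integral_sub i1 i2, setIntegral_congr_fun hΩ.measurableSet
    fun w hw => D0d_point (hφ w hw).1 (hφ w hw).2 (hf w hw) (hg w hw),
    integral_finsetSum _ fun a _ => integrable_finsetSum _ fun b _ => j1 a b]
  refine Finset.sum_eq_zero fun a _ => ?_
  rw [integral_finsetSum _ fun b _ => j1 a b]
  refine Finset.sum_eq_zero fun b _ => ?_
  rw [integral_sub (j (zv a) (s1 a b) (z1 a b)) (j (bv b) (s2 a b) (z2 a b)),
    integral_eX_on hΩ hK hKΩ (s1 a b) (z1 a b), integral_eX_on hΩ hK hKΩ (s2 a b) (z2 a b),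
    sub_zero]

end Vale.Agent.P274
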