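import Vale.Agent.P274.D0b
import Vale.Agent.P274.B7

/-! Module D0: circle means bound the Levi form; a matrix inequality.
taylor2: R h = g (w + h) - g w - D h - D2 h h / 2 has derivative o(‖h‖) (HasFDerivAt of fderiv, symmetry
ContDiffAt.isSymmSndFDerivAt); Convex.isLittleO_pow_succ or the mean value inequality.
lev_ge: (s * ce θ) • v = (s cos θ) • v + (s sin θ) • (I • v); the circle means of cos, sin, cos * sin
vanish, those of cos^2, sin^2 are 1/2 (integral_cos_sq ..); cmean_mono, lev_eq.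
Matrices: H = Bᴴ * B, trace (A * Bᴴ * B) = trace (B * A * Bᴴ) ≥ 0 for A PosSemidef. With x = star v the
matrix (v ⬝ᵥ h *ᵥ x) • h⁻¹ - vecMulVec x v is PosSemidef (Cauchy-Schwarz for the form h, test vector
y = h *ᵥ z); adjugate h = det h • h⁻¹, det h > 0 (PosDef.det_pos). -/

open Metric Set Filter Topology MeasureTheory Matrix
open scoped ContDiff ComplexOrder

namespace Vale.Agent.P274

open P271A (eX zv bv)

variable {n : ℕ}

theorem taylor2 {g : E n → ℝ} {w : E n} (hg : ContDiffAt ℝ ∞ g w) {ε : ℝ} (hε : 0 < ε) :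
    ∀ᶠ h in 𝓝 (0 : E n), ContinuousAt g (w + h) ∧
      |g (w + h) - g w - fderiv ℝ g w h - fderiv ℝ (fderiv ℝ g) w h h / 2| ≤ ε * ‖h‖ ^ 2 := by
  have h1 : ∀ᶠ z in 𝓝 w, ContDiffAt ℝ 1 g z := (hg.of_le (by simp)).eventually (by simp)
  have h2 : Tendsto (fun h : E n => w + h) (𝓝 0) (𝓝 w) :=
    (continuous_const.add continuous_id).tendsto' 0 w (add_zero w)
  obtain ⟨ρ, hρ, h3⟩ := Metric.eventually_nhds_iff_ball.1 (h2.eventually h1)
  have hs : IsSymmSndFDerivAt ℝ g w := hg.isSymmSndFDerivAt (by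
    rw [minSmoothness_of_isRCLikeNormedField]
    exact WithTop.coe_le_coe.2 le_top)
  have h4 := hasFDerivAt_iff_isLittleO_nhds_zero.1
    ((hg.fderiv_right (m := 1) (WithTop.coe_le_coe.2 le_top)).differentiableAt
      one_ne_zero).hasFDerivAt
  have h5 := (convex_ball (0 : E n) ρ).isLittleO_pow_succ (𝕜 := ℝ) (n := 1) (mem_ball_self hρ)
    (f := fun h => g (w + h) - fderiv ℝ g w h - fderiv ℝ (fderiv ℝ g) w h h / 2)
    (f' := fun h => fderiv ℝ g (w + h) - fderiv ℝ g w - fderiv ℝ (fderiv ℝ g) w h)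
    (fun h hh => by
      have a1 : HasFDerivAt (fun h => g (w + h)) (fderiv ℝ g (w + h)) h :=
        (hasFDerivAt_comp_add_left w).2 ((h3 h hh).differentiableAt one_ne_zero).hasFDerivAt
      have a2 := ((fderiv ℝ (fderiv ℝ g) w).hasFDerivAt.clm_apply (hasFDerivAt_id h)).mul_const
        (2 : ℝ)⁻¹
      refine ((a1.sub (fderiv ℝ g w).hasFDerivAt).sub (a2.congr_fderiv ?_)).hasFDerivWithinAt
      ext k
      simp only [_root_.smul_apply, _root_.add_apply, ContinuousLinearMap.comp_apply,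
        ContinuousLinearMap.id_apply, ContinuousLinearMap.flip_apply, id, smul_eq_mul, hs.eq k h]
      ring)
    (by simpa using h4.norm_right.mono nhdsWithin_le_nhds)
  rw [nhdsWithin_eq_nhds.2 (ball_mem_nhds _ hρ)] at h5
  filter_upwards [h5.bound hε, ball_mem_nhds (0 : E n) hρ] with h h6 h7
  refine ⟨(h3 h h7).continuousAt, ?_⟩
  simp only [add_zero, map_zero, zero_div, sub_zero, norm_pow, Real.norm_eq_abs, abs_norm,
    one_add_one_eq_two] at h6
  rwa [show g (w + h) - g w - fderiv ℝ g w h - fderiv ℝ (fderiv ℝ g) w h h / 2 =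
    g (w + h) - fderiv ℝ g w h - fderiv ℝ (fderiv ℝ g) w h h / 2 - g w by ring]

theorem D0e_trig (a b c d e f : ℝ) : cmean (fun θ => a + b * Real.cos θ + c * Real.sin θ +
    d * Real.cos θ ^ 2 + e * (Real.sin θ * Real.cos θ) + f * Real.sin θ ^ 2) = a + (d + f) / 2 := by
  have hπ := Real.pi_pos
  rw [cmean, intervalIntegral.integral_eq_sub_of_hasDerivAt
    (f := fun θ => (a + (d + f) / 2) * θ + b * Real.sin θ - c * Real.cos θ +
      (d - f) / 2 * (Real.sin θ * Real.cos θ) + e / 2 * (Real.sin θ * Real.sin θ))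
    (fun θ _ => ?_) (Continuous.intervalIntegrable (by fun_prop) _ _)]
  · simp only [Real.sin_two_pi, Real.cos_two_pi, Real.sin_zero, Real.cos_zero]
    field_simp
    ring
  · have hs := Real.hasDerivAt_sin θ
    have hc := Real.hasDerivAt_cos θ
    refine ((((((hasDerivAt_id' θ).const_mul _).add (hs.const_mul b)).sub (hc.const_mul c)).add
      ((hs.mul hc).const_mul _)).add ((hs.mul hs).const_mul _)).congr_deriv ?_
    linear_combination (-(d + f) / 2) * Real.sin_sq_add_cos_sq θ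

theorem lev_ge {g : E n → ℝ} {w v : E n} {κ δ : ℝ} (hg : ContDiffAt ℝ ∞ g w) (hδ : 0 < δ)
    (h : ∀ s : ℝ, 0 < s → s < δ →
      g w + κ * s ^ 2 ≤ cmean (fun θ => g (w + (s * ce θ) • v))) : κ ≤ lev g w v := by
  rw [lev_eq hg]
  refine le_of_forall_pos_le_add fun ε hε => ?_
  have hv : 0 < ‖v‖ ^ 2 + 1 := by positivity
  obtain ⟨ρ, hρ, h1⟩ := Metric.eventually_nhds_iff_ball.1 (taylor2 hg (div_pos hε hv))
  obtain ⟨s, s0, s1, s2⟩ : ∃ s : ℝ, 0 < s ∧ s < δ ∧ s * ‖v‖ < ρ := by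
    have a1 : 0 < ρ / (‖v‖ + 1) := by positivity
    refine ⟨min (δ / 2) (ρ / (‖v‖ + 1)), by positivity,
      (min_le_left _ _).trans_lt (half_lt_self hδ), ?_⟩
    have a2 := (le_div_iff₀ (by positivity)).1 (min_le_right (δ / 2) (ρ / (‖v‖ + 1)))
    have a3 : 0 < min (δ / 2) (ρ / (‖v‖ + 1)) := by positivity
    linarith
  have hn : ∀ θ, ‖(s * ce θ) • v‖ = s * ‖v‖ := fun θ => by
    rw [norm_smul, norm_mul, norm_ce, mul_one, Complex.norm_real, Real.norm_of_nonneg s0.le]
  have h2 := fun θ => h1 ((s * ce θ) • v) (by rw [mem_ball_zero_iff, hn]; exact s2)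
  have hc : Continuous fun θ => (s * ce θ) • v :=
    (continuous_const.mul continuous_ce).smul continuous_const
  have he : ∀ θ, (s * ce θ) • v = (s * Real.cos θ) • v + (s * Real.sin θ) • (Complex.I • v) := by
    intro θ
    rw [ce, Complex.exp_mul_I, ← Complex.coe_smul, ← Complex.coe_smul, smul_smul, ← add_smul]
    push_cast
    rw [mul_add, mul_assoc]
  generalize fderiv ℝ (fderiv ℝ g) w = Q at *
  generalize fderiv ℝ g w = D at *
  have h3 := (h s s0 s1).trans (cmean_mono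
    (g := fun θ => g w + ε * s ^ 2 + s * D v * Real.cos θ + s * D (Complex.I • v) * Real.sin θ +
      s ^ 2 * Q v v / 2 * Real.cos θ ^ 2 +
      s ^ 2 * (Q v (Complex.I • v) + Q (Complex.I • v) v) / 2 * (Real.sin θ * Real.cos θ) +
      s ^ 2 * Q (Complex.I • v) (Complex.I • v) / 2 * Real.sin θ ^ 2)
    (continuous_iff_continuousAt.2 fun θ => ContinuousAt.comp (f := fun θ => w + (s * ce θ) • v)
      (h2 θ).1 (continuous_const.add hc).continuousAt) (by fun_prop) fun θ _ => by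
      have a1 := (abs_le.1 (h2 θ).2).2
      have a2 : ε / (‖v‖ ^ 2 + 1) * (s * ‖v‖) ^ 2 ≤ ε * s ^ 2 := by
        rw [div_mul_eq_mul_div, div_le_iff₀ hv]
        linarith [mul_pos hε (pow_pos s0 2)]
      rw [hn] at a1
      generalize g (w + (s * ce θ) • v) = y at a1 ⊢
      simp only [he, map_add, map_smul, _root_.add_apply, _root_.smul_apply, smul_eq_mul] at a1
      linarith)
  rw [D0e_trig] at h3
  refine le_of_mul_le_mul_left ?_ (pow_pos s0 2)
  linarith

theorem trace_mul_nonneg {A H : Matrix (Fin n) (Fin n) ℂ} (hA : A.PosSemidef)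
    (hH : H.PosSemidef) : 0 ≤ (A * H).trace.re := by
  classical
  open MatrixOrder in
  obtain ⟨B, rfl⟩ := CStarAlgebra.nonneg_iff_eq_star_mul_self.mp hH.nonneg
  rw [← Matrix.mul_assoc, trace_mul_cycle, star_eq_conjTranspose]
  exact (Complex.nonneg_iff.1 (hA.mul_mul_conjTranspose_same B).trace_nonneg).1

theorem D0e_adj {h : Matrix (Fin n) (Fin n) ℂ} (hh : h.PosDef) : h.adjugate = h.det • h⁻¹ := by
  rw [inv_def, Ring.inverse_eq_inv, smul_inv_smul₀ hh.det_pos.ne']

theorem trace_adj_nonneg {h H : Matrix (Fin n) (Fin n) ℂ} (hh : h.PosDef) (hH : H.PosSemidef) :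
    0 ≤ (h.adjugate * H).trace.re := by
  rw [D0e_adj hh]
  exact trace_mul_nonneg (hh.inv.posSemidef.smul hh.det_pos.le) hH

theorem trace_adj_ge {h H : Matrix (Fin n) (Fin n) ℂ} (hh : h.PosDef) (hH : H.PosSemidef)
    (v : E n) : h.det.re * (v ⬝ᵥ (H *ᵥ star v)).re ≤
      (v ⬝ᵥ (h *ᵥ star v)).re * (h.adjugate * H).trace.re := by
  rcases eq_or_ne v 0 with rfl | hv
  · simp
  have ha := hh.dotProduct_mulVec_pos (star_ne_zero.2 hv)
  rw [star_star] at ha
  have ea := Complex.eq_re_of_ofReal_le (r := 0) ha.le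
  have ed := Complex.eq_re_of_ofReal_le (r := 0) hh.det_pos.le
  have pa := (Complex.pos_iff.1 ha).1
  have pd := (Complex.pos_iff.1 hh.det_pos).1
  generalize (v ⬝ᵥ (h *ᵥ star v)).re = a at ea pa ⊢
  have hu : IsUnit h.det := isUnit_iff_ne_zero.2 hh.det_pos.ne'
  have hX : (vecMulVec (star v) v)ᴴ = vecMulVec (star v) v :=
    (posSemidef_vecMulVec_star_self v).1
  have e1 : vecMulVec (star v) v * h * vecMulVec (star v) v = (a : ℂ) • vecMulVec (star v) v := by
    rw [vecMulVec_mul, vecMulVec_mul_vecMulVec, ← dotProduct_mulVec, ea, vecMulVec_smul]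
  have e2 : (vecMulVec (star v) v * H).trace = v ⬝ᵥ (H *ᵥ star v) := by
    rw [vecMulVec_mul, trace_vecMulVec, dotProduct_comm, ← dotProduct_mulVec]
  generalize vecMulVec (star v) v = X at hX e1 e2
  have h1 := trace_mul_nonneg
    (hh.inv.posSemidef.mul_mul_conjTranspose_same ((a : ℂ) • 1 - X * h)) hH
  have e3 : ((a : ℂ) • 1 - X * h) * h⁻¹ * ((a : ℂ) • 1 - X * h)ᴴ =
      (a : ℂ) • ((a : ℂ) • h⁻¹ - X) := by
    rw [conjTranspose_sub, conjTranspose_smul, conjTranspose_mul, conjTranspose_one, hX, hh.1.eq,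
      Complex.star_def, Complex.conj_ofReal, Matrix.sub_mul, Matrix.smul_mul, Matrix.one_mul,
      mul_nonsing_inv_cancel_right _ _ hu, Matrix.mul_sub, Matrix.mul_smul, Matrix.mul_one,
      Matrix.sub_mul, Matrix.smul_mul, nonsing_inv_mul_cancel_left _ _ hu, ← Matrix.mul_assoc, e1,
      sub_self, sub_zero]
  rw [e3, Matrix.smul_mul, trace_smul, Matrix.sub_mul, trace_sub, Matrix.smul_mul, trace_smul, e2,
    smul_eq_mul, smul_eq_mul, Complex.re_ofReal_mul, Complex.sub_re, Complex.re_ofReal_mul] at h1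
  have h2 := mul_nonneg pd.le ((mul_nonneg_iff_of_pos_left pa).1 h1)
  rw [D0e_adj hh, Matrix.smul_mul, trace_smul, smul_eq_mul]
  generalize h.det.re = d at ed h2 ⊢
  rw [ed, Complex.re_ofReal_mul]
  linarith

end Vale.Agent.P274
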