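import Vale.Agent.P274.D0a

/-! Module D0: smooth functions and the partition of unity modulo the group.
Sm.comp_param: near p, f ∘ h = (f ∘ ψ x) ∘ (co x ∘ h) with x = h p (ψ_co_eventually, hol_co,
HolAt.analyticAt_comp, AnalyticAt.contDiffAt, restrict_scalars).
exists_bump: b = (V α).indicator (β ∘ co α), β a ContDiffBump at 0 with rIn = r/4, rOut = r/2; near a point of
V α it is β ∘ co α, near a point outside the closed set Cp α it is 0.
exists_pou: cover K (nonempty by cover) by finitely many ψ α '' ball 0 (r α / 4); S y = ∑ᶠ γ : M.Γ, sum over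
A of b α (γ • y) is positive, invariant (finsum_comp_equiv, Equiv.mulRight) and near every point a finite
sum (pd for the union of a compact neighbourhood and the Cp α), hence smooth; η α = b α / S;
G = the finite set given by pd for a compact neighbourhood of the union of the Cp α. -/

open Metric Set Filter Topology MeasureTheory
open scoped ContDiff

namespace Vale.Agent.P274

variable {N n : ℕ}

namespace BM

variable {M : BM N n} {F : Type*} [NormedAddCommGroup F] [NormedSpace ℝ F]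

theorem D0j_at {f : M.X → F} {x : M.X} (hf : ContDiffAt ℝ ∞ (f ∘ M.ψ x) 0) {h : E n → M.X}
    {p : E n} (hp : h p = x) (hh : AnalyticAt ℂ (M.ι ∘ h) p) : ContDiffAt ℝ ∞ (f ∘ h) p := by
  subst hp
  have h1 : AnalyticAt ℂ (M.co (h p) ∘ h) p := (M.hol_co _ _).analyticAt_comp hh
  have h2 : ContDiffAt ℝ ∞ ((f ∘ M.ψ (h p)) ∘ (M.co (h p) ∘ h)) p := by
    refine ContDiffAt.comp p ?_ (h1.contDiffAt.restrict_scalars ℝ)
    rw [Function.comp_apply, M.co_self]
    exact hf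
  exact h2.congr_of_eventuallyEq (comp_eventuallyEq f hh.continuousAt)

theorem Sm.comp_param {f : M.X → F} (hf : M.Sm f) {h : E n → M.X} {p : E n}
    (hh : AnalyticAt ℂ (M.ι ∘ h) p) : ContDiffAt ℝ ∞ (f ∘ h) p :=
  D0j_at (hf _ 0 (mem_ball_self (M.r_pos _))) rfl hh

theorem Sm.smul {f : M.X → F} (hf : M.Sm f) (a : M.Aut) : M.Sm (fun y => f (a • y)) :=
  fun x _ hw => hf.comp_param (h := fun z => a • M.ψ x z) (M.analyticAt_smul_ψ a x hw)

theorem Sm.continuous {f : M.X → F} (hf : M.Sm f) : Continuous f := by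
  refine continuous_iff_continuousAt.2 fun x => ?_
  have h1 : ContinuousAt ((f ∘ M.ψ x) ∘ M.co x) x :=
    (hf x 0 (mem_ball_self (M.r_pos x))).continuousAt.comp_of_eq
      (M.continuous_co x).continuousAt (M.co_self x)
  refine h1.congr ?_
  filter_upwards [M.ψ_co_eventually x] with y hy
  exact congrArg f hy.1

theorem sm_of_local {f : M.X → F} (h : ∀ y, ∃ g, M.Sm g ∧ f =ᶠ[𝓝 y] g) : M.Sm f := by
  intro x w hw
  obtain ⟨g, hg, he⟩ := h (M.ψ x w)
  exact (hg x w hw).congr_of_eventuallyEq (he.comp_tendsto (M.map_ψ_nhds x hw).le)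

theorem exists_bump (M : BM N n) (α : M.X) : ∃ b : M.X → ℝ, M.Sm b ∧ (∀ y, 0 ≤ b y) ∧
    (∀ y ∈ M.ψ α '' ball 0 (M.r α / 4), b y = 1) ∧ ∀ y, y ∉ M.Cp α → b y = 0 := by
  have hr := M.r_pos α
  let β : ContDiffBump (0 : E n) := ⟨M.r α / 4, M.r α / 2, by positivity, by linarith⟩
  have hs : M.Sm (fun y => β (M.co α y)) := fun x w hw =>
    β.contDiff.contDiffAt.comp w
      (((M.hol_co α).analyticOnNhd x w hw).contDiffAt.restrict_scalars ℝ)
  have h0 : ∀ y, y ∉ M.Cp α → (M.V α).indicator (fun y => β (M.co α y)) y = 0 := by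
    intro y hy
    by_cases h : y ∈ M.V α
    · rw [indicator_of_mem h]
      refine β.zero_of_le_dist (le_of_not_gt fun h1 => hy ⟨M.co α y, ?_, (M.ψ_co h).1⟩)
      exact mem_closedBall.2 h1.le
    · exact indicator_of_notMem h _
  refine ⟨(M.V α).indicator fun y => β (M.co α y), sm_of_local fun y => ?_,
    fun y => indicator_nonneg (fun _ _ => β.nonneg) y, ?_, h0⟩
  · by_cases h : y ∈ M.V α
    · refine ⟨_, hs, ?_⟩
      filter_upwards [(M.isOpen_V α).mem_nhds h] with z hz using indicator_of_mem hz _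
    · refine ⟨fun _ => 0, fun _ _ _ => contDiffAt_const, ?_⟩
      filter_upwards [(M.isCompact_Cp α).isClosed.isOpen_compl.mem_nhds
        fun h1 => h (M.Cp_subset α h1)] with z hz using h0 z hz
  · rintro _ ⟨w, hw, rfl⟩
    have hw' : w ∈ ball (0 : E n) (M.r α) := ball_subset_ball (by linarith) hw
    rw [indicator_of_mem (show M.ψ α w ∈ M.V α from mem_image_of_mem _ hw'), M.co_ψ α hw']
    exact β.one_of_mem_closedBall (ball_subset_closedBall hw)

theorem D0j_sum {ι : Type*} (s : Finset ι) {f : ι → M.X → ℝ} (hf : ∀ i ∈ s, M.Sm (f i)) :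
    M.Sm (fun y => ∑ i ∈ s, f i y) := fun x w hw =>
  ContDiffAt.sum (f := fun i => f i ∘ M.ψ x) fun i hi => hf i hi x w hw

end BM

theorem CM.D0j_loc (M : CM N n) {b : M.X → ℝ} {C₀ : Set M.X} (h₀ : IsCompact C₀)
    (hb : ∀ y, y ∉ C₀ → b y = 0) {C : Set M.X} (hC : IsCompact C) :
    ∃ G : Finset M.Aut, (∀ γ ∈ G, γ ∈ M.Γ) ∧ (∀ γ ∈ G, γ⁻¹ ∈ G) ∧
      ∀ z ∈ C, ∑ᶠ γ ∈ (M.Γ : Set M.Aut), b (γ • z) = ∑ γ ∈ G, b (γ • z) := by
  have hP := M.pd _ (hC.union h₀)
  refine ⟨hP.toFinset, fun γ h => (hP.mem_toFinset.1 h).1, fun γ h => ?_, fun z hz => ?_⟩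
  · obtain ⟨h1, x, h2, h3⟩ := hP.mem_toFinset.1 h
    exact hP.mem_toFinset.2 ⟨M.Γ.inv_mem h1, _, h3, by rwa [inv_smul_smul]⟩
  · refine finsum_mem_eq_sum_of_inter_support_eq _ (Set.ext fun γ => ⟨fun h => ⟨?_, h.2⟩,
      fun h => ⟨(hP.mem_toFinset.1 h.1).1, h.2⟩⟩)
    exact hP.mem_toFinset.2 ⟨h.1, z, Or.inl hz, Or.inr (by_contra fun h1 => h.2 (hb _ h1))⟩

theorem CM.exists_pou (M : CM N n) : Nonempty (Pou M) := by
  classical
  choose b hs hn h1 h0 using M.exists_bump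
  obtain ⟨A, -, hA⟩ := M.K_cpt.elim_nhds_subcover (fun α => M.ψ α '' ball 0 (M.r α / 4))
    fun α _ => M.image_ball_mem_nhds α (by linarith [M.r_pos α])
  have h₀ : IsCompact (⋃ α ∈ A, M.Cp α) := A.isCompact_biUnion fun α _ => M.isCompact_Cp α
  let bb : M.X → ℝ := fun y => ∑ α ∈ A, b α y
  have hbb : ∀ y, y ∉ ⋃ α ∈ A, M.Cp α → bb y = 0 := fun y hy =>
    Finset.sum_eq_zero fun α hα => h0 α y fun h => hy (mem_biUnion hα h)
  have hbn : ∀ y, 0 ≤ bb y := fun y => Finset.sum_nonneg fun α _ => hn α y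
  have hbs : M.Sm bb := BM.D0j_sum A fun α _ => hs α
  let S : M.X → ℝ := fun z => ∑ᶠ γ ∈ (M.Γ : Set M.Aut), bb (γ • z)
  have hinv : ∀ g ∈ M.Γ, ∀ z, S (g • z) = S z := fun g hg z =>
    finsum_mem_eq_of_bijOn (fun γ => γ * g)
      ⟨fun γ h => M.Γ.mul_mem h hg, fun _ _ _ _ h => mul_right_cancel h,
        fun γ h => ⟨γ * g⁻¹, M.Γ.mul_mem h (M.Γ.inv_mem hg), inv_mul_cancel_right _ _⟩⟩
      fun γ _ => by rw [mul_smul]
  have hpos : ∀ z, 0 < S z := by
    intro z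
    obtain ⟨g, hg, hk⟩ := M.cover z
    rw [← hinv g hg]
    obtain ⟨α, hα, h4⟩ := mem_iUnion₂.1 (hA hk)
    have h5 : 0 < bb (g • z) := lt_of_lt_of_le (by rw [h1 α _ h4]; exact one_pos)
      (Finset.single_le_sum (f := fun α => b α (g • z)) (fun β _ => hn β _) hα)
    refine finsum_pos (fun γ => finsum_nonneg fun _ => hbn _) ⟨1, ?_⟩ ?_
    · rw [finsum_eq_if, if_pos (SetLike.mem_coe.2 M.Γ.one_mem), one_smul]
      exact h5
    · refine (M.pd _ (h₀.insert (g • z))).subset fun γ h => ?_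
      by_cases h6 : γ ∈ M.Γ
      · refine ⟨h6, _, mem_insert _ _, Or.inr (by_contra fun h7 => h ?_)⟩
        simp [hbb _ h7]
      · exact absurd (by simp [h6]) h
  have hS : M.Sm S := BM.sm_of_local fun y => by
    obtain ⟨C, hC, hy⟩ := exists_compact_mem_nhds y
    obtain ⟨G, -, -, h3⟩ := M.D0j_loc h₀ hbb hC
    exact ⟨_, BM.D0j_sum G fun γ _ => hbs.smul γ, mem_of_superset hy h3⟩
  obtain ⟨C, hC, hC'⟩ := exists_compact_superset h₀
  obtain ⟨G, g1, g2, g3⟩ := M.D0j_loc h₀ hbb hC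
  refine ⟨⟨A, fun α y => b α y / S y, G, ?_, fun α x w hw => ?_,
    fun α y => div_nonneg (hn α y) (hpos y).le, fun α _ => div_pos ?_ (hpos α),
    fun α y hy => by rw [h0 α y hy, zero_div], g1, g2, fun α hα y hy => ?_⟩⟩
  · obtain ⟨z⟩ : Nonempty M.X := inferInstance
    obtain ⟨g, -, hk⟩ := M.cover z
    obtain ⟨α, hα, -⟩ := mem_iUnion₂.1 (hA hk)
    exact ⟨α, hα⟩
  · exact (hs α x w hw).div (hS x w hw) (hpos _).ne'
  · rw [h1 α α ⟨0, mem_ball_self (by linarith [M.r_pos α]), M.ψ_zero α⟩]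
    exact one_pos
  · filter_upwards [mem_interior_iff_mem_nhds.1 (hC' (mem_biUnion hα hy))] with z hz
    rw [Finset.sum_congr rfl fun γ hγ => (by
      rw [← Finset.sum_div, hinv γ (g1 γ hγ)] :
        ∑ β ∈ A, b β (γ • z) / S (γ • z) = bb (γ • z) / S z), ← Finset.sum_div, ← g3 z hz]
    exact div_self (hpos z).ne'

end Vale.Agent.P274
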