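import Vale.Agent.P274.D0
import Vale.Agent.P274.C4

/-! There is no invariant abelian subalgebra. -/

open Metric Set Filter Topology

namespace Vale.Agent.P274

theorem d1_uniq {N n : ℕ} {M : BM N n} {θ θ' : ℝ → M.Aut} {W : M.End} (h : M.IsFlow θ W)
    (h' : M.IsFlow θ' W) (t : ℝ) : θ' t = θ t := by
  refine Subtype.ext (Equiv.ext fun x => ?_)
  have := h.eq_of_curve (c := fun t => θ' t • x) (h'.deriv x) t
  rwa [h'.zero, one_smul] at this

/-- The flow of a sum of commuting fields. -/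
theorem d1_prod {N n : ℕ} {M : BM N n} {θ θ' θ'' : ℝ → M.Aut} {W W' : M.End} (h : M.IsFlow θ W)
    (h' : M.IsFlow θ' W') (h'' : M.IsFlow θ'' (W + W')) (hc : ⁅W, W'⁆ = 0) (t : ℝ) (x : M.X) :
    θ'' t • x = θ t • θ' t • x := by
  have e : ∀ s t, θ s • θ' t • x = θ' t • θ s • x := fun s t => by
    rw [← mul_smul, h.comm_of_lie h' hc, mul_smul]
  have cP : Continuous fun v : ℝ × ℝ => θ v.1 • θ' v.2 • x :=
    h.continuous.comp (continuous_fst.prodMk
      (h'.continuous.comp (continuous_snd.prodMk continuous_const)))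
  have key : ∀ t, HasDerivAt (M.ι ∘ fun t => θ t • θ' t • x) (M.ev (W + W') (θ t • θ' t • x)) t := by
    intro t
    have h1 := hasStrictFDerivAt_uncurry_coprod (𝕜 := ℝ) (u := (t, t))
      (f := fun s t => M.ι (θ s • θ' t • x))
      (f₁ := fun s t => ContinuousLinearMap.toSpanSingleton ℝ (M.ev W (θ s • θ' t • x)))
      (f₂ := fun s t => ContinuousLinearMap.toSpanSingleton ℝ (M.ev W' (θ s • θ' t • x)))
      (Eventually.of_forall fun v => (h.deriv _ v.1).hasFDerivAt)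
      (Eventually.of_forall fun v => by
        simp only [Function.HasUncurry.uncurry, id, e]
        exact (h'.deriv _ v.2).hasFDerivAt)
      ((ContinuousLinearMap.toSpanSingletonLIE ℝ (E N)).continuous.comp
        ((BM.hol_ev W).continuous.comp cP)).continuousAt
      ((ContinuousLinearMap.toSpanSingletonLIE ℝ (E N)).continuous.comp
        ((BM.hol_ev W').continuous.comp cP)).continuousAt
    have h2 := h1.hasFDerivAt.comp_hasDerivAt (f := fun t : ℝ => (t, t)) t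
      ((hasDerivAt_id t).prodMk (hasDerivAt_id t))
    refine h2.congr_deriv ?_
    simp [Function.HasUncurry.uncurry, BM.ev_add]
  have := h''.eq_of_curve key t
  rw [h.zero, h'.zero, one_smul, one_smul] at this
  exact this.symm

namespace CM

variable {N n : ℕ} (M : CM N n)

theorem d1_coord {A : Set M.Aut} (hΓ : ∀ γ ∈ M.Γ, ∀ a ∈ A, γ * a * γ⁻¹ ∈ A) {p : M.X}
    {C : Set M.X} (hC : IsCompact C) (hA : ∀ a ∈ A, a • p ∈ C) {f : M.X → ℂ} (hf : M.Hol f)
    {R : ℝ} (hR : ∀ x, ‖f x‖ ≤ R) : ∀ a ∈ A, ∀ x, f (a • x) = f x := by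
  intro a0 ha0 x0
  obtain ⟨D, hD⟩ : ∃ D : Set ℝ, D = {r | ∃ a ∈ A, ∃ x, r = ‖f (a • x) - f x‖} := ⟨_, rfl⟩
  have hmem : ∀ a ∈ A, ∀ x, ‖f (a • x) - f x‖ ∈ D := fun a ha x => hD ▸ ⟨a, ha, x, rfl⟩
  have hbd : BddAbove D := ⟨R + R, by
    rw [hD]
    rintro _ ⟨a, -, x, rfl⟩
    exact (norm_sub_le _ _).trans (add_le_add (hR _) (hR _))⟩
  have hle : ∀ a ∈ A, ∀ x, ‖f (a • x) - f x‖ ≤ sSup D := fun a ha x => le_csSup hbd (hmem a ha x)
  obtain ⟨u, -, hu, huD⟩ := exists_seq_tendsto_sSup ⟨_, hmem a0 ha0 x0⟩ hbd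
  generalize sSup D = S at hle hu
  rw [hD] at huD
  choose a ha x hx using huD
  choose γ hγ hK using fun j => M.cover (x j)
  let 𝒰 : Ultrafilter ℕ := Ultrafilter.of atTop
  obtain ⟨y0, -, hy0⟩ := M.K_cpt.ultrafilter_le_nhds (𝒰.map fun j => γ j • x j)
    (le_principal_iff.2 (mem_map.2 (Eventually.of_forall hK)))
  have hF : ∀ j, M.Hol fun y => f ((γ j)⁻¹ • y) := fun j y =>
    BM.HolAt.comp (f := f) (a := fun y => (γ j)⁻¹ • y) (hf _) (M.hol_smul _ y)
  have hFb : M.LocBdd (𝒰 : Filter ℕ) fun j y => f ((γ j)⁻¹ • y) :=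
    BM.locBdd_of_bound (Eventually.of_forall fun j y => hR _)
  obtain ⟨F, hFh, hFl⟩ := BM.montel 𝒰 (Eventually.of_forall hF) hFb
  obtain ⟨b, hbh, hbl⟩ := M.map_lim 𝒰 (a := fun j y => (γ j * a j * (γ j)⁻¹) • y)
    (Eventually.of_forall fun j => M.hol_smul _) hC
    (Eventually.of_forall fun j => hA _ (hΓ _ (hγ j) _ (ha j)))
  have e : ∀ j (y : M.X), (γ j)⁻¹ • (γ j * a j * (γ j)⁻¹) • y = a j • (γ j)⁻¹ • y := fun j y => by
    rw [mul_smul, mul_smul, inv_smul_smul]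
  have hul : ∀ y, Tendsto (fun j => f (a j • (γ j)⁻¹ • y) - f ((γ j)⁻¹ • y)) 𝒰
      (𝓝 (F (b y) - F y)) := fun y => by
    have := BM.vitali_moving (Eventually.of_forall hF) hFb hFl (hbl y)
    simp only [e] at this
    exact this.sub (hFl y)
  have h1 := BM.vitali_moving (f := fun j y => f (a j • (γ j)⁻¹ • y) - f ((γ j)⁻¹ • y))
    (Eventually.of_forall fun j y => BM.HolAt.sub (by
      simpa only [mul_smul, Function.comp_def] using BM.HolAt.comp (f := f)
        (a := fun y => (a j * (γ j)⁻¹) • y) (hf _) (M.hol_smul _ y)) (hF j y))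
    (BM.locBdd_of_bound (Eventually.of_forall fun j y => hle _ (ha j) _)) hul hy0
  simp only [inv_smul_smul] at h1
  have h2 : ‖F (b y0) - F y0‖ = S := tendsto_nhds_unique h1.norm
    ((hu.mono_left (Ultrafilter.of_le atTop)).congr hx)
  have h3 : ∀ y, F (b y) - F y = F (b y0) - F y0 :=
    BM.Hol.const_of_max (f := fun y => F (b y) - F y)
      (fun y => BM.HolAt.sub (BM.HolAt.comp (f := F) (a := b) (hFh _) (hbh y)) (hFh y))
      fun y => h2 ▸ le_of_tendsto' (hul y).norm fun j => hle _ (ha j) _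
  have h4 : ∀ k : ℕ, F (b^[k] y0) - F y0 = k * (F (b y0) - F y0) := fun k => by
    induction k with
    | zero => simp
    | succ k ih =>
      rw [Function.iterate_succ_apply', Nat.cast_succ]
      linear_combination ih + h3 (b^[k] y0)
  have h5 : ∀ y, ‖F y‖ ≤ R := fun y => le_of_tendsto' (hFl y).norm fun j => hR _
  have h6 : S ≤ 0 := by
    by_contra hS
    obtain ⟨k, hk⟩ := exists_lt_nsmul (not_le.1 hS) (R + R)
    have := (norm_sub_le _ _).trans (add_le_add (h5 (b^[k] y0)) (h5 y0))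
    rw [h4, norm_mul, h2, Complex.norm_natCast, ← nsmul_eq_mul] at this
    exact absurd hk (not_lt.2 this)
  exact sub_eq_zero.1 (norm_le_zero_iff.1 ((hle a0 ha0 x0).trans h6))

/-- Telescoping maximum trick: a set of automorphisms normalised by `Γ`, with relatively compact
orbits, is trivial. -/
theorem trivial_of_compact_orbits {A : Set M.Aut}
    (hΓ : ∀ γ ∈ M.Γ, ∀ a ∈ A, γ * a * γ⁻¹ ∈ A) {p : M.X} {C : Set M.X} (hC : IsCompact C)
    (hA : ∀ a ∈ A, a • p ∈ C) : ∀ a ∈ A, a = 1 := by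
  obtain ⟨R, -, hR⟩ := M.exists_bound
  refine fun a ha => Subtype.ext (Equiv.ext fun x => Subtype.ext (funext fun m => ?_))
  exact M.d1_coord hΓ hC hA (M.zc m).2 (fun x => (norm_le_pi_norm x.1 m).trans (hR x)) a ha x

theorem d1_move {C₀ C : Set M.X} (hC₀ : IsCompact C₀) (hC : IsCompact C) (y : M.X) :
    ∃ C', IsCompact C' ∧ ∀ a : M.Aut, a • y ∈ C₀ → ∀ x ∈ C, a • x ∈ C' := by
  obtain ⟨C', h1, h2⟩ := M.T1 hC₀ (hC.insert y)
  exact ⟨C', h1, fun a ha x hx => h2 (fun x => a • x) (M.hol_smul a) ⟨y, mem_insert _ _, ha⟩ x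
    (mem_insert_of_mem _ hx)⟩

/-- A basis of an invariant abelian subalgebra is pointwise linearly independent over `ℂ`. -/
theorem abelian_indep {k : ℕ} {Z : Fin k → M.End} (hZ : ∀ l, Z l ∈ M.gR)
    (hind : ∀ c : Fin k → ℝ, ∑ l, (c l : ℂ) • Z l = 0 → c = 0)
    (hcomm : ∀ l m, ⁅Z l, Z m⁆ = 0)
    (hΓ : ∀ γ ∈ M.Γ, ∀ l, ∃ c : Fin k → ℝ, M.Ad γ (Z l) = ∑ m, (c m : ℂ) • Z m) (x : M.X) :
    LinearIndependent ℂ (fun l => M.ev (Z l) x) := by
  classical
  obtain ⟨W, hW⟩ : ∃ W : (Fin k → ℝ) → M.End, ∀ c, W c = ∑ l, (c l : ℂ) • Z l := ⟨_, fun _ => rfl⟩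
  have hWg : ∀ c, W c ∈ M.gR := fun c => hW c ▸ M.sum_mem_gR _ c fun l _ => hZ l
  have hWc : ∀ c c', ⁅W c, W c'⁆ = 0 := fun c c' => by
    simp only [hW, sum_lie, lie_sum, smul_lie, lie_smul, hcomm, smul_zero, Finset.sum_const_zero]
  have hWa : ∀ c c', W (c + c') = W c + W c' := fun c c' => by
    simp only [hW, Pi.add_apply, Complex.ofReal_add, add_smul, Finset.sum_add_distrib]
  have hWs : ∀ (r : ℝ) c, W (r • c) = (r : ℂ) • W c := fun r c => by
    simp only [hW, Pi.smul_apply, smul_eq_mul, Complex.ofReal_mul, mul_smul, Finset.smul_sum]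
  have hWΓ : ∀ γ ∈ M.Γ, ∀ c, ∃ c', M.Ad γ (W c) = W c' := fun γ hγ c => by
    choose g hg using hΓ γ hγ
    refine ⟨fun m => ∑ l, c l * g l m, ?_⟩
    simp only [hW, BM.Ad_sum, BM.Ad_smul, hg, Finset.smul_sum, smul_smul, Complex.ofReal_sum,
      Complex.ofReal_mul, Finset.sum_smul]
    exact Finset.sum_comm
  choose θ hθ using hWg
  obtain ⟨T, hT⟩ : ∃ T : Set (Fin k → ℝ),
      T = {c | ∃ (y : M.X) (C : Set M.X), IsCompact C ∧ ∀ t, θ c t • y ∈ C} := ⟨_, rfl⟩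
  have hs : ∀ s : Finset (Fin k → ℝ), (s : Set (Fin k → ℝ)) ⊆ T → ∃ C, IsCompact C ∧
      ∀ c ∈ Submodule.span ℝ (s : Set (Fin k → ℝ)), ∀ t, θ c t • x ∈ C := by
    intro s
    induction s using Finset.induction_on with
    | empty =>
      refine fun _ => ⟨{x}, isCompact_singleton, fun c hc t => ?_⟩
      obtain rfl : c = 0 := by simpa using hc
      exact (hθ 0).fix (by simp [hW, BM.ev_zero]) t
    | insert a s _ ih =>
      intro h
      rw [Finset.coe_insert, insert_subset_iff] at h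
      obtain ⟨C, hC, h1⟩ := ih h.2
      obtain ⟨y, C₀, hC₀, h2⟩ : ∃ (y : M.X) (C : Set M.X), IsCompact C ∧ ∀ t, θ a t • y ∈ C := by
        simpa only [hT, mem_ofPred_eq] using h.1
      obtain ⟨C', hC', h3⟩ := M.d1_move hC₀ hC y
      refine ⟨C', hC', fun c hc t => ?_⟩
      rw [Finset.coe_insert, Submodule.mem_span_insert] at hc
      obtain ⟨r, z, hz, rfl⟩ := hc
      have h4 := hθ (r • a + z)
      rw [hWa, hWs] at h4
      rw [d1_prod ((hθ a).smul r) (hθ z) h4 (by rw [smul_lie, hWc, smul_zero])]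
      exact h3 _ (h2 _) _ (h1 z hz t)
  obtain ⟨s, hs1, hs2⟩ := (Submodule.fg_span_iff_fg_span_finset_subset (R := ℝ) T).1
    (IsNoetherian.noetherian _)
  obtain ⟨C, hC, h1⟩ := hs s hs1
  have h2 := M.trivial_of_compact_orbits (A := {a | ∃ c ∈ T, ∃ t, a = θ c t}) (by
    rintro γ hγ _ ⟨c, hc, t, rfl⟩
    obtain ⟨c', e⟩ := hWΓ γ hγ c
    have h3 := fun t => d1_uniq (hθ c') (e ▸ (hθ c).Ad γ) t
    refine ⟨c', ?_, t, h3 t⟩
    rw [hT] at hc ⊢
    obtain ⟨y, C₀, hC₀, h4⟩ := hc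
    refine ⟨γ • y, _, hC₀.image (BM.continuous_smul_aut γ), fun t => ⟨_, h4 t, ?_⟩⟩
    rw [← h3, mul_smul, mul_smul, inv_smul_smul]) hC (p := x) (by
    rintro _ ⟨c, hc, t, rfl⟩
    exact h1 c (hs2 ▸ Submodule.subset_span hc) t)
  have h5 : ∀ c, M.ev (W c) x = 0 → c = 0 := fun c hc => by
    have h6 : ∀ t, θ c t = 1 := fun t => h2 _ ⟨c, hT ▸ ⟨x, {x}, isCompact_singleton,
      (hθ c).fix hc⟩, t, rfl⟩
    refine hind c (hW c ▸ (hθ c).vf.ext BM.isVF_zero fun y => ?_)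
    have h7 := (hθ c).deriv y 0
    simp only [h6, one_smul] at h7
    exact h7.unique (hasDerivAt_const _ _)
  refine Fintype.linearIndependent_iff.2 fun g hg l => ?_
  have h8 := BM.liouville ⟨_, hθ fun l => (g l).re⟩ ⟨_, hθ fun l => (g l).im⟩ (hWc _ _) (p := x) (by
    rw [← hg]
    simp only [hW, BM.ev_sum, BM.ev_smul, Finset.smul_sum, smul_smul, ← Finset.sum_add_distrib,
      ← add_smul, mul_comm Complex.I, Complex.re_add_im])
  exact Complex.ext (congrFun (h5 _ h8.1) l) (congrFun (h5 _ h8.2) l)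

end CM

end Vale.Agent.P274
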