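import Vale.Agent.P274.B2
import Vale.Agent.P274.B7

/-! Suprema of families `‖d‖ exp (‖φ‖ ^ 2)` with `d`, `φ` holomorphic (auxiliary to D2). -/

open Metric Set Filter Topology

namespace Vale.Agent.P274

theorem d2_minor {k N : ℕ} {v : Fin k → E N} (hv : LinearIndependent ℂ v) :
    ∃ I : Fin k → Fin N, (Matrix.of fun m l => v l (I m)).det ≠ 0 := by
  let A : Matrix (Fin k) (Fin N) ℂ := Matrix.of v
  have h1 : A.rank = k := by simpa using LinearIndependent.rank_matrix (M := A) hv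
  have h2 : Module.finrank ℂ (Submodule.span ℂ (Set.range A.col)) = k := by
    rw [← Matrix.rank_eq_finrank_span_cols, h1]
  obtain ⟨f, hf, -, hi⟩ := Submodule.exists_fun_fin_finrank_span_eq ℂ (Set.range A.col)
  choose J hJ using hf
  refine ⟨fun m => J (Fin.cast h2.symm m), ?_⟩
  have h3 : LinearIndependent ℂ (Matrix.of fun m l => v l (J (Fin.cast h2.symm m))).row := by
    have h4 := hi.comp (Fin.cast h2.symm) (Fin.cast_injective _)
    have e : (Matrix.of fun m l => v l (J (Fin.cast h2.symm m))).row = f ∘ Fin.cast h2.symm := by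
      funext m
      rw [Function.comp_apply, ← hJ]
      rfl
    rwa [e]
  exact ((Matrix.isUnit_iff_isUnit_det _).1
    (Matrix.linearIndependent_rows_iff_isUnit.1 h3)).ne_zero

theorem d2_det_le {k N : ℕ} (ξ : Fin k → E N) (I : Fin k → Fin N) :
    ‖(Matrix.of fun m l => ξ l (I m)).det‖ ≤ k.factorial * ∏ l, ‖ξ l‖ := by
  rw [Matrix.det_apply']
  refine (norm_sum_le _ _).trans ?_
  refine (Finset.sum_le_card_nsmul _ _ (∏ l, ‖ξ l‖) fun σ _ => ?_).trans ?_
  · rw [norm_mul, norm_prod]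
    have : ‖((Equiv.Perm.sign σ : ℤ) : ℂ)‖ = 1 := by
      rcases Int.units_eq_one_or (Equiv.Perm.sign σ) with h | h <;> simp [h]
    rw [this, one_mul]
    exact Finset.prod_le_prod (fun _ _ => norm_nonneg _) fun l _ => norm_le_pi_norm (ξ l) _
  · simp [Fintype.card_perm]

theorem d2_det_le' {k N : ℕ} (ξ : Fin k → E N) (I : Fin k → Fin N) {B : ℝ} (hB : 1 ≤ B)
    (h : ∀ l, ‖ξ l‖ ≤ B) (l0 : Fin k) :
    ‖(Matrix.of fun m l => ξ l (I m)).det‖ ≤ k.factorial * B ^ k * ‖ξ l0‖ := by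
  refine (d2_det_le ξ I).trans ?_
  rw [mul_assoc]
  refine mul_le_mul_of_nonneg_left ?_ (Nat.cast_nonneg _)
  rw [← Finset.prod_erase_mul _ _ (Finset.mem_univ l0)]
  refine mul_le_mul_of_nonneg_right ?_ (norm_nonneg _)
  refine (Finset.prod_le_prod (fun _ _ => norm_nonneg _) fun l _ => h l).trans ?_
  rw [Finset.prod_const]
  refine pow_le_pow_right₀ hB ((Finset.card_le_univ _).trans ?_)
  simp

theorem d2_cmean_sum {ι : Type*} (s : Finset ι) {p : ι → ℝ → ℝ} (hp : ∀ i, Continuous (p i)) :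
    cmean (fun θ => ∑ i ∈ s, p i θ) = ∑ i ∈ s, cmean (p i) := by
  classical
  induction s using Finset.induction_on with
  | empty => simpa using cmean_const 0
  | insert a s ha ih =>
    simp only [Finset.sum_insert ha]
    rw [cmean_add (hp a) (continuous_finsetSum _ fun i _ => hp i), ih]

theorem d2_norm_sq_le {N : ℕ} (z : E N) : ‖z‖ ^ 2 ≤ ∑ m, ‖z m‖ ^ 2 := by
  have h0 : 0 ≤ ∑ m, ‖z m‖ ^ 2 := Finset.sum_nonneg fun _ _ => sq_nonneg _
  have h1 : ‖z‖ ≤ Real.sqrt (∑ m, ‖z m‖ ^ 2) := by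
    refine (pi_norm_le_iff_of_nonneg (Real.sqrt_nonneg _)).2 fun m => ?_
    exact Real.le_sqrt_of_sq_le
      (Finset.single_le_sum (f := fun m => ‖z m‖ ^ 2) (fun _ _ => sq_nonneg _) (Finset.mem_univ m))
  calc ‖z‖ ^ 2 ≤ Real.sqrt (∑ m, ‖z m‖ ^ 2) ^ 2 := pow_le_pow_left₀ (norm_nonneg _) h1 2
    _ = _ := Real.sq_sqrt h0

theorem d2_ce_two_pi : ce 0 = ce (2 * Real.pi) := by
  simp [ce]

/-- The weight. -/
noncomputable def d2G {N : ℕ} (p : ℂ × E N) : ℝ := ‖p.1‖ * Real.exp (∑ m, ‖p.2 m‖ ^ 2)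

theorem continuous_d2G {N : ℕ} : Continuous (d2G (N := N)) := by
  unfold d2G
  fun_prop

theorem d2G_nonneg {N : ℕ} (p : ℂ × E N) : 0 ≤ d2G p := by
  unfold d2G
  positivity

namespace BM

variable {N n : ℕ} {M : BM N n} {J : Type} {f : J → M.X → ℂ × E N}

/-- The supremum of the weights. -/
noncomputable def d2S (f : J → M.X → ℂ × E N) (x : M.X) : ℝ := ⨆ j, d2G (f j x)

/-- Admissible families. -/
structure D2Fam (f : J → M.X → ℂ × E N) : Prop where
  hol : ∀ j, M.Hol (f j)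
  bd : ∀ C, IsCompact C → ∃ B : ℝ, ∀ j, ∀ x ∈ C, ‖f j x‖ ≤ B
  pos : ∀ x, ∃ j, (f j x).1 ≠ 0

theorem D2Fam.nonempty (hf : D2Fam f) : Nonempty J :=
  ⟨(hf.pos (Classical.arbitrary M.X)).choose⟩

theorem D2Fam.le (hf : D2Fam f) (j : J) (x : M.X) : d2G (f j x) ≤ d2S f x := by
  obtain ⟨B, hB⟩ := hf.bd {x} isCompact_singleton
  obtain ⟨b, hb⟩ := (isCompact_closedBall (0 : ℂ × E N) B).bddAbove_image
    continuous_d2G.continuousOn
  refine le_ciSup (f := fun j => d2G (f j x)) ⟨b, ?_⟩ j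
  rintro _ ⟨i, rfl⟩
  exact hb (mem_image_of_mem _ (mem_closedBall_zero_iff.2 (hB i x rfl)))

theorem D2Fam.s_pos (hf : D2Fam f) (x : M.X) : 0 < d2S f x := by
  obtain ⟨j, hj⟩ := hf.pos x
  refine lt_of_lt_of_le ?_ (hf.le j x)
  unfold d2G
  exact mul_pos (norm_pos_iff.2 hj) (Real.exp_pos _)

theorem D2Fam.s_cont (hf : D2Fam f) : Continuous (d2S f) := by
  have := hf.nonempty
  refine continuous_iff_continuousAt.2 fun x => ?_
  obtain ⟨C', hC', hxC, δ, K, hδ, hK, hball, hlip⟩ :=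
    cauchy_lip (M := M) (F := ℂ × E N) (isCompact_singleton (x := x))
  obtain ⟨B, hB⟩ := hf.bd C' hC'
  have hB0 : 0 ≤ B := (norm_nonneg _).trans (hB (Classical.arbitrary J) x (hxC rfl))
  have huc := (isCompact_closedBall (0 : ℂ × E N) B).uniformContinuousOn_of_continuous
    continuous_d2G.continuousOn
  rw [Metric.uniformContinuousOn_iff] at huc
  refine Metric.continuousAt_iff.2 fun ε hε => ?_
  obtain ⟨η, hη, hη'⟩ := huc (ε / 2) (half_pos hε)
  refine ⟨min δ (η / (K * B + 1)), lt_min hδ (by positivity), fun y hy => ?_⟩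
  have hy1 : dist y x < δ := hy.trans_le (min_le_left _ _)
  have hy2 : dist y x < η / (K * B + 1) := hy.trans_le (min_le_right _ _)
  have hyC : y ∈ C' := hball x rfl hy1
  have key : ∀ j, |d2G (f j y) - d2G (f j x)| < ε / 2 := fun j => by
    have h1 := hlip (f j) B (hf.hol j) (hB j) x rfl y hy1
    rw [← Real.dist_eq]
    refine hη' _ (mem_closedBall_zero_iff.2 (hB j y hyC)) _
      (mem_closedBall_zero_iff.2 (hB j x (hxC rfl))) ?_
    rw [dist_eq_norm]
    rw [lt_div_iff₀ (by positivity)] at hy2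
    have h2 : 0 ≤ dist y x := dist_nonneg
    nlinarith
  have h1 : d2S f y ≤ d2S f x + ε / 2 :=
    ciSup_le fun j => by linarith [(abs_lt.1 (key j)).2, hf.le j x]
  have h2 : d2S f x ≤ d2S f y + ε / 2 :=
    ciSup_le fun j => by linarith [(abs_lt.1 (key j)).1, hf.le j y]
  rw [Real.dist_eq, abs_lt]
  constructor <;> linarith

theorem D2Fam.u_cont (hf : D2Fam f) : Continuous fun x => Real.log (d2S f x) :=
  hf.s_cont.log fun x => (hf.s_pos x).ne'

theorem D2Fam.disc (hf : D2Fam f) (j : J) (x : M.X) (w v : E n)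
    (hb : ∀ ζ : ℂ, ‖ζ‖ ≤ 1 → w + ζ • v ∈ ball (0 : E n) (M.r x)) :
    d2G (f j (M.ψ x w)) *
        Real.exp (‖deriv (fun ζ : ℂ => (f j (M.ψ x (w + ζ • v))).2) 0‖ ^ 2)
      ≤ Real.exp (cmean fun θ => Real.log (d2S f (M.ψ x (w + ce θ • v)))) := by
  have hl : Continuous fun ζ : ℂ => w + ζ • v := by fun_prop
  obtain ⟨e, he, hsub⟩ := (isCompact_closedBall (0 : ℂ) 1).exists_thickening_subset_open
    (isOpen_ball.preimage hl) fun ζ hζ => hb ζ (mem_closedBall_zero_iff.1 hζ)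
  rw [thickening_closedBall he zero_le_one] at hsub
  have hR : 1 < e + 1 := by linarith
  have hld : Differentiable ℂ fun ζ : ℂ => w + ζ • v := by fun_prop
  have hd : DifferentiableOn ℂ (fun ζ : ℂ => f j (M.ψ x (w + ζ • v))) (ball 0 (e + 1)) :=
    ((hf.hol j).analyticOnNhd x).differentiableOn.comp hld.differentiableOn hsub
  have hce : ∀ θ, ce θ ∈ ball (0 : ℂ) (e + 1) := fun θ => by
    rw [mem_ball_zero_iff, norm_ce]; exact hR
  have hcψ : Continuous fun θ => M.ψ x (w + ce θ • v) :=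
    (M.continuousOn_ψ x).comp_continuous (hl.comp continuous_ce)
      fun θ => hb _ (norm_ce θ).le
  have hcf : Continuous fun θ => f j (M.ψ x (w + ce θ • v)) := (hf.hol j).continuous.comp hcψ
  have hcu : Continuous fun θ => Real.log (d2S f (M.ψ x (w + ce θ • v))) := hf.u_cont.comp hcψ
  have hcp : ∀ m, Continuous fun θ => ‖(f j (M.ψ x (w + ce θ • v))).2 m‖ ^ 2 := fun m =>
    ((continuous_apply m).comp hcf.snd).norm.pow 2
  have hcP : Continuous fun θ => ∑ m, ‖(f j (M.ψ x (w + ce θ • v))).2 m‖ ^ 2 :=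
    continuous_finsetSum _ fun m _ => hcp m
  have h1 : ‖(f j (M.ψ x (w + (0 : ℂ) • v))).1‖ ≤ Real.exp (cmean fun θ =>
      Real.log (d2S f (M.ψ x (w + ce θ • v))) - ∑ m, ‖(f j (M.ψ x (w + ce θ • v))).2 m‖ ^ 2) := by
    refine norm_le_exp_cmean (f := fun ζ : ℂ => (f j (M.ψ x (w + ζ • v))).1) ?_ (hcu.sub hcP)
      (by rw [d2_ce_two_pi]) fun θ _ => ?_
    · refine DifferentiableOn.diffContOnCl (hd.fst.mono ?_)
      rw [closure_ball _ one_ne_zero]
      exact closedBall_subset_ball hR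
    · rw [Real.exp_sub, Real.exp_log (hf.s_pos _), le_div_iff₀ (Real.exp_pos _)]
      exact hf.le j _
  have h2 := cmean_add (hcu.sub hcP) hcP
  simp only [Pi.sub_apply, sub_add_cancel] at h2
  have hd0 : DifferentiableAt ℂ (fun ζ : ℂ => (f j (M.ψ x (w + ζ • v))).2) 0 :=
    (hd.snd.differentiableAt (ball_mem_nhds _ (by linarith)))
  have h3 : ∑ m, ‖(f j (M.ψ x w)).2 m‖ ^ 2
      + ‖deriv (fun ζ : ℂ => (f j (M.ψ x (w + ζ • v))).2) 0‖ ^ 2
      ≤ cmean fun θ => ∑ m, ‖(f j (M.ψ x (w + ce θ • v))).2 m‖ ^ 2 := by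
    rw [d2_cmean_sum _ hcp]
    refine (add_le_add le_rfl (d2_norm_sq_le _)).trans ?_
    rw [← Finset.sum_add_distrib]
    refine Finset.sum_le_sum fun m _ => ?_
    have h4 := sq_le_cmean (f := fun ζ : ℂ => (f j (M.ψ x (w + ζ • v))).2 m) hR
      (differentiableOn_pi.1 hd.snd m)
    rw [(hasDerivAt_pi.1 hd0.hasDerivAt m).deriv] at h4
    simpa using h4
  rw [zero_smul, add_zero] at h1
  unfold d2G
  rw [mul_assoc, ← Real.exp_add]
  refine (mul_le_mul h1 (Real.exp_le_exp.2 h3) (Real.exp_pos _).le (Real.exp_pos _).le).trans ?_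
  rw [← Real.exp_add]
  exact Real.exp_le_exp.2 (le_of_eq h2.symm)

theorem D2Fam.sub (hf : D2Fam f) (x : M.X) (w v : E n)
    (hb : ∀ ζ : ℂ, ‖ζ‖ ≤ 1 → w + ζ • v ∈ ball (0 : E n) (M.r x)) {κ : ℝ} (hκ : 0 ≤ κ)
    (h : ∀ j, d2S f (M.ψ x w) / 2 < d2G (f j (M.ψ x w)) →
      κ ≤ ‖deriv (fun ζ : ℂ => (f j (M.ψ x (w + ζ • v))).2) 0‖) :
    Real.log (d2S f (M.ψ x w)) + κ ^ 2
      ≤ cmean fun θ => Real.log (d2S f (M.ψ x (w + ce θ • v))) := by
  have := hf.nonempty
  have hp := hf.s_pos (M.ψ x w)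
  set c := cmean fun θ => Real.log (d2S f (M.ψ x (w + ce θ • v))) with hc
  have h1 : d2S f (M.ψ x w) ≤ max (d2S f (M.ψ x w) / 2) (Real.exp (c - κ ^ 2)) := by
    refine ciSup_le fun j => ?_
    by_cases hj : d2S f (M.ψ x w) / 2 < d2G (f j (M.ψ x w))
    · refine le_max_of_le_right ?_
      rw [Real.exp_sub, le_div_iff₀ (Real.exp_pos _)]
      refine le_trans (mul_le_mul_of_nonneg_left (Real.exp_le_exp.2 ?_) (d2G_nonneg _))
        (hf.disc j x w v hb)
      exact pow_le_pow_left₀ hκ (h j hj) 2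
    · exact le_max_of_le_left (not_lt.1 hj)
  have h2 : d2S f (M.ψ x w) ≤ Real.exp (c - κ ^ 2) := by
    rcases le_max_iff.1 h1 with h2 | h2
    · linarith
    · exact h2
  have h3 := (Real.log_le_iff_le_exp hp).2 h2
  linarith

end BM

end Vale.Agent.P274
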