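import Vale.Agent.P274.D1
import Vale.Agent.P274.B7
import Vale.Agent.P274.D2x

/-! The logarithmic volume cocycle; semisimplicity. -/

open Metric Set Filter Topology

namespace Vale.Agent.P274

namespace AM

variable {N n : ℕ} (M : AM N n)

/-- The family of minors. -/
noncomputable def d2F {k : ℕ} (Z : Fin k → M.End) (j : M.Γ × (Fin k → Fin N)) (x : M.X) :
    ℂ × E N :=
  ((Matrix.of fun m l => (Z l (M.pull j.1.1 (M.zc (j.2 m)))).1 x).det, M.ι (j.1.1 • x))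

theorem d2F_fst {k : ℕ} {Z : Fin k → M.End} (hZ : ∀ l, M.IsVF (Z l))
    (j : M.Γ × (Fin k → Fin N)) (x : M.X) : (M.d2F Z j x).1 = (Matrix.of fun m l =>
      M.df (fun y => M.ι (j.1.1 • y)) x (M.ev (Z l) x) (j.2 m)).det := by
  unfold d2F
  simp only
  congr 1
  ext m l
  simp only [Matrix.of_apply]
  rw [(hZ l x).2, BM.df_pi (M.hol_smul j.1.1 x)]
  rfl

theorem d2_col_bound {k : ℕ} {Z : Fin k → M.End} (hZ : ∀ l, M.IsVF (Z l)) {C : Set M.X}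
    (hC : IsCompact C) : ∃ B : ℝ, 1 ≤ B ∧ ∀ (a : M.Aut), ∀ x ∈ C, ∀ l,
      ‖M.df (fun y => M.ι (a • y)) x (M.ev (Z l) x)‖ ≤ B := by
  obtain ⟨K, hK, hKb⟩ := M.df_aut_bound hC
  have hc : Continuous fun x : M.X => fun l => M.ev (Z l) x :=
    continuous_pi fun l => (BM.hol_ev (Z l)).continuous
  obtain ⟨B0, hB0⟩ := hC.exists_bound_of_continuousOn hc.continuousOn
  refine ⟨max 1 (K * B0), le_max_left _ _, fun a x hx l => ?_⟩
  refine (hKb a x hx _ (hZ l x).1).trans (le_max_of_le_right ?_)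
  exact mul_le_mul_of_nonneg_left
    ((norm_le_pi_norm (fun l => M.ev (Z l) x) l).trans (hB0 x hx)) hK.le

theorem d2F_fam {k : ℕ} {Z : Fin k → M.End} (hZ : ∀ l, M.IsVF (Z l))
    (hind : ∀ x, LinearIndependent ℂ (fun l => M.ev (Z l) x)) (l0 : Fin k) :
    BM.D2Fam (M.d2F Z) where
  hol j x := BM.HolAt.prodMk
    (BM.holAt_det fun m l => (Z l (M.pull j.1.1 (M.zc (j.2 m)))).2 x) (M.hol_smul j.1.1 x)
  bd C hC := by
    obtain ⟨B, hB, hBb⟩ := M.d2_col_bound hZ hC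
    obtain ⟨R, -, hR⟩ := M.exists_bound
    refine ⟨max (k.factorial * B ^ k * B) R, fun j x hx => ?_⟩
    rw [Prod.norm_def]
    refine max_le_max ?_ (hR _)
    rw [M.d2F_fst hZ]
    refine (d2_det_le' _ _ hB (hBb j.1.1 x hx) l0).trans ?_
    exact mul_le_mul_of_nonneg_left (hBb j.1.1 x hx l0) (by positivity)
  pos x := by
    obtain ⟨I, hI⟩ := d2_minor (hind x)
    refine ⟨(1, I), ?_⟩
    unfold d2F
    simp only [OneMemClass.coe_one, BM.pull_one]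
    exact hI

theorem d2_cocycle {k : ℕ} {Z : Fin k → M.End}
    (hΓ : ∀ γ ∈ M.Γ, ∀ l, ∃ c : Fin k → ℂ, M.Ad γ (Z l) = ∑ m, c m • Z m) {γ : M.Aut}
    (hγ : γ ∈ M.Γ) : ∃ t : ℝ, ∀ x, BM.d2S (M.d2F Z) (γ • x) = t * BM.d2S (M.d2F Z) x := by
  choose c hc using hΓ γ⁻¹ (M.Γ.inv_mem hγ)
  refine ⟨‖(Matrix.of fun m l => c l m).det‖, fun x => ?_⟩
  let e : M.Γ × (Fin k → Fin N) → M.Γ × (Fin k → Fin N) := fun j => (j.1 * ⟨γ, hγ⟩, j.2)
  have he : Function.Surjective e := fun j => ⟨(j.1 * (⟨γ, hγ⟩ : M.Γ)⁻¹, j.2), by simp [e]⟩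
  have key : ∀ j, d2G (M.d2F Z j (γ • x))
      = ‖(Matrix.of fun m l => c l m).det‖ * d2G (M.d2F Z (e j) x) := by
    intro j
    have h1 : (M.d2F Z j (γ • x)).1 = (M.d2F Z (e j) x).1 * (Matrix.of fun m l => c l m).det := by
      unfold d2F
      simp only
      rw [← Matrix.det_mul]
      congr 1
      ext m l
      have h2 := BM.Ad_apply γ⁻¹ (Z l) (M.pull (e j).1.1 (M.zc (j.2 m))) x
      have h3 : M.pull γ⁻¹ (M.pull (e j).1.1 (M.zc (j.2 m))) = M.pull j.1.1 (M.zc (j.2 m)) := by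
        refine Subtype.ext (funext fun y => ?_)
        rw [BM.pull_apply, BM.pull_apply, BM.pull_apply]
        simp [e, mul_smul]
      rw [h3, inv_inv, hc l] at h2
      rw [Matrix.of_apply, ← h2, Matrix.mul_apply, LinearMap.sum_apply]
      simp only [Matrix.of_apply, LinearMap.smul_apply, AddSubmonoidClass.coe_finsetSum,
        Finset.sum_apply, SetLike.val_smul, Pi.smul_apply, smul_eq_mul]
      exact Finset.sum_congr rfl fun i _ => mul_comm _ _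
    have h2 : (M.d2F Z j (γ • x)).2 = (M.d2F Z (e j) x).2 := by
      unfold d2F
      simp [e, mul_smul]
    unfold d2G
    rw [h1, h2, norm_mul]
    ring
  unfold BM.d2S
  simp only [key]
  rw [← Real.mul_iSup_of_nonneg (norm_nonneg _), he.iSup_comp fun j => d2G (M.d2F Z j x)]

theorem d2_strict {k : ℕ} {Z : Fin k → M.End} (hZ : ∀ l, M.IsVF (Z l))
    (hf : BM.D2Fam (M.d2F Z)) (l0 : Fin k) (x : M.X) :
    ∃ (v : E n) (κ δ : ℝ), 0 < κ ∧ 0 < δ ∧ ∀ w ∈ ball (0 : E n) δ, ∀ s : ℝ, 0 < s → s < δ →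
      Real.log (BM.d2S (M.d2F Z) (M.ψ x w)) + κ * s ^ 2 ≤
        cmean (fun θ => Real.log (BM.d2S (M.d2F Z) (M.ψ x (w + (s * ce θ) • v)))) := by
  have hr := M.r_pos x
  have h0 : (0 : E n) ∈ ball (0 : E n) (M.r x) := mem_ball_self hr
  have hC := M.isCompact_image_closedBall x (half_lt_self hr)
  obtain ⟨B, hB, hBb⟩ := M.d2_col_bound hZ hC
  obtain ⟨K, hK, hKb⟩ := M.df_aut_bound hC
  obtain ⟨R, hR0, hR⟩ := M.exists_bound
  have hS := hf.s_pos x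
  set v := M.L x (M.ev (Z l0) x) with hv
  set A : ℝ := k.factorial * B ^ k * Real.exp (N * R ^ 2) with hA
  have hA0 : 0 < A := by positivity
  set c2 := BM.d2S (M.d2F Z) x / (4 * A) with hc2
  have hc20 : 0 < c2 := by positivity
  have hψ : ContinuousAt (M.ψ x) 0 := (M.continuousOn_ψ x).continuousAt (ball_mem_nhds _ hr)
  have e1 : ∀ᶠ w in 𝓝 (0 : E n), BM.d2S (M.d2F Z) x / 2 < BM.d2S (M.d2F Z) (M.ψ x w) := by
    have h1 : ContinuousAt (fun w => BM.d2S (M.d2F Z) (M.ψ x w)) 0 :=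
      hf.s_cont.continuousAt.comp hψ
    refine h1.eventually (lt_mem_nhds ?_)
    simp only [M.ψ_zero]
    linarith
  have e2 : ∀ᶠ w in 𝓝 (0 : E n),
      ‖fderiv ℂ (M.ι ∘ M.ψ x) w v - M.ev (Z l0) (M.ψ x w)‖ < c2 / (2 * K) := by
    have h1 : ContinuousAt (fun w => ‖fderiv ℂ (M.ι ∘ M.ψ x) w v - M.ev (Z l0) (M.ψ x w)‖) 0 :=
      (((M.analyticAt_ψ x h0).fderiv.continuousAt.clm_apply continuousAt_const).sub
        ((BM.hol_ev (Z l0)).continuous.continuousAt.comp hψ)).norm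
    refine h1.eventually (gt_mem_nhds ?_)
    have h2 : fderiv ℂ (M.ι ∘ M.ψ x) 0 v = M.ev (Z l0) x :=
      BM.fderiv_ψ_L h0 (by rw [M.ψ_zero]; exact (hZ l0 x).1)
    simp only [M.ψ_zero, h2, sub_self, norm_zero]
    positivity
  obtain ⟨δ1, hδ1, hδ⟩ := Metric.eventually_nhds_iff_ball.1 (e1.and e2)
  refine ⟨v, (c2 / 2) ^ 2, min δ1 (M.r x / (2 * (1 + ‖v‖))), by positivity,
    lt_min hδ1 (by positivity), fun w hw s hs hsδ => ?_⟩
  obtain ⟨hw1, hw2⟩ := hδ w (ball_subset_ball (min_le_left _ _) hw)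
  have hw3 : ‖w‖ < M.r x / (2 * (1 + ‖v‖)) :=
    (mem_ball_zero_iff.1 hw).trans_le (min_le_right _ _)
  have hs3 : s < M.r x / (2 * (1 + ‖v‖)) := hsδ.trans_le (min_le_right _ _)
  rw [lt_div_iff₀ (by positivity)] at hw3 hs3
  have hv0 := norm_nonneg v
  have hw0 := norm_nonneg w
  have hw4 : ‖w‖ ≤ M.r x / 2 := by nlinarith
  have hwb : w ∈ ball (0 : E n) (M.r x) := mem_ball_zero_iff.2 (by linarith)
  have hyC : M.ψ x w ∈ M.ψ x '' closedBall 0 (M.r x / 2) :=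
    mem_image_of_mem _ (mem_closedBall_zero_iff.2 hw4)
  have hb : ∀ ζ : ℂ, ‖ζ‖ ≤ 1 → w + ζ • (s : ℂ) • v ∈ ball (0 : E n) (M.r x) := fun ζ hζ => by
    rw [mem_ball_zero_iff]
    refine (norm_add_le _ _).trans_lt ?_
    rw [norm_smul, norm_smul, Complex.norm_real, Real.norm_eq_abs, abs_of_pos hs]
    have h1 : ‖ζ‖ * (s * ‖v‖) ≤ s * ‖v‖ := mul_le_of_le_one_left (by positivity) hζ
    nlinarith
  have hmain := hf.sub x w ((s : ℂ) • v) hb (κ := c2 / 2 * s) (by positivity) fun j hj => ?_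
  · simp only [smul_smul, mul_comm (ce _) (s : ℂ)] at hmain
    rw [mul_pow] at hmain
    exact hmain
  have hl : HasDerivAt (fun ζ : ℂ => w + ζ • (s : ℂ) • v) ((s : ℂ) • v) 0 := by
    simpa using ((hasDerivAt_id (0 : ℂ)).smul_const ((s : ℂ) • v)).const_add w
  have hc : HasDerivAt (M.ι ∘ fun ζ : ℂ => M.ψ x (w + ζ • (s : ℂ) • v))
      (fderiv ℂ (M.ι ∘ M.ψ x) w ((s : ℂ) • v)) 0 :=
    (M.analyticAt_ψ x hwb).differentiableAt.hasFDerivAt.comp_hasDerivAt_of_eq 0 hl (by simp)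
  have hD := BM.HolAt.hasDerivAt_comp (f := fun y => M.ι (j.1.1 • y)) (M.hol_smul j.1.1 _) hc
  simp only [zero_smul, add_zero] at hD
  have hD' : deriv (fun ζ : ℂ => (M.d2F Z j (M.ψ x (w + ζ • (s : ℂ) • v))).2) 0 = _ := hD.deriv
  rw [hD', map_smul, map_smul, norm_smul, Complex.norm_real, Real.norm_eq_abs, abs_of_pos hs,
    mul_comm]
  refine mul_le_mul_of_nonneg_left ?_ hs.le
  set y := M.ψ x w with hy
  have h1 : ‖(M.d2F Z j y).1‖ ≤ k.factorial * B ^ k *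
      ‖M.df (fun y => M.ι (j.1.1 • y)) y (M.ev (Z l0) y)‖ := by
    rw [M.d2F_fst hZ]
    exact d2_det_le' _ _ hB (hBb j.1.1 y hyC) l0
  have h2 : ∑ m, ‖(M.d2F Z j y).2 m‖ ^ 2 ≤ N * R ^ 2 := by
    refine (Finset.sum_le_card_nsmul _ _ (R ^ 2) fun m _ => ?_).trans (by simp)
    exact pow_le_pow_left₀ (norm_nonneg _) ((norm_le_pi_norm _ m).trans (hR _)) 2
  have h3 : d2G (M.d2F Z j y) ≤ A * ‖M.df (fun y => M.ι (j.1.1 • y)) y (M.ev (Z l0) y)‖ := by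
    unfold d2G
    refine (mul_le_mul h1 (Real.exp_le_exp.2 h2) (Real.exp_pos _).le (by positivity)).trans ?_
    exact le_of_eq (by rw [hA]; ring)
  have h4 : c2 ≤ ‖M.df (fun y => M.ι (j.1.1 • y)) y (M.ev (Z l0) y)‖ := by
    rw [hc2, div_le_iff₀ (by positivity)]
    linarith
  have h5 := hKb j.1.1 y hyC _ ((M.T y).sub_mem (BM.fderiv_ψ_mem_T hwb v) (hZ l0 y).1)
  have h6 : K * ‖fderiv ℂ (M.ι ∘ M.ψ x) w v - M.ev (Z l0) y‖ ≤ c2 / 2 := by
    rw [lt_div_iff₀ (by positivity)] at hw2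
    linarith
  rw [map_sub] at h5
  have h7 := norm_sub_norm_le (M.df (fun y => M.ι (j.1.1 • y)) y (M.ev (Z l0) y))
    (M.df (fun y => M.ι (j.1.1 • y)) y (fderiv ℂ (M.ι ∘ M.ψ x) w v))
  rw [norm_sub_rev] at h7
  linarith

theorem no_frame {k : ℕ} {Z : Fin k → M.End} (hZ : ∀ l, M.IsVF (Z l))
    (hind : ∀ x, LinearIndependent ℂ (fun l => M.ev (Z l) x))
    (hΓ : ∀ γ ∈ M.Γ, ∀ l, ∃ c : Fin k → ℂ, M.Ad γ (Z l) = ∑ m, c m • Z m) : k = 0 := by
  by_contra hk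
  have l0 : Fin k := ⟨0, Nat.pos_of_ne_zero hk⟩
  have hf := M.d2F_fam hZ hind l0
  have hc : ∀ γ ∈ M.Γ, ∃ c : ℝ, ∀ x, Real.log (BM.d2S (M.d2F Z) (γ • x))
      = Real.log (BM.d2S (M.d2F Z) x) + c := fun γ hγ => by
    obtain ⟨t, ht⟩ := M.d2_cocycle hΓ hγ
    refine ⟨Real.log t, fun x => ?_⟩
    have h1 := hf.s_pos (γ • x)
    rw [ht] at h1 ⊢
    rw [Real.log_mul (left_ne_zero_of_mul h1.ne') (hf.s_pos x).ne', add_comm]
  choose! c hc using hc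
  refine M.no_cocycle hf.u_cont hc (fun x w v hb => ?_) (M.d2_strict hZ hf l0)
  simpa using hf.sub x w v hb le_rfl fun j _ => norm_nonneg _

end AM

end Vale.Agent.P274
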