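import Vale.Agent.P274.D2

/-! Semisimplicity of the Lie algebra. -/

open Metric Set Filter Topology

namespace Vale.Agent.P274

section

variable {𝔤 : Type*} [LieRing 𝔤] [LieAlgebra ℂ 𝔤]

/-- Maps that preserve sums and brackets and send lines to lines. -/
structure D3Good (φ : 𝔤 → 𝔤) : Prop where
  add : ∀ X Y, φ (X + Y) = φ X + φ Y
  smul : ∀ (c : ℂ) X, ∃ c' : ℂ, φ (c • X) = c' • φ X
  lie : ∀ X Y, φ ⁅X, Y⁆ = ⁅φ X, φ Y⁆

theorem D3Good.zero {φ : 𝔤 → 𝔤} (h : D3Good φ) : φ 0 = 0 := by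
  have := h.add 0 0
  rw [add_zero] at this
  exact left_eq_add.1 this

/-- The preimage of an ideal. -/
def D3Good.pre {φ : 𝔤 → 𝔤} (h : D3Good φ) (I : LieIdeal ℂ 𝔤) : LieIdeal ℂ 𝔤 where
  carrier := {X | φ X ∈ I}
  add_mem' := fun {a b} ha hb => by
    change φ (a + b) ∈ I
    rw [h.add]; exact I.add_mem ha hb
  zero_mem' := by
    change φ 0 ∈ I
    rw [h.zero]; exact I.zero_mem
  smul_mem' := fun c {a} ha => by
    change φ (c • a) ∈ I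
    obtain ⟨c', hc⟩ := h.smul c a
    rw [hc]; exact I.smul_mem c' ha
  lie_mem := fun {x m} hm => by
    change φ ⁅x, m⁆ ∈ I
    rw [h.lie]; exact I.lie_mem hm

theorem D3Good.mem_pre {φ : 𝔤 → 𝔤} (h : D3Good φ) (I : LieIdeal ℂ 𝔤) (X : 𝔤) :
    X ∈ h.pre I ↔ φ X ∈ I := Iff.rfl

theorem D3Good.der_pre {φ : 𝔤 → 𝔤} (h : D3Good φ) (I : LieIdeal ℂ 𝔤) (k : ℕ) :
    LieAlgebra.derivedSeriesOfIdeal ℂ 𝔤 k (h.pre I) ≤
      h.pre (LieAlgebra.derivedSeriesOfIdeal ℂ 𝔤 k I) := by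
  induction k with
  | zero => simp
  | succ k ih =>
    rw [LieAlgebra.derivedSeriesOfIdeal_succ, LieAlgebra.derivedSeriesOfIdeal_succ,
      LieSubmodule.lie_le_iff]
    intro x hx y hy
    rw [h.mem_pre, h.lie]
    exact LieSubmodule.lie_mem_lie ((h.mem_pre _ _).1 (ih hx)) ((h.mem_pre _ _).1 (ih hy))

theorem d3_solvable_iff (I : LieIdeal ℂ 𝔤) :
    LieAlgebra.IsSolvable I ↔ ∃ k, LieAlgebra.derivedSeriesOfIdeal ℂ 𝔤 k I = ⊥ := by
  rw [LieAlgebra.isSolvable_iff ℂ]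
  simp only [LieIdeal.derivedSeries_eq_bot_iff]

theorem D3Good.der_rad [FiniteDimensional ℂ 𝔤] {φ ψ : 𝔤 → 𝔤} (h : D3Good φ) (h' : D3Good ψ)
    (h1 : ∀ X, ψ (φ X) = X) (h2 : ∀ X, φ (ψ X) = X) (k : ℕ) {X : 𝔤}
    (hX : X ∈ LieAlgebra.derivedSeriesOfIdeal ℂ 𝔤 k (LieAlgebra.radical ℂ 𝔤)) :
    φ X ∈ LieAlgebra.derivedSeriesOfIdeal ℂ 𝔤 k (LieAlgebra.radical ℂ 𝔤) := by
  have a1 : h'.pre (LieAlgebra.radical ℂ 𝔤) ≤ LieAlgebra.radical ℂ 𝔤 := by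
    rw [← LieAlgebra.LieIdeal.solvable_iff_le_radical, d3_solvable_iff]
    obtain ⟨m, hm⟩ := (d3_solvable_iff (LieAlgebra.radical ℂ 𝔤)).1 inferInstance
    refine ⟨m, le_bot_iff.1 ((h'.der_pre _ m).trans ?_)⟩
    intro Y hY
    rw [h'.mem_pre, hm, LieSubmodule.mem_bot] at hY
    rw [LieSubmodule.mem_bot, ← h2 Y, hY, h.zero]
  have a2 : LieAlgebra.radical ℂ 𝔤 ≤ h.pre (LieAlgebra.radical ℂ 𝔤) := by
    intro Y hY
    rw [h.mem_pre]
    apply a1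
    rw [h'.mem_pre, h1]
    exact hY
  exact (h.mem_pre _ _).1 (h.der_pre _ k (LieAlgebra.derivedSeriesOfIdeal_mono a2 k hX))

theorem d3_isKilling [FiniteDimensional ℂ 𝔤] (h : LieAlgebra.HasTrivialRadical ℂ 𝔤) :
    LieAlgebra.IsKilling ℂ 𝔤 := inferInstance

theorem d3Good_conj (σ : Conj 𝔤) : D3Good σ :=
  ⟨σ.map_add, fun c X => ⟨_, σ.map_smul c X⟩, σ.map_lie⟩

theorem d3Good_equiv (e : 𝔤 ≃ₗ⁅ℂ⁆ 𝔤) : D3Good e :=
  ⟨fun X Y => map_add e X Y, fun c X => ⟨c, map_smul e c X⟩, fun X Y => e.map_lie X Y⟩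

end

/-- A complex Lie algebra with conjugation and nonzero radical has a nonzero abelian subspace
that is stable under the conjugation and under all automorphisms. -/
theorem exists_char_abelian {𝔤 : Type*} [LieRing 𝔤] [LieAlgebra ℂ 𝔤] [FiniteDimensional ℂ 𝔤]
    (σ : Conj 𝔤) (h : ¬ LieAlgebra.HasTrivialRadical ℂ 𝔤) :
    ∃ 𝔞 : Submodule ℂ 𝔤, 𝔞 ≠ ⊥ ∧ (∀ X ∈ 𝔞, ∀ Y ∈ 𝔞, ⁅X, Y⁆ = 0) ∧ (∀ X ∈ 𝔞, σ X ∈ 𝔞) ∧
      ∀ e : 𝔤 ≃ₗ⁅ℂ⁆ 𝔤, ∀ X ∈ 𝔞, e X ∈ 𝔞 := by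
  classical
  have hex := (d3_solvable_iff (LieAlgebra.radical ℂ 𝔤)).1 inferInstance
  have h0 : Nat.find hex ≠ 0 := by
    intro h0
    have := Nat.find_spec hex
    rw [h0, LieAlgebra.derivedSeriesOfIdeal_zero] at this
    exact h ⟨this⟩
  obtain ⟨k, hk⟩ := Nat.exists_eq_succ_of_ne_zero h0
  have h1 := Nat.find_spec hex
  have h2 := Nat.find_min hex (m := k) (by omega)
  rw [hk, LieAlgebra.derivedSeriesOfIdeal_succ] at h1
  refine ⟨(LieAlgebra.derivedSeriesOfIdeal ℂ 𝔤 k (LieAlgebra.radical ℂ 𝔤)).toSubmodule,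
    fun hb => h2 (by simpa using hb), fun X hX Y hY => ?_, fun X hX => ?_, fun e X hX => ?_⟩
  · have := LieSubmodule.lie_mem_lie (I := LieAlgebra.derivedSeriesOfIdeal ℂ 𝔤 k _)
      (N := LieAlgebra.derivedSeriesOfIdeal ℂ 𝔤 k _) hX hY
    rwa [h1, LieSubmodule.mem_bot] at this
  · exact (d3Good_conj σ).der_rad (d3Good_conj σ) σ.invol σ.invol k hX
  · exact (d3Good_equiv e).der_rad (d3Good_equiv e.symm) e.symm_apply_apply e.apply_symm_apply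
      k hX

/-- A `σ`-stable subspace has a basis of `σ`-fixed vectors. -/
theorem Conj.exists_real_basis {𝔤 : Type*} [LieRing 𝔤] [LieAlgebra ℂ 𝔤] [FiniteDimensional ℂ 𝔤]
    (σ : Conj 𝔤) {𝔞 : Submodule ℂ 𝔤} (h : ∀ X ∈ 𝔞, σ X ∈ 𝔞) :
    ∃ (k : ℕ) (Z : Fin k → 𝔤), (∀ l, Z l ∈ 𝔞 ∧ σ (Z l) = Z l) ∧ LinearIndependent ℂ Z ∧
      (∀ X ∈ 𝔞, ∃ c : Fin k → ℂ, X = ∑ l, c l • Z l) ∧
      ∀ X ∈ 𝔞, σ X = X → ∃ c : Fin k → ℝ, X = ∑ l, (c l : ℂ) • Z l := by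
  obtain ⟨Z, hZ, hspan, hind⟩ :=
    Submodule.exists_fun_fin_finrank_span_eq ℂ {X : 𝔤 | X ∈ 𝔞 ∧ σ X = X}
  have key : ∀ X ∈ 𝔞, ∃ c : Fin _ → ℂ, X = ∑ l, c l • Z l := by
    intro X hX
    have hmem : X ∈ Submodule.span ℂ (range Z) := by
      rw [hspan]
      have e : X = (1 / 2 : ℂ) • (X + σ X) + (-Complex.I / 2) • (Complex.I • (X - σ X)) := by
        rw [smul_smul]
        have : -Complex.I / 2 * Complex.I = 1 / 2 := by
          rw [div_mul_eq_mul_div, neg_mul, Complex.I_mul_I, neg_neg]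
        rw [this, ← smul_add, add_add_sub_cancel, ← two_smul ℂ X, smul_smul]
        norm_num
      rw [e]
      refine Submodule.add_mem _ (Submodule.smul_mem _ _ (Submodule.subset_span ⟨?_, ?_⟩))
        (Submodule.smul_mem _ _ (Submodule.subset_span ⟨?_, ?_⟩))
      · exact 𝔞.add_mem hX (h X hX)
      · rw [σ.map_add, σ.invol, add_comm]
      · exact 𝔞.smul_mem _ (𝔞.sub_mem hX (h X hX))
      · rw [σ.map_smul, σ.map_sub, σ.invol, Complex.conj_I, neg_smul, ← smul_neg, neg_sub]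
    obtain ⟨c, hc⟩ := (Submodule.mem_span_range_iff_exists_fun ℂ).1 hmem
    exact ⟨c, hc.symm⟩
  refine ⟨_, Z, hZ, hind, key, fun X hX hσ => ?_⟩
  obtain ⟨c, hc⟩ := key X hX
  have e : ∑ l, (starRingEnd ℂ (c l)) • Z l = ∑ l, c l • Z l := by
    rw [← hc, ← hσ]
    conv_rhs => rw [hc, σ.map_sum]
    refine Finset.sum_congr rfl fun l _ => ?_
    rw [σ.map_smul, (hZ l).2]
  have e2 : ∀ l, starRingEnd ℂ (c l) = c l := by
    have := Fintype.linearIndependent_iff.1 hind (fun l => starRingEnd ℂ (c l) - c l)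
      (by simp only [sub_smul, Finset.sum_sub_distrib, e, sub_self])
    intro l
    exact sub_eq_zero.1 (this l)
  refine ⟨fun l => (c l).re, hc.trans (Finset.sum_congr rfl fun l _ => ?_)⟩
  rw [Complex.conj_eq_iff_re.1 (e2 l)]

namespace AM

variable {N n : ℕ} (M : AM N n)

instance isKilling : LieAlgebra.IsKilling ℂ M.gC := by
  have htr : LieAlgebra.HasTrivialRadical ℂ M.gC := by
    by_contra hne
    obtain ⟨𝔞, h0, hab, hσ, haut⟩ := exists_char_abelian M.toCM.σ hne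
    obtain ⟨k, Z, hZ, hind, hspan, hreal⟩ := M.toCM.σ.exists_real_basis hσ
    have hgR : ∀ l, (Z l).1 ∈ M.gR := fun l => (M.toCM.σ_eq_iff _).1 (hZ l).2
    have coe_sum : ∀ c : Fin k → ℂ, (∑ l, c l • Z l : M.gC).1 = ∑ l, c l • (Z l).1 := by
      intro c
      exact map_sum (M.gC.incl : M.gC →ₗ⁅ℂ⁆ M.End) _ _
    have hΓ : ∀ γ ∈ M.Γ, ∀ l, ∃ c : Fin k → ℝ,
        M.Ad γ (Z l).1 = ∑ m, (c m : ℂ) • (Z m).1 := by
      intro γ _ l
      obtain ⟨c, hc⟩ := hreal (BM.AdC γ (Z l)) (haut _ _ (hZ l).1)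
        (by rw [← M.toCM.AdC_σ, (hZ l).2])
      refine ⟨c, ?_⟩
      rw [← coe_sum, ← hc]
      rfl
    have hpt := M.toCM.abelian_indep (Z := fun l => (Z l).1) hgR (fun c hc => by
        have h1 : (∑ l, (c l : ℂ) • Z l : M.gC) = 0 := Subtype.ext ((coe_sum _).trans hc)
        have h2 := Fintype.linearIndependent_iff.1 hind _ h1
        funext l
        exact Complex.ofReal_eq_zero.1 (h2 l))
      (fun l m => congrArg Subtype.val (hab _ (hZ l).1 _ (hZ m).1)) hΓ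
    have hk : k = 0 := M.no_frame (Z := fun l => (Z l).1)
      (fun l => BM.isVF_of_mem_gC (Z l).2) hpt (fun γ hγ l => by
        obtain ⟨c, hc⟩ := hΓ γ hγ l
        exact ⟨fun m => c m, hc⟩)
    subst hk
    apply h0
    rw [Submodule.eq_bot_iff]
    intro X hX
    obtain ⟨c, hc⟩ := hspan X hX
    rw [hc]
    simp
  exact d3_isKilling htr

end AM

end Vale.Agent.P274
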