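import Vale.Agent.P274.Stmt
import Vale.Agent.P278F.Osg

/-! Core definitions: bounded complex submanifolds of `ℂ^N` with linear charts (`BM`),
cocompact discrete groups (`CM`), algebraic data (`AM`), vector fields, the Lie algebra. -/

open Metric Set Filter Topology

noncomputable section

namespace Vale.Agent.P274

abbrev E (N : ℕ) := Fin N → ℂ

/-- A bounded connected `n`-dimensional complex submanifold `U` of `ℂ^N`, with a chart at every
point whose coordinate map is `y ↦ L x (y - x)`, `L x` linear, and whose inverse is `ψ x`. -/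
structure BM (N n : ℕ) where
  U : Set (E N)
  bdd : Bornology.IsBounded U
  conn : IsConnected U
  L : U → (E N →L[ℂ] E n)
  r : U → ℝ
  ψ : U → E n → U
  r_pos : ∀ x, 0 < r x
  ψ_zero : ∀ x, ψ x 0 = x
  ψ_hol : ∀ x, DifferentiableOn ℂ (fun w => (ψ x w : E N)) (ball 0 (r x))
  L_ψ : ∀ x, ∀ w ∈ ball (0 : E n) (r x), L x ((ψ x w : E N) - x) = w
  ψ_L : ∀ x, ∀ w ∈ ball (0 : E n) (r x), ∀ᶠ (y : U) in 𝓝 (ψ x w), ψ x (L x (y.1 - x.1)) = y

namespace BM

variable {N n : ℕ} (M : BM N n)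

/-- The manifold as a type. -/
abbrev X : Type := M.U

/-- The inclusion into `ℂ^N`. -/
abbrev ι (x : M.X) : E N := x.1

/-- The coordinate map of the chart at `x`. -/
def co (x y : M.X) : E n := M.L x (y.1 - x.1)

section
variable {F : Type*} [NormedAddCommGroup F] [NormedSpace ℂ F]

/-- Holomorphic at a point. -/
def HolAt (f : M.X → F) (x : M.X) : Prop := AnalyticAt ℂ (f ∘ M.ψ x) 0

/-- Holomorphic on the whole manifold. -/
def Hol (f : M.X → F) : Prop := ∀ x, M.HolAt f x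

/-- The differential of `f` at `x` (meaningful on the tangent space `T x`). -/
def df (f : M.X → F) (x : M.X) : E N →L[ℂ] F :=
  (fderiv ℂ (f ∘ M.ψ x) 0).comp (M.L x)

end

/-- The tangent space at `x`, a subspace of `ℂ^N`. -/
def T (x : M.X) : Submodule ℂ (E N) :=
  LinearMap.range (fderiv ℂ (M.ι ∘ M.ψ x) 0).toLinearMap

theorem holAt_ι (x : M.X) : M.HolAt M.ι x :=
  P278F.analyticOnNhd_of_differentiableOn isOpen_ball (M.ψ_hol x) 0 (mem_ball_self (M.r_pos x))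

theorem HolAt.comp {M : BM N n} {F : Type*} [NormedAddCommGroup F] [NormedSpace ℂ F]
    {f : M.X → F} {a : M.X → M.X} {x : M.X} (hf : M.HolAt f (a x))
    (ha : M.HolAt (M.ι ∘ a) x) : M.HolAt (f ∘ a) x := by
  have hc : ContinuousAt (a ∘ M.ψ x) 0 :=
    (Topology.IsInducing.subtypeVal.continuousAt_iff).2 ha.continuousAt
  have h0 : (a ∘ M.ψ x) 0 = a x := by simp [M.ψ_zero]
  have h1 := M.ψ_L (a x) 0 (mem_ball_self (M.r_pos _))
  rw [M.ψ_zero] at h1
  have h2 := (h0 ▸ hc.tendsto : Tendsto (a ∘ M.ψ x) (𝓝 0) (𝓝 (a x))).eventually h1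
  have h3 : AnalyticAt ℂ (fun w => M.L (a x) (((M.ι ∘ a) ∘ M.ψ x) w - (a x).1)) 0 :=
    ((M.L (a x)).analyticAt _).comp (ha.sub analyticAt_const)
  have h4 : AnalyticAt ℂ ((f ∘ M.ψ (a x)) ∘
      (fun w => M.L (a x) (((M.ι ∘ a) ∘ M.ψ x) w - (a x).1))) 0 := by
    refine AnalyticAt.comp ?_ h3
    have : M.L (a x) (((M.ι ∘ a) ∘ M.ψ x) 0 - (a x).1) = 0 := by simp [M.ψ_zero]
    rw [this]; exact hf
  refine h4.congr ?_
  filter_upwards [h2] with w hw
  simp only [Function.comp_apply] at hw ⊢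
  rw [hw]

/-- The group of biholomorphisms. It acts on `M.X` by `a • x`. -/
def Aut : Subgroup (Equiv.Perm M.X) where
  carrier := {a | M.Hol (M.ι ∘ a) ∧ M.Hol (M.ι ∘ a.symm)}
  one_mem' := ⟨M.holAt_ι, M.holAt_ι⟩
  mul_mem' := fun {a b} ha hb =>
    ⟨fun x => HolAt.comp (f := M.ι ∘ a) (a := b) (ha.1 _) (hb.1 x),
      fun x => HolAt.comp (f := M.ι ∘ b.symm) (a := a.symm) (hb.2 _) (ha.2 x)⟩
  inv_mem' := fun ha => ⟨ha.2, ha.1⟩

theorem hol_smul (a : M.Aut) : M.Hol (fun x => M.ι (a • x)) := a.2.1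

/-- The algebra of holomorphic functions. -/
def O : Subalgebra ℂ (M.X → ℂ) where
  carrier := {f | M.Hol f}
  mul_mem' := fun hf hg x => AnalyticAt.mul (hf x) (hg x)
  add_mem' := fun hf hg x => AnalyticAt.add (hf x) (hg x)
  algebraMap_mem' := fun _ _ => analyticAt_const

/-- Linear endomorphisms of the algebra of holomorphic functions. -/
abbrev End : Type := Module.End ℂ M.O

instance instLieRingEnd : LieRing M.End := LieRing.ofAssociativeRing

instance instLieAlgebraEnd : LieAlgebra ℂ M.End := LieAlgebra.ofAssociativeAlgebra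

/-- The coordinate functions. -/
def zc (m : Fin N) : M.O :=
  ⟨fun x => x.1 m, fun x =>
    ((ContinuousLinearMap.proj (R := ℂ) (φ := fun _ : Fin N => ℂ) m).analyticAt _).comp
      (M.holAt_ι x)⟩

/-- The value at `x` of a vector field. -/
def ev (W : M.End) (x : M.X) : E N := fun m => (W (M.zc m)).1 x

/-- `W` is (differentiation along) a holomorphic vector field. -/
def IsVF (W : M.End) : Prop :=
  ∀ x, M.ev W x ∈ M.T x ∧ ∀ f : M.O, (W f).1 x = M.df f.1 x (M.ev W x)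

/-- Pull-back of functions. -/
def pull (a : M.Aut) : M.End where
  toFun f := ⟨fun x => f.1 (a • x), fun x =>
    HolAt.comp (f := f.1) (a := fun x => a • x) (f.2 _) (M.hol_smul a x)⟩
  map_add' _ _ := rfl
  map_smul' _ _ := rfl

/-- Push-forward of vector fields: `Ad a W f = (W (f ∘ a)) ∘ a⁻¹`. -/
def Ad (a : M.Aut) (W : M.End) : M.End := M.pull a⁻¹ * W * M.pull a

/-- `θ` is a one-parameter group of automorphisms with generator `W`. -/
structure IsFlow (θ : ℝ → M.Aut) (W : M.End) : Prop where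
  zero : θ 0 = 1
  add : ∀ s t, θ (s + t) = θ s * θ t
  vf : M.IsVF W
  deriv : ∀ x t, HasDerivAt (fun t => M.ι (θ t • x)) (M.ev W (θ t • x)) t

/-- The real Lie algebra of the automorphism group. -/
def gR : Set M.End := {W | ∃ θ, M.IsFlow θ W}

/-- Its complexification, as a Lie algebra of holomorphic vector fields. -/
def gC : LieSubalgebra ℂ M.End := LieSubalgebra.lieSpan ℂ M.End M.gR

/-- The isotropy subspace at `p`. -/
def q (p : M.X) : Submodule ℂ M.gC where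
  carrier := {W | M.ev W.1 p = 0}
  add_mem' := fun {a b} ha hb => by
    have : M.ev (a + b).1 p = M.ev a.1 p + M.ev b.1 p := rfl
    simp only [mem_ofPred_eq] at ha hb ⊢
    rw [this, ha, hb, add_zero]
  zero_mem' := rfl
  smul_mem' := fun c {a} ha => by
    have : M.ev (c • a).1 p = c • M.ev a.1 p := rfl
    simp only [mem_ofPred_eq] at ha ⊢
    rw [this, ha, smul_zero]

end BM

/-- A bounded manifold with a properly discontinuous cocompact group of automorphisms. -/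
structure CM (N n : ℕ) extends BM N n where
  Γ : Subgroup toBM.Aut
  K : Set toBM.X
  K_cpt : IsCompact K
  cover : ∀ x : toBM.X, ∃ γ ∈ Γ, γ • x ∈ K
  pd : ∀ C : Set toBM.X, IsCompact C → {γ : toBM.Aut | γ ∈ Γ ∧ ∃ x ∈ C, γ • x ∈ C}.Finite

/-- The `i`-th basis vector. -/
def eb {n : ℕ} (i : Fin n) : E n := Pi.single i 1

/-- The bad set in direction `i`: the discriminant, and the points of the wall `ρ = 0` where
the derivative of `ρ` in the `i`-th complex direction vanishes. -/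
def Bad {n : ℕ} (Δ : E n → ℂ) (ρ : E n × E n → ℂ) (i : Fin n) (y : E n) : Prop :=
  Δ y = 0 ∨ (ρ (y, star y) = 0 ∧ fderiv ℂ ρ (y, star y) (eb i, 0) = 0)

/-- Noether normalisation data of an irreducible affine variety `Z` of dimension `n`. -/
structure NN (N n : ℕ) where
  Z : Set (E N)
  Z_closed : IsClosed Z
  π : E N → E n
  π_diff : Differentiable ℂ π
  Δ : E n → ℂ
  Δ_diff : Differentiable ℂ Δ
  V : Fin n → E N → E N
  V_diff : ∀ l, Differentiable ℂ (V l)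
  V_π : ∀ l, ∀ z ∈ Z, fderiv ℂ π z (V l z) = Δ (π z) ^ 2 • eb l
  V_Z : ∀ l (c : ℂ → E N) (R : ℝ), (∀ s ∈ ball (0 : ℂ) R, HasDerivAt c (V l (c s)) s) →
    c 0 ∈ Z → ∀ s ∈ ball (0 : ℂ) R, c s ∈ Z
  sec : ∀ z ∈ Z, Δ (π z) ≠ 0 → ∃ s : E n → E N, AnalyticAt ℂ s (π z) ∧ s (π z) = z ∧
    (∀ᶠ y in 𝓝 (π z), s y ∈ Z ∧ π (s y) = y) ∧ ∀ᶠ z' in 𝓝[Z] z, s (π z') = z'
  e : ℕ
  fib : ∀ y, (Z ∩ π ⁻¹' {y}).Finite ∧ (Z ∩ π ⁻¹' {y}).ncard ≤ e

/-- Wall data of a semialgebraic subset `U` of `Z`; `ρ` is the polarisation of a real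
polynomial `y ↦ ρ (y, star y)` on the base. -/
structure Wall {N n : ℕ} (A : NN N n) (U : Set (E N)) where
  ρ : E n × E n → ℂ
  ρ_diff : Differentiable ℂ ρ
  ρ_symm : ∀ y w, star (ρ (y, w)) = ρ (star w, star y)
  S1 : ∀ z ∈ A.Z, ρ (A.π z, star (A.π z)) ≠ 0 → ∀ᶠ z' in 𝓝[A.Z] z, (z' ∈ U ↔ z ∈ U)
  S2 : ∀ i, ∀ z ∈ A.Z, ρ (A.π z, star (A.π z)) = 0 → ¬ Bad A.Δ ρ i (A.π z) →
    ∀ᶠ z' in 𝓝[A.Z] z, ρ (A.π z', star (A.π z')) = 0 → (z' ∈ U ↔ z ∈ U)
  S3 : ∀ i (O : Set (E n)), IsOpen O → O.Nonempty → ∃ y ∈ O,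
    {s : ℂ | Bad A.Δ ρ i (y + s • eb i)}.Finite ∧ ¬ Bad A.Δ ρ i y

/-- All the data. -/
structure AM (N n : ℕ) extends CM N n where
  A : NN N n
  W : Wall A U
  U_open : ∃ O, IsOpen O ∧ U = A.Z ∩ O
  Δ_ne : ∃ x ∈ U, A.Δ (A.π x) ≠ 0

end Vale.Agent.P274
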