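import Mathlib

/-! Calculus lemmas for the extremal problem. -/

open Set Filter Topology

namespace Vale.Agent.P274

variable {r : ℕ}

theorem extx_jacobi {A : ℝ → Matrix (Fin r) (Fin r) ℂ} {A' : Matrix (Fin r) (Fin r) ℂ} {t : ℝ}
    (h : ∀ i j, HasDerivAt (fun s => A s i j) (A' i j) t) :
    HasDerivAt (fun s => (A s).det) ((A t).adjugate * A').trace t := by
  have h1 : ∀ σ : Equiv.Perm (Fin r), HasDerivAt
      (fun s => ((Equiv.Perm.sign σ : ℤ) : ℂ) * ∏ i, A s (σ i) i)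
      (((Equiv.Perm.sign σ : ℤ) : ℂ) *
        ∑ i, (∏ j ∈ Finset.univ.erase i, A t (σ j) j) • A' (σ i) i) t := fun σ =>
    (HasDerivAt.fun_finsetProd fun i _ => h (σ i) i).const_mul _
  have h2 := HasDerivAt.fun_sum (u := Finset.univ) fun σ _ => h1 σ
  have e : ((A t).adjugate * A').trace = ∑ σ : Equiv.Perm (Fin r),
      ((Equiv.Perm.sign σ : ℤ) : ℂ) *
        ∑ i, (∏ j ∈ Finset.univ.erase i, A t (σ j) j) • A' (σ i) i := by
    simp only [Finset.mul_sum]
    rw [Finset.sum_comm]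
    refine Finset.sum_congr rfl fun i _ => ?_
    have e1 : ((A t).adjugate * A').diag i = (A t).cramer (fun k => A' k i) i := by
      rw [Matrix.cramer_eq_adjugate_mulVec]
      rfl
    rw [e1, Matrix.cramer_apply, Matrix.det_apply']
    refine Finset.sum_congr rfl fun σ _ => ?_
    rw [← Finset.mul_prod_erase Finset.univ _ (Finset.mem_univ i), Matrix.updateCol_self,
      smul_eq_mul, mul_comm (A' _ _)]
    congr 2
    exact Finset.prod_congr rfl fun j hj => Matrix.updateCol_ne (Finset.ne_of_mem_erase hj)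
  rw [e]
  simp only [Matrix.det_apply']
  exact h2

theorem extx_mul {A B : ℝ → Matrix (Fin r) (Fin r) ℂ} {A' B' : Matrix (Fin r) (Fin r) ℂ} {t : ℝ}
    (hA : ∀ i j, HasDerivAt (fun s => A s i j) (A' i j) t)
    (hB : ∀ i j, HasDerivAt (fun s => B s i j) (B' i j) t) (i j : Fin r) :
    HasDerivAt (fun s => (A s * B s) i j) ((A' * B t + A t * B') i j) t := by
  simp only [Matrix.mul_apply, Matrix.add_apply, ← Finset.sum_add_distrib]
  exact HasDerivAt.fun_sum fun k _ => (hA i k).fun_mul (hB k j)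

theorem extx_trace {A : ℝ → Matrix (Fin r) (Fin r) ℂ} {A' : Matrix (Fin r) (Fin r) ℂ} {t : ℝ}
    (hA : ∀ i j, HasDerivAt (fun s => A s i j) (A' i j) t) :
    HasDerivAt (fun s => (A s).trace) A'.trace t :=
  HasDerivAt.fun_sum fun k _ => hA k k

theorem extx_inv {A : ℝ → Matrix (Fin r) (Fin r) ℂ} {A' : Matrix (Fin r) (Fin r) ℂ} {t : ℝ}
    (hA : ∀ i j, HasDerivAt (fun s => A s i j) (A' i j) t) (h0 : (A t).det ≠ 0) (i j : Fin r) :
    HasDerivAt (fun s => (A s)⁻¹ i j) ((-((A t)⁻¹ * A' * (A t)⁻¹)) i j) t := by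
  have hd := extx_jacobi hA
  have d1 : ∀ i j, DifferentiableAt ℝ (fun s => (A s)⁻¹ i j) t := by
    intro i j
    have e : (fun s => (A s)⁻¹ i j) = fun s => ((A s).det)⁻¹ * (A s).adjugate i j := by
      funext s
      rw [Matrix.inv_def, Ring.inverse_eq_inv']
      rfl
    rw [e]
    refine (hd.differentiableAt.fun_inv h0).fun_mul ?_
    simp only [Matrix.adjugate_apply]
    refine (extx_jacobi (A' := A'.updateRow j 0) fun a b => ?_).differentiableAt
    by_cases hab : a = j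
    · subst hab
      simp only [Matrix.updateRow_self]
      exact hasDerivAt_const _ _
    · simp only [Matrix.updateRow_ne hab]
      exact hA a b
  obtain ⟨B', hB⟩ : ∃ B' : Matrix (Fin r) (Fin r) ℂ, ∀ i j,
      HasDerivAt (fun s => (A s)⁻¹ i j) (B' i j) t :=
    ⟨Matrix.of fun i j => deriv (fun s => (A s)⁻¹ i j) t, fun i j => (d1 i j).hasDerivAt⟩
  have hev : ∀ᶠ s in 𝓝 t, (A s).det ≠ 0 := hd.continuousAt.eventually_ne h0
  have e : B' * A t + (A t)⁻¹ * A' = 0 := by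
    ext a b
    have h1 := extx_mul (A := fun s => (A s)⁻¹) hB hA a b
    have h2 : HasDerivAt (fun s => ((A s)⁻¹ * A s) a b) 0 t := by
      refine (hasDerivAt_const t ((1 : Matrix (Fin r) (Fin r) ℂ) a b)).congr_of_eventuallyEq ?_
      filter_upwards [hev] with s hs
      rw [Matrix.nonsing_inv_mul _ hs.isUnit]
    exact h1.unique h2
  have e2 : B' = -((A t)⁻¹ * A' * (A t)⁻¹) := by
    rw [← neg_mul, ← eq_neg_of_add_eq_zero_left e, mul_assoc,
      Matrix.mul_nonsing_inv _ h0.isUnit, mul_one]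
  rw [← e2]
  exact hB i j

/-- Second order condition at a maximum. -/
theorem extx_real {L t G : ℝ → ℝ} {t₂ γ : ℝ} (hL : ∀ᶠ s in 𝓝 (0 : ℝ), HasDerivAt L (t s) s)
    (ht : HasDerivAt t t₂ 0) (hG0 : ∀ s, 0 ≤ G s)
    (hG : Tendsto (fun s => G s / s ^ 2) (𝓝[≠] 0) (𝓝 γ))
    (hmax : ∀ᶠ s in 𝓝 (0 : ℝ), L s - L 0 + G s ≤ 0) : t 0 = 0 ∧ t₂ + 2 * γ ≤ 0 := by
  have h1 : t 0 = 0 := by
    refine IsLocalMax.hasDerivAt_eq_zero ?_ hL.self_of_nhds
    filter_upwards [hmax] with s hs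
    linarith [hG0 s]
  refine ⟨h1, ?_⟩
  have h2 : Tendsto (fun s => (L s - L 0) / s ^ 2) (𝓝[≠] 0) (𝓝 (t₂ / 2)) := by
    refine HasDerivAt.lhopital_zero_nhdsNE (f' := t) (g' := fun s => 2 * s) ?_ ?_ ?_ ?_ ?_ ?_
    · exact (hL.mono fun s hs => hs.sub_const _).filter_mono nhdsWithin_le_nhds
    · exact Eventually.of_forall fun s => by simpa using hasDerivAt_pow 2 s
    · filter_upwards [self_mem_nhdsWithin] with s hs
      exact mul_ne_zero two_ne_zero hs
    · have := (hL.self_of_nhds.continuousAt.tendsto.sub_const (L 0)).mono_left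
        (nhdsWithin_le_nhds (s := {0}ᶜ))
      simpa using this
    · have : Tendsto (fun s : ℝ => s ^ 2) (𝓝 0) (𝓝 (0 ^ 2)) := (continuous_pow 2).tendsto 0
      simpa using this.mono_left nhdsWithin_le_nhds
    · have := (hasDerivAt_iff_tendsto_slope_zero.1 ht).div_const 2
      refine this.congr fun s => ?_
      rw [h1, zero_add, sub_zero, smul_eq_mul]
      ring
  have h3 := le_of_tendsto (h2.add hG) (b := 0) (by
    filter_upwards [hmax.filter_mono nhdsWithin_le_nhds] with s hs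
    rw [← add_div]
    exact div_nonpos_of_nonpos_of_nonneg hs (sq_nonneg s))
  linarith

theorem extx_calculus {A A₁ : ℝ → Matrix (Fin r) (Fin r) ℂ} {A₂ : Matrix (Fin r) (Fin r) ℂ}
    {g : Fin r → ℝ → ℂ} {g₁ : Fin r → ℂ}
    (hA : ∀ i l s, HasDerivAt (fun s => A s i l) (A₁ s i l) s)
    (hA₁ : ∀ i l, HasDerivAt (fun s => A₁ s i l) (A₂ i l) 0) (h0 : (A 0).det ≠ 0)
    (hg : ∀ i, HasDerivAt (g i) (g₁ i) 0) (hg0 : ∀ i, g i 0 = 0)
    (hmax : ∀ s, ‖(A s).det‖ ≤ ‖(A 0).det‖ * ∏ i, (1 - ‖g i s‖ ^ 2)) :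
    (((A 0)⁻¹ * A₁ 0).trace).re = 0 ∧
      (((A 0)⁻¹ * A₂).trace - ((A 0)⁻¹ * A₁ 0 * ((A 0)⁻¹ * A₁ 0)).trace).re +
        2 * ∑ i, ‖g₁ i‖ ^ 2 ≤ 0 := by
  have hd : ∀ s, HasDerivAt (fun s => (A s).det) ((A s).adjugate * A₁ s).trace s :=
    fun s => extx_jacobi fun i j => hA i j s
  have hev : ∀ᶠ s in 𝓝 (0 : ℝ), (A s).det ≠ 0 := (hd 0).continuousAt.eventually_ne h0
  have hsl : ∀ᶠ s in 𝓝 (0 : ℝ), (A s).det / (A 0).det ∈ Complex.slitPlane := by
    have hc : ContinuousAt (fun s => (A s).det / (A 0).det) 0 :=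
      (hd 0).continuousAt.div_const _
    refine hc.eventually (Complex.isOpen_slitPlane.mem_nhds ?_)
    simp only [div_self h0]
    exact Complex.one_mem_slitPlane
  have hL : ∀ᶠ s in 𝓝 (0 : ℝ), HasDerivAt
      (fun s => (Complex.log ((A s).det / (A 0).det)).re) (((A s)⁻¹ * A₁ s).trace).re s := by
    filter_upwards [hev, hsl] with s hs hs'
    have h1 := ((hd s).div_const (A 0).det).clog_real hs'
    have e : ((A s).adjugate * A₁ s).trace / (A 0).det / ((A s).det / (A 0).det) =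
        ((A s)⁻¹ * A₁ s).trace := by
      rw [Matrix.inv_def, Ring.inverse_eq_inv', smul_mul_assoc, Matrix.trace_smul, smul_eq_mul]
      field_simp
    rw [e] at h1
    exact Complex.reCLM.hasFDerivAt.comp_hasDerivAt s h1
  have ht : HasDerivAt (fun s => (((A s)⁻¹ * A₁ s).trace).re)
      (((A 0)⁻¹ * A₂).trace - ((A 0)⁻¹ * A₁ 0 * ((A 0)⁻¹ * A₁ 0)).trace).re 0 := by
    have h1 := extx_trace (extx_mul (A := fun s => (A s)⁻¹)
      (extx_inv (fun i j => hA i j 0) h0) hA₁)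
    have e : (-((A 0)⁻¹ * A₁ 0 * (A 0)⁻¹) * A₁ 0 + (A 0)⁻¹ * A₂).trace =
        ((A 0)⁻¹ * A₂).trace - ((A 0)⁻¹ * A₁ 0 * ((A 0)⁻¹ * A₁ 0)).trace := by
      rw [Matrix.trace_add, neg_mul, Matrix.trace_neg, mul_assoc _ _ (A₁ 0)]
      ring
    rw [e] at h1
    exact Complex.reCLM.hasFDerivAt.comp_hasDerivAt 0 h1
  refine extx_real (G := fun s => ∑ i, ‖g i s‖ ^ 2) hL ht
    (fun s => Finset.sum_nonneg fun i _ => sq_nonneg _) ?_ ?_
  · have h1 : ∀ i, Tendsto (fun s : ℝ => ‖g i s‖ ^ 2 / s ^ 2) (𝓝[≠] 0) (𝓝 (‖g₁ i‖ ^ 2)) := by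
      intro i
      have := ((hasDerivAt_iff_tendsto_slope_zero.1 (hg i)).norm).pow 2
      refine this.congr fun s => ?_
      rw [hg0, zero_add, sub_zero, norm_smul, mul_pow, norm_inv, Real.norm_eq_abs, inv_pow,
        sq_abs]
      ring
    have := tendsto_finsetSum Finset.univ fun i _ => h1 i
    refine this.congr fun s => ?_
    rw [Finset.sum_div]
  · have h1 : ∀ᶠ s in 𝓝 (0 : ℝ), ∀ i, ‖g i s‖ < 1 := by
      refine eventually_all.2 fun i => ?_
      refine (hg i).continuousAt.norm.eventually (gt_mem_nhds ?_)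
      simp [hg0]
    filter_upwards [h1, hev] with s hs hs'
    have hp : 0 < ‖(A 0).det‖ := norm_pos_iff.2 h0
    have h2 : ∏ i, (1 - ‖g i s‖ ^ 2) ≤ Real.exp (-∑ i, ‖g i s‖ ^ 2) := by
      rw [← Finset.sum_neg_distrib, Real.exp_sum]
      refine Finset.prod_le_prod (fun i _ => ?_) fun i _ => ?_
      · nlinarith [hs i, norm_nonneg (g i s)]
      · linarith [Real.add_one_le_exp (-‖g i s‖ ^ 2)]
    have h3 : ‖(A s).det / (A 0).det‖ ≤ Real.exp (-∑ i, ‖g i s‖ ^ 2) := by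
      rw [norm_div, div_le_iff₀ hp, mul_comm]
      exact (hmax s).trans (mul_le_mul_of_nonneg_left h2 hp.le)
    have h4 := (Real.log_le_iff_le_exp (norm_pos_iff.2 (div_ne_zero hs' h0))).2 h3
    rw [div_self h0, Complex.log_one, Complex.zero_re, Complex.log_re]
    linarith

/-- An ultrafilter along which a real function is maximised. -/
theorem extx_ultra {α : Type*} [Nonempty α] (D : α → ℝ) :
    ∃ 𝒰 : Ultrafilter α, ∀ g, ∀ᶠ f in (𝒰 : Filter α), D g ≤ D f := by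
  have hne : NeBot (⨅ g : α, 𝓟 {f | D g ≤ D f}) := by
    refine iInf_neBot_of_directed' (fun g g' => ?_) fun g => ?_
    · rcases le_total (D g) (D g') with h | h
      · exact ⟨g', principal_mono.2 fun f hf => h.trans hf, le_rfl⟩
      · exact ⟨g, le_rfl, principal_mono.2 fun f hf => h.trans hf⟩
    · exact principal_neBot_iff.2 ⟨g, (le_refl (D g) : D g ≤ D g)⟩
  refine ⟨Ultrafilter.of (⨅ g : α, 𝓟 {f | D g ≤ D f}), fun g => ?_⟩
  exact (Ultrafilter.of_le _).trans (iInf_le _ g) (mem_principal_self _)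

end Vale.Agent.P274
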