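import Vale.Agent.P274.C4
import Vale.Agent.P274.Extx
import Vale.Agent.Lib.RiemannMapping

/-! The extremal problem. -/

open Metric Set Filter Topology

namespace Vale.Agent.P274

/-- First and second order conditions at a maximum of
`log |det A s| ^ 2 - 2 ∑ log (1 - |g i s| ^ 2)`. -/
theorem ext_calculus {r : ℕ} {A A₁ : ℝ → Matrix (Fin r) (Fin r) ℂ} {A₂ : Matrix (Fin r) (Fin r) ℂ}
    {g : Fin r → ℝ → ℂ} {g₁ : Fin r → ℂ}
    (hA : ∀ i l s, HasDerivAt (fun s => A s i l) (A₁ s i l) s)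
    (hA₁ : ∀ i l, HasDerivAt (fun s => A₁ s i l) (A₂ i l) 0) (h0 : (A 0).det ≠ 0)
    (hg : ∀ i, HasDerivAt (g i) (g₁ i) 0) (hg0 : ∀ i, g i 0 = 0)
    (hmax : ∀ s, ‖(A s).det‖ ≤ ‖(A 0).det‖ * ∏ i, (1 - ‖g i s‖ ^ 2)) :
    (((A 0)⁻¹ * A₁ 0).trace).re = 0 ∧
      (((A 0)⁻¹ * A₂).trace - ((A 0)⁻¹ * A₁ 0 * ((A 0)⁻¹ * A₁ 0)).trace).re +
        2 * ∑ i, ‖g₁ i‖ ^ 2 ≤ 0 := by
  exact extx_calculus hA hA₁ h0 hg hg0 hmax

namespace BM

variable {N n : ℕ} (M : BM N n)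

open Vale.Agent.Lib.RMT in
theorem ext_analyticAt_mob {α w : ℂ} (hα : ‖α‖ < 1) (hw : ‖w‖ ≤ 1) : AnalyticAt ℂ (mob α) w :=
  (analyticAt_id.sub analyticAt_const).div
    (analyticAt_const.sub (analyticAt_const.mul analyticAt_id)) (mob_den_ne hα hw)

open Vale.Agent.Lib.RMT in
/-- Post-composition with a Moebius map of the disc. -/
theorem ext_mob (f : M.O) (hf : ∀ x, ‖f.1 x‖ ≤ 1) (p : M.X) (hp : ‖f.1 p‖ < 1) :
    ∃ g : M.O, (∀ x, ‖g.1 x‖ ≤ 1) ∧ g.1 p = 0 ∧ ∀ W : M.End, M.IsVF W →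
      (W f).1 p = ((1 - ‖f.1 p‖ ^ 2 : ℝ) : ℂ) * (W g).1 p := by
  refine ⟨⟨fun x => mob (f.1 p) (f.1 x), fun x =>
    HolAt.comp_analytic (f.2 x) (ext_analyticAt_mob hp (hf x))⟩,
    fun x => norm_mob_le hp (hf x), mob_self _, fun W hW => ?_⟩
  rw [(hW p).2, (hW p).2]
  have hd := hasDerivAt_mob hp hp.le
  have h1 := df_ambient (g := mob (f.1 p)) (f.2 p) hd.differentiableAt (M.ev W p)
  change _ = _ * M.df (fun y => mob (f.1 p) (f.1 y)) p (M.ev W p)
  rw [h1, hd.hasFDerivAt.fderiv]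
  have hne := mob_den_ne hp hp.le
  have e : ((1 - ‖f.1 p‖ ^ 2 : ℝ) : ℂ) = 1 - (starRingEnd ℂ) (f.1 p) * f.1 p := by
    rw [conj_mul_self_eq, Complex.ofReal_sub, Complex.ofReal_one]
  rw [e]
  simp only [ContinuousLinearMap.toSpanSingleton_apply, smul_eq_mul]
  field_simp

/-- The matrix of the extremal problem. -/
noncomputable def extM {r : ℕ} (p : M.X) (W : Fin r → M.End) (f : Fin r → M.O) :
    Matrix (Fin r) (Fin r) ℂ := Matrix.of fun i l => (W l (f i)).1 p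

theorem ext_mob_det {r : ℕ} (p : M.X) (W : Fin r → M.End) (hW : ∀ l, M.IsVF (W l))
    (f : Fin r → M.O) (hf : ∀ i x, ‖(f i).1 x‖ ≤ 1) (hp : ∀ i, ‖(f i).1 p‖ < 1) :
    ∃ g : Fin r → M.O, (∀ i x, ‖(g i).1 x‖ ≤ 1) ∧ (∀ i, (g i).1 p = 0) ∧
      ‖(M.extM p W f).det‖ = ‖(M.extM p W g).det‖ * ∏ i, (1 - ‖(f i).1 p‖ ^ 2) := by
  choose g h1 h2 h3 using fun i => M.ext_mob (f i) (hf i) p (hp i)
  refine ⟨g, h1, h2, ?_⟩
  have e : M.extM p W f = Matrix.of fun i l =>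
      ((1 - ‖(f i).1 p‖ ^ 2 : ℝ) : ℂ) * M.extM p W g i l := by
    ext i l
    exact h3 i (W l) (hW l)
  rw [e, Matrix.det_mul_column, norm_mul, mul_comm, norm_prod]
  congr 1
  refine Finset.prod_congr rfl fun i _ => ?_
  rw [Complex.norm_real, Real.norm_of_nonneg]
  nlinarith [hp i, norm_nonneg ((f i).1 p)]

theorem ext_lt_one {r : ℕ} (p : M.X) (W : Fin r → M.End) (hW : ∀ l, M.IsVF (W l))
    (f : Fin r → M.O) (hf : ∀ i x, ‖(f i).1 x‖ ≤ 1) (h0 : (M.extM p W f).det ≠ 0) (i : Fin r)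
    (x : M.X) : ‖(f i).1 x‖ < 1 := by
  by_contra hx
  have hc : (f i).1 = fun _ => (f i).1 x :=
    funext fun y => Hol.const_of_max (f i).2 (fun y => (hf i y).trans (not_lt.1 hx)) y
  refine h0 (Matrix.det_eq_zero_of_row_eq_zero i fun l => ?_)
  change (W l (f i)).1 p = 0
  rw [(hW l p).2, hc, df_const]
  rfl

theorem ext_pos {r : ℕ} (p : M.X) (W : Fin r → M.End) (hW : ∀ l, M.IsVF (W l))
    (hind : LinearIndependent ℂ (fun l => M.ev (W l) p)) :
    ∃ f : Fin r → M.O, (∀ i x, ‖(f i).1 x‖ ≤ 1) ∧ (M.extM p W f).det ≠ 0 := by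
  classical
  obtain ⟨g, hg⟩ := (Fintype.linearCombination ℂ
    (fun l => M.ev (W l) p)).exists_leftInverse_of_injective
    (LinearMap.ker_eq_bot.2 hind.fintypeLinearCombination_injective)
  obtain ⟨R, hR, hb⟩ := M.exists_bound
  let G : E N →L[ℂ] (Fin r → ℂ) := LinearMap.toContinuousLinearMap g
  have hG : ∀ l, G (M.ev (W l) p) = Pi.single l 1 := by
    intro l
    have := LinearMap.congr_fun hg (Pi.single l 1)
    change g _ = _
    simpa using this
  have hc : 0 < ‖G‖ * R + 1 := by positivity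
  let c : ℂ := ((‖G‖ * R + 1 : ℝ) : ℂ)⁻¹
  have hc0 : c ≠ 0 := inv_ne_zero (Complex.ofReal_ne_zero.2 hc.ne')
  let φ : Fin r → (E N →L[ℂ] ℂ) := fun i =>
    c • (ContinuousLinearMap.proj (R := ℂ) (φ := fun _ : Fin r => ℂ) i).comp G
  have hφ : ∀ i v, φ i v = c * G v i := fun i v => rfl
  refine ⟨fun i => ⟨fun x => φ i (M.ι x), fun x => HolAt.clm (M.hol_ι x) (φ i)⟩,
    fun i x => ?_, ?_⟩
  · change ‖φ i x.1‖ ≤ 1
    rw [hφ, norm_mul, norm_inv, Complex.norm_real, Real.norm_of_nonneg hc.le,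
      inv_mul_le_iff₀ hc, mul_one]
    have h1 := norm_le_pi_norm (G x.1) i
    have h2 := G.le_opNorm x.1
    have h3 := mul_le_mul_of_nonneg_left (hb x) (norm_nonneg G)
    linarith
  · have e : M.extM p W (fun i => ⟨fun x => φ i (M.ι x),
        fun x => HolAt.clm (M.hol_ι x) (φ i)⟩) = c • (1 : Matrix (Fin r) (Fin r) ℂ) := by
      ext i l
      change (W l _).1 p = _
      rw [(hW l p).2]
      change M.df (fun x => φ i (M.ι x)) p _ = _
      rw [df_clm (M.hol_ι p), df_ι (hW l p).1, hφ, hG, Matrix.smul_apply, smul_eq_mul,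
        Matrix.one_apply, Pi.single_apply]
    rw [e, Matrix.det_smul, Matrix.det_one, mul_one]
    exact pow_ne_zero _ hc0

theorem ext_max {r : ℕ} (p : M.X) (W : Fin r → M.End) (hW : ∀ l, M.IsVF (W l)) :
    ∃ f : Fin r → M.O, (∀ i x, ‖(f i).1 x‖ ≤ 1) ∧ ∀ g : Fin r → M.O,
      (∀ i x, ‖(g i).1 x‖ ≤ 1) → ‖(M.extM p W g).det‖ ≤ ‖(M.extM p W f).det‖ := by
  have : Nonempty {f : Fin r → M.O // ∀ i x, ‖(f i).1 x‖ ≤ 1} :=
    ⟨⟨0, fun i x => by simp⟩⟩
  obtain ⟨𝒰, h𝒰⟩ := extx_ultra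
    (fun f : {f : Fin r → M.O // ∀ i x, ‖(f i).1 x‖ ≤ 1} => ‖(M.extM p W f.1).det‖)
  have hhol : ∀ i, ∀ᶠ j : {f : Fin r → M.O // ∀ i x, ‖(f i).1 x‖ ≤ 1} in (𝒰 : Filter _),
      M.Hol (j.1 i).1 := fun i => Eventually.of_forall fun j => (j.1 i).2
  have hbd : ∀ i, M.LocBdd (𝒰 : Filter {f : Fin r → M.O // ∀ i x, ‖(f i).1 x‖ ≤ 1})
      (fun j => (j.1 i).1) := fun i =>
    locBdd_of_bound (C := 1) (Eventually.of_forall fun j y => j.2 i y)
  choose g hg1 hg2 using fun i => montel 𝒰 (hhol i) (hbd i)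
  refine ⟨fun i => ⟨g i, hg1 i⟩, fun i x => ?_, fun h hh => ?_⟩
  · exact le_of_tendsto (hg2 i x).norm (Eventually.of_forall fun j => j.2 i x)
  · have hlim : Tendsto (fun j : {f : Fin r → M.O // ∀ i x, ‖(f i).1 x‖ ≤ 1} =>
        M.extM p W j.1) 𝒰 (𝓝 (M.extM p W fun i => ⟨g i, hg1 i⟩)) := by
      refine tendsto_pi_nhds.2 fun i => tendsto_pi_nhds.2 fun l => ?_
      have h1 := (vitali_hol (hhol i) (hbd i) (hg2 i)).2.2 p (M.ev (W l) p)
      simp only [extM, Matrix.of_apply, (hW l p).2]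
      exact h1
    have h2 := ((continuous_id.matrix_det.tendsto _).comp hlim).norm
    exact ge_of_tendsto h2 (h𝒰 ⟨h, hh⟩)

/-- Existence of extremal maps to the polydisc. -/
theorem exists_extremal {r : ℕ} (p : M.X) (W : Fin r → M.End) (hW : ∀ l, M.IsVF (W l))
    (hind : LinearIndependent ℂ (fun l => M.ev (W l) p)) :
    ∃ f : Fin r → M.O, (∀ i, (f i).1 p = 0) ∧
      (Matrix.of fun i l => (W l (f i)).1 p).det ≠ 0 ∧
      ∀ a : M.Aut, ‖(Matrix.of fun i l => (W l (M.pull a (f i))).1 p).det‖ ≤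
        ‖(Matrix.of fun i l => (W l (f i)).1 p).det‖ * ∏ i, (1 - ‖(f i).1 (a • p)‖ ^ 2) := by
  obtain ⟨f₀, hf₀, hmax⟩ := M.ext_max p W hW
  obtain ⟨f₁, hf₁, hpos⟩ := M.ext_pos p W hW hind
  have h0 : (M.extM p W f₀).det ≠ 0 :=
    norm_pos_iff.1 ((norm_pos_iff.2 hpos).trans_le (hmax f₁ hf₁))
  obtain ⟨f, hf, hfp, he⟩ := M.ext_mob_det p W hW f₀ hf₀
    (fun i => M.ext_lt_one p W hW f₀ hf₀ h0 i p)
  have hle : ‖(M.extM p W f₀).det‖ ≤ ‖(M.extM p W f).det‖ := by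
    rw [he]
    refine mul_le_of_le_one_right (norm_nonneg _)
      (Finset.prod_le_one (fun i _ => ?_) fun i _ => ?_)
    · nlinarith [hf₀ i p, norm_nonneg ((f₀ i).1 p)]
    · linarith [sq_nonneg ‖(f₀ i).1 p‖]
  have h1 : (M.extM p W f).det ≠ 0 := norm_pos_iff.1 ((norm_pos_iff.2 h0).trans_le hle)
  refine ⟨f, hfp, h1, fun a => ?_⟩
  obtain ⟨g, hg, -, he'⟩ := M.ext_mob_det p W hW (fun i => M.pull a (f i))
    (fun i x => hf i _) (fun i => M.ext_lt_one p W hW f hf h1 i _)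
  refine he'.le.trans (mul_le_mul_of_nonneg_right ((hmax g hg).trans hle) ?_)
  refine Finset.prod_nonneg fun i _ => ?_
  change 0 ≤ 1 - ‖(f i).1 (a • p)‖ ^ 2
  nlinarith [hf i (a • p), norm_nonneg ((f i).1 (a • p))]

/-- The matrix of the extremal problem as a linear function of an operator. -/
noncomputable def extL {r : ℕ} (p : M.X) (W : Fin r → M.End) (f : Fin r → M.O) :
    M.End →ₗ[ℂ] Matrix (Fin r) (Fin r) ℂ where
  toFun T := Matrix.of fun i l => (W l (T (f i))).1 p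
  map_add' T T' := by
    ext i l
    simp only [Matrix.of_apply, Matrix.add_apply, LinearMap.add_apply, map_add]
    rfl
  map_smul' c T := by
    ext i l
    simp only [Matrix.of_apply, Matrix.smul_apply, LinearMap.smul_apply, map_smul]
    rfl

theorem extL_apply {r : ℕ} (p : M.X) (W : Fin r → M.End) (f : Fin r → M.O) (T : M.End)
    (i l : Fin r) : M.extL p W f T i l = (W l (T (f i))).1 p := rfl

theorem ext_vanish {V : M.End} (hV : M.IsVF V) {p : M.X} (h : M.ev V p = 0) (g : M.O) :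
    (V g).1 p = 0 := by
  rw [(hV p).2, h, map_zero]

theorem ext_sum_apply {r : ℕ} (W : Fin r → M.End) (c : Fin r → ℂ) (g : M.O) (p : M.X) :
    ((∑ l, c l • W l) g).1 p = ∑ l, c l * (W l g).1 p := by
  rw [LinearMap.sum_apply, AddSubmonoidClass.coe_finsetSum, Finset.sum_apply]
  rfl

theorem ext_coe_sum {r : ℕ} (W : Fin r → M.gC) (c : Fin r → ℂ) :
    (∑ l, c l • W l : M.gC).1 = ∑ l, c l • (W l).1 :=
  map_sum (M.gC.incl : M.gC →ₗ⁅ℂ⁆ M.End) _ _

/-- Left multiplication by an isotropy element. -/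
theorem extL_mul {r : ℕ} (p : M.X) (W : Fin r → M.gC) (f : Fin r → M.O) {Y : M.gC}
    (hY : Y ∈ M.q p) {A : Matrix (Fin r) (Fin r) ℂ}
    (hA : ∀ l, ⁅W l, Y⁆ - ∑ m, A m l • W m ∈ M.q p) (T : M.End) :
    M.extL p (fun l => (W l).1) f (Y.1 * T) = M.extL p (fun l => (W l).1) f T * A := by
  ext i l
  have h1 := M.ext_vanish (isVF_of_mem_gC (⁅W l, Y⁆ - ∑ m, A m l • W m).2) (hA l) (T (f i))
  have h2 := M.ext_vanish (isVF_of_mem_gC Y.2) hY ((W l).1 (T (f i)))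
  have h3 : (⁅W l, Y⁆ - ∑ m, A m l • W m : M.gC).1 =
      ⁅(W l).1, Y.1⁆ - ∑ m, A m l • (W m).1 := by
    rw [← ext_coe_sum]; rfl
  rw [h3] at h1
  have h4 : ((W l).1 (Y.1 (T (f i)))).1 p - (Y.1 ((W l).1 (T (f i)))).1 p -
      ((∑ m, A m l • (W m).1) (T (f i))).1 p = 0 := h1
  rw [h2, sub_zero, sub_eq_zero, ext_sum_apply] at h4
  rw [Matrix.mul_apply, extL_apply]
  refine h4.trans (Finset.sum_congr rfl fun m _ => ?_)
  rw [extL_apply, mul_comm]

/-- The first and second order conditions along a flow. -/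
theorem ext_flow {r : ℕ} (p : M.X) (W : Fin r → M.End) (hW : ∀ l, M.IsVF (W l))
    {f : Fin r → M.O} (hfp : ∀ i, (f i).1 p = 0) (h0 : (M.extL p W f 1).det ≠ 0)
    (hmax : ∀ a : M.Aut, ‖(M.extL p W f (M.pull a)).det‖ ≤
      ‖(M.extL p W f 1).det‖ * ∏ i, (1 - ‖(f i).1 (a • p)‖ ^ 2))
    {Y : M.End} (hY : Y ∈ M.gR) :
    (((M.extL p W f 1)⁻¹ * M.extL p W f Y).trace).re = 0 ∧
      (((M.extL p W f 1)⁻¹ * M.extL p W f (Y * Y)).trace -
        ((M.extL p W f 1)⁻¹ * M.extL p W f Y *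
          ((M.extL p W f 1)⁻¹ * M.extL p W f Y)).trace).re +
        2 * ∑ i, ‖(Y (f i)).1 p‖ ^ 2 ≤ 0 := by
  obtain ⟨θ, hθ⟩ := hY
  have e0 : M.pull (θ 0) = 1 := by rw [hθ.zero, pull_one]
  have e1 : θ 0 • p = p := by rw [hθ.zero, one_smul]
  have h := ext_calculus (A := fun s => M.extL p W f (M.pull (θ s)))
    (A₁ := fun s => M.extL p W f (M.pull (θ s) * Y)) (A₂ := M.extL p W f (Y * Y))
    (g := fun i s => (f i).1 (θ s • p)) (g₁ := fun i => (Y (f i)).1 p)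
    (fun i l s => hθ.hasDerivAt_pull (hW l) (f i) p s)
    (fun i l => by
      have := hθ.hasDerivAt_pull (hW l) (Y (f i)) p 0
      rw [e0] at this
      exact this)
    (by rw [e0]; exact h0)
    (fun i => by
      have := hθ.hasDerivAt (f i).2 p 0
      rw [e1, ← (hθ.vf p).2] at this
      exact this)
    (fun i => by rw [e1]; exact hfp i)
    (fun s => by rw [e0]; exact hmax (θ s))
  simp only [e0, one_mul] at h
  exact h

/-- The algebraic identity behind the second order inequality. -/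
theorem ext_beta {r : ℕ} (L : M.End →ₗ[ℂ] Matrix (Fin r) (Fin r) ℂ)
    {B A : Matrix (Fin r) (Fin r) ℂ} (hB : B * L 1 = 1) {U V : M.End}
    (hV : ∀ T, L (V * T) = L T * A) :
    ((B * L ((U + V) * (U + V))).trace - (B * L (U + V) * (B * L (U + V))).trace) +
      ((B * L ((Complex.I • (U - V)) * (Complex.I • (U - V)))).trace -
        (B * L (Complex.I • (U - V)) * (B * L (Complex.I • (U - V)))).trace) =
      2 * (B * L ⁅U, V⁆).trace := by
  have e1 : (Complex.I • (U - V)) * (Complex.I • (U - V)) = -((U - V) * (U - V)) := by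
    rw [smul_mul_smul_comm, Complex.I_mul_I, neg_smul, one_smul]
  have e2 : B * L (Complex.I • (U - V)) * (B * L (Complex.I • (U - V))) =
      -(B * L (U - V) * (B * L (U - V))) := by
    rw [map_smul, Matrix.mul_smul, smul_mul_smul_comm, Complex.I_mul_I, neg_smul, one_smul]
  have e3 : B * L V = A := by
    have := hV 1
    rw [mul_one] at this
    rw [this, ← mul_assoc, hB, one_mul]
  have e4 : ⁅U, V⁆ = U * V - V * U := rfl
  have e5 : (B * L (V * U)).trace = (B * L U * A).trace := by rw [hV, mul_assoc]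
  have e6 : (A * (B * L U)).trace = (B * L U * A).trace := Matrix.trace_mul_comm _ _
  have e7 : (U - V) * (U - V) = U * U - U * V - (V * U - V * V) := by
    refine LinearMap.ext fun g => ?_
    change U (U g - V g) - V (U g - V g) = U (U g) - U (V g) - (V (U g) - V (V g))
    rw [map_sub, map_sub]
  rw [e1, e2, e4, e7]
  simp only [mul_add, add_mul, mul_sub, sub_mul, map_add, map_sub, map_neg, mul_neg,
    Matrix.trace_add, Matrix.trace_sub, Matrix.trace_neg, e3, e5, e6]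
  ring

end BM

namespace CM

variable {N n : ℕ} (M : CM N n)

theorem extHyp (p : M.X) : ExtHyp M.σ (M.q p) := by
  intro r W hW
  have hVF : ∀ l, M.IsVF (W l).1 := fun l => BM.isVF_of_mem_gC (W l).2
  have hind : LinearIndependent ℂ (fun l => M.ev (W l).1 p) := by
    refine Fintype.linearIndependent_iff.2 fun c hc l => ?_
    have h1 : ∑ l, c l • W l ∈ M.q p := by
      rw [BM.mem_q_iff, BM.ext_coe_sum, BM.ev_sum]
      exact hc
    rw [hW c h1]
    rfl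
  obtain ⟨f, hfp, h0, hmax⟩ := M.toBM.exists_extremal p (fun l => (W l).1) hVF hind
  set L := M.toBM.extL p (fun l => (W l).1) f with hL
  have h0' : (L 1).det ≠ 0 := h0
  have hB : (L 1)⁻¹ * L 1 = 1 := Matrix.nonsing_inv_mul _ h0'.isUnit
  have hflow := fun (Y : M.gC) (hY : M.σ Y = Y) =>
    M.toBM.ext_flow p (fun l => (W l).1) hVF hfp h0' hmax ((M.σ_eq_iff Y).1 hY)
  rw [← hL] at hflow
  let lam : M.gC →ₗ[ℂ] ℂ :=
    { toFun := fun Y => ((L 1)⁻¹ * L Y.1).trace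
      map_add' := fun Y Y' => by
        rw [← Matrix.trace_add, ← mul_add, ← map_add]; rfl
      map_smul' := fun c Y => by
        rw [RingHom.id_apply, ← Matrix.trace_smul, ← Matrix.mul_smul, ← map_smul]; rfl }
  have hlam : ∀ Y, lam Y = ((L 1)⁻¹ * L Y.1).trace := fun Y => rfl
  have r1 : ∀ Y, M.σ (Y + M.σ Y) = Y + M.σ Y := fun Y => by
    rw [M.σ.map_add, M.σ.invol, add_comm]
  have r2 : ∀ Y, M.σ (Complex.I • (Y - M.σ Y)) = Complex.I • (Y - M.σ Y) := fun Y => by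
    rw [M.σ.map_smul, M.σ.map_sub, M.σ.invol, Complex.conj_I, neg_smul, ← smul_neg, neg_sub]
  refine ⟨lam, fun Y => ?_, fun Y hY A hA => ?_, fun c hc hV ⟨A, hA⟩ => ?_⟩
  · have h1 : (lam (Y + M.σ Y)).re = 0 := (hflow _ (r1 Y)).1
    have h2 : (lam (Complex.I • (Y - M.σ Y))).re = 0 := (hflow _ (r2 Y)).1
    rw [map_add, Complex.add_re] at h1
    rw [map_smul, map_sub, smul_eq_mul, Complex.I_mul_re, Complex.sub_im] at h2
    refine Complex.ext ?_ ?_
    · rw [Complex.neg_re, Complex.conj_re]; linarith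
    · rw [Complex.neg_im, Complex.conj_im]; linarith
  · have h1 := M.toBM.extL_mul p W f hY hA 1
    rw [mul_one, ← hL] at h1
    rw [hlam, h1, ← mul_assoc, hB, one_mul]
  · set U : M.gC := ∑ l, c l • W l with hU
    have h1 := (hflow _ (r1 U)).2
    have h2 := (hflow _ (r2 U)).2
    have h3 := M.toBM.ext_beta L hB (U := U.1) (V := (M.σ U).1)
      (fun T => M.toBM.extL_mul p W f hV hA T)
    have h4 := congrArg Complex.re h3
    have h5 : (2 * ((L 1)⁻¹ * L ⁅U.1, (M.σ U).1⁆).trace).re = 2 * (lam ⁅U, M.σ U⁆).re := by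
      have : lam ⁅U, M.σ U⁆ = ((L 1)⁻¹ * L ⁅U.1, (M.σ U).1⁆).trace := rfl
      rw [this]
      simp
    rw [Complex.add_re, h5] at h4
    have h6 : 0 < ∑ i, ‖((U + M.σ U).1 (f i)).1 p‖ ^ 2 := by
      obtain ⟨i, hi⟩ : ∃ i, (L 1).mulVec c i ≠ 0 := by
        by_contra hcon
        push Not at hcon
        exact hc (Matrix.eq_zero_of_mulVec_eq_zero h0' (funext hcon))
      refine Finset.sum_pos' (fun i _ => sq_nonneg _) ⟨i, Finset.mem_univ _, ?_⟩
      have e : ((U + M.σ U).1 (f i)).1 p = (L 1).mulVec c i := by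
        change (U.1 (f i)).1 p + ((M.σ U).1 (f i)).1 p = _
        rw [M.toBM.ext_vanish (BM.isVF_of_mem_gC (M.σ U).2) hV, add_zero, hU,
          BM.ext_coe_sum, BM.ext_sum_apply]
        exact Finset.sum_congr rfl fun l _ => mul_comm _ _
      rw [e]
      exact pow_pos (norm_pos_iff.2 hi) 2
    have h7 : 0 ≤ ∑ i, ‖((Complex.I • (U - M.σ U)).1 (f i)).1 p‖ ^ 2 :=
      Finset.sum_nonneg fun i _ => sq_nonneg _
    have h8 : (U + M.σ U).1 = U.1 + (M.σ U).1 := rfl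
    have h9 : (Complex.I • (U - M.σ U)).1 = Complex.I • (U.1 - (M.σ U).1) := rfl
    rw [h8] at h1 h6
    rw [h9] at h2 h7
    linarith

end CM

end Vale.Agent.P274
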