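import Vale.Agent.P274.B3e
import Vale.Agent.P274.C1

/-! Circle actions: Cartan uniqueness, the averaged map and its injectivity. -/

open Metric Set Filter Topology

namespace Vale.Agent.P274

namespace BM

variable {N n : ℕ} (M : BM N n)

theorem g1_hol_co (p : M.X) (b : M.Aut) : M.Hol (fun y => M.co p (b • y)) := fun y =>
  HolAt.comp (f := M.co p) (a := fun y => b • y) (M.hol_co p _) (M.hol_smul b y)

theorem g1_df_co (p x : M.X) (b : M.Aut) (v : E N) :
    M.df (fun y => M.co p (b • y)) x v = M.L p (M.df (fun y => M.ι (b • y)) x v) := by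
  have h1 := df_comp (f := M.co p) (a := fun y => b • y) (x := x) (M.hol_co p _)
    (M.hol_smul b x) v
  have h2 := df_mem_T (a := fun y => b • y) (x := x) (M.hol_smul b x) v
  exact h1.trans (df_co h2)

theorem g1_co_bound (p : M.X) : ∃ b : ℝ, 0 ≤ b ∧ ∀ y, ‖M.co p y‖ ≤ b := by
  obtain ⟨R, hR, h⟩ := M.exists_bound
  refine ⟨‖M.L p‖ * (R + R), by positivity, fun y => ?_⟩
  refine ((M.L p).le_opNorm _).trans (mul_le_mul_of_nonneg_left ?_ (norm_nonneg _))
  exact (norm_sub_le _ _).trans (add_le_add (h y) (h p))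

theorem g1_df_pow {a : M.Aut} {p : M.X} (hp : a • p = p)
    (hd : ∀ v ∈ M.T p, M.df (fun y => M.ι (a • y)) p v = v) (k : ℕ) :
    ∀ v ∈ M.T p, M.df (fun y => M.ι (a ^ k • y)) p v = v := by
  induction k with
  | zero =>
    intro v hv
    simp only [pow_zero, one_smul]
    exact df_ι hv
  | succ k ih =>
    intro v hv
    have h1 := df_comp (f := fun y => M.ι (a ^ k • y)) (a := fun y => a • y) (x := p)
      (M.hol_smul (a ^ k) _) (M.hol_smul a p) v
    have e : (fun y => M.ι (a ^ (k + 1) • y)) = (fun y => M.ι (a ^ k • y)) ∘ fun y => a • y := by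
      funext y
      simp only [Function.comp_apply, pow_succ, mul_smul]
    have h2 : M.df (M.ι ∘ fun y => a • y) p v = v := hd v hv
    rw [e, h1, h2]
    simp only [hp]
    exact ih v hv

/-- H. Cartan's uniqueness theorem. -/
theorem cartan_unique {a : M.Aut} {p : M.X} (hp : a • p = p)
    (hd : ∀ v ∈ M.T p, M.df (fun y => M.ι (a • y)) p v = v) : a = 1 := by
  obtain ⟨b, hb0, hb⟩ := M.g1_co_bound p
  set F : ℕ → M.X → E n := fun m y =>
    ((m : ℂ) + 1)⁻¹ • ∑ k ∈ Finset.range (m + 1), M.co p (a ^ k • y) with hF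
  have hm : ∀ m : ℕ, ((m : ℂ) + 1) ≠ 0 := fun m => by exact_mod_cast m.succ_ne_zero
  have hn : ∀ m : ℕ, ‖((m : ℂ) + 1)⁻¹‖ = ((m : ℝ) + 1)⁻¹ := fun m => by
    rw [norm_inv]
    congr 1
    exact_mod_cast Complex.norm_natCast (m + 1)
  have hS : ∀ m x, M.HolAt (fun y => ∑ k ∈ Finset.range (m + 1), M.co p (a ^ k • y)) x :=
    fun m x => holAt_sum _ fun k _ => M.g1_hol_co p _ x
  have hhol : ∀ m, M.Hol (F m) := fun m x => (M.holAt_const _ x).smul (hS m x)
  have hbd : ∀ m y, ‖F m y‖ ≤ b := by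
    intro m y
    have h1 : ‖∑ k ∈ Finset.range (m + 1), M.co p (a ^ k • y)‖ ≤ ((m : ℝ) + 1) * b := by
      refine (norm_sum_le_of_le _ fun k _ => hb _).trans ?_
      simp
    have h2 : (0 : ℝ) < (m : ℝ) + 1 := by positivity
    simp only [hF]
    rw [norm_smul, hn, inv_mul_le_iff₀ h2]
    exact h1
  have hl : M.LocBdd (hyperfilter ℕ : Filter ℕ) F := locBdd_of_bound (Eventually.of_forall hbd)
  obtain ⟨g, hg, hlim⟩ := montel (hyperfilter ℕ) (Eventually.of_forall hhol) hl
  have hinv : ∀ y, g (a • y) = g y := by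
    intro y
    have h1 : Tendsto (fun m => F m (a • y) - F m y) (hyperfilter ℕ) (𝓝 (g (a • y) - g y)) :=
      (hlim _).sub (hlim _)
    have h2 : Tendsto (fun m => F m (a • y) - F m y) atTop (𝓝 0) := by
      refine squeeze_zero_norm (a := fun m : ℕ => (b + b) * (1 / ((m : ℝ) + 1))) (fun m => ?_) ?_
      · have e : F m (a • y) - F m y =
            ((m : ℂ) + 1)⁻¹ • (M.co p (a ^ (m + 1) • y) - M.co p (a ^ 0 • y)) := by
          simp only [hF]
          rw [← smul_sub, ← Finset.sum_sub_distrib,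
            ← Finset.sum_range_sub (fun k => M.co p (a ^ k • y))]
          simp only [pow_succ, mul_smul]
        rw [e, norm_smul, hn, one_div, mul_comm]
        exact mul_le_mul_of_nonneg_right ((norm_sub_le _ _).trans (add_le_add (hb _) (hb _)))
          (by positivity)
      · simpa using tendsto_one_div_add_atTop_nhds_zero_nat.const_mul (b + b)
    have h3 := h2.mono_left (Nat.hyperfilter_le_atTop)
    exact sub_eq_zero.1 (tendsto_nhds_unique h1 h3)
  have hdf : ∀ v ∈ M.T p, M.df g p v = M.L p v := by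
    intro v hv
    have h1 := (vitali_hol (Eventually.of_forall hhol) hl hlim).2.2 p v
    have h2 : ∀ m, M.df (F m) p v = M.L p v := by
      intro m
      simp only [hF]
      rw [df_const_smul (hS m p), df_sum _ fun k _ => M.g1_hol_co p _ p]
      simp only [g1_df_co, M.g1_df_pow hp hd _ v hv, Finset.sum_const, Finset.card_range]
      rw [← Nat.cast_smul_eq_nsmul ℂ, smul_smul, Nat.cast_succ, inv_mul_cancel₀ (hm m), one_smul]
    simp only [h2] at h1
    exact tendsto_nhds_unique h1 tendsto_const_nhds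
  obtain ⟨Ψ, -, h1, -, -⟩ := exists_local_inverse (hg p) fun v hv h =>
    L_inj hv (by rw [← hdf v hv, h])
  have hc : Tendsto (fun y => a • y) (𝓝 p) (𝓝 p) := by
    have h2 := (continuous_smul_aut a).tendsto p
    rwa [hp] at h2
  refine aut_eq_one_of_eventually (x := p) ?_
  filter_upwards [h1, hc.eventually h1] with y hy hy'
  rw [← hy', hinv, hy]

/-- A rotation flow at `p`. -/
structure Rot (θ : ℝ → M.Aut) (p : M.X) : Prop where
  zero : θ 0 = 1
  add : ∀ s t, θ (s + t) = θ s * θ t
  cont : Continuous (fun z : ℝ × M.X => θ z.1 • z.2)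
  fix : ∀ t, θ t • p = p
  rot : ∀ t : ℝ, ∀ v ∈ M.T p,
    M.df (fun y => M.ι (θ t • y)) p v = Complex.exp (t * Complex.I) • v

variable {M}

theorem Rot.period {θ : ℝ → M.Aut} {p : M.X} (h : M.Rot θ p) : θ (2 * Real.pi) = 1 := by
  refine M.cartan_unique (h.fix _) fun v hv => ?_
  rw [h.rot _ v hv]
  push_cast
  rw [Complex.exp_two_pi_mul_I, one_smul]

theorem Rot.involution {θ : ℝ → M.Aut} {p : M.X} (h : M.Rot θ p) :
    ∃ s : M.Aut, s * s = 1 ∧ s • p = p ∧ ∀ᶠ y in 𝓝[≠] p, s • y ≠ y := by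
  refine ⟨θ Real.pi, ?_, h.fix _, ?_⟩
  · rw [← h.add, ← two_mul, h.period]
  · have hΦ : M.HolAt (fun y => M.co p (θ Real.pi • y) - M.co p y) p :=
      (M.g1_hol_co p _ p).sub (M.hol_co p p)
    obtain ⟨Ψ, -, h1, -, -⟩ := exists_local_inverse hΦ fun v hv hz => by
      rw [df_sub (M.g1_hol_co p _ p) (M.hol_co p p), g1_df_co, h.rot _ v hv, df_co hv,
        Complex.exp_pi_mul_I, map_smul, neg_smul, one_smul, ← neg_add', ← two_smul ℂ,
        neg_eq_zero, smul_eq_zero] at hz
      exact L_inj hv (hz.resolve_left two_ne_zero)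
    have h2 := h1.self_of_nhds
    simp only [h.fix, sub_self] at h2
    filter_upwards [self_mem_nhdsWithin, nhdsWithin_le_nhds h1] with y hy hy' he
    simp only [he, sub_self] at hy'
    exact hy (hy'.symm.trans h2)

/-- The averaged coordinate map linearises the rotation. -/
theorem Rot.exists_avg {θ : ℝ → M.Aut} {p : M.X} (h : M.Rot θ p) :
    ∃ Φ : M.X → E n, M.Hol Φ ∧ (∃ b : ℝ, ∀ x, ‖Φ x‖ ≤ b) ∧ Φ p = 0 ∧
      (∀ v ∈ M.T p, M.df Φ p v = M.L p v) ∧
      ∀ (t : ℝ) x, Φ (θ t • x) = Complex.exp (t * Complex.I) • Φ x := by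
  obtain ⟨b, hb0, hb⟩ := M.g1_co_bound p
  set f : ℝ → M.X → E n := fun t x =>
    Complex.exp (-(t * Complex.I)) • M.co p (θ t • x) with hf
  have hhol : ∀ t, M.Hol (f t) := fun t x => (M.holAt_const _ x).smul (M.g1_hol_co p _ x)
  have hc : Continuous fun z : ℝ × M.X => f z.1 z.2 := by
    have h0 : Continuous fun z : ℝ × M.X => Complex.exp (-((z.1 : ℂ) * Complex.I)) := by
      fun_prop
    exact h0.smul ((M.continuous_co p).comp h.cont)
  obtain ⟨h1, h2⟩ := hol_integral hhol hc 0 (2 * Real.pi)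
  have hpi : (2 * Real.pi : ℂ) ≠ 0 := by
    exact_mod_cast Real.two_pi_pos.ne'
  refine ⟨fun x => (2 * Real.pi : ℂ)⁻¹ • ∫ t in (0 : ℝ)..2 * Real.pi, f t x,
    fun x => (M.holAt_const _ x).smul (h1 x),
    ⟨‖(2 * Real.pi : ℂ)⁻¹‖ * (b * |2 * Real.pi - 0|), fun x => ?_⟩, ?_, fun v hv => ?_,
    fun s x => ?_⟩
  · rw [norm_smul]
    refine mul_le_mul_of_nonneg_left ?_ (norm_nonneg _)
    refine intervalIntegral.norm_integral_le_of_norm_le_const fun t _ => ?_
    simp only [hf]
    have e : -((t : ℂ) * Complex.I) = ((-t : ℝ) : ℂ) * Complex.I := by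
      push_cast
      ring
    rw [norm_smul, e, Complex.norm_exp_ofReal_mul_I, one_mul]
    exact hb _
  · simp only [hf, h.fix, co_self, smul_zero, intervalIntegral.integral_zero]
  · rw [df_const_smul (h1 p), (h2 p v).2]
    have e : ∀ t : ℝ, M.df (f t) p v = M.L p v := by
      intro t
      simp only [hf]
      rw [df_const_smul (M.g1_hol_co p _ p), g1_df_co, h.rot t v hv, map_smul, smul_smul,
        ← Complex.exp_add, neg_add_cancel, Complex.exp_zero, one_smul]
    simp only [e, intervalIntegral.integral_const, sub_zero]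
    rw [← Complex.coe_smul, smul_smul]
    push_cast
    rw [inv_mul_cancel₀ hpi, one_smul]
  · have hper : Function.Periodic (fun t => f t x) (2 * Real.pi) := by
      intro t
      simp only [hf]
      rw [h.add, h.period, mul_one]
      congr 1
      push_cast
      rw [add_mul, neg_add, Complex.exp_add, Complex.exp_neg (2 * Real.pi * Complex.I),
        Complex.exp_two_pi_mul_I, inv_one, mul_one]
    have e : ∀ t : ℝ, f t (θ s • x) = Complex.exp (s * Complex.I) • f (t + s) x := by
      intro t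
      simp only [hf]
      rw [h.add, mul_smul, smul_smul (Complex.exp _), ← Complex.exp_add]
      congr 2
      push_cast
      ring
    simp only [e]
    rw [intervalIntegral.integral_smul, intervalIntegral.integral_comp_add_right (fun t => f t x),
      zero_add, add_comm, hper.intervalIntegral_add_eq s 0, zero_add, smul_comm]

end BM

end Vale.Agent.P274
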