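import Vale.Agent.P274.G2x

/-! The contraction maps and the embedding as a bounded circular domain. -/

open Metric Set Filter Topology

noncomputable section

namespace Vale.Agent.P274

namespace BM

variable {N n : ℕ} {M : BM N n}

/-- Fourier modes of a function under a circle action. -/
def mode (θ : ℝ → M.Aut) (f : M.X → ℂ) (k : ℤ) (x : M.X) : ℂ :=
  (2 * Real.pi : ℂ)⁻¹ * ∫ t in (0 : ℝ)..2 * Real.pi,
    Complex.exp (-(k * t * Complex.I)) * f (θ t • x)

/-- The Cauchy transform of a function under a circle action. -/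
def cau (θ : ℝ → M.Aut) (f : M.X → ℂ) (c : ℂ) (x : M.X) : ℂ :=
  (2 * Real.pi : ℂ)⁻¹ * ∫ t in (0 : ℝ)..2 * Real.pi,
    f (θ t • x) / (1 - c * Complex.exp (-(t * Complex.I)))

/-- Local linearisation: near `p` the action is the rotation in the coordinates `Φ`. -/
theorem Rot.local_model {θ : ℝ → M.Aut} {p : M.X} (h : M.Rot θ p) {Φ : M.X → E n}
    (hΦ : M.Hol Φ) (h0 : Φ p = 0) (hd : ∀ v ∈ M.T p, M.df Φ p v = M.L p v)
    (he : ∀ (t : ℝ) x, Φ (θ t • x) = Complex.exp (t * Complex.I) • Φ x) :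
    ∃ (δ : ℝ) (Ψ : E n → M.X) (S : Set M.X), 0 < δ ∧ IsOpen S ∧ p ∈ S ∧
      DifferentiableOn ℂ (M.ι ∘ Ψ) (ball 0 δ) ∧ (∀ w ∈ ball (0 : E n) δ, Φ (Ψ w) = w ∧ Ψ w ∈ S) ∧
      (∀ y ∈ S, Φ y ∈ ball (0 : E n) δ ∧ Ψ (Φ y) = y) ∧
      ∀ (t : ℝ), ∀ w ∈ ball (0 : E n) δ, θ t • Ψ w = Ψ (Complex.exp (t * Complex.I) • w) := by
  obtain ⟨Ψ, hΨa, hl, hr, -⟩ := exists_local_inverse (hΦ p)
    (fun v hv hv0 => L_inj hv (by rw [← hd v hv, hv0]))
  have hΨ0 : Ψ 0 = p := by rw [← h0]; exact hl.self_of_nhds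
  rw [h0] at hΨa hr
  obtain ⟨O, hO, hOo, hpO⟩ := _root_.eventually_nhds_iff.1 hl
  have hΨc : ContinuousAt Ψ 0 :=
    (Topology.IsInducing.subtypeVal.continuousAt_iff).2 hΨa.continuousAt
  have htube : ∀ᶠ y in 𝓝 p, ∀ t ∈ Icc (0 : ℝ) (2 * Real.pi), θ t • y ∈ O := by
    refine IsCompact.eventually_forall_of_forall_eventually isCompact_Icc fun t _ => ?_
    have hc : Continuous fun z : M.X × ℝ => θ z.2 • z.1 := h.cont.comp continuous_swap
    refine hc.continuousAt.eventually_mem (hOo.mem_nhds ?_)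
    rw [h.fix]
    exact hpO
  have hper : Function.Periodic θ (2 * Real.pi) := fun t => by
    rw [h.add, h.period, mul_one]
  have hev : ∀ᶠ w in 𝓝 (0 : E n), AnalyticAt ℂ (M.ι ∘ Ψ) w ∧ Φ (Ψ w) = w ∧
      ∀ t : ℝ, θ t • Ψ w ∈ O := by
    have h1 : Tendsto Ψ (𝓝 0) (𝓝 p) := hΨ0 ▸ hΨc.tendsto
    filter_upwards [hΨa.eventually_analyticAt, hr, h1.eventually htube] with w h1 h2 h3
    refine ⟨h1, h2, fun t => ?_⟩
    obtain ⟨s, hs, e⟩ := hper.exists_mem_Ico₀ Real.two_pi_pos t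
    rw [e]
    exact h3 s (Ico_subset_Icc_self hs)
  obtain ⟨δ, hδ, hb⟩ := Metric.eventually_nhds_iff_ball.1 hev
  refine ⟨δ, Ψ, O ∩ Φ ⁻¹' ball 0 δ, hδ, hOo.inter (isOpen_ball.preimage hΦ.continuous),
    ⟨hpO, by simp [h0, hδ]⟩, fun w hw => (hb w hw).1.differentiableAt.differentiableWithinAt,
    fun w hw => ⟨(hb w hw).2.1, ?_, ?_⟩, fun y hy => ⟨hy.2, hO y hy.1⟩, fun t w hw => ?_⟩
  · have := (hb w hw).2.2 0
    rwa [h.zero, one_smul] at this
  · rw [mem_preimage, (hb w hw).2.1]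
    exact hw
  · rw [← hO _ ((hb w hw).2.2 t), he, (hb w hw).2.1]

/-- weighted averages along the action are holomorphic -/
theorem Rot.G2_hol {θ : ℝ → M.Aut} {p : M.X} (h : M.Rot θ p) {f : M.X → ℂ} (hf : M.Hol f)
    {a : ℝ → ℂ} (ha : Continuous a) (b : ℂ) :
    M.Hol (fun x => b * ∫ t in (0 : ℝ)..2 * Real.pi, a t * f (θ t • x)) ∧
      ∀ x v, M.df (fun x => b * ∫ t in (0 : ℝ)..2 * Real.pi, a t * f (θ t • x)) x v
        = b * ∫ t in (0 : ℝ)..2 * Real.pi, a t * M.df (fun y => f (θ t • y)) x v := by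
  have h1 : ∀ t, M.Hol fun y => f (θ t • y) := fun t x =>
    HolAt.comp (f := f) (a := fun y => θ t • y) (hf _) (M.hol_smul (θ t) x)
  have h2 := hol_integral (f := fun t x => a t * f (θ t • x))
    (fun t x => (M.holAt_const (a t) x).mul (h1 t x))
    ((ha.comp continuous_fst).mul (hf.continuous.comp h.cont)) 0 (2 * Real.pi)
  refine ⟨fun x => (M.holAt_const b x).mul (h2.1 x), fun x v => ?_⟩
  have h3 := df_const_smul (h2.1 x) b v
  simp only [smul_eq_mul] at h3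
  rw [h3, (h2.2 x v).2]
  congr 1
  refine intervalIntegral.integral_congr fun t _ => ?_
  have h4 := df_const_smul (h1 t x) (a t) v
  simpa only [smul_eq_mul] using h4

theorem Rot.G2_cont_df {θ : ℝ → M.Aut} {p : M.X} (h : M.Rot θ p) {f : M.X → ℂ} (hf : M.Hol f)
    (x : M.X) (v : E N) : Continuous fun t => M.df (fun y => f (θ t • y)) x v :=
  ((hol_integral (f := fun t x => f (θ t • x))
    (fun t x => HolAt.comp (f := f) (a := fun y => θ t • y) (hf _) (M.hol_smul (θ t) x))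
    (hf.continuous.comp h.cont) 0 0).2 x v).1

theorem G2_cau_eq (θ : ℝ → M.Aut) (f : M.X → ℂ) (c : ℂ) :
    cau θ f c = fun x => (2 * Real.pi : ℂ)⁻¹ * ∫ t in (0 : ℝ)..2 * Real.pi,
      (1 - c * Complex.exp (-(t * Complex.I)))⁻¹ * f (θ t • x) := by
  funext x
  simp only [cau, div_eq_inv_mul]

theorem Rot.G2_hol_cau {θ : ℝ → M.Aut} {p : M.X} (h : M.Rot θ p) {f : M.X → ℂ} (hf : M.Hol f)
    {c : ℂ} (hc : ‖c‖ < 1) : M.Hol (cau θ f c) := by
  rw [G2_cau_eq]
  exact (h.G2_hol hf (G2_cont_ker hc) _).1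

/-- functions along a complex line in the local model -/
theorem G2_line {δ : ℝ} {Ψ : E n → M.X} (hΨ : DifferentiableOn ℂ (M.ι ∘ Ψ) (ball 0 δ))
    {f : M.X → ℂ} (hf : M.Hol f) {w : E n} (hw : w ∈ ball (0 : E n) δ) :
    DifferentiableOn ℂ (fun z : ℂ => f (Ψ (z • w))) (closedBall 0 1) := by
  refine (hf.differentiableOn_comp isOpen_ball hΨ).comp
    (differentiable_id.smul_const w).differentiableOn fun z hz => ?_
  rw [mem_ball_zero_iff] at hw ⊢
  rw [mem_closedBall_zero_iff] at hz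
  rw [norm_smul]
  calc ‖z‖ * ‖w‖ ≤ 1 * ‖w‖ := mul_le_mul_of_nonneg_right hz (norm_nonneg _)
    _ < δ := by rwa [one_mul]

theorem G2_cau_local {θ : ℝ → M.Aut} {δ : ℝ} {Ψ : E n → M.X}
    (hΨ : DifferentiableOn ℂ (M.ι ∘ Ψ) (ball 0 δ))
    (hθ : ∀ (t : ℝ), ∀ w ∈ ball (0 : E n) δ,
      θ t • Ψ w = Ψ (Complex.exp (t * Complex.I) • w))
    {f : M.X → ℂ} (hf : M.Hol f) {w : E n} (hw : w ∈ ball (0 : E n) δ) {c : ℂ} (hc : ‖c‖ < 1) :
    cau θ f c (Ψ w) = f (Ψ (c • w)) := by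
  rw [← G2_cauchy (G2_line hΨ hf hw) hc, cau]
  simp only [hθ _ w hw]

theorem Rot.mode_neg {θ : ℝ → M.Aut} {p : M.X} (h : M.Rot θ p) {f : M.X → ℂ} (hf : M.Hol f)
    {k : ℤ} (hk : k < 0) (x : M.X) : mode θ f k x = 0 := by
  obtain ⟨Φ, hΦ, -, h0, hd, he⟩ := h.exists_avg
  obtain ⟨δ, Ψ, S, hδ, hS, hpS, hΨ, h1, h2, h3⟩ := h.local_model hΦ h0 hd he
  have hH : M.Hol (mode θ f k) :=
    (h.G2_hol hf (a := fun t : ℝ => Complex.exp (-(k * t * Complex.I))) (by fun_prop) _).1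
  have hz : mode θ f k =ᶠ[𝓝 p] fun _ => 0 := by
    filter_upwards [hS.mem_nhds hpS] with y hy
    obtain ⟨m, hm⟩ := Int.eq_ofNat_of_zero_le (show 0 ≤ -k - 1 by omega)
    have hk' : (k : ℂ) = -((m + 1 : ℕ) : ℂ) := by
      have : k = -((m + 1 : ℕ) : ℤ) := by push_cast; omega
      rw [this]; push_cast; ring
    have hG := G2_cauchy (G := fun z => z ^ (m + 1) * f (Ψ (z • Φ y)))
      ((differentiable_id.pow (m + 1)).differentiableOn.mul (G2_line hΨ hf (h2 y hy).1))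
      (c := 0) (by simp)
    simp only [zero_mul, sub_zero, div_one, ne_eq, Nat.add_eq_zero_iff, one_ne_zero, and_false,
      not_false_eq_true, zero_pow] at hG
    rw [← hG, mode]
    congr 1
    refine intervalIntegral.integral_congr fun t _ => ?_
    rw [← h3 t _ (h2 y hy).1, (h2 y hy).2, ← Complex.exp_nat_mul, hk']
    congr 2
    ring
  exact congrFun (hH.eq_of_eventuallyEq (fun x => M.holAt_const 0 x) hz) x

end BM

namespace CM

variable {N n : ℕ} (M : CM N n)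

/-- The contractions `Φ⁻¹ (c Φ)` extend to the whole manifold. -/
theorem exists_contraction {θ : ℝ → M.Aut} {p : M.X} (h : M.Rot θ p) {Φ : M.X → E n}
    (hΦ : M.Hol Φ) (h0 : Φ p = 0) (hd : ∀ v ∈ M.T p, M.df Φ p v = M.L p v)
    (he : ∀ (t : ℝ) x, Φ (θ t • x) = Complex.exp (t * Complex.I) • Φ x) {c : ℂ} (hc : ‖c‖ < 1) :
    ∃ m : M.X → M.X, M.Hol (M.ι ∘ m) ∧ (∀ x, Φ (m x) = c • Φ x) ∧
      ∀ f : M.X → ℂ, M.Hol f → ∀ x, f (m x) = BM.cau θ f c x := by
  obtain ⟨δ, Ψ, S, hδ, hS, hpS, hΨ, h1, h2, h3⟩ := h.local_model hΦ h0 hd he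
  have hloc : ∀ f : M.X → ℂ, M.Hol f → ∀ x ∈ S, BM.cau θ f c x = f (Ψ (c • Φ x)) := by
    intro f hf x hx
    rw [← BM.G2_cau_local hΨ h3 hf (h2 x hx).1 hc, (h2 x hx).2]
  have hb : ∀ x ∈ S, c • Φ x ∈ ball (0 : E n) δ := by
    intro x hx
    have := (h2 x hx).1
    rw [mem_ball_zero_iff] at this ⊢
    rw [norm_smul]
    calc ‖c‖ * ‖Φ x‖ ≤ 1 * ‖Φ x‖ := mul_le_mul_of_nonneg_right hc.le (norm_nonneg _)
      _ < δ := by rwa [one_mul]
  have hcΦ : M.Hol fun x => c • Φ x := fun x => (M.holAt_const c x).smul (hΦ x)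
  have hbound : ∀ f : M.X → ℂ, (∀ x, ‖f x‖ ≤ 1) → ∀ x, ‖BM.cau θ f c x‖ ≤ (1 - ‖c‖)⁻¹ := by
    intro f hf1 x
    have hI := intervalIntegral.norm_integral_le_of_norm_le_const (a := 0) (b := 2 * Real.pi)
      (C := (1 - ‖c‖)⁻¹)
      (f := fun t : ℝ => f (θ t • x) / (1 - c * Complex.exp (-(t * Complex.I)))) fun t _ => by
        rw [norm_div, ← one_div]
        exact div_le_div₀ zero_le_one (hf1 _) (by linarith) (G2_lower c t)
    have hpi := Real.two_pi_pos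
    rw [sub_zero, abs_of_pos hpi] at hI
    have hn : ‖(2 * Real.pi : ℂ)⁻¹‖ = (2 * Real.pi)⁻¹ := by
      rw [norm_inv]
      simp [abs_of_pos Real.pi_pos]
    rw [BM.cau, norm_mul, hn]
    calc (2 * Real.pi)⁻¹ * _ ≤ (2 * Real.pi)⁻¹ * ((1 - ‖c‖)⁻¹ * (2 * Real.pi)) :=
          mul_le_mul_of_nonneg_left hI (by positivity)
      _ = (1 - ‖c‖)⁻¹ := by field_simp
  obtain ⟨m, hm, hmS⟩ := M.extend (m := fun x => Ψ (c • Φ x)) hS ⟨p, hpS⟩
    (fun x hx => (hcΦ x).comp_analytic (g := M.ι ∘ Ψ)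
      (P278F.analyticOnNhd_of_differentiableOn isOpen_ball hΨ _ (hb x hx)))
    (1 - ‖c‖)⁻¹ (fun f hf hf1 => ⟨BM.cau θ f c, h.G2_hol_cau hf hc, hbound f hf1, hloc f hf⟩)
  refine ⟨m, hm, fun x => ?_, fun f hf x => ?_⟩
  · refine congrFun (BM.Hol.eq_of_eventuallyEq (f := Φ ∘ m)
      (fun y => (hΦ _).comp (hm y)) hcΦ (x := p) ?_) x
    filter_upwards [hS.mem_nhds hpS] with y hy
    rw [Function.comp_apply, hmS y hy, (h1 _ (hb y hy)).1]
  · refine congrFun (BM.Hol.eq_of_eventuallyEq (f := f ∘ m)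
      (fun y => (hf _).comp (hm y)) (h.G2_hol_cau hf hc) (x := p) ?_) x
    filter_upwards [hS.mem_nhds hpS] with y hy
    rw [Function.comp_apply, hmS y hy, hloc f hf y hy]

theorem avg_injective {θ : ℝ → M.Aut} {p : M.X} (h : M.Rot θ p) {Φ : M.X → E n}
    (hΦ : M.Hol Φ) (h0 : Φ p = 0) (hd : ∀ v ∈ M.T p, M.df Φ p v = M.L p v)
    (he : ∀ (t : ℝ) x, Φ (θ t • x) = Complex.exp (t * Complex.I) • Φ x) :
    Function.Injective Φ ∧ ∀ x, ∀ v ∈ M.T x, M.df Φ x v = 0 → v = 0 := by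
  obtain ⟨δ, Ψ, S, hδ, hS, hpS, hΨ, h1, h2, h3⟩ := h.local_model hΦ h0 hd he
  have hz : ∀ j : Fin N, M.Hol fun x : M.X => x.1 j := fun j => (M.zc j).2
  have hΨ0 : Ψ 0 = p := by rw [← h0]; exact (h2 p hpS).2
  have hcont : ∀ {f : M.X → ℂ}, M.Hol f → ∀ x, Continuous fun t => f (θ t • x) :=
    fun hf x => hf.continuous.comp (h.cont.comp (continuous_id.prodMk continuous_const))
  -- the zero mode is the value at the fixed point
  have hc0 : ∀ f : M.X → ℂ, M.Hol f → ∀ x, BM.cau θ f 0 x = f p := by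
    intro f hf x
    refine congrFun ((h.G2_hol_cau hf (by simp)).eq_of_eventuallyEq
      (fun x => M.holAt_const (f p) x) (x := p) ?_) x
    filter_upwards [hS.mem_nhds hpS] with y hy
    rw [← (h2 y hy).2, BM.G2_cau_local hΨ h3 hf (h2 y hy).1 (by simp), zero_smul, hΨ0]
  -- for small `c` the contraction maps a given point into `S`
  have hsmall : ∀ x, ∀ᶠ c : ℂ in 𝓝 0, ∀ z : M.X,
      (∀ j, z.1 j = BM.cau θ (fun y => y.1 j) c x) → z ∈ S := by
    intro x
    obtain ⟨O, hO, rfl⟩ := isOpen_induced_iff.1 hS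
    have ht : Tendsto (fun c : ℂ => fun j => BM.cau θ (fun y => y.1 j) c x) (𝓝 0) (𝓝 p.1) := by
      refine tendsto_pi_nhds.2 fun j => ?_
      rw [← hc0 _ (hz j) x]
      exact (continuousAt_const.mul (G2_contAt (hcont (hz j) x))).tendsto
    filter_upwards [ht.eventually (hO.mem_nhds hpS)] with c hc z hz
    rw [mem_preimage, funext hz]
    exact hc
  have hev : ∀ᶠ c : ℂ in 𝓝 0, ‖c‖ < 1 := by
    filter_upwards [ball_mem_nhds (0 : ℂ) one_pos] with c hc using by simpa using hc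
  have hpi := inv_ne_zero G2_two_pi_ne
  refine ⟨fun x y hxy => ?_, fun x v hv hv0 => ?_⟩
  · refine Subtype.ext (funext fun j => sub_eq_zero.1 ?_)
    have key := G2_unique (F := fun t => (θ t • x).1 j - (θ t • y).1 j)
      ((hcont (hz j) x).sub (hcont (hz j) y)) (by simp only [h.zero, h.period]) ?_ ?_
    · simpa only [h.zero, one_smul] using key
    · intro k hk
      have hk1 : Continuous fun t : ℝ => Complex.exp (-(k * t * Complex.I)) := by fun_prop
      simp only [mul_sub]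
      have hi : ∀ x : M.X, IntervalIntegrable
          (fun t : ℝ => Complex.exp (-(k * t * Complex.I)) * (θ t • x).1 j)
          MeasureTheory.volume 0 (2 * Real.pi) :=
        fun x => (hk1.mul (hcont (hz j) x)).intervalIntegrable _ _
      rw [intervalIntegral.integral_sub (hi x) (hi y)]
      have e1 := h.mode_neg (hz j) hk x
      have e2 := h.mode_neg (hz j) hk y
      rw [BM.mode, mul_eq_zero_iff_left hpi] at e1 e2
      rw [e1, e2, sub_zero]
    · filter_upwards [hev, hsmall x, hsmall y] with c hc hx hy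
      obtain ⟨m, -, hm1, hm2⟩ := M.exists_contraction h hΦ h0 hd he hc
      have hxS := hx (m x) fun j => hm2 _ (hz j) x
      have hyS := hy (m y) fun j => hm2 _ (hz j) y
      have e : m x = m y := by rw [← (h2 _ hxS).2, ← (h2 _ hyS).2, hm1, hm1, hxy]
      have e1 := hm2 _ (hz j) x
      rw [e, hm2 _ (hz j) y, BM.cau, BM.cau, mul_right_inj' hpi] at e1
      simp only [sub_div]
      have hi : ∀ x : M.X, IntervalIntegrable
          (fun t : ℝ => (θ t • x).1 j / (1 - c * Complex.exp (-(t * Complex.I))))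
          MeasureTheory.volume 0 (2 * Real.pi) :=
        fun x => ((hcont (hz j) x).div (by fun_prop) (G2_ne hc)).intervalIntegrable _ _
      rw [intervalIntegral.integral_sub (hi x) (hi y), e1, sub_self]
  · rw [← BM.df_ι hv]
    funext j
    rw [BM.df_pi (M.holAt_ι x)]
    have key := G2_unique (F := fun t => M.df (fun y => (θ t • y).1 j) x v)
      (h.G2_cont_df (hz j) x v) (by simp only [h.zero, h.period]) ?_ ?_
    · simp only [h.zero, one_smul] at key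
      exact key
    · intro k hk
      have e1 := (h.G2_hol (hz j) (a := fun t : ℝ => Complex.exp (-(k * t * Complex.I)))
        (by fun_prop) (2 * Real.pi : ℂ)⁻¹).2 x v
      have e2 : (fun x : M.X => (2 * Real.pi : ℂ)⁻¹ * ∫ t in (0 : ℝ)..2 * Real.pi,
          Complex.exp (-(k * t * Complex.I)) * (θ t • x).1 j) = fun _ => 0 :=
        funext fun y => h.mode_neg (hz j) hk y
      rw [e2, BM.df_const, zero_apply, eq_comm,
        mul_eq_zero_iff_left hpi] at e1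
      exact e1
    · filter_upwards [hev, hsmall x] with c hc hx
      obtain ⟨m, hm, hm1, hm2⟩ := M.exists_contraction h hΦ h0 hd he hc
      have hxS := hx (m x) fun j => hm2 _ (hz j) x
      have e1 := (h.G2_hol (hz j) (G2_cont_ker hc) (2 * Real.pi : ℂ)⁻¹).2 x v
      rw [← BM.G2_cau_eq θ (fun y => y.1 j) c] at e1
      have hb : c • Φ x ∈ ball (0 : E n) δ := by rw [← hm1]; exact (h2 _ hxS).1
      have e2 : BM.cau θ (fun y => y.1 j) c =ᶠ[𝓝 x] fun y => (Ψ (c • Φ y)).1 j := by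
        filter_upwards [(hm x).continuousAt_map.eventually_mem (hS.mem_nhds hxS)] with y hy
        rw [← hm2 _ (hz j) y, ← hm1, (h2 _ hy).2]
      have hg : DifferentiableAt ℂ (fun w : E n => (Ψ (c • w)).1 j) (Φ x) :=
        (((hz j).differentiableOn_comp isOpen_ball hΨ).differentiableAt
          (isOpen_ball.mem_nhds hb)).comp (Φ x) (differentiableAt_id.const_smul c)
      have e3 := BM.df_ambient (hΦ x) hg v
      rw [BM.df_congr e2, e3, hv0, map_zero, eq_comm, mul_eq_zero_iff_left hpi] at e1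
      simpa only [div_eq_inv_mul] using e1

end CM

end Vale.Agent.P274
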