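import Vale.Agent.P274.G1

/-! One variable lemmas: the Cauchy kernel on the circle and Fourier uniqueness. -/

open Metric Set Filter Topology

noncomputable section

namespace Vale.Agent.P274

theorem G2_norm_exp (t : ℝ) : ‖Complex.exp (-(t * Complex.I))‖ = 1 := by
  have : -((t : ℂ) * Complex.I) = ((-t : ℝ) : ℂ) * Complex.I := by push_cast; ring
  rw [this, Complex.norm_exp_ofReal_mul_I]

theorem G2_lower (c : ℂ) (t : ℝ) : 1 - ‖c‖ ≤ ‖1 - c * Complex.exp (-(t * Complex.I))‖ := by
  have h := norm_sub_norm_le (1 : ℂ) (c * Complex.exp (-(t * Complex.I)))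
  rwa [norm_one, norm_mul, G2_norm_exp, mul_one] at h

theorem G2_ne {c : ℂ} (hc : ‖c‖ < 1) (t : ℝ) : 1 - c * Complex.exp (-(t * Complex.I)) ≠ 0 := by
  have h := G2_lower c t
  intro h0
  rw [h0, norm_zero] at h
  linarith

theorem G2_cont_ker {c : ℂ} (hc : ‖c‖ < 1) :
    Continuous fun t : ℝ => (1 - c * Complex.exp (-(t * Complex.I)))⁻¹ :=
  Continuous.inv₀ (by fun_prop) (G2_ne hc)

theorem G2_two_pi_ne : (2 * Real.pi : ℂ) ≠ 0 := by
  have := Real.pi_ne_zero
  exact mul_ne_zero two_ne_zero (by exact_mod_cast this)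

/-- Cauchy's formula on the unit circle -/
theorem G2_cauchy {G : ℂ → ℂ} (hG : DifferentiableOn ℂ G (closedBall 0 1)) {c : ℂ}
    (hc : ‖c‖ < 1) :
    (2 * Real.pi : ℂ)⁻¹ * ∫ t in (0 : ℝ)..2 * Real.pi,
      G (Complex.exp (t * Complex.I)) / (1 - c * Complex.exp (-(t * Complex.I))) = G c := by
  have h := hG.circleIntegral_sub_inv_smul (w := c) (by simpa using hc)
  have e : (∮ z in C(0, 1), (z - c)⁻¹ • G z) = Complex.I * ∫ t in (0 : ℝ)..2 * Real.pi,
      G (Complex.exp (t * Complex.I)) / (1 - c * Complex.exp (-(t * Complex.I))) := by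
    rw [circleIntegral, ← intervalIntegral.integral_const_mul]
    refine intervalIntegral.integral_congr fun t _ => ?_
    have h1 := G2_ne hc t
    have h2 : Complex.exp (t * Complex.I) ≠ 0 := Complex.exp_ne_zero _
    have h3 : Complex.exp (t * Complex.I) - c
        = Complex.exp (t * Complex.I) * (1 - c * Complex.exp (-(t * Complex.I))) := by
      rw [Complex.exp_neg]; field_simp
    simp only [deriv_circleMap, circleMap, smul_eq_mul, zero_add, Complex.ofReal_one, one_mul]
    rw [h3]
    field_simp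
  rw [e, smul_eq_mul] at h
  have h2 := G2_two_pi_ne
  have h3 : (∫ t in (0 : ℝ)..2 * Real.pi,
      G (Complex.exp (t * Complex.I)) / (1 - c * Complex.exp (-(t * Complex.I))))
      = 2 * Real.pi * G c := by
    apply mul_left_cancel₀ Complex.I_ne_zero
    rw [h]; ring
  rw [h3, ← mul_assoc, inv_mul_cancel₀ h2, one_mul]

theorem G2_contAt {G : ℝ → ℂ} (hG : Continuous G) :
    ContinuousAt (fun c : ℂ => ∫ t in (0 : ℝ)..2 * Real.pi,
      G t / (1 - c * Complex.exp (-(t * Complex.I)))) 0 := by
  have hev : ∀ᶠ c : ℂ in 𝓝 0, ‖c‖ < 1 / 2 := by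
    have : ball (0 : ℂ) (1 / 2) ∈ 𝓝 (0 : ℂ) := ball_mem_nhds _ (by norm_num)
    filter_upwards [this] with c hc using by simpa using hc
  refine intervalIntegral.continuousAt_of_dominated_interval (bound := fun t => 2 * ‖G t‖)
    ?_ ?_ ?_ ?_
  · filter_upwards [hev] with c hc
    exact (hG.div (by fun_prop) (G2_ne (by linarith))).aestronglyMeasurable
  · filter_upwards [hev] with c hc
    refine Eventually.of_forall fun t _ => ?_
    have h := G2_lower c t
    rw [norm_div, div_le_iff₀ (by linarith)]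
    nlinarith [norm_nonneg (G t)]
  · exact (continuous_const.mul hG.norm).intervalIntegrable _ _
  · refine Eventually.of_forall fun t _ => ?_
    exact ContinuousAt.div continuousAt_const (by fun_prop) (G2_ne (by simp) t)

/-- if the Cauchy transform vanishes near the origin, so do the nonnegative modes -/
theorem G2_modes {F : ℝ → ℂ} (hF : Continuous F)
    (hc : ∀ᶠ c : ℂ in 𝓝 0, ∫ t in (0 : ℝ)..2 * Real.pi,
      F t / (1 - c * Complex.exp (-(t * Complex.I))) = 0) (k : ℕ) :
    ∀ᶠ c : ℂ in 𝓝 0, ∫ t in (0 : ℝ)..2 * Real.pi,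
      Complex.exp (-(t * Complex.I)) ^ k * F t / (1 - c * Complex.exp (-(t * Complex.I))) = 0 := by
  induction k with
  | zero => simpa using hc
  | succ k ih =>
    have h0 := ih.self_of_nhds
    have hev : ∀ᶠ c : ℂ in 𝓝 0, ‖c‖ < 1 := by
      filter_upwards [ball_mem_nhds (0 : ℂ) one_pos] with c hc using by simpa using hc
    have hne : ∀ᶠ c : ℂ in 𝓝 0, c ≠ 0 → ∫ t in (0 : ℝ)..2 * Real.pi,
        Complex.exp (-(t * Complex.I)) ^ (k + 1) * F t /
          (1 - c * Complex.exp (-(t * Complex.I))) = 0 := by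
      filter_upwards [ih, hev] with c h1 hc hc0
      apply mul_left_cancel₀ hc0
      have hk : Continuous fun t : ℝ => Complex.exp (-(t * Complex.I)) ^ k * F t := by fun_prop
      have i1 := (hk.div (by fun_prop) (G2_ne hc)).intervalIntegrable
        (μ := MeasureTheory.volume) 0 (2 * Real.pi)
      have i0 := (hk.div (by fun_prop) (G2_ne (c := 0) (by simp))).intervalIntegrable
        (μ := MeasureTheory.volume) 0 (2 * Real.pi)
      have h2 := intervalIntegral.integral_sub i1 i0
      simp only [Pi.div_apply] at h2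
      rw [h1, h0, sub_zero] at h2
      rw [mul_zero, ← intervalIntegral.integral_const_mul, ← h2]
      refine intervalIntegral.integral_congr fun t _ => ?_
      have h3 := G2_ne hc t
      simp only [zero_mul, sub_zero, div_one]
      field_simp
      ring
    have hk : Continuous fun t : ℝ => Complex.exp (-(t * Complex.I)) ^ (k + 1) * F t := by
      fun_prop
    have hca := G2_contAt hk
    have hz : ∫ t in (0 : ℝ)..2 * Real.pi, Complex.exp (-(t * Complex.I)) ^ (k + 1) * F t /
        (1 - (0 : ℂ) * Complex.exp (-(t * Complex.I))) = 0 := by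
      refine tendsto_nhds_unique (hca.tendsto.mono_left (nhdsWithin_le_nhds (s := {0}ᶜ))) ?_
      refine tendsto_const_nhds.congr' ?_
      filter_upwards [nhdsWithin_le_nhds hne, self_mem_nhdsWithin] with c h1 h2
      exact (h1 h2).symm
    filter_upwards [hne] with c h1
    by_cases h : c = 0
    · rw [h]; exact hz
    · exact h1 h

/-- Fourier uniqueness -/
theorem G2_fourier {F : ℝ → ℂ} (hF : Continuous F) (hp : F 0 = F (2 * Real.pi))
    (h : ∀ k : ℤ, ∫ t in (0 : ℝ)..2 * Real.pi, Complex.exp (-(k * t * Complex.I)) * F t = 0) :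
    F 0 = 0 := by
  have : Fact (0 < 2 * Real.pi) := ⟨Real.two_pi_pos⟩
  let f : C(AddCircle (2 * Real.pi), ℂ) :=
    ⟨AddCircle.liftIoc (2 * Real.pi) 0 F, AddCircle.liftIoc_zero_continuous hp hF.continuousOn⟩
  have hf : ∀ t ∈ Ioc 0 (2 * Real.pi), f (t : AddCircle (2 * Real.pi)) = F t := fun t ht =>
    AddCircle.liftIoc_zero_coe_apply ht
  have hc : fourierCoeff f = 0 := by
    funext k
    rw [fourierCoeff_eq_intervalIntegral _ _ 0, zero_add]
    have e : ∫ x in (0 : ℝ)..2 * Real.pi, fourier (-k) (x : AddCircle (2 * Real.pi)) • f x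
        = ∫ t in (0 : ℝ)..2 * Real.pi, Complex.exp (-(k * t * Complex.I)) * F t := by
      refine intervalIntegral.integral_congr_ae (Eventually.of_forall fun t ht => ?_)
      rw [uIoc_of_le Real.two_pi_pos.le] at ht
      rw [hf t ht, fourier_coe_apply, smul_eq_mul]
      congr 2
      have := G2_two_pi_ne
      push_cast
      field_simp
    rw [e, h k]
    simp
  have hs := has_pointwise_sum_fourier_series_of_summable (f := f) (by rw [hc]; exact summable_zero)
    ((2 * Real.pi : ℝ) : AddCircle (2 * Real.pi))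
  rw [hc, hf _ ⟨Real.two_pi_pos, le_rfl⟩] at hs
  simp only [Pi.zero_apply, zero_smul] at hs
  rw [hp]
  exact hs.unique hasSum_zero

theorem G2_unique {F : ℝ → ℂ} (hF : Continuous F) (hp : F 0 = F (2 * Real.pi))
    (hneg : ∀ k : ℤ, k < 0 →
      ∫ t in (0 : ℝ)..2 * Real.pi, Complex.exp (-(k * t * Complex.I)) * F t = 0)
    (hc : ∀ᶠ c : ℂ in 𝓝 0, ∫ t in (0 : ℝ)..2 * Real.pi,
      F t / (1 - c * Complex.exp (-(t * Complex.I))) = 0) : F 0 = 0 := by
  refine G2_fourier hF hp fun k => ?_
  rcases lt_or_ge k 0 with hk | hk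
  · exact hneg k hk
  · obtain ⟨m, rfl⟩ := Int.eq_ofNat_of_zero_le hk
    rw [← (G2_modes hF hc m).self_of_nhds]
    refine intervalIntegral.integral_congr fun t _ => ?_
    simp only [zero_mul, sub_zero, div_one]
    rw [← Complex.exp_nat_mul]
    congr 2
    push_cast
    ring

end Vale.Agent.P274
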