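import Vale.Agent.P274.G2
import Vale.Agent.P274.C4

/-! The homogeneous case. -/

open Metric Set Filter Topology

namespace Vale.Agent.P274

namespace BM

variable {N n : ℕ} (M : BM N n)

theorem bihol_of_embedding {Φ : M.X → E n} (hΦ : M.Hol Φ) (hb : ∃ b : ℝ, ∀ x, ‖Φ x‖ ≤ b)
    (hi : Function.Injective Φ) (hd : ∀ x, ∀ v ∈ M.T x, M.df Φ x v = 0 → v = 0)
    (hs : ∀ p : M.X, ∃ s : M.Aut, s * s = 1 ∧ s • p = p ∧ ∀ᶠ y in 𝓝[≠] p, s • y ≠ y) :
    BiholBSD M.U := by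
  set Ψ : E n → M.X := Function.invFun Φ with hΨ
  have hl : ∀ x, Ψ (Φ x) = x := Function.leftInverse_invFun hi
  have hr : ∀ w ∈ range Φ, Φ (Ψ w) = w := by
    rintro w ⟨x, rfl⟩
    rw [hl]
  have hnh : ∀ x, range Φ ∈ 𝓝 (Φ x) := by
    intro x
    obtain ⟨-, -, -, -, h4⟩ := exists_local_inverse (hΦ x) (hd x)
    rw [← h4]
    exact range_mem_map
  have hopen : IsOpen (range Φ) := by
    rw [isOpen_iff_mem_nhds]
    rintro w ⟨x, rfl⟩
    exact hnh x
  have han : ∀ w ∈ range Φ, AnalyticAt ℂ (M.ι ∘ Ψ) w := by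
    rintro w ⟨x, rfl⟩
    obtain ⟨Ψ', h1, -, h3, -⟩ := exists_local_inverse (hΦ x) (hd x)
    refine h1.congr ?_
    filter_upwards [h3] with w hw
    have e : Ψ w = Ψ' w := by
      have e1 := hl (Ψ' w)
      rwa [hw] at e1
    simp only [Function.comp_apply, e]
  refine ⟨n, range Φ, ⟨hopen, isConnected_range hΦ.continuous, ?_, ?_⟩,
    Equiv.ofInjective Φ hi, holMap_iff.2 hΦ, fun w => ?_⟩
  · obtain ⟨b, hb⟩ := hb
    refine (isBounded_iff_forall_norm_le).2 ⟨b, ?_⟩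
    rintro w ⟨x, rfl⟩
    exact hb x
  · rintro w ⟨p, rfl⟩
    obtain ⟨s, h1, h2, h3⟩ := hs p
    refine ⟨fun w => Φ (s • Ψ w), fun w hw => ?_, fun w _ => mem_range_self _, fun w hw => ?_,
      ?_, ?_⟩
    · have h4 : M.HolAt (Φ ∘ fun y => s • y) (Ψ w) :=
        HolAt.comp (f := Φ) (a := fun y => s • y) (hΦ _) (M.hol_smul s _)
      exact (h4.analyticAt_comp (han w hw)).differentiableAt.differentiableWithinAt
    · simp only [hl]
      rw [← mul_smul, h1, one_smul, hr w hw]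
    · simp only [hl, h2]
    · have hc : ContinuousAt Ψ (Φ p) :=
        (Topology.IsInducing.subtypeVal.continuousAt_iff).2
          (han _ (mem_range_self p)).continuousAt
      have ht : Tendsto Ψ (𝓝[≠] (Φ p)) (𝓝[≠] p) := by
        refine tendsto_nhdsWithin_iff.2 ⟨?_, ?_⟩
        · have h5 := hc.tendsto
          rw [hl] at h5
          exact h5.mono_left nhdsWithin_le_nhds
        · filter_upwards [self_mem_nhdsWithin, nhdsWithin_le_nhds (hnh p)] with w hw hw' he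
          have h6 : Ψ w = p := he
          exact hw (by rw [← h6, hr w hw']; rfl)
      filter_upwards [ht.eventually h3, nhdsWithin_le_nhds (hnh p)] with w hw hw' he
      exact hw (hi (he.trans (hr w hw').symm))
  · refine ⟨range Φ, hopen, w.2, M.ι ∘ Ψ,
      fun y hy => (han y hy).differentiableAt.differentiableWithinAt, fun y _ => ?_⟩
    have e : (Equiv.ofInjective Φ hi).symm y = Ψ y.1 := by
      apply hi
      rw [Equiv.apply_ofInjective_symm hi, hr y.1 y.2]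
    simp only [e, Function.comp_apply]

end BM

namespace CM

variable {N n : ℕ} (M : CM N n)

theorem rot_of_HS {p : M.X} {Z : M.gC} (h : HS M.σ (M.q p) Z)
    (hT : ∀ v ∈ M.T p, ∃ W : M.gC, M.ev W.1 p = v) : ∃ θ, M.Rot θ p := by
  obtain ⟨θ, hθ⟩ := (M.σ_eq_iff Z).1 h.real
  have hfix : ∀ t, θ t • p = p := hθ.fix h.mem
  refine ⟨fun t => θ (-t), ?_, fun s t => ?_, ?_, fun t => hfix _, fun t v hv => ?_⟩
  · simp only [neg_zero, hθ.zero]
  · rw [← hθ.add, neg_add]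
  · exact hθ.continuous.comp (continuous_fst.neg.prodMk continuous_snd)
  · obtain ⟨W, hW⟩ := hT v hv
    obtain ⟨W₀, Wp, Wm, e, h0, h1, h2⟩ := h.dec W
    have e0 : M.ev W₀.1 p = 0 := h.mem_zero _ h0
    have e2 : M.ev Wm.1 p = 0 := h.mem_neg _ h2
    have e1 : M.ev Wp.1 p = v := by
      have e3 : M.ev W.1 p = M.ev W₀.1 p + M.ev Wp.1 p + M.ev Wm.1 p := by
        rw [e]
        rfl
      rw [← hW, e3, e0, e2, zero_add, add_zero]
    have hV : M.IsVF Wp.1 := BM.isVF_of_mem_gC Wp.2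
    have h3 : ⁅Z.1, Wp.1⁆ = Complex.I • Wp.1 := congrArg Subtype.val h1
    have h4 := BM.ev_Ad (θ (-t)) hV p
    rw [hθ.Ad_eigen hV h3, hfix, BM.ev_smul, e1] at h4
    rw [← h4]
    congr 2
    push_cast
    ring

theorem bihol_of_rot (h : ∀ p : M.X, ∃ θ, M.Rot θ p) : BiholBSD M.U := by
  obtain ⟨p⟩ : Nonempty M.X := inferInstance
  obtain ⟨θ, hθ⟩ := h p
  obtain ⟨Φ, h1, h2, h3, h4, h5⟩ := hθ.exists_avg
  obtain ⟨h6, h7⟩ := M.avg_injective hθ h1 h3 h4 h5
  exact M.bihol_of_embedding h1 h2 h6 h7 fun x => (h x).elim fun _ hx => hx.involution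

end CM

end Vale.Agent.P274
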