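import Vale.Agent.P274.A3

/-! Real algebra: polarisation, norms of the defining polynomials. -/

open Metric Set Filter Topology MvPolynomial

noncomputable section

namespace Vale.Agent.P274

/-- Real and imaginary parts as real coordinates. -/
def reim {k : ℕ} (z : E k) : Fin k ⊕ Fin k → ℝ := Sum.elim (fun i => (z i).re) (fun i => (z i).im)

/-- The polarisation of a real polynomial in the real and imaginary parts. -/
def polar {k : ℕ} (Q : MvPolynomial (Fin k ⊕ Fin k) ℝ) (p : E k × E k) : ℂ :=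
  aeval (Sum.elim (fun i => (p.1 i + p.2 i) / 2) (fun i => (p.1 i - p.2 i) / (2 * Complex.I))) Q

theorem polar_C {k : ℕ} (r : ℝ) (p : E k × E k) : polar (C r) p = r := aeval_C _ _

theorem polar_add {k : ℕ} (Q Q' : MvPolynomial (Fin k ⊕ Fin k) ℝ) (p : E k × E k) :
    polar (Q + Q') p = polar Q p + polar Q' p := map_add _ _ _

theorem polar_mul_X {k : ℕ} (Q : MvPolynomial (Fin k ⊕ Fin k) ℝ) (s : Fin k ⊕ Fin k)
    (p : E k × E k) : polar (Q * X s) p = polar Q p * polar (X s) p := map_mul _ _ _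

theorem polar_inl {k : ℕ} (i : Fin k) (p : E k × E k) :
    polar (X (Sum.inl i)) p = (p.1 i + p.2 i) / 2 := aeval_X _ _

theorem polar_inr {k : ℕ} (i : Fin k) (p : E k × E k) :
    polar (X (Sum.inr i)) p = (p.1 i - p.2 i) / (2 * Complex.I) := aeval_X _ _

theorem polar_X_lin {k : ℕ} (s : Fin k ⊕ Fin k) :
    ∃ L : (E k × E k) →L[ℂ] ℂ, polar (X s) = L := by
  refine ⟨LinearMap.toContinuousLinearMap ⟨⟨polar (X s), fun p q => ?_⟩, fun c p => ?_⟩, rfl⟩
  · rcases s with i | i <;> simp only [polar_inl, polar_inr, Prod.fst_add, Prod.snd_add,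
      Pi.add_apply] <;> ring
  · rcases s with i | i <;> simp only [polar_inl, polar_inr, Prod.smul_fst, Prod.smul_snd,
      Pi.smul_apply, smul_eq_mul, RingHom.id_apply] <;> ring

theorem polar_diag {k : ℕ} (Q : MvPolynomial (Fin k ⊕ Fin k) ℝ) (z : E k) :
    polar Q (z, star z) = (eval (reim z) Q : ℝ) := by
  induction Q using MvPolynomial.induction_on with
  | C r => rw [polar_C, eval_C]
  | add p q hp hq => rw [polar_add, hp, hq, map_add, Complex.ofReal_add]
  | mul_X p s hp =>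
    rw [polar_mul_X, hp, map_mul, Complex.ofReal_mul, eval_X]
    rcases s with i | i
    · rw [polar_inl, reim, Sum.elim_inl, Complex.re_eq_add_conj]
      rfl
    · rw [polar_inr, reim, Sum.elim_inr, Complex.im_eq_sub_conj]
      rfl

theorem polar_differentiable {k : ℕ} (Q : MvPolynomial (Fin k ⊕ Fin k) ℝ) :
    Differentiable ℂ (polar Q) := by
  induction Q using MvPolynomial.induction_on with
  | C r => exact funext (polar_C r) ▸ differentiable_const _
  | add p q hp hq => exact funext (polar_add p q) ▸ hp.add hq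
  | mul_X p s hp =>
    obtain ⟨L, hL⟩ := polar_X_lin s
    exact funext (polar_mul_X p s) ▸ hp.mul (hL ▸ L.differentiable)

theorem polar_symm {k : ℕ} (Q : MvPolynomial (Fin k ⊕ Fin k) ℝ) (y w : E k) :
    star (polar Q (y, w)) = polar Q (star w, star y) := by
  induction Q using MvPolynomial.induction_on with
  | C r => simp [polar_C]
  | add p q hp hq => rw [polar_add, star_add, hp, hq, polar_add]
  | mul_X p s hp =>
    rw [polar_mul_X, star_mul', hp, polar_mul_X]
    congr 1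
    rcases s with i | i
    · simp [polar_inl, add_comm]
    · simp only [polar_inr, star_div₀, star_sub, star_mul', Pi.star_apply, star_ofNat,
        Complex.star_def, Complex.conj_I]
      rw [mul_neg, div_neg, ← neg_div, neg_sub]

theorem polar_mul {k : ℕ} (Q Q' : MvPolynomial (Fin k ⊕ Fin k) ℝ) (p : E k × E k) :
    polar (Q * Q') p = polar Q p * polar Q' p := by
  exact map_mul _ _ _

theorem fderiv_polar_diag {k : ℕ} (Q : MvPolynomial (Fin k ⊕ Fin k) ℝ) (y : E k) (i : Fin k) :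
    fderiv ℂ (polar Q) (y, star y) (eb i, 0) =
      ((eval (reim y) (pderiv (Sum.inl i) Q) : ℝ) -
        Complex.I * (eval (reim y) (pderiv (Sum.inr i) Q) : ℝ)) / 2 := by
  induction Q using MvPolynomial.induction_on with
  | C r => simp [funext (polar_C (k := k) r)]
  | add p q hp hq =>
    rw [funext (polar_add p q), fderiv_fun_add (polar_differentiable p _) (polar_differentiable q _),
      _root_.add_apply, hp, hq]
    simp only [map_add, Complex.ofReal_add]
    ring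
  | mul_X p s hp =>
    obtain ⟨L, hL⟩ := polar_X_lin s
    have h1 : fderiv ℂ (polar (X s)) (y, star y) (eb i, 0) = polar (X s) (eb i, 0) := by
      rw [hL, L.fderiv]
    rw [funext (polar_mul_X p s),
      fderiv_fun_mul (polar_differentiable p _) (polar_differentiable _ _),
      _root_.add_apply, _root_.smul_apply,
      _root_.smul_apply, hp, h1, polar_diag, polar_diag]
    simp only [pderiv_mul, map_add, map_mul, Complex.ofReal_add, Complex.ofReal_mul, smul_eq_mul,
      pderiv_X]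
    rcases s with j | j
    · by_cases h : j = i
      · subst h
        simp [polar_inl, eb]
        ring
      · simp [polar_inl, eb, h]
        ring
    · by_cases h : j = i
      · subst h
        simp [polar_inr, eb]
        field_simp
        ring_nf
      · simp [polar_inr, eb, h]
        ring

/-- Membership in a semialgebraic set only depends on the signs of finitely many polynomials. -/
theorem IsSemialg.exists_signs {N : ℕ} {U : Set (E N)} (h : IsSemialg U) :
    ∃ 𝒬 : Finset (MvPolynomial (Fin N ⊕ Fin N) ℝ), ∀ z z' : E N,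
      (∀ Q ∈ 𝒬, SignType.sign (eval (reim z) Q) = SignType.sign (eval (reim z') Q)) →
        (z ∈ U ↔ z' ∈ U) := by
  classical
  induction h with
  | zero P =>
    refine ⟨{P}, fun z z' h => ?_⟩
    have h1 := h P (Finset.mem_singleton_self P)
    exact sign_eq_zero_iff.symm.trans ((Eq.congr_left h1).trans sign_eq_zero_iff)
  | pos P =>
    refine ⟨{P}, fun z z' h => ?_⟩
    have h1 := h P (Finset.mem_singleton_self P)
    exact sign_eq_one_iff.symm.trans ((Eq.congr_left h1).trans sign_eq_one_iff)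
  | union _ _ hA hB =>
    obtain ⟨a, ha⟩ := hA
    obtain ⟨b, hb⟩ := hB
    exact ⟨a ∪ b, fun z z' h => or_congr (ha z z' fun Q hQ => h Q (Finset.mem_union_left _ hQ))
      (hb z z' fun Q hQ => h Q (Finset.mem_union_right _ hQ))⟩
  | inter _ _ hA hB =>
    obtain ⟨a, ha⟩ := hA
    obtain ⟨b, hb⟩ := hB
    exact ⟨a ∪ b, fun z z' h => and_congr (ha z z' fun Q hQ => h Q (Finset.mem_union_left _ hQ))
      (hb z z' fun Q hQ => h Q (Finset.mem_union_right _ hQ))⟩
  | compl _ hA =>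
    obtain ⟨a, ha⟩ := hA
    exact ⟨a, fun z z' h => not_congr (ha z z' h)⟩

theorem polar_mem {k : ℕ} {Y : Type} {S : Subring (Y → ℂ)} (hc : ∀ c, (fun _ => c) ∈ S)
    {a b : Y → E k} (ha : ∀ i, (fun p => a p i) ∈ S) (hb : ∀ i, (fun p => b p i) ∈ S)
    (Q : MvPolynomial (Fin k ⊕ Fin k) ℝ) : (fun p => polar Q (a p, b p)) ∈ S := by
  induction Q using MvPolynomial.induction_on with
  | C r => simpa only [polar_C] using hc r
  | add p q hp hq =>
    simp only [polar_add]
    exact add_mem hp hq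
  | mul_X p s hp =>
    rcases s with i | i <;> simp only [polar_mul_X, polar_inl, polar_inr, div_eq_mul_inv]
    · exact mul_mem hp (mul_mem (add_mem (ha i) (hb i)) (hc 2⁻¹))
    · exact mul_mem hp (mul_mem (sub_mem (ha i) (hb i)) (hc (2 * Complex.I)⁻¹))

/-- Functions that are polynomial in the first point and conjugate polynomial in the second. -/
def normF {N : ℕ} (Z : Set (E N)) : Subring (Z × Z → ℂ) where
  carrier := {F | (∀ z', ∃ f, ∀ z : Z, F (z, z') = eval z.1 f) ∧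
    ∀ z, ∃ f, ∀ z' : Z, F (z, z') = star (eval z'.1 f)}
  mul_mem' := fun {F G} hF hG =>
    ⟨fun z' => (hF.1 z').elim fun f hf => (hG.1 z').elim fun g hg =>
      ⟨f * g, fun z => by rw [Pi.mul_apply, hf, hg, map_mul]⟩,
    fun z => (hF.2 z).elim fun f hf => (hG.2 z).elim fun g hg =>
      ⟨f * g, fun z => by rw [Pi.mul_apply, hf, hg, map_mul, star_mul']⟩⟩
  add_mem' := fun {F G} hF hG =>
    ⟨fun z' => (hF.1 z').elim fun f hf => (hG.1 z').elim fun g hg =>
      ⟨f + g, fun z => by rw [Pi.add_apply, hf, hg, map_add]⟩,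
    fun z => (hF.2 z).elim fun f hf => (hG.2 z).elim fun g hg =>
      ⟨f + g, fun z => by rw [Pi.add_apply, hf, hg, map_add, star_add]⟩⟩
  one_mem' := ⟨fun _ => ⟨1, by simp⟩, fun _ => ⟨1, by simp⟩⟩
  zero_mem' := ⟨fun _ => ⟨0, by simp⟩, fun _ => ⟨0, by simp⟩⟩
  neg_mem' := fun {F} hF =>
    ⟨fun z' => (hF.1 z').elim fun f hf => ⟨-f, fun z => by rw [Pi.neg_apply, hf, map_neg]⟩,
    fun z => (hF.2 z).elim fun f hf =>
      ⟨-f, fun z => by rw [Pi.neg_apply, hf, map_neg, star_neg]⟩⟩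

theorem normF_fst {N : ℕ} (Z : Set (E N)) (f : MvPolynomial (Fin N) ℂ) :
    (fun p : Z × Z => eval p.1.1 f) ∈ normF Z :=
  ⟨fun _ => ⟨f, fun _ => rfl⟩, fun z => ⟨C (star (eval z.1 f)), by simp⟩⟩

theorem normF_snd {N : ℕ} (Z : Set (E N)) (f : MvPolynomial (Fin N) ℂ) :
    (fun p : Z × Z => star (eval p.2.1 f)) ∈ normF Z :=
  ⟨fun z => ⟨C (star (eval z.1 f)), by simp⟩, fun _ => ⟨f, fun _ => rfl⟩⟩

theorem normF_prime {N : ℕ} {P : Ideal (MvPolynomial (Fin N) ℂ)} [hP : P.IsPrime] {Z : Set (E N)}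
    (hZ : Z = zeros (P : Set _)) {f g : MvPolynomial (Fin N) ℂ}
    (h : ∀ z : Z, eval z.1 f * eval z.1 g = 0) (z z' : Z) : eval z.1 f * eval z'.1 g = 0 := by
  subst hZ
  rcases hP.mem_or_mem (mem_of_vanish fun z hz => (map_mul _ _ _).trans (h ⟨z, hz⟩)) with h | h
  · rw [z.2 f h, zero_mul]
  · rw [z'.2 g h, mul_zero]

theorem normF_dom {N : ℕ} {P : Ideal (MvPolynomial (Fin N) ℂ)} [P.IsPrime] {Z : Set (E N)}
    (hZ : Z = zeros (P : Set _)) {F G : Z × Z → ℂ} (hF : F ∈ normF Z) (hG : G ∈ normF Z)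
    (h : F * G = 0) (p q : Z × Z) : F p * G q = 0 := by
  obtain ⟨f, hf⟩ := hF.2 p.1
  obtain ⟨g, hg⟩ := hG.2 q.1
  rw [show F p = _ from hf p.2, show G q = _ from hg q.2, ← star_mul', star_eq_zero]
  refine normF_prime hZ (fun z' => ?_) _ _
  obtain ⟨f', hf'⟩ := hF.1 z'
  obtain ⟨g', hg'⟩ := hG.1 z'
  rw [← star_eq_zero, star_mul', ← hf, ← hg, hf', hg']
  exact normF_prime hZ (fun z => by rw [← hf', ← hg']; exact congrFun h _) _ _

theorem PN.int_coord {N n : ℕ} {P : Ideal (MvPolynomial (Fin N) ℂ)} (A : PN N n P) {Y R : Type}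
    [CommRing R] [Algebra R (Y → ℂ)] (hc : ∀ c : ℂ, IsIntegral R fun _ : Y => c) (σ : ℂ →+* ℂ)
    {a : Y → E N} (ha : ∀ p, a p ∈ A.Z) (hπ : ∀ l, IsIntegral R fun p => σ (A.π (a p) l))
    (i : Fin N) : IsIntegral R fun p => σ (a p i) := by
  obtain ⟨m, hm, h⟩ := A.int (X i)
  let ψ : MvPolynomial (Fin n) ℂ →+* (Y → ℂ) := RingHom.pi fun p => σ.comp (eval (A.π (a p)))
  have hψ : ∀ g, ψ g ∈ integralClosure R (Y → ℂ) := fun g => by
    induction g using MvPolynomial.induction_on with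
    | C c => exact (funext fun p => congrArg σ (eval_C c) : ψ (C c) = fun _ => σ c) ▸ hc _
    | add f g hf hg => exact map_add ψ f g ▸ add_mem hf hg
    | mul_X f l hf =>
      exact map_mul ψ f _ ▸ mul_mem hf ((funext fun p => congrArg σ (eval_X l) :
        ψ (X l) = fun p => σ (A.π (a p) l)) ▸ hπ l)
  refine isIntegral_trans (A := integralClosure R (Y → ℂ)) _
    ⟨m.map (ψ.codRestrict _ hψ), hm.map _, funext fun p => ?_⟩
  have h1 := (A.Z_eq ▸ ha p : a p ∈ zeros _) _ h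
  have h2 : (eval (a p)).comp (aeval A.πp : MvPolynomial (Fin n) ℂ →ₐ[ℂ] _).toRingHom =
      eval (A.π (a p)) := ringHom_ext (by simp) (by simp [A.π_eq])
  rw [Polynomial.hom_eval₂, h2, eval_X] at h1
  have h3 := Polynomial.hom_eval₂ m (eval (A.π (a p))) σ (a p i)
  rw [h1, map_zero] at h3
  rw [Polynomial.eval₂_map]
  exact (Polynomial.hom_eval₂ m ψ (Pi.evalRingHom (fun _ => ℂ) p) _).trans h3.symm

/-- The norm of a real polynomial down to the base. -/
theorem PN.exists_norm {N n : ℕ} {P : Ideal (MvPolynomial (Fin N) ℂ)} [P.IsPrime] (A : PN N n P)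
    (Q : MvPolynomial (Fin N ⊕ Fin N) ℝ) :
    (∀ z ∈ A.Z, eval (reim z) Q = 0) ∨ ∃ R : MvPolynomial (Fin n ⊕ Fin n) ℝ, R ≠ 0 ∧
      ∀ z ∈ A.Z, ∀ z' ∈ A.Z, polar Q (z, star z') = 0 → polar R (A.π z, star (A.π z')) = 0 := by
  by_cases h0 : ∀ z ∈ A.Z, ∀ z' ∈ A.Z, polar Q (z, star z') = 0
  · exact Or.inl fun z hz => Complex.ofReal_eq_zero.1 ((polar_diag Q z).symm.trans (h0 z hz z hz))
  push Not at h0
  obtain ⟨z0, hz0, z1, hz1, h0⟩ := h0
  let φ : MvPolynomial (Fin n ⊕ Fin n) ℝ →+* (A.Z × A.Z → ℂ) := RingHom.pi fun p =>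
    (aeval (Sum.elim (fun i => (A.π p.1 i + star (A.π p.2) i) / 2)
      fun i => (A.π p.1 i - star (A.π p.2) i) / (2 * Complex.I)) :
        MvPolynomial (Fin n ⊕ Fin n) ℝ →ₐ[ℝ] ℂ).toRingHom
  have hφ : ∀ R p, φ R p = polar R (A.π p.1, star (A.π p.2)) := fun _ _ => rfl
  let _ := φ.toAlgebra
  have i0 : ∀ R, IsIntegral (MvPolynomial (Fin n ⊕ Fin n) ℝ) (φ R) := fun _ =>
    isIntegral_algebraMap
  have iI : IsIntegral (MvPolynomial (Fin n ⊕ Fin n) ℝ) fun _ : A.Z × A.Z => Complex.I :=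
    IsIntegral.of_pow two_pos
      ((funext fun _ => Complex.I_sq : (fun _ : A.Z × A.Z => Complex.I) ^ 2 = -1) ▸
        isIntegral_one.neg)
  have ic : ∀ c : ℂ, IsIntegral (MvPolynomial (Fin n ⊕ Fin n) ℝ) fun _ : A.Z × A.Z => c :=
    fun c => (funext fun p => by
      rw [Pi.add_apply, Pi.mul_apply, hφ, hφ, polar_C, polar_C, Complex.re_add_im] :
      φ (C c.re) + φ (C c.im) * (fun _ => Complex.I) = fun _ => c) ▸ (i0 _).add ((i0 _).mul iI)
  have i1 := A.int_coord ic (RingHom.id ℂ) (a := fun p : A.Z × A.Z => p.1.1) (fun p => p.1.2)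
    fun l => (funext fun p => by
      rw [Pi.add_apply, Pi.mul_apply, hφ, hφ, polar_inl, polar_inr, RingHom.id_apply]
      field_simp
      ring : φ (X (Sum.inl l)) + φ (X (Sum.inr l)) * (fun _ => Complex.I) =
        fun p => RingHom.id ℂ (A.π p.1.1 l)) ▸ (i0 _).add ((i0 _).mul iI)
  have i2 := A.int_coord ic (starRingEnd ℂ) (a := fun p : A.Z × A.Z => p.2.1) (fun p => p.2.2)
    fun l => (funext fun p => by
      rw [Pi.sub_apply, Pi.mul_apply, hφ, hφ, polar_inl, polar_inr, starRingEnd_apply]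
      simp only [Pi.star_apply]
      field_simp
      ring : φ (X (Sum.inl l)) - φ (X (Sum.inr l)) * (fun _ => Complex.I) =
        fun p => starRingEnd ℂ (A.π p.2.1 l)) ▸ (i0 _).sub ((i0 _).mul iI)
  obtain ⟨q, hq⟩ : ∃ q : A.Z × A.Z → ℂ, q = fun p => polar Q (p.1.1, star p.2.1) := ⟨_, rfl⟩
  obtain ⟨m, hm, h⟩ : IsIntegral (MvPolynomial (Fin n ⊕ Fin n) ℝ) q := hq ▸ polar_mem
    (S := (integralClosure (MvPolynomial (Fin n ⊕ Fin n) ℝ) (A.Z × A.Z → ℂ)).toSubring) ic i1 i2 Q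
  have fc : ∀ c, (fun _ => c) ∈ normF A.Z := fun c => by simpa using normF_fst A.Z (C c)
  have f1 : q ∈ normF A.Z := hq ▸ polar_mem fc (fun i => by simpa using normF_fst A.Z (X i))
    (fun i => by simpa using normF_snd A.Z (X i)) Q
  have f2 : ∀ R, φ R ∈ normF A.Z := polar_mem fc
    (fun i => by simpa only [A.π_eq] using normF_fst A.Z (A.πp i))
    (fun i => by simpa only [Pi.star_apply, A.π_eq] using normF_snd A.Z (A.πp i))
  obtain ⟨m', e, hX⟩ := m.exists_eq_pow_rootMultiplicity_mul_and_not_dvd hm.ne_zero 0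
  rw [Polynomial.C_0, sub_zero] at e hX
  rw [e, Polynomial.eval₂_mul, Polynomial.eval₂_X_pow] at h
  have f3 : m'.eval₂ φ q ∈ normF A.Z := by
    rw [Polynomial.eval₂_eq_sum_range]
    exact sum_mem fun i _ => mul_mem (f2 _) (pow_mem f1 _)
  refine Or.inr ⟨m'.coeff 0, mt Polynomial.X_dvd_iff.2 hX, fun z hz z' hz' h1 => ?_⟩
  have h2 := (mul_eq_zero.1 (normF_dom A.Z_eq (pow_mem f1 _) f3 h (⟨z0, hz0⟩, ⟨z1, hz1⟩)
    (⟨z, hz⟩, ⟨z', hz'⟩))).resolve_left (pow_ne_zero _ (hq ▸ h0))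
  have h3 := Polynomial.hom_eval₂ m' φ (Pi.evalRingHom (fun _ => ℂ) (⟨z, hz⟩, ⟨z', hz'⟩)) q
  rw [show Pi.evalRingHom (fun _ => ℂ) (⟨z, hz⟩, ⟨z', hz'⟩) q = 0 from hq ▸ h1,
    Polynomial.eval₂_at_zero] at h3
  exact h3.symm.trans h2

end Vale.Agent.P274
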