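import Vale.Agent.P274.H1

/-! Squarefree polynomials and elimination; zero sets in smooth hypersurfaces. -/

open Metric Set Filter Topology

namespace Vale.Agent.P274

open Polynomial in
theorem h2_sep {S K : Type} [CommRing S] [IsDomain S] [UniqueFactorizationMonoid S] [Field K]
    [CharZero K] [Algebra S K] [IsFractionRing S K] {f : S[X]} (hf : Squarefree f) :
    (f.map (algebraMap S K)).Separable := by
  induction f using UniqueFactorizationMonoid.induction_on_prime with
  | h₁ => exact absurd rfl hf.ne_zero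
  | h₂ f hu => simpa using Separable.unit_mul (hu.map (mapRingHom (algebraMap S K))) separable_one
  | h₃ g p hg hp ih =>
    rw [Polynomial.map_mul]
    have ih := ih hf.of_mul_right
    by_cases h0 : p.natDegree = 0
    · have hu : IsUnit (p.map (algebraMap S K)) := by
        rw [eq_C_of_natDegree_eq_zero h0, map_C, isUnit_C, isUnit_iff_ne_zero,
          map_ne_zero_iff _ (IsFractionRing.injective S K)]
        intro h
        exact hp.ne_zero (by rw [eq_C_of_natDegree_eq_zero h0, h, C_0])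
      exact ih.unit_mul hu
    · have hp1 := hp.irreducible.isPrimitive h0
      have hi := (hp1.irreducible_iff_irreducible_map_fraction_map (K := K)).1 hp.irreducible
      refine hi.separable.mul ih (hi.coprime_iff_not_dvd.2 fun h => hp.not_isUnit (hf p ?_))
      exact mul_dvd_mul_left p (hp1.dvd_of_fraction_map_dvd_fraction_map h)

open Polynomial in
theorem h2_elim {S : Type} [CommRing S] [IsDomain S] [UniqueFactorizationMonoid S] [CharZero S]
    {f : S[X]} (hf : Squarefree f) :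
    ∃ (r : S) (u v : S[X]), r ≠ 0 ∧ C r = u * f + v * derivative f := by
  have hi := IsFractionRing.injective S (FractionRing S)
  obtain ⟨a, b, hab⟩ := h2_sep (K := FractionRing S) hf
  obtain ⟨c, c0, hc⟩ := IsLocalization.integerNormalization_spec (nonZeroDivisors S) a
  obtain ⟨d, d0, hd⟩ := IsLocalization.integerNormalization_spec (nonZeroDivisors S) b
  rw [Algebra.smul_def, Polynomial.algebraMap_apply] at hc hd
  refine ⟨c * d, C d * IsLocalization.integerNormalization (nonZeroDivisors S) a,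
    C c * IsLocalization.integerNormalization (nonZeroDivisors S) b,
    mul_ne_zero (nonZeroDivisors.ne_zero c0) (nonZeroDivisors.ne_zero d0), map_injective _ hi ?_⟩
  rw [derivative_map] at hab
  simp only [Polynomial.map_mul, Polynomial.map_add, map_C, hc, hd, map_mul]
  linear_combination (-C (algebraMap S (FractionRing S) c) *
    C (algebraMap S (FractionRing S) d)) * hab

open MvPolynomial in
theorem h2_sqf {σ : Type} [Fintype σ] [DecidableEq σ] {R : MvPolynomial σ ℝ}
    (hR : R ≠ 0) : ∃ ρ : MvPolynomial σ ℝ, ρ ≠ 0 ∧ (∃ k, R ∣ ρ ^ k) ∧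
      ∀ a : σ, ∃ r u v : MvPolynomial σ ℝ, r ≠ 0 ∧ pderiv a r = 0 ∧
        r = u * ρ + v * pderiv a ρ := by
  obtain ⟨ρ, k, h1, -, h2⟩ := exists_squarefree_dvd_pow_of_ne_zero hR
  refine ⟨ρ, h1.ne_zero, ⟨k, h2⟩, fun a => ?_⟩
  let φ := (renameEquiv ℝ (Equiv.optionSubtypeNe a).symm).trans (optionEquivLeft ℝ {b // b ≠ a})
  have hX : ∀ b, φ (pderiv a (X b)) = Polynomial.derivative (φ (X b)) := by
    intro b
    by_cases h : b = a
    · subst h
      simp [φ, optionEquivLeft_X_none]
    · simp [φ, Equiv.optionSubtypeNe_symm_of_ne h, optionEquivLeft_X_some, pderiv_X_of_ne h]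
  have hφ : ∀ f, φ (pderiv a f) = Polynomial.derivative (φ f) := by
    intro f
    induction f using MvPolynomial.induction_on with
    | C c => simp [φ, optionEquivLeft_C]
    | add f g hf hg => simp only [map_add, hf, hg]
    | mul_X f b hf =>
      rw [pderiv_mul, map_add, map_mul, map_mul, map_mul, hf, hX, Polynomial.derivative_mul]
  have h3 : Squarefree (φ ρ) := fun x hx => by
    have := (h1 (φ.symm x) (by simpa using map_dvd φ.symm hx)).map φ
    rwa [φ.apply_symm_apply] at this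
  obtain ⟨r, u, v, h4, h5⟩ := h2_elim h3
  refine ⟨φ.symm (Polynomial.C r), φ.symm u, φ.symm v, ?_, φ.injective ?_, φ.injective ?_⟩
  · rwa [map_ne_zero_iff _ φ.symm.injective, Polynomial.C_ne_zero]
  · rw [hφ, φ.apply_symm_apply, Polynomial.derivative_C, map_zero]
  · simp only [map_add, map_mul, φ.apply_symm_apply, hφ, h5]

theorem h2_vanish {Q : Type*} [NormedAddCommGroup Q] [NormedSpace ℂ Q] {p ρ : Q → ℂ} {x v : Q}
    (hp : ∀ᶠ y in 𝓝 x, DifferentiableAt ℂ p y)
    (hρ : AnalyticAt ℂ ρ x) (hp0 : p x = 0) (hv : fderiv ℂ ρ x v ≠ 0)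
    (h : ∀ᶠ y in 𝓝 x, p y = 0 → ρ y = 0) : ∀ᶠ y in 𝓝 x, ρ y = 0 → p y = 0 := by
  have hv0 : 0 < ‖v‖ := norm_pos_iff.2 fun h0 => hv (by rw [h0, map_zero])
  have hd : 0 < ‖fderiv ℂ ρ x v‖ := norm_pos_iff.2 hv
  have h1 := hρ.hasStrictFDerivAt.isLittleO.def (c := ‖fderiv ℂ ρ x v‖ / (2 * ‖v‖)) (by positivity)
  rw [nhds_prod_eq] at h1
  obtain ⟨t, ht, h1⟩ := mem_prod_self_iff.1 h1
  obtain ⟨ε, hε, H⟩ := Metric.eventually_nhds_iff_ball.1 ((hp.and h).and ht)
  have inj : ∀ y ∈ ball x ε, ∀ ζ : ℂ, y + ζ • v ∈ ball x ε → ρ y = 0 → p (y + ζ • v) = 0 →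
      ζ = 0 := by
    intro y hy ζ hζ a b
    have h2 := h1 (mk_mem_prod (H _ hζ).2 (H _ hy).2)
    simp only [mem_ofPred_eq, (H _ hζ).1.2 b, a, sub_zero, zero_sub, add_sub_cancel_left, norm_neg, map_smul,
      norm_smul] at h2
    have h3 : ‖fderiv ℂ ρ x v‖ / (2 * ‖v‖) * (‖ζ‖ * ‖v‖) = ‖ζ‖ * ‖fderiv ℂ ρ x v‖ / 2 := by
      field_simp
    rw [h3] at h2
    by_contra h0
    have := mul_pos (norm_pos_iff.2 h0) hd
    linarith
  obtain ⟨s, hs⟩ : ∃ s, s = ε / (2 * ‖v‖) := ⟨_, rfl⟩
  have hs0 : 0 < s := by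
    rw [hs]
    positivity
  have mem : ∀ y ∈ ball x (ε / 2), ∀ ζ ∈ closedBall (0 : ℂ) s, y + ζ • v ∈ ball x ε := by
    intro y hy ζ hζ
    rw [mem_closedBall_zero_iff, hs, le_div_iff₀ (by positivity)] at hζ
    rw [mem_ball, dist_eq_norm] at hy ⊢
    have := norm_add_le (y - x) (ζ • v)
    rw [norm_smul, sub_add_eq_add_sub] at this
    linarith
  have hx := mem_ball_self (x := x) (half_pos hε)
  have tube : ∀ᶠ y in 𝓝 x, ∀ ζ ∈ sphere (0 : ℂ) s, ‖p y‖ < ‖p (y + ζ • v)‖ := by
    refine (isCompact_sphere _ _).eventually_forall_of_forall_eventually fun ζ hζ => ?_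
    have hm := mem x hx ζ (sphere_subset_closedBall hζ)
    have c1 : ContinuousAt (fun z : Q × ℂ => ‖p z.1‖) (x, ζ) :=
      (hp.self_of_nhds.continuousAt.comp_of_eq continuousAt_fst rfl).norm
    have c2 : ContinuousAt (fun z : Q × ℂ => ‖p (z.1 + z.2 • v)‖) (x, ζ) :=
      ((H _ hm).1.1.continuousAt.comp_of_eq (f := fun z : Q × ℂ => z.1 + z.2 • v) (by fun_prop)
        rfl).norm
    refine c1.eventually_lt c2 ?_
    rw [hp0, norm_zero, norm_pos_iff]
    intro h0
    have := inj x (mem_ball_self hε) ζ hm (h.self_of_nhds hp0) h0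
    rw [this, mem_sphere_zero_iff_norm, norm_zero] at hζ
    exact hs0.ne hζ
  filter_upwards [tube, ball_mem_nhds x (half_pos hε)] with y hy1 hy2 hy3
  by_contra hy4
  have ne : ∀ ζ ∈ closedBall (0 : ℂ) s, p (y + ζ • v) ≠ 0 := by
    intro ζ hζ h0
    have := inj y (ball_subset_ball (half_le_self hε.le) hy2) ζ (mem y hy2 ζ hζ) hy3 h0
    rw [this, zero_smul, add_zero] at h0
    exact hy4 h0
  have hD : DiffContOnCl ℂ (fun ζ : ℂ => (p (y + ζ • v))⁻¹) (ball 0 s) := by
    refine DifferentiableOn.diffContOnCl ?_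
    rw [closure_ball _ hs0.ne']
    intro ζ hζ
    exact (((H _ (mem y hy2 ζ hζ)).1.1.comp (f := fun ζ : ℂ => y + ζ • v) ζ (by fun_prop)).inv
      (ne ζ hζ)).differentiableWithinAt
  obtain ⟨ζ, hζ, hm⟩ := Complex.exists_mem_frontier_isMaxOn_norm isBounded_ball
    ⟨0, mem_ball_self hs0⟩ hD
  rw [frontier_ball _ hs0.ne'] at hζ
  have h5 := hm (subset_closure (mem_ball_self hs0))
  simp only [mem_ofPred_eq, Function.comp_apply, zero_smul, add_zero, norm_inv] at h5
  exact absurd h5 (not_le.2 (inv_strictAnti₀ (norm_pos_iff.2 hy4) (hy1 ζ hζ)))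

open MvPolynomial in
theorem h2_open {τ 𝕜 : Type} [Finite τ] [NontriviallyNormedField 𝕜] {F : MvPolynomial τ 𝕜}
    (hF : F ≠ 0) {O : Set (τ → 𝕜)} (hO : IsOpen O) (hne : O.Nonempty) :
    ∃ y ∈ O, eval y F ≠ 0 := by
  obtain ⟨y, hy⟩ := hne
  obtain ⟨u, h1, h2⟩ := isOpen_pi_iff'.1 hO y hy
  by_contra h
  push Not at h
  exact hF (funext_set u (fun i => infinite_of_mem_nhds _ ((h1 i).1.mem_nhds (h1 i).2))
    fun x hx => by rw [h x (h2 hx), map_zero])

open MvPolynomial in
theorem h2_line {τ 𝕜 : Type} [Field 𝕜] {F : MvPolynomial τ 𝕜} {y : τ → 𝕜} (v : τ → 𝕜)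
    (h : eval y F ≠ 0) : {t : 𝕜 | eval (y + t • v) F = 0}.Finite := by
  have e : ∀ t, Polynomial.eval t (aeval (fun k => Polynomial.C (y k) +
      Polynomial.X * Polynomial.C (v k)) F) = eval (y + t • v) F := by
    intro t
    clear h
    induction F using MvPolynomial.induction_on with
    | C c => simp
    | add f g hf hg => simp only [map_add, Polynomial.eval_add, hf, hg]
    | mul_X f b hf =>
      rw [map_mul, map_mul, Polynomial.eval_mul, hf]
      simp only [aeval_X, eval_X, Polynomial.eval_add, Polynomial.eval_mul, Polynomial.eval_C,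
        Polynomial.eval_X, Pi.add_apply, Pi.smul_apply, smul_eq_mul]
  simp only [← e]
  refine Polynomial.finite_setOfPred_isRoot fun h0 => h ?_
  have := e 0
  rw [h0, zero_smul, add_zero, Polynomial.eval_zero] at this
  exact this.symm

open MvPolynomial in
theorem h2_indep {τ : Type} [DecidableEq τ] {r : MvPolynomial τ ℝ} {a : τ} (h : pderiv a r = 0)
    (w : τ → ℝ) (t : ℝ) : eval (w + t • (Pi.single a 1 : τ → ℝ)) r = eval w r := by
  have d : ∀ (r : MvPolynomial τ ℝ) (t : ℝ),
      HasDerivAt (fun t : ℝ => eval (w + t • (Pi.single a 1 : τ → ℝ)) r)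
        (eval (w + t • (Pi.single a 1 : τ → ℝ)) (pderiv a r)) t := by
    intro r t
    induction r using MvPolynomial.induction_on with
    | C c => simpa using hasDerivAt_const t c
    | add f g hf hg =>
      simp only [map_add]
      exact hf.add hg
    | mul_X f b hf =>
      simp only [pderiv_mul, map_add, map_mul, eval_X]
      refine hf.mul ((((hasDerivAt_id t).mul_const ((Pi.single a 1 : τ → ℝ) b)).const_add
        (w b)).congr_deriv ?_)
      by_cases hb : b = a
      · simp [hb]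
      · simp [hb, pderiv_X_of_ne hb]
  have := is_const_of_deriv_eq_zero (fun t => (d r t).differentiableAt)
    (fun t => by rw [(d r t).deriv, h, map_zero]) t 0
  simpa using this

end Vale.Agent.P274
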