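import Vale.Agent.P274.B3
import Vale.Agent.P274.B7

/-! Definitions for the flow theorem. -/

open Metric Set Filter Topology

noncomputable section

namespace Vale.Agent.P274

/-- The complex flow of an entire vector field near the closed ball of radius `R₀`. -/
structure Fl {N : ℕ} (V : E N → E N) (R₀ : ℝ) where
  r : ℝ
  r_pos : 0 < r
  r_le : r ≤ 1 / 2
  fl : ℂ × E N → E N
  hol : DifferentiableOn ℂ fl (ball 0 (2 * r) ×ˢ ball 0 (R₀ + 1))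
  zero : ∀ z ∈ ball (0 : E N) (R₀ + 1), fl (0, z) = z
  ode : ∀ z ∈ ball (0 : E N) (R₀ + 1), ∀ s ∈ ball (0 : ℂ) (2 * r),
    HasDerivAt (fun s => fl (s, z)) (V (fl (s, z))) s
  mem : ∀ z, ‖z‖ ≤ R₀ → ∀ s ∈ ball (0 : ℂ) (2 * r), fl (s, z) ∈ ball (0 : E N) (R₀ + 1)
  add : ∀ z, ‖z‖ ≤ R₀ → ∀ s s' : ℂ, ‖s‖ < r → ‖s'‖ < r → fl (s, fl (s', z)) = fl (s + s', z)

namespace AM

variable {N n : ℕ} (M : AM N n)

/-- The real defining function of the walls. -/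
def p (z : E N) : ℝ := (M.W.ρ (M.A.π z, star (M.A.π z))).re

/-- The polarised derivative of the defining function along `V i`; holomorphic in `z`,
antiholomorphic in `z'`. -/
def g (i : Fin n) (z z' : E N) : ℂ :=
  M.A.Δ (M.A.π z) ^ 2 * fderiv ℂ M.W.ρ (M.A.π z, star (M.A.π z')) (eb i, 0)

open Classical in
/-- A point of `ℂ^N` as a point of the manifold (junk outside `U`). -/
def toX (z : E N) : M.X := if h : z ∈ M.U then ⟨z, h⟩ else Classical.arbitrary _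

end AM

/-- A flow of the `i`-th tangent field near the closure of `U`. -/
structure WF {N n : ℕ} (M : AM N n) (i : Fin n) where
  R₀ : ℝ
  R₀_pos : 0 < R₀
  bd : ∀ z ∈ M.U, ‖z‖ ≤ R₀
  F : Fl (M.A.V i) R₀

namespace WF

variable {N n : ℕ} {M : AM N n} {i : Fin n} (D : WF M i)

/-- The orbit disc of radius `a` through `z` lies in `U`. -/
def Disc (z : E N) (a : ℝ) : Prop := ∀ s : ℂ, ‖s‖ < a → D.F.fl (s, z) ∈ M.U

/-- The Hartogs radius. -/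
def HR (z : E N) : ℝ := sSup {a | 0 ≤ a ∧ a ≤ D.F.r ∧ D.Disc z a}

end WF

/-- A boundary limit `φ` of automorphisms `a j` with a generic point `x₀`. -/
structure FD {N n : ℕ} (M : AM N n) (i : Fin n) extends WF M i where
  𝒰 : Ultrafilter ℕ
  a : ℕ → M.Aut
  φ : M.X → E N
  lim : ∀ x : M.X, Tendsto (fun j => M.ι (a j • x)) 𝒰 (𝓝 (φ x))
  esc : ∀ x, φ x ∉ M.U
  x₀ : M.X
  gen₀ : M.g i (φ x₀) (φ x₀) ≠ 0
  Δ₀ : M.A.Δ (M.A.π x₀.1) ≠ 0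

namespace FD

variable {N n : ℕ} {M : AM N n} {i : Fin n} (D : FD M i)

/-- The point `a j • x` of `ℂ^N`. -/
def z (j : ℕ) (x : M.X) : E N := M.ι (D.a j • x)

/-- The Hartogs radius at `a j • x`. -/
def H (j : ℕ) (x : M.X) : ℝ := D.HR (D.z j x)

/-- The flow pulled back by `a j`. -/
def mv (j : ℕ) (x : M.X) (s : ℂ) : M.X := (D.a j)⁻¹ • M.toX (D.F.fl (s, D.z j x))

/-- The vector field pulled back by `a j`. -/
def Wf (j : ℕ) (x : M.X) : E N :=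
  M.df (fun y => M.ι ((D.a j)⁻¹ • y)) (D.a j • x) (M.A.V i (D.z j x))

/-- The Jacobian matrix of `π ∘ a j` with respect to the tangent fields. -/
def Jm (j : ℕ) (x : M.X) : Matrix (Fin n) (Fin n) ℂ :=
  Matrix.of fun k l => M.df (fun y => M.A.π (D.z j y)) x (M.A.V l x.1) k

/-- The polarised angle defect. -/
def Ef (j : ℕ) (x y : M.X) : ℂ :=
  M.g i (D.z j x) (D.z j y) * star (M.g i (D.z j D.x₀) (D.z j x)) *
      star (M.g i (D.z j y) (D.z j D.x₀)) * M.g i (D.z j D.x₀) (D.z j D.x₀) -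
    star (M.g i (D.z j y) (D.z j x)) * M.g i (D.z j x) (D.z j D.x₀) *
      M.g i (D.z j D.x₀) (D.z j y) * star (M.g i (D.z j D.x₀) (D.z j D.x₀))

/-- The tangential direction, as a function of two points of `ℂ^N`. -/
def βf (_D : FD M i) (z z₀ : E N) : ℂ :=
  Complex.I * M.g i z₀ z₀ * star (M.g i z₀ z) / M.g i z z₀

/-- The tangential direction at level `j`. -/
def β (j : ℕ) (x : M.X) : ℂ := D.βf (D.z j x) (D.z j D.x₀)

/-- The limiting tangential direction. -/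
def βl (x : M.X) : ℂ := D.βf (D.φ x) (D.φ D.x₀)

/-- A scale near `ω`. -/
structure Scale (ω : M.X) (ε : ℕ → ℝ) (t : Set M.X) (c : ℝ) : Prop where
  isOpen : IsOpen t
  mem : ω ∈ t
  c_pos : 0 < c
  pos : ∀ j, 0 < ε j
  tendsto : Tendsto ε D.𝒰 (𝓝 0)
  low : ∀ᶠ j in (D.𝒰 : Filter ℕ), ∀ x ∈ t, c * ε j ≤ D.H j x
  nontriv : ∀ y ∈ t, ∃ᶠ x in 𝓝 y, ∃ c' : ℝ, 0 < c' ∧
    ∀ᶠ j in (D.𝒰 : Filter ℕ), c' ≤ ε j * ‖D.Wf j x‖

/-- The local limit of the rescaled flows near `x₀`. -/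
structure LocLim (ε : ℕ → ℝ) (t : Set M.X) (c : ℝ) (m : M.X → ℂ → M.X) : Prop where
  isOpen : IsOpen t
  mem : D.x₀ ∈ t
  c_pos : 0 < c
  lim : ∀ x ∈ t, ∀ ζ ∈ ball (0 : ℂ) c, ∀ (xs : ℕ → M.X) (ζs : ℕ → ℂ), Tendsto xs D.𝒰 (𝓝 x) →
    Tendsto ζs D.𝒰 (𝓝 ζ) → Tendsto (fun j => D.mv j (xs j) (ε j * ζs j)) D.𝒰 (𝓝 (m x ζ))
  hol : ∀ x ∈ t, ∀ ζ ∈ ball (0 : ℂ) c,
    AnalyticAt ℂ (fun q : E n × ℂ => M.ι (m (M.ψ x q.1) q.2)) (0, ζ)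
  zero : ∀ x ∈ t, m x 0 = x
  inv : ∀ x ∈ t, ∀ ζ ∈ ball (0 : ℂ) c, D.φ (m x ζ) = D.φ x
  add : ∀ x ∈ t, ∀ ζ ∈ ball (0 : ℂ) c, ∀ ζ' ∈ ball (0 : ℂ) c, ζ + ζ' ∈ ball (0 : ℂ) c →
    m x ζ' ∈ t → m (m x ζ') ζ = m x (ζ + ζ')
  nontriv : ∀ y ∈ t, ∃ᶠ x in 𝓝 y, ∀ᶠ ζ in 𝓝[≠] (0 : ℂ), m x ζ ≠ x

end FD

end Vale.Agent.P274
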