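import Vale.Agent.P274.I1a

/-! Taylor estimates along the flow, the Hartogs radius. -/

open Metric Set Filter Topology

namespace Vale.Agent.P274

theorem i1_symm {n : ℕ} {ρ : E n × E n → ℂ} (hd : Differentiable ℂ ρ)
    (hs : ∀ y w, star (ρ (y, w)) = ρ (star w, star y)) (y u : E n) :
    fderiv ℂ ρ (y, star y) (0, star u) = star (fderiv ℂ ρ (y, star y) (u, 0)) := by
  have h0 := (hd (y, star y)).hasFDerivAt.star_star
  rw [Prod.star_def, star_star] at h0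
  have h1 := HasFDerivAt.comp (y, star y) (f := fun q : E n × E n => (q.2, q.1)) h0
    (hasFDerivAt_snd.prodMk hasFDerivAt_fst)
  have e : ((star ∘ ρ ∘ star) ∘ fun q => (q.2, q.1)) = ρ := funext fun q => by
    simpa [Prod.star_def] using hs (star q.2) (star q.1)
  rw [e] at h1
  refine (congrArg (· (0, star u)) h1.fderiv).trans ?_
  simp [Prod.star_def]

namespace WF

variable {N n : ℕ} {M : AM N n} {i : Fin n} (D : WF M i)

theorem fl_mem_Z {z : E N} (hz : z ∈ M.A.Z) (hb : ‖z‖ ≤ D.R₀) {s : ℂ} (hs : ‖s‖ < 2 * D.F.r) :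
    D.F.fl (s, z) ∈ M.A.Z := by
  have hz' : z ∈ ball (0 : E N) (D.R₀ + 1) := mem_ball_zero_iff.2 (by linarith)
  exact M.A.V_Z i _ _ (D.F.ode z hz') ((D.F.zero z hz').symm ▸ hz) s (mem_ball_zero_iff.2 hs)

theorem analyticAt_fl {z : E N} (hb : ‖z‖ ≤ D.R₀) {s : ℂ} (hs : ‖s‖ < 2 * D.F.r) :
    AnalyticAt ℂ D.F.fl (s, z) := by
  exact P278F.analyticOnNhd_of_differentiableOn (isOpen_ball.prod isOpen_ball) D.F.hol _
    ⟨mem_ball_zero_iff.2 hs, mem_ball_zero_iff.2 (by linarith)⟩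

theorem hasDerivAt_p {z : E N} (hz : z ∈ M.A.Z) (hb : ‖z‖ ≤ D.R₀) {s : ℝ → ℂ} {s' : ℂ} {t : ℝ}
    (hs : ‖s t‖ < 2 * D.F.r) (hd : HasDerivAt s s' t) :
    HasDerivAt (fun t => M.p (D.F.fl (s t, z)))
      (2 * (s' * M.g i (D.F.fl (s t, z)) (D.F.fl (s t, z))).re) t := by
  have h1 := ((M.A.π_diff _).hasFDerivAt.comp_hasDerivAt _ (D.F.ode z
    (mem_ball_zero_iff.2 (by linarith)) _ (mem_ball_zero_iff.2 hs))).scomp t hd
  rw [M.A.V_π i _ (D.fl_mem_Z hz hb hs)] at h1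
  have h2 := Complex.reCLM.hasFDerivAt.comp_hasDerivAt t
    (((M.W.ρ_diff _).hasFDerivAt.restrictScalars ℝ).comp_hasDerivAt t (h1.prodMk h1.star))
  refine h2.congr_deriv ?_
  simp only [Function.comp_apply, ContinuousLinearMap.coe_restrictScalars', Complex.reCLM_apply]
  rw [← Prod.fst_add_snd (s' • _, _), map_add, i1_symm M.W.ρ_diff M.W.ρ_symm, Complex.add_re,
    Complex.star_def, Complex.conj_re, ← two_mul, AM.g, ← smul_eq_mul s',
    ← smul_eq_mul (M.A.Δ _ ^ 2), ← map_smul, ← map_smul, Prod.smul_mk, Prod.smul_mk, smul_zero, smul_zero]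

theorem taylor : ∃ K : ℝ, 1 ≤ K ∧ ∀ z ∈ M.A.Z, ‖z‖ ≤ D.R₀ → ‖M.g i z z‖ ≤ K ∧
    ∀ s : ℂ, ‖s‖ < 2 * D.F.r → ‖D.F.fl (s, z) - z‖ ≤ K * ‖s‖ ∧
      ‖M.g i (D.F.fl (s, z)) (D.F.fl (s, z)) - M.g i z z‖ ≤ K * ‖s‖ ∧
      |M.p (D.F.fl (s, z)) - M.p z - 2 * (s * M.g i z z).re| ≤ K * ‖s‖ ^ 2 := by
  obtain ⟨A, hA⟩ := (isCompact_closedBall (0 : E N) (D.R₀ + 1)).exists_bound_of_continuousOn
    (M.A.V_diff i).continuous.continuousOn
  obtain ⟨B, hB⟩ := (isCompact_closedBall (0 : E N) D.R₀).exists_bound_of_continuousOn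
    ((M.continuous_g i).comp (continuous_id.prodMk continuous_id)).continuousOn
  obtain ⟨L, hL⟩ := i1_lip (M.g_entire i) (D.R₀ + 1)
  have hR := D.R₀_pos
  have hA0 : 0 ≤ A := (norm_nonneg _).trans (hA 0 (mem_closedBall_self (by linarith)))
  have hB0 : 0 ≤ B := (norm_nonneg _).trans (hB 0 (mem_closedBall_self hR.le))
  have hL0 : 0 ≤ L * A := by positivity
  refine ⟨1 + A + B + 2 * (L * A), by linarith, fun z hz hb =>
    ⟨(hB z (mem_closedBall_zero_iff.2 hb)).trans (by linarith), ?_⟩⟩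
  have hz' : z ∈ ball (0 : E N) (D.R₀ + 1) := mem_ball_zero_iff.2 (by linarith)
  have h1 : ∀ s : ℂ, ‖s‖ < 2 * D.F.r → ‖D.F.fl (s, z) - z‖ ≤ A * ‖s‖ := fun s hs => by
    simpa [D.F.zero z hz'] using (convex_ball (0 : ℂ) _).norm_image_sub_le_of_norm_hasDerivWithin_le
      (fun x hx => (D.F.ode z hz' x hx).hasDerivWithinAt)
      (fun x hx => hA _ (ball_subset_closedBall (D.F.mem z hb x hx)))
      (mem_ball_self ((norm_nonneg _).trans_lt hs)) (mem_ball_zero_iff.2 hs)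
  have h2 : ∀ s : ℂ, ‖s‖ < 2 * D.F.r →
      ‖M.g i (D.F.fl (s, z)) (D.F.fl (s, z)) - M.g i z z‖ ≤ L * A * ‖s‖ := fun s hs => by
    have := hL.norm_sub_le (x := (D.F.fl (s, z), star (D.F.fl (s, z)))) (y := (z, star z))
      (by simpa using ball_subset_closedBall (D.F.mem z hb s (mem_ball_zero_iff.2 hs)))
      (by simpa using ball_subset_closedBall hz')
    simp only [star_star, Prod.mk_sub_mk, Prod.norm_mk, ← star_sub, norm_star, max_self] at this
    rw [mul_assoc]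
    exact this.trans (mul_le_mul_of_nonneg_left (h1 s hs) L.2)
  refine fun s hs => ⟨(h1 s hs).trans (by gcongr; linarith), (h2 s hs).trans (by gcongr; linarith), ?_⟩
  have h3 := norm_image_sub_le_of_norm_deriv_le_segment_01' (C := 2 * (L * A) * ‖s‖ ^ 2)
    (fun t ht => ((D.hasDerivAt_p hz hb (s := fun t => t * s) (i1_mem hs ht)
      ((hasDerivAt_id t).ofReal_comp.mul_const s)).sub
        (hasDerivAt_mul_const (2 * (s * M.g i z z).re))).hasDerivWithinAt) fun t ht => by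
      have ht' := Ico_subset_Icc_self ht
      rw [← mul_sub, ← Complex.sub_re, Complex.ofReal_one, one_mul, ← mul_sub, norm_mul,
        Real.norm_two, mul_assoc]
      refine mul_le_mul_of_nonneg_left ((Complex.abs_re_le_norm _).trans ?_) zero_le_two
      have := h2 _ (i1_mem hs ht')
      rw [norm_mul, Complex.norm_real, Real.norm_of_nonneg ht.1] at this
      rw [norm_mul, sq, ← mul_assoc, mul_comm]
      exact mul_le_mul_of_nonneg_right (this.trans (mul_le_mul_of_nonneg_left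
        (mul_le_of_le_one_left (norm_nonneg _) ht'.2) hL0)) (norm_nonneg _)
  simp only [Pi.sub_apply, Complex.ofReal_one, one_mul, Complex.ofReal_zero, zero_mul, sub_zero,
    D.F.zero z hz', Real.norm_eq_abs] at h3
  rw [sub_right_comm]
  exact h3.trans (by gcongr; linarith)

theorem HR_nonneg (z : E N) : 0 ≤ D.HR z := by
  exact Real.sSup_nonneg fun _ h => h.1

theorem HR_le (z : E N) : D.HR z ≤ D.F.r := by
  exact Real.sSup_le (fun _ h => h.2.1) D.F.r_pos.le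

theorem disc_HR (z : E N) : D.Disc z (D.HR z) := by
  intro s hs
  obtain ⟨a, ha, h⟩ := exists_lt_of_lt_csSup (s := {a | 0 ≤ a ∧ a ≤ D.F.r ∧ D.Disc z a})
    ⟨0, le_rfl, D.F.r_pos.le, fun s hs => absurd hs (norm_nonneg s).not_gt⟩ hs
  exact ha.2.2 s h

theorem le_HR {z : E N} {a : ℝ} (ha : a ≤ D.F.r) (h : D.Disc z a) : a ≤ D.HR z := by
  rcases le_total a 0 with h0 | h0
  exacts [h0.trans (D.HR_nonneg z), le_csSup ⟨_, fun _ h => h.2.1⟩ ⟨h0, ha, h⟩]

theorem HR_pos {z : E N} (hz : z ∈ M.U) : 0 < D.HR z := by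
  have hr := D.F.r_pos
  have hb := D.bd z hz
  have hz' : z ∈ ball (0 : E N) (D.R₀ + 1) := mem_ball_zero_iff.2 (by linarith)
  obtain ⟨a, ha, h⟩ := Metric.eventually_nhds_iff_ball.1 ((D.F.ode z hz' 0
    (mem_ball_self (by linarith))).continuousAt.eventually
      (M.eventually_mem_U (by simpa [D.F.zero z hz'] using hz)))
  exact (lt_min ha hr).trans_le (D.le_HR (min_le_right _ _) fun s hs =>
    h s (mem_ball_zero_iff.2 (lt_min_iff.1 hs).1)
      (D.fl_mem_Z (M.U_sub hz) hb (by linarith [(lt_min_iff.1 hs).2])))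

theorem le_HR_fl {z : E N} (hz : z ∈ M.U) {s : ℂ} (hs : ‖s‖ < D.F.r) {a : ℝ} (ha : a ≤ D.F.r)
    (h : ∀ s' : ℂ, ‖s' - s‖ < a → D.F.fl (s', z) ∈ M.U) : a ≤ D.HR (D.F.fl (s, z)) := by
  refine D.le_HR ha fun s' hs' => ?_
  rw [D.F.add z (D.bd z hz) s' s (hs'.trans_le ha) hs]
  exact h _ (by simpa using hs')

end WF

end Vale.Agent.P274
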