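import Vale.Agent.P274.I2

/-! Stepping in real time, at a fixed level. -/

open Metric Set Filter Topology MeasureTheory

namespace Vale.Agent.P274.WF

variable {N n : ℕ} {M : AM N n} {i : Fin n} (D : WF M i)

theorem i10_log {χ : ℝ} (h : 1 - (1 + 1) / (2 * Real.pi) ≤ χ) {A : ℝ} (hA : 0 < A) :
    A / 2 ≤ Real.exp (Real.log (A / 4) + Real.log (18 / 5) * χ) := by
  have h1 : (1 + 1) / (2 * Real.pi) ≤ 1 / 3 := by
    rw [div_le_div_iff₀ (by positivity) (by norm_num)]
    linarith [Real.pi_gt_three]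
  have h2 : 3 * Real.log 2 ≤ 2 * Real.log (18 / 5) := by
    have e1 : Real.log ((2 : ℝ) ^ 3) ≤ Real.log ((18 / 5 : ℝ) ^ 2) :=
      Real.log_le_log (by norm_num) (by norm_num)
    rw [Real.log_pow, Real.log_pow] at e1
    exact_mod_cast e1
  have h3 : 0 ≤ Real.log (18 / 5 : ℝ) := Real.log_nonneg (by norm_num)
  have h4 : Real.log 2 ≤ Real.log (18 / 5) * χ := by
    nlinarith [mul_le_mul_of_nonneg_left (show (2 / 3 : ℝ) ≤ χ by linarith) h3]
  calc A / 2 = Real.exp (Real.log (A / 4) + Real.log 2) := by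
        rw [Real.exp_add, Real.exp_log (by positivity), Real.exp_log (by norm_num)]
        ring
    _ ≤ _ := Real.exp_le_exp.2 (by linarith)

/-- A short move along the orbit. -/
theorem i10_move {z : E N} (hz : z ∈ M.U) {s s' : ℂ} {A : ℝ} (hA : 0 < A) (hAr : A ≤ D.F.r)
    (hs : ‖s‖ < D.F.r) (hs' : ‖s'‖ < D.F.r) (hd : ‖s - s'‖ ≤ A / 4)
    (hH : A / 2 ≤ D.HR (D.F.fl (s', z))) :
    D.F.fl (s, z) ∈ M.U ∧ A / 4 ≤ D.HR (D.F.fl (s, z)) := by
  have key : ∀ u : ℂ, ‖u - s‖ < A / 4 → D.F.fl (u, z) ∈ M.U := by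
    intro u hu
    have e1 : ‖u - s'‖ < A / 2 := by
      have := norm_sub_le_norm_sub_add_norm_sub u s s'
      linarith
    have e2 := D.disc_HR _ (u - s') (e1.trans_le hH)
    rwa [D.F.add z (D.bd z hz) _ _ (by linarith) hs', sub_add_cancel] at e2
  exact ⟨key s (by rw [sub_self, norm_zero]; positivity), D.le_HR_fl hz hs (by linarith) key⟩

theorem step_core : ∃ K : ℝ, 1 ≤ K ∧ ∀ (z : E n → E N) (b : E n → ℂ) (v : E n)
    (r₁ A B γ η : ℝ) (m : ℕ), 0 < r₁ → 0 < m → ‖v‖ ≤ 1 →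
    DifferentiableOn ℂ z (ball 0 r₁) → DifferentiableOn ℂ b (ball 0 r₁) →
    (∀ w ∈ ball (0 : E n) r₁, z w ∈ M.U ∧ ‖b w‖ ≤ B ∧ A ≤ D.HR (z w) ∧
      |(b w * M.g i (z w) (z w)).re| ≤ η) →
    0 < A → A ≤ B → B < D.F.r → 4 * B ≤ A * m → 0 < γ → K * B ≤ γ →
    K * (η + B ^ 2) / γ ≤ A / 10 →
    (∀ x ∈ ball (0 : E n) r₁, ∃ ρ : ℝ, 0 < ρ ∧ ρ ≤ r₁ / (2 * m) ∧
      volume (Icc (0 : ℝ) (2 * Real.pi) \
        {θ | γ < ‖M.g i (z (x + (ρ * ce θ) • v)) (z (x + (ρ * ce θ) • v))‖}) ≤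
          ENNReal.ofReal 1) →
    ∀ w ∈ ball (0 : E n) (r₁ / 2), ∀ τ : ℝ, |τ| ≤ 1 → D.F.fl (τ * b w, z w) ∈ M.U := by
  obtain ⟨K, hK, hgp⟩ := D.good_point
  refine ⟨K, hK, fun z b v r₁ A B γ η m hr₁ hm hv hz hb hw hA hAB hBr hBm hγ hKB hKη hcirc => ?_⟩
  have hm' : (0 : ℝ) < m := Nat.cast_pos.2 hm
  have hh : 0 < r₁ / (2 * m) := by positivity
  have nb : ∀ (τ : ℝ), |τ| ≤ 1 → ∀ y ∈ ball (0 : E n) r₁, ‖(τ : ℂ) * b y‖ ≤ B := by
    intro τ hτ y hy
    rw [norm_mul, Complex.norm_real, Real.norm_eq_abs]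
    exact (mul_le_of_le_one_left (norm_nonneg _) hτ).trans (hw y hy).2.1
  have ind : ∀ k : ℕ, k ≤ m → ∀ τ : ℝ, |τ| ≤ k / m →
      ∀ x ∈ ball (0 : E n) (r₁ - k * (r₁ / (2 * m))),
        D.F.fl (τ * b x, z x) ∈ M.U ∧ A / 2 ≤ D.HR (D.F.fl (τ * b x, z x)) := by
    intro k
    induction k with
    | zero =>
      intro _ τ hτ x hx
      simp only [Nat.cast_zero, zero_div, abs_nonpos_iff, zero_mul, sub_zero] at hτ hx
      obtain ⟨h1, -, h2, -⟩ := hw x hx
      rw [hτ, Complex.ofReal_zero, zero_mul,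
        D.F.zero _ (mem_ball_zero_iff.2 (by linarith [D.bd _ h1]))]
      exact ⟨h1, by linarith⟩
    | succ k ih =>
      intro hk τ hτ x hx
      push_cast at hτ hx
      have hk0 : (0 : ℝ) ≤ k := Nat.cast_nonneg k
      have hk' : (k : ℝ) + 1 ≤ m := by exact_mod_cast hk
      have hτ1 : |τ| ≤ 1 := hτ.trans ((div_le_one hm').2 hk')
      have hsub : ball (0 : E n) (r₁ - k * (r₁ / (2 * m))) ⊆ ball 0 r₁ :=
        ball_subset_ball (by nlinarith [mul_nonneg hk0 hh.le])
      have stepa : ∀ y ∈ ball (0 : E n) (r₁ - k * (r₁ / (2 * m))),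
          D.F.fl (τ * b y, z y) ∈ M.U ∧ A / 4 ≤ D.HR (D.F.fl (τ * b y, z y)) := by
        intro y hy
        have e1 : |τ * (k / (k + 1))| ≤ k / m := by
          rw [abs_mul, abs_of_nonneg (show (0 : ℝ) ≤ k / (k + 1) by positivity)]
          calc |τ| * (k / (k + 1)) ≤ (k + 1) / m * (k / (k + 1)) := by gcongr
            _ = k / m := by field_simp
        have e2 : |τ - τ * (k / (k + 1))| ≤ 1 / m := by
          have : τ - τ * (k / (k + 1)) = τ * (1 / (k + 1)) := by field_simp; ring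
          rw [this, abs_mul, abs_of_nonneg (show (0 : ℝ) ≤ 1 / (k + 1) by positivity)]
          calc |τ| * (1 / (k + 1)) ≤ (k + 1) / m * (1 / (k + 1)) := by gcongr
            _ = 1 / m := by field_simp
        have e3 : |τ * (k / (k + 1))| ≤ 1 := e1.trans ((div_le_one hm').2 (by linarith))
        refine D.i10_move (hw y (hsub hy)).1 hA (by linarith)
          ((nb τ hτ1 y (hsub hy)).trans_lt hBr) ((nb _ e3 y (hsub hy)).trans_lt hBr) ?_
          (ih (Nat.le_of_succ_le hk) _ e1 y hy).2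
        rw [← sub_mul, ← Complex.ofReal_sub, norm_mul, Complex.norm_real, Real.norm_eq_abs]
        calc _ ≤ 1 / m * B := by
              gcongr
              exact (hw y (hsub hy)).2.1
          _ ≤ A / 4 := by
              rw [one_div, inv_mul_le_iff₀ hm']
              linarith
      have hx1 : ‖x‖ < r₁ - (k + 1) * (r₁ / (2 * m)) := mem_ball_zero_iff.1 hx
      have hx2 : x ∈ ball (0 : E n) (r₁ - k * (r₁ / (2 * m))) :=
        mem_ball_zero_iff.2 (by linarith)
      refine ⟨(stepa x hx2).1, ?_⟩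
      obtain ⟨ρ, hρ, hρh, hvol⟩ := hcirc x (hsub hx2)
      have hy : ∀ ζ ∈ closedBall (0 : ℂ) 1,
          x + (ρ * ζ) • v ∈ ball (0 : E n) (r₁ - k * (r₁ / (2 * m))) := by
        intro ζ hζ
        rw [mem_closedBall_zero_iff] at hζ
        rw [mem_ball_zero_iff]
        have e1 : ‖((ρ : ℂ) * ζ) • v‖ ≤ ρ := by
          rw [norm_smul, norm_mul, Complex.norm_real, Real.norm_of_nonneg hρ.le]
          calc ρ * ‖ζ‖ * ‖v‖ ≤ ρ * 1 * 1 := by gcongr
            _ = ρ := by ring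
        have e2 := norm_add_le x (((ρ : ℂ) * ζ) • v)
        linarith
      have hce : ∀ θ, ce θ ∈ closedBall (0 : ℂ) 1 := fun θ =>
        mem_closedBall_zero_iff.2 (norm_ce θ).le
      have dy : Differentiable ℂ (fun ζ : ℂ => x + ((ρ : ℂ) * ζ) • v) := by fun_prop
      have dz : ∀ ζ ∈ closedBall (0 : ℂ) 1,
          DifferentiableAt ℂ (fun ζ : ℂ => z (x + ((ρ : ℂ) * ζ) • v)) ζ := fun ζ hζ =>
        (hz.differentiableAt (isOpen_ball.mem_nhds (hsub (hy ζ hζ)))).comp ζ (dy ζ)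
      have db : ∀ ζ ∈ closedBall (0 : ℂ) 1,
          DifferentiableAt ℂ (fun ζ : ℂ => b (x + ((ρ : ℂ) * ζ) • v)) ζ := fun ζ hζ =>
        (hb.differentiableAt (isOpen_ball.mem_nhds (hsub (hy ζ hζ)))).comp ζ (dy ζ)
      have dZ : DiffContOnCl ℂ (fun ζ : ℂ => D.F.fl (τ * b (x + ((ρ : ℂ) * ζ) • v),
          z (x + ((ρ : ℂ) * ζ) • v))) (ball 0 1) := by
        refine DifferentiableOn.diffContOnCl ?_
        rw [closure_ball _ one_ne_zero]
        intro ζ hζ
        have e1 := hsub (hy ζ hζ)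
        have e2 := (D.analyticAt_fl (D.bd _ (hw _ e1).1) (s := τ * b (x + ((ρ : ℂ) * ζ) • v))
          (by linarith [nb τ hτ1 _ e1, D.F.r_pos])).differentiableAt
        exact (e2.comp ζ (((db ζ hζ).const_mul (τ : ℂ)).prodMk (dz ζ hζ))).differentiableWithinAt
      have cz : Continuous (fun θ : ℝ => z (x + ((ρ : ℂ) * ce θ) • v)) :=
        continuous_iff_continuousAt.2 fun θ =>
          ContinuousAt.comp (f := ce) (dz _ (hce θ)).continuousAt continuous_ce.continuousAt
      have hO : IsOpen {θ : ℝ |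
          γ < ‖M.g i (z (x + (ρ * ce θ) • v)) (z (x + (ρ * ce θ) • v))‖} :=
        isOpen_lt continuous_const ((M.continuous_g i).comp (cz.prodMk cz)).norm
      obtain ⟨χ, cχ, χ0, χ1, χb, χO, χm⟩ := exists_cutoff hO zero_le_one one_pos hvol
      have key := D.super_mean dZ (fun ζ hζ => (stepa _ (hy ζ hζ)).1)
        (g := fun θ => Real.log (A / 4) + Real.log (18 / 5) * χ θ)
        (continuous_const.add (continuous_const.mul cχ)) (by simp only [χ0, χ1]) (by
          intro θ _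
          by_cases hθ : γ < ‖M.g i (z (x + (ρ * ce θ) • v)) (z (x + (ρ * ce θ) • v))‖
          · have e1 := hsub (hy _ (hce θ))
            obtain ⟨w1, w2, w3, w4⟩ := hw _ e1
            have e2 := hgp _ w1 γ A η B (τ * b (x + (ρ * ce θ) • v)) hγ hθ.le hKB hAB
              (fun s hs => D.disc_HR _ s (hs.trans_le w3)) (nb τ hτ1 _ e1) (by
                rw [mul_assoc, Complex.re_ofReal_mul, abs_mul]
                exact (mul_le_of_le_one_left (abs_nonneg _) hτ1).trans w4)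
            have e3 := D.le_HR_fl w1 ((nb τ hτ1 _ e1).trans_lt hBr) (a := 9 / 10 * A)
              (by linarith) fun s hs => e2 s (by linarith)
            refine le_trans ?_ e3
            have h3 : 0 ≤ Real.log (18 / 5 : ℝ) := Real.log_nonneg (by norm_num)
            calc Real.exp (Real.log (A / 4) + Real.log (18 / 5) * χ θ)
                ≤ Real.exp (Real.log (A / 4) + Real.log (18 / 5)) :=
                  Real.exp_le_exp.2 (by nlinarith [(χb θ).2])
              _ = 9 / 10 * A := by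
                  rw [Real.exp_add, Real.exp_log (by positivity), Real.exp_log (by norm_num)]
                  ring
          · rw [χO θ hθ, mul_zero, add_zero, Real.exp_log (by positivity)]
            exact (stepa _ (hy _ (hce θ))).2)
      rw [cmean_add (f := fun _ => Real.log (A / 4)) (g := fun θ => Real.log (18 / 5) * χ θ)
        continuous_const (continuous_const.mul cχ), cmean_const, cmean_const_mul] at key
      simp only [mul_zero, zero_smul, add_zero] at key
      exact (i10_log χm hA).trans key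
  intro w hw' τ hτ
  refine (ind m le_rfl τ (by rwa [div_self hm'.ne']) w ?_).1
  have : r₁ - m * (r₁ / (2 * m)) = r₁ / 2 := by field_simp; ring
  rwa [this]

end Vale.Agent.P274.WF
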