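import Vale.Agent.P274.I9
import Vale.Agent.P274.I10

/-! The tangential flow exists for a definite time. -/

open Metric Set Filter Topology

namespace Vale.Agent.P274.FD

variable {N n : ℕ} {M : AM N n} {i : Fin n} (D : FD M i)

theorem i11_unif {C : Set M.X} (hC : IsCompact C) {δ : ℝ} (hδ : 0 < δ) :
    ∀ᶠ j in (D.𝒰 : Filter ℕ), ∀ x ∈ C, ∀ y ∈ C,
      ‖M.g i (D.z j x) (D.z j y) - M.g i (D.φ x) (D.φ y)‖ ≤ δ := by
  obtain ⟨η, hη, hu⟩ := Metric.uniformContinuousOn_iff.1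
    (((isCompact_closedBall (0 : E N) D.R₀).prod
      (isCompact_closedBall (0 : E N) D.R₀)).uniformContinuousOn_of_continuous
        (M.continuous_g i).continuousOn) δ hδ
  have hu' := (tendstoLocallyUniformlyOn_iff_tendstoUniformlyOn_of_compact hC).1
    (D.lim_unif.tendstoLocallyUniformlyOn (s := C))
  filter_upwards [Metric.tendstoUniformlyOn_iff.1 hu' η hη] with j hj x hx y hy
  have h1 := hu (D.z j x, D.z j y) ⟨mem_closedBall_zero_iff.2 (D.bd _ (D.z_mem j x)),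
      mem_closedBall_zero_iff.2 (D.bd _ (D.z_mem j y))⟩ (D.φ x, D.φ y)
    ⟨mem_closedBall_zero_iff.2 (D.norm_φ_le x), mem_closedBall_zero_iff.2 (D.norm_φ_le y)⟩ (by
      rw [Prod.dist_eq, dist_comm (D.z j x), dist_comm (D.z j y)]
      exact max_lt (hj x hx) (hj y hy))
  rw [dist_eq_norm] at h1
  exact h1.le

/-- The numerical conditions of the stepping lemma. -/
theorem i11_num {K b d c r ε e u w : ℝ} {k : ℕ} (hK : 0 < K) (hb : 1 ≤ b) (hd : 0 < d)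
    (hc : 0 < c) (hr : 0 < r) (hε : 0 < ε) (he : 0 < e) (he1 : e ≤ 1) (hu : e ^ (k + 1) = u)
    (h1 : ε ≤ u * u) (h2 : w ≤ u * u) (h3 : K * b * u ≤ c * (r / (10 * b)) ^ k)
    (h4 : K * (1 / d ^ 2 + b ^ 2) * u ≤ c * (r / (10 * b)) ^ k / 10) :
    ∃ m : ℕ, 0 < m ∧ 4 * (b * ε) ≤ ε * e * m ∧ K * (b * ε) ≤ c * (r / (2 * m)) ^ k ∧
      K * (ε * (w / d ^ 2) + (b * ε) ^ 2) / (c * (r / (2 * m)) ^ k) ≤ ε * e / 10 := by
  have hb0 : 0 < b := by linarith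
  have m1 : 4 * b / e ≤ ⌈4 * b / e⌉₊ := Nat.le_ceil _
  have m2 : (⌈4 * b / e⌉₊ : ℝ) < 4 * b / e + 1 := Nat.ceil_lt_add_one (by positivity)
  have m0 : 0 < ⌈4 * b / e⌉₊ := Nat.ceil_pos.2 (by positivity)
  generalize ⌈4 * b / e⌉₊ = m at m1 m2 m0
  have hm : (0 : ℝ) < m := Nat.cast_pos.2 m0
  rw [div_le_iff₀ he] at m1
  have m3 : m * e ≤ 5 * b := by
    have := mul_lt_mul_of_pos_right m2 he
    rw [add_mul, div_mul_cancel₀ _ he.ne'] at this
    linarith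
  have m4 : r / (10 * b) * e ≤ r / (2 * m) := by
    rw [div_mul_eq_mul_div, div_le_div_iff₀ (by positivity) (by positivity)]
    nlinarith [mul_le_mul_of_nonneg_left m3 hr.le]
  have hu0 : 0 < u := by rw [← hu]; positivity
  have g1 : c * (r / (10 * b)) ^ k * u ≤ c * (r / (2 * m)) ^ k * e := by
    rw [← hu, pow_succ, ← mul_assoc, mul_assoc c, ← mul_pow]
    gcongr
  generalize c * (r / (10 * b)) ^ k = c' at h3 h4 g1
  have hγ : 0 < c * (r / (2 * m)) ^ k := by positivity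
  refine ⟨m, m0, by nlinarith, ?_⟩
  generalize c * (r / (2 * m)) ^ k = γ at g1 hγ ⊢
  constructor
  · calc K * (b * ε) ≤ K * (b * (u * u)) := by gcongr
      _ = K * b * u * u := by ring
      _ ≤ c' * u := by gcongr
      _ ≤ γ * e := g1
      _ ≤ γ := mul_le_of_le_one_right hγ.le he1
  · rw [div_le_iff₀ hγ]
    calc K * (ε * (w / d ^ 2) + (b * ε) ^ 2) = ε * (K * (w / d ^ 2 + b ^ 2 * ε)) := by ring
      _ ≤ ε * (K * (u * u / d ^ 2 + b ^ 2 * (u * u))) := by gcongr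
      _ = ε * (K * (1 / d ^ 2 + b ^ 2) * u * u) := by ring
      _ ≤ ε * (c' / 10 * u) := by gcongr
      _ = ε * (c' * u) / 10 := by ring
      _ ≤ ε * (γ * e) / 10 := by gcongr
      _ = ε * e / 10 * γ := by ring

theorem i11_circle {ω : M.X} : ∃ (v : E n) (k : ℕ) (c r₁ : ℝ), ‖v‖ ≤ 1 ∧ 0 < c ∧ 0 < r₁ ∧
    8 * r₁ ≤ M.r ω ∧ ∀ᶠ j in (D.𝒰 : Filter ℕ), ∀ x ∈ ball (0 : E n) r₁, ∀ h : ℝ, 0 < h → h ≤ r₁ →
      ∃ ρ : ℝ, 0 < ρ ∧ ρ ≤ h ∧ MeasureTheory.volume (Icc (0 : ℝ) (2 * Real.pi) \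
        {θ | c * h ^ k < ‖M.g i (D.z j (M.ψ ω (x + (ρ * ce θ) • v)))
          (D.z j (M.ψ ω (x + (ρ * ce θ) • v)))‖}) ≤ ENNReal.ofReal 1 := by
  have hR := M.r_pos ω
  have hF := D.sesq_gφ ω
  have hne := D.sesq_gφ.frequently_ne ⟨D.x₀, D.gen₀⟩ (M.ψ ω 0)
  rw [← M.map_ψ_nhds ω (mem_ball_self hR), frequently_map] at hne
  obtain ⟨v, k, hv, hk⟩ := exists_order hR hF (by simpa only [star_star] using hne)
  obtain ⟨c, r₁, δ, hc, hr₁, hrR, hδ, hgc⟩ := good_circle hR hF hv hk one_pos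
  refine ⟨v, k, c, r₁, hv, hc, hr₁, hrR, ?_⟩
  filter_upwards [D.i11_unif (M.isCompact_image_closedBall ω (half_lt_self hR)) hδ] with j hj x hx
    h h0 h1
  obtain ⟨ρ, ρ1, ρ2, ρ3⟩ := hgc _ ((D.sesq_g j ω).mono (ball_subset_ball (half_le_self hR.le)))
    (fun p hp => hj _ ⟨p.1, mem_closedBall_zero_iff.2
        ((norm_fst_le p).trans (mem_ball_zero_iff.1 hp).le), rfl⟩ _
      ⟨star p.2, mem_closedBall_zero_iff.2 (by
        rw [norm_star]
        exact (norm_snd_le p).trans (mem_ball_zero_iff.1 hp).le), rfl⟩) x hx h h0 h1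
  exact ⟨ρ, by linarith, ρ2, by simpa only [star_star] using ρ3⟩

theorem step {ε : ℕ → ℝ} {t : Set M.X} {c : ℝ} (S : D.Scale D.x₀ ε t c) {ω : M.X}
    (h : M.g i (D.φ ω) (D.φ D.x₀) ≠ 0) : ∃ t' ∈ 𝓝 ω, ∀ᶠ j in (D.𝒰 : Filter ℕ), ∀ x ∈ t',
      M.g i (D.z j x) (D.z j D.x₀) ≠ 0 ∧ ∀ τ : ℝ, |τ| ≤ 1 →
        ‖(ε j : ℂ) * (τ * D.β j x)‖ < D.F.r ∧
          D.F.fl (ε j * (τ * D.β j x), D.z j x) ∈ M.U := by
  obtain ⟨K, hK, hsc⟩ := D.step_core
  have hR := M.r_pos ω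
  obtain ⟨v, k, c', r', hv, hc', hr', hrR, hcirc⟩ := D.i11_circle (ω := ω)
  obtain ⟨κ, hκ, hE⟩ := D.Ef_small S (M.isCompact_image_closedBall ω (half_lt_self hR))
  obtain ⟨tβ, htβ, d, b, hd, hb, hβ⟩ := D.β_bound h
  have hl : 0 < min κ 1 := lt_min hκ one_pos
  have hκ₂ : 0 < min κ 1 / 2 / (k + 1) := by positivity
  obtain ⟨tH, htH, hH⟩ := D.H_lower S ω hκ₂
  obtain ⟨s, hs, -, hst⟩ := i9_chart ω (inter_mem htβ htH)
  obtain ⟨r₁, hr₁, hr1, hr2⟩ : ∃ r₁ : ℝ, 0 < r₁ ∧ r₁ ≤ s ∧ r₁ ≤ r' :=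
    ⟨min s r', lt_min hs hr', min_le_left _ _, min_le_right _ _⟩
  have hb0 : 0 < b := by linarith
  have hc'' : 0 < c' * (r₁ / (10 * b)) ^ k := by positivity
  have hbε : Tendsto (fun j => b * ε j) D.𝒰 (𝓝 0) := by simpa using S.tendsto.const_mul b
  refine ⟨_, M.image_ball_mem_nhds ω (half_pos hr₁), ?_⟩
  filter_upwards [hcirc, hE, hβ, hH, S.tendsto.eventually_lt_const one_pos,
    hbε.eventually_lt_const D.F.r_pos, i9_ev S.tendsto (half_pos hl) (K * b) hc'',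
    i9_ev S.tendsto (half_pos hl) (K * (1 / d ^ 2 + b ^ 2))
      (show 0 < c' * (r₁ / (10 * b)) ^ k / 10 by positivity)] with j h1 h2 h3 h4 h5 h6 h7 h8
  have hε := S.pos j
  have hsub : ∀ w ∈ ball (0 : E n) r₁, w ∈ ball (0 : E n) (M.r ω) ∧
      w ∈ closedBall (0 : E n) (M.r ω / 2) ∧ M.ψ ω w ∈ tβ ∧ M.ψ ω w ∈ tH := by
    intro w hw
    have := mem_ball_zero_iff.1 hw
    exact ⟨mem_ball_zero_iff.2 (by linarith), mem_closedBall_zero_iff.2 (by linarith),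
      hst w (ball_subset_ball hr1 hw)⟩
  have hne : ∀ w ∈ ball (0 : E n) r₁, M.g i (D.z j (M.ψ ω w)) (D.z j D.x₀) ≠ 0 := fun w hw =>
    norm_pos_iff.1 (hd.trans_le (h3 _ (hsub w hw).2.2.1).1)
  have huu : ε j ^ (min κ 1 / 2) * ε j ^ (min κ 1 / 2) = ε j ^ min κ 1 := by
    rw [← Real.rpow_add hε, add_halves]
  have he1 : ε j ^ (min κ 1 / 2 / (k + 1)) ≤ 1 := Real.rpow_le_one hε.le h5.le hκ₂.le
  have he0 : 0 < ε j ^ (min κ 1 / 2 / (k + 1)) := Real.rpow_pos_of_pos hε _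
  obtain ⟨m, hm, n1, n2, n3⟩ := i11_num (K := K) (w := ε j ^ κ) (k := k) (by linarith) hb hd hc' hr₁
    hε he0 he1 (u := ε j ^ (min κ 1 / 2))
    (by
      rw [← Real.rpow_natCast, ← Real.rpow_mul hε.le]
      congr 1
      push_cast
      field_simp)
    (by
      rw [huu]
      exact (Real.rpow_one _).symm.le.trans
        (Real.rpow_le_rpow_of_exponent_ge hε h5.le (min_le_right _ _)))
    (by
      rw [huu]
      exact Real.rpow_le_rpow_of_exponent_ge hε h5.le (min_le_left _ _)) h7 h8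
  have hm' : (1 : ℝ) ≤ m := by exact_mod_cast hm
  have nβ : ∀ w ∈ ball (0 : E n) r₁, ‖(ε j : ℂ) * D.β j (M.ψ ω w)‖ ≤ b * ε j := by
    intro w hw
    rw [norm_mul, Complex.norm_real, Real.norm_of_nonneg hε.le, mul_comm]
    gcongr
    exact (h3 _ (hsub w hw).2.2.1).2
  have key := hsc (fun w => D.z j (M.ψ ω w)) (fun w => ε j * D.β j (M.ψ ω w)) v r₁
    (ε j * ε j ^ (min κ 1 / 2 / (k + 1))) (b * ε j) (c' * (r₁ / (2 * m)) ^ k)
    (ε j * (ε j ^ κ / d ^ 2)) m hr₁ hm hv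
    (fun w hw => ((D.hol_z j).analyticOnNhd ω w (hsub w hw).1).differentiableAt.differentiableWithinAt)
    (fun w hw => (((BM.holAt_iff_chart (hsub w hw).1).1
      (D.holAt_β (hne w hw))).differentiableAt.const_mul _).differentiableWithinAt)
    (fun w hw => ⟨D.z_mem _ _, nβ w hw, by
      have := h4 _ (hsub w hw).2.2.2
      rwa [Real.rpow_add hε, Real.rpow_one] at this, by
      rw [mul_assoc, Complex.re_ofReal_mul, abs_mul, abs_of_pos hε]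
      gcongr
      refine (D.re_β_le (hne w hw)).trans ?_
      have e1 := h2 _ ⟨w, (hsub w hw).2.1, rfl⟩
      have e2 := (h3 _ (hsub w hw).2.2.1).1
      gcongr⟩)
    (by positivity) (by nlinarith) h6 n1 (by positivity) n2 n3
    (fun x hx => h1 x (ball_subset_ball hr2 hx) _ (by positivity) (by
      refine le_trans ?_ hr2
      rw [div_le_iff₀ (by positivity)]
      nlinarith))
  rintro _ ⟨w, hw, rfl⟩
  have hw' : w ∈ ball (0 : E n) r₁ := ball_subset_ball (half_le_self hr₁.le) hw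
  refine ⟨hne w hw', fun τ hτ => ?_⟩
  rw [mul_left_comm]
  refine ⟨lt_of_le_of_lt ?_ h6, key w hw τ hτ⟩
  rw [norm_mul, Complex.norm_real, Real.norm_eq_abs]
  exact (mul_le_of_le_one_left (norm_nonneg _) hτ).trans (nβ w hw')

end Vale.Agent.P274.FD
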