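import Vale.Agent.P274.I4

/-! The local limit of the rescaled flows. -/

open Metric Set Filter Topology

namespace Vale.Agent.P274.FD

variable {N n : ℕ} {M : AM N n} {i : Fin n} (D : FD M i)

theorem i12_disc {j : ℕ} {x : M.X} {e c : ℝ} (he : 0 < e) (h : c * e ≤ D.H j x) {ζ : ℂ}
    (hζ : ζ ∈ ball (0 : ℂ) c) :
    ‖(e : ℂ) * ζ‖ < D.F.r ∧ D.F.fl (e * ζ, D.z j x) ∈ M.U := by
  have h1 : ‖(e : ℂ) * ζ‖ < D.H j x := by
    rw [norm_mul, Complex.norm_real, Real.norm_of_nonneg he.le]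
    have := mem_ball_zero_iff.1 hζ
    nlinarith
  exact ⟨h1.trans_le (D.HR_le _), D.disc_HR _ _ h1⟩

/-- The limit function in the chart at `x₀`. -/
theorem i12_lim {ε : ℕ → ℝ} {t : Set M.X} {c s : ℝ} (S : D.Scale D.x₀ ε t c) (hs : 0 < s)
    (hsr : s ≤ M.r D.x₀) (hst : M.ψ D.x₀ '' ball 0 s ⊆ t) : ∃ g : E n × ℂ → E N,
      DifferentiableOn ℂ g (ball 0 s ×ˢ ball 0 c) ∧ (∀ q ∈ ball 0 s ×ˢ ball 0 c, g q ∈ M.U) ∧
      TendstoLocallyUniformlyOn (fun j q => M.ι (D.mv j (M.ψ D.x₀ q.1) (ε j * q.2))) g D.𝒰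
        (ball 0 s ×ˢ ball 0 c) ∧
      ∀ w ∈ ball (0 : E n) s, Tendsto (fun j => (ε j : ℂ) • D.Wf j (M.ψ D.x₀ w)) D.𝒰
        (𝓝 (fderiv ℂ g (w, 0) (0, 1))) := by
  have hO : IsOpen (ball (0 : E n) s ×ˢ ball (0 : ℂ) c) := isOpen_ball.prod isOpen_ball
  have hc0 : (0 : ℂ) ∈ ball (0 : ℂ) c := mem_ball_self S.c_pos
  obtain ⟨R, -, hR⟩ := M.exists_bound
  have han : ∀ᶠ j in (D.𝒰 : Filter ℕ), ∀ q ∈ ball (0 : E n) s ×ˢ ball (0 : ℂ) c,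
      AnalyticAt ℂ (fun q : E n × ℂ => M.ι (D.mv j (M.ψ D.x₀ q.1) (ε j * q.2))) q := by
    filter_upwards [S.low] with j hj q hq
    obtain ⟨e1, e2⟩ := D.i12_disc (S.pos j) (hj _ (hst ⟨q.1, hq.1, rfl⟩)) hq.2
    refine D.analyticAt_mv (h := fun q : E n × ℂ => M.ψ D.x₀ q.1) (s := fun q => ε j * q.2)
      ?_ (analyticAt_const.mul analyticAt_snd) (by linarith [D.F.r_pos]) e2
    exact (M.analyticAt_ψ D.x₀ (ball_subset_ball hsr hq.1)).comp analyticAt_fst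
  have hd : ∀ᶠ j in (D.𝒰 : Filter ℕ), DifferentiableOn ℂ
      (fun q : E n × ℂ => M.ι (D.mv j (M.ψ D.x₀ q.1) (ε j * q.2))) (ball 0 s ×ˢ ball 0 c) := by
    filter_upwards [han] with j hj q hq
    exact (hj q hq).differentiableAt.differentiableWithinAt
  obtain ⟨g, hg⟩ := ultra_lim D.𝒰 (S := ball (0 : E n) s ×ˢ ball (0 : ℂ) c)
    (f := fun j q => M.ι (D.mv j (M.ψ D.x₀ q.1) (ε j * q.2)))
    fun q _ => ⟨R, Eventually.of_forall fun j => hR _⟩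
  obtain ⟨g1, g2, g3⟩ := vitali hO (fun q hq => ⟨R, _, hO.mem_nhds hq, by
    filter_upwards [hd] with j hj
    exact ⟨hj, fun w _ => hR _⟩⟩) hg
  refine ⟨g, g1, ?_, g2, fun w hw => ?_⟩
  · refine M.taut_param hO ((convex_ball _ _).prod (convex_ball _ _)).isPreconnected
      (h := fun j q => D.mv j (M.ψ D.x₀ q.1) (ε j * q.2)) (fun q hq => ⟨_, hO.mem_nhds hq, hd⟩) hg
      (p := (0, 0)) ⟨mem_ball_self hs, hc0⟩ ?_
    have h1 := hg (0, 0) ⟨mem_ball_self hs, hc0⟩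
    simp only [mul_zero, D.mv_zero] at h1
    rw [tendsto_nhds_unique h1 tendsto_const_nhds]
    exact (M.ψ D.x₀ 0).2
  · have h1 := g3.tendsto_at (a := (w, 0)) ⟨hw, hc0⟩
    have h2 := ((ContinuousLinearMap.apply ℂ (E N) ((0, 1) : E n × ℂ)).continuous.tendsto _).comp h1
    refine h2.congr' ?_
    filter_upwards [han, S.low] with j hj hl
    obtain ⟨e1, e2⟩ := D.i12_disc (S.pos j) (hl _ (hst ⟨w, hw, rfl⟩)) hc0
    have d1 := (hj (w, 0) ⟨hw, hc0⟩).differentiableAt.hasFDerivAt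
    have d2 : HasDerivAt (fun ζ : ℂ => ((w, ζ) : E n × ℂ)) (0, 1) 0 :=
      (hasDerivAt_const _ _).prodMk (hasDerivAt_id _)
    have d3 := d1.comp_hasDerivAt (0 : ℂ) d2
    have d4 := (D.hasDerivAt_mv (by linarith [D.F.r_pos]) e2).scomp (0 : ℂ)
      ((hasDerivAt_id (0 : ℂ)).const_mul (ε j : ℂ))
    rw [mul_one, mul_zero, D.mv_zero] at d4
    exact d3.unique d4

theorem exists_locLim {ε : ℕ → ℝ} {t : Set M.X} {c : ℝ} (S : D.Scale D.x₀ ε t c) :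
    ∃ t₁ c₁ m, D.LocLim ε t₁ c₁ m := by
  obtain ⟨s, hs, hsr, hst⟩ : ∃ s : ℝ, 0 < s ∧ s ≤ M.r D.x₀ ∧ M.ψ D.x₀ '' ball 0 s ⊆ t := by
    have h1 : t ∈ map (M.ψ D.x₀) (𝓝 0) := by
      rw [M.map_ψ_nhds D.x₀ (mem_ball_self (M.r_pos _)), M.ψ_zero]
      exact S.isOpen.mem_nhds S.mem
    obtain ⟨s, hs, h2⟩ := Metric.mem_nhds_iff.1 h1
    refine ⟨min s (M.r D.x₀), lt_min hs (M.r_pos _), min_le_right _ _, ?_⟩
    rintro _ ⟨w, hw, rfl⟩
    exact h2 (ball_subset_ball (min_le_left _ _) hw)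
  obtain ⟨g, g1, gU, g2, g3⟩ := D.i12_lim S hs hsr hst
  have hO : IsOpen (ball (0 : E n) s ×ˢ ball (0 : ℂ) c) := isOpen_ball.prod isOpen_ball
  have hc0 : (0 : ℂ) ∈ ball (0 : ℂ) c := mem_ball_self S.c_pos
  have hT : IsOpen (M.ψ D.x₀ '' ball 0 s) := M.isOpen_image_ψ _ isOpen_ball (ball_subset_ball hsr)
  have hco : ∀ x ∈ M.ψ D.x₀ '' ball 0 s,
      M.co D.x₀ x ∈ ball (0 : E n) s ∧ M.ψ D.x₀ (M.co D.x₀ x) = x := by
    rintro _ ⟨w, hw, rfl⟩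
    rw [M.co_ψ _ (ball_subset_ball hsr hw)]
    exact ⟨hw, rfl⟩
  have hι : ∀ x ∈ M.ψ D.x₀ '' ball 0 s, ∀ ζ ∈ ball (0 : ℂ) c,
      M.ι (M.toX (g (M.co D.x₀ x, ζ))) = g (M.co D.x₀ x, ζ) := fun x hx ζ hζ =>
    M.ι_toX (gU _ ⟨(hco x hx).1, hζ⟩)
  have hlim : ∀ x ∈ M.ψ D.x₀ '' ball 0 s, ∀ ζ ∈ ball (0 : ℂ) c, ∀ (xs : ℕ → M.X) (ζs : ℕ → ℂ),
      Tendsto xs D.𝒰 (𝓝 x) → Tendsto ζs D.𝒰 (𝓝 ζ) →
      Tendsto (fun j => D.mv j (xs j) (ε j * ζs j)) D.𝒰 (𝓝 (M.toX (g (M.co D.x₀ x, ζ)))) := by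
    intro x hx ζ hζ xs ζs h1 h2
    have hq : (M.co D.x₀ x, ζ) ∈ ball (0 : E n) s ×ˢ ball (0 : ℂ) c := ⟨(hco x hx).1, hζ⟩
    have h3 : Tendsto (fun j => (M.co D.x₀ (xs j), ζs j)) D.𝒰 (𝓝 (M.co D.x₀ x, ζ)) :=
      (((M.continuous_co _).tendsto x).comp h1).prodMk_nhds h2
    have h4 := g2.tendsto_comp (g1.continuousOn _ hq) hq (by
      rw [hO.nhdsWithin_eq hq]
      exact h3)
    rw [tendsto_subtype_rng]
    change Tendsto _ _ (𝓝 (M.ι (M.toX (g (M.co D.x₀ x, ζ)))))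
    rw [hι x hx ζ hζ]
    refine h4.congr' ?_
    filter_upwards [h1.eventually (hT.mem_nhds hx)] with j hj
    rw [(hco _ hj).2]
  have hzero : ∀ x ∈ M.ψ D.x₀ '' ball 0 s, M.toX (g (M.co D.x₀ x, 0)) = x := by
    intro x hx
    have h1 := hlim x hx 0 hc0 (fun _ => x) (fun _ => 0) tendsto_const_nhds tendsto_const_nhds
    simp only [mul_zero, D.mv_zero] at h1
    exact tendsto_nhds_unique h1 tendsto_const_nhds
  refine ⟨M.ψ D.x₀ '' ball 0 s, c, fun x ζ => M.toX (g (M.co D.x₀ x, ζ)), hT,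
    ⟨0, mem_ball_self hs, M.ψ_zero _⟩, S.c_pos, hlim, ?_, hzero, ?_, ?_, ?_⟩
  · intro x hx ζ hζ
    have h0 : M.co D.x₀ (M.ψ x 0) = M.co D.x₀ x := by rw [M.ψ_zero]
    have h1 : AnalyticAt ℂ (fun q : E n × ℂ => (M.co D.x₀ (M.ψ x q.1), q.2)) (0, ζ) :=
      (AnalyticAt.comp (f := Prod.fst) (x := ((0, ζ) : E n × ℂ)) (M.hol_co D.x₀ x)
        analyticAt_fst).prod analyticAt_snd
    have hq : (M.co D.x₀ (M.ψ x 0), ζ) ∈ ball (0 : E n) s ×ˢ ball (0 : ℂ) c := by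
      rw [h0]
      exact ⟨(hco x hx).1, hζ⟩
    have h2 := (P278F.analyticOnNhd_of_differentiableOn hO g1 _ hq).comp
      (f := fun q : E n × ℂ => (M.co D.x₀ (M.ψ x q.1), q.2)) (x := (0, ζ)) h1
    refine h2.congr ?_
    filter_upwards [h1.continuousAt.eventually_mem (hO.mem_nhds hq)] with q hq'
    exact (M.ι_toX (gU _ hq')).symm
  · intro x hx ζ hζ
    obtain ⟨K, hK, hta⟩ := D.taylor
    have h1 := D.lim_moving
      (hlim x hx ζ hζ (fun _ => x) (fun _ => ζ) tendsto_const_nhds tendsto_const_nhds)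
    have h2 : Tendsto (fun j => D.z j (D.mv j x (ε j * ζ)) - D.z j x) D.𝒰 (𝓝 0) := by
      have h3 : Tendsto (fun j => K * (ε j * ‖ζ‖)) D.𝒰 (𝓝 0) := by
        simpa using (S.tendsto.mul_const ‖ζ‖).const_mul K
      refine squeeze_zero_norm' ?_ h3
      filter_upwards [S.low] with j hj
      obtain ⟨e1, e2⟩ := D.i12_disc (S.pos j) (hj _ (hst hx)) hζ
      have e3 := ((hta _ (M.U_sub (D.z_mem j x)) (D.bd _ (D.z_mem j x))).2 _
        (show ‖(ε j : ℂ) * ζ‖ < 2 * D.F.r by linarith [D.F.r_pos])).1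
      rw [D.z_mv e2]
      rwa [norm_mul, Complex.norm_real, Real.norm_of_nonneg (S.pos j).le] at e3
    have h4 := h2.add (D.lim x)
    rw [zero_add] at h4
    exact tendsto_nhds_unique h1 (h4.congr fun j => sub_add_cancel _ _)
  · intro x hx ζ hζ ζ' hζ' hs' hm
    have h1 := hlim x hx ζ' hζ' (fun _ => x) (fun _ => ζ') tendsto_const_nhds tendsto_const_nhds
    have h2 := hlim _ hm ζ hζ _ (fun _ => ζ) h1 tendsto_const_nhds
    have h3 := hlim x hx _ hs' (fun _ => x) (fun _ => ζ + ζ') tendsto_const_nhds tendsto_const_nhds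
    refine tendsto_nhds_unique h2 (h3.congr' ?_)
    filter_upwards [S.low] with j hj
    obtain ⟨e1, -⟩ := D.i12_disc (S.pos j) (hj _ (hst hx)) hζ
    obtain ⟨e2, e3⟩ := D.i12_disc (S.pos j) (hj _ (hst hx)) hζ'
    rw [D.mv_add e1 e2 e3, mul_add]
  · intro y hy
    refine ((S.nontriv y (hst hy)).and_eventually (hT.mem_nhds hy)).mono ?_
    rintro x ⟨⟨c', hc', h1⟩, hx⟩
    obtain ⟨hw, hψ⟩ := hco x hx
    have h2 := (g3 _ hw).norm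
    rw [hψ] at h2
    have h3 : c' ≤ ‖fderiv ℂ g (M.co D.x₀ x, 0) (0, 1)‖ := by
      refine ge_of_tendsto h2 ?_
      filter_upwards [h1] with j hj
      rwa [norm_smul, Complex.norm_real, Real.norm_of_nonneg (S.pos j).le]
    have hq : (M.co D.x₀ x, 0) ∈ ball (0 : E n) s ×ˢ ball (0 : ℂ) c := ⟨hw, hc0⟩
    have d1 := (g1.differentiableAt (hO.mem_nhds hq)).hasFDerivAt
    have d2 : HasDerivAt (fun ζ : ℂ => ((M.co D.x₀ x, ζ) : E n × ℂ)) (0, 1) 0 :=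
      (hasDerivAt_const _ _).prodMk (hasDerivAt_id _)
    have d3 := (d1.comp_hasDerivAt (0 : ℂ) d2).eventually_ne (c := M.ι x)
      (norm_pos_iff.1 (hc'.trans_le h3))
    filter_upwards [d3, nhdsWithin_le_nhds (ball_mem_nhds (0 : ℂ) S.c_pos)] with ζ h4 h5 h6
    refine h4 ?_
    have h7 := hι x hx ζ h5
    rw [h6] at h7
    exact h7.symm

end Vale.Agent.P274.FD
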