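import Vale.Agent.P274.I11
import Vale.Agent.P274.I12
import Vale.Agent.P274.B6
import Vale.Agent.P274.B3e
import Vale.Agent.P274.C2

/-! The flow theorem. -/

open Metric Set Filter Topology

namespace Vale.Agent.P274

namespace FD

variable {N n : ℕ} {M : AM N n} {i : Fin n} (D : FD M i)

theorem i13_hol_Dl : M.Hol (fun x => M.g i (D.φ x) (D.φ D.x₀)) := by
  have h1 := (M.g_entire i).comp (f := fun u : E N => ((u, star (D.φ D.x₀)) : E N × E N))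
    (differentiable_id.prodMk (differentiable_const _))
  simp only [Function.comp_def, star_star] at h1
  exact fun x => (D.hol_φ x).comp_analytic
    (P278F.analyticOnNhd_of_differentiableOn isOpen_univ h1.differentiableOn _ (mem_univ _))

/-- Bounded holomorphic functions composed with the tangential maps extend. -/
theorem i13_fun {ε : ℕ → ℝ} {t : Set M.X} {c : ℝ} (S : D.Scale D.x₀ ε t c) {τ : ℝ} (hτ : |τ| ≤ 1)
    {f : M.X → ℂ} (hf : M.Hol f) (hb : ∀ x, ‖f x‖ ≤ 1) : ∃ g : M.X → ℂ, M.Hol g ∧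
      (∀ x, ‖g x‖ ≤ 1) ∧ ∀ x, M.g i (D.φ x) (D.φ D.x₀) ≠ 0 →
        Tendsto (fun j => f (D.mv j x (ε j * (τ * D.β j x)))) D.𝒰 (𝓝 (g x)) := by
  obtain ⟨g₀, hg₀⟩ := ultra_lim D.𝒰 (S := univ)
    (f := fun j x => f (D.mv j x (ε j * (τ * D.β j x))))
    fun x _ => ⟨1, Eventually.of_forall fun j => hb _⟩
  have hO : IsOpen {x | M.g i (D.φ x) (D.φ D.x₀) ≠ 0} :=
    isOpen_ne_fun D.i13_hol_Dl.continuous continuous_const
  have h1 := (BM.vitali_on hO (f := fun j x => f (D.mv j x (ε j * (τ * D.β j x)))) (g := g₀)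
    (fun ω hω => by
      obtain ⟨t', ht', h2⟩ := D.step S hω
      refine ⟨1, t', ht', ?_⟩
      filter_upwards [h2] with j hj y hy
      refine ⟨?_, hb _⟩
      obtain ⟨e1, e2⟩ := hj y hy
      obtain ⟨e3, e4⟩ := e2 τ hτ
      have a1 : AnalyticAt ℂ (fun w => (ε j : ℂ) * (τ * D.β j (M.ψ y w))) 0 :=
        analyticAt_const.mul (analyticAt_const.mul (D.holAt_β e1))
      have a2 := D.analyticAt_mv (j := j) (h := M.ψ y) (M.holAt_ι y) a1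
        (by rw [M.ψ_zero]; linarith [D.F.r_pos]) (by rw [M.ψ_zero]; exact e4)
      exact (hf _).analyticAt_comp
        (h := fun w => D.mv j (M.ψ y w) (ε j * (τ * D.β j (M.ψ y w)))) a2)
    (fun x _ => hg₀ x (mem_univ x))).1
  obtain ⟨g, g1, g2, g3⟩ := BM.riemann (K := 1) D.i13_hol_Dl ⟨D.x₀, D.gen₀⟩ (f := g₀)
    fun x hx => ⟨h1 x hx, le_of_tendsto' (hg₀ x (mem_univ x)).norm fun j => hb _⟩
  refine ⟨g, g1, g2, fun x hx => ?_⟩
  rw [g3 x hx]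
  exact hg₀ x (mem_univ x)

/-- The limiting tangential maps extend to the whole manifold. -/
theorem exists_ext {ε : ℕ → ℝ} {t t₁ : Set M.X} {c c₁ : ℝ} {m : M.X → ℂ → M.X}
    (S : D.Scale D.x₀ ε t c) (L : D.LocLim ε t₁ c₁ m) :
    ∃ (t₂ : Set M.X) (τ₀ : ℝ), IsOpen t₂ ∧ D.x₀ ∈ t₂ ∧ t₂ ⊆ t₁ ∧ 0 < τ₀ ∧
      (∀ x ∈ t₂, D.βl x ≠ 0 ∧ τ₀ * ‖D.βl x‖ < c₁) ∧
      ∀ τ : ℝ, |τ| ≤ τ₀ → ∃ m' : M.X → M.X, M.Hol (M.ι ∘ m') ∧
        ∀ x ∈ t₂, m' x = m x (τ * D.βl x) := by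
  have cφ := D.hol_φ.continuous
  have hb : 0 < ‖D.βl D.x₀‖ + 1 := by positivity
  have hV : {x | x ∈ t₁ ∧ M.g i (D.φ x) (D.φ D.x₀) ≠ 0 ∧ M.g i (D.φ D.x₀) (D.φ x) ≠ 0 ∧
      ‖D.βl x‖ < ‖D.βl D.x₀‖ + 1} ∈ 𝓝 D.x₀ := by
    have c0 : Continuous (fun x => ((D.φ D.x₀, D.φ x) : E N × E N)) := continuous_const.prodMk cφ
    have c1 := (M.continuous_g i).comp c0
    simp only [Function.comp_def] at c1
    filter_upwards [L.isOpen.mem_nhds L.mem, D.i13_hol_Dl.continuous.continuousAt.eventually_ne D.gen₀,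
      c1.continuousAt.eventually_ne D.gen₀,
      (D.holAt_βl D.gen₀).continuousAt.norm.eventually_lt_const (lt_add_one _)] with x h1 h2 h3 h4
    exact ⟨h1, h2, h3, h4⟩
  have hc := L.c_pos
  have hτ₀ : 0 < min 1 (c₁ / (‖D.βl D.x₀‖ + 1)) := by positivity
  have hlt : ∀ x, ‖D.βl x‖ < ‖D.βl D.x₀‖ + 1 → min 1 (c₁ / (‖D.βl D.x₀‖ + 1)) * ‖D.βl x‖ < c₁ := by
    intro x hx
    calc min 1 (c₁ / (‖D.βl D.x₀‖ + 1)) * ‖D.βl x‖
        < min 1 (c₁ / (‖D.βl D.x₀‖ + 1)) * (‖D.βl D.x₀‖ + 1) := by gcongr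
      _ ≤ c₁ / (‖D.βl D.x₀‖ + 1) * (‖D.βl D.x₀‖ + 1) := by gcongr; exact min_le_right _ _
      _ = c₁ := by field_simp
  refine ⟨interior _, _, isOpen_interior, mem_interior_iff_mem_nhds.2 hV,
    fun x hx => (interior_subset hx).1, hτ₀, fun x hx => ?_, fun τ hτ => ?_⟩
  · obtain ⟨-, h2, h3, h4⟩ := interior_subset hx
    exact ⟨div_ne_zero (mul_ne_zero (mul_ne_zero Complex.I_ne_zero D.gen₀) (star_ne_zero.2 h3)) h2,
      hlt x h4⟩
  · have hζ : ∀ x, ‖D.βl x‖ < ‖D.βl D.x₀‖ + 1 → (τ : ℂ) * D.βl x ∈ ball (0 : ℂ) c₁ := by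
      intro x hx
      rw [mem_ball_zero_iff, norm_mul, Complex.norm_real, Real.norm_eq_abs]
      exact lt_of_le_of_lt (by gcongr) (hlt x hx)
    refine M.extend (m := fun x => m x (τ * D.βl x)) isOpen_interior
      ⟨D.x₀, mem_interior_iff_mem_nhds.2 hV⟩ (fun x hx => ?_) 1 fun f hf hb => ?_
    · obtain ⟨h1, h2, -, h4⟩ := interior_subset hx
      have a1 : AnalyticAt ℂ (fun w : E n => ((w, τ * D.βl (M.ψ x w)) : E n × ℂ)) 0 :=
        analyticAt_id.prod (analyticAt_const.mul (D.holAt_βl h2))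
      exact (L.hol x h1 _ (hζ x h4)).comp_of_eq a1 (by rw [M.ψ_zero])
    · obtain ⟨g, g1, g2, g3⟩ := D.i13_fun S (hτ.trans (min_le_left _ _)) hf hb
      refine ⟨g, g1, g2, fun x hx => ?_⟩
      obtain ⟨h1, h2, -, h4⟩ := interior_subset hx
      exact tendsto_nhds_unique (g3 x h2) ((hf.continuous.tendsto _).comp
        (L.lim x h1 _ (hζ x h4) (fun _ => x) (fun j => τ * D.β j x) tendsto_const_nhds
          ((D.tendsto_β h2).const_mul _)))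

theorem i13_cont {ε : ℕ → ℝ} {t₁ : Set M.X} {c₁ : ℝ} {m : M.X → ℂ → M.X}
    (L : D.LocLim ε t₁ c₁ m) {x : M.X} (hx : x ∈ t₁) :
    Tendsto (fun q : E n × ℂ => m (M.ψ x q.1) q.2) (𝓝 (0, 0)) (𝓝 x) := by
  have h1 := (L.hol x hx 0 (mem_ball_self L.c_pos)).continuousAt.tendsto
  simp only [M.ψ_zero, L.zero x hx] at h1
  exact tendsto_subtype_rng.2 h1

theorem i13_joint {ε : ℕ → ℝ} {t₁ t₂ : Set M.X} {c₁ : ℝ} {m : M.X → ℂ → M.X}
    (L : D.LocLim ε t₁ c₁ m) (ht₂ : t₂ ∈ 𝓝 D.x₀) :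
    ∀ᶠ p : M.X × ℝ in 𝓝 D.x₀ ×ˢ 𝓝 0, m p.1 (p.2 * D.βl p.1) ∈ t₂ := by
  have h1 : Tendsto (fun p : M.X × ℝ => M.co D.x₀ p.1) (𝓝 D.x₀ ×ˢ 𝓝 0) (𝓝 0) := by
    have := ((M.continuous_co D.x₀).tendsto D.x₀).comp (tendsto_fst (g := 𝓝 (0 : ℝ)))
    rwa [M.co_self] at this
  have h2 : Tendsto (fun p : M.X × ℝ => (p.2 : ℂ) * D.βl p.1) (𝓝 D.x₀ ×ˢ 𝓝 0) (𝓝 0) := by
    have := ((Complex.continuous_ofReal.tendsto 0).comp (tendsto_snd (f := 𝓝 D.x₀))).mul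
      ((D.holAt_βl D.gen₀).continuousAt.tendsto.comp (tendsto_fst (g := 𝓝 (0 : ℝ))))
    rwa [Complex.ofReal_zero, zero_mul] at this
  have h3 := ((D.i13_cont L L.mem).comp (h1.prodMk_nhds h2)).eventually ht₂
  filter_upwards [h3, tendsto_fst.eventually (M.ψ_co_eventually D.x₀)] with p e1 e2
  simp only [Function.comp_apply, e2.1] at e1
  exact e1

theorem exists_seq : ∃ τ : ℕ → M.Aut, (∀ k, τ k ≠ 1) ∧
    (∀ᶠ x in 𝓝 D.x₀, Tendsto (fun k => τ k • x) atTop (𝓝 x)) ∧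
    ∀ k (x : M.X), D.φ (τ k • x) = D.φ x := by
  obtain ⟨ε, t, c, S⟩ := D.exists_scale D.gen₀
  obtain ⟨t₁, c₁, m, L⟩ := D.exists_locLim S
  obtain ⟨t₂, τ₀, hO, hx₀, hsub, hτ₀, hβ, hext⟩ := D.exists_ext S L
  choose! m' hm' hme using hext
  have ht₂ : t₂ ∈ 𝓝 D.x₀ := hO.mem_nhds hx₀
  obtain ⟨pa, hpa, pb, hpb, hab⟩ := eventually_prod_iff.1 (D.i13_joint L ht₂)
  have hζ : ∀ τ : ℝ, |τ| ≤ τ₀ → ∀ x ∈ t₂, (τ : ℂ) * D.βl x ∈ ball (0 : ℂ) c₁ := by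
    intro τ hτ x hx
    rw [mem_ball_zero_iff, norm_mul, Complex.norm_real, Real.norm_eq_abs]
    exact lt_of_le_of_lt (by gcongr) (hβ x hx).2
  have hinv : ∀ τ : ℝ, |τ| ≤ τ₀ → pb τ → ∀ x, m' (-τ) (m' τ x) = x := by
    intro τ hτ hp
    have hτ' : |-τ| ≤ τ₀ := by rwa [abs_neg]
    refine congrFun (BM.map_eq_of_eventuallyEq (a := fun x => m' (-τ) (m' τ x)) (b := id)
      (fun x => BM.HolAt.comp (f := M.ι ∘ m' (-τ)) (a := m' τ) (hm' _ hτ' _) (hm' _ hτ x))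
      M.holAt_ι (x := D.x₀) ?_)
    filter_upwards [hpa, ht₂] with x h1 h2
    have e1 : m x (τ * D.βl x) ∈ t₂ := hab h1 hp
    have e2 : D.βl (m x (τ * D.βl x)) = D.βl x :=
      congrArg (fun u => D.βf u (D.φ D.x₀)) (L.inv x (hsub h2) _ (hζ τ hτ x h2))
    have e3 : ((-τ : ℝ) : ℂ) * D.βl x + τ * D.βl x = 0 := by
      push_cast
      ring
    rw [hme τ hτ x h2, hme _ hτ' _ e1, e2, L.add x (hsub h2) _ (hζ _ hτ' x h2) _ (hζ τ hτ x h2)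
      (by rw [e3]; exact mem_ball_self L.c_pos) (hsub e1), e3, L.zero x (hsub h2)]
    rfl
  obtain ⟨x₁, hx₁, hx₁t⟩ := ((L.nontriv D.x₀ L.mem).and_eventually ht₂).exists
  have hev : ∀ᶠ τ : ℝ in 𝓝[>] 0, |τ| ≤ τ₀ ∧ pb τ ∧ pb (-τ) ∧ m x₁ (τ * D.βl x₁) ≠ x₁ := by
    have h1 : Tendsto (fun τ : ℝ => (τ : ℂ) * D.βl x₁) (𝓝[>] 0) (𝓝[≠] 0) := by
      refine tendsto_nhdsWithin_iff.2 ⟨?_, ?_⟩
      · have := (Complex.continuous_ofReal.tendsto 0).mul_const (D.βl x₁)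
        rw [Complex.ofReal_zero, zero_mul] at this
        exact this.mono_left nhdsWithin_le_nhds
      · filter_upwards [self_mem_nhdsWithin] with τ hτ
        exact mul_ne_zero (Complex.ofReal_ne_zero.2 (ne_of_gt hτ)) (hβ x₁ hx₁t).1
    have h2 : Tendsto (fun τ : ℝ => -τ) (𝓝 0) (𝓝 0) := by
      simpa using (continuous_neg (G := ℝ)).tendsto 0
    filter_upwards [Ioc_mem_nhdsGT hτ₀, nhdsWithin_le_nhds hpb, nhdsWithin_le_nhds (h2.eventually hpb),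
      h1.eventually hx₁] with τ e1 e2 e3 e4
    exact ⟨by rw [abs_of_pos e1.1]; exact e1.2, e2, e3, e4⟩
  obtain ⟨s, hs0, hs⟩ := exists_seq_forall_of_frequently hev.frequently
  have haut : ∀ k, ∃ a : M.Aut, ∀ x, a • x = m' (s k) x := by
    intro k
    obtain ⟨e1, e2, e3, -⟩ := hs k
    have e4 : |-s k| ≤ τ₀ := by rwa [abs_neg]
    have e5 := hinv _ e4 e3
    rw [neg_neg] at e5
    obtain ⟨a, ha, -⟩ := BM.exists_aut (hm' _ e1) (hm' _ e4) e5 (hinv _ e1 e2)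
    exact ⟨a, ha⟩
  choose a ha using haut
  refine ⟨a, fun k hk => ?_, ?_, fun k => ?_⟩
  · refine (hs k).2.2.2 ?_
    rw [← hme _ (hs k).1 _ hx₁t, ← ha, hk, one_smul]
  · filter_upwards [ht₂] with x hx
    have h1 : Tendsto (fun k => (s k : ℂ) * D.βl x) atTop (𝓝 0) := by
      have := ((Complex.continuous_ofReal.tendsto 0).comp
        (hs0.mono_right nhdsWithin_le_nhds)).mul_const (D.βl x)
      rwa [Complex.ofReal_zero, zero_mul] at this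
    refine ((D.i13_cont L (hsub hx)).comp (tendsto_const_nhds.prodMk_nhds h1)).congr fun k => ?_
    simp only [Function.comp_apply, M.ψ_zero]
    rw [ha, hme _ (hs k).1 _ hx]
  · refine congrFun (BM.Hol.eq_of_eventuallyEq (f := fun x => D.φ (a k • x))
      (fun x => BM.HolAt.comp (f := D.φ) (a := fun x => a k • x) (D.hol_φ _) (M.hol_smul _ x))
      D.hol_φ (x := D.x₀) ?_)
    filter_upwards [ht₂] with x hx
    rw [ha, hme _ (hs k).1 _ hx, L.inv x (hsub hx) _ (hζ _ (hs k).1 x hx)]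

end FD

namespace AM

variable {N n : ℕ} (M : AM N n)

/-- The flow theorem. -/
theorem flow (i : Fin n) (𝒰 : Ultrafilter ℕ) (a : ℕ → M.Aut) {φ : M.X → E N}
    (hlim : ∀ x : M.X, Tendsto (fun j => M.ι (a j • x)) 𝒰 (𝓝 (φ x))) (hesc : ∀ x, φ x ∉ M.U)
    (hgen : ∃ x, ¬ Bad M.A.Δ M.W.ρ i (M.A.π (φ x))) :
    ∃ W ∈ M.gR, W ≠ 0 ∧ ∀ x, M.df φ x (M.ev W x) = 0 := by
  obtain ⟨D⟩ := M.exists_WF i
  obtain ⟨R, -, hR⟩ := M.exists_bound
  have hφ : M.Hol φ := (BM.vitali_hol (Eventually.of_forall fun j => M.hol_smul (a j))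
    (BM.locBdd_of_bound (C := R) (Eventually.of_forall fun j y => hR _)) hlim).1
  have c1 := (M.continuous_g i).comp (hφ.continuous.prodMk hφ.continuous)
  simp only [Function.comp_def] at c1
  have hO : IsOpen {x | M.g i (φ x) (φ x) ≠ 0} := isOpen_ne_fun c1 continuous_const
  have hne : {x | M.g i (φ x) (φ x) ≠ 0}.Nonempty := by
    obtain ⟨x, hx⟩ := hgen
    have h1 : φ x ∈ closure M.U :=
      mem_closure_of_tendsto (hlim x) (Eventually.of_forall fun j => (a j • x).2)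
    exact ⟨x, fun h => hx ((M.bad_iff i (M.p_eq_zero h1 (hesc x))).2 h)⟩
  have hΔ : M.Hol (fun x => M.A.Δ (M.A.π x.1)) := fun x =>
    (M.holAt_ι x).comp_analytic (g := fun u => M.A.Δ (M.A.π u))
      (P278F.analyticOnNhd_of_differentiableOn isOpen_univ
        (M.A.Δ_diff.comp M.A.π_diff).differentiableOn _ (mem_univ _))
  obtain ⟨y, hyU, hy⟩ := M.Δ_ne
  obtain ⟨x₀, h1, h2⟩ := (hΔ.dense_ne_zero ⟨⟨y, hyU⟩, hy⟩).inter_open_nonempty _ hO hne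
  obtain ⟨τ, t1, t2, t3⟩ := FD.exists_seq (M := M) (i := i) ⟨D, 𝒰, a, φ, hlim, hesc, x₀, h1, h2⟩
  exact M.gen_of_seq τ t1 t2 hφ t3

end AM

end Vale.Agent.P274
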