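import Vale.Agent.P274.I2x

/-! The good point lemma and the super-mean value property of the Hartogs radius. -/

open Metric Set Filter Topology

namespace Vale.Agent.P274.WF

variable {N n : ℕ} {M : AM N n} {i : Fin n} (D : WF M i)

theorem i2_unit {G : ℂ} (hG : G ≠ 0) : ∃ u : ℂ, ‖u‖ = 1 ∧ u * G = ‖G‖ := by
  have h : (‖G‖ : ℂ) ≠ 0 := by simpa using hG
  refine ⟨starRingEnd ℂ G / ‖G‖, by simp [hG], ?_⟩
  rw [div_mul_eq_mul_div, Complex.conj_mul']
  field_simp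

/-- Moving almost tangentially to the wall hardly decreases the Hartogs radius. -/
theorem good_point : ∃ K : ℝ, 1 ≤ K ∧ ∀ z ∈ M.U, ∀ (γ A η B : ℝ) (s₁ : ℂ), 0 < γ →
    γ ≤ ‖M.g i z z‖ → K * B ≤ γ → A ≤ B → D.Disc z A → ‖s₁‖ ≤ B →
    |(s₁ * M.g i z z).re| ≤ η →
    ∀ s : ℂ, ‖s - s₁‖ < A - K * (η + B ^ 2) / γ → D.F.fl (s, z) ∈ M.U := by
  obtain ⟨K, hK, hT⟩ := D.taylor
  have hr := D.F.r_pos
  have hK1 : 0 ≤ 8 * K / D.F.r := by positivity
  refine ⟨64 * K + 8 * K / D.F.r, by linarith,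
    fun z hz γ A η B s₁ hγ hG hKB hAB hD hs₁ hη s hs => ?_⟩
  obtain ⟨hGK, hT⟩ := hT z (M.U_sub hz) (D.bd z hz)
  have hη0 : 0 ≤ η := (abs_nonneg _).trans hη
  have he : 0 ≤ (64 * K + 8 * K / D.F.r) * (η + B ^ 2) / γ := by positivity
  have hA : 0 < A := by linarith [norm_nonneg (s - s₁)]
  have hB : 0 < B := hA.trans_le hAB
  have hKB1 : 64 * K * B ≤ γ := by nlinarith
  have hBr : 8 * B ≤ D.F.r := by
    have a1 : 8 * K / D.F.r * B ≤ K := by nlinarith
    rw [div_mul_eq_mul_div, div_le_iff₀ hr] at a1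
    nlinarith
  have hs2 : ‖s‖ ≤ 2 * B := by linarith [norm_sub_norm_le s s₁]
  obtain ⟨G, hGe⟩ : ∃ G, G = M.g i z z := ⟨_, rfl⟩
  rw [← hGe] at hG hGK hT hη
  have hG0 : 0 < ‖G‖ := hγ.trans_le hG
  have hKG : 64 * (K * B) ≤ ‖G‖ := by linarith
  by_cases hp : 5 * ‖G‖ * B < |M.p z|
  · refine D.i2x_segment hz (by linarith) fun t ht h0 => ?_
    have a1 : ‖(t : ℂ) * s‖ ≤ 2 * B := by
      rw [norm_mul, Complex.norm_real, Real.norm_of_nonneg ht.1]
      exact (mul_le_of_le_one_left (norm_nonneg s) ht.2).trans hs2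
    have a2 := (hT (t * s) (by linarith)).2.2
    have a3 := (Complex.abs_re_le_norm (t * s * G)).trans
      (norm_mul_le_of_le a1 (le_refl ‖G‖))
    have a4 := mul_le_mul_of_nonneg_left (pow_le_pow_left₀ (norm_nonneg _) a1 2)
      (zero_le_one.trans hK)
    have a5 := mul_le_mul_of_nonneg_right hKG hB.le
    rw [h0, abs_le] at a2
    rw [abs_le] at a3
    have a6 : |M.p z| ≤ 5 * ‖G‖ * B := abs_le.2 ⟨by nlinarith, by nlinarith⟩
    linarith
  rw [not_lt, abs_le] at hp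
  obtain ⟨u, hu, huG⟩ := i2_unit (norm_pos_iff.1 hG0)
  let c : ℝ × ℝ → ℂ := fun x => u * (x.1 + x.2 * Complex.I)
  have hcc : Continuous c := by fun_prop
  have hcn : ∀ x ∈ Icc (-(4 * B)) (4 * B) ×ˢ Icc (-(4 * B)) (4 * B), ‖c x‖ ≤ 8 * B := by
    intro x hx
    rw [norm_mul, hu, one_mul]
    refine (norm_add_le _ _).trans ?_
    rw [norm_mul, Complex.norm_I, mul_one, Complex.norm_real, Complex.norm_real, Real.norm_eq_abs,
      Real.norm_eq_abs]
    linarith [abs_le.2 hx.1, abs_le.2 hx.2]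
  have hcr : ∀ x ∈ Icc (-(4 * B)) (4 * B) ×ˢ Icc (-(4 * B)) (4 * B), ‖c x‖ < 2 * D.F.r :=
    fun x hx => by linarith [hcn x hx]
  have hcG : ∀ x, (c x * G).re = ‖G‖ * x.1 := by
    intro x
    rw [mul_right_comm, huG]
    simp
  have hc0 : ∀ a : ℝ, ‖c (a, 0)‖ = |a| := by
    intro a
    simp [c, hu]
  have hg : ∀ x ∈ Icc (-(4 * B)) (4 * B) ×ˢ Icc (-(4 * B)) (4 * B),
      0 < (u * M.g i (D.F.fl (c x, z)) (D.F.fl (c x, z))).re := by
    intro x hx
    have a1 := (hT _ (hcr x hx)).2.1.trans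
      (mul_le_mul_of_nonneg_left (hcn x hx) (zero_le_one.trans hK))
    have a2 := (Complex.abs_re_le_norm _).trans (norm_mul_le_of_le hu.le a1)
    rw [mul_sub, Complex.sub_re, huG, Complex.ofReal_re, abs_le] at a2
    linarith [a2.1]
  have hP : ∀ x ∈ Icc (-(4 * B)) (4 * B) ×ˢ Icc (-(4 * B)) (4 * B),
      |M.p (D.F.fl (c x, z)) - M.p z - 2 * (‖G‖ * x.1)| ≤ ‖G‖ * B := by
    intro x hx
    have a1 := (hT _ (hcr x hx)).2.2.trans (mul_le_mul_of_nonneg_left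
      (pow_le_pow_left₀ (norm_nonneg _) (hcn x hx) 2) (zero_le_one.trans hK))
    rw [hcG] at a1
    nlinarith
  have hfc : ContinuousOn (fun x => D.F.fl (c x, z))
      (Icc (-(4 * B)) (4 * B) ×ˢ Icc (-(4 * B)) (4 * B)) :=
    D.i2x_cont hcc.continuousOn continuousOn_const hcr fun _ _ => hz
  have hZ : ∀ x ∈ Icc (-(4 * B)) (4 * B) ×ˢ Icc (-(4 * B)) (4 * B), D.F.fl (c x, z) ∈ M.A.Z :=
    fun x hx => D.fl_mem_Z (M.U_sub hz) (D.bd z hz) (hcr x hx)
  have hGB := mul_pos hG0 hB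
  have hm : ∀ b ∈ Icc (-(4 * B)) (4 * B),
      StrictMonoOn (fun a => M.p (D.F.fl (c (a, b), z))) (Icc (-(4 * B)) (4 * B)) := by
    intro b hb
    have a1 : ∀ a ∈ Icc (-(4 * B)) (4 * B), HasDerivAt (fun a => M.p (D.F.fl (c (a, b), z)))
        (2 * (u * M.g i (D.F.fl (c (a, b), z)) (D.F.fl (c (a, b), z))).re) a := by
      intro a ha
      refine D.hasDerivAt_p (s := fun a => c (a, b)) (M.U_sub hz) (D.bd z hz) (hcr _ ⟨ha, hb⟩) ?_
      simpa using ((Complex.ofRealCLM.hasDerivAt (x := a)).add_const (b * Complex.I)).const_mul u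
    refine strictMonoOn_of_deriv_pos (convex_Icc _ _)
      (fun a ha => (a1 a ha).continuousAt.continuousWithinAt) fun a ha => ?_
    rw [(a1 a (interior_subset ha)).deriv]
    linarith [hg (a, b) ⟨interior_subset ha, hb⟩]
  obtain ⟨k0, k1, k2, k3⟩ := i2x_square (P := fun x => M.p (D.F.fl (c x, z)))
    (S := fun x => D.F.fl (c x, z) ∈ M.U) (ρ := 4 * B) (by linarith)
    (M.continuous_p.comp_continuousOn hfc) hm
    (fun b hb => by
      have a1 := abs_le.1 (hP (4 * B, b) ⟨⟨by linarith, le_rfl⟩, hb⟩)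
      linarith [a1.1])
    (fun b hb => by
      have a1 := abs_le.1 (hP (-(4 * B), b) ⟨⟨le_rfl, by linarith⟩, hb⟩)
      linarith [a1.2])
    (fun T hT h1 h2 x hx y hy => M.mem_of_preconnected h1 (hfc.mono hT)
      (fun x hx => hZ x (hT hx)) h2 hx hy)
    (fun T hT h1 h2 x hx y hy => M.mem_of_preconnected_wall i h1 (hfc.mono hT)
      (fun x hx => hZ x (hT hx)) (fun x hx => ⟨h2 x hx, fun h0 => by
        have a1 := hg x (hT hx)
        rw [h0, mul_zero] at a1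
        exact lt_irrefl _ a1⟩) hx hy)
    (fun x hx hS => by
      have a1 : ContinuousAt (fun x => D.F.fl (c x, z)) x :=
        ContinuousAt.comp (g := D.F.fl) (f := fun x => (c x, z))
          (D.analyticAt_fl (D.bd z hz) (hcr x hx)).continuousAt
          (hcc.prodMk continuous_const).continuousAt
      filter_upwards [a1.eventually (M.eventually_mem_U hS),
        hcc.norm.continuousAt.eventually (gt_mem_nhds (hcr x hx))] with y a2 a3
      exact a2 (D.fl_mem_Z (M.U_sub hz) (D.bd z hz) a3))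
  have hu0 : u ≠ 0 := norm_ne_zero_iff.1 (by rw [hu]; exact one_ne_zero)
  have hx : c ((s / u).re, (s / u).im) = s := by
    simp only [c]
    rw [Complex.re_add_im, mul_div_cancel₀ _ hu0]
  have hxn : ‖s / u‖ ≤ 4 * B := by
    rw [norm_div, hu, div_one]
    linarith
  have hxm : ((s / u).re, (s / u).im) ∈ Icc (-(4 * B)) (4 * B) ×ˢ Icc (-(4 * B)) (4 * B) :=
    ⟨abs_le.1 ((Complex.abs_re_le_norm _).trans hxn),
      abs_le.1 ((Complex.abs_im_le_norm _).trans hxn)⟩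
  have h0 : (0 : ℝ) ∈ Icc (-(4 * B)) (4 * B) := ⟨by linarith, by linarith⟩
  have hz0 : D.F.fl (c (0, 0), z) = z := by
    simpa [c] using D.i2x_zero hz
  obtain ⟨a, ha, ha0⟩ := k0 0 h0
  rw [← hx]
  by_cases hS : D.F.fl (c (a, 0), z) ∈ M.U
  · exact k3 _ ⟨ha, h0⟩ ha0 hS _ hxm
  have haA : A ≤ |a| := by
    by_contra h
    exact hS (hD _ (by rw [hc0]; exact not_le.1 h))
  have t1 := abs_le.1 (hT s (by linarith)).2.2
  have t2 : |(s * G).re| ≤ η + ‖G‖ * ‖s - s₁‖ := by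
    have a1 : (s * G).re = (s₁ * G).re + ((s - s₁) * G).re := by
      rw [← Complex.add_re]
      congr 1
      ring
    have a2 := Complex.abs_re_le_norm ((s - s₁) * G)
    rw [norm_mul, mul_comm ‖s - s₁‖] at a2
    rw [a1]
    exact (abs_add_le _ _).trans (add_le_add hη a2)
  have t3 : ‖G‖ * ‖s - s₁‖ + 64 * K * (η + B ^ 2) < ‖G‖ * A := by
    have a1 := mul_lt_mul_of_pos_left hs hG0
    have a2 := mul_le_mul_of_nonneg_right hG he
    rw [mul_div_cancel₀ _ hγ.ne'] at a2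
    have a3 : 0 ≤ 8 * K / D.F.r * (η + B ^ 2) := by positivity
    nlinarith
  have t4 := mul_le_mul_of_nonneg_left (pow_le_pow_left₀ (norm_nonneg _) hs2 2)
    (zero_le_one.trans hK)
  have t5 := mul_le_mul_of_nonneg_left (pow_le_pow_left₀ hA.le hAB 2) (zero_le_one.trans hK)
  have t6 := mul_le_mul_of_nonneg_right hK hη0
  have t7 : 0 ≤ K * B ^ 2 := by positivity
  rw [abs_le] at t2
  rcases le_abs'.1 haA with h | h
  · have m1 : -A ∈ Icc (-(4 * B)) (4 * B) := ⟨by linarith, by linarith⟩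
    have a1 := (hm 0 h0).monotoneOn ha m1 h
    have a2 := (hT _ (hcr (-A, 0) ⟨m1, h0⟩)).2.2
    rw [hcG, hc0, sq_abs, neg_sq, abs_le] at a2
    refine k1 (0, 0) ⟨h0, h0⟩ _ hxm ?_ ?_ (hz0.symm ▸ hz)
    · exact ha0.ge.trans_lt (hm 0 h0 ha h0 (by linarith))
    · rw [hx]
      simp only [ha0] at a1
      linarith [a2.2, t1.1, t2.1]
  · have m1 : A ∈ Icc (-(4 * B)) (4 * B) := ⟨by linarith, by linarith⟩
    have a1 := (hm 0 h0).monotoneOn m1 ha h
    have a2 := (hT _ (hcr (A, 0) ⟨m1, h0⟩)).2.2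
    rw [hcG, hc0, sq_abs, abs_le] at a2
    refine k2 (0, 0) ⟨h0, h0⟩ _ hxm ?_ ?_ (hz0.symm ▸ hz)
    · exact (hm 0 h0 h0 ha (by linarith)).trans_le ha0.le
    · rw [hx]
      simp only [ha0] at a1
      linarith [a2.1, t1.2, t2.2]

/-- Super-mean value property of the logarithm of the Hartogs radius. -/
theorem super_mean {z : ℂ → E N} (hz : DiffContOnCl ℂ z (ball 0 1))
    (hU : ∀ ζ ∈ closedBall (0 : ℂ) 1, z ζ ∈ M.U) {g : ℝ → ℝ} (hg : Continuous g)
    (hp : g 0 = g (2 * Real.pi))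
    (h : ∀ θ ∈ Icc (0 : ℝ) (2 * Real.pi), Real.exp (g θ) ≤ D.HR (z (ce θ))) :
    Real.exp (cmean g) ≤ D.HR (z 0) := by
  have h0 : (0 : ℂ) ∈ closedBall (0 : ℂ) 1 := mem_closedBall_self zero_le_one
  have hr := D.F.r_pos
  rw [← Real.le_log_iff_exp_le (D.HR_pos (hU 0 h0))]
  refine le_of_forall_pos_le_add fun η hη => ?_
  obtain ⟨k, hk, k1, k2⟩ := exists_entire_approx (g := fun θ => g θ + -(η / 2))
    (hg.add continuous_const) (by rw [hp]) (half_pos hη)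
  rw [cmean_add hg continuous_const, cmean_const] at k2
  have hek : DiffContOnCl ℂ (fun ζ => Complex.exp (k ζ)) (ball 0 1) := hk.cexp.diffContOnCl
  have h1 : ∀ ζ ∈ sphere (0 : ℂ) 1, ‖Complex.exp (k ζ)‖ < D.HR (z ζ) := by
    intro ζ hζ
    obtain ⟨θ, hθ, rfl⟩ := exists_ce (mem_sphere_zero_iff_norm.1 hζ)
    rw [Complex.norm_exp]
    exact (Real.exp_lt_exp.2 (by linarith [(abs_lt.1 (k1 θ hθ)).2])).trans_le (h θ hθ)
  have h2 : ∀ ζ ∈ closedBall (0 : ℂ) 1, ‖Complex.exp (k ζ)‖ ≤ D.F.r := by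
    intro ζ hζ
    refine Complex.norm_le_of_forall_mem_frontier_norm_le isBounded_ball hek (fun w hw => ?_) ?_
    · rw [frontier_ball _ one_ne_zero] at hw
      exact (h1 w hw).le.trans (D.HR_le _)
    · rwa [closure_ball _ one_ne_zero]
  have h3 : ‖Complex.exp (k 0)‖ ≤ D.HR (z 0) := by
    refine D.le_HR (h2 0 h0) fun s hs => ?_
    have a0 := Complex.exp_ne_zero (k 0)
    have a1 : ∀ τ ∈ Icc (0 : ℝ) 1, ∀ ζ, ‖τ * (s / Complex.exp (k 0)) * Complex.exp (k ζ)‖ ≤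
        ‖Complex.exp (k ζ)‖ := by
      intro τ hτ ζ
      rw [norm_mul, norm_mul, Complex.norm_real, Real.norm_of_nonneg hτ.1, norm_div]
      exact mul_le_of_le_one_left (norm_nonneg _) (mul_le_one₀ hτ.2 (by positivity)
        ((div_le_one (norm_pos_iff.2 a0)).2 hs.le))
    have a2 := D.i2x_principle hz hU (s := fun τ : ℝ => τ * (s / Complex.exp (k 0)))
      (by fun_prop) (by simp) hek (fun τ hτ ζ hζ => by linarith [a1 τ hτ ζ, h2 ζ hζ])
      (fun τ hτ ζ hζ => D.disc_HR _ _ ((a1 τ hτ ζ).trans_lt (h1 ζ hζ)))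
      1 (right_mem_Icc.2 zero_le_one) 0 h0
    rwa [Complex.ofReal_one, one_mul, div_mul_cancel₀ _ a0] at a2
  rw [Complex.norm_exp, ← Real.le_log_iff_exp_le (D.HR_pos (hU 0 h0))] at h3
  linarith [(abs_le.1 k2).1]

end Vale.Agent.P274.WF
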