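import Vale.Agent.P274.I1

/-! Auxiliary lemmas: the continuity principle along the flow, a square lemma. -/

open Metric Set Filter Topology

namespace Vale.Agent.P274

/-- A function strictly increasing in the first variable and changing sign on a square. -/
theorem i2x_square {P : ℝ × ℝ → ℝ} {S : ℝ × ℝ → Prop} {ρ : ℝ} (hρ : 0 < ρ)
    (hc : ContinuousOn P (Icc (-ρ) ρ ×ˢ Icc (-ρ) ρ))
    (hm : ∀ b ∈ Icc (-ρ) ρ, StrictMonoOn (fun a => P (a, b)) (Icc (-ρ) ρ))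
    (hR : ∀ b ∈ Icc (-ρ) ρ, 0 < P (ρ, b)) (hL : ∀ b ∈ Icc (-ρ) ρ, P (-ρ, b) < 0)
    (h1 : ∀ T ⊆ Icc (-ρ) ρ ×ˢ Icc (-ρ) ρ, IsPreconnected T → (∀ x ∈ T, P x ≠ 0) →
      ∀ x ∈ T, ∀ y ∈ T, S x → S y)
    (h2 : ∀ T ⊆ Icc (-ρ) ρ ×ˢ Icc (-ρ) ρ, IsPreconnected T → (∀ x ∈ T, P x = 0) →
      ∀ x ∈ T, ∀ y ∈ T, S x → S y)
    (h3 : ∀ x ∈ Icc (-ρ) ρ ×ˢ Icc (-ρ) ρ, S x → ∀ᶠ y in 𝓝 x, S y) :
    (∀ b ∈ Icc (-ρ) ρ, ∃ a ∈ Icc (-ρ) ρ, P (a, b) = 0) ∧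
    (∀ x ∈ Icc (-ρ) ρ ×ˢ Icc (-ρ) ρ, ∀ y ∈ Icc (-ρ) ρ ×ˢ Icc (-ρ) ρ,
      0 < P x → 0 < P y → S x → S y) ∧
    (∀ x ∈ Icc (-ρ) ρ ×ˢ Icc (-ρ) ρ, ∀ y ∈ Icc (-ρ) ρ ×ˢ Icc (-ρ) ρ,
      P x < 0 → P y < 0 → S x → S y) ∧
    ∀ x ∈ Icc (-ρ) ρ ×ˢ Icc (-ρ) ρ, P x = 0 → S x → ∀ y ∈ Icc (-ρ) ρ ×ˢ Icc (-ρ) ρ, S y := by
  have hr : ρ ∈ Icc (-ρ) ρ := ⟨by linarith, le_rfl⟩
  have hl : -ρ ∈ Icc (-ρ) ρ := ⟨le_rfl, by linarith⟩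
  have hz : ∀ b ∈ Icc (-ρ) ρ, ∃ a ∈ Icc (-ρ) ρ, P (a, b) = 0 := by
    intro b hb
    have a1 : ContinuousOn (fun a => P (a, b)) (Icc (-ρ) ρ) :=
      hc.comp (f := fun a => (a, b)) (by fun_prop) fun a ha => ⟨ha, hb⟩
    exact intermediate_value_Icc hr.1 a1 ⟨(hL b hb).le, (hR b hb).le⟩
  have hpos : ∀ x ∈ Icc (-ρ) ρ ×ˢ Icc (-ρ) ρ, 0 < P x → (S x ↔ S (ρ, 0)) := by
    rintro ⟨a, b⟩ ⟨ha, hb⟩ hP
    have a1 := h1 (Icc a ρ ×ˢ {b}) (prod_mono (Icc_subset_Icc_left ha.1) (by simpa using hb))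
      (isPreconnected_Icc.prod isPreconnected_singleton) (by
        rintro ⟨a', b'⟩ ⟨h4, rfl⟩
        exact (hP.trans_le ((hm _ hb).monotoneOn ha ⟨ha.1.trans h4.1, h4.2⟩ h4.1)).ne')
    have a2 := h1 ({ρ} ×ˢ Icc (-ρ) ρ) (prod_mono (by simpa using hr) subset_rfl)
      (isPreconnected_singleton.prod isPreconnected_Icc) (by
        rintro ⟨a', b'⟩ ⟨rfl, h4⟩
        exact (hR _ h4).ne')
    have m1 : (a, b) ∈ Icc a ρ ×ˢ ({b} : Set ℝ) := ⟨⟨le_rfl, ha.2⟩, rfl⟩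
    have m2 : (ρ, b) ∈ Icc a ρ ×ˢ ({b} : Set ℝ) := ⟨⟨ha.2, le_rfl⟩, rfl⟩
    have m3 : (ρ, b) ∈ ({ρ} : Set ℝ) ×ˢ Icc (-ρ) ρ := ⟨rfl, hb⟩
    have m4 : (ρ, (0 : ℝ)) ∈ ({ρ} : Set ℝ) ×ˢ Icc (-ρ) ρ := ⟨rfl, by simp [hρ.le]⟩
    exact ⟨fun h => a2 _ m3 _ m4 (a1 _ m1 _ m2 h), fun h => a1 _ m2 _ m1 (a2 _ m4 _ m3 h)⟩
  have hneg : ∀ x ∈ Icc (-ρ) ρ ×ˢ Icc (-ρ) ρ, P x < 0 → (S x ↔ S (-ρ, 0)) := by
    rintro ⟨a, b⟩ ⟨ha, hb⟩ hP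
    have a1 := h1 (Icc (-ρ) a ×ˢ {b}) (prod_mono (Icc_subset_Icc_right ha.2) (by simpa using hb))
      (isPreconnected_Icc.prod isPreconnected_singleton) (by
        rintro ⟨a', b'⟩ ⟨h4, rfl⟩
        exact (((hm _ hb).monotoneOn ⟨h4.1, h4.2.trans ha.2⟩ ha h4.2).trans_lt hP).ne)
    have a2 := h1 ({-ρ} ×ˢ Icc (-ρ) ρ) (prod_mono (by simpa using hl) subset_rfl)
      (isPreconnected_singleton.prod isPreconnected_Icc) (by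
        rintro ⟨a', b'⟩ ⟨rfl, h4⟩
        exact (hL _ h4).ne)
    have m1 : (a, b) ∈ Icc (-ρ) a ×ˢ ({b} : Set ℝ) := ⟨⟨ha.1, le_rfl⟩, rfl⟩
    have m2 : (-ρ, b) ∈ Icc (-ρ) a ×ˢ ({b} : Set ℝ) := ⟨⟨le_rfl, ha.1⟩, rfl⟩
    have m3 : (-ρ, b) ∈ ({-ρ} : Set ℝ) ×ˢ Icc (-ρ) ρ := ⟨rfl, hb⟩
    have m4 : (-ρ, (0 : ℝ)) ∈ ({-ρ} : Set ℝ) ×ˢ Icc (-ρ) ρ := ⟨rfl, by simp [hρ.le]⟩
    exact ⟨fun h => a2 _ m3 _ m4 (a1 _ m1 _ m2 h), fun h => a1 _ m2 _ m1 (a2 _ m4 _ m3 h)⟩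
  refine ⟨hz, fun x hx y hy a1 a2 h => (hpos y hy a2).2 ((hpos x hx a1).1 h),
    fun x hx y hy a1 a2 h => (hneg y hy a2).2 ((hneg x hx a1).1 h), ?_⟩
  choose! f hf hf0 using hz
  have hcb : ∀ a ∈ Icc (-ρ) ρ, ContinuousOn (fun b => P (a, b)) (Icc (-ρ) ρ) := fun a ha =>
    hc.comp (f := fun b => (a, b)) (by fun_prop) fun b hb => ⟨ha, hb⟩
  have hfc : ContinuousOn f (Icc (-ρ) ρ) := by
    intro b hb
    refine tendsto_order.2 ⟨fun a ha => ?_, fun a ha => ?_⟩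
    · rcases lt_or_ge a (-ρ) with h | h
      · filter_upwards [self_mem_nhdsWithin] with b' hb' using h.trans_le (hf b' hb').1
      · have a1 : a ∈ Icc (-ρ) ρ := ⟨h, ha.le.trans (hf b hb).2⟩
        have a2 : P (a, b) < 0 := hf0 b hb ▸ hm b hb a1 (hf b hb) ha
        filter_upwards [self_mem_nhdsWithin, (hcb a a1 b hb).eventually (gt_mem_nhds a2)]
          with b' hb' a3
        exact ((hm b' hb').lt_iff_lt a1 (hf b' hb')).1 (by rwa [hf0 b' hb'])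
    · rcases lt_or_ge ρ a with h | h
      · filter_upwards [self_mem_nhdsWithin] with b' hb' using (hf b' hb').2.trans_lt h
      · have a1 : a ∈ Icc (-ρ) ρ := ⟨(hf b hb).1.trans ha.le, h⟩
        have a2 : 0 < P (a, b) := hf0 b hb ▸ hm b hb (hf b hb) a1 ha
        filter_upwards [self_mem_nhdsWithin, (hcb a a1 b hb).eventually (lt_mem_nhds a2)]
          with b' hb' a3
        exact ((hm b' hb').lt_iff_lt (hf b' hb') a1).1 (by rwa [hf0 b' hb'])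
  have hg : ∀ x ∈ Icc (-ρ) ρ ×ˢ Icc (-ρ) ρ, P x = 0 →
      x ∈ (fun b => (f b, b)) '' Icc (-ρ) ρ := by
    rintro ⟨a, b⟩ ⟨ha, hb⟩ hP
    refine ⟨b, hb, Prod.ext ((hm b hb).injOn (hf b hb) ha ?_) rfl⟩
    rw [hf0 b hb, hP]
  rintro ⟨a, b⟩ ⟨ha, hb⟩ hP hS y hy
  have he : ∀ᶠ a' in 𝓝 a, S (a', b) :=
    (Continuous.tendsto (f := fun a' => (a', b)) (by fun_prop) a).eventually (h3 _ ⟨ha, hb⟩ hS)
  rcases lt_trichotomy (P y) 0 with h | h | h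
  · have a1 : -ρ < a := lt_of_le_of_ne ha.1 fun e => (hL b hb).ne (e ▸ hP)
    have := right_nhdsWithin_Ioo_neBot a1
    obtain ⟨a', a2, a3⟩ :=
      ((he.filter_mono (nhdsWithin_le_nhds (s := Ioo (-ρ) a))).and self_mem_nhdsWithin).exists
    have a4 : a' ∈ Icc (-ρ) ρ := ⟨a3.1.le, a3.2.le.trans ha.2⟩
    exact (hneg y hy h).2 ((hneg (a', b) ⟨a4, hb⟩ (hP ▸ hm b hb a4 ha a3.2)).1 a2)
  · refine h2 _ ?_ (isPreconnected_Icc.image _ (hfc.prodMk continuousOn_id)) ?_ _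
      (hg _ ⟨ha, hb⟩ hP) _ (hg y hy h) hS
    · rintro _ ⟨b', hb', rfl⟩
      exact ⟨hf b' hb', hb'⟩
    · rintro _ ⟨b', hb', rfl⟩
      exact hf0 b' hb'
  · have a1 : a < ρ := lt_of_le_of_ne ha.2 fun e => (hR b hb).ne' (e ▸ hP)
    have := left_nhdsWithin_Ioo_neBot a1
    obtain ⟨a', a2, a3⟩ :=
      ((he.filter_mono (nhdsWithin_le_nhds (s := Ioo a ρ))).and self_mem_nhdsWithin).exists
    have a4 : a' ∈ Icc (-ρ) ρ := ⟨ha.1.trans a3.1.le, a3.2.le⟩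
    exact (hpos y hy h).2 ((hpos (a', b) ⟨a4, hb⟩ (hP ▸ hm b hb ha a4 a3.1)).1 a2)

namespace WF

variable {N n : ℕ} {M : AM N n} {i : Fin n} (D : WF M i)

theorem i2x_zero {z : E N} (hz : z ∈ M.U) : D.F.fl (0, z) = z :=
  D.F.zero z (mem_ball_zero_iff.2 ((D.bd z hz).trans_lt (lt_add_one _)))

theorem i2x_cont {α : Type*} [TopologicalSpace α] {s : α → ℂ} {z : α → E N} {Q : Set α}
    (hs : ContinuousOn s Q) (hz : ContinuousOn z Q) (hr : ∀ x ∈ Q, ‖s x‖ < 2 * D.F.r)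
    (hU : ∀ x ∈ Q, z x ∈ M.U) : ContinuousOn (fun x => D.F.fl (s x, z x)) Q := fun x hx =>
  ContinuousAt.comp_continuousWithinAt (g := D.F.fl) (f := fun x => (s x, z x))
    (D.analyticAt_fl (D.bd _ (hU x hx)) (hr x hx)).continuousAt ((hs x hx).prodMk (hz x hx))

/-- Moving along a segment on which `p` does not vanish one stays in `U`. -/
theorem i2x_segment {z : E N} (hz : z ∈ M.U) {s : ℂ} (hs : ‖s‖ < 2 * D.F.r)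
    (hp : ∀ t ∈ Icc (0 : ℝ) 1, M.p (D.F.fl (t * s, z)) ≠ 0) : D.F.fl (s, z) ∈ M.U := by
  have hr : ∀ t ∈ Icc (0 : ℝ) 1, ‖(t : ℂ) * s‖ < 2 * D.F.r := by
    intro t ht
    rw [norm_mul, Complex.norm_real, Real.norm_of_nonneg ht.1]
    exact (mul_le_of_le_one_left (norm_nonneg s) ht.2).trans_lt hs
  have h := M.mem_of_preconnected isPreconnected_Icc
    (D.i2x_cont (s := fun t : ℝ => (t : ℂ) * s) (by fun_prop) continuousOn_const hr fun _ _ => hz)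
    (fun t ht => D.fl_mem_Z (M.U_sub hz) (D.bd z hz) (hr t ht)) hp
    (left_mem_Icc.2 zero_le_one) (right_mem_Icc.2 zero_le_one)
    (by rwa [Complex.ofReal_zero, zero_mul, D.i2x_zero hz])
  rwa [Complex.ofReal_one, one_mul] at h

/-- The continuity principle for discs moved by the flow. -/
theorem i2x_principle {z : ℂ → E N} (hz : DiffContOnCl ℂ z (ball 0 1))
    (hU : ∀ ζ ∈ closedBall (0 : ℂ) 1, z ζ ∈ M.U) {s : ℝ → ℂ} (hs : Continuous s) (h0 : s 0 = 0)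
    {e : ℂ → ℂ} (he : DiffContOnCl ℂ e (ball 0 1))
    (hr : ∀ τ ∈ Icc (0 : ℝ) 1, ∀ ζ ∈ closedBall (0 : ℂ) 1, ‖s τ * e ζ‖ < 2 * D.F.r)
    (hb : ∀ τ ∈ Icc (0 : ℝ) 1, ∀ ζ ∈ sphere (0 : ℂ) 1, D.F.fl (s τ * e ζ, z ζ) ∈ M.U) :
    ∀ τ ∈ Icc (0 : ℝ) 1, ∀ ζ ∈ closedBall (0 : ℂ) 1, D.F.fl (s τ * e ζ, z ζ) ∈ M.U := by
  obtain ⟨O, hO, hUO⟩ := M.U_open
  have hzc := hz.continuousOn
  have hec := he.continuousOn
  rw [closure_ball _ one_ne_zero] at hzc hec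
  refine M.cont_principle hO hUO (h := fun τ ζ => D.F.fl (s τ * e ζ, z ζ)) ?_ ?_ ?_ hb ?_
  · exact D.i2x_cont ((hs.comp continuous_fst).continuousOn.mul
      (hec.comp continuous_snd.continuousOn fun p hp => hp.2))
      (hzc.comp continuous_snd.continuousOn fun p hp => hp.2)
      (fun p hp => hr _ hp.1 _ hp.2) (fun p hp => hU _ hp.2)
  · intro τ hτ ζ hζ
    have hζ' := ball_subset_closedBall hζ
    exact DifferentiableAt.comp_differentiableWithinAt (g := D.F.fl)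
      (f := fun ζ => (s τ * e ζ, z ζ)) ζ
      (D.analyticAt_fl (D.bd _ (hU ζ hζ')) (hr τ hτ ζ hζ')).differentiableAt
      (((he.differentiableOn ζ hζ).const_mul _).prodMk (hz.differentiableOn ζ hζ))
  · intro τ hτ ζ hζ
    exact D.fl_mem_Z (M.U_sub (hU ζ hζ)) (D.bd _ (hU ζ hζ)) (hr τ hτ ζ hζ)
  · intro ζ hζ
    rw [h0, zero_mul, D.i2x_zero (hU ζ hζ)]
    exact hU ζ hζ

end WF

end Vale.Agent.P274
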