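import Vale.Agent.P274.I2x

/-! Geometry near a regular boundary point. -/

open Metric Set Filter Topology

namespace Vale.Agent.P274.WF

variable {N n : ℕ} {M : AM N n} {i : Fin n} (D : WF M i)

theorem i3_unit {G : ℂ} (hG : G ≠ 0) : ∃ u : ℂ, ‖u‖ = 1 ∧ u * G = ‖G‖ := by
  have h : (‖G‖ : ℂ) ≠ 0 := by simpa using hG
  refine ⟨starRingEnd ℂ G / ‖G‖, by simp [hG], ?_⟩
  rw [div_mul_eq_mul_div, Complex.conj_mul']
  field_simp

theorem i3_sign {α : Type*} [TopologicalSpace α] {Q : Set α} (hQ : IsPreconnected Q) {φ : α → ℝ}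
    (hc : ContinuousOn φ Q) (h : ∀ x ∈ Q, φ x ≠ 0) {a b : α} (ha : a ∈ Q) (hb : b ∈ Q)
    (h0 : 0 < φ a) : 0 < φ b := by
  by_contra hn
  obtain ⟨x, hx, e⟩ := hQ.intermediate_value hb ha hc ⟨not_lt.1 hn, h0.le⟩
  exact h x hx e

theorem i3_sg {sg x e : ℝ} (h : sg = 1 ∨ sg = -1) (hx : |x| ≤ e) : -e ≤ sg * x ∧ sg * x ≤ e := by
  rw [abs_le] at hx
  rcases h with rfl | rfl <;> constructor <;> linarith [hx.1, hx.2]

theorem i3_exists_sg {x : ℝ} (hx : x ≠ 0) : ∃ sg : ℝ, (sg = 1 ∨ sg = -1) ∧ sg * x = |x| := by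
  rcases lt_or_gt_of_ne hx with h | h
  · exact ⟨-1, Or.inr rfl, by rw [abs_of_neg h, neg_one_mul]⟩
  · exact ⟨1, Or.inl rfl, by rw [abs_of_pos h, one_mul]⟩

theorem i3_norm_sg {sg : ℝ} (h : sg = 1 ∨ sg = -1) : ‖(sg : ℂ)‖ = 1 ∧ sg * sg = 1 := by
  rcases h with rfl | rfl <;> simp

theorem i3_near {z₀ : E N} (hz : z₀ ∈ closure M.U) (hU : z₀ ∉ M.U) (hg : M.g i z₀ z₀ ≠ 0)
    {δ : ℝ} (hδ : 0 < δ) : ∃ μ : ℝ, 0 < μ ∧ ∀ z, dist z z₀ < μ → (z ∈ M.U → M.p z ≠ 0) ∧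
      ‖M.g i z z - M.g i z₀ z₀‖ ≤ ‖M.g i z₀ z₀‖ / 8 ∧ |M.p z| ≤ δ := by
  have hp := M.p_eq_zero hz hU
  have h1 := M.W.S2 i z₀ (closure_minimal M.U_sub M.A.Z_closed hz)
    (by rw [M.ρ_eq, hp, Complex.ofReal_zero]) (fun h => hg ((M.bad_iff i hp).1 h))
  rw [eventually_nhdsWithin_iff] at h1
  have h2 := Metric.tendsto_nhds.1 (((M.continuous_g i).comp
    (continuous_id.prodMk continuous_id)).tendsto z₀) _
    (show 0 < ‖M.g i z₀ z₀‖ / 8 by positivity)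
  have h3 := Metric.tendsto_nhds.1 (M.continuous_p.tendsto z₀) _ hδ
  obtain ⟨μ, hμ, h⟩ := Metric.eventually_nhds_iff.1 (h1.and (h2.and h3))
  refine ⟨μ, hμ, fun z hz => ?_⟩
  obtain ⟨a1, a2, a3⟩ := h hz
  refine ⟨fun hzU h0 => hU ((a1 (M.U_sub hzU) ?_).1 hzU), ?_, ?_⟩
  · rw [M.ρ_eq, h0, Complex.ofReal_zero]
  · rw [← dist_eq_norm]
    exact a2.le
  · rw [hp, Real.dist_eq, sub_zero] at a3
    exact a3.le

theorem i3_norm_mul {t : ℝ} (ht : t ∈ Icc (0 : ℝ) 1) (s : ℂ) : ‖(t : ℂ) * s‖ = t * ‖s‖ := by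
  rw [norm_mul, Complex.norm_real, Real.norm_of_nonneg ht.1]

theorem regular_point {z₀ : E N} (hz : z₀ ∈ closure M.U) (hU : z₀ ∉ M.U)
    (hg : M.g i z₀ z₀ ≠ 0) : ∃ μ r' c C : ℝ, 0 < μ ∧ 0 < r' ∧ r' ≤ D.F.r ∧ 0 < c ∧ 0 < C ∧
      ∀ z ∈ M.U, dist z z₀ < μ → M.p z ≠ 0 ∧ c * |M.p z| ≤ D.HR z ∧ D.HR z ≤ C * |M.p z| ∧
        ∀ (sg : ℝ) (s : ℂ), (sg = 1 ∨ sg = -1) → 0 < sg * M.p z → ‖s‖ < r' →
          ‖s‖ * ‖M.g i z₀ z₀‖ / 2 ≤ sg * (s * M.g i z₀ z₀).re →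
          D.F.fl (s, z) ∈ M.U ∧ sg * M.p z + c * ‖s‖ ≤ sg * M.p (D.F.fl (s, z)) := by
  obtain ⟨K, hK, hT⟩ := D.taylor
  have hr := D.F.r_pos
  have hr' := D.F.r_le
  have hK0 : 0 < K := one_pos.trans_le hK
  obtain ⟨μ₀, hμ₀, h0⟩ := i3_near hz hU hg one_pos
  obtain ⟨γ, hγe⟩ : ∃ γ, γ = ‖M.g i z₀ z₀‖ := ⟨_, rfl⟩
  have hγ : 0 < γ := hγe ▸ norm_pos_iff.2 hg
  obtain ⟨μ, hμ, h1⟩ := i3_near hz hU hg
    (show 0 < min D.F.r (min (γ * γ / (2 * K)) (γ * μ₀ / (2 * K))) by positivity)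
  obtain ⟨u, hu, huG⟩ := i3_unit hg
  rw [← hγe] at h0 h1 huG ⊢
  refine ⟨min μ (μ₀ / 2), min D.F.r (γ / (4 * K)), min (γ / 2) (1 / (3 * K)), γ⁻¹, by positivity,
    by positivity, min_le_left _ _, by positivity, by positivity, fun z hzU hzd => ?_⟩
  obtain ⟨b1, b2, b3⟩ := h1 z (hzd.trans_le (min_le_left _ _))
  have hp := b1 hzU
  have hp' := abs_pos.2 hp
  obtain ⟨hGK, hT⟩ := hT z (M.U_sub hzU) (D.bd z hzU)
  rw [le_min_iff, le_min_iff, le_div_iff₀ (by positivity), le_div_iff₀ (by positivity)] at b3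
  refine ⟨hp, ?_, ?_, fun sg s hsg hs0 hs1 hs2 => ?_⟩
  · have c1 : min (γ / 2) (1 / (3 * K)) * |M.p z| ≤ |M.p z| / (3 * K) := by
      rw [div_eq_inv_mul |M.p z|, ← one_div]
      exact mul_le_mul_of_nonneg_right (min_le_right _ _) hp'.le
    have c2 : |M.p z| / (3 * K) ≤ D.F.r := (div_le_self hp'.le (by linarith)).trans b3.1
    refine c1.trans (D.le_HR c2 fun s hs => D.i2x_segment hzU (by linarith) fun t ht e => ?_)
    have a1 : ‖(t : ℂ) * s‖ ≤ ‖s‖ := by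
      rw [i3_norm_mul ht]
      exact mul_le_of_le_one_left (norm_nonneg s) ht.2
    have a2 := abs_le.1 (hT (t * s) (by linarith)).2.2
    have a3 := abs_le.1 ((Complex.abs_re_le_norm _).trans (norm_mul_le_of_le a1 hGK))
    have a4 : ‖(t : ℂ) * s‖ ^ 2 ≤ ‖s‖ := by nlinarith [norm_nonneg ((t : ℂ) * s)]
    have a5 := mul_le_mul_of_nonneg_left a4 hK0.le
    rw [lt_div_iff₀ (by positivity)] at hs
    rw [e] at a2
    have a6 : |M.p z| ≤ ‖s‖ * (3 * K) :=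
      abs_le.2 ⟨by linarith [a2.2, a3.2], by linarith [a2.1, a3.1]⟩
    linarith
  · by_contra hn
    rw [not_le] at hn
    obtain ⟨sg, hsg, hsp⟩ := i3_exists_sg hp
    obtain ⟨t₁, ht₁⟩ : ∃ t₁, t₁ = γ⁻¹ * |M.p z| := ⟨_, rfl⟩
    have e1 : |M.p z| = γ * t₁ := by rw [ht₁, mul_inv_cancel_left₀ hγ.ne']
    have ht₀ : 0 < t₁ := by rw [ht₁]; positivity
    rw [← ht₁] at hn
    rw [e1] at b3
    have c1 : 2 * K * t₁ ≤ γ := le_of_mul_le_mul_left (by linarith [b3.2.1]) hγ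
    have c2 : 2 * K * t₁ ≤ μ₀ := le_of_mul_le_mul_left (by linarith [b3.2.2]) hγ
    have c3 : ∀ t ∈ Icc (0 : ℝ) t₁, ‖-(t : ℂ) * (sg * u)‖ = t := by
      intro t ht
      rw [norm_mul, norm_mul, norm_neg, (i3_norm_sg hsg).1, hu, Complex.norm_real,
        Real.norm_of_nonneg ht.1, mul_one, mul_one]
    have c4 : ∀ t ∈ Icc (0 : ℝ) t₁, ‖-(t : ℂ) * (sg * u)‖ < 2 * D.F.r := by
      intro t ht
      rw [c3 t ht]
      linarith [ht.2, D.HR_le z]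
    have c5 := i3_sign (φ := fun t : ℝ => sg * M.p (D.F.fl (-(t : ℂ) * (sg * u), z)))
      isPreconnected_Icc (continuousOn_const.mul (M.continuous_p.comp_continuousOn
        (D.i2x_cont (by fun_prop) continuousOn_const c4 fun _ _ => hzU)))
      (fun t ht => by
        refine mul_ne_zero (by rcases hsg with rfl | rfl <;> norm_num)
          ((h0 _ ?_).1 (D.disc_HR z _ (by rw [c3 t ht]; linarith [ht.2])))
        have a1 := (hT _ (c4 t ht)).1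
        rw [c3 t ht, ← dist_eq_norm] at a1
        have a2 := mul_le_mul_of_nonneg_left ht.2 hK0.le
        linarith [dist_triangle (D.F.fl (-(t : ℂ) * (sg * u), z)) z z₀,
          hzd.trans_le (min_le_right _ _)])
      (left_mem_Icc.2 ht₀.le) (right_mem_Icc.2 ht₀.le)
      (by rwa [Complex.ofReal_zero, neg_zero, zero_mul, D.i2x_zero hzU, hsp])
    have m1 := right_mem_Icc.2 ht₀.le
    have a1 := (i3_sg hsg (hT _ (c4 t₁ m1)).2.2).2
    have a2 : sg * (-(t₁ : ℂ) * (sg * u) * M.g i z z).re = -t₁ * (u * M.g i z z).re := by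
      have a3 : -(t₁ : ℂ) * (sg * u) * M.g i z z = ((-t₁ * sg : ℝ) : ℂ) * (u * M.g i z z) := by
        push_cast
        ring
      rw [a3, Complex.re_ofReal_mul]
      linear_combination (-t₁ * (u * M.g i z z).re) * (i3_norm_sg hsg).2
    have a3 := abs_le.1 ((Complex.abs_re_le_norm _).trans (norm_mul_le_of_le hu.le b2))
    rw [mul_sub, Complex.sub_re, huG, Complex.ofReal_re] at a3
    rw [c3 t₁ m1] at a1
    have a4 := mul_le_mul_of_nonneg_left a3.1 ht₀.le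
    have a5 := mul_le_mul_of_nonneg_left c1 ht₀.le
    have a6 := mul_pos hγ ht₀
    nlinarith
  · rw [lt_min_iff, lt_div_iff₀ (by positivity)] at hs1
    have c1 : ∀ t ∈ Icc (0 : ℝ) 1,
        sg * M.p z + γ / 2 * (t * ‖s‖) ≤ sg * M.p (D.F.fl (t * s, z)) := by
      intro t ht
      have a0 := mul_le_of_le_one_left (norm_nonneg s) ht.2
      have a1 := (i3_sg hsg (hT (t * s) (by rw [i3_norm_mul ht]; linarith)).2.2).1
      have a2 := (i3_sg hsg ((Complex.abs_re_le_norm _).trans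
        (norm_mul_le_of_le (le_refl ‖s‖) b2))).1
      rw [mul_sub s, Complex.sub_re] at a2
      rw [i3_norm_mul ht, mul_assoc (t : ℂ), Complex.re_ofReal_mul] at a1
      have a3 := mul_le_mul_of_nonneg_left (show 3 / 8 * (γ * ‖s‖) ≤ sg * (s * M.g i z z).re by
        linarith) ht.1
      have a4 : K * (t * ‖s‖) ≤ γ / 4 := by nlinarith
      have a5 := mul_le_mul_of_nonneg_right a4 (mul_nonneg ht.1 (norm_nonneg s))
      nlinarith
    constructor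
    · refine D.i2x_segment hzU (by linarith) fun t ht e => ?_
      have a1 := c1 t ht
      have a2 : 0 ≤ γ / 2 * (t * ‖s‖) := mul_nonneg (by linarith) (mul_nonneg ht.1 (norm_nonneg s))
      rw [e, mul_zero] at a1
      linarith
    · have a1 := c1 1 (right_mem_Icc.2 zero_le_one)
      rw [Complex.ofReal_one, one_mul, one_mul] at a1
      linarith [mul_le_mul_of_nonneg_right (min_le_left (γ / 2) (1 / (3 * K))) (norm_nonneg s)]

/-- The continuity principle bounds the angular defect of holomorphic discs near the wall. -/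
theorem disc_angle {z₀ : E N} (hz : z₀ ∈ closure M.U) (hU : z₀ ∉ M.U)
    (hg : M.g i z₀ z₀ ≠ 0) : ∃ μ K : ℝ, 0 < μ ∧ 0 < K ∧ ∀ (z : ℂ → E N) (k : ℂ → ℂ) (α : ℝ),
      DiffContOnCl ℂ z (ball 0 1) → DiffContOnCl ℂ k (ball 0 1) →
      (∀ ζ ∈ closedBall (0 : ℂ) 1, z ζ ∈ M.U ∧ dist (z ζ) z₀ < μ ∧ ‖k ζ‖ ≤ 1) → k 0 = 0 →
      0 < α → α ≤ 1 →
      (∀ ζ ∈ sphere (0 : ℂ) 1,
        1 / 4 ≤ (M.g i (z ζ) (z ζ) * Complex.exp (-k ζ) / M.g i (z 0) (z 0)).re ∧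
        ‖M.g i (z ζ) (z ζ) * Complex.exp (-k ζ) / M.g i (z 0) (z 0)‖ ≤ 4) →
      ((∀ ζ ∈ sphere (0 : ℂ) 1,
          α ≤ (M.g i (z ζ) (z ζ) * Complex.exp (-k ζ) / M.g i (z 0) (z 0)).im) ∨
        ∀ ζ ∈ sphere (0 : ℂ) 1,
          (M.g i (z ζ) (z ζ) * Complex.exp (-k ζ) / M.g i (z 0) (z 0)).im ≤ -α) →
      α ^ 2 ≤ K * D.HR (z 0) := by
  obtain ⟨K, hK, hT⟩ := D.taylor
  obtain ⟨μ, r', c, C, hμ, -, -, hc, -, hR⟩ := D.regular_point hz hU hg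
  have hr := D.F.r_pos
  have hK0 : 0 < K := one_pos.trans_le hK
  obtain ⟨μ₀, hμ₀, h0⟩ := i3_near hz hU hg one_pos
  obtain ⟨γ, hγe⟩ : ∃ γ, γ = ‖M.g i z₀ z₀‖ := ⟨_, rfl⟩
  have hγ : 0 < γ := hγe ▸ norm_pos_iff.2 hg
  obtain ⟨κ, hκ, k1, k2, k3⟩ : ∃ κ : ℝ, 0 < κ ∧ κ * (72 * K) ≤ γ ∧ κ ≤ D.F.r / 6 ∧
      κ * (4 * K) ≤ μ₀ := ⟨min (γ / (72 * K)) (min (D.F.r / 6) (μ₀ / (4 * K))), by positivity,
    (le_div_iff₀ (by positivity)).1 (min_le_left _ _), (min_le_right _ _).trans (min_le_left _ _),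
    (le_div_iff₀ (by positivity)).1 ((min_le_right _ _).trans (min_le_right _ _))⟩
  refine ⟨min μ (μ₀ / 2), 16 / (κ * γ * c), by positivity, by positivity,
    fun z k α hzd hkd hb hk0 hα hα1 hq hq' => ?_⟩
  have m0 : (0 : ℂ) ∈ closedBall (0 : ℂ) 1 := mem_closedBall_self zero_le_one
  have hzU : ∀ ζ ∈ closedBall (0 : ℂ) 1, z ζ ∈ M.U := fun ζ hζ => (hb ζ hζ).1
  have hd : ∀ ζ ∈ closedBall (0 : ℂ) 1, dist (z ζ) z₀ < μ₀ / 2 := fun ζ hζ =>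
    (hb ζ hζ).2.1.trans_le (min_le_right _ _)
  have hp : ∀ ζ ∈ closedBall (0 : ℂ) 1, M.p (z ζ) ≠ 0 := fun ζ hζ =>
    (h0 _ (by linarith [hd ζ hζ])).1 (hzU ζ hζ)
  obtain ⟨sg, hsg, hsp⟩ := i3_exists_sg (hp 0 m0)
  have hsg0 : sg ≠ 0 := by rcases hsg with rfl | rfl <;> norm_num
  have hzc := hzd.continuousOn
  rw [closure_ball _ one_ne_zero] at hzc
  have hp0 : 0 < sg * M.p (z 0) := hsp ▸ abs_pos.2 (hp 0 m0)
  have hpos : ∀ ζ ∈ closedBall (0 : ℂ) 1, 0 < sg * M.p (z ζ) := fun ζ hζ =>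
    i3_sign (φ := fun ζ => sg * M.p (z ζ)) (convex_closedBall _ _).isPreconnected
      (continuousOn_const.mul (M.continuous_p.comp_continuousOn hzc))
      (fun ζ hζ => mul_ne_zero hsg0 (hp ζ hζ)) m0 hζ hp0
  have hG : γ / 2 ≤ ‖M.g i (z 0) (z 0)‖ := by
    have a1 := (h0 _ (show dist (z 0) z₀ < μ₀ by linarith [hd 0 m0])).2.1
    rw [norm_sub_rev] at a1
    linarith [norm_sub_norm_le (M.g i z₀ z₀) (M.g i (z 0) (z 0))]
  have hG0 : M.g i (z 0) (z 0) ≠ 0 := norm_pos_iff.1 (by linarith)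
  obtain ⟨u, hu, huG⟩ := i3_unit hG0
  obtain ⟨w, hw, hw1, hw2⟩ : ∃ w : ℂ, ‖w‖ ≤ 2 ∧ w.re = -(α / 8) ∧ ∀ ζ ∈ sphere (0 : ℂ) 1,
      α / 2 ≤ (w * (M.g i (z ζ) (z ζ) * Complex.exp (-k ζ) / M.g i (z 0) (z 0))).re := by
    have a1 : ∀ e : ℝ, |e| = 1 → ‖(⟨-(α / 8), e⟩ : ℂ)‖ ≤ 2 := by
      intro e he
      refine (Complex.norm_le_abs_re_add_abs_im _).trans ?_
      rw [he, abs_neg, abs_of_pos (by positivity)]
      linarith
    have a2 : ∀ ζ ∈ sphere (0 : ℂ) 1, α / 8 *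
        (M.g i (z ζ) (z ζ) * Complex.exp (-k ζ) / M.g i (z 0) (z 0)).re ≤ α / 8 * 4 := fun ζ hζ =>
      mul_le_mul_of_nonneg_left ((Complex.re_le_norm _).trans (hq ζ hζ).2) (by positivity)
    rcases hq' with h | h
    · refine ⟨⟨-(α / 8), -1⟩, a1 _ (by simp), rfl, fun ζ hζ => ?_⟩
      rw [Complex.mul_re]
      linarith [a2 ζ hζ, h ζ hζ]
    · refine ⟨⟨-(α / 8), 1⟩, a1 _ (by simp), rfl, fun ζ hζ => ?_⟩
      rw [Complex.mul_re]
      linarith [a2 ζ hζ, h ζ hζ]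
  obtain ⟨σ, hσ⟩ : ∃ σ, σ = α * κ := ⟨_, rfl⟩
  have hσ0 : 0 < σ := by rw [hσ]; positivity
  have hσ1 : σ ≤ κ := by rw [hσ]; nlinarith
  obtain ⟨s, hs⟩ : ∃ s : ℂ, s = σ * (sg * (w * u)) := ⟨_, rfl⟩
  have hsn : ‖s‖ ≤ 2 * σ := by
    rw [hs, norm_mul, norm_mul, norm_mul, (i3_norm_sg hsg).1, hu, Complex.norm_real,
      Real.norm_of_nonneg hσ0.le]
    nlinarith
  have hsG : ∀ t : ℝ, ∀ X : ℂ, sg * (t * s * X).re =
      t * σ * ‖M.g i (z 0) (z 0)‖ * (w * (X / M.g i (z 0) (z 0))).re := by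
    intro t X
    have a1 : t * s * X = ((t * σ * ‖M.g i (z 0) (z 0)‖ * sg : ℝ) : ℂ) *
        (w * (X / M.g i (z 0) (z 0))) := by
      rw [hs]
      push_cast
      rw [← huG]
      field_simp
    rw [a1, Complex.re_ofReal_mul]
    linear_combination (t * σ * ‖M.g i (z 0) (z 0)‖ * (w * (X / M.g i (z 0) (z 0))).re) *
      (i3_norm_sg hsg).2
  have hn : ∀ t ∈ Icc (0 : ℝ) 1, ∀ ζ ∈ closedBall (0 : ℂ) 1,
      ‖t * s * Complex.exp (-k ζ)‖ ≤ 6 * (t * σ) := by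
    intro t ht ζ hζ
    have a1 : ‖Complex.exp (-k ζ)‖ ≤ 3 := by
      rw [Complex.norm_exp]
      have a2 := (Complex.re_le_norm (-k ζ)).trans ((norm_neg _).trans_le (hb ζ hζ).2.2)
      linarith [Real.exp_le_exp.2 a2, Real.exp_one_lt_d9]
    rw [norm_mul, i3_norm_mul ht]
    exact (mul_le_mul (mul_le_mul_of_nonneg_left hsn ht.1) a1 (norm_nonneg _)
      (mul_nonneg ht.1 (by positivity))).trans_eq (by ring)
  have hn' : ∀ t ∈ Icc (0 : ℝ) 1, ∀ ζ ∈ closedBall (0 : ℂ) 1,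
      ‖t * s * Complex.exp (-k ζ)‖ < 2 * D.F.r := fun t ht ζ hζ => by
    linarith [hn t ht ζ hζ, mul_le_of_le_one_left hσ0.le ht.2]
  have hKσ : K * σ * 72 ≤ γ * α := by rw [hσ]; nlinarith
  have key := D.i2x_principle hzd hzU (s := fun t : ℝ => t * s) (by fun_prop) (by simp)
    (e := fun ζ => Complex.exp (-k ζ))
    (Complex.differentiable_exp.comp_diffContOnCl hkd.neg) hn' (fun τ hτ ζ hζ => by
      have hζ' := sphere_subset_closedBall hζ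
      refine D.i2x_segment (hzU ζ hζ') (hn' τ hτ ζ hζ') fun t ht e => ?_
      have m1 : t * τ ∈ Icc (0 : ℝ) 1 := ⟨mul_nonneg ht.1 hτ.1, mul_le_one₀ ht.2 hτ.1 hτ.2⟩
      have e1 : (t : ℂ) * (τ * s * Complex.exp (-k ζ)) =
          ((t * τ : ℝ) : ℂ) * s * Complex.exp (-k ζ) := by
        push_cast
        ring
      rw [e1] at e
      generalize t * τ = v at m1 e
      have a1 := (i3_sg hsg ((hT _ (M.U_sub (hzU ζ hζ')) (D.bd _ (hzU ζ hζ'))).2 _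
        (hn' v m1 ζ hζ')).2.2).1
      have a2 := hsG v (M.g i (z ζ) (z ζ) * Complex.exp (-k ζ))
      rw [mul_comm (M.g i (z ζ) (z ζ)), ← mul_assoc, mul_comm (Complex.exp (-k ζ))] at a2
      have a3 := mul_le_mul_of_nonneg_left (pow_le_pow_left₀ (norm_nonneg _) (hn v m1 ζ hζ') 2)
        hK0.le
      have a4 := mul_le_mul hG (hw2 ζ hζ) (by positivity) (norm_nonneg _)
      have a5 : 0 ≤ v * σ := mul_nonneg m1.1 hσ0.le
      have a6 := mul_le_mul_of_nonneg_left a4 a5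
      have a7 : K * (v * σ) * 72 ≤ γ * α := by nlinarith [mul_le_of_le_one_left hσ0.le m1.2]
      have a8 := mul_le_mul_of_nonneg_left a7 a5
      rw [e] at a1
      nlinarith [hpos ζ hζ'])
  have hT0 := (hT _ (M.U_sub (hzU 0 m0)) (D.bd _ (hzU 0 m0))).2
  have e0 : ∀ t : ℝ, t * s * Complex.exp (-k 0) = t * s := fun t => by simp [hk0]
  have hn2 : ∀ t ∈ Icc (0 : ℝ) 1, ‖t * s‖ < 2 * D.F.r := fun t ht => e0 t ▸ hn' t ht 0 m0
  have c5 := i3_sign (φ := fun t : ℝ => sg * M.p (D.F.fl (t * s, z 0)))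
    isPreconnected_Icc (continuousOn_const.mul (M.continuous_p.comp_continuousOn
      (D.i2x_cont (by fun_prop) continuousOn_const hn2 fun _ _ => hzU 0 m0)))
    (fun t ht => by
      refine mul_ne_zero hsg0 ((h0 _ ?_).1 (e0 t ▸ key t ht 0 m0))
      have a1 := (hT0 _ (hn2 t ht)).1
      rw [i3_norm_mul ht, ← dist_eq_norm] at a1
      have a2 := mul_le_mul_of_nonneg_left
        ((mul_le_of_le_one_left (norm_nonneg s) ht.2).trans hsn) hK0.le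
      have a3 := mul_le_mul_of_nonneg_left hσ1 hK0.le
      linarith [dist_triangle (D.F.fl (t * s, z 0)) (z 0) z₀, hd 0 m0])
    (left_mem_Icc.2 zero_le_one) (right_mem_Icc.2 zero_le_one)
    (by rwa [Complex.ofReal_zero, zero_mul, D.i2x_zero (hzU 0 m0)])
  have a1 := (i3_sg hsg (hT0 _ (hn2 1 (right_mem_Icc.2 zero_le_one))).2.2).2
  have a2 := hsG 1 (M.g i (z 0) (z 0))
  rw [div_self hG0, mul_one, hw1] at a2
  have a3 := mul_le_mul_of_nonneg_left (pow_le_pow_left₀ (norm_nonneg _) hsn 2) hK0.le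
  have a4 := mul_le_mul_of_nonneg_left hG (mul_pos hσ0 hα).le
  have a5 := mul_le_mul_of_nonneg_left hKσ hσ0.le
  have a6 : 0 < σ * (γ * α) := by positivity
  rw [i3_norm_mul (right_mem_Icc.2 zero_le_one), one_mul] at a1
  have a7 : σ * (γ * α) ≤ 16 * |M.p (z 0)| := by nlinarith
  have a8 := (hR _ (hzU 0 m0) ((hb 0 m0).2.1.trans_le (min_le_left _ _))).2.1
  rw [div_mul_eq_mul_div, le_div_iff₀ (by positivity)]
  rw [hσ] at a7
  linarith [mul_le_mul_of_nonneg_left a7 hc.le]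

end Vale.Agent.P274.WF
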