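import Vale.Agent.P274.I2x

/-! The angular defect of holomorphic discs near a regular boundary point. -/

open Metric Set Filter Topology

namespace Vale.Agent.P274.WF

variable {N n : ℕ} {M : AM N n} {i : Fin n} (D : WF M i)

theorem i3y_sign {α : Type*} [TopologicalSpace α] {Q : Set α} (hQ : IsPreconnected Q)
    {f : α → ℝ} (hf : ContinuousOn f Q) (h : ∀ x ∈ Q, f x ≠ 0) {sg : ℝ} (hsg : sg ≠ 0) {x : α}
    (hx : x ∈ Q) (h0 : 0 < sg * f x) {y : α} (hy : y ∈ Q) : 0 < sg * f y := by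
  by_contra hn
  obtain ⟨w, hw, e⟩ := hQ.intermediate_value hy hx (f := fun x => sg * f x)
    (continuousOn_const.mul hf) ⟨not_lt.1 hn, h0.le⟩
  exact mul_ne_zero hsg (h w hw) e

theorem i3y_disc_angle {z₀ : E N} (hg : M.g i z₀ z₀ ≠ 0) {μ₁ c : ℝ} (hμ : 0 < μ₁) (hc : 0 < c)
    (H : ∀ z ∈ M.U, dist z z₀ < μ₁ → M.p z ≠ 0 ∧ c * |M.p z| ≤ D.HR z) :
    ∃ μ K : ℝ, 0 < μ ∧ 0 < K ∧ ∀ (z : ℂ → E N) (k : ℂ → ℂ) (α : ℝ),
      DiffContOnCl ℂ z (ball 0 1) → DiffContOnCl ℂ k (ball 0 1) →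
      (∀ ζ ∈ closedBall (0 : ℂ) 1, z ζ ∈ M.U ∧ dist (z ζ) z₀ < μ ∧ ‖k ζ‖ ≤ 1) → k 0 = 0 →
      0 < α → α ≤ 1 →
      (∀ ζ ∈ sphere (0 : ℂ) 1,
        1 / 4 ≤ (M.g i (z ζ) (z ζ) * Complex.exp (-k ζ) / M.g i (z 0) (z 0)).re ∧
        ‖M.g i (z ζ) (z ζ) * Complex.exp (-k ζ) / M.g i (z 0) (z 0)‖ ≤ 4) →
      ((∀ ζ ∈ sphere (0 : ℂ) 1,
          α ≤ (M.g i (z ζ) (z ζ) * Complex.exp (-k ζ) / M.g i (z 0) (z 0)).im) ∨
        ∀ ζ ∈ sphere (0 : ℂ) 1,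
          (M.g i (z ζ) (z ζ) * Complex.exp (-k ζ) / M.g i (z 0) (z 0)).im ≤ -α) →
      α ^ 2 ≤ K * D.HR (z 0) := by
  obtain ⟨K, hK, hT⟩ := D.taylor
  have hr := D.F.r_pos
  have hG : 0 < ‖M.g i z₀ z₀‖ / 2 := half_pos (norm_pos_iff.2 hg)
  have hcg : Continuous fun z => ‖M.g i z z‖ :=
    ((M.continuous_g i).comp (continuous_id.prodMk continuous_id)).norm
  obtain ⟨μ₂, hμ₂, h₂⟩ := Metric.eventually_nhds_iff.1
    (hcg.continuousAt.eventually (lt_mem_nhds (half_lt_self (norm_pos_iff.2 hg))))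
  generalize ‖M.g i z₀ z₀‖ / 2 = G at hG h₂
  obtain ⟨L, hL⟩ : ∃ L, L = 6 / G := ⟨_, rfl⟩
  have hL0 : 0 < L := by rw [hL]; positivity
  obtain ⟨σ, hσ, hσ1, hσ2, hσ3⟩ : ∃ σ : ℝ, 0 < σ ∧ σ * (K * L ^ 2) ≤ 1 / 8 ∧ σ * L < 2 * D.F.r ∧
      σ * (K * L) < μ₁ / 2 := by
    have a : ∀ A B : ℝ, 0 < B → ∀ᶠ σ in 𝓝[>] (0 : ℝ), σ * A < B := fun A B hB =>
      mem_nhdsWithin_of_mem_nhds (((continuous_id.mul continuous_const).tendsto' 0 0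
        (by simp)).eventually (gt_mem_nhds hB))
    obtain ⟨σ, ⟨⟨a1, a2⟩, a3⟩, a4⟩ := ((((a (K * L ^ 2) (1 / 8) (by norm_num)).and
      (a L (2 * D.F.r) (by linarith))).and (a (K * L) (μ₁ / 2) (half_pos hμ))).and
      self_mem_nhdsWithin).exists
    exact ⟨σ, a4, a1.le, a2, a3⟩
  refine ⟨min (μ₁ / 2) μ₂, 8 / (σ * c), lt_min (half_pos hμ) hμ₂, by positivity,
    fun z k α hz hk hb hk0 hα hα1 hq him => ?_⟩
  have m0 : (0 : ℂ) ∈ closedBall (0 : ℂ) 1 := mem_closedBall_self zero_le_one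
  have hU : ∀ ζ ∈ closedBall (0 : ℂ) 1, z ζ ∈ M.U := fun ζ hζ => (hb ζ hζ).1
  have hd : ∀ ζ ∈ closedBall (0 : ℂ) 1, dist (z ζ) z₀ < μ₁ / 2 := fun ζ hζ =>
    (hb ζ hζ).2.1.trans_le (min_le_left _ _)
  have hp : ∀ ζ ∈ closedBall (0 : ℂ) 1, M.p (z ζ) ≠ 0 := fun ζ hζ =>
    (H _ (hU ζ hζ) ((hd ζ hζ).trans (half_lt_self hμ))).1
  have hG0 : G < ‖M.g i (z 0) (z 0)‖ := h₂ ((hb 0 m0).2.1.trans_le (min_le_right _ _))
  have hG1 : M.g i (z 0) (z 0) ≠ 0 := norm_pos_iff.1 (hG.trans hG0)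
  obtain ⟨sg, hsg, hsg0⟩ : ∃ sg : ℝ, (sg = 1 ∨ sg = -1) ∧ sg * M.p (z 0) = |M.p (z 0)| := by
    rcases le_total 0 (M.p (z 0)) with h | h
    exacts [⟨1, .inl rfl, by rw [one_mul, abs_of_nonneg h]⟩,
      ⟨-1, .inr rfl, by rw [neg_one_mul, abs_of_nonpos h]⟩]
  have hsg1 : sg ≠ 0 := by rcases hsg with rfl | rfl <;> norm_num
  have hsg2 : sg * sg = 1 := by rcases hsg with rfl | rfl <;> norm_num
  have hsg3 : ∀ x : ℝ, -|x| ≤ sg * x ∧ sg * x ≤ |x| := fun x => by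
    rcases hsg with rfl | rfl <;> constructor <;> linarith [neg_abs_le x, le_abs_self x]
  have hzc := hz.continuousOn
  rw [closure_ball _ one_ne_zero] at hzc
  have hp0 : 0 < sg * M.p (z 0) := hsg0 ▸ abs_pos.2 (hp 0 m0)
  have hpos : ∀ ζ ∈ closedBall (0 : ℂ) 1, 0 < sg * M.p (z ζ) := fun ζ hζ =>
    i3y_sign (convex_closedBall _ _).isPreconnected (M.continuous_p.comp_continuousOn hzc) hp hsg1
      m0 hp0 hζ
  obtain ⟨u, hu1, hu2, hu3⟩ : ∃ u : ℂ, ‖u‖ ≤ 2 ∧ u.re = -(α / 8) ∧ ∀ ζ ∈ sphere (0 : ℂ) 1,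
      α / 2 ≤ (u * (M.g i (z ζ) (z ζ) * Complex.exp (-k ζ) / M.g i (z 0) (z 0))).re := by
    have a : ∀ e : ℝ, |e| ≤ 1 → ‖(⟨-(α / 8), e⟩ : ℂ)‖ ≤ 2 := fun e he =>
      (Complex.norm_le_abs_re_add_abs_im _).trans (by
        simp only [abs_neg]
        rw [abs_of_pos (by positivity : 0 < α / 8)]
        linarith)
    have b : ∀ ζ ∈ sphere (0 : ℂ) 1, α / 8 *
        (M.g i (z ζ) (z ζ) * Complex.exp (-k ζ) / M.g i (z 0) (z 0)).re ≤ α / 8 * 4 :=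
      fun ζ hζ => mul_le_mul_of_nonneg_left ((Complex.re_le_norm _).trans (hq ζ hζ).2)
        (by positivity)
    rcases him with h | h
    · refine ⟨⟨-(α / 8), -1⟩, a _ (by simp), rfl, fun ζ hζ => ?_⟩
      rw [Complex.mul_re]
      linarith [h ζ hζ, b ζ hζ]
    · refine ⟨⟨-(α / 8), 1⟩, a _ (by simp), rfl, fun ζ hζ => ?_⟩
      rw [Complex.mul_re]
      linarith [h ζ hζ, b ζ hζ]
  obtain ⟨w, hw⟩ : ∃ w : ℂ, w = ((α * σ * sg : ℝ) : ℂ) * u / M.g i (z 0) (z 0) := ⟨_, rfl⟩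
  have hw1 : 3 * ‖w‖ ≤ α * σ * L := by
    rw [hw, norm_div, norm_mul, Complex.norm_real, Real.norm_eq_abs, abs_mul,
      abs_of_pos (mul_pos hα hσ), hL]
    have a1 : |sg| = 1 := by rcases hsg with rfl | rfl <;> norm_num
    rw [a1, mul_one]
    have a2 : α * σ * ‖u‖ / ‖M.g i (z 0) (z 0)‖ ≤ α * σ * 2 / G := by gcongr
    calc _ ≤ 3 * (α * σ * 2 / G) := by gcongr
      _ = _ := by ring
  have hn : ∀ τ ∈ Icc (0 : ℝ) 1, ∀ ζ ∈ closedBall (0 : ℂ) 1,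
      ‖(τ : ℂ) * w * Complex.exp (-k ζ)‖ ≤ τ * (α * σ * L) := fun τ hτ ζ hζ => by
    have a1 : ‖Complex.exp (-k ζ)‖ ≤ 3 := (Complex.norm_exp_le_exp_norm _).trans
      ((Real.exp_le_exp.2 (by rw [norm_neg]; exact (hb ζ hζ).2.2)).trans Real.exp_one_lt_three.le)
    rw [mul_assoc, norm_mul, Complex.norm_real, Real.norm_of_nonneg hτ.1, norm_mul]
    refine mul_le_mul_of_nonneg_left (le_trans ?_ hw1) hτ.1
    rw [mul_comm]
    gcongr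
  have hσL : ∀ τ ∈ Icc (0 : ℝ) 1, τ * (α * σ * L) ≤ σ * L := fun τ hτ => by
    have : τ * α ≤ 1 := mul_le_one₀ hτ.2 hα.le hα1
    calc _ = τ * α * (σ * L) := by ring
      _ ≤ 1 * (σ * L) := by gcongr
      _ = _ := one_mul _
  have hr' : ∀ τ ∈ Icc (0 : ℝ) 1, ∀ ζ ∈ closedBall (0 : ℂ) 1,
      ‖(τ : ℂ) * w * Complex.exp (-k ζ)‖ < 2 * D.F.r := fun τ hτ ζ hζ =>
    ((hn τ hτ ζ hζ).trans (hσL τ hτ)).trans_lt hσ2
  have hT' : ∀ τ ∈ Icc (0 : ℝ) 1, ∀ ζ ∈ closedBall (0 : ℂ) 1,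
      |sg * M.p (D.F.fl (τ * w * Complex.exp (-k ζ), z ζ)) - sg * M.p (z ζ) - 2 * (τ * (α * σ)) *
        (u * (M.g i (z ζ) (z ζ) * Complex.exp (-k ζ) / M.g i (z 0) (z 0))).re| ≤
        τ * (α * σ) * (α / 8) := fun τ hτ ζ hζ => by
    have a1 := ((hT _ (M.U_sub (hU ζ hζ)) (D.bd _ (hU ζ hζ))).2 _ (hr' τ hτ ζ hζ)).2.2
    have a2 : (τ : ℂ) * w * Complex.exp (-k ζ) * M.g i (z ζ) (z ζ) =
        ((τ * (α * σ) * sg : ℝ) : ℂ) *
          (u * (M.g i (z ζ) (z ζ) * Complex.exp (-k ζ) / M.g i (z 0) (z 0))) := by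
      rw [hw]
      push_cast
      ring
    rw [a2, Complex.re_ofReal_mul] at a1
    have a3 : K * ‖(τ : ℂ) * w * Complex.exp (-k ζ)‖ ^ 2 ≤ τ * (α * σ) * (α / 8) := by
      have b1 : τ * (σ * (K * L ^ 2)) ≤ 1 / 8 :=
        (mul_le_of_le_one_left (by positivity) hτ.2).trans hσ1
      have b0 := hτ.1
      calc _ ≤ K * (τ * (α * σ * L)) ^ 2 := by gcongr; exact hn τ hτ ζ hζ
        _ = τ * (α * σ) * (α * (τ * (σ * (K * L ^ 2)))) := by ring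
        _ ≤ τ * (α * σ) * (α * (1 / 8)) := by gcongr
        _ = _ := by ring
    generalize (u * (M.g i (z ζ) (z ζ) * Complex.exp (-k ζ) / M.g i (z 0) (z 0))).re = R at a1 ⊢
    generalize M.p (D.F.fl (τ * w * Complex.exp (-k ζ), z ζ)) = A at a1 ⊢
    have a4 : sg * A - sg * M.p (z ζ) - 2 * (τ * (α * σ)) * R =
        sg * (A - M.p (z ζ) - 2 * (τ * (α * σ) * sg * R)) := by
      linear_combination (2 * (τ * (α * σ)) * R) * hsg2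
    rw [a4]
    exact (abs_le.2 (hsg3 _)).trans (a1.trans a3)
  have hin := D.i2x_principle hz hU (s := fun τ : ℝ => (τ : ℂ) * w) (by fun_prop) (by simp)
    (e := fun ζ => Complex.exp (-k ζ))
    (Complex.differentiable_exp.comp_diffContOnCl hk.neg) hr' (fun τ hτ ζ hζ => by
      have hζ' := sphere_subset_closedBall hζ
      refine D.i2x_segment (hU ζ hζ') (hr' τ hτ ζ hζ') fun t ht e => ?_
      have a0 : t * τ ∈ Icc (0 : ℝ) 1 := ⟨mul_nonneg ht.1 hτ.1, mul_le_one₀ ht.2 hτ.1 hτ.2⟩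
      have a1 := (abs_le.1 (hT' _ a0 ζ hζ')).1
      rw [Complex.ofReal_mul, mul_assoc (t : ℂ), mul_assoc (t : ℂ), e, mul_zero] at a1
      have a2 : 0 ≤ t * τ * (α * σ) := mul_nonneg a0.1 (by positivity)
      have a3 := mul_le_mul_of_nonneg_left (hu3 ζ hζ) a2
      have a4 := mul_nonneg a2 hα.le
      linarith [hpos ζ hζ'])
  have hne : ∀ τ ∈ Icc (0 : ℝ) 1, M.p (D.F.fl (τ * w * Complex.exp (-k 0), z 0)) ≠ 0 :=
    fun τ hτ => (H _ (hin τ hτ 0 m0) (by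
      have a1 := ((hT _ (M.U_sub (hU 0 m0)) (D.bd _ (hU 0 m0))).2 _ (hr' τ hτ 0 m0)).1
      have a2 : K * ‖(τ : ℂ) * w * Complex.exp (-k 0)‖ ≤ K * (σ * L) :=
        mul_le_mul_of_nonneg_left ((hn τ hτ 0 m0).trans (hσL τ hτ)) (by linarith)
      rw [← dist_eq_norm] at a1
      linarith [dist_triangle (D.F.fl (τ * w * Complex.exp (-k 0), z 0)) (z 0) z₀, hd 0 m0])).1
  have h1 := i3y_sign isPreconnected_Icc (M.continuous_p.comp_continuousOn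
    (D.i2x_cont (s := fun τ : ℝ => (τ : ℂ) * w * Complex.exp (-k 0)) (by fun_prop)
      continuousOn_const (fun τ hτ => hr' τ hτ 0 m0) fun _ _ => hU 0 m0)) hne hsg1
    (left_mem_Icc.2 zero_le_one) (by
      simpa only [Function.comp_apply, Complex.ofReal_zero, zero_mul, D.i2x_zero (hU 0 m0)]
        using hp0) (right_mem_Icc.2 zero_le_one)
  have h2 := (abs_le.1 (hT' 1 (right_mem_Icc.2 zero_le_one) 0 m0)).2
  have h3 : (u * (M.g i (z 0) (z 0) * Complex.exp (-k 0) / M.g i (z 0) (z 0))).re = -(α / 8) := by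
    rw [hk0, neg_zero, Complex.exp_zero, mul_one, div_self hG1, mul_one, hu2]
  rw [h3, hsg0] at h2
  have h4 := (H _ (hU 0 m0) ((hd 0 m0).trans (half_lt_self hμ))).2
  have h5 : α ^ 2 * σ ≤ 8 * |M.p (z 0)| := by
    simp only [Function.comp_apply] at h1
    linarith
  rw [div_mul_eq_mul_div, le_div_iff₀ (by positivity)]
  nlinarith [mul_le_mul_of_nonneg_left h5 hc.le]

end Vale.Agent.P274.WF
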