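import Vale.Agent.P274.I1

/-! Basic properties of the pulled back flows. -/

open Metric Set Filter Topology

namespace Vale.Agent.P274.FD

variable {N n : ℕ} {M : AM N n} {i : Fin n} (D : FD M i)

theorem z_mem (j : ℕ) (x : M.X) : D.z j x ∈ M.U := (D.a j • x).2

theorem hol_z (j : ℕ) : M.Hol (D.z j) := M.hol_smul _

theorem i4_bd (j : ℕ) (x : M.X) : ‖D.z j x‖ ≤ D.R₀ := D.bd _ (D.z_mem j x)

theorem i4_locBdd : M.LocBdd (D.𝒰 : Filter ℕ) D.z :=
  BM.locBdd_of_bound (C := D.R₀) (Eventually.of_forall D.i4_bd)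

theorem hol_φ : M.Hol D.φ := by
  exact (BM.vitali_hol (Eventually.of_forall D.hol_z) D.i4_locBdd D.lim).1

theorem lim_unif : TendstoLocallyUniformly D.z D.φ D.𝒰 := by
  exact (BM.vitali_hol (Eventually.of_forall D.hol_z) D.i4_locBdd D.lim).2.1

theorem lim_moving {xs : ℕ → M.X} {x : M.X} (h : Tendsto xs D.𝒰 (𝓝 x)) :
    Tendsto (fun j => D.z j (xs j)) D.𝒰 (𝓝 (D.φ x)) := by
  exact BM.vitali_moving (Eventually.of_forall D.hol_z) D.i4_locBdd D.lim h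

theorem φ_mem_closure (x : M.X) : D.φ x ∈ closure M.U := by
  exact mem_closure_of_tendsto (D.lim x) (Eventually.of_forall fun j => D.z_mem j x)

theorem φ_mem_Z (x : M.X) : D.φ x ∈ M.A.Z := by
  exact closure_minimal M.U_sub M.A.Z_closed (D.φ_mem_closure x)

theorem norm_φ_le (x : M.X) : ‖D.φ x‖ ≤ D.R₀ := by
  exact le_of_tendsto' (D.lim x).norm fun j => D.i4_bd j x

theorem eventually_near {ω : M.X} {μ : ℝ} (hμ : 0 < μ) :
    ∃ t ∈ 𝓝 ω, ∀ᶠ j in (D.𝒰 : Filter ℕ), ∀ x ∈ t, dist (D.z j x) (D.φ ω) < μ := by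
  obtain ⟨t, ht, h⟩ := Metric.tendstoLocallyUniformly_iff.1 D.lim_unif _ (half_pos hμ) ω
  have h1 := Metric.tendsto_nhds.1 (D.hol_φ.continuous.tendsto ω) _ (half_pos hμ)
  refine ⟨_, inter_mem ht h1, h.mono fun j hj x hx => ?_⟩
  have a1 := hj x hx.1
  have a2 : dist (D.φ x) (D.φ ω) < μ / 2 := hx.2
  linarith [dist_triangle_left (D.z j x) (D.φ ω) (D.φ x)]

theorem sesq_g (j : ℕ) : M.Sesq (fun x y => M.g i (D.z j x) (D.z j y)) := by
  simpa only [star_star] using BM.sesq_of_entire (M.g_entire i) (D.hol_z j)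

theorem sesq_gφ : M.Sesq (fun x y => M.g i (D.φ x) (D.φ y)) := by
  simpa only [star_star] using BM.sesq_of_entire (M.g_entire i) D.hol_φ

theorem hol_Wf (j : ℕ) : M.Hol (D.Wf j) := by
  intro x
  exact BM.HolAt.comp (a := fun x => D.a j • x)
    (f := fun y => M.df (fun y => M.ι ((D.a j)⁻¹ • y)) y (M.A.V i y.1))
    (BM.HolAt.df_apply (M.hol_smul _ _) (M.hol_V i _) (Eventually.of_forall (M.V_mem_T i)))
    (M.hol_smul _ x)

theorem Wf_mem_T (j : ℕ) (x : M.X) : D.Wf j x ∈ M.T x := by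
  have h := BM.df_mem_T (a := fun y => (D.a j)⁻¹ • y) (x := D.a j • x) (M.hol_smul _ _)
    (M.A.V i (D.z j x))
  rw [inv_smul_smul] at h
  exact h

theorem df_z_Wf (j : ℕ) (x : M.X) : M.df (D.z j) x (D.Wf j x) = M.A.V i (D.z j x) := by
  have h := BM.df_aut_inv (D.a j)⁻¹ (D.a j • x) (M.V_mem_T i (D.a j • x))
  rw [inv_inv, inv_smul_smul] at h
  exact h

theorem i4_ball (j : ℕ) (x : M.X) : D.z j x ∈ ball (0 : E N) (D.R₀ + 1) :=
  mem_ball_zero_iff.2 ((D.i4_bd j x).trans_lt (lt_add_one _))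

theorem i4_mv_eq {j : ℕ} {x y : M.X} {s : ℂ} (h : D.F.fl (s, D.z j x) = D.z j y) :
    D.mv j x s = y := by
  rw [mv, h, z, M.toX_ι, inv_smul_smul]

theorem mv_zero (j : ℕ) (x : M.X) : D.mv j x 0 = x := by
  exact D.i4_mv_eq (D.F.zero _ (D.i4_ball j x))

theorem z_mv {j : ℕ} {x : M.X} {s : ℂ} (h : D.F.fl (s, D.z j x) ∈ M.U) :
    D.z j (D.mv j x s) = D.F.fl (s, D.z j x) := by
  rw [z, mv, smul_inv_smul, M.ι_toX h]

theorem mv_add {j : ℕ} {x : M.X} {s s' : ℂ} (hs : ‖s‖ < D.F.r) (hs' : ‖s'‖ < D.F.r)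
    (h : D.F.fl (s', D.z j x) ∈ M.U) : D.mv j (D.mv j x s') s = D.mv j x (s + s') := by
  rw [mv, D.z_mv h, D.F.add _ (D.i4_bd j x) s s' hs hs', mv]

/-- The flow stays in `U` near a point of `U`. -/
theorem i4_near {α : Type*} {l : Filter α} {j : ℕ} {h : α → M.X} {s : α → ℂ} {x : M.X} {s₀ : ℂ}
    (hh : Tendsto h l (𝓝 x)) (hs : Tendsto s l (𝓝 s₀)) (hr : ‖s₀‖ < 2 * D.F.r)
    (hU : D.F.fl (s₀, D.z j x) ∈ M.U) :
    Tendsto (fun q => D.F.fl (s q, D.z j (h q))) l (𝓝 (D.F.fl (s₀, D.z j x))) ∧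
      ∀ᶠ q in l, D.F.fl (s q, D.z j (h q)) ∈ M.U := by
  have h1 : Tendsto (fun q => D.F.fl (s q, D.z j (h q))) l (𝓝 (D.F.fl (s₀, D.z j x))) :=
    (D.analyticAt_fl (D.i4_bd j x) hr).continuousAt.tendsto.comp
      (hs.prodMk_nhds (((D.hol_z j).continuous.tendsto x).comp hh))
  refine ⟨h1, ?_⟩
  filter_upwards [h1.eventually (M.eventually_mem_U hU), hs.norm.eventually (gt_mem_nhds hr)]
    with q a1 a2
  exact a1 (D.fl_mem_Z (M.U_sub (D.z_mem _ _)) (D.i4_bd _ _) a2)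

theorem analyticAt_mv {P : Type*} [NormedAddCommGroup P] [NormedSpace ℂ P] {j : ℕ}
    {h : P → M.X} {s : P → ℂ} {q : P} (hh : AnalyticAt ℂ (M.ι ∘ h) q) (hs : AnalyticAt ℂ s q)
    (hr : ‖s q‖ < 2 * D.F.r) (hU : D.F.fl (s q, D.z j (h q)) ∈ M.U) :
    AnalyticAt ℂ (fun q => M.ι (D.mv j (h q) (s q))) q := by
  have hc : ContinuousAt h q := (Topology.IsInducing.subtypeVal.continuousAt_iff).2 hh.continuousAt
  have h1 := (D.i4_near hc hs.continuousAt hr hU).2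
  have h2 : AnalyticAt ℂ (fun q => D.F.fl (s q, D.z j (h q))) q :=
    AnalyticAt.comp (g := D.F.fl) (f := fun q => (s q, D.z j (h q)))
      (D.analyticAt_fl (D.i4_bd j _) hr) (hs.prod ((D.hol_z j _).analyticAt_comp hh))
  have h3 : AnalyticAt ℂ (M.ι ∘ fun q => M.toX (D.F.fl (s q, D.z j (h q)))) q :=
    h2.congr (h1.mono fun q hq => (M.ι_toX hq).symm)
  exact BM.HolAt.analyticAt_comp (f := fun y => M.ι ((D.a j)⁻¹ • y)) (M.hol_smul _ _) h3

theorem i4_tendsto_mv {α : Type*} {l : Filter α} {j : ℕ} {h : α → M.X} {s : α → ℂ} {x : M.X}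
    {s₀ : ℂ} (hh : Tendsto h l (𝓝 x)) (hs : Tendsto s l (𝓝 s₀)) (hr : ‖s₀‖ < 2 * D.F.r)
    (hU : D.F.fl (s₀, D.z j x) ∈ M.U) :
    Tendsto (fun q => D.mv j (h q) (s q)) l (𝓝 (D.mv j x s₀)) := by
  obtain ⟨h1, h2⟩ := D.i4_near hh hs hr hU
  refine ((BM.continuous_smul_aut (D.a j)⁻¹).tendsto _).comp ?_
  refine tendsto_subtype_rng.2 ?_
  rw [show (M.toX (D.F.fl (s₀, D.z j x))).1 = _ from M.ι_toX hU]
  exact h1.congr' (h2.mono fun q hq => (M.ι_toX hq).symm)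

theorem continuousAt_mv {α : Type*} [TopologicalSpace α] {j : ℕ} {h : α → M.X} {s : α → ℂ}
    {Q : Set α} {q : α} (hh : ContinuousWithinAt h Q q) (hs : ContinuousWithinAt s Q q)
    (hr : ‖s q‖ < 2 * D.F.r) (hU : D.F.fl (s q, D.z j (h q)) ∈ M.U) :
    ContinuousWithinAt (fun q => D.mv j (h q) (s q)) Q q := by
  exact D.i4_tendsto_mv hh hs hr hU

theorem hasDerivAt_mv {j : ℕ} {x : M.X} {s : ℂ} (hr : ‖s‖ < 2 * D.F.r)
    (hU : D.F.fl (s, D.z j x) ∈ M.U) :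
    HasDerivAt (fun s => M.ι (D.mv j x s)) (D.Wf j (D.mv j x s)) s := by
  have h1 := (D.i4_near (h := fun _ => x) tendsto_const_nhds tendsto_id hr hU).2
  have h2 : HasDerivAt (M.ι ∘ fun s => M.toX (D.F.fl (s, D.z j x)))
      (M.A.V i (D.F.fl (s, D.z j x))) s :=
    (D.F.ode _ (D.i4_ball j x) s (mem_ball_zero_iff.2 hr)).congr_of_eventuallyEq
      (h1.mono fun q hq => M.ι_toX hq)
  have h3 := BM.HolAt.hasDerivAt_comp (f := fun y => M.ι ((D.a j)⁻¹ • y)) (M.hol_smul _ _) h2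
  rw [Wf, D.z_mv hU, mv, smul_inv_smul]
  exact h3

theorem H_pos (j : ℕ) (x : M.X) : 0 < D.H j x := by
  exact D.HR_pos (D.z_mem j x)

theorem i4_deriv {j : ℕ} {x : M.X} {s : ℂ} (hs : ‖s‖ < D.H j x) :
    HasDerivAt (fun s => M.ι (D.mv j x s)) (D.Wf j (D.mv j x s)) s := by
  refine D.hasDerivAt_mv ?_ (D.disc_HR _ s hs)
  have h1 : D.H j x ≤ D.F.r := D.HR_le _
  linarith [D.F.r_pos]

theorem i4_diffOn (j : ℕ) (x : M.X) :
    DifferentiableOn ℂ (fun s => M.ι (D.mv j x s)) (ball 0 (D.H j x)) := fun _ hs =>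
  (D.i4_deriv (mem_ball_zero_iff.1 hs)).differentiableAt.differentiableWithinAt

theorem norm_Wf_mul_H (j : ℕ) (x : M.X) : ‖D.Wf j x‖ * D.H j x ≤ 2 * D.R₀ := by
  have h1 := P278F.norm_fderiv_le (D.H_pos j x) (D.i4_diffOn j x)
    (fun s _ => D.bd _ (D.mv j x s).2)
  have h2 := (D.i4_deriv (j := j) (x := x) (s := 0) (by simpa using D.H_pos j x)).deriv
  rw [← norm_deriv_eq_norm_fderiv, h2, mv_zero, le_div_iff₀ (D.H_pos j x)] at h1
  exact h1

theorem norm_mv_sub {j : ℕ} {x : M.X} {s : ℂ} (hs : ‖s‖ < D.H j x) :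
    ‖M.ι (D.mv j x s) - M.ι x‖ ≤ 2 * D.R₀ / D.H j x * ‖s‖ := by
  have h1 := P278F.norm_sub_le_of_bound (D.i4_diffOn j x) (fun s _ => D.bd _ (D.mv j x s).2)
    (mem_ball_zero_iff.2 hs)
  rwa [mv_zero, sub_zero] at h1

/-- A bound on the field gives a lower bound on the Hartogs radius. -/
theorem H_ge_of_Wf {ω : M.X} {t : Set M.X} (ht : t ∈ 𝓝 ω) : ∃ t' ∈ 𝓝 ω, ∃ c : ℝ, 0 < c ∧
    ∀ (j : ℕ) (Λ : ℝ), 1 ≤ Λ → (∀ y ∈ t, ‖D.Wf j y‖ ≤ Λ) → ∀ y ∈ t', c / Λ ≤ D.H j y := by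
  obtain ⟨K, hK, hKt, hKc⟩ := local_compact_nhds ht
  obtain ⟨δ, hδ, hb⟩ := Metric.mem_nhds_iff.1 hK
  have hr := D.F.r_pos
  refine ⟨ball ω (δ / 2), ball_mem_nhds _ (half_pos hδ), min (δ / 2) D.F.r,
    lt_min (half_pos hδ) hr, fun j Λ hΛ hW y hy => ?_⟩
  have hΛ0 : 0 < Λ := one_pos.trans_le hΛ
  have hc : min (δ / 2) D.F.r / Λ ≤ D.F.r :=
    (div_le_self (lt_min (half_pos hδ) hr).le hΛ).trans (min_le_right _ _)
  refine D.le_HR hc fun s hs => ?_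
  have hs1 : Λ * ‖s‖ < δ / 2 := ((lt_div_iff₀' hΛ0).1 hs).trans_le (min_le_left _ _)
  have hs2 : ∀ τ ∈ Icc (0 : ℝ) 1, ‖(τ : ℂ) * s‖ < 2 * D.F.r := by
    intro τ hτ
    rw [norm_mul, Complex.norm_real, Real.norm_of_nonneg hτ.1]
    nlinarith [mul_le_of_le_one_left (norm_nonneg s) hτ.2]
  have hcs : Continuous (fun τ : ℝ => (τ : ℂ) * s) := by fun_prop
  have hcl : IsClosed (D.z j '' K) := (hKc.image (D.hol_z j).continuous).isClosed
  have hγ : ContinuousOn (fun τ : ℝ => D.F.fl (τ * s, D.z j y)) (Icc 0 1) := fun τ hτ =>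
    (ContinuousAt.comp (g := D.F.fl) (f := fun τ : ℝ => ((τ : ℂ) * s, D.z j y))
      (D.analyticAt_fl (D.i4_bd j y) (hs2 τ hτ)).continuousAt
      (hcs.prodMk continuous_const).continuousAt).continuousWithinAt
  have hmem : ∀ τ : ℝ, D.F.fl (τ * s, D.z j y) ∈ D.z j '' K →
      D.F.fl (τ * s, D.z j y) ∈ M.U ∧ D.mv j y (τ * s) ∈ K := by
    rintro τ ⟨y', h1, h2⟩
    exact ⟨h2 ▸ D.z_mem j y', by rwa [D.i4_mv_eq h2.symm]⟩
  have key : Icc (0 : ℝ) 1 ⊆ {τ : ℝ | D.F.fl (τ * s, D.z j y) ∈ D.z j '' K} := by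
    refine IsClosed.Icc_subset_of_forall_mem_nhdsGT_of_Icc_subset ?_ ?_ fun τ hτ hsub => ?_
    · rw [inter_comm]
      exact hγ.preimage_isClosed_of_isClosed isClosed_Icc hcl
    · refine ⟨y, hb (ball_subset_ball (half_le_self hδ.le) hy), ?_⟩
      rw [Complex.ofReal_zero, zero_mul, D.F.zero _ (D.i4_ball j y)]
    · have hd : ∀ u ∈ Icc 0 τ, HasDerivWithinAt (fun u : ℝ => M.ι (D.mv j y (u * s)))
          (s • D.Wf j (D.mv j y (u * s))) (Icc 0 τ) u := by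
        intro u hu
        have a1 := D.hasDerivAt_mv (hs2 u ⟨hu.1, hu.2.trans hτ.2.le⟩) (hmem u (hsub hu)).1
        have a2 : HasDerivAt (fun u : ℝ => (u : ℂ) * s) s u := by
          simpa using (Complex.ofRealCLM.hasDerivAt (x := u)).mul_const s
        exact (a1.scomp u a2).hasDerivWithinAt
      have h1 := (convex_Icc 0 τ).norm_image_sub_le_of_norm_hasDerivWithin_le (C := Λ * ‖s‖) hd
        (fun u hu => by
          rw [norm_smul, mul_comm]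
          exact mul_le_mul_of_nonneg_right (hW _ (hKt (hmem u (hsub hu)).2)) (norm_nonneg _))
        (left_mem_Icc.2 hτ.1) (right_mem_Icc.2 hτ.1)
      rw [Complex.ofReal_zero, zero_mul, mv_zero, sub_zero, Real.norm_of_nonneg hτ.1] at h1
      have h2 : D.mv j y (τ * s) ∈ ball y (δ / 2) := by
        rw [mem_ball, Subtype.dist_eq, dist_eq_norm]
        exact h1.trans_lt ((mul_le_of_le_one_right (by positivity) hτ.2.le).trans_lt hs1)
      have hτ' : τ ∈ Icc (0 : ℝ) 1 := ⟨hτ.1, hτ.2.le⟩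
      have hU := (hmem τ (hsub (right_mem_Icc.2 hτ.1))).1
      have h3 := (D.i4_near (h := fun _ => y) tendsto_const_nhds (hcs.tendsto τ) (hs2 τ hτ') hU).2
      have h4 := (D.i4_tendsto_mv (h := fun _ => y) tendsto_const_nhds (hcs.tendsto τ)
        (hs2 τ hτ') hU).eventually (isOpen_ball.mem_nhds h2)
      refine mem_nhdsWithin_of_mem_nhds ?_
      filter_upwards [h3, h4] with u a1 a2
      refine ⟨_, hb ?_, D.z_mv a1⟩
      rw [mem_ball] at hy ⊢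
      linarith [dist_triangle (D.mv j y (u * s)) y ω]
  have h5 := (hmem 1 (key (right_mem_Icc.2 zero_le_one))).1
  rwa [Complex.ofReal_one, one_mul] at h5

theorem re_β_le {j : ℕ} {x : M.X} (h : M.g i (D.z j x) (D.z j D.x₀) ≠ 0) :
    |(D.β j x * M.g i (D.z j x) (D.z j x)).re| ≤
      ‖D.Ef j x x‖ / ‖M.g i (D.z j x) (D.z j D.x₀)‖ ^ 2 := by
  unfold β βf Ef
  generalize M.g i (D.z j x) (D.z j D.x₀) = b at h ⊢
  generalize M.g i (D.z j x) (D.z j x) = G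
  generalize M.g i (D.z j D.x₀) (D.z j x) = c
  generalize M.g i (D.z j D.x₀) (D.z j D.x₀) = a
  obtain ⟨P, hP⟩ : ∃ P, P = G * star c * star b * a := ⟨_, rfl⟩
  have hb : (0 : ℝ) < ‖b‖ ^ 2 := by positivity
  have e1 : star G * b * c * star a = starRingEnd ℂ P := by
    rw [hP]
    simp only [map_mul, Complex.star_def, Complex.conj_conj]
    ring
  have e2 : Complex.I * a * star c / b * G = Complex.I * P / ((‖b‖ ^ 2 : ℝ) : ℂ) := by
    have h1 : starRingEnd ℂ b ≠ 0 := (map_ne_zero _).2 h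
    rw [hP, Complex.ofReal_pow, ← Complex.mul_conj']
    simp only [Complex.star_def]
    field_simp
  rw [e1, e2, ← hP, Complex.div_ofReal_re, abs_div, abs_of_pos hb, Complex.sub_conj]
  refine div_le_div_of_nonneg_right ?_ hb.le
  simp only [Complex.mul_re, Complex.I_re, Complex.I_im, zero_mul, one_mul, zero_sub, abs_neg,
    norm_mul, Complex.norm_I, mul_one, Complex.norm_real, Real.norm_eq_abs, abs_two]
  linarith [abs_nonneg P.im]

theorem i4_holAt_βf {a : M.X → E N} (ha : M.Hol a) {x : M.X} {z₀ : E N}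
    (h : M.g i (a x) z₀ ≠ 0) : M.HolAt (fun x => D.βf (a x) z₀) x := by
  have hp := (ha x).prodMk (M.holAt_const (star z₀) x)
  have h1 := hp.comp_analytic (P278F.analyticOnNhd_of_differentiableOn isOpen_univ
    (M.g_entire i).differentiableOn _ (mem_univ _))
  have h2 := hp.comp_analytic (P278F.analyticOnNhd_of_differentiableOn isOpen_univ
    (M.g_star_entire i).differentiableOn _ (mem_univ _))
  simp only [star_star] at h1 h2
  exact ((M.holAt_const _ x).mul h2).div h1 h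

theorem holAt_β {j : ℕ} {x : M.X} (h : M.g i (D.z j x) (D.z j D.x₀) ≠ 0) :
    M.HolAt (D.β j) x := by
  exact D.i4_holAt_βf (D.hol_z j) h

theorem holAt_βl {x : M.X} (h : M.g i (D.φ x) (D.φ D.x₀) ≠ 0) : M.HolAt D.βl x := by
  exact D.i4_holAt_βf D.hol_φ h

theorem i4_cont_βf {z z₀ : E N} (h : M.g i z z₀ ≠ 0) :
    ContinuousAt (fun q : E N × E N => D.βf q.1 q.2) (z, z₀) := by
  have hg := M.continuous_g i
  exact ((continuous_const.mul (hg.comp (continuous_snd.prodMk continuous_snd))).mul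
    (hg.comp (continuous_snd.prodMk continuous_fst)).star).continuousAt.div hg.continuousAt h

theorem tendsto_β {x : M.X} (h : M.g i (D.φ x) (D.φ D.x₀) ≠ 0) :
    Tendsto (fun j => D.β j x) D.𝒰 (𝓝 (D.βl x)) := by
  have h1 : Tendsto (fun j => (D.z j x, D.z j D.x₀)) D.𝒰 (𝓝 (D.φ x, D.φ D.x₀)) :=
    (D.lim x).prodMk_nhds (D.lim D.x₀)
  have h2 := (D.i4_cont_βf h).tendsto.comp h1
  simpa only [Function.comp_def, β, βl] using h2

/-- Near a point where the denominator does not vanish the directions are uniformly bounded. -/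
theorem β_bound {ω : M.X} (h : M.g i (D.φ ω) (D.φ D.x₀) ≠ 0) : ∃ t ∈ 𝓝 ω, ∃ d b : ℝ, 0 < d ∧
    1 ≤ b ∧ ∀ᶠ j in (D.𝒰 : Filter ℕ), ∀ x ∈ t,
      d ≤ ‖M.g i (D.z j x) (D.z j D.x₀)‖ ∧ ‖D.β j x‖ ≤ b := by
  have hd := norm_pos_iff.2 h
  have h1 := ((M.continuous_g i).norm.tendsto (D.φ ω, D.φ D.x₀)).eventually
    (lt_mem_nhds (half_lt_self hd))
  have h2 := (D.i4_cont_βf h).norm.tendsto.eventually (gt_mem_nhds (lt_add_one _))
  obtain ⟨μ, hμ, h3⟩ := Metric.eventually_nhds_iff.1 (h1.and h2)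
  obtain ⟨t, ht, h4⟩ := D.eventually_near (ω := ω) hμ
  refine ⟨t, ht, _, _, half_pos hd, le_add_of_nonneg_left (norm_nonneg (D.βl ω)), ?_⟩
  filter_upwards [h4, Metric.tendsto_nhds.1 (D.lim D.x₀) μ hμ] with j a1 a2 x hx
  have a3 := h3 (y := (D.z j x, D.z j D.x₀)) (max_lt (a1 x hx) a2)
  exact ⟨a3.1.le, a3.2.le⟩

end Vale.Agent.P274.FD
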