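import Vale.Agent.P274.I5x

/-! Existence of a scale near a generic point. -/

open Metric Set Filter Topology

namespace Vale.Agent.P274

theorem surj_of_close {n : ℕ} {f : E n → E n} {s η : ℝ} (hs : 0 < s) (hη : η ≤ s / 8)
    (hf : DifferentiableOn ℂ f (ball 0 (2 * s)))
    (h : ∀ w ∈ ball (0 : E n) (2 * s), ‖f w - w‖ ≤ η) :
    ∀ y ∈ ball (0 : E n) (s / 2), ∃ w ∈ ball (0 : E n) s, f w = y := by
  exact i5_surj hs hη hf h

namespace FD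

variable {N n : ℕ} {M : AM N n} {i : Fin n} (D : FD M i)

/-- Choice of the scale by the intermediate value theorem: moving inward by `ε j` displaces the
chart ball of radius `2 s` by exactly `η`. -/
theorem exists_ivt {ω : M.X} (h : M.g i (D.φ ω) (D.φ ω) ≠ 0) :
    ∃ (s₀ : ℝ) (u : ℂ) (c : ℝ), 0 < s₀ ∧ 3 * s₀ < M.r ω ∧ ‖u‖ = 1 ∧ 0 < c ∧
      (∃ r' : ℝ, 0 < r' ∧ r' ≤ D.F.r ∧ ∀ᶠ j in (D.𝒰 : Filter ℕ), ∀ w ∈ ball (0 : E n) (3 * s₀),
        ∀ ζ : ℂ, ‖ζ‖ < r' → ‖ζ‖ / 2 ≤ ζ.re → D.F.fl (u * ζ, D.z j (M.ψ ω w)) ∈ M.U) ∧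
      ∀ s, 0 < s → s ≤ s₀ → ∃ η₀ : ℝ, 0 < η₀ ∧ ∀ η, 0 < η → η ≤ η₀ → ∃ ε : ℕ → ℝ,
        (∀ j, 0 < ε j) ∧ Tendsto ε D.𝒰 (𝓝 0) ∧ ∀ᶠ j in (D.𝒰 : Filter ℕ),
          (∀ w ∈ closedBall (0 : E n) (2 * s),
            ‖M.ι (D.mv j (M.ψ ω w) (u * ε j)) - M.ι (M.ψ ω w)‖ ≤ η ∧
            c * ε j ≤ D.H j (D.mv j (M.ψ ω w) (u * ε j))) ∧
          ∃ w ∈ closedBall (0 : E n) (2 * s),
            ‖M.ι (D.mv j (M.ψ ω w) (u * ε j)) - M.ι (M.ψ ω w)‖ = η := by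
  obtain ⟨s₀, u, c, r', sg, hs₀, hr, hu, hc, hr', hF, K⟩ := D.i5_cone h
  refine ⟨s₀, u, 1 / 4, hs₀, hr, hu, by norm_num,
    ⟨r', hr', hF, K.mono fun j hj w hw ζ a b => (hj w hw ζ a b).1⟩, fun s hs hss => ?_⟩
  obtain ⟨C, hC, -, η₀, hη₀, hb⟩ := i5_cpt ω univ_mem
  have h0 : (0 : E n) ∈ ball (0 : E n) (3 * s₀) := mem_ball_self (by positivity)
  have nr : ∀ e : ℝ, 0 ≤ e → ‖(e : ℂ)‖ = e := fun e he => by
    rw [Complex.norm_real, Real.norm_of_nonneg he]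
  have cone : ∀ e : ℝ, 0 ≤ e → e ≤ r' / 2 → ‖(e : ℂ)‖ < r' ∧ ‖(e : ℂ)‖ / 2 ≤ (e : ℂ).re :=
    fun e a b => by
      rw [nr e a, Complex.ofReal_re]
      constructor <;> linarith
  have key : ∀ e : ℕ → ℝ, (∀ᶠ j in (D.𝒰 : Filter ℕ), 0 ≤ e j ∧ e j ≤ r' / 2 ∧
      ‖M.ι (D.mv j (M.ψ ω 0) (u * e j)) - M.ι (M.ψ ω 0)‖ ≤ η₀) → Tendsto e D.𝒰 (𝓝 0) := by
    intro e he
    obtain ⟨y, -, hy⟩ := hC.ultrafilter_le_nhds (D.𝒰.map fun j => D.mv j (M.ψ ω 0) (u * e j))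
      (le_principal_iff.2 (he.mono fun j hj => hb _ (by simpa only [M.ψ_zero] using hj.2.2)))
    have t1 := ((M.continuous_p.tendsto _).comp (D.lim_moving hy)).const_mul sg
    rw [M.p_eq_zero (D.φ_mem_closure y) (D.esc y), mul_zero] at t1
    have t2 := t1.div_const c
    rw [zero_div] at t2
    refine squeeze_zero' (he.mono fun j hj => hj.1) ?_ t2
    filter_upwards [he, K] with j a b
    obtain ⟨b1, b2⟩ := b 0 h0 (e j) (cone _ a.1 a.2.1).1 (cone _ a.1 a.2.1).2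
    rw [nr _ a.1] at b2
    rw [le_div_iff₀ hc, Function.comp_apply, D.z_mv b1]
    linarith
  have far : ∀ᶠ j in (D.𝒰 : Filter ℕ),
      η₀ < ‖M.ι (D.mv j (M.ψ ω 0) (u * (r' / 2 : ℝ))) - M.ι (M.ψ ω 0)‖ := by
    by_contra hn
    have := key (fun _ => r' / 2) ((Ultrafilter.eventually_not.2 hn).mono fun j hj =>
      ⟨by positivity, le_rfl, not_lt.1 hj⟩)
    linarith [tendsto_nhds_unique this tendsto_const_nhds]
  have sub : closedBall (0 : E n) (2 * s) ⊆ ball 0 (3 * s₀) :=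
    closedBall_subset_ball (by linarith)
  refine ⟨η₀, hη₀, fun η hη hle => ?_⟩
  have ex : ∀ᶠ j in (D.𝒰 : Filter ℕ), ∃ e : ℝ, 0 < e ∧ e ≤ r' / 2 ∧
      (∀ w ∈ closedBall (0 : E n) (2 * s),
        ‖M.ι (D.mv j (M.ψ ω w) (u * e)) - M.ι (M.ψ ω w)‖ ≤ η) ∧
      ∃ w ∈ closedBall (0 : E n) (2 * s),
        ‖M.ι (D.mv j (M.ψ ω w) (u * e)) - M.ι (M.ψ ω w)‖ = η := by
    filter_upwards [K, far] with j a b
    refine i5_ivt (F := fun q : ℝ × E n =>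
      ‖M.ι (D.mv j (M.ψ ω q.2) (u * q.1)) - M.ι (M.ψ ω q.2)‖) (isCompact_closedBall _ _)
      (by positivity) hη ?_ (fun w _ => by simp [D.mv_zero])
      ⟨0, mem_closedBall_self (by positivity), hle.trans b.le⟩
    have c1 : ContinuousOn (fun q : ℝ × E n => M.ψ ω q.2)
        (Icc 0 (r' / 2) ×ˢ closedBall 0 (2 * s)) :=
      (M.continuousOn_ψ ω).comp continuousOn_snd fun q hq => ball_subset_ball hr.le (sub hq.2)
    refine ((continuous_subtype_val.comp_continuousOn fun q hq => ?_).sub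
      (continuous_subtype_val.comp_continuousOn c1)).norm
    obtain ⟨d1, d2⟩ := cone _ hq.1.1 hq.1.2
    refine D.continuousAt_mv (c1 q hq) (by fun_prop) ?_ (a _ (sub hq.2) _ d1 d2).1
    rw [norm_mul, hu, one_mul]
    linarith [D.F.r_pos]
  obtain ⟨e, he⟩ := eventually_iff_exists_mem.1 ex
  have ex' : ∀ j, ∃ x : ℝ, 0 < x ∧ (j ∈ e → x ≤ r' / 2 ∧
      (∀ w ∈ closedBall (0 : E n) (2 * s),
        ‖M.ι (D.mv j (M.ψ ω w) (u * x)) - M.ι (M.ψ ω w)‖ ≤ η) ∧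
      ∃ w ∈ closedBall (0 : E n) (2 * s),
        ‖M.ι (D.mv j (M.ψ ω w) (u * x)) - M.ι (M.ψ ω w)‖ = η) := fun j => by
    by_cases hj : j ∈ e
    · obtain ⟨x, a, b⟩ := he.2 j hj
      exact ⟨x, a, fun _ => b⟩
    · exact ⟨1, one_pos, fun h => (hj h).elim⟩
  choose ε pos hε using ex'
  refine ⟨ε, pos, key ε ?_, ?_⟩
  · filter_upwards [he.1] with j hj
    exact ⟨(pos j).le, (hε j hj).1,
      ((hε j hj).2.1 0 (mem_closedBall_self (by positivity))).trans hle⟩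
  filter_upwards [he.1, K] with j hj a
  obtain ⟨b1, b2, b3⟩ := hε j hj
  refine ⟨fun w hw => ⟨b2 w hw, ?_⟩, b3⟩
  have hp := pos j
  obtain ⟨d1, d2⟩ := cone _ hp.le b1
  rw [H, D.z_mv (a w (sub hw) _ d1 d2).1]
  refine D.le_HR_fl (D.z_mem _ _) (by rw [norm_mul, hu, one_mul]; linarith) (by linarith)
    fun σ hσ => ?_
  have hu0 : u ≠ 0 := norm_ne_zero_iff.1 (by rw [hu]; exact one_ne_zero)
  obtain ⟨ζ, rfl⟩ : ∃ ζ, σ = u * ζ := ⟨u⁻¹ * σ, by field_simp⟩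
  rw [← mul_sub, norm_mul, hu, one_mul] at hσ
  have f1 := norm_le_norm_add_norm_sub' ζ (ε j)
  have f2 := (abs_le.1 (Complex.abs_re_le_norm (ζ - ε j))).1
  rw [nr _ hp.le] at f1
  rw [Complex.sub_re, Complex.ofReal_re] at f2
  exact (a w (sub hw) ζ (by linarith) (by linarith)).1

/-- A truncated sector. -/
def i5Ω : Set ℂ := ball 0 2 ∩ {ζ | ‖ζ‖ / 2 < ζ.re}

theorem i5Ω_open : IsOpen i5Ω := isOpen_ball.inter (isOpen_lt (by fun_prop) (by fun_prop))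

theorem i5Ω_real {x : ℝ} (a : 0 < x) (b : x < 2) : (x : ℂ) ∈ i5Ω := by
  simp only [i5Ω, mem_inter_iff, mem_ball_zero_iff, mem_ofPred_eq, Complex.norm_real,
    Real.norm_of_nonneg a.le, Complex.ofReal_re]
  constructor <;> linarith

theorem i5Ω_convex : Convex ℝ i5Ω := (convex_ball _ _).inter (by
  intro a ha b hb k l hk hl hkl
  simp only [mem_ofPred_eq, Complex.add_re, Complex.smul_re, smul_eq_mul] at ha hb ⊢
  have := norm_add_le (k • a) (l • b)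
  rw [norm_smul, norm_smul, Real.norm_of_nonneg hk, Real.norm_of_nonneg hl] at this
  rcases hk.eq_or_lt with rfl | hk'
  · rw [zero_add] at hkl
    subst hkl
    linarith
  · nlinarith [mul_lt_mul_of_pos_left ha hk', mul_le_mul_of_nonneg_left hb.le hl])

theorem i5_an {ω : M.X} {s r' e : ℝ} {u : ℂ} {j : ℕ} (hr : 3 * s < M.r ω) (hu : ‖u‖ = 1)
    (hF : r' ≤ D.F.r) (hp : 0 < e) (b : e < r' / 2)
    (a : ∀ w ∈ ball (0 : E n) (3 * s), ∀ ζ : ℂ, ‖ζ‖ < r' → ‖ζ‖ / 2 ≤ ζ.re →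
      D.F.fl (u * ζ, D.z j (M.ψ ω w)) ∈ M.U) : ∀ q ∈ ball (0 : E n) (3 * s) ×ˢ i5Ω,
      AnalyticAt ℂ (fun q : E n × ℂ => M.ι (D.mv j (M.ψ ω q.1) (e * (u * q.2)))) q := by
  intro q hq
  have nr : ∀ ζ : ℂ, ‖(e : ℂ) * ζ‖ = e * ‖ζ‖ := fun ζ => by
    rw [norm_mul, Complex.norm_real, Real.norm_of_nonneg hp.le]
  have q1 := mem_ball_zero_iff.1 hq.2.1
  have q2 : ‖q.2‖ / 2 < q.2.re := hq.2.2
  have q3 := mul_lt_mul_of_pos_left q1 hp
  refine D.analyticAt_mv (h := fun q : E n × ℂ => M.ψ ω q.1)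
    ((M.analyticAt_ψ ω (ball_subset_ball hr.le hq.1)).comp analyticAt_fst)
    (analyticAt_const.mul (analyticAt_const.mul analyticAt_snd)) ?_ ?_
  · rw [nr, norm_mul, hu, one_mul]
    linarith [D.F.r_pos]
  · rw [mul_left_comm]
    refine a _ hq.1 _ ?_ ?_
    · rw [nr]
      linarith
    · rw [nr, Complex.re_ofReal_mul]
      linarith [mul_lt_mul_of_pos_left q2 hp]

theorem i5_low {ω : M.X} {s η : ℝ} (hs : 0 < s) (hr : 3 * s < M.r ω) {m : E n → M.X}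
    (hd : DifferentiableOn ℂ (fun w => M.ι (m w)) (ball 0 (2 * s)))
    (a : ∀ w ∈ closedBall (0 : E n) (2 * s), ‖M.ι (m w) - M.ι (M.ψ ω w)‖ ≤ η)
    (e3 : η * ‖M.L ω‖ ≤ s / 8)
    (th : cthickening η (M.ψ ω '' closedBall 0 (2 * s)) ⊆ M.ψ ω '' ball 0 (3 * s)) :
    ∀ y ∈ ball (0 : E n) (s / 2), ∃ w ∈ closedBall (0 : E n) (2 * s), m w = M.ψ ω y := by
  intro y hy
  have sub' : ball (0 : E n) (3 * s) ⊆ ball 0 (M.r ω) := ball_subset_ball hr.le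
  obtain ⟨w, hw, e⟩ := surj_of_close (f := fun w => M.co ω (m w)) hs (η := s / 8) le_rfl
    ((M.L ω).differentiable.comp_differentiableOn (hd.sub_const _))
    (fun w hw => by
      have h2 := M.co_ψ ω (sub' (ball_subset_ball (by linarith) hw))
      have h3 := a w (ball_subset_closedBall hw)
      conv_lhs => rw [sub_eq_add_neg, ← congrArg Neg.neg h2, ← sub_eq_add_neg]
      rw [BM.co, BM.co, ← map_sub, sub_sub_sub_cancel_right]
      refine ((M.L ω).le_opNorm _).trans ?_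
      linarith [mul_le_mul_of_nonneg_left h3 (norm_nonneg (M.L ω))]) y hy
  have hw' : w ∈ closedBall (0 : E n) (2 * s) :=
    ball_subset_closedBall (ball_subset_ball (by linarith) hw)
  obtain ⟨v, hv, e'⟩ := th (mem_cthickening_of_dist_le (m w) _ _ _
    (mem_image_of_mem _ hw') (by
      rw [Subtype.dist_eq, dist_eq_norm]
      exact a w hw'))
  refine ⟨w, hw', ?_⟩
  rw [← e', ← e, ← e', M.co_ψ ω (sub' hv)]

theorem i5_id {ω : M.X} {s R ρ η : ℝ} (hs : 0 < s) (hr : 3 * s < M.r ω) (hρ : 0 < ρ) (hη : 0 < η)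
    {𝒰 : Ultrafilter ℕ} {f : ℕ → E n × ℂ → E N} (hb : ∀ j q, ‖f j q‖ ≤ R)
    (an : ∀ᶠ j in (𝒰 : Filter ℕ), ∀ q ∈ ball (0 : E n) (3 * s) ×ˢ i5Ω, AnalyticAt ℂ (f j) q)
    {y : E n} (hy : y ∈ ball (0 : E n) (3 * s))
    (st : ∀ᶠ w in 𝓝 y, ∀ ζ : ℂ, ‖ζ‖ < ρ → Tendsto (fun j => f j (w, ζ)) 𝒰 (𝓝 (M.ι (M.ψ ω w)))) :
    ∀ᶠ j in (𝒰 : Filter ℕ), ∀ w ∈ closedBall (0 : E n) (2 * s),
      ‖f j (w, 1) - M.ι (M.ψ ω w)‖ < η := by
  obtain ⟨m, hm⟩ := ultra_lim 𝒰 (S := ball (0 : E n) (3 * s) ×ˢ i5Ω) (f := f)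
    fun q _ => ⟨R, Eventually.of_forall fun j => hb j q⟩
  have hS := (isOpen_ball (x := (0 : E n)) (ε := 3 * s)).prod i5Ω_open
  obtain ⟨m1, m2, -⟩ := vitali hS (fun q hq => ⟨R, _, hS.mem_nhds hq, an.mono fun j hj =>
    ⟨fun q hq => (hj q hq).differentiableAt.differentiableWithinAt, fun _ _ => hb _ _⟩⟩) hm
  have hx : 0 < min 1 (ρ / 2) := lt_min one_pos (half_pos hρ)
  have hq : (y, ((min 1 (ρ / 2) : ℝ) : ℂ)) ∈ ball (0 : E n) (3 * s) ×ˢ i5Ω :=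
    ⟨hy, i5Ω_real hx ((min_le_left _ _).trans_lt one_lt_two)⟩
  have g1 : AnalyticOnNhd ℂ ((M.ι ∘ M.ψ ω) ∘ Prod.fst) (ball (0 : E n) (3 * s) ×ˢ i5Ω) :=
    fun q hq => (M.analyticAt_ψ ω (ball_subset_ball hr.le hq.1)).comp analyticAt_fst
  have eq := (P278F.analyticOnNhd_of_differentiableOn hS m1).eqOn_of_preconnected_of_eventuallyEq
    g1 ((convex_ball _ _).prod i5Ω_convex).isPreconnected hq (by
      have c2 : ∀ᶠ q : E n × ℂ in 𝓝 (y, (min 1 (ρ / 2) : ℝ)), ‖q.2‖ < ρ := by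
        refine ContinuousAt.eventually_lt (by fun_prop) continuousAt_const ?_
        rw [Complex.norm_real, Real.norm_of_nonneg hx.le]
        exact (min_le_right _ _).trans_lt (half_lt_self hρ)
      have c1 : Tendsto (Prod.fst : E n × ℂ → E n) (𝓝 (y, (min 1 (ρ / 2) : ℝ))) (𝓝 y) :=
        continuous_fst.tendsto _
      filter_upwards [c1.eventually st, c2, hS.mem_nhds hq] with q a b d
      exact tendsto_nhds_unique (hm q d) (a q.2 b))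
  have sub3 : closedBall (0 : E n) (2 * s) ×ˢ {(1 : ℂ)} ⊆ ball 0 (3 * s) ×ˢ i5Ω :=
    prod_mono (closedBall_subset_ball (by linarith))
      (singleton_subset_iff.2 (i5Ω_real one_pos one_lt_two))
  filter_upwards [Metric.tendstoUniformlyOn_iff.1
    ((tendstoLocallyUniformlyOn_iff_tendstoUniformlyOn_of_compact
      ((isCompact_closedBall _ _).prod isCompact_singleton)).1 (m2.mono sub3)) η hη] with j b w hw
  have := b (w, 1) ⟨hw, rfl⟩
  rwa [eq (sub3 (mk_mem_prod hw rfl)), dist_comm, dist_eq_norm] at this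

theorem exists_scale {ω : M.X} (h : M.g i (D.φ ω) (D.φ ω) ≠ 0) :
    ∃ ε t c, D.Scale ω ε t c := by
  obtain ⟨s, u, c, hs, hr, hu, hc, ⟨r', hr', hF, K⟩, ivt⟩ := D.exists_ivt h
  obtain ⟨η₀, hη₀, ivt⟩ := ivt s hs le_rfl
  have sub : closedBall (0 : E n) (2 * s) ⊆ ball 0 (3 * s) := closedBall_subset_ball (by linarith)
  have sub' : ball (0 : E n) (3 * s) ⊆ ball 0 (M.r ω) := ball_subset_ball hr.le
  obtain ⟨δ, hδ, th⟩ := (M.isCompact_image_closedBall ω (s := 2 * s)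
    (by linarith)).exists_cthickening_subset_open (M.isOpen_image_ψ ω isOpen_ball sub')
    (image_mono sub)
  have hL := norm_nonneg (M.L ω)
  obtain ⟨η, hη, e1, e2, e3⟩ : ∃ η, 0 < η ∧ η ≤ η₀ ∧ η ≤ δ ∧ η ≤ s / 8 / (‖M.L ω‖ + 1) :=
    ⟨min η₀ (min δ _), lt_min hη₀ (lt_min hδ (by positivity)), min_le_left _ _,
      (min_le_right _ _).trans (min_le_left _ _), (min_le_right _ _).trans (min_le_right _ _)⟩
  rw [le_div_iff₀ (by positivity)] at e3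
  obtain ⟨ε, pos, lim, E⟩ := ivt η hη e1
  have an := (K.and (lim.eventually (gt_mem_nhds (half_pos hr')))).mono fun j hj =>
    D.i5_an hr hu hF (pos j) hj.2 hj.1
  have sub2 : ball (0 : Fin n → ℂ) (s / 2) ⊆ ball 0 (3 * s) := ball_subset_ball (by linarith)
  have ht := M.isOpen_image_ψ ω isOpen_ball (sub2.trans sub')
  have low : ∀ᶠ j in (D.𝒰 : Filter ℕ), ∀ x ∈ M.ψ ω '' ball 0 (s / 2), c * ε j ≤ D.H j x := by
    filter_upwards [E, an] with j a b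
    rintro _ ⟨y, hy, rfl⟩
    obtain ⟨w, hw, e⟩ := i5_low hs hr (m := fun w => D.mv j (M.ψ ω w) (u * ε j)) (fun w hw => by
      have := (b (w, (1 : ℝ)) ⟨sub (ball_subset_closedBall hw), i5Ω_real one_pos
        one_lt_two⟩).differentiableAt.comp (f := fun w => (w, ((1 : ℝ) : ℂ))) w (by fun_prop)
      simp only [Function.comp_def, Complex.ofReal_one, mul_one, mul_comm (ε j : ℂ)] at this
      exact this.differentiableWithinAt) (fun w hw => (a.1 w hw).1) (by linarith)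
      ((cthickening_mono e2 _).trans th) y hy
    exact e ▸ (a.1 w hw).2
  refine ⟨ε, _, c, ht, ⟨0, mem_ball_self (by positivity), M.ψ_zero ω⟩, hc, pos, lim, low, ?_⟩
  rintro _ ⟨y, hy, rfl⟩
  by_contra hn
  obtain ⟨ρ, hρ, st⟩ := D.i5_still ht hc pos low (mem_image_of_mem _ hy)
    ((not_frequently.1 hn).mono fun x hx => Metric.tendsto_nhds.2 fun θ hθ =>
      (Ultrafilter.eventually_not.2 fun h' => hx ⟨θ, hθ, h'⟩).mono fun j hj => by
        rw [dist_zero_right, norm_smul, Complex.norm_real, Real.norm_of_nonneg (pos j).le]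
        exact not_le.1 hj)
  have W := i5_id hs hr hρ hη (fun _ _ => D.bd _ (Subtype.property _)) an (sub2 hy)
    ((((M.continuousOn_ψ ω).continuousAt (isOpen_ball.mem_nhds (sub' (sub2 hy)))).eventually
      st).mono fun w hw ζ hζ => hw _ (by rwa [norm_mul, hu, one_mul]))
  obtain ⟨j, ⟨-, w, hw, e⟩, b⟩ := (E.and W).exists
  have := b w hw
  simp only [mul_one, mul_comm (ε j : ℂ)] at this
  exact this.ne e

end FD

end Vale.Agent.P274
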