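import Vale.Agent.P274.I3
import Vale.Agent.P274.I4

/-! Auxiliary lemmas for the existence of a scale. -/

open Metric Set Filter Topology

namespace Vale.Agent.P274

theorem i5_surj {n : ℕ} {f : E n → E n} {s η : ℝ} (hs : 0 < s) (hη : η ≤ s / 8)
    (hf : DifferentiableOn ℂ f (ball 0 (2 * s)))
    (h : ∀ w ∈ ball (0 : E n) (2 * s), ‖f w - w‖ ≤ η) :
    ∀ y ∈ ball (0 : E n) (s / 2), ∃ w ∈ ball (0 : E n) s, f w = y := by
  intro y hy
  have sub : ∀ w ∈ ball (0 : E n) s, ball w s ⊆ ball 0 (2 * s) := fun w hw =>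
    ball_subset_ball' (by linarith [mem_ball.1 hw])
  have hg : DifferentiableOn ℂ (fun w => f w - w) (ball 0 (2 * s)) := hf.sub differentiableOn_id
  have hA : ApproximatesLinearOn f (ContinuousLinearMap.id ℂ (E n)) (ball 0 s) (1 / 4) := by
    intro a ha b hb
    have := (convex_ball (0 : E n) s).norm_image_sub_le_of_norm_fderiv_le (𝕜 := ℂ)
      (f := fun w => f w - w) (C := 1 / 4)
      (fun w hw => hg.differentiableAt (isOpen_ball.mem_nhds (sub w hw (mem_ball_self hs))))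
      (fun w hw => (P278F.norm_fderiv_le hs (hg.mono (sub w hw))
        fun z hz => h z (sub w hw hz)).trans (by rw [div_le_iff₀ hs]; linarith)) hb ha
    rw [show f a - a - (f b - b) = f a - f b - (a - b) by abel] at this
    simpa using this
  have h0 := h 0 (mem_ball_self (by positivity))
  obtain ⟨w, hw, e⟩ := hA.surjOn_closedBall_of_nonlinearRightInverse
    ⟨id, 1, fun y => by simp, fun y => rfl⟩ (ε := 7 * s / 8) (b := 0) (by positivity)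
    (closedBall_subset_ball (by linarith)) (show y ∈ _ from by
      rw [mem_closedBall, dist_eq_norm]
      have := norm_sub_le y (f 0)
      rw [sub_zero] at h0
      rw [mem_ball_zero_iff] at hy
      push_cast
      linarith)
  exact ⟨w, closedBall_subset_ball (by linarith) hw, e⟩

theorem i5_ivt {α : Type} [TopologicalSpace α] [T2Space α] {K : Set α} (hK : IsCompact K)
    {F : ℝ × α → ℝ} {b η : ℝ} (hb : 0 ≤ b) (hη : 0 < η) (hF : ContinuousOn F (Icc 0 b ×ˢ K))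
    (h0 : ∀ w ∈ K, F (0, w) = 0) (h1 : ∃ w ∈ K, η ≤ F (b, w)) :
    ∃ e, 0 < e ∧ e ≤ b ∧ (∀ w ∈ K, F (e, w) ≤ η) ∧ ∃ w ∈ K, F (e, w) = η := by
  have hc : IsCompact (Icc 0 b ×ˢ K) := isCompact_Icc.prod hK
  obtain ⟨w1, a1, a2⟩ := h1
  obtain ⟨⟨e, w⟩, ⟨⟨⟨b1, b2⟩, b3⟩, b4⟩, hm⟩ := (hc.of_isClosed_subset
    (hF.preimage_isClosed_of_isClosed hc.isClosed (isClosed_Ici (a := η)))
      inter_subset_left).exists_isMinOn ⟨(b, w1), ⟨⟨hb, le_rfl⟩, a1⟩, a2⟩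
        continuous_fst.continuousOn
  have key : ∀ v ∈ K, F (e, v) ≤ η := by
    intro v hv
    by_contra hlt
    have c : ContinuousOn (fun x => F (x, v)) (Icc 0 e) :=
      hF.comp (by fun_prop) fun x hx => ⟨⟨hx.1, hx.2.trans b2⟩, hv⟩
    obtain ⟨x, hx, hx'⟩ := intermediate_value_Icc b1 c
      (show η ∈ _ from ⟨(h0 v hv).trans_le hη.le, (not_le.1 hlt).le⟩)
    have : e ≤ x := hm (show (x, v) ∈ _ from ⟨⟨⟨hx.1, hx.2.trans b2⟩, hv⟩, hx'.ge⟩)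
    rw [le_antisymm hx.2 this] at hx'
    exact hlt hx'.le
  refine ⟨e, lt_of_le_of_ne b1 ?_, b2, key, w, b3, le_antisymm (key w b3) b4⟩
  rintro rfl
  exact absurd ((h0 w b3).symm.trans_ge b4) (not_le.2 hη)

namespace FD

variable {N n : ℕ} {M : AM N n} {i : Fin n} (D : FD M i)

theorem i5_cpt (y : M.X) {S : Set M.X} (hS : S ∈ 𝓝 y) :
    ∃ K, IsCompact K ∧ K ⊆ S ∧ ∃ δ, 0 < δ ∧ ∀ x : M.X, ‖M.ι x - M.ι y‖ ≤ δ → x ∈ K := by
  obtain ⟨ρ, hρ, h⟩ := nhds_basis_closedBall.mem_iff.1 (BM.tendsto_ψ y hS)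
  have hρ' : 0 < min ρ (M.r y / 2) := lt_min hρ (half_pos (M.r_pos y))
  obtain ⟨δ, hδ, h2⟩ := nhds_basis_closedBall.mem_iff.1 (M.image_ball_mem_nhds y hρ')
  refine ⟨_, M.isCompact_image_closedBall y
    ((min_le_right ρ _).trans_lt (half_lt_self (M.r_pos y))), ?_, δ, hδ, fun x hx => ?_⟩
  · rintro _ ⟨w, hw, rfl⟩
    exact h (closedBall_subset_closedBall (min_le_left _ _) hw)
  · exact image_mono ball_subset_closedBall (h2 (by rwa [mem_closedBall, Subtype.dist_eq,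
      dist_eq_norm]))

theorem i5_still {ε : ℕ → ℝ} {t : Set M.X} {c : ℝ} (ht : IsOpen t) (hc : 0 < c)
    (pos : ∀ j, 0 < ε j) (low : ∀ᶠ j in (D.𝒰 : Filter ℕ), ∀ x ∈ t, c * ε j ≤ D.H j x) {y : M.X}
    (hy : y ∈ t) (h : ∀ᶠ x in 𝓝 y, Tendsto (fun j => (ε j : ℂ) • D.Wf j x) D.𝒰 (𝓝 0)) :
    ∃ ρ, 0 < ρ ∧ ∀ᶠ x in 𝓝 y, ∀ ζ : ℂ, ‖ζ‖ < ρ →
      Tendsto (fun j => M.ι (D.mv j x (ε j * ζ))) D.𝒰 (𝓝 (M.ι x)) := by
  obtain ⟨S, h1, hS, hyS⟩ := _root_.mem_nhds_iff.1 (h.and (ht.mem_nhds hy))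
  have hR := D.R₀_pos
  have V := (BM.vitali_on (l := D.𝒰) (f := fun j x => (ε j : ℂ) • D.Wf j x) (g := fun _ => 0) hS
    (fun x hx => ⟨2 * D.R₀ / c, t, ht.mem_nhds (h1 hx).2, low.mono fun j hj x hx =>
      ⟨(M.holAt_const _ x).smul (D.hol_Wf j x), by
        rw [norm_smul, Complex.norm_real, Real.norm_of_nonneg (pos j).le, le_div_iff₀ hc]
        have := mul_le_mul_of_nonneg_left (hj x hx) (norm_nonneg (D.Wf j x))
        linarith [D.norm_Wf_mul_H j x]⟩⟩) fun x hx => (h1 hx).1).2.1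
  obtain ⟨K, hK, hKS, δ, hδ, hb⟩ := i5_cpt y (hS.mem_nhds hyS)
  have W := Metric.tendstoUniformlyOn_iff.1
    ((tendstoLocallyUniformlyOn_iff_tendstoUniformlyOn_of_compact hK).1 (V.mono hKS))
  obtain ⟨ρ, hρ, r1, r2⟩ : ∃ ρ, 0 < ρ ∧ ρ ≤ c ∧ ρ ≤ δ / 2 * c / (2 * D.R₀) :=
    ⟨min c _, lt_min hc (by positivity), min_le_left _ _, min_le_right _ _⟩
  rw [le_div_iff₀ (by positivity)] at r2
  refine ⟨ρ, hρ, ?_⟩
  filter_upwards [ball_mem_nhds y (half_pos hδ), ht.mem_nhds hy] with x hx hxt ζ hζ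
  rw [mem_ball, Subtype.dist_eq, dist_eq_norm] at hx
  refine Metric.tendsto_nhds.2 fun η hη => ?_
  filter_upwards [low, W (η / ρ) (by positivity)] with j a b
  have hj := pos j
  have hH := D.H_pos j x
  have a := a x hxt
  have lt : ∀ σ ∈ ball (0 : ℂ) (ε j * ρ), ‖σ‖ < D.H j x := fun σ hσ => by
    rw [mem_ball_zero_iff] at hσ
    nlinarith
  have mem : ∀ σ ∈ ball (0 : ℂ) (ε j * ρ), D.mv j x σ ∈ K := fun σ hσ => hb _ (by
    have h2 := D.norm_mv_sub (lt σ hσ)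
    have h3 : 2 * D.R₀ / D.H j x * ‖σ‖ ≤ δ / 2 := by
      rw [mem_ball_zero_iff] at hσ
      rw [div_mul_eq_mul_div, div_le_iff₀ hH]
      nlinarith [mul_le_mul_of_nonneg_left hσ.le hR.le, mul_le_mul_of_nonneg_left a hδ.le,
        mul_le_mul_of_nonneg_left r2 hj.le]
    linarith [norm_sub_le_norm_sub_add_norm_sub (M.ι (D.mv j x σ)) (M.ι x) (M.ι y)])
  have hn : ‖(ε j : ℂ) * ζ‖ = ε j * ‖ζ‖ := by
    rw [norm_mul, Complex.norm_real, Real.norm_of_nonneg hj.le]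
  have hv := (convex_ball (0 : ℂ) (ε j * ρ)).norm_image_sub_le_of_norm_hasDerivWithin_le
    (f := fun σ => M.ι (D.mv j x σ)) (C := η / ρ / ε j)
    (fun σ hσ => (D.hasDerivAt_mv (((lt σ hσ).trans_le (D.HR_le _)).trans
      (by linarith [D.F.r_pos])) (D.disc_HR _ σ (lt σ hσ))).hasDerivWithinAt)
    (fun σ hσ => by
      have := b _ (mem σ hσ)
      rw [dist_zero_left, norm_smul, Complex.norm_real, Real.norm_of_nonneg hj.le] at this
      rw [le_div_iff₀ hj]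
      linarith)
    (mem_ball_self (by positivity))
    (show (ε j : ℂ) * ζ ∈ _ from by
      rw [mem_ball_zero_iff, hn]
      exact mul_lt_mul_of_pos_left hζ hj)
  rw [D.mv_zero, sub_zero, hn] at hv
  rw [dist_eq_norm]
  refine hv.trans_lt ?_
  rw [← mul_assoc, div_mul_cancel₀ _ hj.ne', div_mul_eq_mul_div, div_lt_iff₀ hρ]
  exact mul_lt_mul_of_pos_left hζ hη

theorem i5_cone {ω : M.X} (h : M.g i (D.φ ω) (D.φ ω) ≠ 0) :
    ∃ (s₀ : ℝ) (u : ℂ) (c r' sg : ℝ), 0 < s₀ ∧ 3 * s₀ < M.r ω ∧ ‖u‖ = 1 ∧ 0 < c ∧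
      0 < r' ∧ r' ≤ D.F.r ∧ ∀ᶠ j in (D.𝒰 : Filter ℕ), ∀ w ∈ ball (0 : E n) (3 * s₀),
        ∀ ζ : ℂ, ‖ζ‖ < r' → ‖ζ‖ / 2 ≤ ζ.re → D.F.fl (u * ζ, D.z j (M.ψ ω w)) ∈ M.U ∧
          c * ‖ζ‖ ≤ sg * M.p (D.F.fl (u * ζ, D.z j (M.ψ ω w))) := by
  obtain ⟨μ, r', c, C, hμ, hr', hr, hc, -, H⟩ := D.regular_point (D.φ_mem_closure ω) (D.esc ω) h
  obtain ⟨t, ht, near⟩ := D.eventually_near (ω := ω) hμ
  obtain ⟨ρ, hρ, h1⟩ := Metric.mem_nhds_iff.1 (BM.tendsto_ψ ω ht)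
  have hω := M.r_pos ω
  obtain ⟨s, hs, s1, s2⟩ : ∃ s, 0 < s ∧ s ≤ ρ / 3 ∧ s ≤ M.r ω / 4 :=
    ⟨min _ _, lt_min (by positivity) (by positivity), min_le_left _ _, min_le_right _ _⟩
  have near' : ∀ᶠ j in (D.𝒰 : Filter ℕ), ∀ w ∈ ball (0 : E n) (3 * s),
      dist (D.z j (M.ψ ω w)) (D.φ ω) < μ :=
    near.mono fun j hj w hw => hj _ (h1 (ball_subset_ball (by linarith) hw))
  have h0 : (0 : E n) ∈ ball (0 : E n) (3 * s) := mem_ball_self (by positivity)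
  obtain ⟨sg, hsg, h2⟩ : ∃ sg : ℝ, (sg = 1 ∨ sg = -1) ∧
      ∀ᶠ j in (D.𝒰 : Filter ℕ), 0 < sg * M.p (D.z j (M.ψ ω 0)) := by
    rcases D.𝒰.em fun j => 0 < M.p (D.z j (M.ψ ω 0)) with h | h
    · exact ⟨1, Or.inl rfl, h.mono fun j hj => by linarith⟩
    · refine ⟨-1, Or.inr rfl, (h.and near').mono fun j hj => ?_⟩
      linarith [lt_of_le_of_ne (not_lt.1 hj.1) (H _ (D.z_mem j _) (hj.2 0 h0)).1]
  have sq : sg * sg = 1 := by rcases hsg with rfl | rfl <;> norm_num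
  have hG := norm_pos_iff.2 h
  obtain ⟨G, hGe⟩ : ∃ G, G = M.g i (D.φ ω) (D.φ ω) := ⟨_, rfl⟩
  rw [← hGe] at H hG h
  have hu : ‖sg * (starRingEnd ℂ) G / ‖G‖‖ = 1 := by
    rcases hsg with rfl | rfl <;> simp [h]
  refine ⟨s, sg * (starRingEnd ℂ) G / ‖G‖, c, r', sg, hs, by linarith, hu, hc, hr', hr, ?_⟩
  filter_upwards [near', h2] with j a b w hw ζ z1 z2
  have c1 : ContinuousOn (fun w => sg * M.p (D.z j (M.ψ ω w))) (ball 0 (3 * s)) :=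
    continuousOn_const.mul ((M.continuous_p.comp (D.hol_z j).continuous).comp_continuousOn
      ((M.continuousOn_ψ ω).mono (ball_subset_ball (by linarith))))
  have c2 : 0 < sg * M.p (D.z j (M.ψ ω w)) := by
    by_contra hn
    obtain ⟨v, hv, e⟩ := (convex_ball _ _).isPreconnected.intermediate_value hw h0 c1
      ⟨not_lt.1 hn, b.le⟩
    rcases mul_eq_zero.1 e with e | e
    · simp [e] at sq
    · exact (H _ (D.z_mem j _) (a v hv)).1 e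
  have hn : ‖sg * (starRingEnd ℂ) G / ‖G‖ * ζ‖ = ‖ζ‖ := by rw [norm_mul, hu, one_mul]
  have e : sg * (starRingEnd ℂ) G / ‖G‖ * ζ * G = (sg * ‖G‖ : ℝ) * ζ := by
    have h3 := Complex.conj_mul' G
    have h4 : (‖G‖ : ℂ) ≠ 0 := by exact_mod_cast hG.ne'
    push_cast
    field_simp
    linear_combination sg * ζ * h3
  obtain ⟨d1, d2⟩ := (H _ (D.z_mem j _) (a w hw)).2.2.2 sg _ hsg c2 (hn.trans_lt z1) (by
    rw [hn, e, Complex.re_ofReal_mul, ← mul_assoc, ← mul_assoc, sq]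
    nlinarith)
  rw [hn] at d2
  exact ⟨d1, by linarith⟩

end FD

end Vale.Agent.P274
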