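import Vale.Agent.P274.I3
import Vale.Agent.P274.I4
import Vale.Agent.P274.B5

/-! Power bounds for the Hartogs radius. -/

open Metric Set Filter Topology

namespace Vale.Agent.P274.FD

variable {N n : ℕ} {M : AM N n} {i : Fin n} (D : FD M i)

theorem i6_det_le {A : Matrix (Fin n) (Fin n) ℂ} {b : ℝ} (h : ∀ k l, ‖A k l‖ ≤ b) :
    ‖A.det‖ ≤ n.factorial * b ^ n := by
  have := Matrix.det_le (abv := IsAbsoluteValue.toAbsoluteValue (norm : ℂ → ℝ)) (A := A) h
  simpa using this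

theorem i6_hol (j : ℕ) : M.Hol (fun y => M.A.π (D.z j y)) := fun x =>
  (D.hol_z j x).comp_analytic
    (P278F.analyticOnNhd_of_differentiableOn isOpen_univ M.A.π_diff.differentiableOn _ (mem_univ _))

theorem hol_Jm (j : ℕ) (k l : Fin n) : M.Hol (fun x => D.Jm j x k l) := fun x =>
  BM.holAt_pi_iff.1 ((D.i6_hol j x).df_apply (M.hol_V l x) (.of_forall (M.V_mem_T l))) k

include D in
theorem i6_bd {F : Type*} [NormedAddCommGroup F] {f : E N → F} (hf : Continuous f) :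
    ∃ b : ℝ, 1 ≤ b ∧ ∀ z ∈ M.U, ‖f z‖ ≤ b := by
  obtain ⟨b, hb⟩ := (isCompact_closedBall (0 : E N) D.R₀).exists_bound_of_continuousOn
    hf.continuousOn
  exact ⟨max 1 b, le_max_left _ _,
    fun z hz => (hb z (mem_closedBall_zero_iff.2 (D.bd z hz))).trans (le_max_right _ _)⟩

include D in
theorem i6_V : ∃ b : ℝ, 1 ≤ b ∧ ∀ z ∈ M.U, ∀ l, ‖M.A.V l z‖ ≤ b := by
  obtain ⟨b, h1, h2⟩ := D.i6_bd (f := fun z l => M.A.V l z)
    (continuous_pi fun l => (M.A.V_diff l).continuous)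
  exact ⟨b, h1, fun z hz l => (norm_le_pi_norm (fun l => M.A.V l z) l).trans (h2 z hz)⟩

theorem Jm_bound {C : Set M.X} (hC : IsCompact C) :
    ∃ K : ℝ, 1 ≤ K ∧ ∀ j, ∀ x ∈ C, ∀ k l, ‖D.Jm j x k l‖ ≤ K := by
  obtain ⟨C', -, -, K, hK, h⟩ := BM.cauchy_df (M := M.toBM) (F := E n) hC
  obtain ⟨b, h1, h2⟩ := D.i6_bd M.A.π_diff.continuous
  obtain ⟨v, h3, h4⟩ := D.i6_V
  refine ⟨max 1 (K * b * v), le_max_left _ _, fun j x hx k l => le_max_of_le_right ?_⟩
  refine (norm_le_pi_norm _ k).trans ((h _ b (D.i6_hol j) (fun y _ => h2 _ (D.z_mem j y)) x hx _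
    (M.V_mem_T l x)).trans ?_)
  exact mul_le_mul_of_nonneg_left (h4 _ x.2 l) (by positivity)

theorem i6_mul (A : E n →L[ℂ] E n) (v : Fin n → E n) :
    (Matrix.of fun k l => A (v l) k) =
      LinearMap.toMatrix' A.toLinearMap * Matrix.of fun k l => v l k := by
  ext k l
  have := congrFun (LinearMap.toMatrix'_mulVec A.toLinearMap (v l)) k
  rw [Matrix.of_apply, ← ContinuousLinearMap.coe_coe, ← this]
  rfl

theorem i6_mulVec (v : Fin n → E n) (u : E n) :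
    (Matrix.of fun k l => v l k).mulVec u = ∑ l, u l • v l := by
  ext k
  simp [Matrix.mulVec, dotProduct, mul_comm]

/-- Cramer's rule. -/
theorem det_smul_Wf (j : ℕ) (x : M.X) : (D.Jm j x).det • D.Wf j x =
    ∑ l, ((D.Jm j x).adjugate l i * M.A.Δ (M.A.π (D.z j x)) ^ 2) • M.A.V l x.1 := by
  set A := fderiv ℂ ((fun y => M.A.π (D.z j y)) ∘ M.ψ x) 0
  set a := LinearMap.toMatrix' A.toLinearMap
  set P : Matrix (Fin n) (Fin n) ℂ := Matrix.of fun k l => M.L x (M.A.V l x.1) k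
  have h1 : D.Jm j x = a * P := i6_mul A fun l => M.L x (M.A.V l x.1)
  have h2 : a.mulVec (M.L x (D.Wf j x)) = M.A.Δ (M.A.π (D.z j x)) ^ 2 • eb i := by
    rw [LinearMap.toMatrix'_mulVec, ← M.A.V_π i _ (M.U_sub (D.z_mem j x)), ← D.df_z_Wf,
      ← BM.df_ambient (D.hol_z j x) (M.A.π_diff _)]
    rfl
  rw [← sub_eq_zero]
  refine BM.L_inj (sub_mem ((M.T x).smul_mem _ (D.Wf_mem_T j x))
    (Submodule.sum_mem _ fun l _ => (M.T x).smul_mem _ (M.V_mem_T l x))) ?_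
  rw [map_sub, sub_eq_zero, map_smul, map_sum]
  simp only [map_smul]
  have h3 := i6_mulVec (fun l => M.L x (M.A.V l x.1))
    ((D.Jm j x).adjugate.mulVec (M.A.Δ (M.A.π (D.z j x)) ^ 2 • eb i))
  have h4 : ∀ l, (D.Jm j x).adjugate.mulVec (M.A.Δ (M.A.π (D.z j x)) ^ 2 • eb i) l =
      (D.Jm j x).adjugate l i * M.A.Δ (M.A.π (D.z j x)) ^ 2 := fun l => by
    simp [eb, Matrix.mulVec_smul, mul_comm]
  simp only [h4] at h3
  rw [← h3, ← h2, h1, Matrix.adjugate_mul_distrib, Matrix.mulVec_mulVec, Matrix.mulVec_mulVec,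
    Matrix.mul_assoc, Matrix.mul_assoc, Matrix.adjugate_mul, Matrix.mul_smul, Matrix.mul_one,
    Matrix.mul_smul, Matrix.mul_adjugate, smul_smul, Matrix.det_mul, Matrix.smul_mulVec,
    Matrix.one_mulVec]

theorem i6_base : ∃ c : ℝ, 0 < c ∧ ∀ᶠ x : M.X in 𝓝 D.x₀,
    c ≤ ‖(Matrix.of fun k l => M.L D.x₀ (M.A.V l x.1) k).det‖ := by
  have h1 : Continuous fun x : M.X => ‖(Matrix.of fun k l => M.L D.x₀ (M.A.V l x.1) k).det‖ :=
    (Continuous.matrix_det (continuous_matrix fun k l => (continuous_apply k).comp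
      ((M.L D.x₀).continuous.comp (M.hol_V l).continuous))).norm
  have h2 : (Matrix.of fun k l => M.L D.x₀ (M.A.V l D.x₀.1) k).det ≠ 0 := by
    intro h
    obtain ⟨u, hu, h3⟩ := Matrix.exists_mulVec_eq_zero_iff.2 h
    rw [i6_mulVec fun l => M.L D.x₀ (M.A.V l D.x₀.1)] at h3
    have h4 : ∑ l, u l • M.A.V l D.x₀.1 = 0 :=
      BM.L_inj (Submodule.sum_mem _ fun l _ => (M.T _).smul_mem _ (M.V_mem_T l _))
        (by simpa using h3)
    have h5 := congrArg (fderiv ℂ M.A.π D.x₀.1) h4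
    simp only [map_sum, map_smul, M.A.V_π _ _ (M.U_sub D.x₀.2), map_zero] at h5
    refine hu (funext fun k => ?_)
    have h6 := congrFun h5 k
    simpa [eb, Pi.single_apply, D.Δ₀] using h6
  exact ⟨_, half_pos (norm_pos_iff.2 h2),
    h1.continuousAt.eventually (le_mem_nhds (half_lt_self (norm_pos_iff.2 h2)))⟩

theorem i6_sec : ∃ (s : E n → E N) (μ c : ℝ), 0 < μ ∧ 0 < c ∧ ∀ z ∈ M.U,
    dist z (D.φ D.x₀) < μ → s (M.A.π z) = z ∧
      ∀ y ∈ ball (M.A.π z) (c * D.HR z), AnalyticAt ℂ s y ∧ s y ∈ M.U := by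
  have hΔ : M.A.Δ (M.A.π (D.φ D.x₀)) ≠ 0 := fun h => D.gen₀ (by simp [AM.g, h])
  obtain ⟨s, s1, -, s2, s3⟩ := M.A.sec _ (D.φ_mem_Z D.x₀) hΔ
  obtain ⟨r, hr, s4⟩ := Metric.eventually_nhds_iff.1 (s1.eventually_analyticAt.and s2)
  obtain ⟨μ₁, hμ₁, s5⟩ := Metric.eventually_nhds_iff.1 ((eventually_nhdsWithin_iff.1 s3).and
    (M.A.π_diff.continuous.continuousAt.eventually (ball_mem_nhds _ (half_pos hr))))
  obtain ⟨μ, r', c', C, hμ, -, -, -, hC, h⟩ :=
    D.regular_point (D.φ_mem_closure D.x₀) (D.esc _) D.gen₀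
  obtain ⟨K, hK⟩ := i1_lip M.W.ρ_diff (‖M.A.π (D.φ D.x₀)‖ + r)
  have hK0 : (0 : ℝ) ≤ K := K.2
  refine ⟨s, min μ μ₁, min (r / 2) (1 / (C * (K + 1))), lt_min hμ hμ₁, by positivity,
    fun z hz hd => ?_⟩
  obtain ⟨p1, -, p2, -⟩ := h z hz (hd.trans_le (min_le_left _ _))
  obtain ⟨q1, q2⟩ := s5 (hd.trans_le (min_le_right _ _))
  have hH := D.HR_pos hz
  have hH1 : D.HR z ≤ 1 := (D.HR_le z).trans (D.F.r_le.trans (by norm_num))
  set d := min (r / 2) (1 / (C * (K + 1))) * D.HR z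
  have hd0 : 0 < d := by positivity
  have d1 : d ≤ r / 2 := (mul_le_of_le_one_right (by positivity) hH1).trans (min_le_left _ _)
  have d2 : d * (K + 1) ≤ |M.p z| := by
    have : d ≤ 1 / (C * (K + 1)) * (C * |M.p z|) :=
      mul_le_mul (min_le_right _ _) p2 hH.le (by positivity)
    refine (mul_le_mul_of_nonneg_right this (by positivity)).trans_eq ?_
    field_simp
  have hb : ∀ y ∈ ball (M.A.π z) d, dist y (M.A.π (D.φ D.x₀)) < r := fun y hy => by
    linarith [dist_triangle y (M.A.π z) (M.A.π (D.φ D.x₀)), mem_ball.1 hy, mem_ball.1 q2]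
  have hm : ∀ y ∈ ball (M.A.π z) d,
      (y, star y) ∈ closedBall (0 : E n × E n) (‖M.A.π (D.φ D.x₀)‖ + r) := fun y hy => by
    rw [mem_closedBall_zero_iff, Prod.norm_mk, norm_star, max_self]
    have := hb y hy
    rw [dist_eq_norm] at this
    linarith [norm_le_insert' y (M.A.π (D.φ D.x₀))]
  have hz' := q1 (M.U_sub hz)
  refine ⟨hz', fun y hy => ⟨(s4 (hb y hy)).1, ?_⟩⟩
  refine M.mem_of_preconnected (convex_ball _ d).isPreconnected
    (fun y hy => (s4 (hb y hy)).1.continuousAt.continuousWithinAt)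
    (fun y hy => (s4 (hb y hy)).2.1) (fun y hy h0 => ?_) (mem_ball_self hd0) hy (hz'.symm ▸ hz)
  have h1 := hK.dist_le_mul _ (hm y hy) _ (hm _ (mem_ball_self hd0))
  have h2 := M.ρ_eq (s y)
  rw [(s4 (hb y hy)).2.2, h0] at h2
  rw [h2, M.ρ_eq, Prod.dist_eq, dist_star_star, max_self, Complex.ofReal_zero, dist_zero_left,
    Complex.norm_real, Real.norm_eq_abs] at h1
  nlinarith [mem_ball.1 hy]

theorem det_lower : ∃ t ∈ 𝓝 D.x₀, ∃ c : ℝ, 0 < c ∧ ∀ᶠ j in (D.𝒰 : Filter ℕ), ∀ x ∈ t,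
    c * D.H j x ^ n ≤ ‖(D.Jm j x).det‖ := by
  obtain ⟨c₀, hc₀, h₀⟩ := D.i6_base
  obtain ⟨s, μ, c₁, hμ, hc₁, hs⟩ := D.i6_sec
  obtain ⟨t, ht, h⟩ := D.eventually_near (ω := D.x₀) hμ
  obtain ⟨b, hb1, hb⟩ := D.i6_bd (f := fun z => M.L D.x₀ (z - D.x₀.1)) (by fun_prop)
  refine ⟨_, interior_mem_nhds.2 (inter_mem ht h₀), c₀ / n.factorial * (c₁ / (2 * b)) ^ n,
    by positivity, h.mono fun j hj x hx => ?_⟩
  have hH := D.H_pos j x
  obtain ⟨-, h1⟩ := hs _ (D.z_mem j x) (hj x (interior_subset hx).1)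
  let g : E n → E n := fun y => M.co D.x₀ ((D.a j)⁻¹ • M.toX (s y))
  have hg : DifferentiableOn ℂ g (ball (M.A.π (D.z j x)) (c₁ * D.H j x)) := fun y hy => by
    have h2 : AnalyticAt ℂ (M.ι ∘ fun y => M.toX (s y)) y := (h1 y hy).1.congr
      (mem_of_superset (isOpen_ball.mem_nhds hy) fun y' hy' => (M.ι_toX (h1 y' hy').2).symm)
    exact (BM.HolAt.analyticAt_comp (f := fun u => M.co D.x₀ ((D.a j)⁻¹ • u))
      ((M.hol_co D.x₀ _).comp (M.hol_smul _ _)) h2).differentiableAt.differentiableWithinAt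
  have h3 := P278F.norm_fderiv_le (by positivity) hg fun y _ => hb _ (Subtype.prop _)
  have h4 : M.co D.x₀ =ᶠ[𝓝 x] fun y => g (M.A.π (D.z j y)) := by
    filter_upwards [isOpen_interior.mem_nhds hx] with y hy
    simp only [g]
    rw [(hs _ (D.z_mem j y) (hj y (interior_subset hy).1)).1, FD.z, M.toX_ι, inv_smul_smul]
  have h5 : (Matrix.of fun k l => M.L D.x₀ (M.A.V l x.1) k) =
      LinearMap.toMatrix' (fderiv ℂ g (M.A.π (D.z j x))).toLinearMap * D.Jm j x := by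
    refine Eq.trans ?_ (i6_mul _ fun l => M.df (fun y => M.A.π (D.z j y)) x (M.A.V l x.1))
    ext k l
    simp only [Matrix.of_apply]
    rw [← BM.df_co (M.V_mem_T l x), BM.df_congr h4, BM.df_ambient (D.i6_hol j x)
      (hg.differentiableAt (ball_mem_nhds _ (by positivity)))]
  have h6 : ‖(LinearMap.toMatrix' (fderiv ℂ g (M.A.π (D.z j x))).toLinearMap).det‖ ≤
      n.factorial * (2 * b / (c₁ * D.H j x)) ^ n := i6_det_le fun k l => by
    rw [LinearMap.toMatrix'_apply]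
    refine (norm_le_pi_norm _ k).trans ((ContinuousLinearMap.le_opNorm _ _).trans ?_)
    rw [Pi.norm_single, norm_one, mul_one]
    exact h3
  have h7 : c₀ ≤ _ := (interior_subset hx).2
  rw [h5, Matrix.det_mul, norm_mul] at h7
  have h8 := h7.trans (mul_le_mul_of_nonneg_right h6 (norm_nonneg _))
  have h9 : c₀ / n.factorial * (c₁ / (2 * b)) ^ n * D.H j x ^ n =
      c₀ / (n.factorial * (2 * b / (c₁ * D.H j x)) ^ n) := by
    simp only [div_pow, mul_pow]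
    field_simp
  rw [h9, div_le_iff₀' (by positivity)]
  exact h8

theorem power_bound : ∃ t₀ ∈ 𝓝 D.x₀, ∀ ω : M.X, ∃ t ∈ 𝓝 ω, ∃ c C : ℝ, 0 < c ∧ 1 ≤ C ∧
    ∀ᶠ j in (D.𝒰 : Filter ℕ), ∀ x ∈ t₀, ∀ y ∈ t, c * D.H j x ^ C ≤ D.H j y := by
  obtain ⟨t, ht, c, hc, h⟩ := D.det_lower
  obtain ⟨C₀, h₀, h₁, hC₀⟩ := local_compact_nhds ht
  refine ⟨C₀, h₀, fun ω => ?_⟩
  obtain ⟨t', ht', C', hC', κ, hκ, hd⟩ := BM.div_global ω hC₀
  obtain ⟨t'', ht'', c', hc', hW⟩ := D.H_ge_of_Wf ht'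
  obtain ⟨K, hK, hJ⟩ := D.Jm_bound hC'
  obtain ⟨v, hv, hV⟩ := D.i6_V
  obtain ⟨e, he, hΔ⟩ := D.i6_bd (M.A.Δ_diff.continuous.comp M.A.π_diff.continuous)
  set K₁ : ℝ := n.factorial * K ^ n
  have hK₁ : 1 ≤ K₁ := one_le_mul_of_one_le_of_one_le
    (Nat.one_le_cast.2 n.factorial_pos) (one_le_pow₀ hK)
  set K₂ : ℝ := (n + 1) * (e ^ 2 * v)
  have hK₂ : 1 ≤ K₂ := one_le_mul_of_one_le_of_one_le (by simp)
    (one_le_mul_of_one_le_of_one_le (one_le_pow₀ he) hv)
  refine ⟨t'', ht'', c' / K₂ * (min c 1 / K₁ / 2) ^ κ, max 1 (n * κ), by positivity,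
    le_max_left _ _, h.mono fun j hj x hx y hy => ?_⟩
  have hH := D.H_pos j x
  have hH1 : D.H j x ≤ 1 := (D.HR_le _).trans (D.F.r_le.trans (by norm_num))
  set σ := min c 1 / K₁ * D.H j x ^ n
  have hσ : 0 < σ := by positivity
  have hσ1 : σ ≤ 1 := mul_le_one₀ ((div_le_one (by positivity)).2 ((min_le_right _ _).trans hK₁))
    (by positivity) (pow_le_one₀ hH.le hH1)
  have hn : ∀ (a : ℝ) (z : ℂ), 1 ≤ a → ‖z / a‖ = ‖z‖ / a := fun a z ha => by
    rw [norm_div, Complex.norm_real, Real.norm_of_nonneg (by linarith)]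
  have h2 : ∀ y ∈ t', ‖D.Wf j y‖ ≤ K₂ * (σ / 2) ^ (-κ) := fun y hy => by
    refine (pi_norm_le_iff_of_nonneg (by positivity)).2 fun m => ?_
    rw [← div_le_iff₀' (by positivity), ← hn _ _ hK₂]
    refine hd (fun y => (D.Jm j y).det / K₁) (fun y => D.Wf j y m / K₂) σ
      (fun y => (BM.holAt_det fun k l => D.hol_Jm j k l y).div (M.holAt_const _ _)
        (by exact_mod_cast (by linarith : K₁ ≠ 0)))
      (fun y => (BM.holAt_pi_iff.1 (D.hol_Wf j y) m).div (M.holAt_const _ _)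
        (by exact_mod_cast (by linarith : K₂ ≠ 0))) hσ hσ1 (fun u hu => ?_) (fun u hu => ?_)
      ⟨x, hx, ?_⟩ y hy
    · rw [hn _ _ hK₁, div_le_one (by positivity)]
      exact i6_det_le (hJ j u hu)
    · rw [div_mul_div_comm, ← Complex.ofReal_mul,
        hn _ _ (one_le_mul_of_one_le_of_one_le hK₁ hK₂), div_le_one (by positivity)]
      refine (norm_le_pi_norm ((D.Jm j u).det • D.Wf j u) m).trans ?_
      rw [D.det_smul_Wf]
      refine (norm_sum_le_of_le _ (n := fun _ => K₁ * (e ^ 2 * v)) fun l _ => ?_).trans ?_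
      · rw [norm_smul, norm_mul, norm_pow, mul_assoc]
        refine mul_le_mul ?_ (mul_le_mul (pow_le_pow_left₀ (norm_nonneg _)
          (hΔ _ (D.z_mem j u)) 2) (hV _ u.2 l) (norm_nonneg _) (by positivity))
          (by positivity) (by positivity)
        rw [Matrix.adjugate_apply]
        refine i6_det_le fun k k' => ?_
        rw [Matrix.updateRow_apply]
        split_ifs
        · refine le_trans ?_ hK
          rw [Pi.single_apply]
          split_ifs <;> simp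
        · exact hJ j u hu k k'
      · simp only [Finset.sum_const, Finset.card_univ, Fintype.card_fin, nsmul_eq_mul, K₂]
        have : 0 ≤ K₁ * (e ^ 2 * v) := by positivity
        nlinarith
    · rw [hn _ _ hK₁]
      refine le_trans ?_ (div_le_div_of_nonneg_right (hj x (h₁ hx)) (by positivity))
      rw [mul_div_right_comm]
      exact mul_le_mul_of_nonneg_right
        (div_le_div_of_nonneg_right (min_le_left _ _) (by positivity)) (by positivity)
  refine le_trans ?_ (hW j _ (one_le_mul_of_one_le_of_one_le hK₂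
    (Real.one_le_rpow_of_pos_of_le_one_of_nonpos (by positivity) (by linarith) (by linarith)))
    h2 y hy)
  have h3 : σ / 2 = min c 1 / K₁ / 2 * D.H j x ^ (n : ℝ) := by
    rw [Real.rpow_natCast]
    ring
  rw [Real.rpow_neg (by positivity), ← div_div c' K₂, div_inv_eq_mul, h3,
    Real.mul_rpow (by positivity) (by positivity), ← Real.rpow_mul hH.le, ← mul_assoc]
  exact mul_le_mul_of_nonneg_left
    (Real.rpow_le_rpow_of_exponent_ge hH hH1 (le_max_right _ _)) (by positivity)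

end Vale.Agent.P274.FD
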