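import Vale.Agent.P274.I2
import Vale.Agent.P274.I5
import Vale.Agent.P274.I6
import Vale.Agent.P274.B9

/-! The exponent of the Hartogs radius is constant. -/

open Metric Set Filter Topology

namespace Vale.Agent.P274.FD

variable {N n : ℕ} {M : AM N n} {i : Fin n} (D : FD M i)

theorem i7_small {l : Filter ℕ} {ε : ℕ → ℝ} (h : Tendsto ε l (𝓝 0)) {η δ : ℝ} (hη : 0 < η)
    (hδ : 0 < δ) : ∀ᶠ j in l, ε j ^ η ≤ δ := by
  have h1 := (Real.continuousAt_rpow_const 0 η (Or.inr hη.le)).tendsto.comp h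
  rw [Real.zero_rpow hη.ne'] at h1
  exact h1.eventually (ge_mem_nhds hδ)

theorem Scale.exists_le {D : FD M i} {ω : M.X} {ε : ℕ → ℝ} {t : Set M.X} {c : ℝ}
    (S : D.Scale ω ε t c) {y : M.X} (hy : y ∈ t) :
    ∃ᶠ x in 𝓝 y, ∃ K : ℝ, 0 < K ∧ ∀ᶠ j in (D.𝒰 : Filter ℕ), D.H j x ≤ K * ε j := by
  refine (S.nontriv y hy).mono ?_
  rintro x ⟨c', hc', h⟩
  have hR := D.R₀_pos
  refine ⟨2 * D.R₀ / c', by positivity, h.mono fun j hj => ?_⟩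
  rw [div_mul_eq_mul_div, le_div_iff₀ hc']
  have h1 := mul_le_mul_of_nonneg_left hj (D.H_pos j x).le
  have h2 := mul_le_mul_of_nonneg_left (D.norm_Wf_mul_H j x) (S.pos j).le
  linarith

theorem H_upper {ε : ℕ → ℝ} {t : Set M.X} {c : ℝ} (S : D.Scale D.x₀ ε t c) :
    ∃ t₀ ∈ 𝓝 D.x₀, ∃ κ : ℝ, 0 < κ ∧ ∀ᶠ j in (D.𝒰 : Filter ℕ), ∀ x ∈ t₀, D.H j x ≤ ε j ^ κ := by
  obtain ⟨t₀, ht₀, h⟩ := D.power_bound
  obtain ⟨t', ht', c', C, hc', hC, h1⟩ := h D.x₀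
  obtain ⟨y, ⟨K, hK, h2⟩, hy⟩ := ((S.exists_le S.mem).and_eventually ht').exists
  have hC0 : 0 < C := one_pos.trans_le hC
  refine ⟨t₀, ht₀, 1 / 2 * C⁻¹, by positivity, ?_⟩
  filter_upwards [h1, h2, i7_small S.tendsto one_half_pos (div_pos hc' hK)] with j a1 a2 a3 x hx
  have he := S.pos j
  have a4 : D.H j x ^ C ≤ ε j ^ (1 / 2 : ℝ) := by
    have a5 : ε j = ε j ^ (1 / 2 : ℝ) * ε j ^ (1 / 2 : ℝ) := by
      rw [← Real.rpow_add he]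
      norm_num
    have a6 := mul_le_mul_of_nonneg_right ((le_div_iff₀ hK).1 a3)
      (Real.rpow_pos_of_pos he (1 / 2)).le
    refine le_of_mul_le_mul_left ((a1 x hx y hy).trans (a2.trans ?_)) hc'
    conv_lhs => rw [a5]
    linarith
  rw [Real.rpow_mul he.le]
  exact (Real.le_rpow_inv_iff_of_pos (D.H_pos j x).le (by positivity) hC0).2 a4

/-- Admissible exponents near `ω`. -/
def i7A (ε : ℕ → ℝ) (ω : M.X) : Set ℝ :=
  {μ | 0 ≤ μ ∧ ∃ t ∈ 𝓝 ω, ∀ᶠ j in (D.𝒰 : Filter ℕ), ∀ x ∈ t, ε j ^ μ ≤ D.H j x}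

variable {D}

theorem i7_of_const {ω₀ : M.X} {ε : ℕ → ℝ} {t : Set M.X} {c : ℝ} (S : D.Scale ω₀ ε t c) {ω : M.X}
    {t' : Set M.X} (ht' : t' ∈ 𝓝 ω) {a μ η : ℝ} (ha : 0 < a) (hμ : 0 ≤ μ) (hη : 0 < η)
    (h : ∀ᶠ j in (D.𝒰 : Filter ℕ), ∀ x ∈ t', a * ε j ^ μ ≤ D.H j x) : μ + η ∈ D.i7A ε ω := by
  refine ⟨by positivity, t', ht', ?_⟩
  filter_upwards [h, i7_small S.tendsto hη ha] with j a1 a2 x hx
  refine le_trans ?_ (a1 x hx)
  rw [Real.rpow_add (S.pos j), mul_comm]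
  exact mul_le_mul_of_nonneg_right a2 (Real.rpow_pos_of_pos (S.pos j) _).le

theorem i7_nonempty {ε : ℕ → ℝ} {t : Set M.X} {c : ℝ} (S : D.Scale D.x₀ ε t c) (ω : M.X) :
    (D.i7A ε ω).Nonempty := by
  obtain ⟨t₀, ht₀, h⟩ := D.power_bound
  obtain ⟨t', ht', c', C, hc', hC, h1⟩ := h ω
  have hC0 : 0 < C := one_pos.trans_le hC
  have hc := S.c_pos
  refine ⟨_, i7_of_const S ht' (a := c' * c ^ C) (by positivity) hC0.le one_pos ?_⟩
  filter_upwards [h1, S.low] with j a1 a2 y hy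
  refine le_trans ?_ (a1 _ (mem_of_mem_nhds ht₀) y hy)
  rw [mul_assoc, ← Real.mul_rpow hc.le (S.pos j).le]
  exact mul_le_mul_of_nonneg_left
    (Real.rpow_le_rpow (mul_pos hc (S.pos j)).le (a2 _ S.mem) hC0.le) hc'.le

theorem i7_le {ε : ℕ → ℝ} {ω : M.X} {μ : ℝ} (h : μ ∈ D.i7A ε ω) : sInf (D.i7A ε ω) ≤ μ :=
  csInf_le ⟨0, fun _ h => h.1⟩ h

theorem i7_mem {ε : ℕ → ℝ} {t : Set M.X} {c : ℝ} (S : D.Scale D.x₀ ε t c) {ω : M.X} {μ : ℝ}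
    (h : sInf (D.i7A ε ω) < μ) : μ ∈ D.i7A ε ω := by
  obtain ⟨μ', ⟨h0, t', ht', h1⟩, h2⟩ := exists_lt_of_csInf_lt (i7_nonempty S ω) h
  have h3 := i7_of_const S ht' one_pos h0 (sub_pos.2 h2) (by simpa only [one_mul] using h1)
  rwa [add_sub_cancel] at h3

theorem i7_usc {ε : ℕ → ℝ} {t : Set M.X} {c : ℝ} (S : D.Scale D.x₀ ε t c) :
    UpperSemicontinuous (fun ω => sInf (D.i7A ε ω)) := by
  intro x μ hμ
  obtain ⟨μ', h1, h2⟩ := exists_between hμ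
  obtain ⟨h0, t', ht', h3⟩ := i7_mem S h1
  filter_upwards [eventually_mem_nhds_iff.2 ht'] with y hy
  exact (i7_le ⟨h0, t', hy, h3⟩).trans_lt h2

theorem i7_const {ε : ℕ → ℝ} {t : Set M.X} {c : ℝ} (S : D.Scale D.x₀ ε t c) {ω : M.X}
    {ε' : ℕ → ℝ} {t' : Set M.X} {c' : ℝ} (S' : D.Scale ω ε' t' c') {y y' : M.X} (hy : y ∈ t')
    (hy' : y' ∈ t') : sInf (D.i7A ε y') ≤ sInf (D.i7A ε y) := by
  refine le_of_forall_gt_imp_ge_of_dense fun μ hμ => ?_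
  obtain ⟨μ', h1, h2⟩ := exists_between hμ
  obtain ⟨h0, s, hs, h3⟩ := i7_mem S h1
  obtain ⟨x, ⟨K, hK, h4⟩, hx⟩ := ((S'.exists_le hy).and_eventually hs).exists
  have h5 := i7_of_const S (S'.isOpen.mem_nhds hy') (div_pos S'.c_pos hK) h0 (sub_pos.2 h2) (by
    filter_upwards [h3, h4, S'.low] with j a1 a2 a3 u hu
    refine le_trans ?_ (a3 u hu)
    rw [div_mul_eq_mul_div, div_le_iff₀ hK]
    have a4 := mul_le_mul_of_nonneg_left ((a1 x hx).trans a2) S'.c_pos.le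
    linarith)
  rw [add_sub_cancel] at h5
  exact i7_le h5

theorem i7_subMean {ε : ℕ → ℝ} {t : Set M.X} {c : ℝ} (S : D.Scale D.x₀ ε t c) (x : M.X) :
    SubMean ((fun ω => sInf (D.i7A ε ω)) ∘ M.ψ x) (M.r x) := by
  intro w v hv g hg hp h
  have hw : w ∈ ball (0 : E n) (M.r x) := by simpa using hv 0 (by simp)
  have hcirc : ∀ θ, w + ce θ • v ∈ ball (0 : E n) (M.r x) := fun θ => hv _ (norm_ce θ).le
  have h0 : 0 ≤ cmean g := by
    rw [← cmean_const 0]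
    exact cmean_mono continuous_const hg fun θ hθ => (i7_mem S (h θ hθ)).1
  have h1 : ∀ᶠ w' in 𝓝 w, ∀ ζ ∈ closedBall (0 : ℂ) 1, w' + ζ • v ∈ ball (0 : E n) (M.r x) := by
    refine (isCompact_closedBall (0 : ℂ) 1).eventually_forall_of_forall_eventually fun ζ hζ => ?_
    have a1 : Continuous (fun q : E n × ℂ => q.1 + q.2 • v) := by fun_prop
    exact (a1.tendsto (w, ζ)).eventually
      (isOpen_ball.mem_nhds (hv ζ (mem_closedBall_zero_iff.1 hζ)))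
  have h2 : {q : (ℕ × E n) × ℝ | ε q.1.1 ^ g q.2 ≤ D.H q.1.1 (M.ψ x (q.1.2 + ce q.2 • v))} ∈
      ((D.𝒰 : Filter ℕ) ×ˢ 𝓝 w) ×ˢ 𝓝ˢ (Icc 0 (2 * Real.pi)) := by
    refine isCompact_Icc.mem_prod_nhdsSet_of_forall fun θ hθ => ?_
    obtain ⟨μ, b1, b2⟩ := exists_between (h θ hθ)
    obtain ⟨-, s, hs, b3⟩ := i7_mem S b1
    have c1 : Tendsto (fun q : (ℕ × E n) × ℝ => q.1.1) (((D.𝒰 : Filter ℕ) ×ˢ 𝓝 w) ×ˢ 𝓝 θ) D.𝒰 :=
      tendsto_fst.comp tendsto_fst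
    have c2 : Tendsto (fun q : (ℕ × E n) × ℝ => q.1.2 + ce q.2 • v)
        (((D.𝒰 : Filter ℕ) ×ˢ 𝓝 w) ×ˢ 𝓝 θ) (𝓝 (w + ce θ • v)) :=
      (tendsto_snd.comp tendsto_fst).add
        (((continuous_ce.tendsto θ).comp tendsto_snd).smul_const v)
    have c3 := ((M.continuousOn_ψ x).continuousAt (isOpen_ball.mem_nhds (hcirc θ))).tendsto.comp c2
    filter_upwards [c1.eventually b3, c1.eventually (S.tendsto.eventually (ge_mem_nhds one_pos)),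
      c3.eventually hs, ((hg.tendsto θ).comp tendsto_snd).eventually (lt_mem_nhds b2)]
      with q a1 a2 a3 a4
    exact (Real.rpow_le_rpow_of_exponent_ge (S.pos _) a2 a4.le).trans (a1 _ a3)
  obtain ⟨s₁, hs₁, s₂, hs₂, h3⟩ := mem_prod_iff.1 h2
  obtain ⟨u₁, hu₁, u₂, hu₂, h4⟩ := mem_prod_iff.1 hs₁
  refine i7_le ⟨h0, M.ψ x '' (u₂ ∩
    {w' | ∀ ζ ∈ closedBall (0 : ℂ) 1, w' + ζ • v ∈ ball (0 : E n) (M.r x)}), ?_, ?_⟩
  · rw [← M.map_ψ_nhds x hw]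
    exact image_mem_map (inter_mem hu₂ h1)
  · filter_upwards [hu₁] with j hj
    rintro _ ⟨w', ⟨a1, a2⟩, rfl⟩
    have hd : DiffContOnCl ℂ (fun ζ : ℂ => D.z j (M.ψ x (w' + ζ • v))) (ball 0 1) := by
      refine DifferentiableOn.diffContOnCl ?_
      rw [closure_ball _ one_ne_zero]
      intro ζ hζ
      have b1 : DifferentiableAt ℂ (fun ζ : ℂ => w' + ζ • v) ζ := by fun_prop
      exact (DifferentiableAt.comp (g := D.z j ∘ M.ψ x) ζ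
        ((D.hol_z j).analyticOnNhd x _ (a2 ζ hζ)).differentiableAt b1).differentiableWithinAt
    have key := D.super_mean hd (fun ζ _ => D.z_mem j _) (g := fun θ => Real.log (ε j) * g θ)
      (continuous_const.mul hg) (by rw [hp]) (fun θ hθ => by
        rw [← Real.rpow_def_of_pos (S.pos j)]
        exact h3 (show ((j, w'), θ) ∈ s₁ ×ˢ s₂ from
          ⟨h4 ⟨hj, a1⟩, subset_of_mem_nhdsSet hs₂ hθ⟩))
    rw [cmean_const_mul, ← Real.rpow_def_of_pos (S.pos j), zero_smul, add_zero] at key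
    exact key

variable (D)

theorem H_lower {ε : ℕ → ℝ} {t : Set M.X} {c : ℝ} (S : D.Scale D.x₀ ε t c) (ω : M.X) {κ : ℝ}
    (hκ : 0 < κ) :
    ∃ t' ∈ 𝓝 ω, ∀ᶠ j in (D.𝒰 : Filter ℕ), ∀ x ∈ t', ε j ^ (1 + κ) ≤ D.H j x := by
  have h1 := BM.psh_const D.sesq_gφ (i7_usc S) (i7_subMean S) (fun x hx => by
    obtain ⟨ε', t', c', S'⟩ := D.exists_scale hx
    filter_upwards [S'.isOpen.mem_nhds S'.mem] with y hy
    exact le_antisymm (i7_const S S' S'.mem hy) (i7_const S S' hy S'.mem)) D.gen₀ ω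
  have h2 := i7_le (i7_of_const S (S.isOpen.mem_nhds S.mem) S.c_pos zero_le_one (half_pos hκ)
    (by simpa only [Real.rpow_one] using S.low))
  exact (i7_mem S (μ := 1 + κ) (by linarith)).2

end Vale.Agent.P274.FD
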