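import Vale.Agent.P274.B4

/-! Approximate pluriharmonicity of the argument on one complex line. -/

open Metric Set Filter Topology

namespace Vale.Agent.P274

/-- The mixed second derivative. -/
noncomputable def i8m (f : ℂ × ℂ → ℂ) (q : ℂ × ℂ) : ℂ :=
  fderiv ℂ (fun q => fderiv ℂ f q (1, 0)) q (0, 1)

theorem i8_d1 {F : ℂ × ℂ → ℂ} {a c x : ℂ} (h : DifferentiableAt ℂ F (a + x, c)) :
    HasDerivAt (fun x => F (a + x, c)) (fderiv ℂ F (a + x, c) (1, 0)) x :=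
  h.hasFDerivAt.comp_hasDerivAt x (((hasDerivAt_id x).const_add a).prodMk (hasDerivAt_const x c))

theorem i8_d2 {F : ℂ × ℂ → ℂ} {a c x : ℂ} (h : DifferentiableAt ℂ F (c, a + x)) :
    HasDerivAt (fun x => F (c, a + x)) (fderiv ℂ F (c, a + x) (0, 1)) x :=
  h.hasFDerivAt.comp_hasDerivAt x ((hasDerivAt_const x c).prodMk ((hasDerivAt_id x).const_add a))

theorem i8_mix {f : ℂ × ℂ → ℂ} {R ρ σ : ℝ} {a b A : ℂ} (hf : DifferentiableOn ℂ f (ball 0 R))
    (hs : ball (a, b) ρ ⊆ ball 0 R) (h : ∀ q ∈ ball (a, b) ρ, ‖i8m f q - A‖ ≤ σ)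
    {x y : ℂ} (hx : ‖x‖ < ρ) (hy : ‖y‖ < ρ) :
    ‖f (a + x, b + y) - f (a + x, b) - f (a, b + y) + f (a, b) - A * (x * y)‖ ≤
      σ * (‖x‖ * ‖y‖) := by
  have hρ : 0 < ρ := (norm_nonneg x).trans_lt hx
  have hm : ∀ x' ∈ ball (0 : ℂ) ρ, ∀ y' ∈ ball (0 : ℂ) ρ, (a + x', b + y') ∈ ball (a, b) ρ := by
    intro x' h1 y' h2
    rw [← ball_prod_same]
    exact ⟨by simpa using h1, by simpa using h2⟩
  have hg := P278F.differentiableOn_fderiv_apply isOpen_ball hf (1, 0)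
  have h0 : (0 : ℂ) ∈ ball (0 : ℂ) ρ := mem_ball_self hρ
  have hy' := mem_ball_zero_iff.2 hy
  have h1 : ∀ x' ∈ ball (0 : ℂ) ρ, ‖fderiv ℂ f (a + x', b + y) (1, 0) -
      fderiv ℂ f (a + x', b + 0) (1, 0) - A * y‖ ≤ σ * ‖y‖ := by
    intro x' hx'
    have a1 := (convex_ball (0 : ℂ) ρ).norm_image_sub_le_of_norm_hasDerivWithin_le
      (f := fun y' => fderiv ℂ f (a + x', b + y') (1, 0) - A * y')
      (fun y' hy' => ((i8_d2 (hg.differentiableAt (isOpen_ball.mem_nhds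
        (hs (hm x' hx' y' hy'))))).sub ((hasDerivAt_id y').const_mul A)).hasDerivWithinAt)
      (fun y' hy' => by
        rw [mul_one]
        exact h _ (hm x' hx' y' hy')) h0 hy'
    rw [sub_zero] at a1
    refine le_trans (le_of_eq (congrArg _ ?_)) a1
    ring
  have a1 := (convex_ball (0 : ℂ) ρ).norm_image_sub_le_of_norm_hasDerivWithin_le
    (f := fun x' => f (a + x', b + y) - f (a + x', b + 0) - A * y * x')
    (fun x' hx' => (((i8_d1 (hf.differentiableAt (isOpen_ball.mem_nhds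
      (hs (hm x' hx' y hy'))))).sub (i8_d1 (hf.differentiableAt (isOpen_ball.mem_nhds
      (hs (hm x' hx' 0 h0)))))).sub ((hasDerivAt_id x').const_mul (A * y))).hasDerivWithinAt)
    (fun x' hx' => by
      rw [mul_one]
      exact h1 x' hx') h0 (mem_ball_zero_iff.2 hx)
  simp only [add_zero, sub_zero] at a1
  refine le_trans (le_of_eq (congrArg _ ?_)) (a1.trans_eq ?_) <;> ring

theorem i8_cauchy {f : ℂ × ℂ → ℂ} {R B δ : ℝ} (hδ : 0 < δ) (hf : DifferentiableOn ℂ f (ball 0 R))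
    (hB : ∀ q ∈ ball (0 : ℂ × ℂ) R, ‖f q‖ ≤ B) {e : ℂ × ℂ} (he : ‖e‖ ≤ 1) :
    ∀ q ∈ ball (0 : ℂ × ℂ) (R - δ), ‖fderiv ℂ f q e‖ ≤ 2 * B / δ := by
  intro q hq
  have hs : ball q δ ⊆ ball 0 R := ball_subset_ball' (by linarith [mem_ball.1 hq])
  have h1 := P278F.norm_fderiv_le hδ (hf.mono hs) (fun z hz => hB z (hs hz))
  exact ((fderiv ℂ f q).le_opNorm e).trans
    ((mul_le_of_le_one_right (norm_nonneg _) he).trans h1)

theorem i8_hol {f : ℂ × ℂ → ℂ} {R : ℝ} (hf : DifferentiableOn ℂ f (ball 0 R)) :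
    DifferentiableOn ℂ (i8m f) (ball 0 R) :=
  P278F.differentiableOn_fderiv_apply isOpen_ball
    (P278F.differentiableOn_fderiv_apply isOpen_ball hf (1, 0)) (0, 1)

theorem i8_bound {f : ℂ × ℂ → ℂ} {R : ℝ} (hR : 0 < R) (hf : DifferentiableOn ℂ f (ball 0 R))
    (hB : ∀ q ∈ ball (0 : ℂ × ℂ) R, ‖f q‖ ≤ 2) :
    ∀ q ∈ ball (0 : ℂ × ℂ) (3 * R / 4), ‖i8m f q‖ ≤ 512 / R ^ 2 := by
  intro q hq
  have h1 := i8_cauchy (δ := R / 8) (by positivity) hf hB (e := (1, 0)) (by simp)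
  have h2 := i8_cauchy (δ := R / 8) (by positivity)
    ((P278F.differentiableOn_fderiv_apply isOpen_ball hf (1, 0)).mono
      (ball_subset_ball (by linarith))) h1 (e := (0, 1)) (by simp) q
    (ball_subset_ball (by linarith) hq)
  refine h2.trans_eq ?_
  field_simp
  norm_num

/-- The mixed second difference is controlled by the mixed derivative. -/
theorem mixed_taylor {R : ℝ} (hR : 0 < R) : ∃ K : ℝ, 0 < K ∧ ∀ f : ℂ × ℂ → ℂ,
    DifferentiableOn ℂ f (ball 0 R) → (∀ q ∈ ball (0 : ℂ × ℂ) R, ‖f q‖ ≤ 2) →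
    ∀ a b : ℂ, ‖a‖ < R / 2 → ‖b‖ < R / 2 → ∀ x y : ℂ, ‖x‖ ≤ R / 8 → ‖y‖ ≤ R / 8 →
      ‖f (a + x, b + y) - f (a + x, b) - f (a, b + y) + f (a, b) -
        fderiv ℂ (fun q => fderiv ℂ f q (1, 0)) (a, b) (0, 1) * (x * y)‖ ≤
        K * (‖x‖ * ‖y‖ * (‖x‖ + ‖y‖)) := by
  refine ⟨2 * (2 * (512 / R ^ 2) / (R / 4)), by positivity, fun f hf hB a b ha hb x y hx hy => ?_⟩
  by_cases h0 : x = 0
  · simp [h0]
  have hx0 := norm_pos_iff.2 h0
  have hab : dist (a, b) (0 : ℂ × ℂ) < R / 2 := by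
    rw [dist_zero_right, Prod.norm_def]
    exact max_lt ha hb
  have hs : ball (a, b) (R / 4) ⊆ ball (0 : ℂ × ℂ) (3 * R / 4) := ball_subset_ball' (by linarith)
  have hs' : ball (0 : ℂ × ℂ) (3 * R / 4) ⊆ ball 0 R := ball_subset_ball (by linarith)
  have hm : max ‖x‖ ‖y‖ ≤ R / 8 := max_le hx hy
  have hm' : max ‖x‖ ‖y‖ ≤ ‖x‖ + ‖y‖ :=
    max_le (le_add_of_nonneg_right (norm_nonneg _)) (le_add_of_nonneg_left (norm_nonneg _))
  have hs2 : ball (a, b) (2 * max ‖x‖ ‖y‖) ⊆ ball (a, b) (R / 4) := ball_subset_ball (by linarith)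
  have h1 := i8_mix (A := i8m f (a, b)) (σ := 2 * (512 / R ^ 2) / (R / 4) * (2 * (‖x‖ + ‖y‖))) hf
    (hs2.trans (hs.trans hs')) (fun q hq => by
      refine (P278F.norm_sub_le_of_bound ((i8_hol hf).mono (hs.trans hs'))
        (fun z hz => i8_bound hR hf hB z (hs hz)) (hs2 hq)).trans ?_
      refine mul_le_mul_of_nonneg_left ?_ (by positivity)
      rw [mem_ball, dist_eq_norm] at hq
      linarith) (x := x) (y := y) (by linarith [le_max_left ‖x‖ ‖y‖])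
    (by linarith [le_max_left ‖x‖ ‖y‖, le_max_right ‖x‖ ‖y‖])
  refine h1.trans_eq ?_
  ring

theorem mixed_small {f : ℂ × ℂ → ℂ} {R σ : ℝ} (hf : DifferentiableOn ℂ f (ball 0 R))
    (h : ∀ q ∈ ball (0 : ℂ × ℂ) R, ‖fderiv ℂ (fun q => fderiv ℂ f q (1, 0)) q (0, 1)‖ ≤ σ)
    {x y : ℂ} (hx : ‖x‖ < R) (hy : ‖y‖ < R) :
    ‖f (x, y) - f (x, 0) - f (0, y) + f (0, 0)‖ ≤ σ * (‖x‖ * ‖y‖) := by
  have h1 := i8_mix (a := 0) (b := 0) (A := 0) hf subset_rfl
    (fun q hq => by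
      rw [sub_zero]
      exact h q hq) hx hy
  simpa only [zero_add, zero_mul, sub_zero] using h1

/-- The abstract disc hypothesis (conclusion of `WF.disc_angle`) for the function
`ζ ↦ u (ζ, conj ζ)`. -/
def DiscHyp (u : ℂ × ℂ → ℂ) (R δ : ℝ) : Prop :=
  ∀ (a : ℂ) (r : ℝ) (k : ℂ → ℂ) (α : ℝ), 0 < r → ‖a‖ + r < R → DiffContOnCl ℂ k (ball 0 1) →
    (∀ ζ ∈ closedBall (0 : ℂ) 1, ‖k ζ‖ ≤ 1) → k 0 = 0 → 0 < α → α ≤ 1 →
    (∀ ζ ∈ sphere (0 : ℂ) 1,
      1 / 4 ≤ (u (a + r * ζ, star (a + r * ζ)) * Complex.exp (-k ζ) / u (a, star a)).re ∧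
      ‖u (a + r * ζ, star (a + r * ζ)) * Complex.exp (-k ζ) / u (a, star a)‖ ≤ 4) →
    ((∀ ζ ∈ sphere (0 : ℂ) 1,
        α ≤ (u (a + r * ζ, star (a + r * ζ)) * Complex.exp (-k ζ) / u (a, star a)).im) ∨
      ∀ ζ ∈ sphere (0 : ℂ) 1,
        (u (a + r * ζ, star (a + r * ζ)) * Complex.exp (-k ζ) / u (a, star a)).im ≤ -α) →
    α ^ 2 ≤ δ

theorem i8_log {z : ℂ} (h : ‖z - 1‖ ≤ 1 / 10) :
    z ∈ Complex.slitPlane ∧ ‖Complex.log z‖ ≤ 1 / 9 ∧ ‖z‖ ≤ 11 / 10 := by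
  have h1 : ‖z - 1‖ < 1 := by linarith
  have h2 := Complex.mem_slitPlane_of_norm_lt_one h1
  have h3 := Complex.norm_log_one_add_le h1
  have h4 := norm_add_le (1 : ℂ) (z - 1)
  rw [add_sub_cancel] at h2 h3 h4
  refine ⟨h2, h3.trans ?_, by rw [norm_one] at h4; linarith⟩
  have h5 : (1 - ‖z - 1‖)⁻¹ ≤ 10 / 9 := by
    rw [inv_le_comm₀ (by linarith) (by norm_num)]
    linarith
  have h6 : ‖z - 1‖ ^ 2 ≤ 1 / 100 := by nlinarith [norm_nonneg (z - 1)]
  have h7 := mul_le_mul h6 h5 (inv_nonneg.2 (by linarith)) (by norm_num)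
  linarith

theorem i8_exp {w : ℂ} (h : ‖w‖ ≤ 2 / 3) : (1 / 4 ≤ (Complex.exp w).re ∧ ‖Complex.exp w‖ ≤ 4) ∧
    (0 < w.im → w.im / 6 ≤ (Complex.exp w).im) ∧ (w.im < 0 → (Complex.exp w).im ≤ w.im / 6) := by
  have h1 := abs_le.1 ((Complex.abs_re_le_norm w).trans h)
  have h2 := abs_le.1 ((Complex.abs_im_le_norm w).trans h)
  have h3 : 1 / 3 ≤ Real.exp w.re := by linarith [Real.add_one_le_exp w.re]
  have h4 : ∀ t : ℝ, 0 < t → t ≤ 2 / 3 → t / 6 ≤ Real.exp w.re * Real.sin t := by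
    intro t a1 a2
    have a3 := Real.sin_gt_sub_cube a1
    have a4 : t ^ 3 ≤ t := pow_le_of_le_one a1.le (by linarith) (by norm_num)
    nlinarith
  refine ⟨⟨?_, ?_⟩, fun a1 => ?_, fun a1 => ?_⟩
  · rw [Complex.exp_re]
    have a1 := Real.one_sub_sq_div_two_le_cos (x := w.im)
    have a2 : 7 / 9 ≤ Real.cos w.im := by nlinarith
    nlinarith
  · rw [Complex.norm_exp]
    linarith [Real.exp_le_exp.2 (show w.re ≤ 1 by linarith), Real.exp_one_lt_d9]
  · rw [Complex.exp_im]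
    exact h4 _ a1 h2.2
  · have a2 := h4 (-w.im) (by linarith) (by linarith)
    rw [Complex.exp_im]
    rw [Real.sin_neg] at a2
    linarith

/-- The polarised argument. -/
noncomputable def i8L (u : ℂ × ℂ → ℂ) (q : ℂ × ℂ) : ℂ :=
  Complex.log (u q) - starRingEnd ℂ (Complex.log (u (star q.2, star q.1)))

theorem i8_mem {R : ℝ} {z w : ℂ} (hz : ‖z‖ < R) (hw : ‖w‖ < R) : (z, w) ∈ ball (0 : ℂ × ℂ) R :=
  mem_ball_zero_iff.2 (max_lt hz hw)

theorem i8_swap {R : ℝ} {q : ℂ × ℂ} (hq : q ∈ ball (0 : ℂ × ℂ) R) :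
    (star q.2, star q.1) ∈ ball (0 : ℂ × ℂ) R := by
  rw [mem_ball_zero_iff, Prod.norm_def, max_lt_iff] at hq
  exact i8_mem (by rw [norm_star]; exact hq.2) (by rw [norm_star]; exact hq.1)

section

variable {u : ℂ × ℂ → ℂ} {R : ℝ} (hu : DifferentiableOn ℂ u (ball 0 R))
  (h1 : ∀ q ∈ ball (0 : ℂ × ℂ) R, ‖u q - 1‖ ≤ 1 / 10)

include h1 in
theorem i8L_le {q : ℂ × ℂ} (hq : q ∈ ball (0 : ℂ × ℂ) R) : ‖i8L u q‖ ≤ 2 / 9 := by
  refine (norm_sub_le _ _).trans ?_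
  rw [Complex.norm_conj]
  linarith [(i8_log (h1 q hq)).2.1, (i8_log (h1 _ (i8_swap hq))).2.1]

include hu h1 in
theorem i8L_hol : DifferentiableOn ℂ (i8L u) (ball 0 R) := by
  have a1 : ∀ q ∈ ball (0 : ℂ × ℂ) R, DifferentiableAt ℂ (fun q => Complex.log (u q)) q :=
    fun q hq => (hu.differentiableAt (isOpen_ball.mem_nhds hq)).clog (i8_log (h1 q hq)).1
  intro q hq
  have a2 := (a1 _ (i8_swap hq)).star_star
  have a3 : star (star q.2, star q.1) = (q.2, q.1) := Prod.ext (star_star _) (star_star _)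
  rw [a3] at a2
  have a4 := a2.comp q (f := fun q : ℂ × ℂ => (q.2, q.1)) (by fun_prop)
  exact ((a1 q hq).sub a4).differentiableWithinAt

include hu h1 in
/-- The mixed derivative of the polarised argument is small on the diagonal. -/
theorem i8_diag {K : ℝ} (hR : 0 < R) (hK : 0 < K)
    (hT : ∀ a b : ℂ, ‖a‖ < R / 2 → ‖b‖ < R / 2 → ∀ x y : ℂ, ‖x‖ ≤ R / 8 → ‖y‖ ≤ R / 8 →
      ‖i8L u (a + x, b + y) - i8L u (a + x, b) - i8L u (a, b + y) + i8L u (a, b) -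
        i8m (i8L u) (a, b) * (x * y)‖ ≤ K * (‖x‖ * ‖y‖ * (‖x‖ + ‖y‖)))
    {s : ℝ} (hs : 0 < s) (hs1 : s ≤ 1) (hD : DiscHyp u R (s ^ 6)) {a : ℂ} (ha : ‖a‖ < R / 2) :
    ‖i8m (i8L u) (a, star a)‖ ≤ (K * R + 1536 / R ^ 2) * s := by
  obtain ⟨r, hr⟩ : ∃ r, r = s * R / 8 := ⟨_, rfl⟩
  have hr0 : 0 < r := by rw [hr]; positivity
  have hr1 : r ≤ R / 8 := by rw [hr]; nlinarith
  have haR : ‖a‖ < R := by linarith
  have hsa : ‖star a‖ < R := by rwa [norm_star]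
  have hz : ∀ ζ : ℂ, ‖ζ‖ ≤ 1 → ‖a + r * ζ‖ < R := by
    intro ζ hζ
    refine (norm_add_le _ _).trans_lt ?_
    rw [norm_mul, Complex.norm_real, Real.norm_of_nonneg hr0.le]
    nlinarith
  obtain ⟨A, hA⟩ : ∃ A, A = i8m (i8L u) (a, star a) := ⟨_, rfl⟩
  let k : ℂ → ℂ := fun ζ => i8L u (a + r * ζ, star a) - i8L u (a, star a)
  let w : ℂ → ℂ := fun ζ =>
    Complex.log (u (a + r * ζ, star (a + r * ζ))) - k ζ - Complex.log (u (a, star a))
  have hk : ∀ ζ : ℂ, ‖ζ‖ ≤ 1 → ‖k ζ‖ ≤ 4 / 9 := fun ζ hζ => (norm_sub_le _ _).trans (by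
    linarith [i8L_le h1 (i8_mem (hz ζ hζ) hsa), i8L_le h1 (i8_mem haR hsa)])
  have hw : ∀ ζ ∈ sphere (0 : ℂ) 1, ‖w ζ‖ ≤ 2 / 3 ∧ Complex.exp (w ζ) =
      u (a + r * ζ, star (a + r * ζ)) * Complex.exp (-k ζ) / u (a, star a) := by
    intro ζ hζ
    have b0 := (mem_sphere_zero_iff_norm.1 hζ).le
    have b1 := i8_log (h1 _ (i8_mem (hz ζ b0) (by rw [norm_star]; exact hz ζ b0)))
    have b2 := i8_log (h1 _ (i8_mem haR hsa))
    constructor
    · refine (norm_sub_le _ _).trans ((add_le_add (norm_sub_le _ _) le_rfl).trans ?_)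
      linarith [hk ζ b0, b1.2.1, b2.2.1]
    · simp only [w]
      rw [Complex.exp_sub, sub_eq_add_neg, Complex.exp_add,
        Complex.exp_log (Complex.slitPlane_ne_zero b1.1),
        Complex.exp_log (Complex.slitPlane_ne_zero b2.1)]
  have hE : ∀ ζ ∈ sphere (0 : ℂ) 1, |A.re| * r ^ 2 ≤ 2 * K * r ^ 3 ∧
      |2 * (w ζ).im - A.im * r ^ 2| ≤ 2 * K * r ^ 3 := by
    intro ζ hζ
    have b0 := mem_sphere_zero_iff_norm.1 hζ
    have b1 : ‖(r : ℂ) * ζ‖ = r := by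
      rw [norm_mul, Complex.norm_real, Real.norm_of_nonneg hr0.le, b0, mul_one]
    have b2 := hT a (star a) ha (by rwa [norm_star]) (r * ζ) (star (r * ζ)) (by rwa [b1])
      (by rwa [norm_star, b1])
    have b3 : i8L u (a + r * ζ, star a + star (r * ζ)) - i8L u (a + r * ζ, star a) -
        i8L u (a, star a + star (r * ζ)) + i8L u (a, star a) = w ζ - starRingEnd ℂ (w ζ) := by
      simp only [w, k, i8L, ← star_add, star_star, map_sub, Complex.conj_conj]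
      ring
    rw [b3, Complex.sub_conj, ← hA, norm_star, Complex.star_def, Complex.mul_conj', b1] at b2
    have b4 := (Complex.abs_re_le_norm _).trans b2
    have b5 := (Complex.abs_im_le_norm _).trans b2
    simp only [← Complex.ofReal_pow, Complex.sub_re, Complex.sub_im, Complex.mul_re,
      Complex.mul_im, Complex.ofReal_re, Complex.ofReal_im, Complex.I_re, Complex.I_im, mul_zero,
      mul_one, sub_zero, zero_sub, add_zero, zero_add, abs_neg, abs_mul,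
      abs_of_pos (pow_pos hr0 2)] at b4 b5
    constructor <;> linarith
  have h10 : (1 : ℂ) ∈ sphere (0 : ℂ) 1 := by simp
  have hre : |A.re| ≤ K * R / 4 * s := by
    have b1 : |A.re| ≤ 2 * K * r :=
      le_of_mul_le_mul_right (by linarith [(hE 1 h10).1]) (pow_pos hr0 2)
    rw [hr] at b1
    linarith
  have him : |A.im| ≤ (K * R / 2 + 1536 / R ^ 2) * s := by
    have c0 : 0 ≤ 1536 / R ^ 2 * s := by positivity
    have c1 : 0 ≤ K * R / 2 * s := by positivity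
    by_cases hc : |A.im| ≤ 4 * K * r
    · rw [hr] at hc
      linarith
    rw [not_le] at hc
    have c2 : 0 < |A.im| := lt_trans (by positivity) hc
    have c3 := mul_lt_mul_of_pos_right hc (pow_pos hr0 2)
    have c4 : 0 < |A.im| * r ^ 2 / 24 := by positivity
    have key := hD a r k (|A.im| * r ^ 2 / 24) hr0 (by linarith) ?_
      (fun ζ hζ => (hk ζ (mem_closedBall_zero_iff.1 hζ)).trans (by norm_num)) (by simp [k]) c4 ?_
      (fun ζ hζ => (hw ζ hζ).2 ▸ (i8_exp (hw ζ hζ).1).1) ?_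
    · have c5 : |A.im| * r ^ 2 / 24 ≤ s ^ 3 :=
        le_of_sq_le_sq (key.trans_eq (by ring)) (by positivity)
      have c6 : |A.im| ≤ 1536 / R ^ 2 * s := by
        rw [div_mul_eq_mul_div, le_div_iff₀ (by positivity)]
        rw [hr] at c5
        exact le_of_mul_le_mul_right (by linarith) (pow_pos hs 2)
      linarith
    · refine DifferentiableOn.diffContOnCl ?_
      rw [closure_ball _ one_ne_zero]
      intro ζ hζ
      have d1 : DifferentiableAt ℂ (fun ζ : ℂ => (a + r * ζ, star a)) ζ := by fun_prop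
      exact ((((i8L_hol hu h1).differentiableAt (isOpen_ball.mem_nhds (i8_mem (hz ζ
        (mem_closedBall_zero_iff.1 hζ)) hsa))).comp ζ d1).sub_const _).differentiableWithinAt
    · have d1 := abs_le.1 (hE 1 h10).2
      have d2 := abs_le.1 ((Complex.abs_im_le_norm _).trans (hw 1 h10).1)
      rcases abs_cases A.im with d3 | d3 <;> rw [d3.1] at c3 ⊢ <;> linarith [d1.1, d1.2, d2.1, d2.2]
    · rcases abs_cases A.im with d3 | d3 <;> rw [d3.1] at c3 c4 ⊢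
      · refine Or.inl fun ζ hζ => ?_
        have d1 := abs_le.1 (hE ζ hζ).2
        rw [← (hw ζ hζ).2]
        exact le_trans (by linarith) ((i8_exp (hw ζ hζ).1).2.1 (by linarith))
      · refine Or.inr fun ζ hζ => ?_
        have d1 := abs_le.1 (hE ζ hζ).2
        rw [← (hw ζ hζ).2]
        exact ((i8_exp (hw ζ hζ).1).2.2 (by linarith)).trans (by linarith)
  rw [← hA]
  have : 0 ≤ K * R * s := by positivity
  linarith [Complex.norm_le_abs_re_add_abs_im A]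

include h1 in
theorem i8_final {ζ : ℂ} (hζ : ‖ζ‖ < R) :
    ‖u (ζ, star ζ) * star (u (0, star ζ)) * star (u (ζ, 0)) * u (0, 0) -
        star (u (ζ, star ζ)) * u (ζ, 0) * u (0, star ζ) * star (u (0, 0))‖ ≤
      3 * ‖i8L u (ζ, star ζ) - i8L u (ζ, 0) - i8L u (0, star ζ) + i8L u (0, 0)‖ := by
  have h0 : ‖(0 : ℂ)‖ < R := by
    rw [norm_zero]
    exact (norm_nonneg ζ).trans_lt hζ
  have hs : ‖star ζ‖ < R := by rwa [norm_star]
  have a1 := i8_log (h1 _ (i8_mem hζ hs))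
  have a2 := i8_log (h1 _ (i8_mem hζ h0))
  have a3 := i8_log (h1 _ (i8_mem h0 hs))
  have a4 := i8_log (h1 _ (i8_mem h0 h0))
  have hp : ∀ x y z t : ℂ, ‖x‖ ≤ 11 / 10 → ‖y‖ ≤ 11 / 10 → ‖z‖ ≤ 11 / 10 → ‖t‖ ≤ 11 / 10 →
      ‖x * y * z * t‖ ≤ 3 / 2 := by
    intro x y z t b1 b2 b3 b4
    exact (norm_mul_le_of_le (norm_mul_le_of_le (norm_mul_le_of_le b1 b2) b3) b4).trans
      (by norm_num)
  have p1 := hp _ _ _ _ a1.2.2 ((norm_star _).trans_le a3.2.2) ((norm_star _).trans_le a2.2.2)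
    a4.2.2
  have p2 := hp _ _ _ _ ((norm_star _).trans_le a1.2.2) a2.2.2 a3.2.2
    ((norm_star _).trans_le a4.2.2)
  by_cases hD : ‖i8L u (ζ, star ζ) - i8L u (ζ, 0) - i8L u (0, star ζ) + i8L u (0, 0)‖ ≤ 1
  · have e : u (ζ, star ζ) * star (u (0, star ζ)) * star (u (ζ, 0)) * u (0, 0) -
        star (u (ζ, star ζ)) * u (ζ, 0) * u (0, star ζ) * star (u (0, 0)) =
        star (u (ζ, star ζ)) * u (ζ, 0) * u (0, star ζ) * star (u (0, 0)) * (Complex.exp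
          (i8L u (ζ, star ζ) - i8L u (ζ, 0) - i8L u (0, star ζ) + i8L u (0, 0)) - 1) := by
      have n1 := Complex.slitPlane_ne_zero a1.1
      have n2 := Complex.slitPlane_ne_zero a2.1
      have n3 := Complex.slitPlane_ne_zero a3.1
      have n4 := Complex.slitPlane_ne_zero a4.1
      simp only [i8L, star_star, star_zero, Complex.exp_add, Complex.exp_sub, Complex.exp_conj,
        Complex.exp_log n1, Complex.exp_log n2, Complex.exp_log n3, Complex.exp_log n4]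
      have m1 := (map_ne_zero (starRingEnd ℂ)).2 n1
      have m2 := (map_ne_zero (starRingEnd ℂ)).2 n2
      have m3 := (map_ne_zero (starRingEnd ℂ)).2 n3
      have m4 := (map_ne_zero (starRingEnd ℂ)).2 n4
      simp only [Complex.star_def] at *
      field_simp
    rw [e]
    exact (norm_mul_le_of_le p2 (Complex.norm_exp_sub_one_le hD)).trans_eq (by ring)
  · refine (norm_sub_le _ _).trans ?_
    linarith [not_le.1 hD]

end

theorem line_angle {R : ℝ} (hR : 0 < R) : ∃ K : ℝ, 0 < K ∧ ∀ (u : ℂ × ℂ → ℂ) (δ : ℝ),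
    DifferentiableOn ℂ u (ball 0 R) → (∀ q ∈ ball (0 : ℂ × ℂ) R, ‖u q - 1‖ ≤ 1 / 10) →
    0 < δ → δ ≤ 1 → DiscHyp u R δ → ∀ ζ : ℂ, ‖ζ‖ < R / 8 →
      ‖u (ζ, star ζ) * star (u (0, star ζ)) * star (u (ζ, 0)) * u (0, 0) -
        star (u (ζ, star ζ)) * u (ζ, 0) * u (0, star ζ) * star (u (0, 0))‖ ≤
        K * δ ^ (1 / 24 : ℝ) := by
  obtain ⟨K, hK, hT⟩ := mixed_taylor hR
  obtain ⟨B, hB⟩ : ∃ B, B = K * R + 1536 / R ^ 2 := ⟨_, rfl⟩
  have hB0 : 0 < B := by rw [hB]; positivity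
  refine ⟨3 * (B * (R * R)), by positivity, fun u δ hu h1 hδ hδ1 hD ζ hζ => ?_⟩
  have hL := i8L_hol hu h1
  have hb : ∀ q ∈ ball (0 : ℂ × ℂ) R, ‖i8L u q‖ ≤ 2 := fun q hq =>
    (i8L_le h1 hq).trans (by norm_num)
  have hs : 0 < δ ^ (1 / 6 : ℝ) := by positivity
  have hs1 : δ ^ (1 / 6 : ℝ) ≤ 1 := Real.rpow_le_one hδ.le hδ1 (by norm_num)
  have hs6 : (δ ^ (1 / 6 : ℝ)) ^ 6 = δ := by
    rw [← Real.rpow_natCast, ← Real.rpow_mul hδ.le]
    norm_num
  have hn : ∀ q, ‖i8m (i8L u) q / B‖ = ‖i8m (i8L u) q‖ / B := fun q => by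
    rw [norm_div, Complex.norm_real, Real.norm_of_nonneg hB0.le]
  have h2 := diag_small (f := fun q => i8m (i8L u) q / B) (R := R / 2) hs.le hs1
    (by
      simp only [div_eq_mul_inv]
      exact ((i8_hol hL).mono (ball_subset_ball (by linarith))).mul_const _)
    (fun q hq => by
      rw [hn, div_le_one hB0, hB]
      refine (i8_bound hR hL hb q (ball_subset_ball (by linarith) hq)).trans ?_
      exact (div_le_div_of_nonneg_right (by norm_num) (by positivity)).trans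
        (le_add_of_nonneg_left (by positivity)))
    (fun a ha => by
      rw [hn, div_le_iff₀' hB0, hB]
      exact i8_diag hu h1 hR hK (hT _ hL hb) hs hs1 (by rwa [hs6]) (mem_ball_zero_iff.1 ha))
  have h3 := mixed_small (R := R / 2 / 4) (σ := B * δ ^ (1 / 24 : ℝ))
    (hL.mono (ball_subset_ball (by linarith))) (fun q hq => by
      have a1 := h2 q hq
      rw [hn, div_le_iff₀' hB0, ← Real.rpow_mul hδ.le] at a1
      norm_num at a1 ⊢
      exact a1) (x := ζ) (y := star ζ) (by linarith) (by rw [norm_star]; linarith)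
  refine (i8_final h1 (by linarith)).trans ?_
  rw [norm_star] at h3
  have h4 : ‖ζ‖ * ‖ζ‖ ≤ R * R := mul_self_le_mul_self (norm_nonneg _) (by linarith)
  have h5 := mul_le_mul_of_nonneg_left h4 (show 0 ≤ B * δ ^ (1 / 24 : ℝ) by positivity)
  linarith

end Vale.Agent.P274
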