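import Vale.Agent.P274.I7
import Vale.Agent.P274.I8

/-! The angle estimate. -/

open Metric Set Filter Topology

namespace Vale.Agent.P274.FD

variable {N n : ℕ} {M : AM N n} {i : Fin n} (D : FD M i)

theorem i9_ev {l : Filter ℕ} {ε : ℕ → ℝ} (hε : Tendsto ε l (𝓝 0)) {κ : ℝ} (hκ : 0 < κ) (C : ℝ)
    {δ : ℝ} (hδ : 0 < δ) : ∀ᶠ j in l, C * ε j ^ κ ≤ δ := by
  have h := (hε.rpow_const_nhds_zero hκ).const_mul C
  rw [mul_zero] at h
  exact (h.eventually_lt_const hδ).mono fun j hj => hj.le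

theorem i9_absorb {l : Filter ℕ} {ε : ℕ → ℝ} (hε : Tendsto ε l (𝓝 0)) (hp : ∀ j, 0 < ε j) {κ : ℝ}
    (hκ : 0 < κ) (C : ℝ) : ∀ᶠ j in l, C * ε j ^ κ ≤ ε j ^ (κ / 2) := by
  filter_upwards [i9_ev hε (half_pos hκ) C one_pos] with j hj
  have e : ε j ^ κ = ε j ^ (κ / 2) * ε j ^ (κ / 2) := by
    rw [← Real.rpow_add (hp j), add_halves]
  rw [e, ← mul_assoc]
  exact mul_le_of_le_one_left (Real.rpow_nonneg (hp j).le _) hj

theorem i9_chart (x : M.X) {t : Set M.X} (ht : t ∈ 𝓝 x) :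
    ∃ s : ℝ, 0 < s ∧ s ≤ M.r x ∧ ∀ w ∈ ball (0 : E n) s, M.ψ x w ∈ t := by
  have h1 : t ∈ map (M.ψ x) (𝓝 0) := by
    rwa [M.map_ψ_nhds x (mem_ball_self (M.r_pos _)), M.ψ_zero]
  obtain ⟨s, hs, h2⟩ := Metric.mem_nhds_iff.1 h1
  exact ⟨min s (M.r x), lt_min hs (M.r_pos _), min_le_right _ _,
    fun w hw => h2 (ball_subset_ball (min_le_left _ _) hw)⟩

/-- The entire function behind the angle defect. -/
noncomputable def i9F (M : AM N n) (i : Fin n) (z₀ : E N) (q : E N × E N) : ℂ :=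
  M.g i q.1 (star q.2) * star (M.g i z₀ q.1) * star (M.g i (star q.2) z₀) * M.g i z₀ z₀ -
    star (M.g i (star q.2) q.1) * M.g i q.1 z₀ * M.g i z₀ (star q.2) * star (M.g i z₀ z₀)

theorem i9F_diff (z₀ : E N) : Differentiable ℂ (i9F M i z₀) := by
  have a1 := M.g_entire i
  have a2 := M.g_star_entire i
  have p1 : Differentiable ℂ (fun q : E N × E N => ((q.1, star z₀) : E N × E N)) :=
    differentiable_fst.prodMk (differentiable_const _)
  have p2 : Differentiable ℂ (fun q : E N × E N => ((z₀, q.2) : E N × E N)) :=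
    (differentiable_const _).prodMk differentiable_snd
  have b1 := a2.comp p1
  have b2 := a2.comp p2
  have b3 := a1.comp p1
  have b4 := a1.comp p2
  simp only [Function.comp_def, star_star] at b1 b2 b3 b4
  exact (((a1.mul b1).mul b2).mul_const _).sub (((a2.mul b3).mul b4).mul_const _)

theorem i9_Ef_eq (j : ℕ) (x y : M.X) :
    D.Ef j x y = i9F M i (D.z j D.x₀) (D.z j x, star (D.z j y)) := by
  simp only [Ef, i9F, star_star]

theorem Ef_bound : ∃ K : ℝ, 1 ≤ K ∧ ∀ j x y, ‖D.Ef j x y‖ ≤ K := by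
  obtain ⟨G, hG⟩ := ((isCompact_closedBall (0 : E N) D.R₀).prod
    (isCompact_closedBall (0 : E N) D.R₀)).exists_bound_of_continuousOn
      (M.continuous_g i).continuousOn
  have hb : ∀ j x y, ‖M.g i (D.z j x) (D.z j y)‖ ≤ G := fun j x y =>
    hG (D.z j x, D.z j y) ⟨mem_closedBall_zero_iff.2 (D.bd _ (D.z_mem j x)),
      mem_closedBall_zero_iff.2 (D.bd _ (D.z_mem j y))⟩
  have hG0 : 0 ≤ G := (norm_nonneg _).trans (hb 0 D.x₀ D.x₀)
  refine ⟨G * G * G * G + G * G * G * G + 1, le_add_of_nonneg_left (by positivity),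
    fun j x y => ?_⟩
  refine le_trans ?_ (le_add_of_nonneg_right zero_le_one)
  unfold Ef
  refine (norm_sub_le _ _).trans (add_le_add ?_ ?_) <;>
  · simp only [norm_mul, norm_star]
    gcongr <;> exact hb _ _ _

theorem sesq_Ef (j : ℕ) : M.Sesq (D.Ef j) ∧ (∀ y, M.Hol (fun x => D.Ef j x y)) ∧
    ∀ x, M.Hol (fun y => star (D.Ef j x y)) := by
  have hF := i9F_diff (M := M) (i := i) (D.z j D.x₀)
  have e : D.Ef j = fun x y => i9F M i (D.z j D.x₀) (D.z j x, star (D.z j y)) :=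
    funext fun x => funext fun y => D.i9_Ef_eq j x y
  rw [e]
  refine ⟨BM.sesq_of_entire hF (D.hol_z j), fun y x => ?_, fun x y => ?_⟩
  · have h1 : Differentiable ℂ (fun u : E N => i9F M i (D.z j D.x₀) (u, star (D.z j y))) :=
      hF.comp (differentiable_id.prodMk (differentiable_const _))
    exact (D.hol_z j x).comp_analytic
      (P278F.analyticOnNhd_of_differentiableOn isOpen_univ h1.differentiableOn _ (mem_univ _))
  · have h1 : Differentiable ℂ (fun u : E N => i9F M i (D.z j D.x₀) (D.z j x, u)) :=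
      hF.comp ((differentiable_const _).prodMk differentiable_id)
    have h2 : Differentiable ℂ (fun u : E N => star (i9F M i (D.z j D.x₀) (D.z j x, star u))) := by
      intro u
      have h3 := (h1 (star u)).star_star
      rw [star_star] at h3
      exact h3
    exact (D.hol_z j y).comp_analytic
      (P278F.analyticOnNhd_of_differentiableOn isOpen_univ h2.differentiableOn _ (mem_univ _))

theorem i9_alg {a b c d g : ℂ} (hg : g ≠ 0) :
    ‖a * star b * star c * d - star a * c * b * star d‖ = ‖g‖ ^ 4 *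
      ‖a / g * star (b / g) * star (c / g) * (d / g) -
        star (a / g) * (c / g) * (b / g) * star (d / g)‖ := by
  have hg' : star g ≠ 0 := star_ne_zero.2 hg
  have e : a * star b * star c * d - star a * c * b * star d = (g * g * star g * star g) *
      (a / g * star (b / g) * star (c / g) * (d / g) -
        star (a / g) * (c / g) * (b / g) * star (d / g)) := by
    simp only [star_div₀]
    field_simp
  rw [e, norm_mul]
  simp only [norm_mul, norm_star]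
  ring

theorem i9_mem {R : ℝ} {v : E n} (hv : ‖v‖ ≤ 1) {a : ℂ} (ha : ‖a‖ < R) :
    a • v ∈ ball (0 : E n) R := by
  rw [mem_ball_zero_iff, norm_smul]
  exact (mul_le_of_le_one_right (norm_nonneg _) hv).trans_lt ha

/-- The angle estimate on one line at a fixed level. -/
theorem i9_line {R μ K₀ δ : ℝ} {j : ℕ} {z₀ : E N} (hRr : R ≤ M.r D.x₀)
    (hg : M.g i z₀ z₀ ≠ 0) (hK₀ : 0 < K₀)
    (hda : ∀ (z : ℂ → E N) (k : ℂ → ℂ) (α : ℝ),
      DiffContOnCl ℂ z (ball 0 1) → DiffContOnCl ℂ k (ball 0 1) →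
      (∀ ζ ∈ closedBall (0 : ℂ) 1, z ζ ∈ M.U ∧ dist (z ζ) z₀ < μ ∧ ‖k ζ‖ ≤ 1) → k 0 = 0 →
      0 < α → α ≤ 1 →
      (∀ ζ ∈ sphere (0 : ℂ) 1,
        1 / 4 ≤ (M.g i (z ζ) (z ζ) * Complex.exp (-k ζ) / M.g i (z 0) (z 0)).re ∧
        ‖M.g i (z ζ) (z ζ) * Complex.exp (-k ζ) / M.g i (z 0) (z 0)‖ ≤ 4) →
      ((∀ ζ ∈ sphere (0 : ℂ) 1,
          α ≤ (M.g i (z ζ) (z ζ) * Complex.exp (-k ζ) / M.g i (z 0) (z 0)).im) ∨
        ∀ ζ ∈ sphere (0 : ℂ) 1,
          (M.g i (z ζ) (z ζ) * Complex.exp (-k ζ) / M.g i (z 0) (z 0)).im ≤ -α) →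
      α ^ 2 ≤ K₀ * D.HR (z 0))
    (hw : ∀ w ∈ ball (0 : E n) R, dist (D.z j (M.ψ D.x₀ w)) z₀ < μ ∧ D.H j (M.ψ D.x₀ w) ≤ δ)
    {v : E n} (hv : ‖v‖ ≤ 1) :
    DiscHyp (fun q => M.g i (D.z j (M.ψ D.x₀ (q.1 • v))) (D.z j (M.ψ D.x₀ (star q.2 • v))) /
      M.g i z₀ z₀) R (K₀ * δ) := by
  intro a r k α hr har hk hk1 hk0 hα hα1 h1 h2
  have hm : ∀ ζ ∈ closedBall (0 : ℂ) 1, (a + r * ζ) • v ∈ ball (0 : E n) R := by
    intro ζ hζ
    refine i9_mem hv ((norm_add_le _ _).trans_lt (lt_of_le_of_lt ?_ har))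
    rw [norm_mul, Complex.norm_real, Real.norm_of_nonneg hr.le]
    have := mem_closedBall_zero_iff.1 hζ
    nlinarith
  have hz : DiffContOnCl ℂ (fun ζ : ℂ => D.z j (M.ψ D.x₀ ((a + r * ζ) • v))) (ball 0 1) := by
    refine DifferentiableOn.diffContOnCl ?_
    rw [closure_ball _ one_ne_zero]
    intro ζ hζ
    have e1 := ((D.hol_z j).analyticOnNhd D.x₀ _ (ball_subset_ball hRr (hm ζ hζ))).differentiableAt
    have e2 : DifferentiableAt ℂ (fun ζ : ℂ => (a + r * ζ) • v) ζ := by fun_prop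
    exact (e1.comp ζ e2).differentiableWithinAt
  have e : ∀ p q w : ℂ, p / M.g i z₀ z₀ * w / (q / M.g i z₀ z₀) = p * w / q := by
    intro p q w
    rw [div_mul_eq_mul_div, div_div_div_cancel_right₀ hg]
  simp only [star_star, e] at h1 h2
  have key := hda _ k α hz hk (fun ζ hζ => ⟨D.z_mem _ _, (hw _ (hm ζ hζ)).1, hk1 ζ hζ⟩) hk0 hα hα1
    (by simpa only [mul_zero, add_zero] using h1) (by simpa only [mul_zero, add_zero] using h2)
  exact key.trans (mul_le_mul_of_nonneg_left (hw _ (hm 0 (mem_closedBall_self zero_le_one))).2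
    hK₀.le)

theorem Ef_small_near {ε : ℕ → ℝ} {t : Set M.X} {c : ℝ} (S : D.Scale D.x₀ ε t c) :
    ∃ t₀ ∈ 𝓝 D.x₀, ∃ κ : ℝ, 0 < κ ∧
      ∀ᶠ j in (D.𝒰 : Filter ℕ), ∀ x ∈ t₀, ‖D.Ef j x x‖ ≤ ε j ^ κ := by
  have hg := D.gen₀
  obtain ⟨μ, K₀, hμ, hK₀, hda⟩ := D.disc_angle (D.φ_mem_closure D.x₀) (D.esc D.x₀) hg
  obtain ⟨t₀, ht₀, κ, hκ, hH⟩ := D.H_upper S
  have hg0 : 0 < ‖M.g i (D.φ D.x₀) (D.φ D.x₀)‖ := norm_pos_iff.2 hg
  obtain ⟨μ₁, hμ₁, hcg⟩ := Metric.continuousAt_iff.1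
    ((M.continuous_g i).continuousAt (x := (D.φ D.x₀, D.φ D.x₀))) _
    (show 0 < ‖M.g i (D.φ D.x₀) (D.φ D.x₀)‖ / 10 by positivity)
  obtain ⟨t₁, ht₁, hnear⟩ := D.eventually_near (ω := D.x₀) (lt_min hμ hμ₁)
  obtain ⟨R, hR, hRr, hRt⟩ := i9_chart D.x₀ (inter_mem ht₀ ht₁)
  obtain ⟨K₁, hK₁, hla⟩ := line_angle hR
  refine ⟨_, M.image_ball_mem_nhds D.x₀ (show 0 < R / 8 by positivity), κ / 24 / 2,
    by positivity, ?_⟩
  filter_upwards [hH, hnear, i9_ev S.tendsto hκ K₀ one_pos, i9_absorb S.tendsto S.pos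
    (show 0 < κ / 24 by positivity)
    (‖M.g i (D.φ D.x₀) (D.φ D.x₀)‖ ^ 4 * K₁ * K₀ ^ (1 / 24 : ℝ))] with j h1 h2 h3 h4
  rintro _ ⟨w, hw, rfl⟩
  refine le_trans ?_ h4
  have hε := S.pos j
  obtain ⟨v, hv, hwv⟩ : ∃ v : E n, ‖v‖ ≤ 1 ∧ (‖w‖ : ℂ) • v = w := by
    by_cases h0 : w = 0
    · exact ⟨0, by simp, by simp [h0]⟩
    · have h5 : (‖w‖ : ℂ) ≠ 0 := by simpa using h0
      refine ⟨(‖w‖ : ℂ)⁻¹ • w, ?_, by rw [smul_smul, mul_inv_cancel₀ h5, one_smul]⟩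
      rw [norm_smul, norm_inv, Complex.norm_real, norm_norm, inv_mul_cancel₀ (by simpa using h0)]
  have hq : ∀ q ∈ ball (0 : ℂ × ℂ) R, q.1 • v ∈ ball (0 : E n) R ∧
      star q.2 • v ∈ ball (0 : E n) R := fun q hq =>
    ⟨i9_mem hv ((norm_fst_le q).trans_lt (mem_ball_zero_iff.1 hq)),
      i9_mem hv (by rw [norm_star]; exact (norm_snd_le q).trans_lt (mem_ball_zero_iff.1 hq))⟩
  have hd : DifferentiableOn ℂ (fun q : ℂ × ℂ => M.g i (D.z j (M.ψ D.x₀ (q.1 • v)))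
      (D.z j (M.ψ D.x₀ (star q.2 • v))) / M.g i (D.φ D.x₀) (D.φ D.x₀)) (ball 0 R) := by
    have e1 : Differentiable ℂ (fun q : ℂ × ℂ => ((q.1 • v, q.2 • star v) : E n × E n)) := by
      fun_prop
    have e2 := (D.sesq_g j D.x₀).comp e1.differentiableOn (s := ball 0 R) (fun q hq' => by
      rw [mem_ball_zero_iff, Prod.norm_def]
      refine lt_of_lt_of_le (max_lt (mem_ball_zero_iff.1 (hq q hq').1) ?_) hRr
      exact mem_ball_zero_iff.1 (i9_mem (by rwa [norm_star])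
        ((norm_snd_le q).trans_lt (mem_ball_zero_iff.1 hq'))))
    simp only [Function.comp_def, star_smul, star_star] at e2
    simp only [div_eq_mul_inv]
    exact e2.mul_const _
  have hu := hla _ (K₀ * ε j ^ κ) hd (fun q hq' => by
      have e1 := h2 _ (hRt _ (hq q hq').1).2
      have e2 := h2 _ (hRt _ (hq q hq').2).2
      have e3 := hcg (x := (D.z j (M.ψ D.x₀ (q.1 • v)), D.z j (M.ψ D.x₀ (star q.2 • v)))) (by
        rw [Prod.dist_eq]
        exact max_lt (e1.trans_le (min_le_right _ _)) (e2.trans_le (min_le_right _ _)))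
      rw [dist_eq_norm] at e3
      rw [div_sub_one hg, norm_div, div_le_iff₀ hg0]
      linarith)
    (by positivity) h3
    (D.i9_line hRr hg hK₀ hda (fun w hw => ⟨(h2 _ (hRt w hw).2).trans_le (min_le_left _ _),
      h1 _ (hRt w hw).1⟩) hv) (‖w‖ : ℂ)
    (by rw [Complex.norm_real, norm_norm]; exact mem_ball_zero_iff.1 hw)
  simp only [star_star, star_zero, zero_smul, hwv, M.ψ_zero] at hu
  unfold Ef
  rw [i9_alg hg]
  refine (mul_le_mul_of_nonneg_left hu (by positivity)).trans (le_of_eq ?_)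
  rw [Real.mul_rpow hK₀.le (by positivity), ← Real.rpow_mul hε.le, mul_one_div]
  ring

theorem Ef_small {ε : ℕ → ℝ} {t : Set M.X} {c : ℝ} (S : D.Scale D.x₀ ε t c) {C : Set M.X}
    (hC : IsCompact C) :
    ∃ κ : ℝ, 0 < κ ∧ ∀ᶠ j in (D.𝒰 : Filter ℕ), ∀ x ∈ C, ‖D.Ef j x x‖ ≤ ε j ^ κ := by
  obtain ⟨t₀, ht₀, κ, hκ, h⟩ := D.Ef_small_near S
  obtain ⟨K, hK, hb⟩ := D.Ef_bound
  obtain ⟨θ, hθ, -, hp⟩ := BM.power_small_diag ht₀ hC
  have hK0 : 0 < K := by linarith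
  have hn : ∀ a : ℂ, ‖a / (K : ℂ)‖ = ‖a‖ / K := fun a => by
    rw [norm_div, Complex.norm_real, Real.norm_of_nonneg hK0.le]
  refine ⟨κ * θ / 2, by positivity, ?_⟩
  filter_upwards [h, i9_ev S.tendsto hκ 1 one_pos, i9_absorb S.tendsto S.pos
    (show 0 < κ * θ by positivity) K] with j h1 h2 h3 x hx
  obtain ⟨s1, s2, s3⟩ := D.sesq_Ef j
  have hε := S.pos j
  have key := hp (fun x y => D.Ef j x y / K) (ε j ^ κ)
    (fun x => by
      simp only [div_eq_mul_inv]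
      exact (s1 x).mul_const _)
    (fun y x => AnalyticAt.div_const (s2 y x))
    (fun x y => by
      simp only [star_div₀]
      exact AnalyticAt.div_const (s3 x y))
    (by positivity) (by linarith)
    (fun x y => by
      rw [hn, div_le_one hK0]
      exact hb j x y)
    (fun y hy => by
      rw [hn]
      exact (div_le_self (norm_nonneg _) hK).trans (h1 y hy)) x hx
  rw [hn, div_le_iff₀ hK0, ← Real.rpow_mul hε.le, mul_comm] at key
  exact key.trans h3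

end Vale.Agent.P274.FD
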