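import Vale.Agent.P274.C4
import Vale.Agent.P274.I1

/-! Definitions for the slicing argument. -/

open Metric Set Filter Topology

noncomputable section

namespace Vale.Agent.P274

namespace BM

variable {N n : ℕ} (M : BM N n) {d : ℕ}

/-- The linear map `t ↦ ∑ t l • W l (y)`. -/
def lin (W : Fin d → M.End) (y : M.X) : E d →L[ℂ] E N :=
  ∑ l, (ContinuousLinearMap.proj (R := ℂ) (φ := fun _ : Fin d => ℂ) l).smulRight (M.ev (W l) y)

/-- `c` is the local orbit map through `x` of the commuting fields `W l`. -/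
def IsOrb (W : Fin d → M.End) (ε : ℝ) (x : M.X) (c : E d → M.X) : Prop :=
  c 0 = x ∧ ∀ t ∈ ball (0 : E d) ε, HasFDerivAt (M.ι ∘ c) (M.lin W (c t)) t

end BM

namespace CM

variable {N n : ℕ} (M : CM N n)

/-- A norm on the Lie algebra. -/
def nrm (W : M.gC) : ℝ := ‖(Module.finBasis ℂ M.gC).equivFun W‖

end CM

/-- The data of the slicing argument. -/
structure SD {N n : ℕ} (M : AM N n) (d : ℕ) where
  all : ∀ x, ∃ Z, HS M.σ (M.q x) Z
  p : M.X
  Z : M.gC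
  hs : HS M.σ (M.q p) Z
  W : Fin d → M.gC
  W_mem : ∀ l, W l ∈ M.σ.mp (M.q p)
  W_ind : LinearIndependent ℂ W
  W_span : ∀ V ∈ M.σ.mp (M.q p), ∃ c : Fin d → ℂ, V = ∑ l, c l • W l
  B : E n →L[ℂ] E d

namespace SD

variable {N n d : ℕ} {M : AM N n} (S : SD M d)

/-- The fields as endomorphisms. -/
def We (l : Fin d) : M.End := (S.W l).1

/-- The fibre of the isotropy map through `p`. -/
def Fs : Set M.X := {x | M.q x = M.q S.p}

/-- The matrix of `B ∘ dπ` on the fields. -/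
def Am (x : M.X) : Matrix (Fin d) (Fin d) ℂ :=
  Matrix.of fun k l => S.B (fderiv ℂ M.A.π x.1 (M.ev (S.We l) x)) k

/-- The local equations of the fibre. -/
def cf (x : M.X) : E d := S.B (fderiv ℂ M.A.π x.1 (M.ev S.Z.1 x))

/-- The uniform local orbit maps along the fibre. -/
structure HD (ε : ℝ) (H : E d → M.X → M.X) (K' : Set M.X) : Prop where
  pos : 0 < ε
  cpt : IsCompact K'
  hol : ∀ f ∈ S.Fs, ∀ t ∈ ball (0 : E d) ε,
    AnalyticAt ℂ (fun z : E d × E n => M.ι (H z.1 (M.ψ f z.2))) (t, 0)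
  orb : ∀ f ∈ S.Fs, ∀ᶠ x in 𝓝 f, M.IsOrb S.We ε x (fun t => H t x)
  inj : ∀ f ∈ S.Fs, ∀ t ∈ ball (0 : E d) ε, ∀ v ∈ M.T f, M.df (M.ι ∘ H t) f v = 0 → v = 0
  push : ∀ f ∈ S.Fs, ∀ t ∈ ball (0 : E d) ε, ∀ l,
    M.df (M.ι ∘ H t) f (M.ev (S.We l) f) = M.ev (S.We l) (H t f)
  mem : ∀ f ∈ S.Fs, ∀ γ ∈ M.Γ, γ • f ∈ M.K → ∀ t ∈ ball (0 : E d) ε, γ • H t f ∈ K'

end SD

end Vale.Agent.P274
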