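import Vale.Agent.P274.J0

/-! Local orbit maps of commuting holomorphic vector fields. -/

open Metric Set Filter Topology

namespace Vale.Agent.P274.BM

variable {N n d : ℕ} {M : BM N n}

theorem lin_apply (W : Fin d → M.End) (y : M.X) (t : E d) :
    M.lin W y t = ∑ l, t l • M.ev (W l) y := by
  simp [lin]

theorem j1_ev (W : Fin d → M.End) (t : E d) (y : M.X) :
    M.ev (∑ l, t l • W l) y = M.lin W y t := by
  rw [lin_apply, ev_sum]
  rfl

theorem j1_vf {W : Fin d → M.End} (hW : ∀ l, M.IsVF (W l)) (t : E d) :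
    M.IsVF (∑ l, t l • W l) :=
  IsVF.sum _ fun l _ => (hW l).smul _

theorem j1_mem_T {W : Fin d → M.End} (hW : ∀ l, M.IsVF (W l)) (y : M.X) (t : E d) :
    M.lin W y t ∈ M.T y := by
  rw [← j1_ev]
  exact (j1_vf hW t y).1

theorem j1_hol_lin (W : Fin d → M.End) : M.Hol (M.lin W) := fun x =>
  holAt_sum Finset.univ fun l _ => (hol_ev (W l) x).clm
    (ContinuousLinearMap.smulRightL ℂ (E d) (E N)
      (ContinuousLinearMap.proj (R := ℂ) (φ := fun _ : Fin d => ℂ) l))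

theorem j1_norm_lin {W : Fin d → M.End} {y : M.X} {b : ℝ} (h : ∀ l, ‖M.ev (W l) y‖ ≤ b) :
    ‖M.lin W y‖ ≤ d * |b| := by
  refine ContinuousLinearMap.opNorm_le_bound _ (by positivity) fun t => ?_
  rw [lin_apply]
  refine (norm_sum_le _ _).trans ?_
  have h1 : ∀ l ∈ (Finset.univ : Finset (Fin d)), ‖t l • M.ev (W l) y‖ ≤ |b| * ‖t‖ := by
    intro l _
    rw [norm_smul, mul_comm]
    exact mul_le_mul ((h l).trans (le_abs_self b)) (norm_le_pi_norm t l) (norm_nonneg _)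
      (abs_nonneg _)
  refine (Finset.sum_le_sum h1).trans_eq ?_
  simp [mul_assoc]

theorem j1_local {ξ : M.X → E N} (hξ : M.Hol ξ) {c c' : ℝ → M.X} {s : ℝ}
    (hc : ∀ᶠ t in 𝓝 s, HasDerivAt (M.ι ∘ c) (ξ (c t)) t)
    (hc' : ∀ᶠ t in 𝓝 s, HasDerivAt (M.ι ∘ c') (ξ (c' t)) t)
    (hs : c s = c' s) : ∀ᶠ t in 𝓝 s, c t = c' t := by
  classical
  have cc : ContinuousAt c s :=
    Topology.IsInducing.subtypeVal.continuousAt_iff.2 hc.self_of_nhds.continuousAt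
  have cc' : ContinuousAt c' s :=
    Topology.IsInducing.subtypeVal.continuousAt_iff.2 hc'.self_of_nhds.continuousAt
  obtain ⟨C, hC, hCn⟩ := exists_compact_mem_nhds (c s)
  obtain ⟨C', hC', -, δ, K, hδ, hK, -, hL⟩ := cauchy_lip (M := M) (F := E N) hC
  obtain ⟨b, hb⟩ := hC'.exists_bound_of_continuousOn hξ.continuous.continuousOn
  have hS : C ∩ ball (c s) (δ / 2) ∈ 𝓝 (c s) := inter_mem hCn (ball_mem_nhds _ (half_pos hδ))
  have hlip : LipschitzOnWith (Real.toNNReal (K * b))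
      (fun z : E N => if hz : z ∈ M.U then ξ ⟨z, hz⟩ else 0)
      (Subtype.val '' (C ∩ ball (c s) (δ / 2))) := by
    refine LipschitzOnWith.of_dist_le' ?_
    rintro _ ⟨y, hy, rfl⟩ _ ⟨z, hz, rfl⟩
    rw [dif_pos y.2, dif_pos z.2, dist_eq_norm]
    refine hL ξ b hξ hb z hz.1 y ?_
    have e1 := dist_triangle_right y z (c s)
    have e2 := mem_ball.1 hy.2
    have e3 := mem_ball.1 hz.2
    linarith
  have key := ODE_solution_unique_of_eventually (t₀ := s) (f := M.ι ∘ c) (g := M.ι ∘ c')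
    (v := fun _ z => if hz : z ∈ M.U then ξ ⟨z, hz⟩ else 0)
    (s := fun _ => Subtype.val '' (C ∩ ball (c s) (δ / 2))) (Eventually.of_forall fun _ => hlip)
    (by
      filter_upwards [cc.eventually_mem hS, hc] with u hu hu'
      refine ⟨?_, c u, hu, rfl⟩
      have : (M.ι ∘ c) u ∈ M.U := (c u).2
      rw [dif_pos this]
      exact hu')
    (by
      have hS' : C ∩ ball (c s) (δ / 2) ∈ 𝓝 (c' s) := by
        rw [← hs]
        exact hS
      filter_upwards [cc'.eventually_mem hS', hc'] with u hu hu'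
      refine ⟨?_, c' u, hu, rfl⟩
      have : (M.ι ∘ c') u ∈ M.U := (c' u).2
      rw [dif_pos this]
      exact hu')
    (congrArg Subtype.val hs)
  filter_upwards [key] with u hu
  exact Subtype.ext hu

theorem j1_unique {ξ : M.X → E N} (hξ : M.Hol ξ) {c c' : ℝ → M.X} {S : Set ℝ} (hS : IsOpen S)
    (hS' : IsPreconnected S) (hc : ∀ t ∈ S, HasDerivAt (M.ι ∘ c) (ξ (c t)) t)
    (hc' : ∀ t ∈ S, HasDerivAt (M.ι ∘ c') (ξ (c' t)) t) (h0 : (0 : ℝ) ∈ S) (h : c 0 = c' 0) :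
    ∀ t ∈ S, c t = c' t := by
  have loc : ∀ s ∈ S, c s = c' s → ∀ᶠ t in 𝓝 s, c t = c' t := fun s hs e =>
    j1_local hξ (mem_of_superset (hS.mem_nhds hs) hc) (mem_of_superset (hS.mem_nhds hs) hc') e
  have key := hS'.subset_of_closure_inter_subset (u := {s | ∀ᶠ t in 𝓝 s, c t = c' t})
    isOpen_setOfPred_eventually_nhds ⟨0, h0, loc 0 h0 h⟩ (by
      rintro s ⟨hs, hsS⟩
      refine loc s hsS (Subtype.ext ?_)
      refine tendsto_nhds_unique_of_frequently_eq (hc s hsS).continuousAt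
        (hc' s hsS).continuousAt ?_
      refine (mem_closure_iff_frequently.1 hs).mono fun u hu => ?_
      exact congrArg Subtype.val (Eventually.self_of_nhds (p := fun t => c t = c' t) hu))
  intro t ht
  exact Eventually.self_of_nhds (p := fun t => c t = c' t) (key ht)

theorem j1_ray {W : Fin d → M.End} {ε : ℝ} {x : M.X} {c : E d → M.X} (h : M.IsOrb W ε x c)
    (t : E d) {s : ℝ} (hs : s • t ∈ ball (0 : E d) ε) :
    HasDerivAt (M.ι ∘ fun s : ℝ => c (s • t)) (M.ev (∑ l, t l • W l) (c (s • t))) s := by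
  have h1 : HasDerivAt (fun s : ℝ => s • t) ((1 : ℝ) • t) s := (hasDerivAt_id s).smul_const t
  rw [one_smul] at h1
  rw [j1_ev]
  exact ((h.2 _ hs).restrictScalars ℝ).comp_hasDerivAt s h1

theorem IsOrb.unique {W : Fin d → M.End} (hW : ∀ l, M.IsVF (W l)) {ε : ℝ} {x : M.X}
    {c c' : E d → M.X} (h : M.IsOrb W ε x c) (h' : M.IsOrb W ε x c') :
    EqOn c c' (ball 0 ε) := by
  intro t ht
  have hv := j1_vf hW t
  have hcont : Continuous fun s : ℝ => s • t := by fun_prop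
  have hconv : Convex ℝ ((fun s : ℝ => s • t) ⁻¹' ball (0 : E d) ε) :=
    (convex_ball (0 : E d) ε).linear_preimage (LinearMap.toSpanSingleton ℝ (E d) t)
  have h0 : (0 : E d) ∈ ball (0 : E d) ε := mem_ball_self (pos_of_mem_ball ht)
  have key := j1_unique (hol_ev (∑ l, t l • W l)) (c := fun s : ℝ => c (s • t))
    (c' := fun s : ℝ => c' (s • t)) (isOpen_ball.preimage hcont) hconv.isPreconnected
    (fun s hs => j1_ray h t hs) (fun s hs => j1_ray h' t hs) (by simpa using h0)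
    (by simp only [zero_smul]; rw [h.1, h'.1]) 1 (by simpa using ht)
  simpa using key

theorem IsOrb.Ad {W : Fin d → M.End} (hW : ∀ l, M.IsVF (W l)) {ε : ℝ} {x : M.X}
    {c : E d → M.X} (h : M.IsOrb W ε x c) (a : M.Aut) :
    M.IsOrb (fun l => M.Ad a (W l)) ε (a • x) (fun t => a • c t) := by
  refine ⟨by simp only [h.1], fun t ht => ?_⟩
  have h1 := (M.hol_smul a (c t)).hasFDerivAt_comp (h.2 t ht)
  have h2 : (M.df (fun y => M.ι (a • y)) (c t)).comp (M.lin W (c t)) =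
      M.lin (fun l => M.Ad a (W l)) (a • c t) := by
    refine ContinuousLinearMap.ext fun u => ?_
    rw [ContinuousLinearMap.comp_apply, lin_apply, lin_apply, map_sum]
    refine Finset.sum_congr rfl fun l _ => ?_
    rw [map_smul, ev_Ad a (hW l)]
  rw [h2] at h1
  exact h1

theorem IsOrb.mono {W : Fin d → M.End} {ε ε' : ℝ} {x : M.X} {c : E d → M.X}
    (h : M.IsOrb W ε x c) (hε : ε' ≤ ε) : M.IsOrb W ε' x c :=
  ⟨h.1, fun t ht => h.2 t (ball_subset_ball hε ht)⟩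

theorem IsOrb.shift {W : Fin d → M.End} {ε : ℝ} {x : M.X} {c : E d → M.X}
    (h : M.IsOrb W ε x c) (s : E d) : M.IsOrb W (ε - ‖s‖) (c s) (fun t => c (t + s)) := by
  refine ⟨by simp only [zero_add], fun t ht => ?_⟩
  have h1 : t + s ∈ ball (0 : E d) ε := by
    rw [mem_ball_zero_iff] at ht ⊢
    linarith [norm_add_le t s]
  have h2 := HasFDerivAt.comp t (f := fun u : E d => u + s) (h.2 _ h1)
    ((hasFDerivAt_id t).add_const s)
  rw [ContinuousLinearMap.comp_id] at h2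
  exact h2

/-- The fields read in the chart at `a`. -/
noncomputable def j1B (W : Fin d → M.End) (a : M.X) (q : E n) : E d →L[ℂ] E n :=
  (M.L a).comp (M.lin W (M.ψ a q))

theorem j1B_analytic (W : Fin d → M.End) (a : M.X) {q : E n} (hq : q ∈ ball (0 : E n) (M.r a)) :
    AnalyticAt ℂ (j1B W a) q :=
  ((ContinuousLinearMap.compL ℂ (E d) (E N) (E n) (M.L a)).analyticAt _).comp
    ((j1_hol_lin W).analyticOnNhd a q hq)

theorem j1B_fderiv {W : Fin d → M.End} (hW : ∀ l, M.IsVF (W l)) (a : M.X) {q : E n}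
    (hq : q ∈ ball (0 : E n) (M.r a)) (v w : E d) :
    fderiv ℂ (j1B W a) q (j1B W a q v) w =
      M.L a (M.df (M.ev (∑ l, w l • W l)) (M.ψ a q) (M.ev (∑ l, v l • W l) (M.ψ a q))) := by
  have h1 := (j1B_analytic W a hq).differentiableAt.hasFDerivAt.clm_apply (hasFDerivAt_const w q)
  have h2 := (M.L a).hasFDerivAt.comp q
    ((hol_ev (∑ l, w l • W l)).analyticOnNhd a q hq).differentiableAt.hasFDerivAt
  have h3 : (fun y => j1B W a y w) = M.L a ∘ M.ev (∑ l, w l • W l) ∘ M.ψ a := by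
    funext y
    simp only [j1B, Function.comp_apply, ContinuousLinearMap.comp_apply, j1_ev]
  rw [h3] at h1
  have h4 := congrArg (fun A : E n →L[ℂ] E n => A (j1B W a q v)) (h1.unique h2)
  rw [df_eq_chart hq (hol_ev _ _) (j1_vf hW v _).1, j1_ev]
  simpa [j1B] using h4

theorem j1B_comm {W : Fin d → M.End} (hW : ∀ l, M.IsVF (W l)) (hc : ∀ l m, ⁅W l, W m⁆ = 0)
    (a : M.X) {q : E n} (hq : q ∈ ball (0 : E n) (M.r a)) (v w : E d) :
    fderiv ℂ (j1B W a) q (j1B W a q v) w = fderiv ℂ (j1B W a) q (j1B W a q w) v := by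
  rw [j1B_fderiv hW a hq, j1B_fderiv hW a hq]
  have h1 : ⁅∑ l, v l • W l, ∑ l, w l • W l⁆ = 0 := by
    rw [sum_lie]
    refine Finset.sum_eq_zero fun l _ => ?_
    rw [lie_sum]
    refine Finset.sum_eq_zero fun m _ => ?_
    rw [smul_lie, lie_smul, hc, smul_zero, smul_zero]
  have h2 := ev_lie (j1_vf hW v) (j1_vf hW w) (M.ψ a q)
  rw [h1, ev_zero] at h2
  rw [sub_eq_zero.1 h2.symm]

theorem j1_flow (a : M.X) (b : ℝ) : ∃ ρ : ℝ, 0 < ρ ∧ ∀ ε : ℝ, 0 < ε → ε ≤ ρ →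
    ∀ W : Fin d → M.End, (∀ l, M.IsVF (W l)) → (∀ l m, ⁅W l, W m⁆ = 0) →
      (∀ l, ∀ y ∈ M.ψ a '' closedBall 0 (4 * (M.r a / 5)), ‖M.ev (W l) y‖ ≤ b) →
      ∃ g : E d × E n → E n, DifferentiableOn ℂ g (ball 0 ε ×ˢ ball 0 (M.r a / 5)) ∧
        (∀ z ∈ ball (0 : E d) ε ×ˢ ball (0 : E n) (M.r a / 5),
          g z ∈ closedBall (0 : E n) (3 * (M.r a / 5) / 2) ∧
          (∀ w, fderiv ℂ g z (w, 0) = j1B W a (g z) w) ∧ ‖g z - z.2‖ ≤ M.r a / 5 / 8) ∧
        ∀ q ∈ ball (0 : E n) (M.r a / 5), g (0, q) = q := by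
  have hr := M.r_pos a
  set r := M.r a / 5 with hr5
  have hr' : 0 < r := by positivity
  set A : ℝ := ‖M.L a‖ * (d * |b|) with hA
  have hA0 : 0 ≤ A := by positivity
  refine ⟨r / 8 / (A + 1), by positivity, fun ε hε hερ W hW hc hb => ?_⟩
  have hAε : A * ε ≤ r / 8 := by
    rw [le_div_iff₀ (by positivity)] at hερ
    nlinarith
  have hsub : ball (0 : E n) (4 * r) ⊆ ball 0 (M.r a) := ball_subset_ball (by linarith)
  have h : P278F.Dat (j1B W a) 0 r ε A := by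
    refine ⟨hr', hε, fun q hq => ?_, fun q hq => ?_, by linarith⟩
    · exact (j1B_analytic W a (hsub hq)).differentiableAt.differentiableWithinAt
    · refine (ContinuousLinearMap.opNorm_comp_le _ _).trans ?_
      exact mul_le_mul_of_nonneg_left
        (j1_norm_lin fun l => hb l _ ⟨q, ball_subset_closedBall hq, rfl⟩) (norm_nonneg _)
  obtain ⟨γ, g, hf⟩ := h.exists_fixed
  have h1 : (1:ℝ) ∈ Icc (0:ℝ) 1 := by simp
  have h0 : (0:ℝ) ∈ Icc (0:ℝ) 1 := by simp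
  refine ⟨γ 1, g.hol 1 h1, fun z hz => ⟨g.mem 1 h1 z hz, fun w =>
    h.pde g hf (fun q hq => j1B_comm hW hc a (hsub hq)) hz w, ?_⟩, fun q hq => ?_⟩
  · rw [hf 1 h1 z hz, P278F.pic, add_sub_cancel_left]
    refine (intervalIntegral.norm_integral_le_of_norm_le_const (C := r / 8)
      fun s hs => ?_).trans (by simp)
    have hs' := uIcc_subset_Icc h0 h1 (uIoc_subset_uIcc hs)
    calc _ ≤ ‖j1B W a (γ s z)‖ * ‖z.1‖ := ContinuousLinearMap.le_opNorm _ _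
      _ ≤ A * ε := mul_le_mul (h.hM _ (h.sub4 (g.mem s hs' z hz)))
          (mem_ball_zero_iff.1 hz.1).le (norm_nonneg _) hA0
      _ ≤ _ := hAε
  · rw [hf 1 h1 (0, q) ⟨mem_ball_self hε, hq⟩]
    simp [P278F.pic]

theorem j1_inj {ε r : ℝ} {g : E d × E n → E n}
    (hg : DifferentiableOn ℂ g (ball 0 ε ×ˢ ball 0 r))
    (hb : ∀ z ∈ ball (0 : E d) ε ×ˢ ball (0 : E n) r, ‖g z - z.2‖ ≤ r / 8)
    {t : E d} (ht : t ∈ ball (0 : E d) ε) {q : E n} (hq : q ∈ ball (0 : E n) (r / 2)) {u : E n}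
    (hu : fderiv ℂ g (t, q) (0, u) = 0) : u = 0 := by
  have hr : 0 < r / 2 := pos_of_mem_ball hq
  have hsub : ball q (r / 2) ⊆ ball 0 r := fun w hw => by
    rw [mem_ball] at *
    linarith [dist_triangle w q 0]
  have hd : DifferentiableOn ℂ (fun w => g (t, w) - w) (ball q (r / 2)) :=
    (hg.comp (f := fun w => (t, w)) (by fun_prop) fun w hw => ⟨ht, hsub hw⟩).sub
      differentiableOn_id
  have h1 := P278F.norm_fderiv_le hr hd fun w hw => hb (t, w) ⟨ht, hsub hw⟩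
  have h2 : HasFDerivAt (fun w => g (t, w) - w)
      ((fderiv ℂ g (t, q)).comp (ContinuousLinearMap.inr ℂ (E d) (E n)) -
        ContinuousLinearMap.id ℂ (E n)) q :=
    ((hg.differentiableAt ((isOpen_ball.prod isOpen_ball).mem_nhds
      ⟨ht, hsub (mem_ball_self hr)⟩)).hasFDerivAt.comp q (hasFDerivAt_prodMk_right t q)).sub
      (hasFDerivAt_id q)
  rw [h2.fderiv] at h1
  have h3 := (ContinuousLinearMap.le_opNorm _ u).trans (mul_le_mul_of_nonneg_right h1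
    (norm_nonneg u))
  have h4 : 2 * (r / 8) / (r / 2) = 1 / 2 := by
    rw [div_eq_iff hr.ne']
    ring
  rw [h4] at h3
  simp only [sub_apply, ContinuousLinearMap.comp_apply,
    ContinuousLinearMap.inr_apply, hu, ContinuousLinearMap.id_apply, zero_sub, norm_neg] at h3
  exact norm_le_zero_iff.1 (by linarith)

theorem j1_chart (a : M.X) (b : ℝ) : ∃ ρ : ℝ, 0 < ρ ∧ ∀ ε : ℝ, 0 < ε → ε ≤ ρ →
    ∀ W : Fin d → M.End, (∀ l, M.IsVF (W l)) → (∀ l m, ⁅W l, W m⁆ = 0) →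
      (∀ l, ∀ y ∈ M.ψ a '' closedBall 0 (4 * (M.r a / 5)), ‖M.ev (W l) y‖ ≤ b) →
      ∀ k ∈ M.ψ a '' ball 0 (M.r a / 5 / 2),
      ∃ (δ : ℝ) (e : E d × E n → M.X), 0 < δ ∧ δ ≤ M.r k ∧
        DifferentiableOn ℂ (M.ι ∘ e) (ball 0 ε ×ˢ ball 0 δ) ∧
        (∀ w ∈ ball (0 : E n) δ, M.IsOrb W ε (M.ψ k w) (fun t => e (t, w)) ∧
          ∀ t ∈ ball (0 : E d) ε, e (t, w) ∈ M.ψ a '' closedBall 0 (4 * (M.r a / 5))) ∧
        ∀ t ∈ ball (0 : E d) ε, ∀ u, fderiv ℂ (M.ι ∘ e) (t, 0) (0, u) = 0 → u = 0 := by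
  obtain ⟨ρ, hρ, H⟩ := j1_flow (d := d) a b
  refine ⟨ρ, hρ, fun ε hε hερ W hW hc hb k hk => ?_⟩
  obtain ⟨g, hg, hz, h0⟩ := H ε hε hερ W hW hc hb
  obtain ⟨q, hq, hk⟩ := hk
  have hr := M.r_pos a
  have hq1 : q ∈ ball (0 : E n) (M.r a / 5) := ball_subset_ball (by linarith) hq
  have hq2 : q ∈ ball (0 : E n) (M.r a) := ball_subset_ball (by linarith) hq
  have hcq : M.co a k = q := by rw [← hk, M.co_ψ a hq2]
  have hsub : closedBall (0 : E n) (3 * (M.r a / 5) / 2) ⊆ ball 0 (M.r a) :=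
    closedBall_subset_ball (by linarith)
  have e1 : ∀ᶠ y in 𝓝 k, M.ψ a (M.co a y) = y ∧ M.co a y ∈ ball (0 : E n) (M.r a / 5) := by
    have e2 := M.ψ_co_eventually' a hq2
    rw [hk] at e2
    refine (e2.mono fun y hy => hy.1).and ((M.continuous_co a).continuousAt.eventually_mem ?_)
    rw [hcq]
    exact isOpen_ball.mem_nhds hq1
  obtain ⟨δ₀, hδ₀, e2⟩ := Metric.eventually_nhds_iff_ball.1 (tendsto_ψ k e1)
  have hδ : 0 < min δ₀ (M.r k) := lt_min hδ₀ (M.r_pos k)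
  have e3 : ∀ w ∈ ball (0 : E n) (min δ₀ (M.r k)), M.ψ a (M.co a (M.ψ k w)) = M.ψ k w ∧
      M.co a (M.ψ k w) ∈ ball (0 : E n) (M.r a / 5) := fun w hw =>
    e2 w (ball_subset_ball (min_le_left _ _) hw)
  have hop : IsOpen (ball (0 : E d) ε ×ˢ ball (0 : E n) (M.r a / 5)) :=
    isOpen_ball.prod isOpen_ball
  refine ⟨min δ₀ (M.r k), fun z => M.ψ a (g (z.1, M.co a (M.ψ k z.2))), hδ, min_le_right _ _,
    ?_, fun w hw => ⟨⟨?_, fun t ht => ?_⟩, fun t ht => ?_⟩, fun t ht u hu => ?_⟩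
  · have d1 : DifferentiableOn ℂ (fun z : E d × E n => (z.1, M.co a (M.ψ k z.2)))
        (ball 0 ε ×ˢ ball 0 (min δ₀ (M.r k))) :=
      differentiableOn_fst.prodMk (((M.hol_co a).analyticOnNhd k).differentiableOn.comp
        differentiableOn_snd fun z hz => ball_subset_ball (min_le_right _ _) hz.2)
    exact (M.ψ_hol a).comp (hg.comp d1 fun z hz => ⟨hz.1, (e3 _ hz.2).2⟩)
      fun z hz' => hsub (hz (z.1, M.co a (M.ψ k z.2)) ⟨hz'.1, (e3 _ hz'.2).2⟩).1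
  · simp only []
    rw [h0 _ (e3 w hw).2, (e3 w hw).1]
  · have m : (t, M.co a (M.ψ k w)) ∈ ball (0 : E d) ε ×ˢ ball (0 : E n) (M.r a / 5) :=
      ⟨ht, (e3 w hw).2⟩
    have m2 := hsub (hz _ m).1
    have d1 := HasFDerivAt.comp t (f := fun u : E d => (u, M.co a (M.ψ k w)))
      (hg.differentiableAt (hop.mem_nhds m)).hasFDerivAt
      (hasFDerivAt_prodMk_left (𝕜 := ℂ) t (M.co a (M.ψ k w)))
    have d2 := HasFDerivAt.comp t (f := g ∘ fun u : E d => (u, M.co a (M.ψ k w)))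
      (M.analyticAt_ψ a m2).differentiableAt.hasFDerivAt d1
    have d3 : (fderiv ℂ (M.ι ∘ M.ψ a) (g (t, M.co a (M.ψ k w)))).comp
        ((fderiv ℂ g (t, M.co a (M.ψ k w))).comp (ContinuousLinearMap.inl ℂ (E d) (E n))) =
        M.lin W (M.ψ a (g (t, M.co a (M.ψ k w)))) := by
      refine ContinuousLinearMap.ext fun v => ?_
      simp only [ContinuousLinearMap.comp_apply, ContinuousLinearMap.inl_apply]
      rw [(hz _ m).2.1]
      exact fderiv_ψ_L m2 (j1_mem_T hW _ v)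
    rw [d3] at d2
    exact d2
  · exact ⟨_, closedBall_subset_closedBall (by linarith) 
      (hz (t, M.co a (M.ψ k w)) ⟨ht, (e3 w hw).2⟩).1, rfl⟩
  · have hk0 : M.co a (M.ψ k 0) = q := by rw [M.ψ_zero, hcq]
    have m : (t, q) ∈ ball (0 : E d) ε ×ˢ ball (0 : E n) (M.r a / 5) := ⟨ht, hq1⟩
    have m2 := hsub (hz _ m).1
    have b0 : (0 : E n) ∈ ball (0 : E n) (M.r k) := mem_ball_self (M.r_pos k)
    have d0 : HasFDerivAt (M.co a ∘ M.ψ k) ((M.L a).comp (fderiv ℂ (M.ι ∘ M.ψ k) 0)) 0 :=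
      (M.L a).hasFDerivAt.comp 0
        ((M.analyticAt_ψ k b0).differentiableAt.hasFDerivAt.sub_const a.1)
    have d1 : HasFDerivAt (fun z : E d × E n => (z.1, M.co a (M.ψ k z.2)))
        ((ContinuousLinearMap.fst ℂ (E d) (E n)).prod
          (((M.L a).comp (fderiv ℂ (M.ι ∘ M.ψ k) 0)).comp (ContinuousLinearMap.snd ℂ _ _)))
        (t, 0) :=
      hasFDerivAt_fst.prodMk (HasFDerivAt.comp ((t, 0) : E d × E n) (g := M.co a ∘ M.ψ k)
        (f := Prod.snd) d0 hasFDerivAt_snd)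
    have d2 : HasFDerivAt g (fderiv ℂ g (t, q)) (t, M.co a (M.ψ k 0)) := by
      rw [hk0]
      exact (hg.differentiableAt (hop.mem_nhds m)).hasFDerivAt
    have d3 : HasFDerivAt (M.ι ∘ M.ψ a) (fderiv ℂ (M.ι ∘ M.ψ a) (g (t, q)))
        (g (t, M.co a (M.ψ k 0))) := by
      rw [hk0]
      exact (M.analyticAt_ψ a m2).differentiableAt.hasFDerivAt
    have d4 := (HasFDerivAt.comp ((t, 0) : E d × E n)
      (f := g ∘ fun z : E d × E n => (z.1, M.co a (M.ψ k z.2))) d3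
      (HasFDerivAt.comp ((t, 0) : E d × E n)
        (f := fun z : E d × E n => (z.1, M.co a (M.ψ k z.2))) d2 d1)).fderiv
    have d5 : fderiv ℂ (M.ι ∘ M.ψ a) (g (t, q)) (fderiv ℂ g (t, q)
        (0, M.L a (fderiv ℂ (M.ι ∘ M.ψ k) 0 u))) = 0 :=
      (congrArg (fun A : E d × E n →L[ℂ] E N => A (0, u)) d4).symm.trans hu
    have d6 := congrArg (M.L a) d5
    rw [L_fderiv_ψ m2, map_zero] at d6
    have d7 := j1_inj hg (fun z hz' => (hz z hz').2.2) ht hq d6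
    have d8 : fderiv ℂ (M.ι ∘ M.ψ k) 0 u ∈ M.T (M.ψ a q) := by
      rw [hk]
      exact ⟨u, rfl⟩
    have d9 := fderiv_ψ_L hq2 d8
    rw [d7, map_zero] at d9
    rw [← L_fderiv_ψ b0 u, ← d9, map_zero]

theorem exists_orb (d : ℕ) {C : Set M.X} (hC : IsCompact C) : ∃ C₁, IsCompact C₁ ∧
    ∀ b : ℝ, ∃ ε : ℝ, 0 < ε ∧ ∀ W : Fin d → M.End, (∀ l, M.IsVF (W l)) →
      (∀ l m, ⁅W l, W m⁆ = 0) → (∀ l, ∀ y ∈ C₁, ‖M.ev (W l) y‖ ≤ b) → ∀ k ∈ C,
      ∃ (δ : ℝ) (e : E d × E n → M.X), 0 < δ ∧ δ ≤ M.r k ∧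
        DifferentiableOn ℂ (M.ι ∘ e) (ball 0 ε ×ˢ ball 0 δ) ∧
        (∀ w ∈ ball (0 : E n) δ, M.IsOrb W ε (M.ψ k w) (fun t => e (t, w)) ∧
          ∀ t ∈ ball (0 : E d) ε, e (t, w) ∈ C₁) ∧
        ∀ t ∈ ball (0 : E d) ε, ∀ u, fderiv ℂ (M.ι ∘ e) (t, 0) (0, u) = 0 → u = 0 := by
  obtain ⟨s, -, hs⟩ := hC.elim_nhds_subcover (fun a => M.ψ a '' ball 0 (M.r a / 5 / 2))
    fun a _ => M.image_ball_mem_nhds a (by have := M.r_pos a; positivity)
  refine ⟨⋃ a ∈ s, M.ψ a '' closedBall 0 (4 * (M.r a / 5)),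
    s.isCompact_biUnion fun a _ => M.isCompact_image_closedBall a (by
      have := M.r_pos a; linarith), fun b => ?_⟩
  choose ρ hρ H using fun a => j1_chart (M := M) (d := d) a b
  have hev : ∀ᶠ ε in 𝓝[>] (0 : ℝ), ∀ a ∈ s, ε ≤ ρ a := by
    rw [eventually_all_finset]
    exact fun a _ => mem_nhdsWithin_of_mem_nhds (Iic_mem_nhds (hρ a))
  obtain ⟨ε, h1, h2⟩ := (hev.and self_mem_nhdsWithin).exists
  refine ⟨ε, h2, fun W hW hc hb k hk => ?_⟩
  obtain ⟨a, ha, hka⟩ := mem_iUnion₂.1 (hs hk)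
  obtain ⟨δ, e, e1, e2, e3, e4, e5⟩ := H a ε h2 (h1 a ha) W hW hc
    (fun l y hy => hb l y (mem_biUnion ha hy)) k hka
  exact ⟨δ, e, e1, e2, e3, fun w hw => ⟨(e4 w hw).1, fun t ht =>
    mem_biUnion ha ((e4 w hw).2 t ht)⟩, e5⟩

end Vale.Agent.P274.BM
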