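import Vale.Agent.P274.J2a

/-! The fibre of the isotropy map. -/

open Metric Set Filter Topology

namespace Vale.Agent.P274

namespace SD

variable {N n d : ℕ} {M : AM N n} (S : SD M d)

theorem j2_hol {a ξ : M.X → E N} {x : M.X} (ha : M.HolAt a x) (hξ : M.HolAt ξ x) :
    M.HolAt (fun y => S.B (fderiv ℂ M.A.π (a y) (ξ y))) x :=
  ((ha.prodMk hξ).comp_analytic (g := fun q : E N × E N => fderiv ℂ M.A.π q.1 q.2)
    (P278F.analyticOnNhd_of_differentiableOn isOpen_univ (((differentiableOn_univ.1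
      (P278F.differentiableOn_fderiv isOpen_univ M.A.π_diff.differentiableOn)).comp
        differentiable_fst).clm_apply differentiable_snd).differentiableOn _ trivial)).clm S.B

theorem j2_mulVec (x : M.X) (c : Fin d → ℂ) :
    (S.Am x).mulVec c = S.B (fderiv ℂ M.A.π x.1 (M.ev (∑ l, c l • S.W l).1 x)) := by
  rw [AddSubmonoidClass.coe_finsetSum, BM.ev_sum, map_sum, map_sum]
  ext k
  simp [Matrix.mulVec, dotProduct, Am, We, BM.ev_smul, mul_comm]

theorem j2_df {x : M.X} {v : E N} (hv : v ∈ M.T x) :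
    M.df (fun y => S.B (M.A.π y.1)) x v = S.B (fderiv ℂ M.A.π x.1 v) := by
  rw [BM.df_restrict (g := fun z => S.B (M.A.π z)) (S.B.differentiableAt.comp _ (M.A.π_diff _)) hv]
  exact congrArg (· v) (S.B.hasFDerivAt.comp _ (M.A.π_diff _).hasFDerivAt).fderiv

theorem hol_Am (k l : Fin d) : M.Hol (fun x => S.Am x k l) := by
  exact fun x => BM.holAt_pi_iff.1 (S.j2_hol (M.hol_ι x) (BM.hol_ev (S.We l) x)) k

theorem hol_cf : M.Hol S.cf := by
  exact fun x => S.j2_hol (M.hol_ι x) (BM.hol_ev _ x)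

theorem cf_eq_zero {f : M.X} (hf : f ∈ S.Fs) : S.cf f = 0 := by
  have : M.ev S.Z.1 f = 0 := (show M.q f = _ from hf).ge S.hs.mem
  rw [cf, this, map_zero, map_zero]

theorem mem_Fs {x : M.X} (h : (S.Am x).det ≠ 0) (hc : S.cf x = 0) : x ∈ S.Fs := by
  obtain ⟨Z', hZ'⟩ := S.all x
  have k : ∀ W ∈ M.σ.mp (M.q S.p), S.B (fderiv ℂ M.A.π x.1 (M.ev W.1 x)) = 0 → W = 0 :=
    fun W hW h0 => by
      obtain ⟨c, rfl⟩ := S.W_span W hW
      simp [Matrix.eq_zero_of_mulVec_eq_zero h ((S.j2_mulVec x c).trans h0)]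
  have hm : ∀ W ∈ M.σ.mp (M.q S.p), W ∈ M.q x → W = 0 := fun W hW h0 =>
    k W hW (by rw [show M.ev W.1 x = 0 from h0, map_zero, map_zero])
  obtain ⟨w, a, v, b, e⟩ := Submodule.mem_sup.1 ((Submodule.eq_top_of_disjoint _ _
    (by rw [S.j2_mp, add_comm, S.finrank_q]) (Submodule.disjoint_def.2 hm)).ge
      (Submodule.mem_top (x := S.Z)))
  have h0 : w = 0 := k w a (by
    rwa [cf, ← e, AddMemClass.coe_add, BM.ev_add, show M.ev v.1 x = 0 from b, add_zero] at hc)
  rw [h0, zero_add] at e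
  exact S.hs.eq_of_mem hZ' (fun _ a _ b => BM.lie_mem_q x a b) (e ▸ b) hm

theorem df_cf {f : M.X} (hf : f ∈ S.Fs) (k l : Fin d) :
    M.df S.cf f (M.ev (S.We l) f) k = -Complex.I * S.Am f k l := by
  have hZ := BM.isVF_of_mem_gC S.Z.2
  have h1 := BM.df_lie (S.isVF_We l) hZ (f := fun y => S.B (M.A.π y.1)) (x := f)
    (((M.hol_ι f).comp_analytic (P278F.analyticOnNhd_of_differentiableOn isOpen_univ
      M.A.π_diff.differentiableOn _ trivial)).clm S.B)
  have h2 : M.ev S.Z.1 f = 0 := (show M.q f = _ from hf).ge S.hs.mem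
  have h3 : ⁅S.Z.1, S.We l⁆ = Complex.I • S.We l :=
    congrArg Subtype.val ((S.hs.mem_mp_iff _).1 (S.W_mem l))
  simp only [fun y => S.j2_df (hZ y).1] at h1
  rw [h2, map_zero, sub_zero, ← lie_skew, h3, BM.ev_neg, BM.ev_smul, map_neg, map_smul,
    S.j2_df (S.isVF_We l f).1] at h1
  rw [show M.df S.cf f _ = _ from h1.symm]
  simp [Am]

/-- If a nonzero infinitesimal automorphism kills `φ` then `φ` is degenerate on the orbits. -/
theorem det_eq_zero {φ : M.X → E N} (hφ : M.Hol φ) {X : M.End} (hX : X ∈ M.gR) (h0 : X ≠ 0)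
    (hk : ∀ x, M.df φ x (M.ev X x) = 0) (V : Fin d → M.gC) (x : M.X) :
    (Matrix.of fun k l => S.B (fderiv ℂ M.A.π (φ x) (M.df φ x (M.ev (V l).1 x))) k).det = 0 := by
  have hX' := M.c4_isVF hX
  refine congrFun (Continuous.ext_on ((BM.hol_ev X).dense_ne_zero (M.c4_exists_ev hX' h0))
    (BM.Hol.continuous fun y => BM.holAt_det fun k l => BM.holAt_pi_iff.1 (S.j2_hol (hφ y)
      ((hφ y).df_apply (BM.hol_ev _ y) (.of_forall fun z => (BM.isVF_of_mem_gC (V l).2 z).1))) k)
    continuous_const fun y hy => by_contra fun h => ?_) x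
  let L : M.gC →ₗ[ℂ] E d :=
    { toFun := fun W => S.B (fderiv ℂ M.A.π (φ y) (M.df φ y (M.ev W.1 y)))
      map_add' := fun a b => by rw [AddMemClass.coe_add, BM.ev_add, map_add, map_add, map_add]
      map_smul' := fun a b => by
        rw [SetLike.val_smul, BM.ev_smul, map_smul, map_smul, map_smul]
        rfl }
  have h1 : M.q y < LinearMap.ker L := SetLike.lt_iff_le_and_exists.2
    ⟨fun W (hW : M.ev W.1 y = 0) => by
      change S.B _ = 0
      rw [hW, map_zero, map_zero, map_zero], ⟨X, BM.mem_gC_of_mem_gR hX⟩, by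
      change S.B _ = 0
      rw [hk, map_zero, map_zero], fun h => hy h⟩
  have h2 := Submodule.finrank_mono (Submodule.span_le.2 (range_subset_iff.2 fun l =>
    LinearMap.mem_range_self L (V l)) : Submodule.span ℂ (range fun l => L (V l)) ≤ _)
  rw [finrank_span_eq_card (b := fun l => L (V l)) (Matrix.linearIndependent_cols_of_det_ne_zero h),
    Fintype.card_fin] at h2
  have h3 := Submodule.finrank_lt_finrank_of_lt h1
  have h4 := L.finrank_range_add_finrank_ker
  have h5 := S.finrank_q y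
  omega

end SD

end Vale.Agent.P274
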