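import Vale.Agent.P274.J0

/-! Uniform bounds for `m⁺`. -/

open Metric Set Filter Topology

namespace Vale.Agent.P274

theorem j2_lsc {X P Q : Type*} [TopologicalSpace X] [NormedAddCommGroup P] [NormedSpace ℂ P]
    [FiniteDimensional ℂ P] [NormedAddCommGroup Q] [NormedSpace ℂ Q] {A : X → P →L[ℂ] Q} {x : X}
    (hA : ContinuousAt A x) (hq : ∀ y, Module.finrank ℂ (LinearMap.ker (A y).toLinearMap) =
      Module.finrank ℂ (LinearMap.ker (A x).toLinearMap)) {v : P} (hv : A x v = 0) {η : ℝ}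
    (hη : 0 < η) : ∀ᶠ y in 𝓝 x, ∃ v', A y v' = 0 ∧ ‖v' - v‖ < η := by
  obtain ⟨m, hm⟩ := (LinearMap.ker (A x).toLinearMap).exists_isCompl
  obtain ⟨K, -, hK⟩ := LinearMap.exists_antilipschitzWith ((A x).toLinearMap.domRestrict m)
    (by rw [LinearMap.ker_domRestrict]; exact Submodule.disjoint_iff_comap_eq_bot.1 hm.symm.disjoint)
  have h1 : Tendsto (fun y => K * ‖A y - A x‖) (𝓝 x) (𝓝 0) := by
    simpa using (tendsto_iff_norm_sub_tendsto_zero.1 hA).const_mul (K : ℝ)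
  filter_upwards [h1.eventually (gt_mem_nhds one_half_pos),
    (h1.mul_const (2 * ‖v‖)).eventually (gt_mem_nhds (by simpa using hη))] with y a b
  have h2 : ∀ w ∈ m, ‖w‖ ≤ 2 * (K * ‖A y w‖) := fun w hw => by
    have c : ‖w‖ ≤ K * ‖A x w‖ := ZeroHomClass.bound_of_antilipschitz _ hK ⟨w, hw⟩
    have d : ‖A x w‖ ≤ ‖A y w‖ + ‖A y - A x‖ * ‖w‖ := by
      linarith [norm_le_insert (A y w) (A x w), (A y - A x).le_opNorm w,
        congrArg norm (sub_apply (A y) (A x) w)]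
    nlinarith [mul_le_mul_of_nonneg_left d K.2, norm_nonneg w]
  have h3 := Submodule.eq_top_of_disjoint (LinearMap.ker (A y).toLinearMap) m
    (by rw [hq y, Submodule.finrank_add_eq_of_isCompl hm])
    (Submodule.disjoint_def.2 fun w a b => by simpa [show A y w = 0 from a] using h2 w b)
  obtain ⟨v', c, w, d, rfl⟩ := Submodule.mem_sup.1 (h3.ge (Submodule.mem_top (x := v)))
  refine ⟨v', c, ?_⟩
  have e : A y w = (A y - A x) (v' + w) := by
    rw [sub_apply, hv, map_add, show A y v' = 0 from c, zero_add, sub_zero]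
  have := mul_le_mul_of_nonneg_left ((A y - A x).le_opNorm (v' + w)) K.coe_nonneg
  rw [← e] at this
  rw [sub_add_cancel_left, norm_neg]
  linarith [h2 w d]

namespace CM

variable {N n : ℕ} (M : CM N n)

/-- Coordinates on the Lie algebra. -/
noncomputable def j2e : M.gC ≃ₗ[ℂ] E (Module.finrank ℂ M.gC) := (Module.finBasis ℂ M.gC).equivFun

/-- Evaluation in coordinates. -/
noncomputable def j2A (x : M.X) : E (Module.finrank ℂ M.gC) →L[ℂ] E N :=
  M.lin (fun l => (Module.finBasis ℂ M.gC l).1) x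

theorem j2_nrm (W : M.gC) : M.nrm W = ‖M.j2e W‖ := rfl

theorem j2_ev (W : M.gC) (x : M.X) : M.ev W.1 x = M.j2A x (M.j2e W) := by
  conv_lhs => rw [← (Module.finBasis ℂ M.gC).sum_equivFun W]
  rw [AddSubmonoidClass.coe_finsetSum, BM.ev_sum, j2A, BM.lin, sum_apply]
  rfl

theorem j2_cont : Continuous M.j2A := by
  unfold j2A BM.lin
  exact continuous_finsetSum _ fun l _ => (ContinuousLinearMap.smulRightL ℂ _ (E N)
    (ContinuousLinearMap.proj (R := ℂ) (φ := fun _ => ℂ) l)).continuous.comp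
      (BM.hol_ev (Module.finBasis ℂ M.gC l).1).continuous

theorem j2_beta : Continuous fun z : E _ × E _ =>
    killingForm ℂ M.gC (M.σ (M.j2e.symm z.1)) (M.j2e.symm z.2) := by
  let s : E (Module.finrank ℂ M.gC) →ₗ[ℂ] E (Module.finrank ℂ M.gC) :=
    { toFun := fun c => star (M.j2e (M.σ (M.j2e.symm c)))
      map_add' := fun a b => by rw [map_add, M.σ.map_add, map_add, star_add]
      map_smul' := fun a b => by
        rw [map_smul, M.σ.map_smul, map_smul, star_smul, starRingEnd_apply, star_star]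
        rfl }
  refine ((((killingForm ℂ M.gC).compl₁₂ M.j2e.symm.toLinearMap
    M.j2e.symm.toLinearMap).toContinuousBilinearMap.continuous.comp
      (s.continuous_of_finiteDimensional.comp continuous_fst).star).clm_apply
        continuous_snd).congr fun z => ?_
  change killingForm ℂ M.gC (M.j2e.symm (star (star (M.j2e _)))) _ = _
  rw [star_star, M.j2e.symm_apply_apply]
  rfl

theorem ev_le_nrm {C : Set M.X} (hC : IsCompact C) :
    ∃ K : ℝ, 0 < K ∧ ∀ W : M.gC, ∀ x ∈ C, ‖M.ev W.1 x‖ ≤ K * M.nrm W := by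
  obtain ⟨K, hK⟩ := hC.exists_bound_of_continuousOn M.j2_cont.continuousOn
  refine ⟨max K 1, by positivity, fun W x hx => ?_⟩
  rw [j2_ev]
  exact ContinuousLinearMap.le_of_opNorm_le _ ((hK x hx).trans (le_max_left _ _)) _

theorem nrm_lim {ι : Type*} (𝒰 : Ultrafilter ι) {V : ι → M.gC} {b : ℝ}
    (hb : ∀ j, M.nrm (V j) ≤ b) : ∃ V₀ : M.gC, Tendsto (fun j => M.nrm (V j - V₀)) 𝒰 (𝓝 0) ∧
      ∀ (x : ι → M.X) (x₀ : M.X), Tendsto x 𝒰 (𝓝 x₀) →
        Tendsto (fun j => M.ev (V j).1 (x j)) 𝒰 (𝓝 (M.ev V₀.1 x₀)) := by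
  obtain ⟨c, -, hc⟩ := (isCompact_closedBall (0 : E _) b).ultrafilter_le_nhds'
    (𝒰.map fun j => M.j2e (V j))
    (Eventually.of_forall (f := (𝒰 : Filter ι)) fun j => mem_closedBall_zero_iff.2 (hb j))
  refine ⟨M.j2e.symm c, ?_, fun x x₀ hx => ?_⟩
  · simpa [j2_nrm] using tendsto_iff_norm_sub_tendsto_zero.1 hc
  · simpa only [j2_ev, LinearEquiv.apply_symm_apply, Function.comp_def] using ((M.j2_cont.comp continuous_fst).clm_apply
      continuous_snd).continuousAt.tendsto.comp (hx.prodMk_nhds hc)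

/-- Constant rank: elements of the isotropy subspace extend to nearby isotropy subspaces. -/
theorem q_lsc (hq : ∀ x y, Module.finrank ℂ (M.q x) = Module.finrank ℂ (M.q y)) {x : M.X}
    {V : M.gC} (hV : V ∈ M.q x) {η : ℝ} (hη : 0 < η) :
    ∀ᶠ y in 𝓝 x, ∃ V' ∈ M.q y, M.nrm (V' - V) < η := by
  have e : ∀ y, LinearMap.ker (M.j2A y).toLinearMap = (M.q y).map M.j2e.toLinearMap := fun y => by
    ext c
    simp [BM.mem_q_iff, j2_ev]
  filter_upwards [j2_lsc M.j2_cont.continuousAt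
    (fun y => by rw [e, e, LinearEquiv.finrank_map_eq, LinearEquiv.finrank_map_eq, hq y x])
    (v := M.j2e V) (by rw [← j2_ev]; exact hV) hη] with y ⟨v, h1, h2⟩
  exact ⟨M.j2e.symm v, by simpa [BM.mem_q_iff, j2_ev] using h1, by simpa [j2_nrm] using h2⟩

theorem mp_nrm (hall : ∀ x, ∃ Z, HS M.σ (M.q x) Z) {C : Set M.X} (hC : IsCompact C) :
    ∃ K : ℝ, 0 < K ∧ ∀ x ∈ C, ∀ V ∈ M.σ.mp (M.q x), M.nrm V ^ 2 ≤ K * M.σ.h V := by
  have hq : ∀ x y, Module.finrank ℂ (M.q x) = Module.finrank ℂ (M.q y) := fun x y =>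
    (hall x).elim fun _ a => (hall y).elim fun _ b => a.finrank_eq b
  have hβ := M.j2_beta
  have hc : IsClosed {z : M.X × E _ | M.j2e.symm z.2 ∈ M.σ.mp (M.q z.1)} := by
    refine isClosed_of_closure_subset fun z hz U hU => by_contra fun h => ?_
    obtain ⟨η, hη, h1⟩ := Metric.eventually_nhds_iff_ball.1
      ((hβ.continuousAt (x := (z.2, M.j2e U))).eventually_ne (y := 0)
        (by simpa only [LinearEquiv.symm_apply_apply] using h))
    obtain ⟨w, a, ⟨U', b, c⟩, d⟩ := ((mem_closure_iff_frequently.1 hz).and_eventually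
      ((continuous_fst.continuousAt.eventually (M.q_lsc hq hU hη)).and
        (continuous_snd.continuousAt.eventually (ball_mem_nhds z.2 hη)))).exists
    refine h1 (w.2, M.j2e U') ?_ (by simpa only [LinearEquiv.symm_apply_apply] using a U' b)
    rw [← ball_prod_same]
    exact ⟨d, by simpa [j2_nrm, dist_eq_norm] using c⟩
  have hh : Continuous fun z : M.X × E _ => M.σ.h (M.j2e.symm z.2) := by
    simpa only [Conj.h, Alg0_B_comm (M.j2e.symm _), Function.comp_def] using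
      Complex.continuous_re.comp (hβ.comp (continuous_snd.prodMk continuous_snd))
  obtain ⟨m, hm, h1⟩ := ((hC.prod (isCompact_sphere (0 : E _) 1)).inter_right hc).exists_forall_le'
    hh.continuousOn (a := 0) fun z hz => (hall z.1).elim fun _ a => a.h_pos_mp hz.2 fun e => by
      simpa [(map_eq_zero_iff _ M.j2e.symm.injective).1 e] using hz.1.2
  refine ⟨m⁻¹, inv_pos.2 hm, fun x hx V hV => ?_⟩
  rcases eq_or_ne V 0 with rfl | h0
  · simp only [j2_nrm, Conj.h, map_zero, LinearMap.zero_apply, Complex.zero_re]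
    simp
  have h2 : 0 < M.nrm V := norm_pos_iff.2 ((map_ne_zero_iff _ M.j2e.injective).2 h0)
  have h3 := h1 (x, ((M.nrm V : ℂ))⁻¹ • M.j2e V) ⟨⟨hx, by
    simp [norm_smul, ← j2_nrm, h2.ne', abs_of_pos h2]⟩, by simpa using Submodule.smul_mem _ _ hV⟩
  simp only [map_smul, LinearEquiv.symm_apply_apply, Conj.h_smul, norm_inv, Complex.norm_real,
    Real.norm_of_nonneg h2.le, inv_pow] at h3
  rwa [le_inv_mul_iff₀ hm, mul_comm, ← le_inv_mul_iff₀ (pow_pos h2 2)]

end CM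

namespace SD

variable {N n d : ℕ} {M : AM N n} (S : SD M d)

theorem isVF_We (l : Fin d) : M.IsVF (S.We l) := BM.isVF_of_mem_gC (S.W l).2

theorem We_comm (l m : Fin d) : ⁅S.We l, S.We m⁆ = 0 := by
  exact congrArg Subtype.val (S.hs.lie_mp (S.W_mem l) (S.W_mem m))

include S in
theorem j2_mp : Module.finrank ℂ (M.σ.mp (M.q S.p)) = d := by
  have : M.σ.mp (M.q S.p) = Submodule.span ℂ (range S.W) :=
    le_antisymm (fun V hV => (S.W_span V hV).elim fun c e => e ▸ Submodule.sum_mem _ fun l _ =>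
      Submodule.smul_mem _ _ (Submodule.subset_span (mem_range_self l)))
      (Submodule.span_le.2 (range_subset_iff.2 S.W_mem))
  rw [this, finrank_span_eq_card S.W_ind, Fintype.card_fin]

include S in
theorem finrank_q (x : M.X) : Module.finrank ℂ (M.q x) + d = Module.finrank ℂ M.gC := by
  obtain ⟨Z, hZ⟩ := S.all x
  rw [hZ.finrank_eq S.hs, ← Submodule.finrank_add_eq_of_isCompl S.hs.isCompl, S.j2_mp, add_comm]

theorem p_mem : S.p ∈ S.Fs := rfl

theorem isClosed_Fs : IsClosed S.Fs := by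
  have : S.Fs = ⋂ W ∈ M.q S.p, {x | M.ev W.1 x = 0} := by
    ext x
    simp only [mem_iInter]
    exact ⟨fun (h : M.q x = _) W hW => h.ge hW, fun h => (Submodule.eq_of_le_of_finrank_eq h
      (add_right_cancel ((S.finrank_q _).trans (S.finrank_q _).symm))).symm⟩
  rw [this]
  exact isClosed_biInter fun W _ => isClosed_eq (BM.hol_ev _).continuous continuous_const

/-- The conjugated fields are uniformly bounded. -/
theorem AdC_bound : ∃ b : ℝ, ∀ f ∈ S.Fs, ∀ γ : M.Aut, γ • f ∈ M.K → ∀ l,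
    M.nrm (BM.AdC γ (S.W l)) ≤ b := by
  obtain ⟨K, -, hK⟩ := M.mp_nrm S.all M.K_cpt
  refine ⟨∑ l, √(K * M.σ.h (S.W l)), fun f hf γ hγ l => le_trans (Real.le_sqrt_of_sq_le ?_)
    (Finset.single_le_sum (f := fun l => √(K * M.σ.h (S.W l))) (fun _ _ => Real.sqrt_nonneg _)
      (Finset.mem_univ l))⟩
  rw [← M.σ.h_equiv _ (M.AdC_σ γ)]
  exact hK _ hγ _ (M.σ.mp_equiv _ (M.AdC_σ γ) (BM.AdC_mem_q γ f) (hf.symm ▸ S.W_mem l))

theorem ev_bound : ∃ b : ℝ, 0 < b ∧ ∀ f ∈ S.Fs, ∀ l, ‖M.ev (S.We l) f‖ ≤ b := by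
  obtain ⟨b, hb⟩ := S.AdC_bound
  obtain ⟨K, hK, h1⟩ := M.ev_le_nrm M.K_cpt
  obtain ⟨L, hL, h2⟩ := M.df_aut_bound M.K_cpt
  refine ⟨L * (K * max b 1), by positivity, fun f hf l => ?_⟩
  obtain ⟨γ, -, hγ⟩ := M.cover f
  have h3 := (S.isVF_We l).Ad γ
  have h4 := BM.ev_Ad γ⁻¹ h3 (γ • f)
  rw [← BM.Ad_mul, inv_mul_cancel, BM.Ad_one, inv_smul_smul] at h4
  rw [h4]
  refine (h2 _ _ hγ _ (h3 _).1).trans (mul_le_mul_of_nonneg_left
    ((h1 (BM.AdC γ (S.W l)) _ hγ).trans ?_) hL.le)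
  exact mul_le_mul_of_nonneg_left ((hb f hf γ hγ l).trans (le_max_left _ _)) hK.le

theorem Am_bound : ∃ b : ℝ, 1 ≤ b ∧ ∀ f ∈ S.Fs, ∀ k l, ‖S.Am f k l‖ ≤ b := by
  obtain ⟨b, -, hb⟩ := S.ev_bound
  obtain ⟨R, -, hR⟩ := M.exists_bound
  obtain ⟨C, hC⟩ := (isCompact_closedBall (0 : E N) R).exists_bound_of_continuousOn
    ((P278F.differentiableOn_fderiv isOpen_univ M.A.π_diff.differentiableOn).continuousOn.mono
      (subset_univ _))
  refine ⟨max (‖S.B‖ * (C * b)) 1, le_max_right _ _, fun f hf k l => le_max_of_le_left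
    ((norm_le_pi_norm _ k).trans (S.B.le_opNorm_of_le ?_))⟩
  exact ContinuousLinearMap.le_of_opNorm_le_of_le _ (hC _ (mem_closedBall_zero_iff.2 (hR f)))
    (hb f hf l)

end SD

end Vale.Agent.P274
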