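import Vale.Agent.P274.J1
import Vale.Agent.P274.J2

/-! The orbit maps along the fibre, the local slice and the injectivity estimate. -/

open Metric Set Filter Topology

namespace Vale.Agent.P274.SD

variable {N n d : ℕ} {M : AM N n} (S : SD M d)

theorem j3_lin_eb (W : Fin d → M.End) (y : M.X) (l : Fin d) :
    M.lin W y (eb l) = M.ev (W l) y := by
  rw [BM.lin_apply, Finset.sum_eq_single l]
  · simp [eb]
  · intro m _ hm
    simp [eb, Pi.single_eq_of_ne hm]
  · simp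

theorem j3_aut_inj (a : M.Aut) {x : M.X} {v : E N} (hv : v ∈ M.T x)
    (h : M.df (fun y => M.ι (a • y)) x v = 0) : v = 0 := by
  rw [← BM.df_aut_inv a x hv, h, map_zero]

/-- The local form of the orbit maps near a point of the fibre. -/
theorem j3_local : ∃ (ε : ℝ) (C₁ : Set M.X), 0 < ε ∧ IsCompact C₁ ∧ ∀ f ∈ S.Fs, ∀ γ : M.Aut,
    γ • f ∈ M.K → ∃ e : E d × E n → M.X,
      (∀ t ∈ ball (0 : E d) ε, AnalyticAt ℂ (M.ι ∘ e) (t, 0)) ∧
      (∀ t ∈ ball (0 : E d) ε, ∀ u, fderiv ℂ (M.ι ∘ e) (t, 0) (0, u) = 0 → u = 0) ∧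
      (∀ t ∈ ball (0 : E d) ε, e (t, 0) ∈ C₁) ∧
      ∀ᶠ x in 𝓝 f, M.IsOrb S.We ε x (fun t => γ⁻¹ • e (t, M.co (γ • f) (γ • x))) := by
  obtain ⟨C₁, hC₁, horb⟩ := BM.exists_orb (M := M.toBM) d M.K_cpt
  obtain ⟨K₁, hK₁, hev⟩ := M.toCM.ev_le_nrm hC₁
  obtain ⟨b, hb⟩ := S.AdC_bound
  obtain ⟨ε, hε, horb⟩ := horb (K₁ * b)
  refine ⟨ε, C₁, hε, hC₁, fun f hf γ hγ => ?_⟩
  have hVF : ∀ l, M.IsVF (M.Ad γ (S.We l)) := fun l => (S.isVF_We l).Ad γ
  obtain ⟨δ, e, hδ, -, hd, he, hinj⟩ := horb (fun l => M.Ad γ (S.We l)) hVF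
    (fun l m => by
      rw [← BM.Ad_lie, S.We_comm]
      simp [BM.Ad])
    (fun l y hy => (hev (BM.AdC γ (S.W l)) y hy).trans
      (mul_le_mul_of_nonneg_left (hb f hf γ hγ l) hK₁.le)) (γ • f) hγ
  refine ⟨e, fun t ht => ?_, hinj, fun t ht => (he 0 (mem_ball_self hδ)).2 t ht, ?_⟩
  · exact P278F.analyticOnNhd_of_differentiableOn (isOpen_ball.prod isOpen_ball) hd _
      ⟨ht, mem_ball_self hδ⟩
  · have hc : Tendsto (fun x : M.X => γ • x) (𝓝 f) (𝓝 (γ • f)) :=
      (BM.continuous_smul_aut γ).tendsto f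
    have h1 := hc.eventually (M.ψ_co_eventually (γ • f))
    have h2 : ∀ᶠ y in 𝓝 (γ • f), M.co (γ • f) y ∈ ball (0 : E n) δ := by
      refine (M.continuous_co (γ • f)).continuousAt.eventually (isOpen_ball.mem_nhds ?_)
      rw [M.co_self]
      exact mem_ball_self hδ
    filter_upwards [h1, hc.eventually h2] with x hx hx'
    have h3 := ((he _ hx').1).Ad hVF γ⁻¹
    rw [hx.1, inv_smul_smul] at h3
    simp only [← BM.Ad_mul, inv_mul_cancel, BM.Ad_one] at h3
    exact h3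

theorem j3_holAt {H : E d → M.X → M.X} {f : M.X} {t : E d}
    (h : AnalyticAt ℂ (fun z : E d × E n => M.ι (H z.1 (M.ψ f z.2))) (t, 0)) :
    M.HolAt (M.ι ∘ H t) f :=
  AnalyticAt.comp (g := fun z : E d × E n => M.ι (H z.1 (M.ψ f z.2)))
    (f := fun w : E n => (t, w)) h (analyticAt_const.prod analyticAt_id)

theorem exists_HD : ∃ ε H K', S.HD ε H K' := by
  classical
  obtain ⟨ε, C₁, hε, hC₁, hloc⟩ := S.j3_local
  obtain ⟨H, hH⟩ : ∃ H : E d → M.X → M.X, ∀ x c, M.IsOrb S.We ε x c →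
      M.IsOrb S.We ε x (fun t => H t x) := by
    refine ⟨fun t x => if h : ∃ c, M.IsOrb S.We ε x c then h.choose t else x, fun x c hc => ?_⟩
    have h : ∃ c, M.IsOrb S.We ε x c := ⟨c, hc⟩
    simp only [dif_pos h]
    exact h.choose_spec
  have hHe : ∀ x c, M.IsOrb S.We ε x c → ∀ t ∈ ball (0 : E d) ε, H t x = c t :=
    fun x c hc t ht => (hH x c hc).unique S.isVF_We hc ht
  have horb : ∀ f ∈ S.Fs, ∀ᶠ x in 𝓝 f, M.IsOrb S.We ε x (fun t => H t x) := by
    intro f hf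
    obtain ⟨γ, -, hγ⟩ := M.cover f
    obtain ⟨e, -, -, -, h⟩ := hloc f hf γ hγ
    exact h.mono fun x hx => hH x _ hx
  have hco : ∀ (γ : M.Aut) (f : M.X), M.HolAt (fun x => M.co (γ • f) (γ • x)) f := fun γ f =>
    BM.HolAt.comp (f := M.co (γ • f)) (a := fun x => γ • x) (M.hol_co _ _) (M.hol_smul γ f)
  have hhol : ∀ f ∈ S.Fs, ∀ t ∈ ball (0 : E d) ε,
      AnalyticAt ℂ (fun z : E d × E n => M.ι (H z.1 (M.ψ f z.2))) (t, 0) := by
    intro f hf t ht
    obtain ⟨γ, -, hγ⟩ := M.cover f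
    obtain ⟨e, h1, -, -, h⟩ := hloc f hf γ hγ
    have a1 : AnalyticAt ℂ (fun z : E d × E n => M.co (γ • f) (γ • M.ψ f z.2)) (t, 0) :=
      AnalyticAt.comp (g := (fun x => M.co (γ • f) (γ • x)) ∘ M.ψ f) (f := Prod.snd)
        (hco γ f) analyticAt_snd
    have a2 : AnalyticAt ℂ (M.ι ∘ fun z : E d × E n =>
        e (z.1, M.co (γ • f) (γ • M.ψ f z.2))) (t, 0) := by
      refine AnalyticAt.comp_of_eq (g := M.ι ∘ e)
        (f := fun z : E d × E n => (z.1, M.co (γ • f) (γ • M.ψ f z.2))) (h1 t ht)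
        (analyticAt_fst.prod a1) ?_
      simp only [M.ψ_zero, M.co_self]
    have a3 := BM.HolAt.analyticAt_comp (f := fun y => M.ι (γ⁻¹ • y)) (M.hol_smul γ⁻¹ _) a2
    refine a3.congr ?_
    have b1 : Tendsto (fun z : E d × E n => M.ψ f z.2) (𝓝 (t, 0)) (𝓝 f) := by
      have b2 : ContinuousAt (M.ψ f) 0 :=
        (M.continuousOn_ψ f).continuousAt (ball_mem_nhds _ (M.r_pos f))
      have b3 : Tendsto (M.ψ f) (𝓝 0) (𝓝 f) := by
        have := b2.tendsto
        rwa [M.ψ_zero] at this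
      exact b3.comp (continuous_snd.tendsto (t, (0 : E n)))
    have b4 : ∀ᶠ z : E d × E n in 𝓝 (t, 0), z.1 ∈ ball (0 : E d) ε :=
      (continuous_fst.tendsto (t, (0 : E n))).eventually (isOpen_ball.mem_nhds ht)
    filter_upwards [b1.eventually h, b4] with z hz hz'
    simp only [Function.comp_apply]
    rw [hHe _ _ hz z.1 hz']
  refine ⟨ε, H, C₁, hε, hC₁, hhol, horb, fun f hf t ht v hv h0 => ?_,
    fun f hf t ht l => ?_, fun f hf γ _ hγ t ht => ?_⟩
  · obtain ⟨γ, -, hγ⟩ := M.cover f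
    obtain ⟨e, h1, h2, -, h⟩ := hloc f hf γ hγ
    have a0 : AnalyticAt ℂ (fun w : E n => M.ι (e (t, w))) (M.co (γ • f) (γ • f)) := by
      rw [M.co_self]
      exact AnalyticAt.comp (g := M.ι ∘ e) (f := fun w : E n => (t, w)) (h1 t ht)
        (analyticAt_const.prod analyticAt_id)
    have a1 : M.HolAt (M.ι ∘ fun x => e (t, M.co (γ • f) (γ • x))) f :=
      (hco γ f).comp_analytic (g := fun w : E n => M.ι (e (t, w))) a0
    have a2 : M.ι ∘ H t =ᶠ[𝓝 f]
        (fun y => M.ι (γ⁻¹ • y)) ∘ fun x => e (t, M.co (γ • f) (γ • x)) := by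
      filter_upwards [h] with x hx
      simp only [Function.comp_apply]
      rw [hHe _ _ hx t ht]
    rw [BM.df_congr a2, BM.df_comp (M.hol_smul γ⁻¹ _) a1] at h0
    have a3 := j3_aut_inj γ⁻¹ (BM.df_mem_T a1 v) h0
    have a4 := BM.df_ambient (g := fun w : E n => M.ι (e (t, w))) (hco γ f)
      a0.differentiableAt v
    have a5 : HasFDerivAt (fun w : E n => M.ι (e (t, w)))
        ((fderiv ℂ (M.ι ∘ e) (t, 0)).comp (ContinuousLinearMap.inr ℂ (E d) (E n))) 0 :=
      HasFDerivAt.comp (g := M.ι ∘ e) (f := fun w : E n => (t, w)) 0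
        (h1 t ht).differentiableAt.hasFDerivAt (hasFDerivAt_prodMk_right t 0)
    rw [M.co_self, a5.fderiv] at a4
    have a6 := h2 t ht _ (a4.symm.trans a3)
    have a7 := BM.df_comp (f := M.co (γ • f)) (a := fun x => γ • x) (x := f) (M.hol_co _ _)
      (M.hol_smul γ f) v
    have a8 := BM.df_mem_T (a := fun x => γ • x) (x := f) (M.hol_smul γ f) v
    rw [BM.df_co a8] at a7
    exact j3_aut_inj γ hv (BM.L_inj a8 (a7.symm.trans a6))
  · have ho := (horb f hf).self_of_nhds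
    have h00 : H 0 f = f := ho.1
    have d0 := ho.2 0 (mem_ball_self hε)
    have hc : Tendsto (fun s => H s f) (𝓝 0) (𝓝 f) := by
      have : ContinuousAt (fun s => H s f) 0 :=
        (Topology.IsInducing.subtypeVal.continuousAt_iff).2 d0.continuousAt
      have h1 := this.tendsto
      rwa [h00] at h1
    have hs : ∀ᶠ s : E d in 𝓝 0, ‖s‖ < ε - ‖t‖ :=
      continuous_norm.continuousAt.eventually (gt_mem_nhds (by
        simp only [norm_zero]; linarith [mem_ball_zero_iff.1 ht]))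
    have heq : ((M.ι ∘ H t) ∘ fun s => H s f) =ᶠ[𝓝 0]
        fun s => (M.ι ∘ fun s => H s f) (t + s) := by
      filter_upwards [hc.eventually (horb f hf), hs] with s h1 h2
      have h4 : t ∈ ball (0 : E d) (ε - ‖s‖) := mem_ball_zero_iff.2 (by linarith)
      have h3 : H t (H s f) = H (t + s) f :=
        (h1.mono (ε' := ε - ‖s‖) (by linarith [norm_nonneg s])).unique S.isVF_We
          (ho.shift s) h4
      simp only [Function.comp_apply]
      rw [h3]
    have hA : M.HolAt (M.ι ∘ H t) (H 0 f) := by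
      rw [h00]; exact j3_holAt (hhol f hf t ht)
    have d1 := BM.HolAt.hasFDerivAt_comp (h := fun s => H s f) hA d0
    have d2 : HasFDerivAt (fun s => (M.ι ∘ fun s => H s f) (t + s)) (M.lin S.We (H t f)) 0 := by
      rw [hasFDerivAt_comp_add_left, add_zero]
      exact ho.2 t ht
    have d3 := (d1.congr_of_eventuallyEq heq.symm).unique d2
    have d4 := congrArg (fun L : E d →L[ℂ] E N => L (eb l)) d3
    simp only [ContinuousLinearMap.comp_apply, j3_lin_eb, h00] at d4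
    exact d4
  · obtain ⟨e, -, -, h1, h⟩ := hloc f hf γ hγ
    rw [hHe _ _ h.self_of_nhds t ht, smul_inv_smul, M.co_self]
    exact h1 t ht

variable {S} {ε : ℝ} {H : E d → M.X → M.X} {K' : Set M.X}

theorem HD.zero (h : S.HD ε H K') {f : M.X} (hf : f ∈ S.Fs) : H 0 f = f := by
  exact (h.orb f hf).self_of_nhds.1

theorem HD.tendsto (h : S.HD ε H K') {f : M.X} (hf : f ∈ S.Fs) {t : E d}
    (ht : t ∈ ball (0 : E d) ε) {ι : Type*} {l : Filter ι} {ts : ι → E d} {fs : ι → M.X}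
    (h1 : Tendsto ts l (𝓝 t)) (h2 : Tendsto fs l (𝓝 f)) :
    Tendsto (fun j => H (ts j) (fs j)) l (𝓝 (H t f)) := by
  have a1 : ContinuousAt (fun z : E d × E n => H z.1 (M.ψ f z.2)) (t, 0) :=
    (Topology.IsInducing.subtypeVal.continuousAt_iff).2 (h.hol f hf t ht).continuousAt
  have a2 : Tendsto (fun j => M.co f (fs j)) l (𝓝 0) := by
    have := ((M.continuous_co f).tendsto f).comp h2
    rwa [M.co_self] at this
  have a3 := a1.tendsto.comp (h1.prodMk_nhds a2)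
  simp only [M.ψ_zero] at a3
  refine a3.congr' ?_
  filter_upwards [h2.eventually (M.ψ_co_eventually f)] with j hj
  simp only [Function.comp_apply]
  rw [hj.1]

/-- The local holomorphic slice. -/
theorem HD.slice (h : S.HD ε H K') {f : M.X} (hf : f ∈ S.Fs) (hA : (S.Am f).det ≠ 0) {t : E d}
    (ht : t ∈ ball (0 : E d) ε) (hΔ : M.A.Δ (M.A.π (H t f).1) ≠ 0) :
    ∃ (T : E n → E d) (Y : E n → M.X), AnalyticAt ℂ T (M.A.π (H t f).1) ∧
      AnalyticAt ℂ (M.ι ∘ Y) (M.A.π (H t f).1) ∧ T (M.A.π (H t f).1) = t ∧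
      Y (M.A.π (H t f).1) = f ∧
      ∀ᶠ y in 𝓝 (M.A.π (H t f).1), Y y ∈ S.Fs ∧ M.A.π (H (T y) (Y y)).1 = y := by
  have hG := h.hol f hf t ht
  have ho := (h.orb f hf).self_of_nhds
  have hπ : ∀ z, AnalyticAt ℂ M.A.π z := fun z =>
    P278F.analyticOnNhd_of_differentiableOn isOpen_univ M.A.π_diff.differentiableOn z trivial
  have hcf : AnalyticAt ℂ (fun z : E d × E n => S.cf (M.ψ f z.2)) (t, 0) :=
    AnalyticAt.comp (g := S.cf ∘ M.ψ f) (f := Prod.snd) (S.hol_cf f) analyticAt_snd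
  have hΘ : AnalyticAt ℂ (fun z : E d × E n =>
      (M.A.π (M.ι (H z.1 (M.ψ f z.2))), S.cf (M.ψ f z.2))) (t, 0) :=
    (AnalyticAt.comp (g := M.A.π) (hπ _) hG).prod hcf
  have hinj : ∀ v, fderiv ℂ (fun z : E d × E n =>
      (M.A.π (M.ι (H z.1 (M.ψ f z.2))), S.cf (M.ψ f z.2))) (t, 0) v = 0 → v = 0 := by
    rintro ⟨τ, u⟩ h0
    have dG := hG.differentiableAt.hasFDerivAt
    set G' := fderiv ℂ (fun z : E d × E n => M.ι (H z.1 (M.ψ f z.2))) (t, 0) with hG'
    have dc : HasFDerivAt (fun z : E d × E n => S.cf (M.ψ f z.2))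
        ((fderiv ℂ (S.cf ∘ M.ψ f) 0).comp (ContinuousLinearMap.snd ℂ (E d) (E n))) (t, 0) :=
      HasFDerivAt.comp (g := S.cf ∘ M.ψ f) (f := Prod.snd) (t, 0)
        (S.hol_cf f).differentiableAt.hasFDerivAt hasFDerivAt_snd
    have dΘ := (HasFDerivAt.comp (g := M.A.π) (t, 0) (M.A.π_diff _).hasFDerivAt dG).prodMk dc
    have h1 := (congrArg (fun L : E d × E n →L[ℂ] E n × E d => L (τ, u)) dΘ.fderiv).symm.trans h0
    simp only [ContinuousLinearMap.prod_apply, ContinuousLinearMap.comp_apply, Prod.mk_eq_zero,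
      M.ψ_zero, ContinuousLinearMap.coe_snd'] at h1
    obtain ⟨v, hv, rfl⟩ := BM.L_surj f u
    have hT := BM.mem_T_of_hasFDerivAt (M := M.toBM)
      (h := fun z : E d × E n => H z.1 (M.ψ f z.2)) dG (τ, M.L f v)
    simp only [M.ψ_zero] at hT
    have h2 : G' (τ, M.L f v) = 0 := M.dπ_inj hΔ hT h1.1
    have h3 : G' (τ, 0) = M.lin S.We (H t f) τ := by
      have d1 := HasFDerivAt.comp (g := fun z : E d × E n => M.ι (H z.1 (M.ψ f z.2)))
        (f := fun s : E d => (s, (0 : E n))) t dG (hasFDerivAt_prodMk_left t 0)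
      have d2 : HasFDerivAt ((fun z : E d × E n => M.ι (H z.1 (M.ψ f z.2))) ∘
          fun s : E d => (s, (0 : E n))) (M.lin S.We (H t f)) t := by
        have e : ((fun z : E d × E n => M.ι (H z.1 (M.ψ f z.2))) ∘
            fun s : E d => (s, (0 : E n))) = M.ι ∘ fun s => H s f := by
          funext s
          simp only [Function.comp_apply, M.ψ_zero]
        rw [e]
        exact ho.2 t ht
      exact congrArg (fun L : E d →L[ℂ] E N => L τ) (d1.unique d2)
    have h4 : G' (0, M.L f v) = M.df (M.ι ∘ H t) f v := by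
      have d1 := HasFDerivAt.comp (g := fun z : E d × E n => M.ι (H z.1 (M.ψ f z.2)))
        (f := fun w : E n => (t, w)) 0 dG (hasFDerivAt_prodMk_right t 0)
      exact (congrArg (fun L : E n →L[ℂ] E N => L (M.L f v)) d1.fderiv).symm
    have h5 : M.df (M.ι ∘ H t) f (∑ l, τ l • M.ev (S.We l) f + v) = 0 := by
      rw [map_add, map_sum, ← h4, ← h2, ← Prod.fst_add_snd (τ, M.L f v), map_add, h3,
        BM.lin_apply]
      congr 1
      refine Finset.sum_congr rfl fun l _ => ?_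
      rw [map_smul, h.push f hf t ht]
    have h6 := h.inj f hf t ht _ ((M.T f).add_mem ((M.T f).sum_mem fun l _ =>
      (M.T f).smul_mem _ (S.isVF_We l f).1) hv) h5
    have h7 : M.df S.cf f v = 0 := h1.2
    have h8 : (S.Am f).mulVec τ = 0 := by
      funext k
      have h9 := congrArg (fun w => M.df S.cf f w k) h6
      simp only [map_add, map_sum, map_smul, h7, add_zero, map_zero, Finset.sum_apply,
        Pi.smul_apply, S.df_cf hf, smul_eq_mul, Pi.zero_apply] at h9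
      have h10 : -Complex.I * (S.Am f).mulVec τ k = 0 := by
        rw [← h9, Matrix.mulVec, dotProduct, Finset.mul_sum]
        exact Finset.sum_congr rfl fun l _ => by ring
      exact (mul_eq_zero.1 h10).resolve_left (neg_ne_zero.2 Complex.I_ne_zero)
    have h11 : τ = 0 := Matrix.eq_zero_of_mulVec_eq_zero hA h8
    subst h11
    have h12 : v = 0 := by simpa using h6
    rw [h12, map_zero]
    rfl
  obtain ⟨Ψ, hΨ, hl, hr, -⟩ := exists_analytic_inverse
    (by rw [Module.finrank_prod, Module.finrank_prod, add_comm]) hΘ hinj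
  have hl0 := hl.self_of_nhds
  simp only [M.ψ_zero, S.cf_eq_zero hf] at hΨ hr hl0
  have a1 : AnalyticAt ℂ (fun y : E n => Ψ (y, 0)) (M.A.π (H t f).1) :=
    AnalyticAt.comp (g := Ψ) (f := fun y : E n => (y, (0 : E d))) hΨ
      (analyticAt_id.prod analyticAt_const)
  have a2 : AnalyticAt ℂ (M.ι ∘ fun y : E n => M.ψ f (Ψ (y, 0)).2) (M.A.π (H t f).1) :=
    AnalyticAt.comp_of_eq (g := M.ι ∘ M.ψ f) (f := fun y : E n => (Ψ (y, 0)).2) (M.holAt_ι f)
      (analyticAt_snd.comp a1) (by rw [hl0])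
  have a3 : M.ψ f (Ψ (M.A.π (H t f).1, 0)).2 = f := by rw [hl0, M.ψ_zero]
  refine ⟨fun y => (Ψ (y, 0)).1, fun y => M.ψ f (Ψ (y, 0)).2, analyticAt_fst.comp a1, a2,
    congrArg Prod.fst hl0, a3, ?_⟩
  have a4 : Tendsto (fun y : E n => M.ψ f (Ψ (y, 0)).2) (𝓝 (M.A.π (H t f).1)) (𝓝 f) := by
    have : ContinuousAt (fun y : E n => M.ψ f (Ψ (y, 0)).2) (M.A.π (H t f).1) :=
      (Topology.IsInducing.subtypeVal.continuousAt_iff).2 a2.continuousAt
    have h1 := this.tendsto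
    rwa [a3] at h1
  have a5 : ∀ᶠ x in 𝓝 f, (S.Am x).det ≠ 0 :=
    (BM.holAt_det (f := S.Am) fun i j => S.hol_Am i j f).continuousAt.eventually_ne hA
  have a6 : Tendsto (fun y : E n => (y, (0 : E d))) (𝓝 (M.A.π (H t f).1))
      (𝓝 (M.A.π (H t f).1, 0)) := (continuous_id.prodMk continuous_const).tendsto _
  filter_upwards [a4.eventually a5, a6.eventually hr] with y h1 h2
  rw [Prod.mk.injEq] at h2
  exact ⟨S.mem_Fs h1 h2.2, h2.1⟩

theorem j3_adj {b : ℝ} (hb : 1 ≤ b) {A : Matrix (Fin d) (Fin d) ℂ} (hA : ∀ k l, ‖A k l‖ ≤ b)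
    (t : E d) : ‖A.det‖ * ‖t‖ ≤ (d * (d.factorial * b ^ d) + 1) * ‖A.mulVec t‖ := by
  have h1 : ∀ i j, ‖A.adjugate i j‖ ≤ d.factorial * b ^ d := by
    intro i j
    rw [Matrix.adjugate_apply]
    have := Matrix.det_le (A := A.updateRow j (Pi.single i 1))
      (abv := NormedField.toAbsoluteValue ℂ) (x := b) (fun k l => by
        change ‖A.updateRow j (Pi.single i 1) k l‖ ≤ b
        by_cases hk : k = j
        · subst hk
          rw [Matrix.updateRow_self, Pi.single_apply]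
          split_ifs
          · simpa using hb
          · simpa using zero_le_one.trans hb
        · rw [Matrix.updateRow_ne hk]
          exact hA k l)
    rw [Fintype.card_fin, nsmul_eq_mul] at this
    exact this
  have h2 : A.det • t = A.adjugate.mulVec (A.mulVec t) := by
    rw [Matrix.mulVec_mulVec, Matrix.adjugate_mul, Matrix.smul_mulVec, Matrix.one_mulVec]
  have h0 : (0 : ℝ) ≤ d.factorial * b ^ d := by positivity
  rw [← norm_smul, h2]
  refine (pi_norm_le_iff_of_nonneg (by positivity)).2 fun i => ?_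
  rw [Matrix.mulVec, dotProduct]
  refine (norm_sum_le_of_le _ (n := fun _ => d.factorial * b ^ d * ‖A.mulVec t‖)
    fun j _ => ?_).trans ?_
  · rw [norm_mul]
    exact mul_le_mul (h1 i j) (norm_le_pi_norm _ j) (norm_nonneg _) h0
  · rw [Finset.sum_const, Finset.card_univ, Fintype.card_fin, nsmul_eq_mul]
    nlinarith [norm_nonneg (A.mulVec t)]

theorem HD.expand (h : S.HD ε H K') {c₀ : ℝ} (hc : 0 < c₀) : ∃ ε₁ c' : ℝ, 0 < ε₁ ∧ ε₁ < ε ∧
    0 < c' ∧ ∀ f ∈ S.Fs, c₀ ≤ ‖(S.Am f).det‖ → ∀ t : E d, ‖t‖ ≤ ε₁ →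
      c' * ‖t‖ ≤ ‖S.B (M.A.π (H t f).1) - S.B (M.A.π f.1)‖ := by
  obtain ⟨b, hb, hAm⟩ := S.Am_bound
  obtain ⟨R, hR, hbd⟩ := M.exists_bound
  obtain ⟨C, hC⟩ := (isCompact_closedBall (0 : E N) R).exists_bound_of_continuousOn
    (S.B.continuous.comp M.A.π_diff.continuous).continuousOn
  have hC0 : 0 ≤ C := (norm_nonneg _).trans (hC 0 (mem_closedBall_self hR.le))
  have hε := h.pos
  obtain ⟨D, hD, hD0⟩ : ∃ D : ℝ, D = d * (d.factorial * b ^ d) + 1 ∧ 0 < D :=
    ⟨_, rfl, by positivity⟩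
  obtain ⟨K, hK, hK0⟩ : ∃ K : ℝ, K = 4 * C / ε ^ 2 ∧ 0 ≤ K := ⟨_, rfl, by positivity⟩
  have hc' : 0 < c₀ / (2 * D) := by positivity
  refine ⟨min (ε / 2) (c₀ / (2 * D) / (K + 1)), c₀ / (2 * D), by positivity,
    (min_le_left _ _).trans_lt (by linarith), hc', fun f hf hdet t ht => ?_⟩
  have ho := (h.orb f hf).self_of_nhds
  have h00 : H 0 f = f := ho.1
  have hd : ∀ s ∈ ball (0 : E d) ε, HasFDerivAt (fun s => S.B (M.A.π (H s f).1))
      (S.B.comp ((fderiv ℂ M.A.π (H s f).1).comp (M.lin S.We (H s f)))) s := fun s hs =>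
    HasFDerivAt.comp (g := S.B) s S.B.hasFDerivAt
      (HasFDerivAt.comp (g := M.A.π) s (M.A.π_diff _).hasFDerivAt (ho.2 s hs))
  have ht1 : ‖t‖ ≤ ε / 2 := ht.trans (min_le_left _ _)
  have ht2 : ‖t‖ ≤ c₀ / (2 * D) / (K + 1) := ht.trans (min_le_right _ _)
  have h1 := P278F.second_order (f := fun s => S.B (M.A.π (H s f).1)) (c := 0) (z := t) (R := ε)
    (M := C) (fun s hs => (hd s hs).differentiableAt.differentiableWithinAt)
    (fun s _ => hC _ (mem_closedBall_zero_iff.2 (hbd _))) (mem_ball_zero_iff.2 (by linarith))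
  have h2 : fderiv ℂ (fun s => S.B (M.A.π (H s f).1)) 0 t = (S.Am f).mulVec t := by
    rw [(hd 0 (mem_ball_self hε)).fderiv, h00]
    funext k
    simp only [ContinuousLinearMap.comp_apply, BM.lin_apply, map_sum, map_smul, Finset.sum_apply,
      Pi.smul_apply, smul_eq_mul, Matrix.mulVec, dotProduct, Am, Matrix.of_apply]
    exact Finset.sum_congr rfl fun l _ => mul_comm _ _
  simp only [sub_zero, h00, h2] at h1
  rw [← hK] at h1
  have h3 := j3_adj hb (hAm f hf) t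
  rw [← hD] at h3
  have h4 : 2 * (c₀ / (2 * D)) * ‖t‖ ≤ ‖(S.Am f).mulVec t‖ := by
    have e : 2 * (c₀ / (2 * D)) * ‖t‖ = c₀ * ‖t‖ / D := by field_simp
    rw [e, div_le_iff₀ hD0, mul_comm _ D]
    exact (mul_le_mul_of_nonneg_right hdet (norm_nonneg _)).trans h3
  have h5 : K * ‖t‖ ^ 2 ≤ c₀ / (2 * D) * ‖t‖ := by
    rw [le_div_iff₀ (by positivity)] at ht2
    nlinarith [norm_nonneg t]
  have h6 := norm_sub_norm_le ((S.Am f).mulVec t) (S.B (M.A.π (H t f).1) - S.B (M.A.π f.1))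
  rw [norm_sub_rev ((S.Am f).mulVec t)] at h6
  linarith

end Vale.Agent.P274.SD
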