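import Vale.Agent.P274.J3
import Vale.Agent.P274.I13

/-! Escaping sequences on the slice accumulate at the bad set. -/

open Metric Set Filter Topology

namespace Vale.Agent.P274.SD

variable {N n d : ℕ} {M : AM N n} {S : SD M d} {ε : ℝ} {H : E d → M.X → M.X} {K' : Set M.X}

theorem j4_lim {X : Type*} [TopologicalSpace X] (𝒰 : Ultrafilter ℕ) {K : Set X}
    (hK : IsCompact K) {x : ℕ → X} (hx : ∀ j, x j ∈ K) : ∃ k ∈ K, Tendsto x 𝒰 (𝓝 k) :=
  hK.ultrafilter_le_nhds' (𝒰.map x) (Ultrafilter.mem_map.2 (univ_mem' hx))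

theorem HD.escape (h : S.HD ε H K') (i : Fin n) (𝒰 : Ultrafilter ℕ) {fs : ℕ → M.X}
    {ts : ℕ → E d} {c₀ : ℝ} (hc : 0 < c₀) (hf : ∀ j, fs j ∈ S.Fs)
    (ht : ∀ j, ts j ∈ ball (0 : E d) ε) (hA : ∀ j, c₀ ≤ ‖(S.Am (fs j)).det‖) :
    (∃ f, Tendsto fs 𝒰 (𝓝 f)) ∨ ∃ z : E N, Tendsto (fun j => M.ι (H (ts j) (fs j))) 𝒰 (𝓝 z) ∧
      Bad M.A.Δ M.W.ρ i (M.A.π z) := by
  choose γ hγ hK using fun j => M.cover (fs j)
  obtain ⟨k, -, hk⟩ := j4_lim 𝒰 M.K_cpt hK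
  obtain ⟨R, -, hR⟩ := M.exists_bound
  have hol : ∀ᶠ j in (𝒰 : Filter ℕ), M.Hol (fun x => M.ι ((γ j)⁻¹ • x)) :=
    Eventually.of_forall fun j => M.hol_smul _
  have hb : M.LocBdd (𝒰 : Filter ℕ) (fun j x => M.ι ((γ j)⁻¹ • x)) :=
    BM.locBdd_of_bound (C := R) (Eventually.of_forall fun j y => hR _)
  obtain ⟨φ, hφ, hlim⟩ := BM.montel 𝒰 hol hb
  have hfl : Tendsto (fun j => M.ι (fs j)) 𝒰 (𝓝 (φ k)) := by
    have := BM.vitali_moving hol hb hlim hk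
    simpa only [inv_smul_smul] using this
  by_cases hU : ∃ x, φ x ∈ M.U
  · obtain ⟨x, hx⟩ := hU
    have hkU : φ k ∈ M.U := M.taut (a := fun j x => (γ j)⁻¹ • x) hol hlim hx k
    exact Or.inl ⟨⟨φ k, hkU⟩, tendsto_subtype_rng.2 hfl⟩
  push Not at hU
  obtain ⟨k', -, hk'⟩ := j4_lim 𝒰 h.cpt
    (fun j => h.mem (fs j) (hf j) (γ j) (hγ j) (hK j) (ts j) (ht j))
  have hz : Tendsto (fun j => M.ι (H (ts j) (fs j))) 𝒰 (𝓝 (φ k')) := by
    have := BM.vitali_moving hol hb hlim hk'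
    simpa only [inv_smul_smul] using this
  refine Or.inr ⟨φ k', hz, ?_⟩
  by_contra hbad
  obtain ⟨X, hX, hX0, hXφ⟩ := M.flow i 𝒰 (fun j => (γ j)⁻¹) hlim hU ⟨k', hbad⟩
  obtain ⟨b, hbd⟩ := S.AdC_bound
  choose V _ hV using fun l => M.nrm_lim 𝒰 (V := fun j => BM.AdC (γ j) (S.W l))
    (fun j => hbd (fs j) (hf j) (γ j) (hK j) l)
  have hev : ∀ l, Tendsto (fun j => M.ev (S.We l) (fs j)) 𝒰
      (𝓝 (M.df φ k (M.ev (V l).1 k))) := by
    intro l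
    have h1 := BM.vitali_df_moving hol hb hlim hk (hV l _ _ hk)
      (Eventually.of_forall fun j => (((S.isVF_We l).Ad (γ j)) _).1)
    refine h1.congr fun j => ?_
    have h2 := BM.ev_Ad (γ j) (S.isVF_We l) (fs j)
    have h3 := BM.df_aut_inv (γ j) (fs j) (S.isVF_We l (fs j)).1
    rw [← h2] at h3
    exact h3
  have hπ : Continuous (fderiv ℂ M.A.π) := continuousOn_univ.1
    (P278F.analyticOnNhd_of_differentiableOn isOpen_univ
      M.A.π_diff.differentiableOn).fderiv.continuousOn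
  have hAm : Tendsto (fun j => S.Am (fs j)) 𝒰 (𝓝 (Matrix.of fun a l =>
      S.B (fderiv ℂ M.A.π (φ k) (M.df φ k (M.ev (V l).1 k))) a)) := by
    refine tendsto_pi_nhds.2 fun a => tendsto_pi_nhds.2 fun l => ?_
    have h1 := (isBoundedBilinearMap_apply.continuous.tendsto _).comp
      (((hπ.tendsto _).comp hfl).prodMk_nhds (hev l))
    exact tendsto_pi_nhds.1 ((S.B.continuous.tendsto _).comp h1) a
  have hdet := (((continuous_id.matrix_det).tendsto _).comp hAm).norm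
  have h0 := S.det_eq_zero hφ hX hX0 hXφ V k
  have hle := ge_of_tendsto' hdet hA
  rw [id, h0, norm_zero] at hle
  exact hle.not_gt hc

end Vale.Agent.P274.SD
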