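import Vale.Agent.P274.J3

/-! Auxiliary facts for the maximum principle on the slice. -/

open Metric Set Filter Topology

noncomputable section

namespace Vale.Agent.P274

theorem no_local_max {u : ℂ → ℂ} {a : ℂ} (hu : AnalyticAt ℂ u a) (h0 : u a ≠ 0)
    (h : ∀ᶠ s in 𝓝 a, ‖u s‖ * Real.exp (‖s‖ ^ 2) ≤ ‖u a‖ * Real.exp (‖a‖ ^ 2)) : False := by
  set v : ℂ → ℂ := fun s => u s * Complex.exp (2 * s * star a) with hv
  have hn : ∀ s, ‖v s‖ = ‖u s‖ * Real.exp (‖s‖ ^ 2) * Real.exp (‖a‖ ^ 2 - ‖s - a‖ ^ 2) := by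
    intro s
    rw [hv]
    simp only [norm_mul, Complex.norm_exp]
    rw [mul_assoc ‖u s‖, ← Real.exp_add]
    congr 2
    simp only [Complex.sq_norm, Complex.normSq_apply]
    simp
    ring
  have hva : AnalyticAt ℂ v a := hu.mul (by fun_prop)
  have hle : ∀ᶠ s in 𝓝 a, ‖v s‖ ≤ ‖v a‖ * Real.exp (-‖s - a‖ ^ 2) := by
    filter_upwards [h] with s hs
    rw [hn, hn, sub_self, norm_zero, sub_eq_add_neg (‖a‖ ^ 2) (‖s - a‖ ^ 2), Real.exp_add]
    simp only [ne_eq, OfNat.ofNat_ne_zero, not_false_eq_true, zero_pow, sub_zero]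
    have := mul_le_mul_of_nonneg_right hs
      (by positivity : 0 ≤ Real.exp (‖a‖ ^ 2) * Real.exp (-‖s - a‖ ^ 2))
    linarith
  have hmax : IsLocalMax (norm ∘ v) a := by
    filter_upwards [hle] with s hs
    have h1 : Real.exp (-‖s - a‖ ^ 2) ≤ 1 := Real.exp_le_one_iff.2 (by nlinarith [sq_nonneg ‖s - a‖])
    exact hs.trans (mul_le_of_le_one_right (norm_nonneg _) h1)
  have heq := Complex.norm_eventually_eq_of_isLocalMax
    (hva.eventually_analyticAt.mono fun s hs => hs.differentiableAt) hmax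
  have hpos : 0 < ‖v a‖ := norm_pos_iff.2 (mul_ne_zero h0 (Complex.exp_ne_zero _))
  obtain ⟨s, hs, hne⟩ := (((heq.and hle).filter_mono nhdsWithin_le_nhds).and
    (self_mem_nhdsWithin (s := {a}ᶜ))).exists
  have h1 : 0 < ‖s - a‖ := norm_pos_iff.2 (sub_ne_zero.2 hne)
  have h2 : Real.exp (-‖s - a‖ ^ 2) < 1 := Real.exp_lt_one_iff.2 (by nlinarith)
  have h3 := hs.2
  rw [hs.1] at h3
  nlinarith

/-- The square of the Euclidean norm. -/
def N2 {N : ℕ} (z : E N) : ℝ := ∑ m, ‖z m‖ ^ 2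

theorem N2_nonneg {N : ℕ} (z : E N) : 0 ≤ N2 z := Finset.sum_nonneg fun _ _ => sq_nonneg _

theorem N2_le {N : ℕ} {z : E N} {R : ℝ} (h : ‖z‖ ≤ R) : N2 z ≤ N * R ^ 2 := by
  have : ∀ m, ‖z m‖ ^ 2 ≤ R ^ 2 := fun m =>
    pow_le_pow_left₀ (norm_nonneg _) ((norm_le_pi_norm z m).trans h) 2
  calc N2 z ≤ ∑ _m : Fin N, R ^ 2 := Finset.sum_le_sum fun m _ => this m
    _ = N * R ^ 2 := by simp

theorem norm_lt_of_N2 {N : ℕ} {z : E N} {δ : ℝ} (hδ : 0 < δ) (h : N2 z < δ ^ 2) : ‖z‖ < δ := by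
  refine (pi_norm_lt_iff hδ).2 fun m => ?_
  have : ‖z m‖ ^ 2 ≤ N2 z :=
    Finset.single_le_sum (f := fun m => ‖z m‖ ^ 2) (fun _ _ => sq_nonneg _) (Finset.mem_univ m)
  exact lt_of_pow_lt_pow_left₀ 2 hδ.le (this.trans_lt h)

/-- The holomorphic peak factor. -/
def pk {N : ℕ} (a z : E N) : ℂ := Complex.exp (∑ m, 2 * z m * star (a m) - N2 a)

theorem norm_pk {N : ℕ} (a z : E N) : ‖pk a z‖ = Real.exp (N2 z) * Real.exp (-N2 (z - a)) := by
  rw [pk, Complex.norm_exp, ← Real.exp_add]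
  congr 1
  simp only [N2, Complex.sub_re, Complex.re_sum, Complex.ofReal_re]
  rw [← Finset.sum_sub_distrib, ← Finset.sum_neg_distrib, ← Finset.sum_add_distrib]
  refine Finset.sum_congr rfl fun m _ => ?_
  simp only [Complex.sq_norm, Complex.normSq_apply]
  simp
  ring

theorem analyticAt_pk {N : ℕ} (a z : E N) : AnalyticAt ℂ (pk a) z := by
  refine AnalyticAt.cexp (AnalyticAt.sub ?_ analyticAt_const)
  refine Finset.analyticAt_fun_sum _ fun m _ => ?_
  exact (analyticAt_const.mul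
    ((ContinuousLinearMap.proj (R := ℂ) (φ := fun _ : Fin N => ℂ) m).analyticAt z)).mul
      analyticAt_const

theorem analyticAt_entire {k : ℕ} {F : Type*} [NormedAddCommGroup F] [NormedSpace ℂ F]
    [CompleteSpace F] {g : E k → F} (hg : Differentiable ℂ g) (z : E k) : AnalyticAt ℂ g z :=
  P278F.analyticOnNhd_of_differentiableOn isOpen_univ hg.differentiableOn z (mem_univ _)

namespace SD

variable {N n d : ℕ} {M : AM N n} (S : SD M d)

/-- The weight function on the fibre. -/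
def gf (x : M.X) : ℂ := (S.Am x).det * M.A.Δ (M.A.π x.1)

/-- Its modulus times the strictly plurisubharmonic weight. -/
def wt (x : M.X) : ℝ := ‖S.gf x‖ * Real.exp (N2 x.1)

/-- The peaked weight function. -/
def ga (a : E N) (x : M.X) : ℂ := S.gf x * pk a x.1

theorem norm_ga (a : E N) (x : M.X) : ‖S.ga a x‖ = S.wt x * Real.exp (-N2 (x.1 - a)) := by
  rw [ga, norm_mul, norm_pk, wt, mul_assoc]

theorem hol_ga (a : E N) : M.Hol (S.ga a) := fun x => by
  have h1 : M.HolAt (fun y => (S.Am y).det) x := BM.holAt_det fun k l => S.hol_Am k l x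
  have h2 : M.HolAt (fun y : M.X => M.A.Δ (M.A.π y.1)) x :=
    (M.holAt_ι x).comp_analytic (g := fun z => M.A.Δ (M.A.π z))
      (analyticAt_entire (M.A.Δ_diff.comp M.A.π_diff) _)
  have h3 : M.HolAt (fun y : M.X => pk a y.1) x :=
    (M.holAt_ι x).comp_analytic (analyticAt_pk a _)
  exact (h1.mul h2).mul h3

theorem wt_le : ∃ C : ℝ, 0 < C ∧ ∀ x : M.X, S.wt x ≤ ‖(S.Am x).det‖ * C := by
  obtain ⟨R, hR, hb⟩ := M.exists_bound
  obtain ⟨D, hD⟩ := (isCompact_closedBall (0 : E N) R).exists_bound_of_continuousOn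
    (f := fun z => M.A.Δ (M.A.π z)) (M.A.Δ_diff.comp M.A.π_diff).continuous.continuousOn
  refine ⟨(|D| + 1) * Real.exp (N * R ^ 2), by positivity, fun x => ?_⟩
  rw [wt, gf, norm_mul, mul_assoc]
  refine mul_le_mul_of_nonneg_left ?_ (norm_nonneg _)
  have h1 := hD x.1 (mem_closedBall_zero_iff.2 (hb x))
  have h2 : Real.exp (N2 x.1) ≤ Real.exp (N * R ^ 2) := Real.exp_le_exp.2 (N2_le (hb x))
  exact mul_le_mul (by linarith [le_abs_self D]) h2 (Real.exp_pos _).le (by positivity)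

theorem wt_bdd : BddAbove (S.wt '' S.Fs) := by
  obtain ⟨C, hC, h⟩ := S.wt_le
  obtain ⟨b, hb, hA⟩ := S.Am_bound
  refine ⟨(Nat.factorial d * b ^ d) * C, ?_⟩
  rintro _ ⟨f, hf, rfl⟩
  refine (h f).trans (mul_le_mul_of_nonneg_right ?_ hC.le)
  rw [Matrix.det_apply']
  refine (norm_sum_le _ _).trans ?_
  have : ∀ σ : Equiv.Perm (Fin d),
      ‖((Equiv.Perm.sign σ : ℤ) : ℂ) * ∏ i, S.Am f (σ i) i‖ ≤ b ^ d := by
    intro σ
    rw [norm_mul, norm_prod]
    have h1 : ‖((Equiv.Perm.sign σ : ℤ) : ℂ)‖ = 1 := by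
      rcases Int.units_eq_one_or (Equiv.Perm.sign σ) with h | h <;> simp [h]
    rw [h1, one_mul]
    calc ∏ i, ‖S.Am f (σ i) i‖ ≤ ∏ _i : Fin d, b :=
          Finset.prod_le_prod (fun _ _ => norm_nonneg _) fun i _ => hA f hf _ _
      _ = b ^ d := by simp
  calc _ ≤ ∑ _σ : Equiv.Perm (Fin d), b ^ d := Finset.sum_le_sum fun σ _ => this σ
    _ = _ := by simp [Fintype.card_perm]

end SD

end Vale.Agent.P274
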