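import Vale.Agent.P274.J4
import Vale.Agent.P274.J5x

/-! The maximum principle on the slice. -/

open Metric Set Filter Topology

namespace Vale.Agent.P274

namespace SD

variable {N n d : ℕ} {M : AM N n} {S : SD M d} {ε : ℝ} {H : E d → M.X → M.X} {K' : Set M.X}

/-- The maximum cannot be approached. -/
theorem HD.no_sup (h : S.HD ε H K') (i : Fin n) {y' : E n} {a : E N} {ε₁ c₀ Λ B₀ Ψ₀ : ℝ} (m : ℕ)
    (hε₁ : 0 < ε₁) (hε : ε₁ < ε) (hc₀ : 0 < c₀) (hΨ₀ : 0 < Ψ₀) (hB₀ : 0 ≤ B₀)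
    (hfin : {s : ℂ | Bad M.A.Δ M.W.ρ i (y' + s • eb i)}.Finite) (𝒞 : Set (E d × M.X × ℂ))
    (h𝒞 : ∀ x, x ∈ 𝒞 ↔
      ‖x.1‖ ≤ ε₁ ∧ x.2.1 ∈ S.Fs ∧ M.A.π (H x.1 x.2.1).1 = y' + x.2.2 • eb i)
    (Ψ : E d × M.X × ℂ → ℝ)
    (hΨ : ∀ x, Ψ x = ‖S.ga a x.2.1 ^ m * ∏ e ∈ hfin.toFinset, (x.2.2 - e)‖ *
      Real.exp (‖x.2.2‖ ^ 2))
    (hΛ : ∀ x ∈ 𝒞, ‖x.2.2‖ ≤ Λ) (hga : ∀ f ∈ S.Fs, ‖S.ga a f‖ ≤ B₀)
    (hkey : ∀ x ∈ 𝒞, Ψ₀ / 2 ≤ Ψ x → c₀ ≤ ‖(S.Am x.2.1).det‖ ∧ ‖x.1‖ ≤ ε₁ / 2)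
    (hx₀ : ∃ x ∈ 𝒞, Ψ₀ ≤ Ψ x) : False := by
  set R : ℂ → ℂ := fun s => ∏ e ∈ hfin.toFinset, (s - e) with hR
  have hRa : ∀ s, AnalyticAt ℂ R s := fun s =>
    Finset.analyticAt_fun_prod _ fun e _ => analyticAt_id.sub analyticAt_const
  have hRc : Continuous R := continuous_iff_continuousAt.2 fun s => (hRa s).continuousAt
  have hQc : Continuous fun s : ℂ => ‖R s‖ * Real.exp (‖s‖ ^ 2) := by fun_prop
  have hΨle : ∀ x ∈ 𝒞, Ψ x ≤ B₀ ^ m * (‖R x.2.2‖ * Real.exp (‖x.2.2‖ ^ 2)) := by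
    intro x hx
    rw [hΨ, norm_mul, norm_pow, mul_assoc]
    exact mul_le_mul_of_nonneg_right
      (pow_le_pow_left₀ (norm_nonneg _) (hga _ ((h𝒞 x).1 hx).2.1) m) (by positivity)
  obtain ⟨Q, hQ⟩ := (isCompact_closedBall (0 : ℂ) Λ).exists_bound_of_continuousOn hQc.continuousOn
  have hbdd : BddAbove (Ψ '' 𝒞) := by
    refine ⟨B₀ ^ m * Q, ?_⟩
    rintro _ ⟨x, hx, rfl⟩
    refine (hΨle x hx).trans (mul_le_mul_of_nonneg_left ?_ (by positivity))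
    exact (le_abs_self _).trans (hQ _ (mem_closedBall_zero_iff.2 (hΛ x hx)))
  obtain ⟨x₀, hx₀, hx₀'⟩ := hx₀
  have hne : (Ψ '' 𝒞).Nonempty := ⟨_, x₀, hx₀, rfl⟩
  set T₀ := sSup (Ψ '' 𝒞) with hT₀
  have hsup : ∀ x ∈ 𝒞, Ψ x ≤ T₀ := fun x hx => le_csSup hbdd ⟨x, hx, rfl⟩
  have hT₀Ψ : Ψ₀ ≤ T₀ := hx₀'.trans (hsup x₀ hx₀)
  have hseq : ∀ j : ℕ, ∃ x ∈ 𝒞, T₀ - Ψ₀ / 2 * (1 / ((j : ℝ) + 1)) < Ψ x := by
    intro j
    have : T₀ - Ψ₀ / 2 * (1 / ((j : ℝ) + 1)) < T₀ := by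
      have : 0 < Ψ₀ / 2 * (1 / ((j : ℝ) + 1)) := by positivity
      linarith
    obtain ⟨_, ⟨x, hx, rfl⟩, h2⟩ := exists_lt_of_lt_csSup hne this
    exact ⟨x, hx, h2⟩
  choose xs hxs hxs' using hseq
  have hlow : ∀ j, Ψ₀ / 2 ≤ Ψ (xs j) := by
    intro j
    have h1 : 1 / ((j : ℝ) + 1) ≤ 1 := by
      rw [div_le_one (by positivity)]; linarith [(Nat.cast_nonneg j : (0 : ℝ) ≤ j)]
    have := hxs' j
    nlinarith
  set 𝒰 : Ultrafilter ℕ := hyperfilter ℕ with h𝒰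
  have h𝒰le : (𝒰 : Filter ℕ) ≤ atTop := Nat.hyperfilter_le_atTop
  have hΨlim : Tendsto (fun j => Ψ (xs j)) 𝒰 (𝓝 T₀) := by
    refine Tendsto.mono_left ?_ h𝒰le
    have h1 : Tendsto (fun j : ℕ => T₀ - Ψ₀ / 2 * (1 / ((j : ℝ) + 1))) atTop
        (𝓝 (T₀ - Ψ₀ / 2 * 0)) :=
      tendsto_const_nhds.sub (tendsto_one_div_add_atTop_nhds_zero_nat.const_mul _)
    rw [mul_zero, sub_zero] at h1
    exact tendsto_of_tendsto_of_tendsto_of_le_of_le h1 tendsto_const_nhds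
      (fun j => (hxs' j).le) fun j => hsup _ (hxs j)
  obtain ⟨t, ht, htl⟩ := (isCompact_closedBall (0 : E d) (ε₁ / 2)).ultrafilter_le_nhds
    (𝒰.map fun j => (xs j).1) (le_principal_iff.2 (mem_map.2 (Eventually.of_forall fun j =>
      mem_closedBall_zero_iff.2 (hkey _ (hxs j) (hlow j)).2)))
  obtain ⟨s, -, hsl⟩ := (isCompact_closedBall (0 : ℂ) Λ).ultrafilter_le_nhds
    (𝒰.map fun j => (xs j).2.2) (le_principal_iff.2 (mem_map.2 (Eventually.of_forall fun j =>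
      mem_closedBall_zero_iff.2 (hΛ _ (hxs j)))))
  have htl' : Tendsto (fun j => (xs j).1) 𝒰 (𝓝 t) := htl
  have hsl' : Tendsto (fun j => (xs j).2.2) 𝒰 (𝓝 s) := hsl
  rw [mem_closedBall_zero_iff] at ht
  have htε : t ∈ ball (0 : E d) ε := mem_ball_zero_iff.2 (by linarith)
  have hline : Tendsto (fun j => M.A.π (H (xs j).1 (xs j).2.1).1) 𝒰 (𝓝 (y' + s • eb i)) := by
    simp only [fun j => ((h𝒞 _).1 (hxs j)).2.2]
    exact tendsto_const_nhds.add (hsl'.smul_const _)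
  rcases h.escape i 𝒰 (fs := fun j => (xs j).2.1) (ts := fun j => (xs j).1) hc₀
    (fun j => ((h𝒞 _).1 (hxs j)).2.1)
    (fun j => mem_ball_zero_iff.2 (((h𝒞 _).1 (hxs j)).1.trans_lt hε))
    (fun j => (hkey _ (hxs j) (hlow j)).1) with ⟨f, hf⟩ | ⟨z, hz, hbad⟩
  · have hfF : f ∈ S.Fs :=
      S.isClosed_Fs.mem_of_tendsto hf (Eventually.of_forall fun j => ((h𝒞 _).1 (hxs j)).2.1)
    have hH := h.tendsto hfF htε htl' hf
    have hπ : M.A.π (H t f).1 = y' + s • eb i :=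
      tendsto_nhds_unique ((M.A.π_diff.continuous.tendsto _).comp
        ((continuous_subtype_val.tendsto _).comp hH)) hline
    have hgc : Continuous (S.ga a) := (S.hol_ga a).continuous
    have hval : Ψ (t, f, s) = T₀ := by
      refine tendsto_nhds_unique ?_ hΨlim
      simp only [hΨ]
      exact ((((hgc.tendsto f).comp hf).pow m).mul ((hRc.tendsto s).comp hsl')).norm.mul
        ((Real.continuous_exp.tendsto _).comp (hsl'.norm.pow 2))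
    have hdet : c₀ ≤ ‖(S.Am f).det‖ := by
      have hc : Continuous fun y => (S.Am y).det :=
        BM.Hol.continuous fun x => BM.holAt_det fun k l => S.hol_Am k l x
      exact ge_of_tendsto ((hc.tendsto f).comp hf).norm
        (Eventually.of_forall fun j => (hkey _ (hxs j) (hlow j)).1)
    have hu0 : S.ga a f ^ m * R s ≠ 0 := by
      intro h0
      have := hΨ (t, f, s)
      rw [hval] at this
      simp only [] at this
      rw [show (∏ e ∈ hfin.toFinset, (s - e)) = R s from rfl, h0, norm_zero, zero_mul] at this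
      linarith
    have hnb : ¬ Bad M.A.Δ M.W.ρ i (y' + s • eb i) := fun hb =>
      hu0 (by
        rw [show R s = 0 from Finset.prod_eq_zero (hfin.mem_toFinset.2 hb) (sub_self s),
          mul_zero])
    have hΔ : M.A.Δ (M.A.π (H t f).1) ≠ 0 := fun h0 => hnb (Or.inl (hπ ▸ h0))
    obtain ⟨T, Y, hT, hY, hT0, hY0, hev⟩ :=
      h.slice hfF (norm_pos_iff.1 (hc₀.trans_le hdet)) htε hΔ
    rw [hπ] at hT hY hT0 hY0 hev
    have hl : AnalyticAt ℂ (fun s : ℂ => y' + s • eb i) s :=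
      analyticAt_const.add (analyticAt_id.smul analyticAt_const)
    have hYl : AnalyticAt ℂ (M.ι ∘ fun s : ℂ => Y (y' + s • eb i)) s :=
      AnalyticAt.comp (g := M.ι ∘ Y) (f := fun s : ℂ => y' + s • eb i) hY hl
    have hgl : AnalyticAt ℂ (fun s : ℂ => S.ga a (Y (y' + s • eb i))) s :=
      BM.HolAt.analyticAt_comp (h := fun s : ℂ => Y (y' + s • eb i)) (S.hol_ga a _) hYl
    refine no_local_max (u := fun s : ℂ => S.ga a (Y (y' + s • eb i)) ^ m * R s) (a := s)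
      ((hgl.pow m).mul (hRa s)) (by simpa only [hY0] using hu0) ?_
    have hTl : Tendsto (fun s : ℂ => ‖T (y' + s • eb i)‖) (𝓝 s) (𝓝 ‖t‖) := by
      have := (hT.continuousAt.tendsto.comp hl.continuousAt.tendsto).norm
      rwa [hT0] at this
    filter_upwards [hl.continuousAt.tendsto.eventually hev,
      hTl.eventually (ge_mem_nhds (show ‖t‖ < ε₁ by linarith))] with s' h1 h2
    have h3 := hsup (T (y' + s' • eb i), Y (y' + s' • eb i), s') ((h𝒞 _).2 ⟨h2, h1.1, h1.2⟩)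
    rw [← hval, hΨ, hΨ] at h3
    simpa only [hY0] using h3
  · have hπ : M.A.π z = y' + s • eb i :=
      tendsto_nhds_unique ((M.A.π_diff.continuous.tendsto _).comp hz) hline
    rw [hπ] at hbad
    have hR0 : R s = 0 := Finset.prod_eq_zero (hfin.mem_toFinset.2 hbad) (sub_self s)
    have h1 := ((hQc.tendsto s).comp hsl').const_mul (B₀ ^ m)
    rw [hR0, norm_zero, zero_mul, mul_zero] at h1
    have := ge_of_tendsto h1 (Eventually.of_forall fun j => (hlow j).trans (hΨle _ (hxs j)))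
    linarith

variable (S)

theorem contra (i : Fin n) (hB : S.B (eb i) = 0) (hA : (S.Am S.p).det ≠ 0)
    (hΔ : M.A.Δ (M.A.π S.p.1) ≠ 0) : False := by
  obtain ⟨ε, H, K', h⟩ := S.exists_HD
  obtain ⟨R, hR, hRb⟩ := M.exists_bound
  obtain ⟨C, hC, hwC⟩ := S.wt_le
  have hne : (S.wt '' S.Fs).Nonempty := ⟨_, S.p, S.p_mem, rfl⟩
  set s₀ := sSup (S.wt '' S.Fs) with hs₀
  have hsup : ∀ f ∈ S.Fs, S.wt f ≤ s₀ := fun f hf => le_csSup S.wt_bdd ⟨f, hf, rfl⟩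
  have hs₀p : 0 < s₀ := lt_of_lt_of_le
    (mul_pos (norm_pos_iff.2 (mul_ne_zero hA hΔ)) (Real.exp_pos _)) (hsup _ S.p_mem)
  have hc₀ : 0 < s₀ * Real.exp (-2) / C := by positivity
  obtain ⟨ε₁, c', hε₁, hε, hc', hexp⟩ := h.expand hc₀
  have hBπ : Continuous fun z => S.B (M.A.π z) := S.B.continuous.comp M.A.π_diff.continuous
  obtain ⟨δ, hδ, huc⟩ := Metric.uniformContinuousOn_iff.1
    ((isCompact_closedBall (0 : E N) R).uniformContinuousOn_of_continuous hBπ.continuousOn)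
    (c' * ε₁ / 4) (by positivity)
  set η : ℝ := min 1 (δ ^ 2 / 4) with hη
  have hη0 : 0 < η := lt_min one_pos (by positivity)
  have hη1 : η ≤ 1 := min_le_left _ _
  have hη2 : η ≤ δ ^ 2 / 4 := min_le_right _ _
  have hlt : s₀ * Real.exp (-η) < s₀ :=
    mul_lt_of_lt_one_right hs₀p (Real.exp_lt_one_iff.2 (by linarith))
  obtain ⟨_, ⟨f₀, hf₀, rfl⟩, hw₀⟩ := exists_lt_of_lt_csSup hne hlt
  have hg₀ : S.gf f₀ ≠ 0 := by
    intro h0
    rw [wt, h0, norm_zero, zero_mul] at hw₀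
    linarith [mul_pos hs₀p (Real.exp_pos (-η))]
  have hH0 := h.zero hf₀
  obtain ⟨T, Y, hT, hY, hT0, hY0, hev⟩ := h.slice hf₀ (left_ne_zero_of_mul hg₀)
    (mem_ball_self h.pos) (by rw [hH0]; exact right_ne_zero_of_mul hg₀)
  rw [hH0] at hT hY hT0 hY0 hev
  have hYc : ContinuousAt Y (M.A.π f₀.1) :=
    (Topology.IsInducing.subtypeVal.continuousAt_iff).2 hY.continuousAt
  have e1 : ∀ᶠ y in 𝓝 (M.A.π f₀.1), ‖T y‖ ≤ ε₁ := by
    have := hT.continuousAt.tendsto.norm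
    rw [hT0, norm_zero] at this
    exact this.eventually (ge_mem_nhds hε₁)
  have e2 : ∀ᶠ y in 𝓝 (M.A.π f₀.1), s₀ * Real.exp (-η) < ‖S.ga f₀.1 (Y y)‖ := by
    have := (((S.hol_ga f₀.1).continuous.tendsto _).comp hYc.tendsto).norm
    rw [hY0, S.norm_ga, sub_self] at this
    refine this.eventually (lt_mem_nhds ?_)
    simpa [N2] using hw₀
  have e3 : ∀ᶠ y in 𝓝 (M.A.π f₀.1), dist (S.B y) (S.B (M.A.π f₀.1)) < c' * ε₁ / 4 :=
    (S.B.continuous.tendsto _).eventually (ball_mem_nhds _ (by positivity))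
  obtain ⟨O, hO, hOo, hOm⟩ := _root_.eventually_nhds_iff.1 (hev.and (e1.and (e2.and e3)))
  obtain ⟨y', hy', hfin, hnb⟩ := M.W.S3 i O hOo ⟨_, hOm⟩
  obtain ⟨⟨o1, o2⟩, o3, o4, o5⟩ := hO y' hy'
  set Rf : ℂ → ℂ := fun s => ∏ e ∈ hfin.toFinset, (s - e) with hRf
  have hR0 : Rf 0 ≠ 0 := Finset.prod_ne_zero_iff.2 fun e he h0 => hnb (by
    have h1 : e = 0 := (sub_eq_zero.1 h0).symm
    have h2 := hfin.mem_toFinset.1 he
    rwa [h1, mem_ofPred_eq, zero_smul, add_zero] at h2)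
  obtain ⟨P, hP⟩ := (isCompact_closedBall (0 : E N) R).exists_bound_of_continuousOn
    M.A.π_diff.continuous.continuousOn
  have hQc : Continuous fun s : ℂ => ‖Rf s‖ * Real.exp (‖s‖ ^ 2) := by
    have : Continuous Rf := continuous_finsetProd _ fun e _ => continuous_id.sub continuous_const
    fun_prop
  obtain ⟨Q, hQ⟩ := (isCompact_closedBall (0 : ℂ) (P + ‖y'‖)).exists_bound_of_continuousOn
    hQc.continuousOn
  have hΛ : ∀ (x : M.X) (s : ℂ), M.A.π x.1 = y' + s • eb i → ‖s‖ ≤ P + ‖y'‖ := by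
    intro x s hs
    have h1 : s = M.A.π x.1 i - y' i := by rw [hs]; simp [eb]
    rw [h1]
    exact (norm_sub_le _ _).trans (add_le_add
      ((norm_le_pi_norm _ i).trans (hP _ (mem_closedBall_zero_iff.2 (hRb x))))
      (norm_le_pi_norm _ i))
  have hQ0 : 0 < ‖Rf 0‖ := norm_pos_iff.2 hR0
  obtain ⟨m, hm, hm1⟩ : ∃ m : ℕ, Real.exp (-η) ^ m * (|Q| + 1) ≤ ‖Rf 0‖ / 2 ∧ m ≠ 0 := by
    have h1 := (tendsto_pow_atTop_nhds_zero_of_lt_one (Real.exp_pos (-η)).le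
      (Real.exp_lt_one_iff.2 (by linarith))).mul_const (|Q| + 1)
    rw [zero_mul] at h1
    exact ((h1.eventually (ge_mem_nhds (half_pos hQ0))).and (eventually_ne_atTop 0)).exists
  have hga : ∀ f ∈ S.Fs, ‖S.ga f₀.1 f‖ ≤ s₀ := fun f hf => by
    rw [S.norm_ga]
    exact (mul_le_of_le_one_right (mul_nonneg (norm_nonneg _) (Real.exp_pos _).le)
      (Real.exp_le_one_iff.2 (neg_nonpos.2 (N2_nonneg _)))).trans (hsup f hf)
  refine h.no_sup i (a := f₀.1) (Λ := P + ‖y'‖) (B₀ := s₀)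
    (Ψ₀ := (s₀ * Real.exp (-η)) ^ m * ‖Rf 0‖) m hε₁ hε hc₀ (by positivity) hs₀p.le hfin
    {x | ‖x.1‖ ≤ ε₁ ∧ x.2.1 ∈ S.Fs ∧ M.A.π (H x.1 x.2.1).1 = y' + x.2.2 • eb i}
    (fun _ => Iff.rfl) _ (fun _ => rfl) (fun x hx => hΛ _ _ hx.2.2) hga ?_ ?_
  · rintro ⟨t, f, s⟩ ⟨h1, h2, h3⟩ hx
    simp only [] at h1 h2 h3 hx ⊢
    rw [norm_mul, norm_pow, mul_assoc ((‖S.ga f₀.1 f‖) ^ m)] at hx
    have h4 : ‖Rf s‖ * Real.exp (‖s‖ ^ 2) ≤ |Q| + 1 :=
      ((le_abs_self _).trans (hQ _ (mem_closedBall_zero_iff.2 (hΛ _ _ h3)))).trans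
        (by linarith [le_abs_self Q])
    have h5 : (s₀ * Real.exp (-η) * Real.exp (-η)) ^ m ≤ ‖S.ga f₀.1 f‖ ^ m := by
      refine le_of_mul_le_mul_right ?_ (show 0 < |Q| + 1 by positivity)
      calc (s₀ * Real.exp (-η) * Real.exp (-η)) ^ m * (|Q| + 1)
          = (s₀ * Real.exp (-η)) ^ m * (Real.exp (-η) ^ m * (|Q| + 1)) := by
            rw [mul_pow (s₀ * Real.exp (-η))]; ring
        _ ≤ (s₀ * Real.exp (-η)) ^ m * (‖Rf 0‖ / 2) :=
            mul_le_mul_of_nonneg_left hm (by positivity)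
        _ = (s₀ * Real.exp (-η)) ^ m * ‖Rf 0‖ / 2 := by ring
        _ ≤ _ := hx.trans (mul_le_mul_of_nonneg_left h4 (by positivity))
    have h6 : s₀ * Real.exp (-η) * Real.exp (-η) ≤ ‖S.ga f₀.1 f‖ :=
      (pow_le_pow_iff_left₀ (by positivity) (norm_nonneg _) hm1).1 h5
    rw [mul_assoc, ← Real.exp_add, S.norm_ga] at h6
    have hw0 : 0 ≤ S.wt f := mul_nonneg (norm_nonneg _) (Real.exp_pos _).le
    have h7 : N2 (f.1 - f₀.1) ≤ 2 * η := by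
      have h8 := h6.trans (mul_le_mul_of_nonneg_right (hsup f h2) (Real.exp_pos _).le)
      have h9 := Real.exp_le_exp.1 (le_of_mul_le_mul_left h8 hs₀p)
      linarith
    have h10 : s₀ * Real.exp (-2) ≤ S.wt f := by
      refine le_trans (mul_le_mul_of_nonneg_left (Real.exp_le_exp.2 (by linarith)) hs₀p.le)
        (h6.trans (mul_le_of_le_one_right hw0
          (Real.exp_le_one_iff.2 (neg_nonpos.2 (N2_nonneg _)))))
    have h11 : s₀ * Real.exp (-2) / C ≤ ‖(S.Am f).det‖ :=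
      (div_le_iff₀ hC).2 (h10.trans (hwC f))
    refine ⟨h11, ?_⟩
    have h12 := hexp f h2 h11 t h1
    rw [h3, map_add, map_smul, hB, smul_zero, add_zero] at h12
    have h13 : dist (S.B (M.A.π f.1)) (S.B (M.A.π f₀.1)) < c' * ε₁ / 4 :=
      huc _ (mem_closedBall_zero_iff.2 (hRb f)) _ (mem_closedBall_zero_iff.2 (hRb f₀))
        (by rw [dist_eq_norm]; exact norm_lt_of_N2 hδ (by nlinarith))
    have h14 := dist_triangle_right (S.B y') (S.B (M.A.π f.1)) (S.B (M.A.π f₀.1))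
    rw [dist_eq_norm] at h14
    refine le_of_mul_le_mul_left ?_ hc'
    linarith
  · refine ⟨(T y', Y y', 0), ⟨o3, o1, by simpa using o2⟩, ?_⟩
    simp only [norm_mul, norm_pow, norm_zero, ne_eq, OfNat.ofNat_ne_zero, not_false_eq_true,
      zero_pow, Real.exp_zero, mul_one]
    exact mul_le_mul_of_nonneg_right (pow_le_pow_left₀ (by positivity) o4.le m) (norm_nonneg _)

end SD

end Vale.Agent.P274
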