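import Vale.Agent.P274.J5

/-! The orbits are open. -/

open Metric Set Filter Topology

namespace Vale.Agent.P274.AM

variable {N n : ℕ} (M : AM N n)

/-- Evaluation at a point as a linear map. -/
noncomputable def j6ev (p : M.X) : M.gC →ₗ[ℂ] E N where
  toFun W := M.ev W.1 p
  map_add' _ _ := rfl
  map_smul' _ _ := rfl

theorem j6ev_ker (p : M.X) : LinearMap.ker (M.j6ev p) = M.q p := rfl

theorem orbits_open (hall : ∀ x, ∃ Z, HS M.σ (M.q x) Z) (p : M.X) {v : E N} (hv : v ∈ M.T p) :
    ∃ W : M.gC, M.ev W.1 p = v := by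
  by_contra hne
  push Not at hne
  obtain ⟨x₀, hx₀, hΔ⟩ := M.Δ_ne
  let x : M.X := ⟨x₀, hx₀⟩
  obtain ⟨Z, hZ⟩ := hall x
  obtain ⟨Zp, hZp⟩ := hall p
  have hlt : LinearMap.range (M.j6ev p) < M.T p := by
    refine lt_of_le_of_ne ?_ fun h => ?_
    · rintro _ ⟨W, rfl⟩
      exact (BM.isVF_of_mem_gC W.2 p).1
    · obtain ⟨W, hW⟩ := (h ▸ hv : v ∈ LinearMap.range (M.j6ev p))
      exact hne W hW
  have h1 := Submodule.finrank_lt_finrank_of_lt hlt
  have h2 := LinearMap.finrank_range_add_finrank_ker (M.j6ev p)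
  have h3 := Submodule.finrank_add_eq_of_isCompl hZ.isCompl
  have h4 := hZ.finrank_eq hZp
  rw [BM.finrank_T] at h1
  rw [M.j6ev_ker] at h2
  have hd : Module.finrank ℂ (M.σ.mp (M.q x)) < n := by omega
  let b := Module.finBasis ℂ (M.σ.mp (M.q x))
  let L : M.σ.mp (M.q x) →ₗ[ℂ] E n :=
    (fderiv ℂ M.A.π x.1).toLinearMap ∘ₗ M.j6ev x ∘ₗ (M.σ.mp (M.q x)).subtype
  have hL : Function.Injective L := by
    refine (injective_iff_map_eq_zero L).2 fun V hV => Subtype.ext ?_
    have h5 : M.ev V.1.1 x = 0 := M.dπ_inj (x := x) hΔ (BM.isVF_of_mem_gC V.1.2 x).1 hV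
    exact Submodule.disjoint_def.1 hZ.isCompl.disjoint V.1 V.2 h5
  obtain ⟨i, hi⟩ : ∃ i, eb i ∉ LinearMap.range L := by
    by_contra hc
    push Not at hc
    have htop : LinearMap.range L = ⊤ := by
      rw [eq_top_iff, ← (Pi.basisFun ℂ (Fin n)).span_eq, Submodule.span_le]
      rintro _ ⟨i, rfl⟩
      rw [Pi.basisFun_apply]
      exact hc i
    have h6 := LinearMap.finrank_range_le L
    rw [htop, finrank_top, Module.finrank_fin_fun] at h6
    omega
  obtain ⟨g, hg, hgi⟩ := LinearMap.exists_extend_of_notMem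
    (b.equivFun.toLinearMap ∘ₗ (LinearEquiv.ofInjective L hL).symm.toLinearMap) hi 0
  have hgL : ∀ V, g (L V) = b.equivFun V := by
    intro V
    have h7 := LinearMap.congr_fun hg (LinearEquiv.ofInjective L hL V)
    simpa using h7
  let S : SD M (Module.finrank ℂ (M.σ.mp (M.q x))) :=
    { all := hall
      p := x
      Z := Z
      hs := hZ
      W := fun l => (b l).1
      W_mem := fun l => (b l).2
      W_ind := b.linearIndependent.map' (M.σ.mp (M.q x)).subtype (Submodule.ker_subtype _)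
      W_span := fun V hV => ⟨b.repr ⟨V, hV⟩, by
        have h8 := congrArg (M.σ.mp (M.q x)).subtype (b.sum_repr ⟨V, hV⟩)
        simp only [map_sum, map_smul, Submodule.subtype_apply] at h8
        exact h8.symm⟩
      B := LinearMap.toContinuousLinearMap g }
  have hAm : S.Am S.p = 1 := by
    ext k l
    change g (L (b l)) k = _
    rw [hgL, Module.Basis.equivFun_self, Matrix.one_apply]
    simp only [eq_comm]
  refine S.contra i hgi ?_ hΔ
  rw [hAm, Matrix.det_one]
  exact one_ne_zero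

end Vale.Agent.P274.AM
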