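import Vale.Agent.P274.A6
import Vale.Agent.P274.Alg3
import Vale.Agent.P274.D3
import Vale.Agent.P274.Cas
import Vale.Agent.P274.Ext
import Vale.Agent.P274.G3
import Vale.Agent.P274.J6

/-! The main theorem. -/

namespace Vale.Agent.P274

theorem AM.bihol {N n : ℕ} (M : AM N n) : BiholBSD M.U := by
  have hall : ∀ x, ∃ Z, HS M.σ (M.q x) Z := fun x =>
    AlgHyp.exists_HS ⟨fun _ h1 _ h2 => BM.lie_mem_q x h1 h2, M.casimir x,
      fun X h1 h2 => M.isotropy_diag x X h1 h2, M.extHyp x⟩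
  refine M.bihol_of_rot fun p => ?_
  obtain ⟨Z, hZ⟩ := hall p
  exact M.rot_of_HS hZ fun v hv => M.orbits_open hall p hv

theorem main {N : ℕ} (S : Set (MvPolynomial (Fin N) ℂ)) (U : Set (Fin N → ℂ))
    (hopen : ∃ O, IsOpen O ∧ U = {z | ∀ P ∈ S, MvPolynomial.eval z P = 0} ∩ O)
    (hsa : IsSemialg U) (hc : IsConnected U) (hb : Bornology.IsBounded U)
    (Γ : Type*) [Group Γ] [MulAction Γ U]
    (hhol : ∀ γ : Γ, HolMap U (fun x => (γ • x : U).1)) [ProperlyDiscontinuousSMul Γ U]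
    [CompactSpace (Quotient (MulAction.orbitRel Γ U))] : BiholBSD U := by
  obtain ⟨n, M, rfl⟩ := exists_AM S U hopen hsa hc hb Γ hhol
  exact M.bihol

end Vale.Agent.P274
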