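import Mathlib

/-! Definitions used in the statement of the bounded-domain theorem. -/

namespace Vale.Agent.P274

/-- Semialgebraic subsets of `ℂ^N`: finite Boolean combinations of sets `P = 0`, `P > 0`,
`P` a real polynomial in the real and imaginary parts of the coordinates. -/
inductive IsSemialg {N : ℕ} : Set (Fin N → ℂ) → Prop
  | zero (P : MvPolynomial (Fin N ⊕ Fin N) ℝ) : IsSemialg
      {z | MvPolynomial.eval (Sum.elim (fun i => (z i).re) (fun i => (z i).im)) P = 0}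
  | pos (P : MvPolynomial (Fin N ⊕ Fin N) ℝ) : IsSemialg
      {z | 0 < MvPolynomial.eval (Sum.elim (fun i => (z i).re) (fun i => (z i).im)) P}
  | union {A B : Set (Fin N → ℂ)} : IsSemialg A → IsSemialg B → IsSemialg (A ∪ B)
  | inter {A B : Set (Fin N → ℂ)} : IsSemialg A → IsSemialg B → IsSemialg (A ∩ B)
  | compl {A : Set (Fin N → ℂ)} : IsSemialg A → IsSemialg Aᶜ

/-- A map from a subset `S` of `ℂ^N` to `ℂ^k` is holomorphic if near every point of `S` it is
the restriction of a holomorphic map defined on an open subset of `ℂ^N`. -/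
def HolMap {N k : ℕ} (S : Set (Fin N → ℂ)) (f : S → (Fin k → ℂ)) : Prop :=
  ∀ x : S, ∃ W : Set (Fin N → ℂ), IsOpen W ∧ x.1 ∈ W ∧
    ∃ g : (Fin N → ℂ) → (Fin k → ℂ), DifferentiableOn ℂ g W ∧ ∀ y : S, y.1 ∈ W → f y = g y.1

/-- Bounded symmetric domains. -/
def IsBSD {k : ℕ} (D : Set (Fin k → ℂ)) : Prop :=
  IsOpen D ∧ IsConnected D ∧ Bornology.IsBounded D ∧
    ∀ x ∈ D, ∃ s : (Fin k → ℂ) → (Fin k → ℂ), DifferentiableOn ℂ s D ∧ Set.MapsTo s D D ∧
      (∀ y ∈ D, s (s y) = y) ∧ s x = x ∧ ∀ᶠ y in nhdsWithin x {x}ᶜ, s y ≠ y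

/-- `U` is biholomorphic to a bounded symmetric domain. -/
def BiholBSD {N : ℕ} (U : Set (Fin N → ℂ)) : Prop :=
  ∃ (k : ℕ) (D : Set (Fin k → ℂ)), IsBSD D ∧ ∃ e : U ≃ D,
    HolMap U (fun x => (e x).1) ∧ HolMap D (fun y => (e.symm y).1)

end Vale.Agent.P274
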